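import Mathlib.GroupTheory.SpecificGroups.Alternating.Simple
import Mathlib.GroupTheory.SpecificGroups.Alternating.Centralizer
import Mathlib.GroupTheory.Perm.Centralizer
import Mathlib.Tactic

/-!
Automorphisms of the alternating groups: an automorphism of `A_n` mapping a 3-cycle to a 3-cycle is
the conjugation by a permutation (`n ≥ 5`).
-/

namespace Vale.Agent.P240.H195

open Equiv Equiv.Perm Subgroup

section
variable {α : Type*} [DecidableEq α]

/-- the 3-cycle `a → b → c → a` -/
def T (a b c : α) : Perm α := swap a c * swap a b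

lemma T1 {a b c : α} (hab : a ≠ b) (hbc : b ≠ c) : T a b c a = b := by
  simp only [T, Perm.mul_apply, swap_apply_def]; grind

lemma T2 {a b c : α} (hab : a ≠ b) : T a b c b = c := by
  simp only [T, Perm.mul_apply, swap_apply_def]; grind

lemma T3 {a b c : α} (hbc : b ≠ c) (hac : a ≠ c) : T a b c c = a := by
  simp only [T, Perm.mul_apply, swap_apply_def]; grind

lemma T4 {a b c x : α} (h1 : x ≠ a) (h2 : x ≠ b) (h3 : x ≠ c) : T a b c x = x := by
  simp only [T, Perm.mul_apply, swap_apply_def]; grind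

lemma T_rot {a b c : α} (hab : a ≠ b) (hbc : b ≠ c) (hac : a ≠ c) : T a b c = T b c a := by
  ext x
  simp only [T, Perm.mul_apply, swap_apply_def]; grind

lemma T_mul {a x y z : α} (h1 : x ≠ y) (h2 : y ≠ z) (h3 : x ≠ z) (h4 : a ≠ x) (h5 : a ≠ y)
    (h6 : a ≠ z) : T x y z = T a x y * T a y z := by
  ext w
  simp only [T, Perm.mul_apply, swap_apply_def]; grind

lemma T_inv (a b c : α) : (T a b c)⁻¹ = T a c b := by
  rw [T, T, mul_inv_rev, swap_inv, swap_inv]

lemma T_star {a b i j : α} : T a i j = T a b j * (T a b i)⁻¹ := by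
  rw [T_inv, T, T, T, mul_assoc, swap_mul_self_mul]

lemma T_conj (σ : Perm α) (a b c : α) : σ * T a b c * σ⁻¹ = T (σ a) (σ b) (σ c) := by
  rw [T, T, swap_apply_apply, swap_apply_apply]
  group

lemma T_sq {a b c d : α} (hab : a ≠ b) (hac : a ≠ c) (had : a ≠ d) (hbc : b ≠ c) (hbd : b ≠ d)
    (hcd : c ≠ d) : T a b c * T a b d * (T a b c * T a b d) = 1 := by
  ext w
  simp only [T, Perm.mul_apply, swap_apply_def, Perm.one_apply]; grind

variable [Fintype α]

lemma T_three {a b c : α} (hab : a ≠ b) (hbc : b ≠ c) (hac : a ≠ c) : IsThreeCycle (T a b c) :=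
  isThreeCycle_swap_mul_swap_same hac hab hbc.symm

lemma three_eq {g : Perm α} (h : IsThreeCycle g) {a : α} (ha : g a ≠ a) :
    g = T a (g a) (g (g a)) ∧ a ≠ g a ∧ g a ≠ g (g a) ∧ a ≠ g (g a) := by
  have ha' : a ∈ g.support := mem_support.2 ha
  have h1 := h.nodup_iff_mem_support.2 ha'
  have h2 := h.eq_swap_mul_swap_iff_mem_support.2 ha'
  have h3 : a ≠ g a ∧ g a ≠ g (g a) ∧ a ≠ g (g a) := by grind
  refine ⟨?_, h3⟩
  obtain ⟨h4, h5, h6⟩ := h3
  refine h2.trans ?_
  generalize g (g a) = c at *
  generalize g a = b at *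
  ext x
  simp only [T, Perm.mul_apply, swap_apply_def]; grind

lemma three_exists {g : Perm α} (h : IsThreeCycle g) :
    ∃ a b c, a ≠ b ∧ b ≠ c ∧ a ≠ c ∧ g = T a b c := by
  have h1 : g ≠ 1 := h.ne_one
  obtain ⟨a, ha⟩ : ∃ a, g a ≠ a := by
    by_contra hcon
    push Not at hcon
    exact h1 (Perm.ext hcon)
  obtain ⟨h2, h3, h4, h5⟩ := three_eq h ha
  exact ⟨a, g a, g (g a), h3, h4, h5, h2⟩

/-- two 3-cycles whose product has order 2 -/
lemma pair_spec {g h : Perm α} (hg : IsThreeCycle g) (hh : IsThreeCycle h)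
    (h2 : g * h * (g * h) = 1) (h1 : g * h ≠ 1) :
    ∃ a x, g a ≠ a ∧ g x = x ∧ h = T a (g a) x := by
  have h2' : ∀ x, g (h (g (h x))) = x := fun x => by
    have := congrArg (fun f : Perm α => f x) h2
    simpa using this
  have h3' : ∀ x, h (h (h x)) = x := fun x => by
    have h3 : h ^ 3 = 1 := by rw [← hh.orderOf]; exact pow_orderOf_eq_one h
    have := congrArg (fun f : Perm α => f x) h3
    simpa [pow_succ] using this
  have g3' : ∀ x, g (g (g x)) = x := fun x => by
    have h3 : g ^ 3 = 1 := by rw [← hg.orderOf]; exact pow_orderOf_eq_one g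
    have := congrArg (fun f : Perm α => f x) h3
    simpa [pow_succ] using this
  have hx : ∃ x, h x ≠ x ∧ g x = x := by
    by_contra hcon
    push Not at hcon
    obtain ⟨a, b, c, hab, hbc, hac, hT⟩ := three_exists hh
    have hha : h a = b := by rw [hT, T1 hab hbc]
    have hhb : h b = c := by rw [hT, T2 hab]
    have hhc : h c = a := by rw [hT, T3 hbc hac]
    have hh4 : ∀ x, x ≠ a → x ≠ b → x ≠ c → h x = x := fun x h1 h2 h3 => by
      rw [hT, T4 h1 h2 h3]
    have ha := hcon a (by rw [hha]; exact hab.symm)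
    have hb := hcon b (by rw [hhb]; exact hbc.symm)
    have hc := hcon c (by rw [hhc]; exact hac)
    obtain ⟨h3, h4, h5, h6⟩ := three_eq hg ha
    have hfix : ∀ x, x ≠ a → x ≠ g a → x ≠ g (g a) → g x = x := by
      intro x hx1 hx2 hx3
      rw [h3]
      exact T4 hx1 hx2 hx3
    have hb' : b = g a ∨ b = g (g a) := by
      by_contra hcon2
      push Not at hcon2
      exact hb (hfix b hab.symm hcon2.1 hcon2.2)
    have hc' : c = g a ∨ c = g (g a) := by
      by_contra hcon2
      push Not at hcon2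
      exact hc (hfix c hac.symm hcon2.1 hcon2.2)
    rcases hb' with hb' | hb'
    · have hc'' : c = g (g a) := hc'.resolve_left fun h => hbc (hb'.trans h.symm)
      have e1 := h2' a
      have hgb : g b = c := by rw [hb', hc'']
      rw [hha, hgb, hhc] at e1
      exact ha e1
    · have hc'' : c = g a := hc'.resolve_right fun h => hbc (hb'.trans h.symm)
      apply h1
      ext x
      rw [Perm.mul_apply, Perm.one_apply]
      by_cases hxa : x = a
      · rw [hxa, hha, hb', g3']
      by_cases hxb : x = b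
      · rw [hxb, hhb, hc'', hb']
      by_cases hxc : x = c
      · rw [hxc, hhc, hc'']
      · rw [hh4 x hxa hxb hxc]
        exact hfix x hxa (hc'' ▸ hxc) (hb' ▸ hxb)
  obtain ⟨x, hhx, hgx⟩ := hx
  obtain ⟨e1, e2, e3, e4⟩ := three_eq hh hhx
  have key : g (h x) = h (h x) := by
    have h5 := h2' x
    have h6 : h (g (h x)) = x := by
      apply g.injective
      rw [h5, hgx]
    calc g (h x) = h (h (h (g (h x)))) := (h3' _).symm
      _ = h (h x) := by rw [h6]
  refine ⟨h x, x, ?_, hgx, ?_⟩
  · rw [key]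
    exact e3.symm
  · rw [key]
    exact e1.trans (T_rot e2 e3 e4)

end

section
variable {α : Type*} [DecidableEq α] [Fintype α]

/-- the subgroup generated by a star of 3-cycles -/
lemma star_closure {p1 p2 : α} (K : Subgroup (Perm α))
    (h : ∀ i, i ≠ p1 → i ≠ p2 → T p1 p2 i ∈ K) : alternatingGroup α ≤ K := by
  have h1 : ∀ y z, y ≠ p1 → z ≠ p1 → y ≠ z → T p1 y z ∈ K := by
    intro y z hy hz hyz
    by_cases hy2 : y = p2
    · rw [hy2]
      exact h z hz fun h => hyz (hy2.trans h.symm)
    by_cases hz2 : z = p2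
    · rw [hz2, ← T_inv]
      exact inv_mem (h y hy hy2)
    rw [T_star (b := p2)]
    exact mul_mem (h z hz hz2) (inv_mem (h y hy hy2))
  rw [← closure_three_cycles_eq_alternating, closure_le]
  intro g hg
  obtain ⟨x, y, z, hxy, hyz, hxz, rfl⟩ := three_exists hg
  by_cases hx : x = p1
  · rw [hx] at hxy hxz ⊢
    exact h1 y z hxy.symm hxz.symm hyz
  by_cases hy : y = p1
  · rw [T_rot hxy hyz hxz]
    rw [hy] at hyz hxy ⊢
    exact h1 z x hyz.symm hxy hxz.symm
  by_cases hz : z = p1
  · rw [T_rot hxy hyz hxz, T_rot hyz hxz.symm hxy.symm]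
    rw [hz] at hyz hxz ⊢
    exact h1 x y hxz hyz hxy
  rw [T_mul (a := p1) hxy hyz hxz (Ne.symm hx) (Ne.symm hy) (Ne.symm hz)]
  exact mul_mem (h1 x y hx hy hxy) (h1 y z hy hz hyz)

/-- An automorphism of `A_n` preserving the 3-cycles is the conjugation by a permutation. -/
theorem exists_perm (h5 : 5 ≤ Fintype.card α) (φ : MulAut (alternatingGroup α))
    (hφ : ∀ g : alternatingGroup α, IsThreeCycle (g : Perm α) → IsThreeCycle (φ g : Perm α)) :
    ∃ σ : Perm α, φ = MulAut.conjNormal σ := by
  classical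
  obtain ⟨s, hs⟩ : ∃ s : Finset α, s.card = 4 := by
    obtain ⟨s, _, hs⟩ := Finset.exists_subset_card_eq (s := (Finset.univ : Finset α)) (n := 4)
      (by rw [Finset.card_univ]; omega)
    exact ⟨s, hs⟩
  obtain ⟨p1, p2, i0, i1, h12, h10, h11, h20, h21, h01, -⟩ := Finset.card_eq_four.1 hs
  let t : α → alternatingGroup α := fun i =>
    if h : i ≠ p1 ∧ i ≠ p2 then ⟨T p1 p2 i, (T_three h12 h.2.symm h.1.symm).mem_alternatingGroup⟩
    else 1
  have ht : ∀ i, i ≠ p1 → i ≠ p2 → (t i : Perm α) = T p1 p2 i := by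
    intro i h1 h2
    simp only [t, dif_pos (And.intro h1 h2)]
  let G : α → Perm α := fun i => φ (t i)
  have hG : ∀ i, i ≠ p1 → i ≠ p2 → IsThreeCycle (G i) := by
    intro i h1 h2
    refine hφ _ ?_
    rw [ht i h1 h2]
    exact T_three h12 h2.symm h1.symm
  have hpair : ∀ i j, i ≠ p1 → i ≠ p2 → j ≠ p1 → j ≠ p2 → i ≠ j →
      ∃ a x, G i a ≠ a ∧ G i x = x ∧ G j = T a (G i a) x := by
    intro i j hi1 hi2 hj1 hj2 hij
    refine pair_spec (hG i hi1 hi2) (hG j hj1 hj2) ?_ ?_
    · have h1 : t i * t j * (t i * t j) = 1 := by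
        apply Subtype.ext
        simp only [Subgroup.coe_mul, Subgroup.coe_one]
        rw [ht i hi1 hi2, ht j hj1 hj2]
        exact T_sq h12 hi1.symm hj1.symm hi2.symm hj2.symm hij
      have h2 := congrArg (fun x => (φ x : Perm α)) h1
      simpa using h2
    · intro h
      have h1 : φ (t i * t j) = 1 := by
        apply Subtype.ext
        rw [map_mul]
        exact h
      have h2 : t i * t j = 1 := by
        apply φ.injective
        rw [h1, map_one]
      have h3 := congrArg (fun x : alternatingGroup α => (x : Perm α) j) h2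
      simp only [Subgroup.coe_mul, Subgroup.coe_one, Perm.mul_apply, Perm.one_apply] at h3
      rw [ht i hi1 hi2, ht j hj1 hj2, T3 hj2.symm hj1.symm, T1 h12 hi2.symm] at h3
      exact hj2 h3.symm
  obtain ⟨a, d, hga, hgd, hGd⟩ := hpair i0 i1 h10.symm h20.symm h11.symm h21.symm h01
  obtain ⟨hG0, hab, hbc, hac⟩ := three_eq (hG i0 h10.symm h20.symm) hga
  set b := G i0 a with hb
  set c := G i0 b with hc
  have hG0b : G i0 b = c := rfl
  have hG0c : G i0 c = a := by rw [hG0]; exact T3 hbc hac
  have hG04 : ∀ x, x ≠ a → x ≠ b → x ≠ c → G i0 x = x := fun x h1 h2 h3 => by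
    rw [hG0]; exact T4 h1 h2 h3
  have hda : d ≠ a := by
    rintro rfl
    exact hga hgd
  have hdb : d ≠ b := by
    intro h
    rw [h] at hgd
    exact hbc hgd.symm
  have hdc : d ≠ c := by
    intro h
    rw [h, hG0c] at hgd
    exact hac hgd
  have hG1a : G i1 a = b := by rw [hGd]; exact T1 hab hdb.symm
  have hG1b : G i1 b = d := by rw [hGd]; exact T2 hab
  have hG1d : G i1 d = a := by rw [hGd]; exact T3 hdb.symm hda.symm
  have hG14 : ∀ x, x ≠ a → x ≠ b → x ≠ d → G i1 x = x := fun x h1 h2 h3 => by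
    rw [hGd]; exact T4 h1 h2 h3
  have hcommon : ∀ j, j ≠ p1 → j ≠ p2 → ∃ x, x ≠ a ∧ x ≠ b ∧ G j = T a b x := by
    intro j hj1 hj2
    by_cases hj0 : j = i0
    · exact ⟨c, hac.symm, hbc.symm, by rw [hj0]; exact hG0⟩
    by_cases hji : j = i1
    · exact ⟨d, hda, hdb, by rw [hji]; exact hGd⟩
    obtain ⟨a', x, h1, h2, h3⟩ := hpair i0 j h10.symm h20.symm hj1 hj2 (Ne.symm hj0)
    obtain ⟨a'', x'', h1', h2', h3'⟩ := hpair i1 j h11.symm h21.symm hj1 hj2 (Ne.symm hji)
    have hxa : x ≠ a := by
      rintro rfl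
      exact hga h2
    have hxb : x ≠ b := by
      rintro rfl
      exact hbc h2.symm
    have hxc : x ≠ c := by
      intro h
      rw [h, hG0c] at h2
      exact hac h2
    have hya : x'' ≠ a := by
      intro h
      rw [h, hG1a] at h2'
      exact hab h2'.symm
    have hyb : x'' ≠ b := by
      intro h
      rw [h, hG1b] at h2'
      exact hdb h2'
    have hyd : x'' ≠ d := by
      intro h
      rw [h, hG1d] at h2'
      exact hda h2'.symm
    have ha' : a' = a ∨ a' = b ∨ a' = c := by
      by_contra hcon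
      push Not at hcon
      exact h1 (hG04 a' hcon.1 hcon.2.1 hcon.2.2)
    have ha'' : a'' = a ∨ a'' = b ∨ a'' = d := by
      by_contra hcon
      push Not at hcon
      exact h1' (hG14 a'' hcon.1 hcon.2.1 hcon.2.2)
    rcases ha' with h4 | h4 | h4
    · rw [h4] at h3
      exact ⟨x, hxa, hxb, h3⟩
    · exfalso
      rw [h4, hG0b] at h3
      have e1 : G j a = a := by rw [h3]; exact T4 hab hac hxa.symm
      have e2 : G j b = c := by rw [h3]; exact T1 hbc hxc.symm
      rcases ha'' with h5 | h5 | h5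
      · rw [h5, hG1a] at h3'
        have : G j a = b := by rw [h3']; exact T1 hab hyb.symm
        exact hab (e1.symm.trans this)
      · rw [h5, hG1b] at h3'
        have : G j b = d := by rw [h3']; exact T1 hdb.symm hyd.symm
        exact hdc (this.symm.trans e2)
      · rw [h5, hG1d] at h3'
        have : G j a = x'' := by rw [h3']; exact T2 hda
        exact hya (this.symm.trans e1)
    · exfalso
      rw [h4, hG0c] at h3
      have e1 : G j b = b := by rw [h3]; exact T4 hbc hab.symm hxb.symm
      have e2 : G j c = a := by rw [h3]; exact T1 hac.symm hxa.symm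
      have e3 : G j a = x := by rw [h3]; exact T2 hac.symm
      rcases ha'' with h5 | h5 | h5
      · rw [h5, hG1a] at h3'
        have : G j b = x'' := by rw [h3']; exact T2 hab
        exact hyb (this.symm.trans e1)
      · rw [h5, hG1b] at h3'
        have : G j b = d := by rw [h3']; exact T1 hdb.symm hyd.symm
        exact hdb (this.symm.trans e1)
      · rw [h5, hG1d] at h3'
        have h6 : G j a = x'' := by rw [h3']; exact T2 hda
        have h7 : x'' = x := h6.symm.trans e3
        have h8 : G j c = c := by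
          rw [h3', h7]
          exact T4 hdc.symm hac.symm hxc.symm
        exact hac (e2.symm.trans h8)
  choose! f hfa hfb hf using hcommon
  let s0 : α → α := fun i => if i = p1 then a else if i = p2 then b else f i
  have hs1 : s0 p1 = a := by simp [s0]
  have hs2 : s0 p2 = b := by simp [s0, h12.symm]
  have hs3 : ∀ i, i ≠ p1 → i ≠ p2 → s0 i = f i := fun i h1 h2 => by simp [s0, h1, h2]
  have hfinj : ∀ i j, i ≠ p1 → i ≠ p2 → j ≠ p1 → j ≠ p2 → f i = f j → i = j := by
    intro i j hi1 hi2 hj1 hj2 hij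
    have h1 : G i = G j := by rw [hf i hi1 hi2, hf j hj1 hj2, hij]
    have h2 : t i = t j := φ.injective (Subtype.ext h1)
    have h3 : (t i : Perm α) p2 = (t j : Perm α) p2 := by rw [h2]
    rwa [ht i hi1 hi2, ht j hj1 hj2, T2 h12, T2 h12] at h3
  have hinj : Function.Injective s0 := by
    intro i j hij
    by_cases hi1 : i = p1
    · by_cases hj1 : j = p1
      · rw [hi1, hj1]
      by_cases hj2 : j = p2
      · rw [hi1, hj2, hs1, hs2] at hij
        exact absurd hij hab
      · rw [hi1, hs1, hs3 j hj1 hj2] at hij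
        exact absurd hij.symm (hfa j hj1 hj2)
    by_cases hi2 : i = p2
    · by_cases hj1 : j = p1
      · rw [hi2, hj1, hs1, hs2] at hij
        exact absurd hij.symm hab
      by_cases hj2 : j = p2
      · rw [hi2, hj2]
      · rw [hi2, hs2, hs3 j hj1 hj2] at hij
        exact absurd hij.symm (hfb j hj1 hj2)
    by_cases hj1 : j = p1
    · rw [hj1, hs1, hs3 i hi1 hi2] at hij
      exact absurd hij (hfa i hi1 hi2)
    by_cases hj2 : j = p2
    · rw [hj2, hs2, hs3 i hi1 hi2] at hij
      exact absurd hij (hfb i hi1 hi2)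
    rw [hs3 i hi1 hi2, hs3 j hj1 hj2] at hij
    exact hfinj i j hi1 hi2 hj1 hj2 hij
  let σ : Perm α := Equiv.ofBijective s0 (Finite.injective_iff_bijective.1 hinj)
  have hσ : ∀ i, σ i = s0 i := fun i => rfl
  refine ⟨σ, ?_⟩
  let K : Subgroup (alternatingGroup α) :=
    (φ.toMonoidHom).eqLocus (MulAut.conjNormal σ : MulAut (alternatingGroup α)).toMonoidHom
  have hK : ∀ g : alternatingGroup α, g ∈ K ↔ φ g = MulAut.conjNormal σ g := fun g => Iff.rfl
  have hstar := star_closure (p1 := p1) (p2 := p2) (K.map (alternatingGroup α).subtype) ?_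
  · ext1 g
    obtain ⟨g', hg', hgg⟩ := hstar g.2
    have : g' = g := Subtype.ext hgg
    rw [← this]
    exact (hK g').1 hg'
  · intro i h1 h2
    refine ⟨t i, ?_, ht i h1 h2⟩
    change φ (t i) = MulAut.conjNormal σ (t i)
    apply Subtype.ext
    rw [MulAut.conjNormal_apply, ht i h1 h2, T_conj, hσ, hσ, hσ, hs1, hs2, hs3 i h1 h2]
    exact hf i h1 h2

/-- An automorphism of `A_n` mapping some 3-cycle to a 3-cycle is the conjugation by a
permutation. -/
theorem exists_perm' (h5 : 5 ≤ Fintype.card α) (φ : MulAut (alternatingGroup α))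
    (g : alternatingGroup α) (hg : IsThreeCycle (g : Perm α)) (hφ : IsThreeCycle (φ g : Perm α)) :
    ∃ σ : Perm α, φ = MulAut.conjNormal σ := by
  refine exists_perm h5 φ fun h hh => ?_
  have h5' : 5 ≤ Nat.card α := by rwa [Nat.card_eq_fintype_card]
  obtain ⟨x, hx⟩ := isConj_iff.1 (alternatingGroup.isThreeCycle_isConj h5' hg hh)
  rw [← hx, map_mul, map_mul, map_inv]
  have h1 : IsConj (φ g : Perm α) ((φ x * φ g * (φ x)⁻¹ : alternatingGroup α) : Perm α) :=
    isConj_iff.2 ⟨φ x, by simp⟩
  have h2 := isConj_iff_cycleType_eq.1 h1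
  rw [IsThreeCycle, ← h2]
  exact hφ

end

section
variable {α : Type*} [DecidableEq α] [Fintype α]

lemma cent_map (g : alternatingGroup α) :
    Nat.card (centralizer ({g} : Set (alternatingGroup α))) =
      Nat.card (centralizer ({(g : Perm α)} : Set (Perm α)) ⊓ alternatingGroup α :
        Subgroup (Perm α)) := by
  have h : centralizer ({g} : Set (alternatingGroup α)) =
      (centralizer ({(g : Perm α)} : Set (Perm α))).subgroupOf (alternatingGroup α) := by
    ext x
    rw [Subgroup.mem_subgroupOf, mem_centralizer_singleton_iff, mem_centralizer_singleton_iff,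
      Subtype.ext_iff]
    rfl
  rw [h, ← Subgroup.inf_subgroupOf_right, Nat.card_congr
    (Subgroup.subgroupOfEquivOfLe (inf_le_right : centralizer ({(g : Perm α)} : Set (Perm α)) ⊓
      alternatingGroup α ≤ alternatingGroup α)).toEquiv]

lemma cent_le (g : alternatingGroup α) :
    Nat.card (centralizer ({g} : Set (alternatingGroup α))) ≤
      Nat.card (centralizer ({(g : Perm α)} : Set (Perm α))) := by
  rw [cent_map]
  exact Nat.card_mono (Set.toFinite _) inf_le_left

lemma cent_ge [Nontrivial α] (g : alternatingGroup α) :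
    Nat.card (centralizer ({(g : Perm α)} : Set (Perm α))) ≤
      2 * Nat.card (centralizer ({g} : Set (alternatingGroup α))) := by
  rw [cent_map]
  set C := centralizer ({(g : Perm α)} : Set (Perm α)) with hC
  have h1 : Nat.card (C ⊓ alternatingGroup α : Subgroup (Perm α)) *
      (C ⊓ alternatingGroup α).relIndex C = Nat.card C := by
    have h2 := Subgroup.card_mul_index ((C ⊓ alternatingGroup α).subgroupOf C)
    rwa [Nat.card_congr (Subgroup.subgroupOfEquivOfLe
      (inf_le_left : C ⊓ alternatingGroup α ≤ C)).toEquiv] at h2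
  have h3 : (C ⊓ alternatingGroup α).relIndex C ≤ 2 := by
    rw [Subgroup.inf_relIndex_left, ← alternatingGroup.index_eq_two (α := α)]
    exact Nat.le_of_dvd (by rw [alternatingGroup.index_eq_two]; norm_num)
      (Subgroup.relIndex_dvd_index_of_normal _ _)
  calc Nat.card C = Nat.card (C ⊓ alternatingGroup α : Subgroup (Perm α)) *
        (C ⊓ alternatingGroup α).relIndex C := h1.symm
    _ ≤ Nat.card (C ⊓ alternatingGroup α : Subgroup (Perm α)) * 2 := Nat.mul_le_mul_left _ h3
    _ = _ := mul_comm _ _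

lemma cent_aut {A : Type*} [Group A] (φ : MulAut A) (g : A) :
    Nat.card (centralizer ({φ g} : Set A)) = Nat.card (centralizer ({g} : Set A)) := by
  have h : (centralizer ({g} : Set A)).map φ.toMonoidHom = centralizer ({φ g} : Set A) := by
    ext x
    rw [mem_centralizer_singleton_iff]
    constructor
    · rintro ⟨y, hy, rfl⟩
      have hy' := mem_centralizer_singleton_iff.1 hy
      change φ y * φ g = φ g * φ y
      rw [← map_mul, hy', map_mul]
    · intro hx
      refine ⟨φ.symm x, ?_, φ.apply_symm_apply x⟩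
      change φ.symm x ∈ centralizer ({g} : Set A)
      rw [mem_centralizer_singleton_iff]
      apply φ.injective
      rw [map_mul, map_mul]
      rwa [φ.apply_symm_apply]
  rw [← h, Subgroup.card_map_of_injective φ.injective]

lemma fact_ineq (m k : ℕ) (hk : 1 ≤ k) (h : 4 ≤ m + 3 * k) :
    2 * (m.factorial * (3 ^ k * (k + 1).factorial)) < (m + 3 * k).factorial := by
  have hm := Nat.factorial_pos m
  rcases Nat.lt_or_ge k 2 with hk2 | hk2
  · obtain rfl : k = 1 := by omega
    have e : (m + 3 * 1).factorial = (m + 3) * ((m + 2) * ((m + 1) * m.factorial)) := by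
      rw [show m + 3 * 1 = m + 2 + 1 from rfl, Nat.factorial_succ, Nat.factorial_succ,
        Nat.factorial_succ]
    rw [e]
    have h1 : 1 ≤ m := by omega
    have : (1 + 1).factorial = 2 := rfl
    rw [this]
    calc 2 * (m.factorial * (3 ^ 1 * 2)) = 12 * m.factorial := by ring
      _ < 24 * m.factorial := by omega
      _ = 4 * (3 * (2 * m.factorial)) := by ring
      _ ≤ _ := by gcongr <;> omega
  · obtain ⟨j, rfl⟩ : ∃ j, k = j + 2 := ⟨k - 2, by omega⟩
    clear hk hk2 h
    induction j with
    | zero =>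
      have e : (m + 3 * (0 + 2)).factorial = (m + 6) * ((m + 5) * ((m + 4) * ((m + 3) *
          ((m + 2) * ((m + 1) * m.factorial))))) := by
        rw [show m + 3 * (0 + 2) = m + 5 + 1 from rfl]
        simp only [Nat.factorial_succ]
      rw [e]
      have : (0 + 2 + 1).factorial = 6 := rfl
      rw [this]
      calc 2 * (m.factorial * (3 ^ (0 + 2) * 6)) = 108 * m.factorial := by ring
        _ < 720 * m.factorial := by omega
        _ = 6 * (5 * (4 * (3 * (2 * (1 * m.factorial))))) := by ring
        _ ≤ _ := by gcongr <;> omega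
    | succ j ih =>
      have e : (m + 3 * (j + 1 + 2)).factorial = (m + 3 * (j + 2) + 3) * ((m + 3 * (j + 2) + 2) *
          ((m + 3 * (j + 2) + 1) * (m + 3 * (j + 2)).factorial)) := by
        rw [show m + 3 * (j + 1 + 2) = m + 3 * (j + 2) + 2 + 1 by ring]
        simp only [Nat.factorial_succ]
      rw [e, show j + 1 + 2 + 1 = (j + 3) + 1 from rfl, Nat.factorial_succ,
        show j + 1 + 2 = (j + 2) + 1 from rfl, pow_succ]
      calc 2 * (m.factorial * (3 ^ (j + 2) * 3 * ((j + 3 + 1) * (j + 3).factorial)))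
          = 3 * (j + 4) * (2 * (m.factorial * (3 ^ (j + 2) * (j + 2 + 1).factorial))) := by ring
        _ < 3 * (j + 4) * (m + 3 * (j + 2)).factorial := by gcongr
        _ ≤ ((m + 3 * (j + 2) + 3) * (m + 3 * (j + 2) + 2)) * (m + 3 * (j + 2)).factorial := by
            refine Nat.mul_le_mul_right _ ?_
            exact (Nat.mul_le_mul (by omega : 3 ≤ m + 3 * (j + 2) + 3)
              (by omega : j + 4 ≤ m + 3 * (j + 2) + 2))
        _ ≤ (m + 3 * (j + 2) + 3) * ((m + 3 * (j + 2) + 2) *
          ((m + 3 * (j + 2) + 1) * (m + 3 * (j + 2)).factorial)) := by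
            rw [mul_assoc]
            gcongr
            exact Nat.le_mul_of_pos_left _ (by omega)

lemma card_cent (g : Perm α) (k : ℕ) (hg : g.cycleType = Multiset.replicate (k + 1) 3) :
    3 * (k + 1) ≤ Fintype.card α ∧ Nat.card (centralizer ({g} : Set (Perm α))) =
      (Fintype.card α - 3 * (k + 1)).factorial * 3 ^ (k + 1) * (k + 1).factorial := by
  have hsum : g.cycleType.sum = 3 * (k + 1) := by
    rw [hg, Multiset.sum_replicate, smul_eq_mul, mul_comm]
  refine ⟨?_, ?_⟩
  · rw [← hsum, sum_cycleType]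
    exact Finset.card_le_univ _
  · rw [nat_card_centralizer, hsum, hg, Multiset.prod_replicate, Multiset.toFinset_replicate,
      if_neg (Nat.succ_ne_zero k), Finset.prod_singleton, Multiset.count_replicate_self]

/-- For `n ≥ 5`, `n ≠ 6`, all automorphisms of `A_n` are conjugations by permutations. -/
theorem exists_perm_of_ne (h5 : 5 ≤ Fintype.card α) (h6 : Fintype.card α ≠ 6)
    (φ : MulAut (alternatingGroup α)) : ∃ σ : Perm α, φ = MulAut.conjNormal σ := by
  have : Nontrivial α := Fintype.one_lt_card_iff_nontrivial.1 (by omega)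
  refine exists_perm h5 φ fun g hg => ?_
  have hord : orderOf (φ g : Perm α) = 3 := by
    rw [orderOf_coe, MulEquiv.orderOf_eq, ← orderOf_coe, hg.orderOf]
  obtain ⟨k, hk⟩ := cycleType_prime_order (σ := (φ g : Perm α)) (by rw [hord]; norm_num)
  rw [hord] at hk
  rcases Nat.eq_zero_or_pos k with h0 | hpos
  · rw [IsThreeCycle, hk, h0]
    rfl
  exfalso
  obtain ⟨h1, h2⟩ := card_cent (φ g : Perm α) k hk
  obtain ⟨h3, h4⟩ := card_cent (g : Perm α) 0 (by rw [hg.cycleType]; rfl)
  have h5' := cent_ge g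
  have h6' := cent_le (φ g)
  rw [cent_aut] at h6'
  rw [h4] at h5'
  rw [h2] at h6'
  obtain ⟨m, hm⟩ : ∃ m, Fintype.card α = m + 3 * (k + 1) := ⟨_, (Nat.sub_add_cancel h1).symm⟩
  have e1 : Fintype.card α - 3 * (k + 1) = m := by omega
  have e2 : Fintype.card α - 3 * (0 + 1) = m + 3 * k := by omega
  rw [e1] at h6'
  rw [e2] at h5'
  have h7 := fact_ineq m k hpos (by omega)
  have h8 : (m + 3 * k).factorial * 3 ^ (0 + 1) * (0 + 1).factorial ≤
      2 * (m.factorial * 3 ^ (k + 1) * (k + 1).factorial) := h5'.trans (Nat.mul_le_mul_left 2 h6')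
  have h9 : (m + 3 * k).factorial * 3 ≤ 2 * (m.factorial * (3 ^ k * (k + 1).factorial)) * 3 := by
    calc (m + 3 * k).factorial * 3 = (m + 3 * k).factorial * 3 ^ (0 + 1) * (0 + 1).factorial := by
          simp
      _ ≤ _ := h8
      _ = _ := by ring
  omega

end

end Vale.Agent.P240.H195
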