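import Mathlib.GroupTheory.PGroup
import Mathlib.GroupTheory.Perm.Cycle.Factors
import Mathlib.GroupTheory.Subgroup.Centralizer
import Mathlib.Tactic

/-!
Abelian `p`-groups of permutations normalized by long cycles are trivial.
-/

namespace Vale.Agent.P240.H195

open Equiv Equiv.Perm Subgroup

section
variable {α : Type*} [Fintype α] [DecidableEq α] {p : ℕ}

lemma zpow_conj_mem {V : Subgroup (Perm α)} {c : Perm α}
    (hc : c ∈ normalizer (V : Set (Perm α))) (k : ℤ) {v : Perm α} (hv : v ∈ V) :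
    c ^ k * v * (c ^ k)⁻¹ ∈ V :=
  (mem_normalizer_iff.1 (zpow_mem hc k) v).1 hv

/-- a `p`-group normalized by a cycle on an invariant set of order prime to `p` fixes this set -/
lemma fix_of_cycle [hp : Fact p.Prime] {V : Subgroup (Perm α)} (hV : IsPGroup p V) {s : Finset α}
    (hs : ∀ v ∈ V, ∀ x ∈ s, v x ∈ s) (hps : ¬ p ∣ s.card) {c : Perm α}
    (hc : c ∈ normalizer (V : Set (Perm α))) (hcs : c.IsCycleOn s) :
    ∀ v ∈ V, ∀ x ∈ s, v x = x := by
  let act : MulAction V s :=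
    { smul := fun v x => ⟨(v : Perm α) x, hs v v.2 x x.2⟩
      one_smul := fun x => rfl
      mul_smul := fun v w x => rfl }
  obtain ⟨x0, hx0⟩ := hV.nonempty_fixed_point_of_prime_not_dvd_card s
    (by rwa [Nat.card_eq_fintype_card, Fintype.card_coe])
  have h0 : ∀ v ∈ V, v (x0 : α) = x0 := fun v hv => congrArg Subtype.val (hx0 ⟨v, hv⟩)
  intro v hv x hx
  obtain ⟨k, hk⟩ := hcs.2 x0.2 hx
  have h1 : (c ^ k)⁻¹ * v * c ^ k ∈ V := by
    have h2 := zpow_conj_mem hc (-k) hv
    simpa using h2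
  have h2 := h0 _ h1
  rw [Perm.mul_apply, Perm.mul_apply, hk] at h2
  have h3 : v x = (c ^ k) (x0 : α) := by
    rw [← h2]
    simp
  rw [h3, hk]

theorem bot_of_cycle [hp : Fact p.Prime] {V : Subgroup (Perm α)} (hV : IsPGroup p V)
    (hps : ¬ p ∣ Fintype.card α) {c : Perm α}
    (hc : c ∈ normalizer (V : Set (Perm α))) (hcs : c.IsCycleOn (Finset.univ : Finset α)) :
    V = ⊥ := by
  rw [Subgroup.eq_bot_iff_forall]
  intro v hv
  ext x
  exact fix_of_cycle hV (s := Finset.univ) (fun _ _ _ _ => Finset.mem_univ _)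
    (by rwa [Finset.card_univ]) hc hcs v hv x (Finset.mem_univ x)

theorem bot_of_two_cycles [hp : Fact p.Prime] {V : Subgroup (Perm α)} (hV : IsPGroup p V)
    (hab : ∀ x ∈ V, ∀ y ∈ V, x * y = y * x) (hpn : p ∣ Fintype.card α) {l : ℕ} (hl : l.Prime)
    (hlp : l ≠ p) {s : Finset α} (hs : s.card = l) (hs2 : 2 ≤ sᶜ.card) {c1 c2 : Perm α}
    (hc1 : c1 ∈ normalizer (V : Set (Perm α))) (hc2 : c2 ∈ normalizer (V : Set (Perm α)))
    (hcs1 : c1.IsCycleOn (sᶜ : Finset α)) (hcs2 : c2.IsCycleOn s) (hf1 : ∀ x ∈ s, c1 x = x)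
    (hf2 : ∀ x ∉ s, c2 x = x) : V = ⊥ := by
  have hcard : s.card + sᶜ.card = Fintype.card α := Finset.card_add_card_compl s
  have hps : ¬ p ∣ s.card := by
    rw [hs]
    intro h
    exact hlp ((Nat.prime_dvd_prime_iff_eq hp.out hl).1 h).symm
  have hps' : ¬ p ∣ sᶜ.card := by
    intro h
    rw [← hcard] at hpn
    exact hps ((Nat.dvd_add_left h).1 hpn)
  by_cases hinv : ∀ v ∈ V, ∀ x ∈ s, v x ∈ s
  · have hinv' : ∀ v ∈ V, ∀ x ∈ sᶜ, v x ∈ sᶜ := by
      intro v hv x hx
      rw [Finset.mem_compl] at hx ⊢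
      intro h
      apply hx
      have := hinv v⁻¹ (inv_mem hv) _ h
      simpa using this
    rw [Subgroup.eq_bot_iff_forall]
    intro v hv
    ext x
    by_cases hx : x ∈ s
    · exact fix_of_cycle hV hinv hps hc2 hcs2 v hv x hx
    · exact fix_of_cycle hV hinv' hps' hc1 hcs1 v hv x (Finset.mem_compl.2 hx)
  · exfalso
    push Not at hinv
    obtain ⟨v, hv, y, hy, hx⟩ := hinv
    set x := v y with hxdef
    have hx' : x ∈ sᶜ := Finset.mem_compl.2 hx
    have hf1' : ∀ (k : ℤ), ∀ z ∈ s, (c1 ^ k) z = z := fun k z hz =>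
      zpow_apply_eq_self_of_apply_eq_self (hf1 z hz) k
    have hf2' : ∀ (k : ℤ), ∀ z ∉ s, (c2 ^ k) z = z := fun k z hz =>
      zpow_apply_eq_self_of_apply_eq_self (hf2 z hz) k
    -- all points are in the orbit of `y`
    have htrans : ∀ z, ∃ w ∈ V, w y = z := by
      intro z
      by_cases hz : z ∈ s
      · obtain ⟨k, hk⟩ := hcs2.2 hy hz
        refine ⟨c2 ^ k * v⁻¹ * (c2 ^ k)⁻¹ * v, mul_mem (zpow_conj_mem hc2 k (inv_mem hv)) hv, ?_⟩
        have h1 : ((c2 ^ k)⁻¹ : Perm α) x = x := by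
          rw [Perm.inv_eq_iff_eq, hf2' k x hx]
        rw [Perm.mul_apply, ← hxdef, Perm.mul_apply, h1, Perm.mul_apply, hxdef]
        simpa using hk
      · obtain ⟨k, hk⟩ := hcs1.2 hx' (Finset.mem_compl.2 hz)
        refine ⟨c1 ^ k * v * (c1 ^ k)⁻¹, zpow_conj_mem hc1 k hv, ?_⟩
        have h1 : ((c1 ^ k)⁻¹ : Perm α) y = y := by
          rw [Perm.inv_eq_iff_eq, hf1' k y hy]
        rw [Perm.mul_apply, h1, Perm.mul_apply, ← hxdef]
        exact hk
    have hreg : ∀ w ∈ V, w y = y → w = 1 := by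
      intro w hw hwy
      ext z
      obtain ⟨u, hu, rfl⟩ := htrans z
      rw [← Perm.mul_apply, hab w hw u hu, Perm.mul_apply, hwy, Perm.one_apply]
    set C : Subgroup (Perm α) := V ⊓ centralizer {c1} with hC
    have hmemC : ∀ w, w ∈ C ↔ w ∈ V ∧ w * c1 = c1 * w := by
      intro w
      rw [hC, Subgroup.mem_inf, mem_centralizer_singleton_iff]
    have hbij : Nat.card C = s.card := by
      have hmap : ∀ w : C, (w : Perm α) y ∈ s := by
        intro w
        by_contra hwy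
        have h1 := (hmemC w).1 w.2
        have h2 : c1 ((w : Perm α) y) = (w : Perm α) y := by
          rw [← Perm.mul_apply, ← h1.2, Perm.mul_apply, hf1 y hy]
        refine hcs1.apply_ne ?_ (Finset.mem_coe.2 (Finset.mem_compl.2 hwy)) h2
        exact Finset.one_lt_card_iff_nontrivial.1 (by omega)
      let f : C → s := fun w => ⟨(w : Perm α) y, hmap w⟩
      have hf : Function.Bijective f := by
        constructor
        · intro w w' h
          have h1 : (w : Perm α) y = (w' : Perm α) y := congrArg Subtype.val h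
          apply Subtype.ext
          have h2 := hreg ((w' : Perm α)⁻¹ * w)
            (mul_mem (inv_mem ((hmemC _).1 w'.2).1) ((hmemC _).1 w.2).1)
            (by rw [Perm.mul_apply, h1]; simp)
          exact (inv_mul_eq_one.1 h2).symm
        · rintro ⟨z, hz⟩
          obtain ⟨w, hw, hwz⟩ := htrans z
          refine ⟨⟨w, (hmemC w).2 ⟨hw, ?_⟩⟩, Subtype.ext hwz⟩
          have h1 : c1 * w * c1⁻¹ ∈ V := (mem_normalizer_iff.1 hc1 w).1 hw
          have h2 : w⁻¹ * (c1 * w * c1⁻¹) = 1 := by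
            refine hreg _ (mul_mem (inv_mem hw) h1) ?_
            have h3 : (c1⁻¹ : Perm α) y = y := by rw [Perm.inv_eq_iff_eq, hf1 y hy]
            rw [Perm.mul_apply, Perm.mul_apply, h3, Perm.mul_apply, hwz, hf1 z hz, ← hwz]
            simp
          rw [inv_mul_eq_one] at h2
          rw [eq_comm, ← mul_inv_eq_iff_eq_mul]
          exact h2.symm
      rw [Nat.card_eq_of_bijective f hf, Nat.card_eq_fintype_card, Fintype.card_coe]
    have hCp : IsPGroup p C := hV.to_le inf_le_left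
    obtain ⟨k, hk⟩ := IsPGroup.iff_card.1 hCp
    rw [hbij, hs] at hk
    have hk' : l ∣ p ^ k := by rw [hk]
    exact hlp ((Nat.prime_dvd_prime_iff_eq hl hp.out).1 (hl.dvd_of_dvd_pow hk'))

end

end Vale.Agent.P240.H195
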