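import Vale.Agent.P240.H195.Hyper
import Vale.Agent.P240.H195.AltAut
import Vale.Agent.P240.H195.AltFix

/-!
Alternating groups: `AlmostSimpleHQ` for all primes and fields, `FewOuter` (except for `A_6` at the
prime 2) and `AutFree 2 3` for `A_6`.
-/

namespace Vale.Agent.P240.H195

open Equiv Equiv.Perm Subgroup Vale.Agent.P240.K

universe u v

section
variable {α : Type u} [DecidableEq α] [Fintype α]

/-- conjugation of `A_n` by permutations -/
noncomputable abbrev kap (α : Type u) [DecidableEq α] [Fintype α] :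
    Perm α →* MulAut (alternatingGroup α) := MulAut.conjNormal

lemma kap_apply (σ : Perm α) (g : alternatingGroup α) :
    ((kap α σ g : alternatingGroup α) : Perm α) = σ * g * σ⁻¹ := MulAut.conjNormal_apply σ g

lemma kap_coe (x : alternatingGroup α) : kap α (x : Perm α) = MulAut.conj x := by
  ext1 g
  apply Subtype.ext
  rw [kap_apply]
  rfl

lemma kap_injective (h5 : 5 ≤ Fintype.card α) : Function.Injective (kap α) := by
  rw [injective_iff_map_eq_one]
  intro σ hσ
  by_contra hne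
  obtain ⟨x, hx⟩ : ∃ x, σ x ≠ x := by
    by_contra hcon
    push Not at hcon
    exact hne (Perm.ext hcon)
  obtain ⟨b, hb⟩ : ∃ b, b ∉ ({x, σ x} : Finset α) := by
    by_contra hcon
    push Not at hcon
    have h1 := Finset.card_le_card (fun y _ => hcon y : (Finset.univ : Finset α) ⊆ {x, σ x})
    have h2 := Finset.card_le_two (a := x) (b := σ x)
    rw [Finset.card_univ] at h1
    omega
  obtain ⟨c, hc⟩ : ∃ c, c ∉ ({x, σ x, b} : Finset α) := by
    by_contra hcon
    push Not at hcon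
    have h1 := Finset.card_le_card (fun y _ => hcon y : (Finset.univ : Finset α) ⊆ {x, σ x, b})
    have h2 := Finset.card_le_three (a := x) (b := σ x) (c := b)
    rw [Finset.card_univ] at h1
    omega
  simp only [Finset.mem_insert, Finset.mem_singleton, not_or] at hb hc
  have hxb : x ≠ b := Ne.symm hb.1
  have hxc : x ≠ c := Ne.symm hc.1
  have hbc : b ≠ c := Ne.symm hc.2.2
  have h3 := T_three hxb hbc hxc
  have h4 : kap α σ ⟨T x b c, h3.mem_alternatingGroup⟩ = ⟨T x b c, h3.mem_alternatingGroup⟩ := by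
    rw [hσ]
    rfl
  have h5 := congrArg (fun g : alternatingGroup α => (g : Perm α) (σ x)) h4
  simp only [kap_apply, T_conj] at h5
  rw [T1 (fun h => hxb (σ.injective h)) (fun h => hbc (σ.injective h)),
    T4 hx (Ne.symm hb.2) (Ne.symm hc.2.1)] at h5
  exact hxb (σ.injective h5).symm

lemma type_of_six (h6 : Fintype.card α = 6) {g : Perm α} (hg : orderOf g = 3) :
    g.cycleType = {3} ∨ g.cycleType = {3, 3} := by
  obtain ⟨k, hk⟩ := cycleType_prime_order (σ := g) (by rw [hg]; norm_num)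
  rw [hg] at hk
  obtain ⟨h1, -⟩ := card_cent g k hk
  have h2 : k = 0 ∨ k = 1 := by omega
  rcases h2 with rfl | rfl
  · left; rw [hk]; rfl
  · right; rw [hk]; rfl

lemma sq_range (h6 : Fintype.card α = 6) (φ : MulAut (alternatingGroup α)) :
    ∃ σ : Perm α, φ * φ = kap α σ := by
  by_cases hex : ∃ g : alternatingGroup α, IsThreeCycle (g : Perm α) ∧
      IsThreeCycle (φ g : Perm α)
  · obtain ⟨g, h1, h2⟩ := hex
    obtain ⟨σ, rfl⟩ := exists_perm' (by omega) φ g h1 h2
    exact ⟨σ * σ, by rw [map_mul]⟩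
  push Not at hex
  have hord : ∀ (ψ : MulAut (alternatingGroup α)) (g : alternatingGroup α),
      orderOf (ψ g : Perm α) = orderOf (g : Perm α) := fun ψ g => by
    rw [orderOf_coe, MulEquiv.orderOf_eq, ← orderOf_coe]
  have hord2 : ∀ g : Perm α, g.cycleType = {3, 3} → orderOf g = 3 := by
    intro g hg
    rw [← lcm_cycleType, hg]
    rfl
  set S1 : Finset (alternatingGroup α) := {g | (g : Perm α).cycleType = {3}} with hS1
  set S2 : Finset (alternatingGroup α) := {g | (g : Perm α).cycleType = {3, 3}} with hS2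
  have hm1 : ∀ g : alternatingGroup α, g ∈ S1 ↔ (g : Perm α).cycleType = {3} := fun g => by
    simp [hS1]
  have hm2 : ∀ g : alternatingGroup α, g ∈ S2 ↔ (g : Perm α).cycleType = {3, 3} := fun g => by
    simp [hS2]
  have hc1 : S1.card = 40 := by
    rw [hS1, AlternatingGroup.card_of_cycleType, h6]
    decide
  have hc2 : S2.card = 40 := by
    rw [hS2, AlternatingGroup.card_of_cycleType, h6]
    decide
  have hsub : S1.image φ ⊆ S2 := by
    intro x hx
    obtain ⟨g, hg, rfl⟩ := Finset.mem_image.1 hx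
    rw [hm1] at hg
    rw [hm2]
    have h1 : orderOf (φ g : Perm α) = 3 := by
      rw [hord]
      exact IsThreeCycle.orderOf hg
    exact (type_of_six h6 h1).resolve_left (hex g hg)
  have himg : S1.image φ = S2 := by
    refine Finset.eq_of_subset_of_card_le hsub ?_
    rw [Finset.card_image_of_injective _ φ.injective, hc1, hc2]
  obtain ⟨g, hg⟩ : S1.Nonempty := by
    rw [← Finset.card_pos, hc1]
    norm_num
  have h1 : φ g ∈ S2 := hsub (Finset.mem_image_of_mem _ hg)
  have h2 : orderOf (φ (φ g) : Perm α) = 3 := by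
    rw [hord]
    exact hord2 _ ((hm2 _).1 h1)
  have h3 : (φ (φ g) : Perm α).cycleType = {3} := by
    refine (type_of_six h6 h2).resolve_right fun h => ?_
    rw [← hm2, ← himg] at h
    obtain ⟨g', hg', h4⟩ := Finset.mem_image.1 h
    have h5 : g' = φ g := φ.injective h4
    rw [h5, hm1] at hg'
    rw [hm2, hg'] at h1
    exact absurd h1 (by decide)
  exact exists_perm' (by omega) (φ * φ) g ((hm1 g).1 hg) h3

/-- elements of odd order of `Aut(A_n)` are conjugations by permutations -/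
lemma range_of_odd (h5 : 5 ≤ Fintype.card α) {p : ℕ} (hp : Odd p) {φ : MulAut (alternatingGroup α)}
    (hφ : φ ^ p = 1) : ∃ σ : Perm α, φ = kap α σ := by
  by_cases h6 : Fintype.card α = 6
  swap
  · exact exists_perm_of_ne h5 h6 φ
  obtain ⟨k, rfl⟩ := hp
  obtain ⟨σ, hσ⟩ := sq_range h6 φ
  refine ⟨(σ ^ k)⁻¹, ?_⟩
  rw [map_inv, map_pow, ← hσ, ← pow_two, ← pow_mul, eq_inv_iff_mul_eq_one, ← pow_succ', hφ]

lemma inner_of_odd (h5 : 5 ≤ Fintype.card α) {p : ℕ} (hp : Odd p) {φ : MulAut (alternatingGroup α)}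
    (hφ : φ ^ p = 1) : ∃ x : alternatingGroup α, φ = MulAut.conj x := by
  obtain ⟨σ, rfl⟩ := range_of_odd h5 hp hφ
  have h1 : σ ^ p = 1 := by
    apply kap_injective h5
    rw [map_pow, hφ, map_one]
  have h2 : sign σ = 1 := by
    have h3 : sign σ ^ p = 1 := by rw [← map_pow, h1, map_one]
    rcases Int.units_eq_one_or (sign σ) with h | h
    · exact h
    · rw [h, hp.neg_one_pow] at h3
      exact absurd h3 (by decide)
  exact ⟨⟨σ, mem_alternatingGroup.2 h2⟩, kap_coe ⟨σ, mem_alternatingGroup.2 h2⟩⟩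

/-- the cycles used -/
lemma exists_cycles (h5 : 5 ≤ Fintype.card α) {p : ℕ} [hp : Fact p.Prime] :
    ∃ l : ℕ, l.Prime ∧ ∃ c1 c2 : Perm α, c2 ^ l = 1 ∧ c1 * c2 = c2 * c1 ∧
      (∀ V : Subgroup (Perm α), IsPGroup p V → (∀ x ∈ V, ∀ y ∈ V, x * y = y * x) →
        c1 ∈ normalizer (V : Set (Perm α)) → c2 ∈ normalizer (V : Set (Perm α)) → V = ⊥) := by
  by_cases hpn : p ∣ Fintype.card α
  swap
  · obtain ⟨c, hc, _⟩ := Finset.exists_cycleOn (Finset.univ : Finset α)
    exact ⟨2, Nat.prime_two, c, 1, one_pow 2, by rw [mul_one, one_mul],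
      fun V hV _ h1 _ => bot_of_cycle hV hpn h1 hc⟩
  have key : ∀ l : ℕ, l.Prime → l ≠ p → l + 2 ≤ Fintype.card α → ∃ l : ℕ, l.Prime ∧
      ∃ c1 c2 : Perm α, c2 ^ l = 1 ∧ c1 * c2 = c2 * c1 ∧
      (∀ V : Subgroup (Perm α), IsPGroup p V → (∀ x ∈ V, ∀ y ∈ V, x * y = y * x) →
        c1 ∈ normalizer (V : Set (Perm α)) → c2 ∈ normalizer (V : Set (Perm α)) → V = ⊥) := by
    intro l hl hlp hln
    obtain ⟨s, _, hs⟩ := Finset.exists_subset_card_eq (s := (Finset.univ : Finset α)) (n := l)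
      (by rw [Finset.card_univ]; omega)
    obtain ⟨c1, hc1, hs1⟩ := Finset.exists_cycleOn (sᶜ : Finset α)
    obtain ⟨c2, hc2, hs2⟩ := Finset.exists_cycleOn s
    have hf1 : ∀ x ∈ s, c1 x = x := by
      intro x hx
      by_contra h
      exact (Finset.mem_compl.1 (hs1 (mem_support.2 h))) hx
    have hf2 : ∀ x ∉ s, c2 x = x := by
      intro x hx
      by_contra h
      exact hx (hs2 (mem_support.2 h))
    refine ⟨l, hl, c1, c2, ?_, ?_, fun V hV hab h1 h2 =>
      bot_of_two_cycles hV hab hpn hl hlp hs ?_ h1 h2 hc1 hc2 hf1 hf2⟩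
    · ext x
      by_cases hx : x ∈ s
      · have := hc2.pow_card_apply hx
        rwa [hs] at this
      · rw [Perm.one_apply]
        exact pow_apply_eq_self_of_apply_eq_self (hf2 x hx) l
    · have : c1.Disjoint c2 := by
        intro x
        by_cases hx : x ∈ s
        · exact Or.inl (hf1 x hx)
        · exact Or.inr (hf2 x hx)
      exact this.commute
    · have := Finset.card_add_card_compl s
      omega
  by_cases hp2 : p = 2
  · refine key 3 Nat.prime_three (by omega) ?_
    subst hp2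
    obtain ⟨m, hm⟩ := hpn
    omega
  · exact key 2 Nat.prime_two (Ne.symm hp2) (by omega)

/-- the preimage of `E` in the symmetric group -/
lemma bot_of_norm (h5 : 5 ≤ Fintype.card α) {p : ℕ} [hp : Fact p.Prime]
    {E : Subgroup (MulAut (alternatingGroup α))} (hE : ElemAb p E)
    (hr : ∀ e ∈ E, ∃ σ : Perm α, e = kap α σ) {c1 c2 : Perm α}
    (hc : ∀ V : Subgroup (Perm α), IsPGroup p V → (∀ x ∈ V, ∀ y ∈ V, x * y = y * x) →
        c1 ∈ normalizer (V : Set (Perm α)) → c2 ∈ normalizer (V : Set (Perm α)) → V = ⊥)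
    (h1 : kap α c1 ∈ normalizer (E : Set (MulAut (alternatingGroup α))))
    (h2 : kap α c2 ∈ normalizer (E : Set (MulAut (alternatingGroup α)))) : False := by
  have hnorm : ∀ c : Perm α, kap α c ∈ normalizer (E : Set (MulAut (alternatingGroup α))) →
      c ∈ normalizer ((E.comap (kap α) : Subgroup (Perm α)) : Set (Perm α)) := by
    intro c hc
    rw [mem_normalizer_iff] at hc ⊢
    intro v
    rw [mem_comap, mem_comap, map_mul, map_mul, map_inv]
    exact hc (kap α v)
  have hV := hc (E.comap (kap α)) ?_ ?_ (hnorm c1 h1) (hnorm c2 h2)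
  · apply hE.1
    rw [Subgroup.eq_bot_iff_forall]
    intro e he
    obtain ⟨σ, rfl⟩ := hr e he
    have h3 : σ ∈ E.comap (kap α) := he
    rw [hV, Subgroup.mem_bot] at h3
    rw [h3, map_one]
  · rintro ⟨v, hv⟩
    refine ⟨1, Subtype.ext ?_⟩
    rw [pow_one]
    apply kap_injective h5
    change kap α (v ^ p) = kap α 1
    rw [map_pow, map_one]
    exact hE.2.2 _ hv
  · intro x hx y hy
    apply kap_injective h5
    rw [map_mul, map_mul]
    exact hE.2.1 _ hx _ hy

theorem na_case {𝕜 : Type v} [Field 𝕜] (h5 : 5 ≤ Fintype.card α) {p : ℕ} [Fact p.Prime]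
    {A : Subgroup (MulAut (alternatingGroup α))} (hA : ∀ x, MulAut.conj x ∈ A)
    (hr : ∀ E ∈ Ain p A, ∀ e ∈ E, ∃ σ : Perm α, e = kap α σ) : NA 𝕜 (Ain p A) := by
  obtain ⟨l, hl, c1, c2, hc2, hcomm, hc⟩ := exists_cycles (α := α) h5 (p := p)
  have : Fact l.Prime := ⟨hl⟩
  have hstab : ∀ σ : Perm α, ∀ E ∈ Ain p A, cj (kap α σ) E ∈ Ain p A := by
    intro σ E hE
    refine ⟨cj_mem_ApS.2 hE.1, ?_⟩
    rintro _ ⟨e, he, rfl⟩
    obtain ⟨τ, rfl⟩ := hr E hE e he
    have h1 : kap α (τ⁻¹ * σ * τ * σ⁻¹) ∈ A := by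
      have h2 : sign (τ⁻¹ * σ * τ * σ⁻¹) = 1 := by
        simp only [map_mul, map_inv]
        rw [mul_right_comm (sign τ)⁻¹, inv_mul_cancel, one_mul, mul_inv_cancel]
      have h3 := hA ⟨_, mem_alternatingGroup.2 h2⟩
      rwa [← kap_coe] at h3
    have h4 := mul_mem (hE.2 he) h1
    rw [← map_mul] at h4
    have h5 : τ * (τ⁻¹ * σ * τ * σ⁻¹) = σ * τ * σ⁻¹ := by group
    rw [h5, map_mul, map_mul, map_inv] at h4
    exact h4
  refine na_of_hyper (l := l) (kap α c1) (zpowers (kap α c2)) ?_ (hstab c1) ?_ ?_ ?_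
  · have h1 : (kap α c2) ^ l = 1 := by rw [← map_pow, hc2, map_one]
    rintro ⟨x, k, rfl⟩
    refine ⟨1, Subtype.ext ?_⟩
    change ((kap α c2) ^ k) ^ (l ^ 1) = 1
    rw [pow_one, ← zpow_natCast, zpow_comm, zpow_natCast, h1, one_zpow]
  · rintro _ ⟨k, rfl⟩ E hE
    change cj (kap α c2 ^ k) E ∈ _
    rw [← map_zpow]
    exact hstab _ E hE
  · rintro _ ⟨k, rfl⟩
    change (kap α c2 ^ k)⁻¹ * kap α c1 * kap α c2 ^ k ∈ _
    have h1 : Commute (kap α c1) (kap α c2 ^ k) := by
      refine Commute.zpow_right ?_ k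
      change kap α c1 * kap α c2 = kap α c2 * kap α c1
      rw [← map_mul, hcomm, map_mul]
    rw [mul_assoc, h1.eq, inv_mul_cancel_left]
    exact mem_zpowers _
  · intro E hE h1 h2
    exact bot_of_norm h5 hE.1 (hr E hE) hc h1 (h2 (mem_zpowers _))

lemma cycle_three {c : Perm α} {s : Finset α} (hs : s.card = 3) (hc : c.IsCycleOn s)
    (hf : ∀ x ∉ s, c x = x) : c ^ 3 = 1 ∧ IsThreeCycle c := by
  constructor
  · ext x
    by_cases hx : x ∈ s
    · have := hc.pow_card_apply hx
      rwa [hs] at this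
    · rw [Perm.one_apply]
      exact pow_apply_eq_self_of_apply_eq_self (hf x hx) 3
  · rw [← card_support_eq_three_iff, ← hs]
    congr 1
    ext x
    rw [mem_support]
    constructor
    · intro h
      by_contra hx
      exact h (hf x hx)
    · intro hx
      exact hc.apply_ne (Finset.one_lt_card_iff_nontrivial.1 (by omega)) hx

theorem autFree_six (h6 : Fintype.card α = 6) : AutFree 2 3 (alternatingGroup α) := by
  have h5 : 5 ≤ Fintype.card α := by omega
  obtain ⟨s, _, hs⟩ := Finset.exists_subset_card_eq (s := (Finset.univ : Finset α)) (n := 3)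
    (by rw [Finset.card_univ]; omega)
  have hs' : sᶜ.card = 3 := by
    have := Finset.card_add_card_compl s
    omega
  obtain ⟨c1, hc1, hs1⟩ := Finset.exists_cycleOn (sᶜ : Finset α)
  obtain ⟨c2, hc2, hs2⟩ := Finset.exists_cycleOn s
  have hf1 : ∀ x ∈ s, c1 x = x := by
    intro x hx
    by_contra h
    exact (Finset.mem_compl.1 (hs1 (mem_support.2 h))) hx
  have hf2 : ∀ x ∉ s, c2 x = x := by
    intro x hx
    by_contra h
    exact hx (hs2 (mem_support.2 h))
  obtain ⟨e1, t1⟩ := cycle_three hs' hc1 (fun x hx => hf1 x (by simpa using hx))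
  obtain ⟨e2, t2⟩ := cycle_three hs hc2 hf2
  have hdis : c1.Disjoint c2 := by
    intro x
    by_cases hx : x ∈ s
    · exact Or.inl (hf1 x hx)
    · exact Or.inr (hf2 x hx)
  have hc : ∀ V : Subgroup (Perm α), IsPGroup 2 V → (∀ x ∈ V, ∀ y ∈ V, x * y = y * x) →
      c1 ∈ normalizer (V : Set (Perm α)) → c2 ∈ normalizer (V : Set (Perm α)) → V = ⊥ :=
    fun V hV hab h1 h2 => bot_of_two_cycles hV hab (by rw [h6]; norm_num) Nat.prime_three
      (by norm_num) hs (by omega) h1 h2 hc1 hc2 hf1 hf2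
  set d1 : alternatingGroup α := ⟨c1, t1.mem_alternatingGroup⟩ with hd1
  set d2 : alternatingGroup α := ⟨c2, t2.mem_alternatingGroup⟩ with hd2
  have hcomm : d1 * d2 = d2 * d1 := Subtype.ext hdis.commute.eq
  have hz : ∀ d : alternatingGroup α, d ^ 3 = 1 → IsPGroup 3 (zpowers d) := by
    rintro d hd ⟨x, k, rfl⟩
    refine ⟨1, Subtype.ext ?_⟩
    change (d ^ k) ^ (3 ^ 1) = 1
    rw [pow_one, ← zpow_natCast, zpow_comm, zpow_natCast, hd, one_zpow]
  refine ⟨zpowers d1 ⊔ zpowers d2, ?_, ?_⟩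
  · refine IsPGroup.to_sup_of_normal_right' (hz d1 (Subtype.ext e1)) (hz d2 (Subtype.ext e2)) ?_
    rw [zpowers_le]
    refine mem_of_comm ?_
    rintro _ ⟨k, rfl⟩
    exact (Commute.zpow_right (show Commute d1 d2 from hcomm) k).eq
  · intro E hE hU
    have h1 : MulAut.conj d1 ∈ normalizer (E : Set (MulAut (alternatingGroup α))) :=
      hU ⟨d1, (le_sup_left : zpowers d1 ≤ _) (mem_zpowers d1), rfl⟩
    have h2 : MulAut.conj d2 ∈ normalizer (E : Set (MulAut (alternatingGroup α))) :=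
      hU ⟨d2, (le_sup_right : zpowers d2 ≤ _) (mem_zpowers d2), rfl⟩
    have hinn : ∀ (φ : MulAut (alternatingGroup α)) (x : alternatingGroup α),
        φ * MulAut.conj x * φ⁻¹ = MulAut.conj (φ x) := by
      intro φ x
      ext1 y
      simp only [MulAut.mul_apply, MulAut.conj_apply, map_mul, map_inv, MulAut.apply_inv_self]
    -- the inner part is trivial
    have hE1 : ∀ e ∈ E, ∀ x : alternatingGroup α, e = MulAut.conj x → e = 1 := by
      by_contra hcon
      push Not at hcon
      obtain ⟨e, he, x, hx, hne⟩ := hcon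
      set F : Subgroup (MulAut (alternatingGroup α)) := E ⊓ (MulAut.conj).range with hF
      have hFE : ElemAb 2 F := by
        refine ⟨fun h => hne ?_, fun a ha b hb => hE.2.1 a ha.1 b hb.1,
          fun a ha => hE.2.2 a ha.1⟩
        have h3 : e ∈ F := ⟨he, x, hx.symm⟩
        rwa [h, Subgroup.mem_bot] at h3
      have hnF : ∀ d : alternatingGroup α,
          MulAut.conj d ∈ normalizer (E : Set (MulAut (alternatingGroup α))) →
          MulAut.conj d ∈ normalizer (F : Set (MulAut (alternatingGroup α))) := by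
        intro d hd
        rw [mem_normalizer_iff] at hd ⊢
        intro a
        constructor
        · rintro ⟨ha, y, rfl⟩
          exact ⟨(hd _).1 ha, _, (hinn _ _).symm⟩
        · rintro ⟨ha, y, hy⟩
          refine ⟨(hd _).2 ha, (MulAut.conj d)⁻¹ y, ?_⟩
          rw [← hinn, hy]
          group
      refine bot_of_norm h5 hFE ?_ hc (c1 := c1) (c2 := c2) ?_ ?_
      · rintro _ ⟨_, y, rfl⟩
        exact ⟨y, (kap_coe y).symm⟩
      · have h3 := hnF d1 h1
        rwa [← kap_coe] at h3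
      · have h3 := hnF d2 h2
        rwa [← kap_coe] at h3
    refine bot_of_norm h5 hE ?_ hc (c1 := c1) (c2 := c2) ?_ ?_
    · intro e he
      have h3 : MulAut.conj d1 * e * (MulAut.conj d1)⁻¹ * e⁻¹ = 1 := by
        have h4 : MulAut.conj d1 * e * (MulAut.conj d1)⁻¹ * e⁻¹ ∈ E :=
          mul_mem ((mem_normalizer_iff.1 h1 e).1 he) (inv_mem he)
        refine hE1 _ h4 (d1 * e d1⁻¹) ?_
        rw [map_mul, ← hinn, map_inv]
        group
      have h4 : e * MulAut.conj d1 * e⁻¹ = MulAut.conj d1 := by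
        have h5 : e * MulAut.conj d1 * e⁻¹ =
            (MulAut.conj d1 * e * (MulAut.conj d1)⁻¹ * e⁻¹)⁻¹ * MulAut.conj d1 := by group
        rw [h5, h3, inv_one, one_mul]
      rw [hinn, ← kap_coe, ← kap_coe] at h4
      have h6 : e d1 = d1 := Subtype.ext (kap_injective h5 h4)
      exact exists_perm' h5 e d1 t1 (by rw [h6]; exact t1)
    · rw [← kap_coe] at h1
      exact h1
    · rw [← kap_coe] at h2
      exact h2

end

section
variable {α : Type} [DecidableEq α] [Fintype α]

/-- Every group between `A_n` and its automorphism group satisfies the conclusion of the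
conjecture, over any field. -/
theorem hq_alt {𝕜 : Type v} [Field 𝕜] (h5 : 5 ≤ Fintype.card α) {p : ℕ} [hp : Fact p.Prime]
    (A : Subgroup (MulAut (alternatingGroup α))) (hA : ∀ x, MulAut.conj x ∈ A) : HQ 𝕜 p A := by
  rcases hp.out.eq_two_or_odd' with h2 | hodd
  · by_cases h6 : Fintype.card α = 6
    · subst h2
      exact (autFree_six h6).hq Nat.prime_three A hA
    · rw [HQ_sub_iff]
      exact na_case h5 hA fun E _ e _ => exists_perm_of_ne h5 h6 e
  · rw [HQ_sub_iff]
    exact na_case h5 hA fun E hE e he => range_of_odd h5 hodd (hE.1.2.2 e he)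

variable {G : Type u} [Group G] {p : ℕ}

theorem almostSimpleHQ_alt {𝕜 : Type v} [Field 𝕜] [hp : Fact p.Prime] (h5 : 5 ≤ Fintype.card α)
    {L : Subgroup G} (e : L ≃* alternatingGroup α) : AlmostSimpleHQ 𝕜 p L :=
  fun A _ hA => hq_transport e (hq_alt h5) A hA

theorem freeSub_six (h6 : Fintype.card α = 6) {L : Subgroup G} (e : L ≃* alternatingGroup α) :
    FreeSub 2 3 L :=
  ((autFree_six h6).congr e.symm).freeSub

/-- the automorphism of `A_n` induced by an element normalizing `L` -/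
noncomputable def indAut {L : Subgroup G} (e : L ≃* alternatingGroup α) :
    normalizer (L : Set G) →* MulAut (alternatingGroup α) :=
  (MulAut.congr e).toMonoidHom.comp L.normalizerMonoidHom

lemma inner_of_indAut {L : Subgroup G} (e : L ≃* alternatingGroup α)
    {x : G} (hx : x ∈ normalizer (L : Set G)) {a : alternatingGroup α}
    (h : indAut e ⟨x, hx⟩ = MulAut.conj a) : x ∈ L ⊔ centralizer (L : Set G) := by
  refine mem_sup_of_inner hx (e.symm a) ?_
  apply (MulAut.congr e).injective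
  refine h.trans ?_
  ext y
  simp [MulAut.congr]

lemma indAut_pow {L : Subgroup G} (e : L ≃* alternatingGroup α)
    {x : G} (hx : x ∈ normalizer (L : Set G)) (h : x ^ p ∈ centralizer (L : Set G)) :
    indAut e ⟨x, hx⟩ ^ p = 1 := by
  rw [indAut, MonoidHom.comp_apply, ← map_pow, ← map_pow]
  have h1 : (⟨x, hx⟩ : normalizer (L : Set G)) ^ p ∈ L.normalizerMonoidHom.ker := by
    rw [normalizerMonoidHom_ker, Subgroup.mem_subgroupOf]
    exact h
  rw [MonoidHom.mem_ker.1 h1, map_one]

theorem fewOuter_alt [hp : Fact p.Prime] (h5 : 5 ≤ Fintype.card α)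
    (h26 : p ≠ 2 ∨ Fintype.card α ≠ 6) {L : Subgroup G} (e : L ≃* alternatingGroup α) :
    FewOuter p L := by
  apply fewOuter_of_same
  rintro x y ⟨hx, hxp, hxn⟩ ⟨hy, hyp, hyn⟩
  rcases hp.out.eq_two_or_odd' with h2 | hodd
  · have h6 : Fintype.card α ≠ 6 := h26.resolve_left fun h => h h2
    obtain ⟨σ, hσ⟩ := exists_perm_of_ne h5 h6 (indAut e ⟨x, hx⟩)
    obtain ⟨τ, hτ⟩ := exists_perm_of_ne h5 h6 (indAut e ⟨y, hy⟩)
    have hs : ∀ (z : G) (hz : z ∈ normalizer (L : Set G)) (ρ : Perm α),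
        indAut e ⟨z, hz⟩ = kap α ρ → z ∉ L ⊔ centralizer (L : Set G) → sign ρ = -1 := by
      intro z hz ρ hρ hzn
      rcases Int.units_eq_one_or (sign ρ) with h | h
      · exact absurd (inner_of_indAut e hz (a := ⟨ρ, mem_alternatingGroup.2 h⟩)
          (hρ.trans (kap_coe ⟨ρ, mem_alternatingGroup.2 h⟩))) hzn
      · exact h
    have h1 := hs x hx σ hσ hxn
    have h2 := hs y hy τ hτ hyn
    have h3 : sign (σ⁻¹ * τ) = 1 := by
      rw [map_mul, map_inv, h1, h2]
      decide
    have h4 : x⁻¹ * y ∈ L ⊔ centralizer (L : Set G) := by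
      refine inner_of_indAut e (mul_mem (inv_mem hx) hy)
        (a := ⟨σ⁻¹ * τ, mem_alternatingGroup.2 h3⟩) ?_
      have h5 : (⟨x⁻¹ * y, mul_mem (inv_mem hx) hy⟩ : normalizer (L : Set G)) =
          ⟨x, hx⟩⁻¹ * ⟨y, hy⟩ := rfl
      rw [h5, map_mul, map_inv, hσ, hτ]
      change (kap α σ)⁻¹ * kap α τ = _
      rw [← map_inv, ← map_mul]
      exact kap_coe ⟨σ⁻¹ * τ, mem_alternatingGroup.2 h3⟩
    rw [SameOuter]
    have h5 : y = x * (x⁻¹ * y) := by group
    rw [h5]
    exact mul_mem ((le_sup_left : zpowers x ≤ _) (mem_zpowers x))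
      ((le_sup_right : L ⊔ centralizer (L : Set G) ≤ _) h4)
  · obtain ⟨a, ha⟩ := inner_of_odd h5 hodd (indAut_pow e hx hxp)
    exact absurd (inner_of_indAut e hx ha) hxn

end

end Vale.Agent.P240.H195
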