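import Vale.Agent.P240.H195.Defs

/-!
BN-pairs (Tits systems), in terms of representatives. Bruhat decomposition, the exchange
condition in the form of `rg_step`, descents.
-/

namespace Vale.Agent.P240.H195

open Subgroup

universe u

section
variable {L : Type u} [Group L]

/-- `n B s ⊆ B n s B`. -/
def RG (B : Subgroup L) (n s : L) : Prop := ∀ b ∈ B, DC B (n * s) (n * b * s)

/-- `n` is the product of `k` elements of `S` and an element of `B ∩ N`. -/
inductive Wd (B N : Subgroup L) (S : Set L) : ℕ → L → Prop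
  | zero {t : L} : t ∈ B → t ∈ N → Wd B N S 0 t
  | succ {s n : L} {k : ℕ} : s ∈ S → Wd B N S k n → Wd B N S (k + 1) (s * n)

variable {B N : Subgroup L} {S : Set L}

lemma DC.refl (n : L) : DC B n n := ⟨1, one_mem _, 1, one_mem _, by group⟩

lemma DC.symm {n x : L} (h : DC B n x) : DC B x n := by
  obtain ⟨a, ha, b, hb, rfl⟩ := h
  exact ⟨a⁻¹, inv_mem ha, b⁻¹, inv_mem hb, by group⟩

lemma DC.trans {n x y : L} (h : DC B n x) (h' : DC B x y) : DC B n y := by
  obtain ⟨a, ha, b, hb, rfl⟩ := h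
  obtain ⟨c, hc, d, hd, rfl⟩ := h'
  exact ⟨c * a, mul_mem hc ha, b * d, mul_mem hb hd, by group⟩

lemma DC.left {n x a : L} (h : DC B n x) (ha : a ∈ B) : DC B n (a * x) := by
  obtain ⟨c, hc, d, hd, rfl⟩ := h
  exact ⟨a * c, mul_mem ha hc, d, hd, by group⟩

lemma DC.right {n x a : L} (h : DC B n x) (ha : a ∈ B) : DC B n (x * a) := by
  obtain ⟨c, hc, d, hd, rfl⟩ := h
  exact ⟨c, hc, d * a, mul_mem hd ha, by group⟩

lemma DC.left' {n x a : L} (h : DC B n (a * x)) (ha : a ∈ B) : DC B n x := by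
  have := h.left (inv_mem ha)
  rwa [inv_mul_cancel_left] at this

lemma DC.right' {n x a : L} (h : DC B n (x * a)) (ha : a ∈ B) : DC B n x := by
  have := h.right (inv_mem ha)
  rwa [mul_inv_cancel_right] at this

lemma DC.inv {n x : L} (h : DC B n x) : DC B n⁻¹ x⁻¹ := by
  obtain ⟨c, hc, d, hd, rfl⟩ := h
  exact ⟨d⁻¹, inv_mem hd, c⁻¹, inv_mem hc, by group⟩

lemma DC_mem {n x : L} (hn : n ∈ B) : DC B n x ↔ x ∈ B := by
  constructor
  · rintro ⟨c, hc, d, hd, rfl⟩
    exact mul_mem (mul_mem hc hn) hd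
  · intro hx
    exact ⟨1, one_mem _, n⁻¹ * x, mul_mem (inv_mem hn) hx, by group⟩

lemma DC_of_inv {n x : L} (h : n⁻¹ * x ∈ B) : DC B n x := ⟨1, one_mem _, _, h, by group⟩

namespace BN0

variable (h : BN0 B N S)
include h

lemma norm' {n t : L} (hn : n ∈ N) (ht : t ∈ B) (ht' : t ∈ N) : n⁻¹ * t * n ∈ B := by
  have := h.norm n⁻¹ (inv_mem hn) t ht ht'
  rwa [inv_inv] at this

lemma not_mem {s : L} (hs : s ∈ S) : s ∉ B := by
  intro hsB
  obtain ⟨b, hb, hb'⟩ := h.thick s hs
  exact hb' (mul_mem (mul_mem (inv_mem hsB) hb) hsB)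

lemma inv_mul {s : L} (hs : s ∈ S) : s⁻¹ * s⁻¹ ∈ B := by
  have := inv_mem (h.sq s hs)
  rwa [mul_inv_rev] at this

/-- the right version of the axiom `mul` -/
lemma mul' {s b n : L} (hs : s ∈ S) (hb : b ∈ B) (hn : n ∈ N) :
    DC B n (n * b * s) ∨ DC B (n * s) (n * b * s) := by
  have hsq := h.inv_mul hs
  have hsN := h.sub s hs
  have e1 : (n * b * s)⁻¹ = (s⁻¹ * s⁻¹) * (s * b⁻¹ * n⁻¹) := by group
  rcases h.mul s hs b⁻¹ (inv_mem hb) n⁻¹ (inv_mem hn) with h1 | h1
  · left
    have := (h1.left hsq).inv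
    rw [← e1, inv_inv, inv_inv] at this
    exact this
  · right
    have := (h1.left hsq).inv
    rw [← e1, inv_inv, mul_inv_rev, inv_inv] at this
    refine DC.trans (DC_of_inv ?_) this
    have : (n * s)⁻¹ * (n * s⁻¹) = s⁻¹ * s⁻¹ := by group
    rw [this]
    exact hsq

lemma wd_mem {k : ℕ} {n : L} (hn : Wd B N S k n) : n ∈ N := by
  induction hn with
  | zero _ h2 => exact h2
  | succ hs _ ih => exact mul_mem (h.sub _ hs) ih

lemma wd_left {k : ℕ} {n : L} (hn : Wd B N S k n) :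
    ∀ t : L, t ∈ B → t ∈ N → Wd B N S k (t * n) := by
  induction hn with
  | zero h1 h2 =>
    intro t ht ht'
    exact Wd.zero (mul_mem ht h1) (mul_mem ht' h2)
  | @succ s n k hs hn ih =>
    intro t ht ht'
    have hsN := h.sub s hs
    have h1 := ih (s⁻¹ * t * s) (h.norm' hsN ht ht')
      (mul_mem (mul_mem (inv_mem hsN) ht') hsN)
    have h2 := Wd.succ hs h1
    have : s * (s⁻¹ * t * s * n) = t * (s * n) := by group
    rwa [this] at h2

omit h in
lemma wd_right {k : ℕ} {n : L} (hn : Wd B N S k n) :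
    ∀ t : L, t ∈ B → t ∈ N → Wd B N S k (n * t) := by
  induction hn with
  | zero h1 h2 =>
    intro t ht ht'
    exact Wd.zero (mul_mem h1 ht) (mul_mem h2 ht')
  | @succ s n k hs hn ih =>
    intro t ht ht'
    rw [mul_assoc]
    exact Wd.succ hs (ih t ht ht')

lemma exists_wd {n : L} (hn : n ∈ N) : ∃ k, Wd B N S k n := by
  have key : ∀ x ∈ closure (S ∪ (B ⊓ N : Subgroup L)), ∀ m : L, (∃ k, Wd B N S k m) →
      ∃ k, Wd B N S k (x * m) := by
    intro x hx
    induction hx using Subgroup.closure_induction'' with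
    | one => intro m hm; rwa [one_mul]
    | mem x hx =>
      rintro m ⟨k, hm⟩
      rcases hx with hx | hx
      · exact ⟨k + 1, Wd.succ hx hm⟩
      · exact ⟨k, h.wd_left hm x hx.1 hx.2⟩
    | inv_mem x hx =>
      rintro m ⟨k, hm⟩
      rcases hx with hx | hx
      · have hsN := h.sub x hx
        have h1 := h.wd_left hm (x⁻¹ * x⁻¹) (h.inv_mul hx) (mul_mem (inv_mem hsN) (inv_mem hsN))
        have h2 := Wd.succ hx h1
        have : x * (x⁻¹ * x⁻¹ * m) = x⁻¹ * m := by group
        rw [this] at h2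
        exact ⟨k + 1, h2⟩
      · exact ⟨k, h.wd_left hm x⁻¹ (inv_mem hx.1) (inv_mem hx.2)⟩
    | mul x y _ _ ihx ihy =>
      intro m hm
      rw [mul_assoc]
      exact ihx _ (ihy _ hm)
  have h1 : n ∈ closure (S ∪ (B ⊓ N : Subgroup L)) := by
    rw [Subgroup.closure_union, closure_eq, ← h.span]
    exact hn
  have h2 := key n h1 1 ⟨0, Wd.zero (one_mem _) (one_mem _)⟩
  rwa [mul_one] at h2

/-- `n` is a product of `k` generators, but not of fewer. -/
def Len (_ : BN0 B N S) (k : ℕ) (n : L) : Prop := Wd B N S k n ∧ ∀ j < k, ¬ Wd B N S j n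

lemma exists_len {n : L} (hn : n ∈ N) : ∃ k, h.Len k n := by
  classical
  have hex := h.exists_wd hn
  exact ⟨Nat.find hex, Nat.find_spec hex, fun j hj => Nat.find_min hex hj⟩

lemma inj_aux {k : ℕ} {n : L} (hn : Wd B N S k n) :
    ∀ n' ∈ N, (∀ j < k, ¬ Wd B N S j n') → DC B n' n → n⁻¹ * n' ∈ B := by
  induction hn with
  | zero h1 h2 =>
    intro n' hn' _ hd
    exact mul_mem (inv_mem h1) ((DC_mem h1).1 hd.symm)
  | @succ s m k hs hm ih =>
    intro n' hn' hmin hd
    obtain ⟨a, ha, b, hb, hab⟩ := hd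
    have hsN := h.sub s hs
    have hsq := h.inv_mul hs
    have hsqN : s⁻¹ * s⁻¹ ∈ N := mul_mem (inv_mem hsN) (inv_mem hsN)
    have hmN := h.wd_mem hm
    have e1 : m = (s * (s⁻¹ * s⁻¹ * a) * n') * b := by
      have : s⁻¹ * (s * m) = s⁻¹ * (a * n' * b) := by rw [hab]
      rw [inv_mul_cancel_left] at this
      rw [this]
      group
    rcases h.mul s hs (s⁻¹ * s⁻¹ * a) (mul_mem hsq ha) n' hn' with h1 | h1
    · exfalso
      have h2 := ih n' hn' (fun j hj => hmin j (by omega)) (by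
        rw [e1]
        exact h1.right hb)
      have h3 := wd_right hm (m⁻¹ * n') h2 (mul_mem (inv_mem hmN) hn')
      rw [mul_inv_cancel_left] at h3
      exact hmin k (Nat.lt_succ_self k) h3
    · have h2 := ih (s * n') (mul_mem hsN hn') (fun j hj hw => by
        have h3 := h.wd_left (Wd.succ hs hw) (s⁻¹ * s⁻¹) hsq hsqN
        have h4 : s⁻¹ * s⁻¹ * (s * (s * n')) = n' := by group
        rw [h4] at h3
        exact hmin (j + 1) (by omega) h3) (by
        rw [e1]
        exact h1.right hb)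
      have h3 := h.norm' hmN hsq hsqN
      have h4 : (s * m)⁻¹ * n' = (m⁻¹ * (s⁻¹ * s⁻¹) * m) * (m⁻¹ * (s * n')) := by group
      rw [h4]
      exact mul_mem h3 h2

/-- Bruhat decomposition: distinct elements of the Weyl group give distinct double cosets. -/
theorem inj {n n' : L} (hn : n ∈ N) (hn' : n' ∈ N) (hd : DC B n n') : n⁻¹ * n' ∈ B := by
  obtain ⟨k, hk, hkm⟩ := h.exists_len hn
  by_cases hcon : ∀ j < k, ¬ Wd B N S j n'
  · exact h.inj_aux hk n' hn' hcon hd.symm
  · push Not at hcon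
    obtain ⟨j, hj, hw⟩ := hcon
    have h1 := h.inj_aux hw n hn (fun i hi => hkm i (hi.trans hj)) hd
    have := inv_mem h1
    rwa [mul_inv_rev, inv_inv] at this

omit h in
lemma rg_one {s : L} {t : L} (h : BN0 B N S) (hs : s ∈ S) (ht : t ∈ B) (htN : t ∈ N) :
    RG B t s := by
  intro b hb
  have h1 : t * b * s = (t * b) * s * 1 := by group
  have h2 : DC B s (t * b * s) := ⟨t * b, mul_mem ht hb, 1, one_mem _, h1⟩
  refine DC.trans (DC.symm ?_) h2
  have h3 := h.norm' (h.sub s hs) ht htN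
  have : t * s = 1 * s * (s⁻¹ * t * s) := by group
  exact ⟨1, one_mem _, _, h3, this⟩

omit h in
lemma rg_left {n s t : L} (hr : RG B n s) (ht : t ∈ B) : RG B (t * n) s := by
  intro b hb
  have h1 := (hr b hb).left ht
  have h2 : t * (n * b * s) = t * n * b * s := by group
  rw [h2] at h1
  refine DC.trans ?_ h1
  have : n * s = t⁻¹ * (t * n * s) * 1 := by group
  exact ⟨_, inv_mem ht, 1, one_mem _, this⟩

lemma rg_right {n s t : L} (hs : s ∈ S) (hr : RG B n s) (ht : t ∈ B) (htN : t ∈ N) :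
    RG B (n * t) s := by
  intro b hb
  have h1 := hr (t * b) (mul_mem ht hb)
  have h2 : n * (t * b) * s = n * t * b * s := by group
  rw [h2] at h1
  refine DC.trans (DC.symm ?_) h1
  have h3 := h.norm' (h.sub s hs) ht htN
  have : n * t * s = 1 * (n * s) * (s⁻¹ * t * s) := by group
  exact ⟨1, one_mem _, _, h3, this⟩

/-- the exchange condition -/
theorem rg_step {n s t : L} (hn : n ∈ N) (hs : s ∈ S) (ht : t ∈ S) (hr : RG B n s)
    (hr' : ¬ RG B (t * n) s) : (t * n)⁻¹ * (n * s) ∈ B := by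
  unfold RG at hr'
  push Not at hr'
  obtain ⟨b, hb, hbn⟩ := hr'
  have htN := h.sub t ht
  have h1 := (h.mul' hs hb (mul_mem htN hn)).resolve_right hbn
  obtain ⟨a, ha, c, hc, hac⟩ := h1
  have e1 : n * b * s = (t * ((t⁻¹ * t⁻¹) * a) * (t * n)) * c := by
    have : t⁻¹ * (t * n * b * s) = t⁻¹ * (a * (t * n) * c) := by rw [hac]
    have h2 : t⁻¹ * (t * n * b * s) = n * b * s := by group
    rw [h2] at this
    rw [this]
    group
  have h2 := hr b hb
  rcases h.mul t ht ((t⁻¹ * t⁻¹) * a) (mul_mem (h.inv_mul ht) ha) (t * n) (mul_mem htN hn) with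
    h3 | h3
  · have h4 := h3.right hc
    rw [← e1] at h4
    exact h.inj (mul_mem htN hn) (mul_mem hn (h.sub s hs)) (h4.trans h2.symm)
  · exfalso
    have h4 := h3.right hc
    rw [← e1] at h4
    have h5 := h4.trans h2.symm
    have h6 : DC B n (n * s) := by
      refine DC.trans ?_ h5
      have h7 : t * (t * n) = (t * t) * n * 1 := by group
      exact ⟨_, h.sq t ht, 1, one_mem _, h7⟩
    have h7 := h.inj hn (mul_mem hn (h.sub s hs)) h6
    rw [inv_mul_cancel_left] at h7
    exact h.not_mem hs h7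

/-- every element of the Weyl group other than `1` has a right descent -/
theorem exists_desc_aux {k : ℕ} {n : L} (hn : Wd B N S k n) :
    (∀ j < k, ¬ Wd B N S j n) → n ∉ B →
      ∃ s ∈ S, ∃ m, Wd B N S (k - 1) m ∧ RG B m s ∧ (m * s)⁻¹ * n ∈ B := by
  induction hn with
  | zero h1 h2 => exact fun _ hB => absurd h1 hB
  | @succ t m k ht hm ih =>
    intro hmin hB
    have htN := h.sub t ht
    have hmN := h.wd_mem hm
    have hmin' : ∀ j < k, ¬ Wd B N S j m := fun j hj hw => hmin (j + 1) (by omega)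
      (Wd.succ ht hw)
    by_cases hmB : m ∈ B
    · have hk : k = 0 := by
        by_contra hk
        exact hmin' 0 (Nat.pos_of_ne_zero hk) (Wd.zero hmB hmN)
      subst hk
      refine ⟨t, ht, 1, Wd.zero (one_mem _) (one_mem _),
        rg_one h ht (one_mem _) (one_mem _), ?_⟩
      have : (1 * t)⁻¹ * (t * m) = m := by group
      rwa [this]
    · obtain ⟨s, hs, m₁, hw₁, hr₁, hm₁⟩ := ih hmin' hmB
      have hk : 0 < k := by
        rcases Nat.eq_zero_or_pos k with rfl | hk
        · cases hm with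
          | zero h1 h2 => exact absurd h1 hmB
        · exact hk
      have hm₁N := h.wd_mem hw₁
      have hsN := h.sub s hs
      by_cases hr : RG B (t * m₁) s
      · refine ⟨s, hs, t * m₁, ?_, hr, ?_⟩
        · have := Wd.succ ht hw₁
          rw [Nat.sub_add_cancel hk] at this
          exact this
        · have : (t * m₁ * s)⁻¹ * (t * m) = (m₁ * s)⁻¹ * m := by group
          rwa [this]
      · exfalso
        have h1 := h.rg_step hm₁N hs ht hr₁ hr
        have h1N : (t * m₁)⁻¹ * (m₁ * s) ∈ N :=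
          mul_mem (inv_mem (mul_mem htN hm₁N)) (mul_mem hm₁N hsN)
        have h2N : (m₁ * s)⁻¹ * m ∈ N := mul_mem (inv_mem (mul_mem hm₁N hsN)) hmN
        have h3 := wd_right (wd_right hw₁ _ h1 h1N) _ hm₁ h2N
        have h4 := h.wd_left h3 (t * t) (h.sq t ht) (mul_mem htN htN)
        have h5 : t * t * (m₁ * ((t * m₁)⁻¹ * (m₁ * s)) * ((m₁ * s)⁻¹ * m)) = t * m := by group
        rw [h5] at h4
        exact hmin (k - 1) (by omega) h4

theorem exists_desc {n : L} (hn : n ∈ N) (hB : n ∉ B) :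
    ∃ s ∈ S, ∃ m ∈ N, RG B m s ∧ (m * s)⁻¹ * n ∈ B := by
  obtain ⟨k, hk, hkm⟩ := h.exists_len hn
  obtain ⟨s, hs, m, hm, hr, hms⟩ := h.exists_desc_aux hk hkm hB
  exact ⟨s, hs, m, h.wd_mem hm, hr, hms⟩

lemma rg_of_ne {s t : L} (hs : s ∈ S) (ht : t ∈ S) (hne : s⁻¹ * t ∉ B) : RG B s t := by
  by_contra hcon
  have h1 := h.rg_step (one_mem N) ht hs (rg_one h ht (one_mem _) (one_mem _)) (by rwa [mul_one])
  rw [mul_one, one_mul] at h1
  exact hne h1

lemma rg_of_ne_comm {a b : L} (ha : a ∈ S) (hb : b ∈ S) (hne : a⁻¹ * b ∉ B)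
    (hc : (b * a)⁻¹ * (a * b) ∉ B) : RG B (b * a) b := by
  by_contra hcon
  exact hc (h.rg_step (h.sub a ha) hb hb (h.rg_of_ne ha hb hne) hcon)

lemma bruhat_step {k : ℕ} {x : L} (hx : Wd B N S k x) :
    ∀ y : L, (∃ n ∈ N, DC B n y) → ∃ n ∈ N, DC B n (x * y) := by
  induction hx with
  | zero h1 h2 =>
    rintro y ⟨n, hn, hy⟩
    exact ⟨n, hn, hy.left h1⟩
  | @succ s m k hs hm ih =>
    intro y hy
    obtain ⟨n', hn', a, ha, b, hb, hab⟩ := ih y hy
    rw [mul_assoc, hab]
    have e : s * (a * n' * b) = s * a * n' * b := by group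
    rcases h.mul s hs a ha n' hn' with h1 | h1
    · refine ⟨n', hn', ?_⟩
      rw [e]
      exact h1.right hb
    · refine ⟨s * n', mul_mem (h.sub s hs) hn', ?_⟩
      rw [e]
      exact h1.right hb

end BN0

namespace BN

variable (h : BN B N S)
include h

/-- every element lies in some `B n B` -/
theorem bruhat (x : L) : ∃ n ∈ N, DC B n x := by
  have key : ∀ x ∈ closure ((B : Set L) ∪ (N : Set L)), ∀ y : L, (∃ n ∈ N, DC B n y) →
      ∃ n ∈ N, DC B n (x * y) := by
    intro x hx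
    induction hx using Subgroup.closure_induction'' with
    | one => intro m hm; rwa [one_mul]
    | mem x hx =>
      rintro y ⟨n, hn, hy⟩
      rcases hx with hx | hx
      · exact ⟨n, hn, hy.left hx⟩
      · obtain ⟨k, hk⟩ := h.exists_wd hx
        exact h.bruhat_step hk y ⟨n, hn, hy⟩
    | inv_mem x hx =>
      rintro y ⟨n, hn, hy⟩
      rcases hx with hx | hx
      · exact ⟨n, hn, hy.left (inv_mem hx)⟩
      · obtain ⟨k, hk⟩ := h.exists_wd (inv_mem hx)
        exact h.bruhat_step hk y ⟨n, hn, hy⟩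
    | mul x y _ _ ihx ihy =>
      intro m hm
      rw [mul_assoc]
      exact ihx _ (ihy _ hm)
  have h1 : x ∈ closure ((B : Set L) ∪ (N : Set L)) := by
    rw [Subgroup.closure_union, closure_eq, closure_eq, h.gen]
    exact mem_top x
  have h2 := key x h1 1 ⟨1, one_mem _, DC.refl 1⟩
  rwa [mul_one] at h2

end BN

end

end Vale.Agent.P240.H195
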