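import Vale.Agent.P240.H195.BNSplit

/-!
Automorphisms of order prime to `r` centralizing `U` are trivial, for simple groups with a split
BN-pair of characteristic `r`.
-/

namespace Vale.Agent.P240.H195

open Subgroup

universe u

section
variable {L : Type u} [Group L] {B N U : Subgroup L} {S : Set L} {r : ℕ}

/-- iterates of an automorphism -/
lemma pow_apply_eq (e : MulAut L) {x z : L} (hx : e x = x * z) (hz : e z = z) (k : ℕ) :
    (e ^ k) x = x * z ^ k := by
  induction k with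
  | zero => simp
  | succ k ih =>
    rw [pow_succ', MulAut.mul_apply, ih, map_mul, map_pow, hx, hz, pow_succ', mul_assoc]

lemma fix_inv {e : MulAut L} (hfix : ∀ u ∈ U, e u = u) : ∀ u ∈ U, e⁻¹ u = u := by
  intro u hu
  have := congrArg (e⁻¹ : MulAut L) (hfix u hu)
  rw [← MulAut.mul_apply, inv_mul_cancel, MulAut.one_apply] at this
  exact this.symm

namespace SB

variable (h : SB r B N U S)
include h

lemma fix_B [Finite L] (hr : r.Prime) {e : MulAut L} (hfix : ∀ u ∈ U, e u = u) {b : L}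
    (hb : b ∈ B) : e b ∈ B := by
  refine h.mem_B_of_norm hr fun u hu => ?_
  have h1 : (e b)⁻¹ * u * e b = e (b⁻¹ * u * b) := by
    rw [map_mul, map_mul, map_inv, hfix u hu]
  have h2 : b⁻¹ * u * b ∈ U := by
    have := h.normal b⁻¹ (inv_mem hb) u hu
    rwa [inv_inv] at this
  rw [h1, hfix _ h2]
  exact h2

lemma fix_B' [Finite L] (hr : r.Prime) {e : MulAut L} (hfix : ∀ u ∈ U, e u = u) {b : L}
    (hb : e b ∈ B) : b ∈ B := by
  have := h.fix_B hr (fix_inv hfix) hb
  rwa [← MulAut.mul_apply, inv_mul_cancel, MulAut.one_apply] at this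

/-- automorphisms centralizing `U` stabilize the minimal parabolic subgroups -/
lemma fix_Par [Finite L] (hr : r.Prime) {e : MulAut L} (hfix : ∀ u ∈ U, e u = u) {s : L}
    (hs : s ∈ S) : (Par B s).map e.toMonoidHom = Par B s := by
  have hesB : e s ∉ B := fun hcon => h.not_mem hs (h.fix_B' hr hfix hcon)
  obtain ⟨t, ht, y, hy, h1, h2⟩ := h.desc_elt hr hesB
  have hle : B ≤ (Par B s).map e.toMonoidHom := by
    intro b hb
    refine ⟨e⁻¹ b, le_Par (h.fix_B hr (fix_inv hfix) hb), ?_⟩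
    change e (e⁻¹ b) = b
    rw [← MulAut.mul_apply, mul_inv_cancel, MulAut.one_apply]
  have hyH : (e s)⁻¹ * y * e s ∈ (Par B s).map e.toMonoidHom := by
    refine ⟨s⁻¹ * y * s, mul_mem (mul_mem (inv_mem self_mem_Par) (le_Par (h.le hy)))
      self_mem_Par, ?_⟩
    change e (s⁻¹ * y * s) = _
    rw [map_mul, map_mul, map_inv, hfix y hy]
  obtain ⟨a, ha, b, hb, hab⟩ := ((h.mem_Par ht).1 h1).resolve_left h2
  have htH : t ∈ (Par B s).map e.toMonoidHom := by
    have : t = a⁻¹ * ((e s)⁻¹ * y * e s) * b⁻¹ := by rw [hab]; group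
    rw [this]
    exact mul_mem (mul_mem (inv_mem (hle ha)) hyH) (inv_mem (hle hb))
  have hst : s⁻¹ * t ∈ B := by
    by_contra hcon
    obtain ⟨w, hw, hwt⟩ := htH
    have hwt' : e w = t := hwt
    have hrg := h.rg_of_ne hs ht hcon
    obtain ⟨x, hx, hsx, hxt⟩ := h.transit' hr (h.sub s hs) ht hrg
    have h3 := h.Kg_conj' hs hw (mem_Kg.2 ⟨hx, hsx⟩)
    have h4 : t⁻¹ * x * t = w⁻¹ * x * w := by
      rw [← hfix _ h3.1, map_mul, map_mul, map_inv, hfix x hx, hwt']
    rw [h4] at hxt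
    exact hxt (h.le h3.1)
  have hsH : s ∈ (Par B s).map e.toMonoidHom := by
    have h5 := mul_mem htH (inv_mem (hle hst))
    have : t * (s⁻¹ * t)⁻¹ = s := by group
    rwa [this] at h5
  have hPH : Par B s ≤ (Par B s).map e.toMonoidHom :=
    sup_le hle (by rw [zpowers_le]; exact hsH)
  refine (Subgroup.eq_of_le_of_card_ge hPH ?_).symm
  exact (Subgroup.card_map_of_injective (f := e.toMonoidHom) e.injective).le

lemma fix_coset [Finite L] (hr : r.Prime) {p : ℕ} (hp : p.Prime) (hpr : p ≠ r) {e : MulAut L}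
    (hep : e ^ p = 1) (hfix : ∀ u ∈ U, e u = u) {s : L} (hs : s ∈ S) {g : L}
    (hg : g ∈ Par B s) : g⁻¹ * e g ∈ B := by
  have hesP : e s ∈ Par B s := by
    rw [← h.fix_Par hr hfix hs]
    exact ⟨s, self_mem_Par, rfl⟩
  have hesB : e s ∉ B := fun hcon => h.not_mem hs (h.fix_B' hr hfix hcon)
  obtain ⟨u, hu, b, hb, hub⟩ := h.coset_form hs hesP hesB
  have key : ∀ k : ℕ, ∃ c ∈ B, (e ^ k) s = u ^ k * s * c := by
    intro k
    induction k with
    | zero => exact ⟨1, one_mem _, by simp⟩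
    | succ k ih =>
      obtain ⟨c, hc, hk⟩ := ih
      refine ⟨b * e c, mul_mem hb (h.fix_B hr hfix hc), ?_⟩
      rw [pow_succ', MulAut.mul_apply, hk, map_mul, map_mul, map_pow, hfix u hu, hub, pow_succ]
      group
  obtain ⟨c, hc, hk⟩ := key p
  rw [hep, MulAut.one_apply] at hk
  have h1 : s⁻¹ * u ^ p * s ∈ B := by
    have : s⁻¹ * u ^ p * s = c⁻¹ := by
      have h2 : s⁻¹ * s = s⁻¹ * (u ^ p * s * c) := by rw [← hk]
      rw [inv_mul_cancel] at h2
      rw [eq_comm, inv_eq_iff_mul_eq_one, mul_eq_one_iff_eq_inv]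
      have h3 : s⁻¹ * (u ^ p * s * c) = (s⁻¹ * u ^ p * s) * c := by group
      rw [h3] at h2
      exact (eq_inv_of_mul_eq_one_right h2.symm)
    rw [this]
    exact inv_mem hc
  have h2 : s⁻¹ * u * s ∈ B := by
    obtain ⟨k, hk⟩ := h.exists_pow hu
    have hk' : (s⁻¹ * u * s) ^ r ^ k = 1 := by
      have := conj_pow (i := r ^ k) (a := s⁻¹) (b := u)
      rw [inv_inv] at this
      rw [this, hk, mul_one, inv_mul_cancel]
    refine mem_of_pow hr hp hpr hk' ?_
    have := conj_pow (i := p) (a := s⁻¹) (b := u)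
    rw [inv_inv] at this
    rwa [this]
  have h3 : s⁻¹ * e s ∈ B := by
    rw [hub]
    have : s⁻¹ * (u * s * b) = (s⁻¹ * u * s) * b := by group
    rw [this]
    exact mul_mem h2 hb
  by_cases hgB : g ∈ B
  · exact mul_mem (inv_mem hgB) (h.fix_B hr hfix hgB)
  · obtain ⟨v, hv, d, hd, rfl⟩ := h.coset_form hs hg hgB
    rw [map_mul, map_mul, hfix v hv]
    have : (v * s * d)⁻¹ * (v * e s * e d) = d⁻¹ * (s⁻¹ * e s) * e d := by group
    rw [this]
    exact mul_mem (mul_mem (inv_mem hd) h3) (h.fix_B hr hfix hd)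

lemma fix_conj [Finite L] (hr : r.Prime) {p : ℕ} (hp : p.Prime) (hpr : p ≠ r) {e : MulAut L}
    (hep : e ^ p = 1) (hfix : ∀ u ∈ U, e u = u) {s : L} (hs : s ∈ S) {g : L}
    (hg : g ∈ Par B s) {v : L} (hv : v ∈ U) : e (g * v * g⁻¹) = g * v * g⁻¹ := by
  have hcos := fun {x : L} (hx : x ∈ Par B s) => h.fix_coset hr hp hpr hep hfix hs hx
  set w := g * v * g⁻¹ with hw
  have hwP : w ∈ Par B s := mul_mem (mul_mem hg (le_Par (h.le hv))) (inv_mem hg)
  set z := w⁻¹ * e w with hz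
  have hzB : z ∈ B := hcos hwP
  obtain ⟨β, hβ⟩ : ∃ β, β = g⁻¹ * e g := ⟨_, rfl⟩
  have hβB : β ∈ B := by rw [hβ]; exact hcos hg
  have e1 : e g = g * β := by rw [hβ]; group
  have e2 : z = g * (v⁻¹ * (β * v * β⁻¹)) * g⁻¹ := by
    rw [hz, hw, map_mul, map_mul, map_inv, hfix v hv, e1]
    group
  have hzU : z ∈ U := by
    rw [e2]
    refine h.conj_U hr (mul_mem (inv_mem hv) (h.normal β hβB v hv)) ?_
    rw [← e2]
    exact hzB
  have ez : e z = z := hfix z hzU
  have ew : e w = w * z := by rw [hz]; group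
  have h1 := pow_apply_eq e ew ez p
  rw [hep, MulAut.one_apply] at h1
  have h2 : z ^ p = 1 := by
    have := congrArg (fun y => w⁻¹ * y) h1
    simp only [inv_mul_cancel, inv_mul_cancel_left] at this
    exact this.symm
  have h3 : z = 1 := by
    obtain ⟨k, hk⟩ := h.exists_pow hzU
    have := mem_of_pow (H := (⊥ : Subgroup L)) hr hp hpr hk (by rw [h2]; exact one_mem _)
    rwa [mem_bot] at this
  rw [ew, h3, mul_one]

/-- `U` is conjugated by every element into the group of fixed points -/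
lemma fix_all [Finite L] (hr : r.Prime) {p : ℕ} (hp : p.Prime) (hpr : p ≠ r) {e : MulAut L}
    (hep : e ^ p = 1) (hfix : ∀ u ∈ U, e u = u) (g : L) :
    ∀ v ∈ U, e (g * v * g⁻¹) = g * v * g⁻¹ := by
  have hstep : ∀ g x : L, (∃ s ∈ S, x ∈ Par B s) → (∀ v ∈ U, e (g * v * g⁻¹) = g * v * g⁻¹) →
      ∀ v ∈ U, e (g * x * v * (g * x)⁻¹) = g * x * v * (g * x)⁻¹ := by
    rintro g x ⟨s, hs, hx⟩ hg v hv
    set e' : MulAut L := (MulAut.conj g)⁻¹ * e * MulAut.conj g with he'
    have h1 : ∀ y, e' y = g⁻¹ * e (g * y * g⁻¹) * g := by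
      intro y
      rw [he', MulAut.mul_apply, MulAut.mul_apply, MulAut.conj_apply, MulAut.conj_inv_apply]
    have h2 : ∀ u ∈ U, e' u = u := by
      intro u hu
      rw [h1, hg u hu]
      group
    have h3 : e' ^ p = 1 := by
      have := conj_pow (i := p) (a := (MulAut.conj g)⁻¹) (b := e)
      rw [inv_inv] at this
      rw [he', this, hep, mul_one, inv_mul_cancel]
    have h4 := h.fix_conj hr hp hpr h3 h2 hs hx hv
    rw [h1] at h4
    have h5 : g * (g⁻¹ * e (g * (x * v * x⁻¹) * g⁻¹) * g) * g⁻¹ = g * (x * v * x⁻¹) * g⁻¹ := by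
      rw [h4]
    have e1 : g * (g⁻¹ * e (g * (x * v * x⁻¹) * g⁻¹) * g) * g⁻¹ =
      e (g * (x * v * x⁻¹) * g⁻¹) := by group
    rw [e1] at h5
    have e2 : g * (x * v * x⁻¹) * g⁻¹ = g * x * v * (g * x)⁻¹ := by group
    rwa [e2] at h5
  obtain ⟨s₀, hs₀⟩ := h.nonempty
  have hgen : ∀ x ∈ (B : Set L) ∪ S, ∃ s ∈ S, x ∈ Par B s := by
    rintro x (hx | hx)
    · exact ⟨s₀, hs₀, le_Par hx⟩
    · exact ⟨x, hx, self_mem_Par⟩
  have hg : g ∈ closure ((B : Set L) ∪ S) := by rw [h.closure_top]; exact mem_top g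
  induction hg using Subgroup.closure_induction_right with
  | one =>
    intro v hv
    rw [one_mul, inv_one, mul_one]
    exact hfix v hv
  | mul_right x _ y hy ih => exact hstep x y (hgen y hy) ih
  | mul_inv_cancel x _ y hy ih =>
    obtain ⟨s, hs, hx⟩ := hgen y hy
    exact hstep x y⁻¹ ⟨s, hs, inv_mem hx⟩ ih

lemma U_ne_bot : U ≠ ⊥ := by
  intro hcon
  obtain ⟨s, hs⟩ := h.nonempty
  obtain ⟨b, hb, hbs⟩ := h.thick s hs
  obtain ⟨u, hu, t, htB, htN, rfl⟩ := h.split b hb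
  rw [hcon, mem_bot] at hu
  rw [hu, one_mul] at hbs
  exact hbs (h.norm' (h.sub s hs) htB htN)

/-- An automorphism of prime order `p ≠ r` (or `1`) centralizing `U` is trivial. -/
theorem eq_one_of_fix [Finite L] (hsimple : IsSimpleGroup L) (hr : r.Prime) {p : ℕ}
    (hp : p.Prime) (hpr : p ≠ r) {e : MulAut L} (hep : e ^ p = 1) (hfix : ∀ u ∈ U, e u = u) :
    e = 1 := by
  have h1 := h.fix_all hr hp hpr hep hfix
  let F : Subgroup L := e.toMonoidHom.eqLocus (MonoidHom.id L)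
  have h2 : normalClosure (U : Set L) ≤ F := by
    unfold normalClosure
    rw [closure_le]
    intro x hx
    rw [Group.mem_conjugatesOfSet_iff] at hx
    obtain ⟨u, hu, hux⟩ := hx
    rw [isConj_iff] at hux
    obtain ⟨g, rfl⟩ := hux
    exact h1 g u hu
  have h3 : normalClosure (U : Set L) = ⊤ := by
    rcases hsimple.eq_bot_or_eq_top_of_normal _ (normalClosure_normal (s := (U : Set L))) with h4 | h4
    · exfalso
      apply h.U_ne_bot
      rw [eq_bot_iff, ← h4]
      exact subset_normalClosure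
    · exact h4
  ext x
  have h4 : x ∈ F := h2 (by rw [h3]; exact mem_top x)
  exact h4

end SB

end

end Vale.Agent.P240.H195
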