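import Vale.Agent.P240.H195.Hyper

/-!
Euler characteristics: a comparison lemma for two subsets of a poset, and the vanishing for groups
with a nontrivial normal `p`-subgroup.
-/

namespace Vale.Agent.P240.H195

open Subgroup Vale.Agent.P240.K

universe u v

section
variable {α : Type*} [PartialOrder α]

/-- two finite subsets `X`, `Y` with vanishing Euler characteristics above and below -/
theorem eu_rel {X Y : Set α} (hX : X.Finite) (hY : Y.Finite)
    (h1 : ∀ x ∈ X, eu {y | y ∈ Y ∧ x ≤ y} = 0) (h2 : ∀ y ∈ Y, eu {x | x ∈ X ∧ x ≤ y} = 0) :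
    eu X = eu Y := by
  classical
  have key1 : ∀ y ∈ hY.toFinset,
      ∑ x ∈ hX.toFinset, (if x ≤ y then eu {x' | x' ∈ X ∧ x' < x} else 0) = 1 := by
    intro y hy
    rw [Set.Finite.mem_toFinset] at hy
    have hf : {x | x ∈ X ∧ x ≤ y}.Finite := hX.subset fun x hx => hx.1
    have h3 := eu_rec hf
    rw [h2 y hy] at h3
    have h4 : hf.toFinset = hX.toFinset.filter fun x => x ≤ y := by
      ext x
      rw [Finset.mem_filter, Set.Finite.mem_toFinset, Set.Finite.mem_toFinset]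
      rfl
    have h5 : ∀ x ∈ hf.toFinset, eu {x' | x' ∈ {x | x ∈ X ∧ x ≤ y} ∧ x' < x} =
        eu {x' | x' ∈ X ∧ x' < x} := by
      intro x hx
      rw [Set.Finite.mem_toFinset] at hx
      congr 1
      ext x'
      exact ⟨fun h => ⟨h.1.1, h.2⟩, fun h => ⟨⟨h.1, h.2.le.trans hx.2⟩, h.2⟩⟩
    rw [Finset.sum_congr rfl h5, h4, Finset.sum_filter] at h3
    linarith
  have key2 : ∀ x ∈ hX.toFinset,
      ∑ y ∈ hY.toFinset, (if x ≤ y then eu {y' | y' ∈ Y ∧ y < y'} else 0) = 1 := by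
    intro x hx
    rw [Set.Finite.mem_toFinset] at hx
    have hf : {y | y ∈ Y ∧ x ≤ y}.Finite := hY.subset fun x hx => hx.1
    have h3 := eu_rec' hf
    rw [h1 x hx] at h3
    have h4 : hf.toFinset = hY.toFinset.filter fun y => x ≤ y := by
      ext y
      rw [Finset.mem_filter, Set.Finite.mem_toFinset, Set.Finite.mem_toFinset]
      rfl
    have h5 : ∀ y ∈ hf.toFinset, eu {y' | y' ∈ {y | y ∈ Y ∧ x ≤ y} ∧ y < y'} =
        eu {y' | y' ∈ Y ∧ y < y'} := by
      intro y hy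
      rw [Set.Finite.mem_toFinset] at hy
      congr 1
      ext y'
      exact ⟨fun h => ⟨h.1.1, h.2⟩, fun h => ⟨⟨h.1, hy.2.trans h.2.le⟩, h.2⟩⟩
    rw [Finset.sum_congr rfl h5, h4, Finset.sum_filter] at h3
    linarith
  rw [eu_rec hX, eu_rec' hY]
  congr 1
  calc ∑ x ∈ hX.toFinset, eu {x' | x' ∈ X ∧ x' < x}
      = ∑ x ∈ hX.toFinset, eu {x' | x' ∈ X ∧ x' < x} *
        ∑ y ∈ hY.toFinset, (if x ≤ y then eu {y' | y' ∈ Y ∧ y < y'} else 0) := by
        refine Finset.sum_congr rfl fun x hx => ?_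
        rw [key2 x hx, mul_one]
    _ = ∑ y ∈ hY.toFinset, ∑ x ∈ hX.toFinset, eu {x' | x' ∈ X ∧ x' < x} *
        (if x ≤ y then eu {y' | y' ∈ Y ∧ y < y'} else 0) := by
        rw [Finset.sum_comm]
        refine Finset.sum_congr rfl fun x _ => ?_
        rw [Finset.mul_sum]
    _ = ∑ y ∈ hY.toFinset, eu {y' | y' ∈ Y ∧ y < y'} *
        ∑ x ∈ hX.toFinset, (if x ≤ y then eu {x' | x' ∈ X ∧ x' < x} else 0) := by
        refine Finset.sum_congr rfl fun y _ => ?_
        rw [Finset.mul_sum]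
        refine Finset.sum_congr rfl fun x _ => ?_
        by_cases hxy : x ≤ y
        · rw [if_pos hxy, if_pos hxy, mul_comm]
        · rw [if_neg hxy, if_neg hxy, mul_zero, mul_zero]
    _ = ∑ y ∈ hY.toFinset, eu {y' | y' ∈ Y ∧ y < y'} := by
        refine Finset.sum_congr rfl fun y hy => ?_
        rw [key1 y hy, mul_one]

/-- nonvanishing Euler characteristic implies nonvanishing homology -/
theorem NA_of_eu {𝕜 : Type v} [Field 𝕜] {S : Set α} (hS : S.Finite) (h : eu S ≠ 0) : NA 𝕜 S := by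
  refine NA_of_rat hS ?_
  by_contra hac
  apply h
  have h1 := lefschetz (α := α) (S := S) (σ := id) (fun x hx => hx)
    (fun x _ y _ h => h) hS hac (Nat.lt_succ_self _)
  have h2 : {x | x ∈ S ∧ id x = x} = S := by
    ext x
    simp
  rw [h2, eu_eq hS] at h1
  · exact h1
  · rw [← Nat.card_eq_card_finite_toFinset hS]
    exact Nat.le_succ _

end

section
variable {G : Type u} [Group G] {p : ℕ}

lemma isPGroup_of_mem {E : Subgroup G} (hE : E ∈ ApS p G) : IsPGroup p E := by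
  rintro ⟨x, hx⟩
  exact ⟨1, Subtype.ext (by simpa using hE.2.2 x hx)⟩

/-- a nontrivial `p`-group: the poset is contractible -/
lemma eu_pgroup [hp : Fact p.Prime] [Finite G] {P : Subgroup G} (hP : IsPGroup p P) (hne : P ≠ ⊥) :
    eu (Ain p P) = 0 := by
  have hfin : (Ain p P).Finite := Set.toFinite _
  have : Nontrivial P := (nontrivial_iff_ne_bot P).2 hne
  have := hP.center_nontrivial
  obtain ⟨z, hz⟩ : ∃ z : center P, orderOf z = p := by
    have h1 : p ∣ Nat.card (center P) := by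
      obtain ⟨n, hn⟩ := (hP.to_subgroup (center P)).exists_card_eq
      rw [hn]
      refine dvd_pow_self p ?_
      rintro rfl
      rw [pow_zero] at hn
      exact (Finite.one_lt_card (α := center P)).ne' hn
    exact exists_prime_orderOf_dvd_card' p h1
  set c : G := ((z : P) : G) with hc
  have hcP : c ∈ P := (z : P).2
  have hcp : orderOf c = p := by
    rw [hc, orderOf_coe, orderOf_coe, hz]
  have hcomm : ∀ x ∈ P, x * c = c * x := by
    intro x hx
    have h1 := (mem_center_iff.1 z.2) ⟨x, hx⟩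
    exact congrArg Subtype.val h1
  have hZ : zpowers c ∈ ApS p G := by
    refine ⟨?_, ?_, ?_⟩
    · rw [Ne, zpowers_eq_bot]
      intro h1
      rw [h1, orderOf_one] at hcp
      exact hp.out.one_lt.ne hcp
    · rintro _ ⟨i, rfl⟩ _ ⟨j, rfl⟩
      exact (Commute.refl c).zpow_zpow i j
    · rintro _ ⟨i, rfl⟩
      change (c ^ i) ^ p = 1
      rw [← zpow_natCast, zpow_comm, zpow_natCast, ← hcp, pow_orderOf_eq_one, one_zpow]
  have hZP : zpowers c ≤ P := by rwa [zpowers_le]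
  have hZcomm : ∀ x ∈ P, ∀ y ∈ zpowers c, x * y = y * x := by
    rintro x hx _ ⟨i, rfl⟩
    exact (Commute.zpow_right (hcomm x hx) i)
  rw [eu_reflect (fun E => E ⊔ zpowers c) (Ain p P) {E | E ∈ Ain p P ∧ zpowers c ≤ E} hfin
    (fun E hE => hE.1) ?_ (fun E _ => le_sup_left) (fun E _ F hF hEF => sup_le hEF hF.2)]
  · exact eu_bot (hfin.subset fun E hE => hE.1) (m := zpowers c) ⟨⟨hZ, hZP⟩, le_rfl⟩
      fun E hE => hE.2
  · intro E hE
    exact ⟨⟨sup_mem_ApS hE.1 hZ fun x hx y hy => hZcomm x (hE.2 hx) y hy, sup_le hE.2 hZP⟩,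
      le_sup_right⟩

/-- groups with a nontrivial normal `p`-subgroup -/
theorem eu_normal [hp : Fact p.Prime] [Finite G] {H V : Subgroup G} (hVH : V ≤ H)
    (hV : IsPGroup p V) (hne : V ≠ ⊥) (hn : H ≤ normalizer (V : Set G)) : eu (Ain p H) = 0 := by
  set Y : Set (Subgroup G) := {P | P ≠ ⊥ ∧ IsPGroup p P ∧ P ≤ H} with hY
  have hYf : Y.Finite := Set.toFinite Y
  have hXf : (Ain p H).Finite := Set.toFinite _
  rw [eu_rel (Y := Y) hXf hYf]
  · rw [eu_reflect (fun P => P ⊔ V) Y {P | P ∈ Y ∧ V ≤ P} hYf (fun P hP => hP.1) ?_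
      (fun P _ => le_sup_left) (fun P _ Q hQ hPQ => sup_le hPQ hQ.2)]
    · exact eu_bot (hYf.subset fun P hP => hP.1) (m := V) ⟨⟨hne, hV, hVH⟩, le_rfl⟩
        fun P hP => hP.2
    · intro P hP
      refine ⟨⟨fun h => hP.1 (le_bot_iff.1 (by rw [← h]; exact le_sup_left)),
        hP.2.1.to_sup_of_normal_right' hV (hP.2.2.trans hn), sup_le hP.2.2 hVH⟩, le_sup_right⟩
  · intro E hE
    exact eu_bot (hYf.subset fun P hP => hP.1) (m := E) ⟨⟨hE.1.1, isPGroup_of_mem hE.1, hE.2⟩, le_rfl⟩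
      fun P hP => hP.2
  · intro P hP
    have : {E | E ∈ Ain p H ∧ E ≤ P} = Ain p P := by
      ext E
      exact ⟨fun h => ⟨h.1.1, h.2⟩, fun h => ⟨⟨h.1, h.2.trans hP.2.2⟩, h.2⟩⟩
    rw [this]
    exact eu_pgroup hP.2.1 hP.1

end

end Vale.Agent.P240.H195
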