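import Vale.Agent.P240.H195.BNOpp
import Vale.Agent.P240.H195.EuRel

/-!
Split BN-pairs in characteristic `p`: the Euler characteristic of `𝒜ₚ(C_L(F))` for a `p`-group `F`
of automorphisms.
-/

namespace Vale.Agent.P240.H195

open Subgroup Vale.Agent.P240.K

universe u

section
variable {L : Type u} [Group L]

/-- the elements of `L` fixed by all automorphisms in `F` -/
def fixS (F : Set (MulAut L)) : Subgroup L where
  carrier := {x | ∀ f ∈ F, f x = x}
  one_mem' := fun f _ => map_one f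
  mul_mem' := fun {x y} hx hy f hf => by rw [map_mul, hx f hf, hy f hf]
  inv_mem' := fun {x} hx f hf => by rw [map_inv, hx f hf]

lemma mem_fixS {F : Set (MulAut L)} {x : L} : x ∈ fixS F ↔ ∀ f ∈ F, f x = x := Iff.rfl

/-- the automorphisms stabilizing `Q` -/
def stabA (Q : Subgroup L) : Subgroup (MulAut L) where
  carrier := {f | am f Q = Q}
  one_mem' := am_one Q
  mul_mem' := fun {f g} hf hg => by
    change am (f * g) Q = Q
    rw [am_mul]
    rw [Set.mem_ofPred_eq] at hf hg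
    rw [hg, hf]
  inv_mem' := fun {f} hf => am_inv_eq hf

lemma mem_stabA {Q : Subgroup L} {f : MulAut L} : f ∈ stabA Q ↔ am f Q = Q := Iff.rfl

lemma am_conj_cj (f : MulAut L) (g : L) (Q : Subgroup L) :
    am ((MulAut.conj g)⁻¹ * f * MulAut.conj g) (cj g⁻¹ Q) = cj g⁻¹ (am f Q) := by
  rw [am_mul, am_mul, am_conj, ← cj_mul, mul_inv_cancel, cj_one, ← map_inv, am_conj]

/-- transport by conjugation -/
lemma eu_YF_conj (B : Subgroup L) (F : Set (MulAut L)) (g : L) :
    eu (YF B ((fun f => (MulAut.conj g)⁻¹ * f * MulAut.conj g) '' F)) = eu (YF B F) := by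
  have : YF B ((fun f => (MulAut.conj g)⁻¹ * f * MulAut.conj g) '' F) =
      cjIso g⁻¹ '' YF B F := by
    ext Q
    constructor
    · rintro ⟨⟨x, hx⟩, h2, h3⟩
      refine ⟨cj g Q, ⟨⟨g * x, ?_⟩, ?_, ?_⟩, ?_⟩
      · rw [cj_mul, cj_le]
        exact hx
      · intro hcon
        apply h2
        rw [eq_top_iff, ← cj_le (g := g), hcon]
        exact le_top
      · intro f hf
        have h4 := h3 _ ⟨f, hf, rfl⟩
        have h5 := am_conj_cj f g (cj g Q)
        rw [← cj_mul, inv_mul_cancel, cj_one] at h5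
        rw [h4] at h5
        have h6 : cj g Q = cj g (cj g⁻¹ (am f (cj g Q))) := congrArg (cj g) h5
        rw [← cj_mul, mul_inv_cancel, cj_one] at h6
        exact h6.symm
      · change cj g⁻¹ (cj g Q) = Q
        rw [← cj_mul, inv_mul_cancel, cj_one]
    · rintro ⟨Q, ⟨⟨x, hx⟩, h2, h3⟩, rfl⟩
      change cj g⁻¹ Q ∈ _
      refine ⟨⟨g⁻¹ * x, ?_⟩, ?_, ?_⟩
      · rw [cj_mul, cj_le]
        exact hx
      · intro hcon
        apply h2
        rw [eq_top_iff, ← cj_le (g := g⁻¹), hcon]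
        exact le_top
      · rintro _ ⟨f, hf, rfl⟩
        change am ((MulAut.conj g)⁻¹ * f * MulAut.conj g) (cj g⁻¹ Q) = _
        rw [am_conj_cj, h3 f hf]
  rw [this, eu_image]

variable {B N U : Subgroup L} {S : Set L} {p : ℕ}

namespace SB

variable (h : SB p B N U S)
include h

/-- parabolic subgroups are self-normalizing -/
lemma mem_of_cj_eq [Finite L] (hr : p.Prime) {Q : Subgroup L} (hQ : Pb B Q) {x : L}
    (hx : cj x Q = Q) : x ∈ Q := by
  obtain ⟨g, hg⟩ := hQ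
  have hBH : B ≤ cj g⁻¹ Q := cj_le_iff.1 hg
  have h1 : cj (g⁻¹ * x * g) B ≤ cj g⁻¹ Q := by
    rw [mul_assoc, cj_mul, cj_le, cj_mul]
    have h2 : cj x (cj g B) ≤ cj x Q := cj_le.2 hg
    rwa [hx] at h2
  have h2 := h.mem_of_cj_le hr hBH h1
  rw [mem_cj] at h2
  have e : g⁻¹⁻¹ * (g⁻¹ * x * g) * g⁻¹ = x := by group
  rwa [e] at h2

lemma mem_B_iff [Finite L] (hr : p.Prime) {x : L} : x ∈ B ↔ cj x U = U := by
  constructor
  · intro hx
    have h1 : cj x U ≤ U := by
      intro y hy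
      rw [mem_cj] at hy
      have := h.normal x hx _ hy
      have e : x * (x⁻¹ * y * x) * x⁻¹ = y := by group
      rwa [e] at this
    exact Subgroup.eq_of_le_of_card_ge h1
      (Subgroup.card_map_of_injective (MulAut.conj x).injective).ge
  · intro hx
    refine h.mem_B_of_norm hr fun u hu => ?_
    rw [← hx, mem_cj] at hu
    exact hu

lemma mem_cj_B_iff [Finite L] (hr : p.Prime) {g x : L} :
    x ∈ cj g B ↔ cj x (cj g U) = cj g U := by
  rw [mem_cj, h.mem_B_iff hr]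
  have e : cj x (cj g U) = cj g (cj (g⁻¹ * x * g) U) := by
    rw [← cj_mul, ← cj_mul]
    congr 1
    group
  rw [e]
  constructor
  · intro h1
    rw [h1]
  · intro h1
    exact cj_injective g h1

/-- `p`-groups containing `U` are equal to `U` -/
lemma eq_U_of_le [Finite L] (hr : p.Prime) {P : Subgroup L} (hP : IsPGroup p P) (hUP : U ≤ P) :
    P = U := by
  have : Fact p.Prime := ⟨hr⟩
  by_contra hne
  have hlt : U < P := lt_of_le_of_ne hUP (Ne.symm hne)
  obtain ⟨x, hx, hxU⟩ := SetLike.exists_of_lt (w2_nc hP hlt)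
  apply hxU
  have hxB : x ∈ B := by
    rw [h.mem_B_iff hr, cj_eq_iff]
    exact hx.2
  obtain ⟨k, hk⟩ := hP ⟨x, hx.1⟩
  exact h.mem_U hr hxB (k := k) (by simpa using congrArg Subtype.val hk)

/-- a `p`-group of automorphisms stabilizes a conjugate of `B` -/
theorem exists_fix [Finite L] (hr : p.Prime) {F : Subgroup (MulAut L)} (hF : IsPGroup p F) :
    ∃ g : L, ∀ f ∈ F, am f (cj g B) = cj g B := by
  have : Fact p.Prime := ⟨hr⟩
  obtain ⟨P₀, hP₀⟩ := h.pgroup.exists_le_sylow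
  have hU : (P₀ : Subgroup L) = U := h.eq_U_of_le hr P₀.2 hP₀
  let act : MulAction F (Sylow p L) := inferInstance
  obtain ⟨P, hP⟩ := hF.nonempty_fixed_point_of_prime_not_dvd_card (Sylow p L) (by
    intro hdvd
    have h1 := card_sylow_modEq_one p L
    have h2 := (Nat.modEq_zero_iff_dvd.2 hdvd).symm.trans h1
    have h3 : 0 % p = 1 % p := h2
    rw [Nat.zero_mod, Nat.mod_eq_of_lt hr.one_lt] at h3
    exact absurd h3 (by norm_num))
  obtain ⟨g, hg⟩ := MulAction.exists_smul_eq L P₀ P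
  have hgU : (P : Subgroup L) = cj g U := by
    rw [← hg, ← hU]
    rfl
  refine ⟨g, fun f hf => ?_⟩
  have hfP : am f (cj g U) = cj g U := by
    have h1 := hP ⟨f, hf⟩
    have h2 := congrArg (fun P : Sylow p L => (P : Subgroup L)) h1
    rw [← hgU]
    exact h2
  ext x
  rw [mem_am, h.mem_cj_B_iff hr, h.mem_cj_B_iff hr]
  have e : am f (cj (f⁻¹ x) (cj g U)) = cj x (cj g U) := by
    rw [am_cj, hfP, ← MulAut.mul_apply, mul_inv_cancel, MulAut.one_apply]
  constructor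
  · intro h1
    rw [← e, h1, hfP]
  · intro h1
    apply am_injective f
    rw [e, h1, hfP]

/-- the `p`-group `⨅ gUg⁻¹` over all `gBg⁻¹ ≤ Q` -/
lemma exists_normal [Finite L] (hr : p.Prime) {F : Subgroup (MulAut L)} (hFp : IsPGroup p F)
    (hF : ∀ f ∈ F, am f B = B) {Q : Subgroup L} (hQ : Q ∈ YF B F) :
    ∃ V ≤ fixS (F : Set (MulAut L)) ⊓ Q, IsPGroup p V ∧ V ≠ ⊥ ∧
      fixS (F : Set (MulAut L)) ⊓ Q ≤ normalizer (V : Set L) := by
  have : Fact p.Prime := ⟨hr⟩
  obtain ⟨⟨g₀, hg₀⟩, hQtop, hQF⟩ := hQ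
  have hBH : B ≤ cj g₀⁻¹ Q := cj_le_iff.1 hg₀
  have hHtop : cj g₀⁻¹ Q ≠ ⊤ := by
    intro hcon
    apply hQtop
    rw [eq_top_iff, ← cj_le (g := g₀⁻¹), hcon]
    exact le_top
  obtain ⟨V₀, hV₀U, hV₀ne, hV₀n⟩ := h.exists_rad hr hBH hHtop
  set W : Subgroup L := ⨅ g : {g : L // cj g B ≤ Q}, cj (g : L) U with hW
  have hWm : ∀ x, x ∈ W ↔ ∀ g : L, cj g B ≤ Q → x ∈ cj g U := by
    intro x
    rw [hW, mem_iInf]
    exact ⟨fun h1 g hg => h1 ⟨g, hg⟩, fun h1 g => h1 g.1 g.2⟩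
  have hWU : W ≤ cj g₀ U := fun x hx => (hWm x).1 hx g₀ hg₀
  have hWp : IsPGroup p W := (h.pgroup.map (MulAut.conj g₀).toMonoidHom).to_le hWU
  have hV₀W : cj g₀ V₀ ≤ W := by
    intro y hy
    rw [hWm]
    intro g hg
    have h1 : g₀⁻¹ * g ∈ cj g₀⁻¹ Q := by
      refine h.mem_of_cj_le hr hBH ?_
      rw [cj_mul, cj_le]
      exact hg
    have h2 : cj (g₀⁻¹ * g) V₀ = V₀ := cj_eq_iff.2 (hV₀n h1)
    have h3 : cj g V₀ = cj g₀ V₀ := by
      have e : g = g₀ * (g₀⁻¹ * g) := by group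
      rw [e, cj_mul, h2]
    rw [← h3] at hy
    exact cj_le.2 hV₀U hy
  have hWne : W ≠ ⊥ := by
    intro hcon
    apply hV₀ne
    rw [eq_bot_iff]
    intro x hx
    have h1 : g₀ * x * g₀⁻¹ ∈ W := hV₀W (cj_mul_mem hx)
    rw [hcon, mem_bot] at h1
    rw [mem_bot]
    exact conj_eq_one_iff.1 h1
  have hWQ : W ≤ Q := fun x hx => hg₀ (cj_le.2 h.le (hWU hx))
  have hWn : ∀ x ∈ Q, ∀ y ∈ W, x * y * x⁻¹ ∈ W := by
    intro x hx y hy
    rw [hWm] at hy ⊢
    intro g hg
    have h1 : cj (x⁻¹ * g) B ≤ Q := by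
      rw [cj_mul]
      have h2 : cj x⁻¹ (cj g B) ≤ cj x⁻¹ Q := cj_le.2 hg
      rwa [cj_self (inv_mem hx)] at h2
    have h2 := hy _ h1
    rw [mem_cj] at h2 ⊢
    have e : (x⁻¹ * g)⁻¹ * y * (x⁻¹ * g) = g⁻¹ * (x * y * x⁻¹) * g := by group
    rwa [e] at h2
  have hWF : ∀ f ∈ F, ∀ y ∈ W, f y ∈ W := by
    intro f hf y hy
    rw [hWm] at hy ⊢
    intro g hg
    have h1 : cj (f⁻¹ g) B ≤ Q := by
      have h2 : am f⁻¹ (cj g B) ≤ am f⁻¹ Q := am_le.2 hg
      rwa [am_cj, am_inv_eq (hF f hf), am_inv_eq (hQF f hf)] at h2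
    have h2 := hy _ h1
    rw [mem_cj] at h2 ⊢
    have h3 := h.apply_U hr (hF f hf) h2
    rw [map_mul, map_mul, map_inv, ← MulAut.mul_apply, mul_inv_cancel, MulAut.one_apply] at h3
    exact h3
  -- fixed points
  let act : MulAction F W :=
    { smul := fun f y => ⟨(f : MulAut L) y, hWF f f.2 y y.2⟩
      one_smul := fun y => rfl
      mul_smul := fun f g y => rfl }
  have hcard : p ∣ Nat.card W := by
    obtain ⟨n, hn⟩ := hWp.exists_card_eq
    rw [hn]
    refine dvd_pow_self p ?_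
    rintro rfl
    rw [pow_zero] at hn
    exact hWne (Subgroup.card_eq_one.1 hn)
  obtain ⟨b, hb, hb1⟩ := hFp.exists_fixed_point_of_prime_dvd_card_of_fixed_point W hcard
    (a := 1) (fun f => Subtype.ext (map_one (f : MulAut L)))
  refine ⟨W ⊓ (fixS (F : Set (MulAut L)) ⊓ Q), inf_le_right, hWp.to_le inf_le_left, ?_, ?_⟩
  · intro hcon
    apply hb1
    have h1 : (b : L) ∈ W ⊓ (fixS (F : Set (MulAut L)) ⊓ Q) := by
      refine ⟨b.2, ?_, hWQ b.2⟩
      intro f hf
      exact congrArg Subtype.val (hb ⟨f, hf⟩)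
    rw [hcon, mem_bot] at h1
    exact (Subtype.ext h1).symm
  · intro x hx
    rw [mem_normalizer_iff]
    intro y
    constructor
    · intro hy
      have h2 : x * y * x⁻¹ ∈ fixS (F : Set (MulAut L)) ⊓ Q :=
        mul_mem (mul_mem hx hy.2) (inv_mem hx)
      exact ⟨hWn x hx.2 y hy.1, h2⟩
    · intro hy
      have h1 := hWn x⁻¹ (inv_mem hx.2) _ hy.1
      have h2 := mul_mem (mul_mem (inv_mem hx) hy.2) hx
      have e : x⁻¹ * (x * y * x⁻¹) * x⁻¹⁻¹ = y := by group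
      have e' : x⁻¹ * (x * y * x⁻¹) * x = y := by group
      rw [e] at h1
      rw [e'] at h2
      exact ⟨h1, h2⟩

/-- the posets of `p`-subgroups and of parabolic subgroups -/
theorem eu_cent [Finite L] (hr : p.Prime) {F : Subgroup (MulAut L)} (hFp : IsPGroup p F)
    (hF : ∀ f ∈ F, am f B = B) :
    eu (Ain p (fixS (F : Set (MulAut L)))) = eu (YF B (F : Set (MulAut L))) := by
  have : Fact p.Prime := ⟨hr⟩
  refine eu_rel (Set.toFinite _) (Set.toFinite _) ?_ ?_
  · intro E hE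
    set E' : Subgroup (MulAut L) := E.map MulAut.conj with hE'
    have hE'p : IsPGroup p E' := (isPGroup_of_mem hE.1).map _
    have hFE : ∀ f ∈ F, ∀ e ∈ E, f * MulAut.conj e * f⁻¹ = MulAut.conj e := by
      intro f hf e he
      ext y
      have h1 : f e = e := hE.2 he f hf
      simp only [MulAut.mul_apply, MulAut.conj_apply, map_mul, map_inv, h1]
      rw [← MulAut.mul_apply, mul_inv_cancel, MulAut.one_apply]
    have hn : F ≤ normalizer (E' : Set (MulAut L)) := by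
      have key : ∀ f ∈ F, ∀ φ ∈ E', f * φ * f⁻¹ ∈ E' := by
        rintro f hf _ ⟨e, he, rfl⟩
        rw [hFE f hf e he]
        exact ⟨e, he, rfl⟩
      intro f hf
      rw [mem_normalizer_iff]
      intro φ
      refine ⟨key f hf φ, fun hφ => ?_⟩
      have h1 := key f⁻¹ (inv_mem hf) _ hφ
      have e : f⁻¹ * (f * φ * f⁻¹) * f⁻¹⁻¹ = φ := by group
      rwa [e] at h1
    have hF' : IsPGroup p (F ⊔ E' : Subgroup (MulAut L)) := hFp.to_sup_of_normal_right' hE'p hn
    have hset : {Q | Q ∈ YF B (F : Set (MulAut L)) ∧ E ≤ Q} =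
        YF B ((F ⊔ E' : Subgroup (MulAut L)) : Set (MulAut L)) := by
      ext Q
      constructor
      · rintro ⟨⟨h1, h2, h3⟩, h4⟩
        refine ⟨h1, h2, ?_⟩
        have h5 : F ⊔ E' ≤ stabA Q := by
          refine sup_le (fun f hf => h3 f hf) ?_
          rintro _ ⟨e, he, rfl⟩
          exact cj_self (h4 he)
        exact fun f hf => h5 hf
      · rintro ⟨h1, h2, h3⟩
        refine ⟨⟨h1, h2, fun f hf => h3 f ((le_sup_left : F ≤ F ⊔ E') hf)⟩, fun e he => ?_⟩
        refine h.mem_of_cj_eq hr h1 ?_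
        exact h3 (MulAut.conj e) ((le_sup_right : E' ≤ F ⊔ E') ⟨e, he, rfl⟩)
    rw [hset]
    obtain ⟨g, hg⟩ := h.exists_fix hr hF'
    rw [← eu_YF_conj B _ g]
    set F'' := (fun f => (MulAut.conj g)⁻¹ * f * MulAut.conj g) ''
      ((F ⊔ E' : Subgroup (MulAut L)) : Set (MulAut L)) with hF''
    have hfix : ∀ f ∈ F'', am f B = B := by
      rintro _ ⟨f, hf, rfl⟩
      have h1 := am_conj_cj f g (cj g B)
      rw [hg f hf, ← cj_mul, inv_mul_cancel, cj_one] at h1
      exact h1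
    obtain ⟨e, he, he1⟩ : ∃ e ∈ E, e ≠ 1 := by
      by_contra hcon
      push Not at hcon
      exact hE.1.1 (by rw [eq_bot_iff]; exact fun x hx => mem_bot.2 (hcon x hx))
    have hconj : MulAut.conj (g⁻¹ * e * g) ∈ F'' := by
      refine ⟨MulAut.conj e, (le_sup_right : E' ≤ F ⊔ E') ⟨e, he, rfl⟩, ?_⟩
      simp only [map_mul, map_inv]
    have hxB : g⁻¹ * e * g ∈ B := by
      refine h.mem_of_cj_eq hr ⟨1, by rw [cj_one]⟩ ?_
      have := hfix _ hconj
      rwa [am_conj] at this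
    have hxU : g⁻¹ * e * g ∈ U := by
      refine h.mem_U hr hxB (k := 1) ?_
      have e1 : (g⁻¹ * e * g) ^ p = g⁻¹ * e ^ p * g := by
        have := conj_pow (i := p) (a := g⁻¹) (b := e)
        rwa [inv_inv] at this
      rw [pow_one, e1, hE.1.2.2 e he]
      group
    have hx1 : g⁻¹ * e * g ≠ 1 := by
      intro hcon
      apply he1
      have : e = g * (g⁻¹ * e * g) * g⁻¹ := by group
      rw [this, hcon]
      group
    rw [h.geo hr hfix, h.card_opp_zero hr hxU hx1 hconj]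
    simp
  · intro Q hQ
    have hset : {E | E ∈ Ain p (fixS (F : Set (MulAut L))) ∧ E ≤ Q} =
        Ain p (fixS (F : Set (MulAut L)) ⊓ Q) := by
      ext E
      exact ⟨fun h1 => ⟨h1.1.1, le_inf h1.1.2 h1.2⟩,
        fun h1 => ⟨⟨h1.1, h1.2.trans inf_le_left⟩, h1.2.trans inf_le_right⟩⟩
    rw [hset]
    obtain ⟨V, hV1, hV2, hV3, hV4⟩ := h.exists_normal hr hFp hF hQ
    exact eu_normal hV1 hV2 hV3 hV4

end SB

end

end Vale.Agent.P240.H195
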