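import Vale.Agent.P240.H195.EuRel

/-!
The Euler characteristic of `𝒜ₚ(A)` for a group `A` with a normal subgroup `I` such that all
subgroups of order `p` outside `I` coincide modulo `I`.
-/

namespace Vale.Agent.P240.H195

open Subgroup Vale.Agent.P240.K

universe u v

section
variable {M : Type u} [Group M] {p : ℕ}

lemma min_of_same {A I : Subgroup M} [I.Normal]
    (hsame : ∀ F ∈ Ain p A, ∀ F' ∈ Ain p A, F ⊓ I = ⊥ → F' ⊓ I = ⊥ → F' ≤ F ⊔ I)
    {F F' : Subgroup M} (hF : F ∈ Ain p A) (hFI : F ⊓ I = ⊥) (hF' : F' ∈ Ain p A)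
    (hle : F' ≤ F) : F' = F := by
  have hF'I : F' ⊓ I = ⊥ := by
    rw [eq_bot_iff, ← hFI]
    exact inf_le_inf_right I hle
  refine le_antisymm hle fun x hx => ?_
  have h1 := hsame F' hF' F hF hF'I hFI hx
  rw [Subgroup.mem_sup_of_normal_right] at h1
  obtain ⟨f, hf, i, hi, hfi⟩ := h1
  have h2 : i ∈ F ⊓ I := by
    refine mem_inf.2 ⟨?_, hi⟩
    have : i = f⁻¹ * x := by rw [← hfi]; group
    rw [this]
    exact mul_mem (inv_mem (hle hf)) hx
  rw [hFI, mem_bot] at h2
  rw [← hfi, h2, mul_one]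
  exact hf

/-- the contribution of the subgroups outside `I` -/
theorem eu_outer [Finite M] {A I : Subgroup M} [I.Normal] (hIA : I ≤ A)
    (hsame : ∀ F ∈ Ain p A, ∀ F' ∈ Ain p A, F ⊓ I = ⊥ → F' ⊓ I = ⊥ → F' ≤ F ⊔ I) :
    eu (Ain p A) = eu (Ain p I) -
      ∑ F ∈ (Set.toFinite {F | F ∈ Ain p A ∧ F ⊓ I = ⊥}).toFinset,
        eu (Ain p (I ⊓ centralizer (F : Set M))) := by
  set S := Ain p A with hS
  have hSf : S.Finite := Set.toFinite S
  set D : Set (Subgroup M) := {F | F ∈ S ∧ F ⊓ I = ⊥} with hD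
  have hDS : D ⊆ S := fun F hF => hF.1
  have hmin : ∀ F ∈ D, ∀ F' ∈ S, F' ≤ F → F' = F := fun F hF F' hF' hle =>
    min_of_same hsame hF.1 hF.2 hF' hle
  have h1 := eu_attach hSf hDS (fun x hx y hy hle => by rw [hmin x hx y hy hle]; exact hx)
  have h2 : eu (S \ D) = eu (Ain p I) := by
    refine eu_coreflect (fun E => E ⊓ I) _ _ _ (hSf.subset Set.sdiff_subset) rfl ?_ ?_
      (fun E _ => inf_le_left) (fun E _ F hF hFE => le_inf hFE hF.2)
    · intro E hE
      refine ⟨⟨hE.1, hE.2.trans hIA⟩, fun hcon => hE.1.1 ?_⟩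
      have := hcon.2
      rwa [inf_eq_left.2 hE.2] at this
    · intro E hE
      refine ⟨mem_ApS_of_le hE.1.1 inf_le_left fun hcon => hE.2 ⟨hE.1, hcon⟩, inf_le_right⟩
  have h3 : ∀ F ∈ (hSf.subset hDS).toFinset,
      eu {y | y ∈ S ∧ y < F} * eu {y | y ∈ S \ D ∧ F < y} =
        eu (Ain p (I ⊓ centralizer (F : Set M))) := by
    intro F hF
    rw [Set.Finite.mem_toFinset] at hF
    have h4 : {y | y ∈ S ∧ y < F} = ∅ := by
      rw [Set.eq_empty_iff_forall_notMem]
      rintro y ⟨hy, hyF⟩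
      exact hyF.ne (hmin F hF y hy hyF.le)
    rw [h4, eu_empty, one_mul]
    set Z : Set (Subgroup M) := {y | y ∈ S ∧ y ≤ centralizer (F : Set M) ∧ y ⊓ I ≠ ⊥} with hZ
    set T : Set (Subgroup M) := {y | y ∈ S \ D ∧ F < y} with hT
    have hZf : Z.Finite := Set.toFinite Z
    have h5 : eu Z = eu T := by
      refine eu_reflect (fun y => y ⊔ F) Z T hZf ?_ ?_ (fun y _ => le_sup_left)
        (fun y _ t ht hyt => sup_le hyt ht.2.le)
      · rintro y ⟨hy, hFy⟩
        refine ⟨hy.1, ?_, fun hcon => hy.2 ⟨hy.1, hcon⟩⟩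
        intro x hx
        rw [mem_centralizer_iff]
        exact fun f hf => hy.1.1.2.1 f (hFy.le hf) x hx
      · rintro y ⟨hy, hyc, hyI⟩
        refine ⟨⟨⟨sup_mem_ApS hy.1 hF.1.1 fun x hx f hf =>
          ((mem_centralizer_iff.1 (hyc hx)) f hf).symm, sup_le hy.2 hF.1.2⟩, fun hcon => hyI ?_⟩,
          lt_of_le_of_ne le_sup_right fun hcon => hyI ?_⟩
        · rw [eq_bot_iff, ← hcon.2]
          exact inf_le_inf_right I le_sup_left
        · rw [eq_bot_iff, ← hF.2]
          refine inf_le_inf_right I ?_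
          rw [hcon]
          exact le_sup_left
    rw [← h5]
    refine eu_coreflect (fun E => E ⊓ I) _ _ _ hZf rfl ?_ ?_ (fun E _ => inf_le_left)
      (fun E _ F hF hFE => le_inf hFE (hF.2.trans inf_le_left))
    · intro E hE
      refine ⟨⟨hE.1, (hE.2.trans inf_le_left).trans hIA⟩, hE.2.trans inf_le_right, ?_⟩
      rw [inf_eq_left.2 (hE.2.trans inf_le_left)]
      exact hE.1.1
    · rintro E ⟨hE, hEc, hEI⟩
      exact ⟨mem_ApS_of_le hE.1 inf_le_left hEI, le_inf inf_le_right (inf_le_left.trans hEc)⟩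
  rw [Finset.sum_congr rfl h3, h2] at h1
  exact h1

lemma map_lt_iff {L : Type*} [Group L] {φ : L →* M} (hφ : Function.Injective φ)
    (x y : Subgroup L) : x < y ↔ x.map φ < y.map φ := by
  constructor
  · intro hxy
    refine lt_of_le_of_ne (Subgroup.map_mono hxy.le) fun h => hxy.ne ?_
    exact Subgroup.map_injective hφ h
  · intro hxy
    refine lt_of_le_of_ne ?_ fun h => hxy.ne (by rw [h])
    exact (Subgroup.map_le_map_iff_of_injective hφ).1 hxy.le

lemma eu_map {L : Type*} [Group L] {φ : L →* M} (hφ : Function.Injective φ) (C : Subgroup L) :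
    eu (Ain p (C.map φ)) = eu (Ain p C) := by
  have h : (fun E : Subgroup L => E.map φ) '' (Ain p C) = Ain p (C.map φ) := by
    ext E
    constructor
    · rintro ⟨F, hF, rfl⟩
      exact ⟨(map_mem_ApS hφ).2 hF.1, Subgroup.map_mono hF.2⟩
    · rintro ⟨hE, h4⟩
      have h5 : (E.comap φ).map φ = E := by
        refine Subgroup.map_comap_eq_self (h4.trans ?_)
        rintro _ ⟨x, _, rfl⟩
        exact ⟨x, rfl⟩
      refine ⟨E.comap φ, ⟨?_, ?_⟩, h5⟩
      · rw [← map_mem_ApS hφ, h5]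
        exact hE
      · rw [← Subgroup.map_le_map_iff_of_injective hφ, h5]
        exact h4
  rw [← h]
  exact eu_emb (Subgroup.map_injective hφ) (map_lt_iff hφ) _

end

end Vale.Agent.P240.H195
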