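import Vale.Agent.P240.H195.BNCent
import Vale.Agent.P240.H195.EuOuter

/-!
Split BN-pairs in characteristic `p`: the Euler characteristic of `𝒜ₚ(A)` for `Inn L ≤ A ≤ Aut L`
does not vanish if there is at most one outer class of subgroups of order `p`.
-/

namespace Vale.Agent.P240.H195

open Subgroup Vale.Agent.P240.K

universe u

section
variable {L : Type u} [Group L]

/-- the group of inner automorphisms -/
def innS (L : Type u) [Group L] : Subgroup (MulAut L) := (MulAut.conj : L →* MulAut L).range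

lemma conj_aut (f : MulAut L) (x : L) : f * MulAut.conj x * f⁻¹ = MulAut.conj (f x) := by
  ext y
  simp only [MulAut.mul_apply, MulAut.conj_apply, map_mul, map_inv]
  rw [← MulAut.mul_apply, mul_inv_cancel, MulAut.one_apply]

instance innS_normal : (innS L).Normal :=
  ⟨by rintro _ ⟨x, rfl⟩ f; exact ⟨f x, (conj_aut f x).symm⟩⟩

lemma inf_centralizer (hinj : Function.Injective (MulAut.conj : L →* MulAut L))
    (F : Subgroup (MulAut L)) : innS L ⊓ centralizer (F : Set (MulAut L)) =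
      (fixS (F : Set (MulAut L))).map (MulAut.conj : L →* MulAut L) := by
  ext φ
  constructor
  · rintro ⟨⟨x, rfl⟩, hx⟩
    refine ⟨x, fun f hf => hinj ?_, rfl⟩
    rw [← conj_aut, mem_centralizer_iff.1 hx f hf, mul_inv_cancel_right]
  · rintro ⟨x, hx, rfl⟩
    refine ⟨⟨x, rfl⟩, ?_⟩
    change MulAut.conj x ∈ centralizer (F : Set (MulAut L))
    rw [mem_centralizer_iff]
    intro f hf
    have h1 := conj_aut f x
    rw [hx f hf, mul_inv_eq_iff_eq_mul] at h1
    exact h1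

lemma eu_inf_centralizer {p : ℕ} (hinj : Function.Injective (MulAut.conj : L →* MulAut L))
    (F : Subgroup (MulAut L)) : eu (Ain p (innS L ⊓ centralizer (F : Set (MulAut L)))) =
      eu (Ain p (fixS (F : Set (MulAut L)))) := by
  rw [inf_centralizer hinj, eu_map hinj]

lemma eu_innS {p : ℕ} (hinj : Function.Injective (MulAut.conj : L →* MulAut L)) :
    eu (Ain p (innS L)) = eu (Ain p (⊤ : Subgroup L)) := by
  have : innS L = (⊤ : Subgroup L).map (MulAut.conj : L →* MulAut L) := by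
    ext φ
    constructor
    · rintro ⟨x, rfl⟩
      exact ⟨x, mem_top x, rfl⟩
    · rintro ⟨x, _, rfl⟩
      exact ⟨x, rfl⟩
  rw [this, eu_map hinj]

lemma eu_Ain_cj {M : Type u} [Group M] {p : ℕ} (n : M) (H : Subgroup M) :
    eu (Ain p (cj n H)) = eu (Ain p H) := by
  have : Ain p (cj n H) = cjIso n '' Ain p H := by
    ext E
    constructor
    · rintro ⟨h1, h2⟩
      refine ⟨cj n⁻¹ E, ⟨cj_mem_ApS.2 h1, ?_⟩, ?_⟩
      · rw [← cj_le (g := n), ← cj_mul, mul_inv_cancel, cj_one]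
        exact h2
      · change cj n (cj n⁻¹ E) = E
        rw [← cj_mul, mul_inv_cancel, cj_one]
    · rintro ⟨E, ⟨h1, h2⟩, rfl⟩
      exact ⟨cj_mem_ApS.2 h1, cj_le.2 h2⟩
  rw [this, eu_image]

lemma eu_cent_cj {p : ℕ} (g : L) (F : Subgroup (MulAut L)) :
    eu (Ain p (innS L ⊓ centralizer ((cj (MulAut.conj g) F : Subgroup (MulAut L)) :
      Set (MulAut L)))) = eu (Ain p (innS L ⊓ centralizer (F : Set (MulAut L)))) := by
  have hn : MulAut.conj g ∈ normalizer (innS L : Set (MulAut L)) :=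
    le_normalizer (show MulAut.conj g ∈ innS L from ⟨g, rfl⟩)
  rw [cj_inf_centralizer hn, eu_Ain_cj]

variable {B N U : Subgroup L} {S : Set L} {p : ℕ}

namespace SB

variable (h : SB p B N U S)
include h

/-- `𝒜ₚ(L)` -/
theorem eu_all [Finite L] (hr : p.Prime) : ∃ ε : ℤ, (ε = 1 ∨ ε = -1) ∧
    eu (Ain p (⊤ : Subgroup L)) = -(ε * (Nat.card U : ℤ)) := by
  have : Fact p.Prime := ⟨hr⟩
  have h1 := h.eu_cent hr (F := ⊥) IsPGroup.of_bot (by
    intro f hf
    rw [mem_bot] at hf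
    rw [hf, am_one])
  have h2 : fixS (((⊥ : Subgroup (MulAut L)) : Set (MulAut L))) = ⊤ := by
    rw [eq_top_iff]
    intro x _ f hf
    have hf' : f = 1 := mem_bot.1 hf
    rw [hf', MulAut.one_apply]
  have h3 : YF B (((⊥ : Subgroup (MulAut L)) : Set (MulAut L))) = YF B ∅ := by
    ext Q
    constructor
    · rintro ⟨h1, h2, _⟩
      exact ⟨h1, h2, fun f hf => absurd hf (Set.notMem_empty f)⟩
    · rintro ⟨h1, h2, _⟩
      refine ⟨h1, h2, fun f hf => ?_⟩
      have hf' : f = 1 := mem_bot.1 hf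
      rw [hf', am_one]
  rw [h2, h3, h.geo hr (fun f hf => absurd hf (Set.notMem_empty f)), h.card_opp_empty hr] at h1
  refine ⟨_, ?_, h1⟩
  exact h.eps_sq (fun f hf => absurd hf (Set.notMem_empty f)) _ ⊤ rfl le_top h.B_ne_top.symm
    (fun f _ => am_top f)

/-- the centralizer of a `p`-group of automorphisms -/
theorem eu_fix [Finite L] (hr : p.Prime) {F : Subgroup (MulAut L)} (hFp : IsPGroup p F)
    (hF : ∀ f ∈ F, am f B = B) : ∃ n : ℕ, eu (Ain p (fixS (F : Set (MulAut L)))) =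
      -(eu {Q | B < Q ∧ Q < ⊤ ∧ Inv (F : Set (MulAut L)) Q} * (n : ℤ)) ∧
      (n = 0 ∨ n = Nat.card {u : L | u ∈ U ∧ ∀ f ∈ F, f u = u}) := by
  refine ⟨_, ?_, h.card_opp hr (F := (F : Set (MulAut L))) hF⟩
  rw [h.eu_cent hr hFp hF, h.geo hr hF]

/-- an automorphism stabilizing all chambers is trivial -/
lemma eq_one_of_chambers [Finite L] (hsimple : IsSimpleGroup L) (hr : p.Prime) {f : MulAut L}
    (hf : ∀ x, cj (f x) B = cj x B) : f = 1 := by
  have h1 : ∀ x, x⁻¹ * f x ∈ B := fun x => (h.cj_B_eq_iff hr).1 (hf x).symm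
  have h2 : ∀ x y, y⁻¹ * (x⁻¹ * f x) * y ∈ B := by
    intro x y
    have h3 := mul_mem (h1 (x * y)) (inv_mem (h1 y))
    have e : (x * y)⁻¹ * f (x * y) * (y⁻¹ * f y)⁻¹ = y⁻¹ * (x⁻¹ * f x) * y := by
      rw [map_mul]; group
    rwa [e] at h3
  have h3 : B.normalCore = ⊥ := by
    rcases hsimple.eq_bot_or_eq_top_of_normal B.normalCore (normalCore_normal B) with h4 | h4
    · exact h4
    · exfalso
      apply h.B_ne_top
      rw [eq_top_iff, ← h4]
      exact normalCore_le B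
  ext x
  have h4 : x⁻¹ * f x ∈ B.normalCore := by
    intro y
    have := h2 x y⁻¹
    rwa [inv_inv] at this
  rw [h3, mem_bot, inv_mul_eq_one] at h4
  exact h4.symm

/-- the number of conjugates of a group of outer automorphisms fixing `B` -/
lemma card_conj_lt [Finite L] (hsimple : IsSimpleGroup L)
    (hinj : Function.Injective (MulAut.conj : L →* MulAut L)) (hr : p.Prime)
    {F : Subgroup (MulAut L)} (hne : F ≠ ⊥) (hFI : F ⊓ innS L = ⊥) (hF : ∀ f ∈ F, am f B = B) :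
    Nat.card U < Nat.card {u : L | u ∈ U ∧ ∀ f ∈ F, f u = u} *
      Nat.card {X | ∃ x : L, X = cj (MulAut.conj x) F} := by
  set Q : Subgroup (MulAut L) := U.map (MulAut.conj : L →* MulAut L) with hQ
  have hQI : Q ≤ innS L := by
    rintro _ ⟨x, _, rfl⟩
    exact ⟨x, rfl⟩
  have h1 := card_orb (G := MulAut L) (Q := Q) (F := F) (by
    rintro f hf _ ⟨u, hu, rfl⟩
    rw [conj_aut]
    exact ⟨f u, h.apply_U hr (hF f hf) hu, rfl⟩) (by
    intro f hf hfQ
    have : f ∈ F ⊓ innS L := ⟨hf, hQI hfQ⟩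
    rwa [hFI, mem_bot] at this)
  have h2 : Nat.card Q = Nat.card U := Subgroup.card_map_of_injective hinj
  have h3 : Nat.card (Q ⊓ centralizer (F : Set (MulAut L)) : Subgroup (MulAut L)) =
      Nat.card {u : L | u ∈ U ∧ ∀ f ∈ F, f u = u} := by
    have e : Q ⊓ centralizer (F : Set (MulAut L)) =
        (U ⊓ fixS (F : Set (MulAut L))).map (MulAut.conj : L →* MulAut L) := by
      rw [Subgroup.map_inf _ _ _ hinj, ← inf_centralizer hinj, ← inf_assoc]
      congr 1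
      exact (inf_eq_left.2 hQI).symm
    rw [e, Subgroup.card_map_of_injective hinj]
    rfl
  rw [h2, h3] at h1
  have hfin : {X | ∃ x : L, X = cj (MulAut.conj x) F}.Finite := Set.toFinite _
  have hsub : {X | ∃ q ∈ Q, X = cj q F} ⊆ {X | ∃ x : L, X = cj (MulAut.conj x) F} := by
    rintro X ⟨_, ⟨u, _, rfl⟩, rfl⟩
    exact ⟨u, rfl⟩
  have hpos : 0 < Nat.card {u : L | u ∈ U ∧ ∀ f ∈ F, f u = u} := by
    rw [Nat.pos_iff_ne_zero]
    intro hcon
    rw [hcon, mul_zero] at h1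
    exact Nat.card_pos.ne h1
  rw [← h1, mul_comm]
  refine Nat.mul_lt_mul_of_pos_left (Set.Finite.card_lt_card hfin ⟨hsub, fun hsup => ?_⟩) hpos
  -- every element of `L` is a product of an element of `U` and one fixed by `F`
  have h4 : ∀ x : L, ∃ u ∈ U, ∀ f ∈ F, f (u⁻¹ * x) = u⁻¹ * x := by
    intro x
    obtain ⟨_, ⟨u, hu, rfl⟩, hx⟩ := hsup ⟨x, rfl⟩
    refine ⟨u, hu, fun f hf => hinj ?_⟩
    have hx' : cj (MulAut.conj (u⁻¹ * x)) F = F := by
      have hx'' : cj (MulAut.conj x) F = cj (MulAut.conj u) F := hx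
      rw [map_mul, cj_mul, hx'', ← cj_mul, ← map_mul, inv_mul_cancel, map_one, cj_one]
    have h5 : MulAut.conj (u⁻¹ * x) * f⁻¹ * (MulAut.conj (u⁻¹ * x))⁻¹ ∈ F := by
      have := cj_mul_mem (g := MulAut.conj (u⁻¹ * x)) (inv_mem hf)
      rwa [hx'] at this
    have h6 : f * (MulAut.conj (u⁻¹ * x) * f⁻¹ * (MulAut.conj (u⁻¹ * x))⁻¹) ∈ F ⊓ innS L := by
      refine mem_inf.2 ⟨mul_mem hf h5, ?_⟩
      have e : f * (MulAut.conj (u⁻¹ * x) * f⁻¹ * (MulAut.conj (u⁻¹ * x))⁻¹) =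
          MulAut.conj (f (u⁻¹ * x)) * (MulAut.conj (u⁻¹ * x))⁻¹ := by
        rw [← conj_aut]; group
      rw [e]
      exact mul_mem ⟨_, rfl⟩ (inv_mem ⟨_, rfl⟩)
    rw [hFI, mem_bot] at h6
    have e : f * (MulAut.conj (u⁻¹ * x) * f⁻¹ * (MulAut.conj (u⁻¹ * x))⁻¹) =
        MulAut.conj (f (u⁻¹ * x)) * (MulAut.conj (u⁻¹ * x))⁻¹ := by
      rw [← conj_aut]; group
    rw [e, mul_inv_eq_one] at h6
    exact h6
  apply hne
  rw [eq_bot_iff]
  intro f hf
  rw [mem_bot]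
  refine h.eq_one_of_chambers hsimple hr fun x => ?_
  obtain ⟨u, hu, hc⟩ := h4 x⁻¹
  obtain ⟨c, hc'⟩ : ∃ c, c = u⁻¹ * x⁻¹ := ⟨_, rfl⟩
  have h5 := hc f hf
  rw [← hc'] at h5
  have e1 : x = c⁻¹ * u⁻¹ := by rw [hc']; group
  rw [h.cj_B_eq_iff hr]
  have e2 : (f x)⁻¹ * x = f u * u⁻¹ := by
    rw [e1, map_mul, map_inv, map_inv, h5]; group
  rw [e2]
  exact mul_mem (h.le (h.apply_U hr (hF f hf) hu)) (inv_mem (h.le hu))

/-- the main theorem in characteristic `p` -/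
theorem eu_ne_zero [Finite L] (hsimple : IsSimpleGroup L)
    (hinj : Function.Injective (MulAut.conj : L →* MulAut L)) (hr : p.Prime)
    {A : Subgroup (MulAut L)} (hA : innS L ≤ A)
    (hsame : ∀ F ∈ Ain p A, ∀ F' ∈ Ain p A, F ⊓ innS L = ⊥ → F' ⊓ innS L = ⊥ →
      F' ≤ F ⊔ innS L) : eu (Ain p A) ≠ 0 := by
  classical
  have : Fact p.Prime := ⟨hr⟩
  obtain ⟨ε₀, hε₀, hall⟩ := h.eu_all hr
  have hUpos : (0 : ℤ) < Nat.card U := by exact_mod_cast Nat.card_pos
  set D : Set (Subgroup (MulAut L)) := {F | F ∈ Ain p A ∧ F ⊓ innS L = ⊥} with hD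
  have hDf : D.Finite := Set.toFinite D
  have hout := eu_outer hA hsame
  rw [eu_innS hinj, hall] at hout
  -- `D` is stable under conjugation
  have hDc : ∀ F ∈ D, ∀ x : L, cj (MulAut.conj x) F ∈ D := by
    rintro F ⟨h1, h2⟩ x
    refine ⟨cj_mem_Ain (hA ⟨x, rfl⟩) h1, ?_⟩
    rw [eq_bot_iff]
    rintro φ ⟨hφ1, hφ2⟩
    have hφ1' : (MulAut.conj x)⁻¹ * φ * MulAut.conj x ∈ F := mem_cj.1 hφ1
    have hφ2' : (MulAut.conj x)⁻¹ * φ * MulAut.conj x ∈ innS L :=
      mul_mem (mul_mem (inv_mem ⟨x, rfl⟩) hφ2) ⟨x, rfl⟩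
    have h3 : (MulAut.conj x)⁻¹ * φ * MulAut.conj x ∈ F ⊓ innS L := ⟨hφ1', hφ2'⟩
    rw [h2, mem_bot] at h3
    rw [mem_bot]
    have e : φ = MulAut.conj x * ((MulAut.conj x)⁻¹ * φ * MulAut.conj x) * (MulAut.conj x)⁻¹ := by
      group
    rw [e, h3]
    group
  -- moving to a group fixing `B`
  have hmove : ∀ F ∈ D, ∃ x : L, ∀ f ∈ cj (MulAut.conj x) F, am f B = B := by
    intro F hF
    obtain ⟨g, hg⟩ := h.exists_fix hr (isPGroup_of_mem hF.1.1)
    refine ⟨g⁻¹, fun f hf => ?_⟩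
    rw [mem_cj, map_inv, inv_inv] at hf
    have h1 := am_conj_cj (MulAut.conj g * f * (MulAut.conj g)⁻¹) g (cj g B)
    rw [hg _ hf, ← cj_mul, inv_mul_cancel, cj_one] at h1
    have e : (MulAut.conj g)⁻¹ * (MulAut.conj g * f * (MulAut.conj g)⁻¹) * MulAut.conj g = f := by
      group
    rwa [e] at h1
  rcases D.eq_empty_or_nonempty with hDe | ⟨F₀, hF₀⟩
  · have h1 : hDf.toFinset = ∅ := by
      rw [Set.Finite.toFinset_eq_empty]
      exact hDe
    rw [h1, Finset.sum_empty, sub_zero] at hout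
    rw [hout, neg_ne_zero]
    rcases hε₀ with h2 | h2 <;> rw [h2] <;> omega
  obtain ⟨x₀, hx₀⟩ := hmove F₀ hF₀
  set F₁ := cj (MulAut.conj x₀) F₀ with hF₁
  have hF₁D : F₁ ∈ D := hDc F₀ hF₀ x₀
  obtain ⟨ε, hεdef⟩ : ∃ ε : ℤ, ε = eu {Q | B < Q ∧ Q < ⊤ ∧ Inv (F₁ : Set (MulAut L)) Q} :=
    ⟨_, rfl⟩
  have hε : ε = 1 ∨ ε = -1 := by
    rw [hεdef]
    exact h.eps_sq hx₀ _ ⊤ rfl le_top h.B_ne_top.symm (fun f _ => am_top f)
  -- the sign does not depend on `F`
  have hInv : ∀ F ∈ D, ∀ F' ∈ D, (∀ f ∈ F, am f B = B) → (∀ f ∈ F', am f B = B) →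
      ∀ Q, B ≤ Q → Inv (F : Set (MulAut L)) Q → Inv (F' : Set (MulAut L)) Q := by
    intro F hF F' hF' hFB hF'B Q hBQ hQ f' hf'
    have h1 := hsame F hF.1 F' hF'.1 hF.2 hF'.2 hf'
    rw [Subgroup.mem_sup_of_normal_right] at h1
    obtain ⟨f, hf, _, ⟨x, rfl⟩, hfx⟩ := h1
    have hfx' : f * MulAut.conj x = f' := hfx
    have h2 : MulAut.conj x = f⁻¹ * f' := by rw [← hfx']; group
    have hxB : x ∈ B := by
      refine h.mem_of_cj_eq hr ⟨1, by rw [cj_one]⟩ ?_
      rw [← am_conj, h2, am_mul, hF'B f' hf', am_inv_eq (hFB f hf)]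
    rw [← hfx', am_mul, am_conj, cj_self (hBQ hxB)]
    exact hQ f hf
  have key : ∀ F ∈ D, ∃ n : ℕ, eu (Ain p (innS L ⊓ centralizer (F : Set (MulAut L)))) =
      -(ε * (n : ℤ)) ∧ (n ≠ 0 → Nat.card U < n * Nat.card {X | ∃ x : L, X = cj (MulAut.conj x) F}) := by
    intro F hF
    obtain ⟨x, hx⟩ := hmove F hF
    have hFx := hDc F hF x
    obtain ⟨n, hn1, hn2⟩ := h.eu_fix hr (isPGroup_of_mem hFx.1.1) hx
    refine ⟨n, ?_, fun hn0 => ?_⟩
    · rw [← eu_cent_cj x F, eu_inf_centralizer hinj, hn1, hεdef]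
      congr 3
      ext Q
      constructor
      · rintro ⟨h1, h2, h3⟩
        exact ⟨h1, h2, hInv _ hFx F₁ hF₁D hx hx₀ Q h1.le h3⟩
      · rintro ⟨h1, h2, h3⟩
        exact ⟨h1, h2, hInv F₁ hF₁D _ hFx hx₀ hx Q h1.le h3⟩
    · have h1 := h.card_conj_lt hsimple hinj hr hFx.1.1.1 hFx.2 hx
      have h2 : {X | ∃ y : L, X = cj (MulAut.conj y) (cj (MulAut.conj x) F)} =
          {X | ∃ y : L, X = cj (MulAut.conj y) F} := by
        ext X
        constructor
        · rintro ⟨y, rfl⟩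
          exact ⟨y * x, by rw [map_mul, cj_mul]⟩
        · rintro ⟨y, rfl⟩
          refine ⟨y * x⁻¹, ?_⟩
          rw [← cj_mul, ← map_mul, inv_mul_cancel_right]
      rw [h2, ← hn2.resolve_left hn0] at h1
      exact h1
  choose! n hn1 hn2 using key
  have hsum : ∑ F ∈ hDf.toFinset, eu (Ain p (innS L ⊓ centralizer (F : Set (MulAut L)))) =
      -(ε * ((∑ F ∈ hDf.toFinset, n F : ℕ) : ℤ)) := by
    rw [Nat.cast_sum, Finset.mul_sum, ← Finset.sum_neg_distrib]
    refine Finset.sum_congr rfl fun F hF => ?_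
    rw [Set.Finite.mem_toFinset] at hF
    exact hn1 F hF
  rw [hsum] at hout
  rw [hout]
  by_cases hall0 : ∀ F ∈ D, n F = 0
  · have h1 : ∑ F ∈ hDf.toFinset, n F = 0 := Finset.sum_eq_zero fun F hF => by
      rw [Set.Finite.mem_toFinset] at hF
      exact hall0 F hF
    rw [h1, Nat.cast_zero, mul_zero, neg_zero, sub_zero, neg_ne_zero]
    rcases hε₀ with h2 | h2 <;> rw [h2] <;> omega
  · push Not at hall0
    obtain ⟨F, hF, hnF⟩ := hall0
    have h1 := hn2 F hF hnF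
    set O : Set (Subgroup (MulAut L)) := {X | ∃ x : L, X = cj (MulAut.conj x) F} with hO
    have hOf : O.Finite := Set.toFinite O
    have hOD : O ⊆ D := by
      rintro X ⟨x, rfl⟩
      exact hDc F hF x
    have hconst : ∀ X ∈ O, n X = n F := by
      rintro X ⟨x, rfl⟩
      have h2 := hn1 _ (hDc F hF x)
      rw [eu_cent_cj, hn1 F hF, neg_inj] at h2
      have h3 : (n F : ℤ) = n (cj (MulAut.conj x) F) := by
        rcases hε with h4 | h4 <;> rw [h4] at h2 <;> linarith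
      exact_mod_cast h3.symm
    have h2 : n F * Nat.card O ≤ ∑ F ∈ hDf.toFinset, n F := by
      calc n F * Nat.card O = ∑ X ∈ hOf.toFinset, n X := by
            rw [Finset.sum_congr rfl fun X hX => hconst X (by
              rwa [Set.Finite.mem_toFinset] at hX), Finset.sum_const, smul_eq_mul, mul_comm,
              Nat.card_eq_card_finite_toFinset hOf]
        _ ≤ ∑ F ∈ hDf.toFinset, n F := by
            refine Finset.sum_le_sum_of_subset ?_
            intro X hX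
            rw [Set.Finite.mem_toFinset] at hX ⊢
            exact hOD hX
    have h3 : Nat.card U < ∑ F ∈ hDf.toFinset, n F := h1.trans_le h2
    have h4 : (Nat.card U : ℤ) < ((∑ F ∈ hDf.toFinset, n F : ℕ) : ℤ) := by exact_mod_cast h3
    rcases hε₀ with h5 | h5 <;> rcases hε with h6 | h6 <;> rw [h5, h6] <;> omega

end SB

end

end Vale.Agent.P240.H195
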