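import Vale.Agent.P240.H195.BNOpp
import Vale.Agent.P240.H195.BNAut

/-!
Automorphisms that centralize `U` and stabilize an opposite chamber are trivial.
-/

namespace Vale.Agent.P240.H195

open Subgroup Vale.Agent.P240.K

universe u

section
variable {L : Type u} [Group L] {B N U : Subgroup L} {S : Set L} {r : ℕ}

namespace SB

variable (h : SB r B N U S)
include h

lemma inter_lt [Finite L] (hr : r.Prime) {m s : L} (hm : m ∈ N) (hs : s ∈ S) (hrg : RG B m s) :
    Nat.card (U ⊓ cj (m * s) U : Subgroup L) < Nat.card (U ⊓ cj m U : Subgroup L) := by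
  have hle : U ⊓ cj (m * s) U ≤ U ⊓ cj m U := by
    intro y hy
    rw [mem_inf, mem_cj] at hy ⊢
    refine ⟨hy.1, ?_⟩
    set z := m⁻¹ * y * m with hz
    have hzP : z ∈ Par B s := by
      have : z = s * ((m * s)⁻¹ * y * (m * s)) * s⁻¹ := by rw [hz]; group
      rw [this]
      exact mul_mem (mul_mem self_mem_Par (le_Par (h.le hy.2))) (inv_mem self_mem_Par)
    have hzB : z ∈ B := by
      by_contra hcon
      obtain ⟨u', hu', b', hb', he⟩ := h.coset_form hs hzP hcon
      have h1 : DC B (m * s) (m * z) := by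
        rw [he]
        have e5 : m * (u' * s * b') = m * u' * s * b' := by group
        rw [e5]
        exact (hrg u' (h.le hu')).right hb'
      have h2 : DC B m (m * z) := ⟨y, h.le hy.1, 1, one_mem _, by rw [hz]; group⟩
      have h4 := h.inj hm (mul_mem hm (h.sub s hs)) (h2.trans h1.symm)
      rw [inv_mul_cancel_left] at h4
      exact h.not_mem hs h4
    exact h.conj_U' hr hy.1 hzB
  refine lt_of_le_of_ne (Nat.card_le_card_of_injective _ (Subgroup.inclusion_injective hle)) ?_
  intro hcard
  have heq := Subgroup.eq_of_le_of_card_ge hle hcard.ge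
  obtain ⟨x, hx, hmx, hxs⟩ := h.transit' hr hm hs hrg
  have h1 : m * x * m⁻¹ ∈ U ⊓ cj m U := by
    rw [mem_inf, mem_cj]
    refine ⟨hmx, ?_⟩
    have : m⁻¹ * (m * x * m⁻¹) * m = x := by group
    rwa [this]
  rw [← heq, mem_inf, mem_cj] at h1
  apply hxs
  have : s⁻¹ * x * s = (m * s)⁻¹ * (m * x * m⁻¹) * (m * s) := by group
  rw [this]
  exact h.le h1.2

/-- An automorphism that centralizes `U` and stabilizes a chamber opposite to `B` is trivial. -/
theorem eq_one_of_opp [Finite L] (hsimple : IsSimpleGroup L) (hr : r.Prime) {e : MulAut L}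
    (hfix : ∀ u ∈ U, e u = u) {n : L} (hn : n ∈ N) (hopp : ∀ x ∈ U, n * x * n⁻¹ ∈ U → x = 1)
    (hen : am e (cj n B) = cj n B) : e = 1 := by
  have hlong : h.toBN0.Long n := by
    refine ⟨hn, fun s hs hrg => ?_⟩
    obtain ⟨x, hxU, hnx, hxs⟩ := h.transit' hr hn hs hrg
    apply hxs
    rw [hopp x hxU hnx]
    simp
  have hB : am e B = B := am_eq_of_le fun x hx => by
    rw [mem_am] at hx
    have := h.fix_B hr hfix hx
    rwa [← MulAut.mul_apply, mul_inv_cancel, MulAut.one_apply] at this
  have hfixn : n⁻¹ * e n ∈ B := by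
    rw [am_cj, hB, eq_comm, h.cj_B_eq_iff hr] at hen
    exact hen
  -- fixed elements of double cosets
  have hdc : ∀ m ∈ N, m⁻¹ * e m ∈ B → ∀ g, DC B m g → g⁻¹ * e g ∈ B := by
    rintro m hm hme g ⟨a, ha, b, hb, rfl⟩
    obtain ⟨u, hu, t, htB, htN, rfl⟩ := h.split a ha
    have h1 := h.norm' hm htB htN
    set t' := m⁻¹ * t * m with ht'
    have e1 : u * t * m * b = u * m * (t' * b) := by rw [ht']; group
    have h2 : t' * b ∈ B := mul_mem h1 hb
    rw [e1, map_mul, map_mul, hfix u hu]
    have e2 : (u * m * (t' * b))⁻¹ * (u * e m * e (t' * b)) =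
        (t' * b)⁻¹ * (m⁻¹ * e m) * e (t' * b) := by group
    rw [e2]
    exact mul_mem (mul_mem (inv_mem h2) hme) (h.fix_B hr hfix h2)
  have key : ∀ k, ∀ m ∈ N, Nat.card (U ⊓ cj m U : Subgroup L) = k → m⁻¹ * e m ∈ B := by
    intro k
    induction k using Nat.strong_induction_on with
    | _ k ih =>
      intro m hm hk
      by_cases hex : ∃ s ∈ S, RG B m s
      · obtain ⟨s, hs, hrg⟩ := hex
        have hmsN : m * s ∈ N := mul_mem hm (h.sub s hs)
        have h1 := ih _ (hk ▸ h.inter_lt hr hm hs hrg) (m * s) hmsN rfl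
        have h2 : ∀ x ∈ Par B s, x ∉ B → (m * x)⁻¹ * e (m * x) ∈ B := by
          intro x hx hxB
          obtain ⟨v, hv, d, hd, rfl⟩ := h.coset_form hs hx hxB
          refine hdc _ hmsN h1 _ ?_
          have e5 : m * (v * s * d) = m * v * s * d := by group
          rw [e5]
          exact (hrg v (h.le hv)).right hd
        have hPar : ∀ x ∈ Par B s, e x ∈ Par B s := fun x hx => by
          rw [← h.fix_Par hr hfix hs]
          exact ⟨x, hx, rfl⟩
        set y := m⁻¹ * e m with hy
        have hyP : y ∈ Par B s := by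
          have e3 : y = s * ((m * s)⁻¹ * e (m * s)) * (e s)⁻¹ := by
            rw [hy, map_mul]; group
          rw [e3]
          exact mul_mem (mul_mem self_mem_Par (le_Par h1)) (inv_mem (hPar s self_mem_Par))
        by_contra hyB
        have h3 := h2 y hyP hyB
        have e4 : (m * y)⁻¹ * e (m * y) = e y := by
          rw [map_mul]
          have : e m = m * y := by rw [hy]; group
          rw [this]
          group
        rw [e4] at h3
        exact hyB (h.fix_B' hr hfix h3)
      · push Not at hex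
        have h1 := h.long_unique hlong (w' := m) ⟨hm, hex⟩
        have e1 : m = n * (n⁻¹ * m) := by group
        rw [e1, map_mul]
        have e2 : (n * (n⁻¹ * m))⁻¹ * (e n * e (n⁻¹ * m)) =
            (n⁻¹ * m)⁻¹ * (n⁻¹ * e n) * e (n⁻¹ * m) := by group
        rw [e2]
        exact mul_mem (mul_mem (inv_mem h1) hfixn) (h.fix_B hr hfix h1)
  have hall : ∀ g, g⁻¹ * e g ∈ B := by
    intro g
    obtain ⟨m, hm, hd⟩ := h.bruhat g
    exact hdc m hm (key _ m hm rfl) g hd
  ext x
  rw [MulAut.one_apply]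
  set c := x⁻¹ * e x with hc
  have hcB : ∀ g, g * c * g⁻¹ ∈ B := by
    intro g
    have h1 := hall (x * g⁻¹)
    have h2 := hall g⁻¹
    rw [map_mul] at h1
    have e1 : (x * g⁻¹)⁻¹ * (e x * e g⁻¹) = g * c * g⁻¹ * (g⁻¹⁻¹ * e g⁻¹) := by rw [hc]; group
    rw [e1] at h1
    exact (mul_mem_cancel_right h2).1 h1
  have hle : normalClosure ({c} : Set L) ≤ B := by
    unfold normalClosure
    rw [closure_le]
    intro y hy
    rw [Group.mem_conjugatesOfSet_iff] at hy
    obtain ⟨z, hz, hzy⟩ := hy
    rw [Set.mem_singleton_iff] at hz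
    subst hz
    rw [isConj_iff] at hzy
    obtain ⟨g, rfl⟩ := hzy
    exact hcB g
  rcases hsimple.eq_bot_or_eq_top_of_normal _ (normalClosure_normal (s := ({c} : Set L))) with h4 | h4
  · have h5 : c ∈ normalClosure ({c} : Set L) := subset_normalClosure rfl
    rw [h4, mem_bot] at h5
    have : e x = x * c := by rw [hc]; group
    rw [this, h5, mul_one]
  · exfalso
    obtain ⟨s, hs⟩ := h.nonempty
    exact h.not_mem hs (hle (by rw [h4]; exact mem_top s))

end SB

end

end Vale.Agent.P240.H195
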