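import Vale.Agent.P240.H148.Two
import Vale.Agent.P240.H195.Defs

/-!
Robinson's lemma: if a cyclic group extended by an `l`-group acts without fixed points, the poset is
not acyclic over any field. Consequences for `AlmostSimpleHQ`.
-/

namespace Vale.Agent.P240.H195

open Subgroup Vale.Agent.P240.K

universe u v

section
variable {M : Type u} [Group M]

theorem eu_empty : eu (∅ : Set (Subgroup M)) = 1 := by
  rw [eu_rec Set.finite_empty]
  simp

/-- A family of subgroups stable under `c` and an `l`-group `R` normalizing `⟨c⟩`, no member of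
which is normalized by `c` and `R`, is not acyclic. -/
theorem na_of_hyper {𝕜 : Type v} [Field 𝕜] [Finite M] {l : ℕ} [hl : Fact l.Prime]
    {S : Set (Subgroup M)} (c : M) (R : Subgroup M) (hR : IsPGroup l R)
    (hc : ∀ E ∈ S, cj c E ∈ S) (hRS : ∀ u ∈ R, ∀ E ∈ S, cj u E ∈ S)
    (hRc : ∀ u ∈ R, u⁻¹ * c * u ∈ zpowers c)
    (hfix : ∀ E ∈ S, c ∈ normalizer (E : Set M) → R ≤ normalizer (E : Set M) → False) :
    NA 𝕜 S := by
  refine NA_of_rat (Set.toFinite S) ?_
  by_contra hac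
  have h1 := lefschetz (α := Subgroup M) (S := S) (σ := cj c) hc
    (fun E _ F _ h => cj_lt.2 h) (Set.toFinite S) hac (Nat.lt_succ_self _)
  set T : Set (Subgroup M) := {E | E ∈ S ∧ cj c E = E} with hT
  have hTS : Nat.card T ≤ (Set.toFinite S).toFinset.card := by
    rw [← Nat.card_eq_card_finite_toFinset (Set.toFinite S)]
    exact Nat.card_mono (Set.toFinite S) fun E hE => hE.1
  rw [eu_eq (Set.toFinite T) (hTS.trans (Nat.le_succ _))] at h1
  have h2 := eu_mod (r := l) (S := T) R hR ?_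
  · have h3 : {E | E ∈ T ∧ R ≤ normalizer (E : Set M)} = ∅ := by
      ext E
      simp only [Set.mem_ofPred_eq, Set.mem_empty_iff_false, iff_false]
      rintro ⟨⟨h4, h5⟩, h6⟩
      exact hfix E h4 (cj_eq_iff.1 h5) h6
    rw [h3, h1, eu_empty, zero_sub] at h2
    have h4 : (l : ℤ) ∣ 1 := by simpa using h2
    exact hl.out.one_lt.ne' (by exact_mod_cast Int.eq_one_of_dvd_one (by positivity) h4)
  · rintro u hu E ⟨h4, h5⟩
    refine ⟨hRS u hu E h4, ?_⟩
    rw [cj_eq_iff] at h5 ⊢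
    rw [normalizer_cj]
    have h6 : zpowers c ≤ normalizer (E : Set M) := by
      rwa [zpowers_le]
    exact h6 (hRc u hu)

end

section
variable {L : Type u} [Group L]

theorem cj_mem_Ain_conj {p : ℕ} {A : Subgroup (MulAut L)} (hA : ∀ x : L, MulAut.conj x ∈ A) (x : L)
    {E : Subgroup (MulAut L)} (hE : E ∈ Ain p A) : cj (MulAut.conj x) E ∈ Ain p A :=
  cj_mem_Ain (hA x) hE

end

section
variable {G : Type u} [Group G] {p : ℕ}

theorem almostSimpleHQ_of {𝕜 : Type v} [Field 𝕜] {L : Subgroup G} [Finite L]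
    (h : ∀ A : Subgroup (MulAut L), (∀ x : L, MulAut.conj x ∈ A) →
      ∃ l : ℕ, l.Prime ∧ ∃ (c : MulAut L) (R : Subgroup (MulAut L)), IsPGroup l R ∧
        (∀ E ∈ Ain p A, cj c E ∈ Ain p A) ∧ (∀ u ∈ R, ∀ E ∈ Ain p A, cj u E ∈ Ain p A) ∧
        (∀ u ∈ R, u⁻¹ * c * u ∈ zpowers c) ∧
        ∀ E ∈ Ain p A, c ∈ normalizer (E : Set (MulAut L)) →
          R ≤ normalizer (E : Set (MulAut L)) → False) :
    AlmostSimpleHQ 𝕜 p L := by
  intro A _ hA
  have : Finite (MulAut L) := inferInstance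
  rw [HQ_sub_iff]
  obtain ⟨l, hl, c, R, h1, h2, h3, h4, h5⟩ := h A hA
  have : Fact l.Prime := ⟨hl⟩
  exact na_of_hyper c R h1 h2 h3 h4 h5

theorem AutFree.hq {𝕜 : Type v} [Field 𝕜] {L : Type u} [Group L] [Finite L] {l : ℕ}
    (hl : l.Prime) (h : AutFree p l L) (A : Subgroup (MulAut L)) (hA : ∀ x, MulAut.conj x ∈ A) :
    HQ 𝕜 p A := by
  obtain ⟨U, hU, hfree⟩ := h
  have : Fact l.Prime := ⟨hl⟩
  rw [HQ_sub_iff]
  refine na_of_hyper 1 (U.map MulAut.conj) (hU.map _) ?_ ?_ ?_ ?_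
  · intro E hE
    rwa [cj_one]
  · rintro _ ⟨x, _, rfl⟩ E hE
    exact cj_mem_Ain_conj hA x hE
  · intro u _
    simp
  · intro E hE _ h
    exact hfree E hE.1 h

/-- transport of a group of automorphisms -/
theorem hq_transport {𝕜 : Type v} [Field 𝕜] {L L' : Type*} [Group L] [Group L'] (e : L ≃* L')
    (h : ∀ A : Subgroup (MulAut L'), (∀ x, MulAut.conj x ∈ A) → HQ 𝕜 p A)
    (A : Subgroup (MulAut L)) (hA : ∀ x, MulAut.conj x ∈ A) : HQ 𝕜 p A := by
  have h1 := h (A.map (MulAut.congr e).toMonoidHom) fun x => ?_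
  · rwa [HQ_map (MulAut.congr e).injective] at h1
  · refine ⟨MulAut.conj (e.symm x), hA _, ?_⟩
    ext y
    simp [MulAut.congr]

theorem AutFree.congr {l : ℕ} {L L' : Type*} [Group L] [Group L'] (e : L ≃* L')
    (h : AutFree p l L) : AutFree p l L' := by
  obtain ⟨U, hU, hfree⟩ := h
  refine ⟨U.map e.toMonoidHom, hU.map _, fun E hE hUE => ?_⟩
  have hinj : Function.Injective (MulAut.congr e.symm).toMonoidHom :=
    (MulAut.congr e.symm).injective
  refine hfree (E.map (MulAut.congr e.symm).toMonoidHom) ?_ ?_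
  · exact (map_mem_ApS hinj).2 (show E ∈ ApS p (MulAut L') from hE)
  · rintro _ ⟨x, hx, rfl⟩
    have h1 : MulAut.conj (e x) ∈ normalizer (E : Set (MulAut L')) :=
      hUE ⟨e x, ⟨x, hx, rfl⟩, rfl⟩
    have h2 : MulAut.conj x = MulAut.congr e.symm (MulAut.conj (e x)) := by
      ext y
      simp [MulAut.congr]
    rw [h2, mem_normalizer_iff]
    rw [mem_normalizer_iff] at h1
    intro φ
    constructor
    · rintro ⟨ψ, hψ, rfl⟩
      refine ⟨MulAut.conj (e x) * ψ * (MulAut.conj (e x))⁻¹, (h1 ψ).1 hψ, ?_⟩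
      change MulAut.congr e.symm (MulAut.conj (e x) * ψ * (MulAut.conj (e x))⁻¹) =
        MulAut.congr e.symm (MulAut.conj (e x)) * MulAut.congr e.symm ψ *
          (MulAut.congr e.symm (MulAut.conj (e x)))⁻¹
      rw [map_mul, map_mul, map_inv]
    · rintro ⟨ψ, hψ, h3⟩
      refine ⟨(MulAut.conj (e x))⁻¹ * ψ * MulAut.conj (e x), ?_, ?_⟩
      · refine (h1 _).2 ?_
        have h4 : MulAut.conj (e x) * ((MulAut.conj (e x))⁻¹ * ψ * MulAut.conj (e x)) *
            (MulAut.conj (e x))⁻¹ = ψ := by group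
        rwa [h4]
      · change MulAut.congr e.symm _ = φ
        have h5 : MulAut.congr e.symm ψ = MulAut.congr e.symm (MulAut.conj (e x)) * φ *
            (MulAut.congr e.symm (MulAut.conj (e x)))⁻¹ := h3
        rw [map_mul, map_mul, map_inv, h5]
        group

theorem AutFree.almostSimpleHQ {𝕜 : Type v} [Field 𝕜] {L : Subgroup G} [Finite L] {l : ℕ}
    (hl : l.Prime) (h : AutFree p l L) : AlmostSimpleHQ 𝕜 p L :=
  fun A _ hA => h.hq hl A hA

/-- elements of the normalizer of `L` inducing inner automorphisms -/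
theorem mem_sup_of_inner {L : Subgroup G} {x : G} (hx : x ∈ normalizer (L : Set G)) (l : L)
    (h : L.normalizerMonoidHom ⟨x, hx⟩ = MulAut.conj l) : x ∈ L ⊔ centralizer (L : Set G) := by
  have h1 : (l : G)⁻¹ * x ∈ centralizer (L : Set G) := by
    rw [mem_centralizer_iff]
    intro y hy
    have h2 := congrArg (fun φ : MulAut L => ((φ ⟨y, hy⟩ : L) : G)) h
    have h3 : x * y * x⁻¹ = l * y * (l : G)⁻¹ := h2
    have h4 : x * y = l * y * (l : G)⁻¹ * x := by rw [← h3]; group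
    calc y * ((l : G)⁻¹ * x) = (l : G)⁻¹ * (l * y * (l : G)⁻¹ * x) := by group
      _ = (l : G)⁻¹ * x * y := by rw [← h4]; group
  have h2 : x = l * ((l : G)⁻¹ * x) := by group
  rw [h2]
  exact mul_mem ((le_sup_left : L ≤ _) l.2) ((le_sup_right : centralizer (L : Set G) ≤ _) h1)

/-- all outer elements of order `p` give the same subgroup of the outer automorphism group -/
theorem fewOuter_of_same {L : Subgroup G} (h : ∀ x y : G, Outer p L x → Outer p L y →
    SameOuter L x y) : FewOuter p L :=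
  ⟨fun x y _ hx hy _ => Or.inl (h x y hx hy), Or.inl h⟩

/-- the image in `MulAut L` of a subgroup of the normalizer of `L` -/
theorem aut_image {L E : Subgroup G} (hE : ElemAb p E) (hEN : E ≤ normalizer (L : Set G))
    (hEC : ¬ E ≤ centralizer (L : Set G)) :
    ElemAb p ((E.subgroupOf (normalizer (L : Set G))).map L.normalizerMonoidHom) ∧
      ∀ u ∈ normalizer (L : Set G), ∀ hu : u ∈ normalizer (L : Set G),
        u ∈ normalizer (E : Set G) → L.normalizerMonoidHom ⟨u, hu⟩ ∈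
          normalizer (((E.subgroupOf (normalizer (L : Set G))).map L.normalizerMonoidHom :
            Subgroup (MulAut L)) : Set (MulAut L)) := by
  refine ⟨⟨?_, ?_, ?_⟩, ?_⟩
  · intro h
    apply hEC
    intro e he
    have h1 : L.normalizerMonoidHom ⟨e, hEN he⟩ ∈
        (E.subgroupOf (normalizer (L : Set G))).map L.normalizerMonoidHom :=
      ⟨⟨e, hEN he⟩, he, rfl⟩
    rw [h, Subgroup.mem_bot, ← MonoidHom.mem_ker, normalizerMonoidHom_ker,
      Subgroup.mem_subgroupOf] at h1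
    exact h1
  · rintro _ ⟨x, hx, rfl⟩ _ ⟨y, hy, rfl⟩
    rw [← map_mul, ← map_mul]
    congr 1
    exact Subtype.ext (hE.2.1 x hx y hy)
  · rintro _ ⟨x, hx, rfl⟩
    rw [← map_pow]
    have : x ^ p = 1 := Subtype.ext (hE.2.2 x hx)
    rw [this, map_one]
  · intro u _ hu huE
    rw [← cj_eq_iff]
    ext φ
    rw [mem_cj]
    constructor
    · rintro ⟨x, hx, h1⟩
      refine ⟨⟨u, hu⟩ * x * ⟨u, hu⟩⁻¹, ?_, ?_⟩
      · exact (mem_normalizer_iff.1 huE x).1 hx
      · rw [map_mul, map_mul, h1, map_inv]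
        group
    · rintro ⟨x, hx, rfl⟩
      refine ⟨⟨u, hu⟩⁻¹ * x * ⟨u, hu⟩, ?_, ?_⟩
      · have h1 := (mem_normalizer_iff.1 (inv_mem huE) x).1 hx
        rw [inv_inv] at h1
        exact h1
      · rw [map_mul, map_mul, map_inv]

theorem AutFree.freeSub {L : Subgroup G} {l : ℕ} (h : AutFree p l L) : FreeSub p l L := by
  obtain ⟨U, hU, hfree⟩ := h
  refine ⟨U.map L.subtype, map_subtype_le U, hU.map _, fun E hE hEN hUE => ?_⟩
  by_contra hEC
  obtain ⟨h1, h2⟩ := aut_image hE hEN hEC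
  refine hfree _ h1 ?_
  rintro _ ⟨x, hx, rfl⟩
  have hxN : (x : G) ∈ normalizer (L : Set G) := le_normalizer x.2
  have h3 := h2 x hxN hxN (hUE ⟨x, hx, rfl⟩)
  have h4 : L.normalizerMonoidHom ⟨x, hxN⟩ = MulAut.conj x := by
    ext y
    rfl
  rwa [h4] at h3

end

end Vale.Agent.P240.H195
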