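import Vale.Agent.P240.H195.BNAut
import Vale.Agent.P240.H195.Hyper

/-!
Simple groups with a split BN-pair of characteristic `r ≠ p`: the subgroup `U` normalizes no
nontrivial elementary abelian `p`-group of automorphisms.
-/

namespace Vale.Agent.P240.H195

open Subgroup Vale.Agent.P240.K

universe u

section
variable {L : Type u} [Group L] {B N U : Subgroup L} {S : Set L} {r : ℕ}

namespace SplitBN

variable (h : SplitBN r B N U S)
include h

lemma irr_or {a : L} (ha : a ∈ S) : (∀ b ∈ S, a⁻¹ * b ∈ B) ∨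
    ∃ b ∈ S, a⁻¹ * b ∉ B ∧ (b * a)⁻¹ * (a * b) ∉ B := by
  by_cases hcon : (S \ {b | b ∈ S ∧ a⁻¹ * b ∈ B}).Nonempty
  · right
    obtain ⟨a', ha', b, hb, hab⟩ := h.irr {b | b ∈ S ∧ a⁻¹ * b ∈ B} (fun b hb => hb.1)
      ⟨a, ha, by rw [inv_mul_cancel]; exact one_mem _⟩ hcon (by
        intro x hx y hy hxy
        refine hy.2 ⟨hy.1, ?_⟩
        have : a⁻¹ * y = (a⁻¹ * x) * (x⁻¹ * y) := by group
        rw [this]
        exact mul_mem hx.2 hxy)
    refine ⟨b, hb.1, fun h1 => hb.2 ⟨hb.1, h1⟩, fun h1 => hab ?_⟩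
    have hβN : a⁻¹ * a' ∈ N := mul_mem (inv_mem (h.sub a ha)) (h.sub a' ha'.1)
    have h2 := h.norm' (h.sub b hb.1) ha'.2 hβN
    have : (b * a')⁻¹ * (a' * b) =
      (a⁻¹ * a')⁻¹ * ((b * a)⁻¹ * (a * b)) * (b⁻¹ * (a⁻¹ * a') * b) := by group
    rw [this]
    exact mul_mem (mul_mem (inv_mem ha'.2) h1) h2
  · left
    intro b hb
    by_contra hb'
    exact hcon ⟨b, hb, fun h1 => hb' h1.2⟩

lemma normalClosure_U (hsimple : IsSimpleGroup L) : normalClosure (U : Set L) = ⊤ := by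
  rcases hsimple.eq_bot_or_eq_top_of_normal _ (normalClosure_normal (s := (U : Set L))) with h4 | h4
  · exfalso
    apply h.U_ne_bot
    rw [eq_bot_iff, ← h4]
    exact subset_normalClosure
  · exact h4

/-- `U` normalizes no nontrivial subgroup of exponent `p`. -/
theorem no_normalized [Finite L] (hsimple : IsSimpleGroup L)
    (hZ : ∀ x : L, MulAut.conj x = 1 → x = 1) (hr : r.Prime) {p : ℕ}
    (hp : p.Prime) (hpr : p ≠ r) {V : Subgroup L} (hVp : ∀ x ∈ V, x ^ p = 1)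
    (hVU : ∀ u ∈ U, ∀ v ∈ V, u * v * u⁻¹ ∈ V) : V = ⊥ := by
  have hUV : ∀ x ∈ U, x ∈ V → x = 1 := by
    intro x hx hx'
    obtain ⟨k, hk⟩ := h.exists_pow hx
    have := mem_of_pow (H := (⊥ : Subgroup L)) hr hp hpr hk (by
      rw [hVp x hx']; exact one_mem _)
    rwa [mem_bot] at this
  -- `V ∩ B = 1`
  have hVB : ∀ v ∈ V, v ∈ B → v = 1 := by
    intro v hv hvB
    refine hZ v (h.eq_one_of_fix hsimple hr hp hpr (e := MulAut.conj v) ?_ ?_)
    · rw [← map_pow, hVp v hv, map_one]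
    · intro u hu
      rw [MulAut.conj_apply]
      have h1 : v * u * v⁻¹ * u⁻¹ = 1 := by
        refine hUV _ (mul_mem (h.normal v hvB u hu) (inv_mem hu)) ?_
        have : v * u * v⁻¹ * u⁻¹ = v * (u * v⁻¹ * u⁻¹) := by group
        rw [this]
        exact mul_mem hv (hVU u hu _ (inv_mem hv))
      rwa [mul_inv_eq_one] at h1
  by_contra hVne
  obtain ⟨v₀, hv₀, hv₀1⟩ : ∃ v ∈ V, v ≠ 1 := by
    by_contra hcon
    push Not at hcon
    exact hVne (eq_bot_iff.2 fun x hx => by rw [mem_bot]; exact hcon x hx)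
  have hv₀B : v₀ ∉ B := fun hcon => hv₀1 (hVB v₀ hv₀ hcon)
  obtain ⟨a, ha, y, hy, hyP, hyB⟩ := h.desc_elt hr hv₀B
  have haN := h.sub a ha
  -- an element of `V ∩ P_a` outside `B`
  obtain ⟨v', hv'V, hv'P, hv'B⟩ : ∃ v' ∈ V, v' ∈ Par B a ∧ v' ∉ B := by
    refine ⟨v₀⁻¹ * (y * v₀ * y⁻¹), mul_mem (inv_mem hv₀) (hVU y hy v₀ hv₀), ?_, ?_⟩
    · have : v₀⁻¹ * (y * v₀ * y⁻¹) = v₀⁻¹ * y * v₀ * y⁻¹ := by group
      rw [this]
      exact mul_mem hyP (inv_mem (le_Par (h.le hy)))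
    · intro hcon
      apply hyB
      have : v₀⁻¹ * y * v₀ = v₀⁻¹ * (y * v₀ * y⁻¹) * y := by group
      rw [this]
      exact mul_mem hcon (h.le hy)
  obtain ⟨u₁, hu₁, b₁, hb₁, hv'e⟩ := h.coset_form ha hv'P hv'B
  have htrans : ∀ g ∈ Par B a, g ∉ B → ∃ v ∈ V, v⁻¹ * g ∈ B := by
    intro g hg hgB
    obtain ⟨u₂, hu₂, b₂, hb₂, rfl⟩ := h.coset_form ha hg hgB
    refine ⟨(u₂ * u₁⁻¹) * v' * (u₂ * u₁⁻¹)⁻¹, hVU _ (mul_mem hu₂ (inv_mem hu₁)) _ hv'V, ?_⟩
    have : ((u₂ * u₁⁻¹) * v' * (u₂ * u₁⁻¹)⁻¹)⁻¹ * (u₂ * a * b₂) =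
        (u₂ * u₁⁻¹) * b₁⁻¹ * b₂ := by rw [hv'e]; group
    rw [this]
    exact mul_mem (mul_mem (mul_mem (h.le hu₂) (inv_mem (h.le hu₁))) (inv_mem hb₁)) hb₂
  rcases h.irr_or ha with hall | ⟨b, hb, hab, hcomm⟩
  · -- rank one
    have htop : Par B a = ⊤ := by
      rw [eq_top_iff, ← h.closure_top, closure_le]
      rintro x (hx | hx)
      · exact le_Par hx
      · have : x = a * (a⁻¹ * x) := by group
        rw [this]
        exact mul_mem self_mem_Par (le_Par (hall x hx))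
    have hnorm : ∀ g : L, ∀ u ∈ U, ∀ v ∈ V, g * u * g⁻¹ * v * (g * u * g⁻¹)⁻¹ ∈ V := by
      intro g u hu v hv
      by_cases hgB : g ∈ B
      · exact hVU _ (h.normal g hgB u hu) v hv
      · obtain ⟨w, hw, hwg⟩ := htrans g (by rw [htop]; exact mem_top g) hgB
        have e1 : g * u * g⁻¹ * v * (g * u * g⁻¹)⁻¹ =
            w * (((w⁻¹ * g) * u * (w⁻¹ * g)⁻¹) * (w⁻¹ * v * w) *
              ((w⁻¹ * g) * u * (w⁻¹ * g)⁻¹)⁻¹) * w⁻¹ := by group
        rw [e1]
        refine mul_mem (mul_mem hw (hVU _ (h.normal _ hwg u hu) _ ?_)) (inv_mem hw)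
        exact mul_mem (mul_mem (inv_mem hw) hv) hw
    have hle : normalClosure (U : Set L) ≤ normalizer (V : Set L) := by
      unfold normalClosure
      rw [closure_le]
      intro x hx
      rw [Group.mem_conjugatesOfSet_iff] at hx
      obtain ⟨u, hu, hux⟩ := hx
      rw [isConj_iff] at hux
      obtain ⟨g, rfl⟩ := hux
      rw [SetLike.mem_coe, mem_normalizer_iff]
      intro v
      refine ⟨hnorm g u hu v, fun h1 => ?_⟩
      have h2 := hnorm g u⁻¹ (inv_mem hu) _ h1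
      have : g * u⁻¹ * g⁻¹ * (g * u * g⁻¹ * v * (g * u * g⁻¹)⁻¹) * (g * u⁻¹ * g⁻¹)⁻¹ = v := by
        group
      rwa [this] at h2
    rw [h.normalClosure_U hsimple, top_le_iff] at hle
    have hVn : V.Normal := normalizer_eq_top_iff.1 hle
    rcases hsimple.eq_bot_or_eq_top_of_normal _ hVn with h1 | h1
    · exact hVne h1
    · obtain ⟨b, hb, hb'⟩ := h.thick a ha
      apply hb'
      rw [hVB b (by rw [h1]; exact mem_top b) hb]
      simp
  · -- higher rank
    have hbN := h.sub b hb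
    obtain ⟨v, hv, hva⟩ := htrans a self_mem_Par (h.not_mem ha)
    obtain ⟨x, hx, hbx, hxb⟩ := h.transit' hr (mul_mem hbN haN) hb (h.rg_of_ne_comm ha hb hab hcomm)
    set β := v⁻¹ * a with hβ
    set y := a * x * a⁻¹ with hy
    have e0 : b * y * b⁻¹ = b * a * x * (b * a)⁻¹ := by rw [hy]; group
    have hyPa : y ∈ Par B a :=
      mul_mem (mul_mem self_mem_Par (le_Par (h.le hx))) (inv_mem self_mem_Par)
    have hyPb : y ∈ Par B b := by
      have : y = b⁻¹ * (b * y * b⁻¹) * b := by group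
      rw [this, e0]
      exact mul_mem (mul_mem (inv_mem self_mem_Par) (le_Par (h.le hbx))) self_mem_Par
    have hyB : y ∈ B := by
      rcases (h.mem_Par ha).1 hyPa with h1 | h1
      · exact h1
      · rcases (h.mem_Par hb).1 hyPb with h2 | h2
        · exact h2
        · exact absurd (h.inj haN hbN (h1.trans h2.symm)) hab
    have hyU : y ∈ U := h.conj_U hr hx hyB
    have hyK : y ∈ Kg U b := mem_Kg.2 ⟨hyU, by rw [e0]; exact hbx⟩
    have e1 : v⁻¹ * y * v = β * x * β⁻¹ := by rw [hβ, hy]; group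
    have h1 : v⁻¹ * (y * v * y⁻¹) = 1 := by
      refine hVB _ (mul_mem (inv_mem hv) (hVU y hyU v hv)) ?_
      have : v⁻¹ * (y * v * y⁻¹) = (v⁻¹ * y * v) * y⁻¹ := by group
      rw [this, e1]
      exact mul_mem (mul_mem (mul_mem hva (h.le hx)) (inv_mem hva)) (inv_mem hyB)
    have h2 : x = β⁻¹ * y * β := by
      have h3 : v⁻¹ * y * v = y := by
        have : v⁻¹ * y * v = v⁻¹ * (y * v * y⁻¹) * y := by group
        rw [this, h1, one_mul]
      rw [e1] at h3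
      rw [← h3]
      group
    have h3 : x ∈ Kg U b := by
      rw [h2]
      exact h.Kg_conj' hb (le_Par hva) hyK
    exact hxb (h.le (h.Kg_conj' hb self_mem_Par h3).1)

end SplitBN

theorem LieType.autFree [Finite L] {p : ℕ} (hL : LieType r L) (hr : r.Prime) (hp : p.Prime)
    (hpr : p ≠ r) : AutFree p r L := by
  obtain ⟨hsimple, hZ, B, N, U, S, h⟩ := hL
  have hZ' : ∀ x : L, MulAut.conj x = 1 → x = 1 := by
    intro x hx
    refine hZ x fun y => ?_
    have := congrArg (fun φ : MulAut L => φ y) hx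
    have h1 : x * y * x⁻¹ = y := this
    rwa [mul_inv_eq_iff_eq_mul] at h1
  refine ⟨U, h.pgroup, fun E hE hUE => hE.1 ?_⟩
  have hnE : ∀ u ∈ U, ∀ e ∈ E, MulAut.conj u * e * (MulAut.conj u)⁻¹ ∈ E := by
    intro u hu e he
    exact (mem_normalizer_iff.1 (hUE ⟨u, hu, rfl⟩) e).1 he
  have hV : E.comap (MulAut.conj : L →* MulAut L) = ⊥ := by
    refine h.no_normalized hsimple hZ' hr hp hpr ?_ ?_
    · intro x hx
      refine hZ' _ ?_
      rw [map_pow]
      exact hE.2.2 _ hx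
    · intro u hu v hv
      change MulAut.conj (u * v * u⁻¹) ∈ E
      rw [map_mul, map_mul, map_inv]
      exact hnE u hu _ hv
  rw [eq_bot_iff]
  intro e he
  rw [mem_bot]
  refine h.eq_one_of_fix hsimple hr hp hpr (hE.2.2 e he) ?_
  intro u hu
  have h1 : e u * u⁻¹ ∈ E.comap (MulAut.conj : L →* MulAut L) := by
    change MulAut.conj (e u * u⁻¹) ∈ E
    have h2 : MulAut.conj (e u * u⁻¹) = e * (MulAut.conj u * e⁻¹ * (MulAut.conj u)⁻¹) := by
      ext y
      simp [MulAut.mul_apply]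
    rw [h2]
    exact mul_mem he (hnE u hu _ (inv_mem he))
  rw [hV, mem_bot, mul_inv_eq_one] at h1
  exact h1

end

end Vale.Agent.P240.H195
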