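import Vale.Agent.P240.H195.BNRad
import Vale.Agent.P240.H195.Hyper

/-!
The Euler characteristic of the poset of proper parabolic subgroups stabilized by a group of
automorphisms fixing `B`.
-/

namespace Vale.Agent.P240.H195

open Subgroup Vale.Agent.P240.K

universe u

section
variable {L : Type u} [Group L]

/-- the image of a subgroup under an automorphism -/
def am (f : MulAut L) (Q : Subgroup L) : Subgroup L := Q.map f.toMonoidHom

lemma mem_am {f : MulAut L} {Q : Subgroup L} {x : L} : x ∈ am f Q ↔ f⁻¹ x ∈ Q := by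
  constructor
  · rintro ⟨y, hy, rfl⟩
    have : f⁻¹ (f.toMonoidHom y) = y := by
      change f⁻¹ (f y) = y
      rw [← MulAut.mul_apply, inv_mul_cancel, MulAut.one_apply]
    rwa [this]
  · intro h
    refine ⟨f⁻¹ x, h, ?_⟩
    change f (f⁻¹ x) = x
    rw [← MulAut.mul_apply, mul_inv_cancel, MulAut.one_apply]

lemma apply_mem_am {f : MulAut L} {Q : Subgroup L} {x : L} (hx : x ∈ Q) : f x ∈ am f Q :=
  ⟨x, hx, rfl⟩

lemma am_le {f : MulAut L} {P Q : Subgroup L} : am f P ≤ am f Q ↔ P ≤ Q :=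
  Subgroup.map_le_map_iff_of_injective f.injective

lemma am_injective (f : MulAut L) : Function.Injective (am f) :=
  fun _ _ h => le_antisymm (am_le.1 h.le) (am_le.1 h.ge)

lemma am_one (Q : Subgroup L) : am 1 Q = Q := by
  ext x
  rw [mem_am]
  simp

lemma am_mul (f g : MulAut L) (Q : Subgroup L) : am (f * g) Q = am f (am g Q) := by
  ext x
  rw [mem_am, mem_am, mem_am, mul_inv_rev, MulAut.mul_apply]

lemma am_inv_eq {f : MulAut L} {Q : Subgroup L} (h : am f Q = Q) : am f⁻¹ Q = Q := by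
  rw [← am_injective f |>.eq_iff, ← am_mul, mul_inv_cancel, am_one, h]

lemma am_inf (f : MulAut L) (P Q : Subgroup L) : am f (P ⊓ Q) = am f P ⊓ am f Q := by
  ext x
  simp only [mem_am, mem_inf]

lemma am_top (f : MulAut L) : am f (⊤ : Subgroup L) = ⊤ := by
  ext x
  simp [mem_am]

lemma am_conj (g : L) (Q : Subgroup L) : am (MulAut.conj g) Q = cj g Q := rfl

lemma am_cj (f : MulAut L) (g : L) (Q : Subgroup L) : am f (cj g Q) = cj (f g) (am f Q) := by
  ext x
  rw [mem_am, mem_cj, mem_cj, mem_am, map_mul, map_mul, map_inv, ← MulAut.mul_apply,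
    inv_mul_cancel, MulAut.one_apply]

lemma card_am [Finite L] (f : MulAut L) (Q : Subgroup L) : Nat.card (am f Q) = Nat.card Q :=
  Subgroup.card_map_of_injective f.injective

lemma am_eq_of_le [Finite L] {f : MulAut L} {Q : Subgroup L} (h : am f Q ≤ Q) : am f Q = Q :=
  Subgroup.eq_of_le_of_card_ge h (card_am f Q).ge

lemma cj_self {x : L} {Q : Subgroup L} (hx : x ∈ Q) : cj x Q = Q :=
  cj_eq_iff.2 (le_normalizer hx)

/-- `Q` is stabilized by all automorphisms in `F` -/
def Inv (F : Set (MulAut L)) (Q : Subgroup L) : Prop := ∀ f ∈ F, am f Q = Q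

variable {B N U : Subgroup L} {S : Set L} {r : ℕ}

namespace SB

variable (h : SB r B N U S)
include h

/-- a subgroup containing `B` and `gBg⁻¹` contains `g` -/
lemma mem_of_cj_le [Finite L] (hr : r.Prime) {H : Subgroup L} (hBH : B ≤ H) {g : L}
    (hg : cj g B ≤ H) : g ∈ H := by
  have key : ∀ k, ∀ n, h.toBN0.Len k n → cj n⁻¹ B ≤ H → n ∈ H := by
    intro k
    induction k using Nat.strong_induction_on with
    | _ k ih =>
      intro n hk hn
      have hnN := h.wd_mem hk.1
      by_cases hnB : n ∈ B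
      · exact hBH hnB
      · obtain ⟨s, hs, m, hm, hk0, hrg, hms⟩ := h.exists_desc_len hk hnB
        have hmN := h.wd_mem hm.1
        obtain ⟨x, hx, hmx, hxs⟩ := h.transit' hr hmN hs hrg
        obtain ⟨τ, hτ⟩ : ∃ τ, τ = (m * s)⁻¹ * n := ⟨_, rfl⟩
        have e1 : n = m * s * τ := by rw [hτ]; group
        rw [← hτ] at hms
        have h1 : n⁻¹ * (m * x * m⁻¹) * n ∈ H := by
          apply hn
          rw [mem_cj]
          have : n⁻¹⁻¹ * (n⁻¹ * (m * x * m⁻¹) * n) * n⁻¹ = m * x * m⁻¹ := by group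
          rw [this]
          exact h.le hmx
        have h2 : s⁻¹ * x * s ∈ H := by
          have : s⁻¹ * x * s = τ * (n⁻¹ * (m * x * m⁻¹) * n) * τ⁻¹ := by rw [e1]; group
          rw [this]
          exact mul_mem (mul_mem (hBH hms) h1) (inv_mem (hBH hms))
        have h3 : s⁻¹ * x * s ∈ Par B s :=
          mul_mem (mul_mem (inv_mem self_mem_Par) (le_Par (h.le hx))) self_mem_Par
        obtain ⟨c, hc, d, hd, hcd⟩ := ((h.mem_Par hs).1 h3).resolve_left hxs
        have hsH : s ∈ H := by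
          have : s = c⁻¹ * (s⁻¹ * x * s) * d⁻¹ := by rw [hcd]; group
          rw [this]
          exact mul_mem (mul_mem (inv_mem (hBH hc)) h2) (inv_mem (hBH hd))
        have hmH : m ∈ H := by
          refine ih (k - 1) (by omega) m hm ?_
          intro y hy
          have : (s * τ)⁻¹ * y * (s * τ) ∈ H := by
            apply hn
            rw [mem_cj] at hy ⊢
            have : n⁻¹⁻¹ * ((s * τ)⁻¹ * y * (s * τ)) * n⁻¹ = m⁻¹⁻¹ * y * m⁻¹ := by
              rw [e1]; group
            rwa [this]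
          have h5 : y = (s * τ) * ((s * τ)⁻¹ * y * (s * τ)) * (s * τ)⁻¹ := by group
          rw [h5]
          exact mul_mem (mul_mem (mul_mem hsH (hBH hms)) this)
            (inv_mem (mul_mem hsH (hBH hms)))
        rw [e1]
        exact mul_mem (mul_mem hmH hsH) (hBH hms)
  obtain ⟨n, hn, a, ha, c, hc, rfl⟩ := h.bruhat g
  have hn' : cj n B ≤ H := by
    intro y hy
    have h1 : a * y * a⁻¹ ∈ H := by
      apply hg
      rw [mem_cj] at hy ⊢
      have : (a * n * c)⁻¹ * (a * y * a⁻¹) * (a * n * c) = c⁻¹ * (n⁻¹ * y * n) * c := by group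
      rw [this]
      exact mul_mem (mul_mem (inv_mem hc) hy) hc
    have h5 : y = a⁻¹ * (a * y * a⁻¹) * a := by group
    rw [h5]
    exact mul_mem (mul_mem (inv_mem (hBH ha)) h1) (hBH ha)
  obtain ⟨k, hk⟩ := h.exists_len (inv_mem hn)
  have h1 := key k n⁻¹ hk (by rwa [inv_inv])
  have hnH : n ∈ H := by
    have := inv_mem h1
    rwa [inv_inv] at this
  exact mul_mem (mul_mem (hBH ha) hnH) (hBH hc)

lemma cj_B_eq_iff [Finite L] (hr : r.Prime) {g g' : L} : cj g B = cj g' B ↔ g⁻¹ * g' ∈ B := by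
  constructor
  · intro hg
    refine h.mem_of_cj_le hr le_rfl ?_
    rw [cj_mul, ← hg, ← cj_mul, inv_mul_cancel, cj_one]
  · intro hg
    have e : g' = g * (g⁻¹ * g') := by group
    rw [e, cj_mul, cj_self hg]

/-- overgroups of `B` other than `B` contain a generator -/
lemma exists_gen {H : Subgroup L} (hBH : B ≤ H) (hne : H ≠ B) : ∃ s ∈ S, s ∈ H := by
  obtain ⟨x, hx, hxB⟩ : ∃ x ∈ H, x ∉ B := by
    by_contra hcon
    push Not at hcon
    exact hne (le_antisymm hcon hBH)
  obtain ⟨n, hn, a, ha, c, hc, rfl⟩ := h.bruhat x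
  have hnH : n ∈ H := by
    have : n = a⁻¹ * (a * n * c) * c⁻¹ := by group
    rw [this]
    exact mul_mem (mul_mem (inv_mem (hBH ha)) hx) (inv_mem (hBH hc))
  have hnB : n ∉ B := fun hcon => hxB (mul_mem (mul_mem ha hcon) hc)
  obtain ⟨s, hs, m, hm, hrg, hms⟩ := h.exists_desc hn hnB
  exact ⟨s, hs, (h.desc_mem hBH hnH hs hrg hms).1⟩

omit h in
lemma par_le {H : Subgroup L} (hBH : B ≤ H) {s : L} (hs : s ∈ H) : Par B s ≤ H :=
  sup_le hBH (by rwa [zpowers_le])

lemma gen_mem_par {s t : L} (hs : s ∈ S) (ht : t ∈ S) : s ∈ Par B t ↔ t⁻¹ * s ∈ B := by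
  constructor
  · intro h1
    rcases (h.mem_Par ht).1 h1 with h2 | h2
    · exact absurd h2 (h.not_mem hs)
    · exact h.inj (h.sub t ht) (h.sub s hs) h2
  · intro h1
    have : s = t * (t⁻¹ * s) := by group
    rw [this]
    exact mul_mem self_mem_Par (le_Par h1)

lemma par_minimal {H : Subgroup L} (hBH : B ≤ H) (hne : H ≠ B) {t : L} (ht : t ∈ S)
    (hle : H ≤ Par B t) : H = Par B t := by
  obtain ⟨s, hs, hsH⟩ := h.exists_gen hBH hne
  have h1 := (h.gen_mem_par hs ht).1 (hle hsH)
  refine le_antisymm hle (par_le hBH ?_)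
  have : t = s * (t⁻¹ * s)⁻¹ := by group
  rw [this]
  exact mul_mem hsH (inv_mem (hBH h1))

lemma par_ne {t : L} (ht : t ∈ S) : Par B t ≠ B := fun hcon => h.not_mem ht (by
  rw [← hcon]; exact self_mem_Par)

/-- automorphisms fixing `B` permute the minimal parabolic subgroups -/
lemma am_par [Finite L] {f : MulAut L} (hf : am f B = B) {t : L} (ht : t ∈ S) :
    ∃ s ∈ S, am f (Par B t) = Par B s := by
  have hB : B ≤ am f (Par B t) := by
    have h0 : am f B ≤ am f (Par B t) := am_le.2 le_Par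
    rwa [hf] at h0
  have hne : am f (Par B t) ≠ B := fun hcon =>
    h.par_ne ht (am_injective f (hcon.trans hf.symm))
  obtain ⟨s, hs, hsH⟩ := h.exists_gen hB hne
  refine ⟨s, hs, ?_⟩
  have hff : ∀ Q : Subgroup L, am f (am f⁻¹ Q) = Q := fun Q => by
    rw [← am_mul, mul_inv_cancel, am_one]
  have h1 : am f⁻¹ (Par B s) ≤ Par B t := by
    have h0 : am f (am f⁻¹ (Par B s)) ≤ am f (Par B t) := by
      rw [hff]
      exact par_le hB hsH
    exact am_le.1 h0
  have h2 : am f⁻¹ (Par B s) = Par B t := by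
    refine h.par_minimal ?_ ?_ ht h1
    · have h0 : am f⁻¹ B ≤ am f⁻¹ (Par B s) := am_le.2 le_Par
      rwa [am_inv_eq hf] at h0
    · intro hcon
      have h3 : am f (am f⁻¹ (Par B s)) = am f B := congrArg (am f) hcon
      rw [hff, hf] at h3
      exact h.par_ne hs h3
  have h3 : am f (am f⁻¹ (Par B s)) = am f (Par B t) := congrArg (am f) h2
  rw [hff] at h3
  exact h3.symm

end SB

end

end Vale.Agent.P240.H195
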