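import Vale.Agent.P240.H195.BNGeo

/-!
The Euler characteristic of the poset of proper parabolic subgroups stabilized by a group of
automorphisms fixing `B`, main part.
-/

namespace Vale.Agent.P240.H195

open Subgroup Vale.Agent.P240.K

universe u

section
variable {α : Type*} [PartialOrder α]

lemma eu_remove_max {S : Set α} (hS : S.Finite) {m : α} (hm : m ∈ S) (hmax : ∀ x ∈ S, ¬ m < x) :
    eu S = eu (S \ {m}) - eu {y | y ∈ S ∧ y < m} := by
  classical
  have hS' : (S \ {m}).Finite := hS.subset Set.sdiff_subset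
  have h1 : hS.toFinset = insert m hS'.toFinset := by
    ext x
    rw [Finset.mem_insert, Set.Finite.mem_toFinset, Set.Finite.mem_toFinset]
    constructor
    · intro hx
      by_cases h : x = m
      · exact Or.inl h
      · exact Or.inr ⟨hx, h⟩
    · rintro (rfl | h)
      · exact hm
      · exact h.1
  rw [eu_rec hS, h1, Finset.sum_insert (by simp), eu_rec hS']
  have h2 : ∀ x ∈ hS'.toFinset,
      eu {y | y ∈ S \ {m} ∧ y < x} = eu {y | y ∈ S ∧ y < x} := by
    intro x hx
    rw [Set.Finite.mem_toFinset] at hx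
    congr 1
    ext y
    exact ⟨fun h => ⟨h.1.1, h.2⟩, fun h => ⟨⟨h.1, fun h3 => hmax x hx.1 (by
      rw [Set.mem_singleton_iff] at h3
      rw [← h3]; exact h.2)⟩, h.2⟩⟩
  rw [Finset.sum_congr rfl h2]
  ring

end

section
variable {L : Type u} [Group L]

lemma am_closure_le {f : MulAut L} {X : Set L} {K : Subgroup L} :
    am f (closure X) ≤ K ↔ ∀ x ∈ X, f x ∈ K := by
  unfold am
  rw [Subgroup.map_le_iff_le_comap, closure_le]
  rfl

lemma am_sup (f : MulAut L) (P Q : Subgroup L) : am f (P ⊔ Q) = am f P ⊔ am f Q :=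
  Subgroup.map_sup P Q f.toMonoidHom

lemma Inv.inf {F : Set (MulAut L)} {P Q : Subgroup L} (hP : Inv F P) (hQ : Inv F Q) :
    Inv F (P ⊓ Q) := fun f hf => by rw [am_inf, hP f hf, hQ f hf]

lemma Inv.sup {F : Set (MulAut L)} {P Q : Subgroup L} (hP : Inv F P) (hQ : Inv F Q) :
    Inv F (P ⊔ Q) := fun f hf => by rw [am_sup, hP f hf, hQ f hf]

variable {B N U : Subgroup L} {S : Set L} {r : ℕ}

namespace SB

variable (h : SB r B N U S)
include h

/-- the sign: intervals of `F`-stable subgroups containing `B` -/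
theorem eps_sq [Finite L] {F : Set (MulAut L)} (hF : ∀ f ∈ F, am f B = B) :
    ∀ (n : ℕ) (A : Subgroup L), Nat.card A = n → B ≤ A → A ≠ B → Inv F A →
      eu {Q | B < Q ∧ Q < A ∧ Inv F Q} = 1 ∨ eu {Q | B < Q ∧ Q < A ∧ Inv F Q} = -1 := by
  intro n
  induction n using Nat.strong_induction_on with
  | _ n ih =>
    intro A hn hBA hAB hA
    set X : Set (Subgroup L) := {Q | B < Q ∧ Q < A ∧ Inv F Q} with hX
    have hXf : X.Finite := Set.toFinite X
    by_cases hXe : X = ∅
    · left
      rw [hXe]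
      exact eu_empty
    obtain ⟨M, hM, hMmin⟩ := hXf.exists_minimal (Set.nonempty_iff_ne_empty.2 hXe)
    have hMmin' : ∀ Q ∈ X, Q ≤ M → Q = M := fun Q hQ hle => le_antisymm hle (hMmin hQ hle)
    have hBM : B ≤ M := hM.1.le
    have hcl : ∀ {H : Subgroup L}, B ≤ H → closure ((B : Set L) ∪ (S ∩ H)) = H :=
      fun hH => h.toBN0.closure_eq_of h.bruhat hH
    set J : Set L := {t | t ∈ S ∧ t ∈ A ∧ t ∉ M} with hJ
    have hJS : J ⊆ S := fun t ht => ht.1
    have hconj : ∀ {H : Subgroup L}, B ≤ H → ∀ s t : L, s⁻¹ * t ∈ B → s ∈ H → t ∈ H := by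
      intro H hH s t hst hs
      have : t = s * (s⁻¹ * t) := by group
      rw [this]
      exact mul_mem hs (hH hst)
    have hconj' : ∀ {H : Subgroup L}, B ≤ H → ∀ s t : L, s⁻¹ * t ∈ B → t ∈ H → s ∈ H := by
      intro H hH s t hst ht
      have : s = t * (s⁻¹ * t)⁻¹ := by group
      rw [this]
      exact mul_mem ht (inv_mem (hH hst))
    have hJc : ∀ s ∈ J, ∀ t ∈ S, s⁻¹ * t ∈ B → t ∈ J := fun s hs t ht hst =>
      ⟨ht, hconj hBA s t hst hs.2.1, fun hcon => hs.2.2 (hconj' hBM s t hst hcon)⟩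
    set A' : Subgroup L := closure ((B : Set L) ∪ J) with hA'
    have hBA' : B ≤ A' := fun x hx => subset_closure (Or.inl hx)
    have hJA' : ∀ t ∈ J, t ∈ A' := fun t ht => subset_closure (Or.inr ht)
    have hA'A : A' ≤ A := by
      rw [hA', closure_le]
      rintro x (hx | hx)
      · exact hBA hx
      · exact hx.2.1
    have hgen : ∀ s ∈ S, s ∈ A' → s ∈ J := fun s hs hsA =>
      h.toBN0.mem_closure_gen hJS hJc hs hsA
    have hInvA' : Inv F A' := by
      intro f hf
      refine am_eq_of_le ?_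
      rw [hA', am_closure_le]
      rintro x (hx | hx)
      · apply hBA'
        have := apply_mem_am (f := f) hx
        rwa [hF f hf] at this
      · obtain ⟨s, hs, hs'⟩ := h.am_par (hF f hf) hx.1
        have hPar : am f (Par B x) ≤ A := by
          have : am f (Par B x) ≤ am f A := am_le.2 (par_le hBA hx.2.1)
          rwa [hA f hf] at this
        have hsJ : s ∈ J := by
          refine ⟨hs, hPar (by rw [hs']; exact self_mem_Par), fun hcon => hx.2.2 ?_⟩
          have h1 : am f (Par B x) ≤ am f M := by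
            rw [hs', hM.2.2 f hf]
            exact par_le hBM hcon
          exact (am_le.1 h1) self_mem_Par
        have h2 : f x ∈ am f (Par B x) := apply_mem_am self_mem_Par
        rw [hs'] at h2
        exact (par_le hBA' (hJA' s hsJ)) h2
    obtain ⟨s₀, hs₀, hs₀M⟩ := h.exists_gen hBM hM.1.ne'
    have hs₀A' : s₀ ∉ A' := fun hcon => (hgen s₀ hs₀ hcon).2.2 hs₀M
    have hA'ne : A' ≠ A := fun hcon => hs₀A' (by rw [hcon]; exact hM.2.1.le hs₀M)
    have hA'B : A' ≠ B := by
      intro hcon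
      have h1 : A ≤ M := by
        rw [← hcl hBA, closure_le]
        rintro x (hx | hx)
        · exact hBM hx
        · by_contra hxM
          have h2 := hJA' x ⟨hx.1, hx.2, hxM⟩
          rw [hcon] at h2
          exact h.not_mem hx.1 h2
      exact absurd hM.2.1 (not_lt_of_ge h1)
    have hA'X : A' ∈ X := ⟨lt_of_le_of_ne hBA' (Ne.symm hA'B), lt_of_le_of_ne hA'A hA'ne, hInvA'⟩
    have hMA' : ¬ M ≤ A' := fun hcon => hs₀A' (hcon hs₀M)
    -- `A'` is maximal
    have hmax : ∀ Q ∈ X, ¬ A' < Q := by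
      intro Q hQ hlt
      have hBQ : B ≤ Q := hQ.1.le
      obtain ⟨s, hs, hsQ, hsA'⟩ : ∃ s ∈ S, s ∈ Q ∧ s ∉ A' := by
        by_contra hcon
        push Not at hcon
        refine absurd hlt (not_lt_of_ge ?_)
        rw [← hcl hBQ, closure_le]
        rintro x (hx | hx)
        · exact hBA' hx
        · exact hcon x hx.1 hx.2
      have hsM : s ∈ M := by
        by_contra hcon
        exact hsA' (hJA' s ⟨hs, hQ.2.1.le hsQ, hcon⟩)
      have h1 : Q ⊓ M ∈ X := by
        refine ⟨lt_of_le_of_ne (le_inf hBQ hBM) ?_, lt_of_le_of_lt inf_le_right hM.2.1,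
          hQ.2.2.inf hM.2.2⟩
        intro hcon
        have : s ∈ Q ⊓ M := ⟨hsQ, hsM⟩
        rw [← hcon] at this
        exact h.not_mem hs this
      have h2 := hMmin' _ h1 inf_le_right
      have hMQ : M ≤ Q := by rw [← h2]; exact inf_le_left
      refine absurd hQ.2.1 (not_lt_of_ge ?_)
      rw [← hcl hBA, closure_le]
      rintro x (hx | hx)
      · exact hBQ hx
      · by_cases hxM : x ∈ M
        · exact hMQ hxM
        · exact hlt.le (hJA' x ⟨hx.1, hx.2, hxM⟩)
    have hsup : ∀ Q ∈ X, Q ≠ A' → Q ⊔ M ≠ A := by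
      intro Q hQ hne hcon
      have hBQ : B ≤ Q := hQ.1.le
      refine hmax Q hQ (lt_of_le_of_ne ?_ (Ne.symm hne))
      rw [hA', closure_le]
      rintro x (hx | hx)
      · exact hBQ hx
      · have h1 : x ∈ closure ((B : Set L) ∪ {t | t ∈ S ∧ (t ∈ Q ∨ t ∈ M)}) := by
          have h2 : A ≤ closure ((B : Set L) ∪ {t | t ∈ S ∧ (t ∈ Q ∨ t ∈ M)}) := by
            rw [← hcon]
            refine sup_le ((hcl hBQ).symm.le.trans ?_) ((hcl hBM).symm.le.trans ?_)
            · exact Subgroup.closure_mono (Set.union_subset_union_right _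
                fun t ht => ⟨ht.1, Or.inl ht.2⟩)
            · exact Subgroup.closure_mono (Set.union_subset_union_right _
                fun t ht => ⟨ht.1, Or.inr ht.2⟩)
          exact h2 hx.2.1
        have h3 := h.toBN0.mem_closure_gen (J := {t | t ∈ S ∧ (t ∈ Q ∨ t ∈ M)})
          (fun t ht => ht.1) (by
            rintro s hs t ht hst
            refine ⟨ht, ?_⟩
            rcases hs.2 with h4 | h4
            · exact Or.inl (hconj hBQ s t hst h4)
            · exact Or.inr (hconj hBM s t hst h4)) hx.1 h1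
        exact h3.2.resolve_right hx.2.2
    -- the two parts
    have hlt : {Q | Q ∈ X ∧ Q < A'} = {Q | B < Q ∧ Q < A' ∧ Inv F Q} := by
      ext Q
      constructor
      · rintro ⟨h1, h2⟩
        exact ⟨h1.1, h2, h1.2.2⟩
      · rintro ⟨h1, h2, h3⟩
        exact ⟨⟨h1, h2.trans hA'X.2.1, h3⟩, h2⟩
    have hIH := ih (Nat.card A') (by
      rw [← hn]
      exact Set.Finite.card_lt_card (Set.toFinite _) hA'X.2.1) A' rfl hBA' hA'B hInvA'
    have h0 : eu (X \ {A'}) = 0 := by
      have hXm : (X \ {A'}).Finite := Set.toFinite _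
      have hMX : M ∈ X \ {A'} := ⟨hM, fun hcon => hMA' (by
        rw [Set.mem_singleton_iff] at hcon
        exact hcon.le)⟩
      rw [eu_reflect (fun Q => Q ⊔ M) (X \ {A'}) {Q | Q ∈ X \ {A'} ∧ M ≤ Q} hXm
        (fun Q hQ => hQ.1) ?_ (fun Q _ => le_sup_left) (fun Q _ P hP hQP => sup_le hQP hP.2)]
      · exact eu_bot (hXm.subset fun Q hQ => hQ.1) (m := M) ⟨hMX, le_rfl⟩ (fun Q hQ => hQ.2)
      · rintro Q ⟨hQ, hQA'⟩
        rw [Set.mem_singleton_iff] at hQA'
        refine ⟨⟨⟨hQ.1.trans_le le_sup_left, lt_of_le_of_ne (sup_le hQ.2.1.le hM.2.1.le)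
          (hsup Q hQ hQA'), hQ.2.2.sup hM.2.2⟩, ?_⟩, le_sup_right⟩
        rw [Set.mem_singleton_iff]
        intro hcon
        exact hMA' (by rw [← hcon]; exact le_sup_right)
    rw [eu_remove_max hXf hA'X hmax, h0, hlt]
    rcases hIH with h1 | h1
    · right; rw [h1]; rfl
    · left; rw [h1]; rfl

end SB

end

end Vale.Agent.P240.H195
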