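import Vale.Agent.P240.H195.BNGeo2

/-!
The Euler characteristic of the poset of proper parabolic subgroups stabilized by a group of
automorphisms fixing `B`: the formula.
-/

namespace Vale.Agent.P240.H195

open Subgroup Vale.Agent.P240.K

universe u

section
variable {L : Type u} [Group L]

/-- parabolic subgroups -/
def Pb (B Q : Subgroup L) : Prop := ∃ g, cj g B ≤ Q

/-- the proper parabolic subgroups stabilized by `F` -/
def YF (B : Subgroup L) (F : Set (MulAut L)) : Set (Subgroup L) :=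
  {Q | Pb B Q ∧ Q ≠ ⊤ ∧ Inv F Q}

/-- `C` is a conjugate of `B` opposite `B` -/
def Opp (B : Subgroup L) (S : Set L) (C : Subgroup L) : Prop :=
  ∃ g, C = cj g B ∧ ∀ s ∈ S, ¬ Pr B g (Par B s)

variable {B N U : Subgroup L} {S : Set L} {r : ℕ}

lemma cj_le_iff {g : L} {P Q : Subgroup L} : cj g P ≤ Q ↔ P ≤ cj g⁻¹ Q := by
  rw [← cj_le (g := g) (F := cj g⁻¹ Q), ← cj_mul, mul_inv_cancel, cj_one]

lemma pr_iff_inf {g : L} {Q : Subgroup L} : Pr B g (cj g⁻¹ Q) ↔ B ⊓ Q ≤ cj g B := by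
  constructor
  · rintro h b ⟨hb, hbQ⟩
    rw [mem_cj]
    refine h b hb ?_
    rw [mem_cj]
    have : g⁻¹⁻¹ * (g⁻¹ * b * g) * g⁻¹ = b := by group
    rwa [this]
  · intro h b hb hbQ
    rw [mem_cj] at hbQ
    have e : g⁻¹⁻¹ * (g⁻¹ * b * g) * g⁻¹ = b := by group
    rw [e] at hbQ
    have := h ⟨hb, hbQ⟩
    rwa [mem_cj] at this

namespace SB

variable (h : SB r B N U S)
include h

lemma exists_ch {Q : Subgroup L} (hQ : Pb B Q) :
    ∃ g, cj g B ≤ Q ∧ B ⊓ Q ≤ cj g B := by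
  obtain ⟨g₀, hg₀⟩ := hQ
  have hBH : B ≤ cj g₀⁻¹ Q := cj_le_iff.1 hg₀
  obtain ⟨x, hx, hp⟩ := h.exists_pr h.bruhat g₀ hBH
  have e : cj (g₀ * x)⁻¹ Q = cj g₀⁻¹ Q := by
    rw [mul_inv_rev, cj_mul, cj_self (inv_mem hx)]
  refine ⟨g₀ * x, ?_, ?_⟩
  · rw [cj_le_iff, e]
    exact hBH
  · rw [← pr_iff_inf, e]
    exact hp

lemma ch_unique [Finite L] (hr : r.Prime) {Q : Subgroup L} {g g' : L} (h1 : cj g B ≤ Q)
    (h2 : B ⊓ Q ≤ cj g B) (h1' : cj g' B ≤ Q) (h2' : B ⊓ Q ≤ cj g' B) : cj g B = cj g' B := by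
  rw [h.cj_B_eq_iff hr]
  have hBH : B ≤ cj g⁻¹ Q := cj_le_iff.1 h1
  have hx : g⁻¹ * g' ∈ cj g⁻¹ Q := by
    refine h.mem_of_cj_le hr hBH ?_
    rw [cj_mul, cj_le]
    exact h1'
  refine h.pr_unique h.bruhat hBH hx (pr_iff_inf.2 h2) ?_
  have e : g * (g⁻¹ * g') = g' := by group
  have e2 : cj g⁻¹ Q = cj g'⁻¹ Q := by
    have e3 : g'⁻¹ = (g⁻¹ * g')⁻¹ * g⁻¹ := by group
    rw [e3, cj_mul, cj_self (inv_mem hx)]
  rw [e, e2]
  exact pr_iff_inf.2 h2'

omit h in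
lemma pr_coset {g g' : L} {H : Subgroup L} (hBH : B ≤ H) (hg : g⁻¹ * g' ∈ B) (hp : Pr B g H) :
    Pr B g' H := by
  have e : g' = g * (g⁻¹ * g') := by group
  rw [e]
  exact hp.right hBH hg

/-- the failure of `Pr` is detected by generators -/
lemma pr_iff_gen {g : L} {H : Subgroup L} (hBH : B ≤ H) :
    Pr B g H ↔ ∀ s ∈ S, s ∈ H → Pr B g (Par B s) := by
  constructor
  · intro hp s _ hsH
    exact hp.mono (par_le hBH hsH)
  · intro hall
    obtain ⟨n, hn, hd⟩ := h.bruhat g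
    refine Pr.dc hBH ((h.pr_iff h.bruhat hn hBH).2 fun s hs hsH => ?_) hd
    have h1 : Pr B n (Par B s) := Pr.dc le_Par (hall s hs hsH) hd.symm
    exact (h.pr_iff h.bruhat hn le_Par).1 h1 s hs self_mem_Par

omit h in
lemma eq_of_pr_top [Finite L] {g : L} (hp : Pr B g ⊤) : cj g B = B := by
  have h1 : B ≤ cj g B := by
    have := pr_iff_inf (B := B) (g := g) (Q := ⊤)
    have e : cj g⁻¹ (⊤ : Subgroup L) = ⊤ := by
      ext x; simp [mem_cj]
    rw [e, inf_top_eq] at this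
    exact this.1 hp
  have hfin : Nat.card (cj g B) ≤ Nat.card B :=
    (Subgroup.card_map_of_injective (MulAut.conj g).injective).le
  exact (Subgroup.eq_of_le_of_card_ge h1 hfin).symm

/-- the poset above a chamber that is neither `B` nor opposite to `B` -/
lemma eu_Z [Finite L] (hr : r.Prime) {F : Set (MulAut L)} (hF : ∀ f ∈ F, am f B = B) {g : L}
    (hg : Inv F (cj g B)) (hne : cj g B ≠ B) (hno : ¬ Opp B S (cj g B)) :
    eu {Q | (cj g B ≤ Q ∧ Q ≠ ⊤ ∧ Inv F Q) ∧ ¬ B ⊓ Q ≤ cj g B} = 0 := by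
  set Z : Set (Subgroup L) := {Q | (cj g B ≤ Q ∧ Q ≠ ⊤ ∧ Inv F Q) ∧ ¬ B ⊓ Q ≤ cj g B} with hZ
  have hZf : Z.Finite := Set.toFinite Z
  set J : Set L := {t | t ∈ S ∧ ¬ Pr B g (Par B t)} with hJ
  have hJS : J ⊆ S := fun t ht => ht.1
  have hpar_eq : ∀ s ∈ S, ∀ t ∈ S, s⁻¹ * t ∈ B → Par B t = Par B s := by
    intro s hs t ht hst
    exact h.par_minimal le_Par (h.par_ne ht) hs (par_le le_Par ((h.gen_mem_par ht hs).2 hst))
  have hJc : ∀ s ∈ J, ∀ t ∈ S, s⁻¹ * t ∈ B → t ∈ J := by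
    intro s hs t ht hst
    refine ⟨ht, ?_⟩
    rw [hpar_eq s hs.1 t ht hst]
    exact hs.2
  set K : Subgroup L := closure ((B : Set L) ∪ J) with hK
  have hBK : B ≤ K := fun x hx => subset_closure (Or.inl hx)
  have hJK : ∀ t ∈ J, t ∈ K := fun t ht => subset_closure (Or.inr ht)
  have hfg : ∀ f ∈ F, g⁻¹ * f g ∈ B := by
    intro f hf
    rw [← h.cj_B_eq_iff hr]
    have := hg f hf
    rw [am_cj, hF f hf] at this
    exact this.symm
  have hKinv : Inv F K := by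
    intro f hf
    refine am_eq_of_le ?_
    rw [hK, am_closure_le]
    rintro x (hx | hx)
    · apply hBK
      have := apply_mem_am (f := f) hx
      rwa [hF f hf] at this
    · obtain ⟨s, hs, hs'⟩ := h.am_par (hF f hf) hx.1
      have hsJ : s ∈ J := by
        refine ⟨hs, fun hcon => hx.2 ?_⟩
        -- transport `Pr` back along `f`
        intro b hb hbP
        have h1 : Pr B (f g) (Par B s) := pr_coset le_Par (hfg f hf) hcon
        have hfb : f b ∈ B := by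
          have := apply_mem_am (f := f) hb
          rwa [hF f hf] at this
        have h2 : (f g)⁻¹ * f b * f g ∈ Par B s := by
          rw [← hs']
          have := apply_mem_am (f := f) hbP
          rwa [map_mul, map_mul, map_inv] at this
        have h3 := h1 (f b) hfb h2
        have h4 : f (g⁻¹ * b * g) ∈ am f B := by
          rw [hF f hf, map_mul, map_mul, map_inv]
          exact h3
        rw [mem_am, ← MulAut.mul_apply, inv_mul_cancel, MulAut.one_apply] at h4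
        exact h4
      have h2 : f x ∈ am f (Par B x) := apply_mem_am self_mem_Par
      rw [hs'] at h2
      exact (par_le hBK (hJK s hsJ)) h2
  set A : Subgroup L := cj g K with hA
  have hAinv : Inv F A := by
    intro f hf
    rw [hA, am_cj, hKinv f hf]
    have e : f g = g * (g⁻¹ * f g) := by group
    rw [e, cj_mul, cj_self (hBK (hfg f hf))]
  have hBA : cj g B ≤ A := cj_le.2 hBK
  have hAtop : A ≠ ⊤ := by
    intro hcon
    have hKtop : K = ⊤ := by
      rw [eq_top_iff, ← cj_le (g := g), ← hA, hcon]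
      exact le_top
    apply hno
    refine ⟨g, rfl, fun s hs => ?_⟩
    have h1 : s ∈ closure ((B : Set L) ∪ J) := by rw [← hK, hKtop]; exact mem_top s
    exact (h.toBN0.mem_closure_gen hJS hJc hs h1).2
  have hpr : ∀ H : Subgroup L, B ≤ H → (B ⊓ cj g H ≤ cj g B ↔ Pr B g H) := by
    intro H _
    rw [← pr_iff_inf, ← cj_mul, inv_mul_cancel, cj_one]
  have hmeet : ∀ Q : Subgroup L, cj g B ≤ Q → ¬ B ⊓ Q ≤ cj g B → ¬ B ⊓ (Q ⊓ A) ≤ cj g B := by
    intro Q hQ hnQ hcon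
    have hBH : B ≤ cj g⁻¹ Q := cj_le_iff.1 hQ
    have h1 : ¬ Pr B g (cj g⁻¹ Q) := fun hp => hnQ (pr_iff_inf.1 hp)
    rw [h.pr_iff_gen hBH] at h1
    push Not at h1
    obtain ⟨s, hs, hsQ, hps⟩ := h1
    have hsJ : s ∈ J := ⟨hs, hps⟩
    apply hps
    rw [← hpr _ le_Par]
    refine le_trans (inf_le_inf_left B ?_) hcon
    refine le_inf ?_ ?_
    · rw [cj_le_iff]
      exact par_le hBH hsQ
    · exact cj_le.2 (par_le hBK (hJK s hsJ))
  have hAZ : A ∈ Z := by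
    refine ⟨⟨hBA, hAtop, hAinv⟩, ?_⟩
    have h1 : ¬ B ⊓ (⊤ : Subgroup L) ≤ cj g B := by
      intro hcon
      apply hne
      apply eq_of_pr_top
      have := pr_iff_inf.2 hcon
      have e : cj g⁻¹ (⊤ : Subgroup L) = ⊤ := by
        ext x; simp [mem_cj]
      rwa [e] at this
    have h2 := hmeet ⊤ le_top h1
    rwa [top_inf_eq] at h2
  rw [eu_coreflect (fun Q => Q ⊓ A) _ Z {Q | Q ∈ Z ∧ Q ≤ A} hZf rfl (fun Q hQ => hQ.1) ?_
    (fun Q _ => inf_le_left) (fun Q _ P hP hPQ => le_inf hPQ hP.2)]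
  · exact eu_top (hZf.subset fun Q hQ => hQ.1) (m := A) ⟨hAZ, le_rfl⟩ (fun Q hQ => hQ.2)
  · rintro Q ⟨⟨hQ1, hQ2, hQ3⟩, hQ4⟩
    refine ⟨⟨⟨le_inf hQ1 hBA, fun hcon => hAtop ?_, hQ3.inf hAinv⟩, hmeet Q hQ1 hQ4⟩,
      inf_le_right⟩
    rw [eq_top_iff, ← hcon]
    exact inf_le_right

/-- the poset above an opposite chamber -/
lemma eu_Z_opp [Finite L] (hr : r.Prime) {F : Set (MulAut L)} (hF : ∀ f ∈ F, am f B = B) {g : L}
    (hg : Inv F (cj g B)) (hop : Opp B S (cj g B)) :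
    eu {Q | (cj g B ≤ Q ∧ Q ≠ ⊤ ∧ Inv F Q) ∧ ¬ B ⊓ Q ≤ cj g B} =
      eu {Q | B < Q ∧ Q < ⊤ ∧ Inv F Q} := by
  have hop' : ∀ s ∈ S, ¬ Pr B g (Par B s) := by
    obtain ⟨g', hg', hs⟩ := hop
    intro s hsS hp
    exact hs s hsS (pr_coset le_Par ((h.cj_B_eq_iff hr).1 hg') hp)
  have hfg : ∀ f ∈ F, g⁻¹ * f g ∈ B := by
    intro f hf
    rw [← h.cj_B_eq_iff hr]
    have := hg f hf
    rw [am_cj, hF f hf] at this
    exact this.symm
  have hinv : ∀ H : Subgroup L, B ≤ H → (Inv F (cj g H) ↔ Inv F H) := by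
    intro H hBH
    have key : ∀ f ∈ F, am f (cj g H) = cj g (am f H) := by
      intro f hf
      have e : f g = g * (g⁻¹ * f g) := by group
      have hB : B ≤ am f H := by
        have : am f B ≤ am f H := am_le.2 hBH
        rwa [hF f hf] at this
      rw [am_cj, e, cj_mul, cj_self (hB (hfg f hf))]
    constructor
    · intro h1 f hf
      have := h1 f hf
      rw [key f hf] at this
      exact cj_injective g this
    · intro h1 f hf
      rw [key f hf, h1 f hf]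
  have hset : {Q | (cj g B ≤ Q ∧ Q ≠ ⊤ ∧ Inv F Q) ∧ ¬ B ⊓ Q ≤ cj g B} =
      cjIso g '' {Q | B < Q ∧ Q < ⊤ ∧ Inv F Q} := by
    ext Q
    constructor
    · rintro ⟨⟨h1, h2, h3⟩, h4⟩
      have hBH : B ≤ cj g⁻¹ Q := cj_le_iff.1 h1
      have e : cj g (cj g⁻¹ Q) = Q := by rw [← cj_mul, mul_inv_cancel, cj_one]
      refine ⟨cj g⁻¹ Q, ⟨lt_of_le_of_ne hBH ?_, lt_of_le_of_ne le_top ?_, ?_⟩, e⟩
      · intro hcon
        apply h4
        rw [← e, ← hcon]
        exact inf_le_right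
      · intro hcon
        apply h2
        rw [← e, hcon]
        ext x; simp [mem_cj]
      · rw [← hinv _ hBH, e]
        exact h3
    · rintro ⟨H, ⟨h1, h2, h3⟩, rfl⟩
      change (cj g B ≤ cj g H ∧ cj g H ≠ ⊤ ∧ Inv F (cj g H)) ∧ ¬ B ⊓ cj g H ≤ cj g B
      refine ⟨⟨cj_le.2 h1.le, ?_, (hinv H h1.le).2 h3⟩, ?_⟩
      · intro hcon
        apply h2.ne
        rw [eq_top_iff, ← cj_le (g := g), hcon]
        exact le_top
      · intro hcon
        have hp : Pr B g H := by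
          have := pr_iff_inf.2 hcon
          rwa [← cj_mul, inv_mul_cancel, cj_one] at this
        obtain ⟨s, hs, hsH⟩ := h.exists_gen h1.le h1.ne'
        exact hop' s hs (hp.mono (par_le h1.le hsH))
  rw [hset]
  exact eu_image _ _

end SB

end

end Vale.Agent.P240.H195
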