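import Vale.Agent.P240.H195.BNGeo3

/-!
The Euler characteristic of the poset of proper parabolic subgroups stabilized by a group of
automorphisms fixing `B`: proof of the formula.
-/

namespace Vale.Agent.P240.H195

open Subgroup Vale.Agent.P240.K

universe u

section
variable {L : Type u} [Group L] {B N U : Subgroup L} {S : Set L} {r : ℕ}

namespace SB

variable (h : SB r B N U S)
include h

lemma B_ne_top : B ≠ ⊤ := by
  obtain ⟨s, hs⟩ := h.nonempty
  intro hcon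
  exact h.not_mem hs (by rw [hcon]; exact mem_top s)

/-- the proper parabolic subgroups stabilized by `F`: Euler characteristic -/
theorem geo [Finite L] (hr : r.Prime) {F : Set (MulAut L)} (hF : ∀ f ∈ F, am f B = B) :
    eu (YF B F) = - (eu {Q | B < Q ∧ Q < ⊤ ∧ Inv F Q} *
      (Nat.card {C | Opp B S C ∧ Inv F C} : ℤ)) := by
  classical
  set Y := YF B F with hY
  have hYf : Y.Finite := Set.toFinite Y
  set a : Subgroup L → ℤ := fun Q => eu {Q' | Q' ∈ Y ∧ Q < Q'} with ha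
  set X : Set (Subgroup L) := {C | (∃ g, C = cj g B) ∧ Inv F C} with hX
  have hXf : X.Finite := Set.toFinite X
  -- the closest chamber
  have hch : ∀ Q : Subgroup L, ∃ C : Subgroup L, Pb B Q → (∃ g, C = cj g B) ∧ C ≤ Q ∧ B ⊓ Q ≤ C := by
    intro Q
    by_cases hQ : Pb B Q
    · obtain ⟨g, hg1, hg2⟩ := h.exists_ch hQ
      exact ⟨cj g B, fun _ => ⟨⟨g, rfl⟩, hg1, hg2⟩⟩
    · exact ⟨B, fun hcon => absurd hcon hQ⟩
  choose ch hch using hch
  have hmaps : ∀ Q ∈ hYf.toFinset, ch Q ∈ hXf.toFinset := by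
    intro Q hQ
    rw [Set.Finite.mem_toFinset] at hQ ⊢
    obtain ⟨⟨g, hg⟩, h1, h2⟩ := hch Q hQ.1
    refine ⟨⟨g, hg⟩, fun f hf => ?_⟩
    have h3 : am f (ch Q) = cj (f g) B := by rw [hg, am_cj, hF f hf]
    rw [h3]
    conv_rhs => rw [hg]
    rw [hg] at h1 h2
    refine h.ch_unique hr (Q := Q) ?_ ?_ h1 h2
    · rw [← h3, hg, ← hQ.2.2 f hf, am_le]
      exact h1
    · have h4 : am f (B ⊓ Q) ≤ am f (cj g B) := am_le.2 h2
      rw [am_inf, hF f hf, hQ.2.2 f hf, am_cj, hF f hf] at h4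
      exact h4
  have hsum := Finset.sum_fiberwise_of_maps_to hmaps a
  -- the fibre over a chamber
  have hfib : ∀ C ∈ hXf.toFinset, ∑ Q ∈ hYf.toFinset with ch Q = C, a Q =
      eu {Q | (C ≤ Q ∧ Q ≠ ⊤ ∧ Inv F Q) ∧ ¬ B ⊓ Q ≤ C} := by
    intro C hC
    rw [Set.Finite.mem_toFinset] at hC
    obtain ⟨⟨g, hg⟩, hCinv⟩ := hC
    set Z : Set (Subgroup L) := {Q | (C ≤ Q ∧ Q ≠ ⊤ ∧ Inv F Q) ∧ ¬ B ⊓ Q ≤ C} with hZ
    set Λ : Set (Subgroup L) := {Q | C ≤ Q ∧ Q ≠ ⊤ ∧ Inv F Q} with hΛ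
    set W : Set (Subgroup L) := {Q | (C ≤ Q ∧ Q ≠ ⊤ ∧ Inv F Q) ∧ B ⊓ Q ≤ C} with hW
    have hZf : Z.Finite := Set.toFinite Z
    have hΛf : Λ.Finite := Set.toFinite Λ
    have hWf : W.Finite := Set.toFinite W
    have h1 : (hYf.toFinset.filter fun Q => ch Q = C) = hWf.toFinset := by
      ext Q
      rw [Finset.mem_filter, Set.Finite.mem_toFinset, Set.Finite.mem_toFinset]
      constructor
      · rintro ⟨hQ, hQC⟩
        obtain ⟨-, h2, h3⟩ := hch Q hQ.1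
        rw [hQC] at h2 h3
        exact ⟨⟨h2, hQ.2.1, hQ.2.2⟩, h3⟩
      · rintro ⟨⟨h2, h3, h4⟩, h5⟩
        have hPb : Pb B Q := ⟨g, by rw [← hg]; exact h2⟩
        refine ⟨⟨hPb, h3, h4⟩, ?_⟩
        obtain ⟨⟨g', hg'⟩, h6, h7⟩ := hch Q hPb
        rw [hg] at h2 h5 ⊢
        rw [hg'] at h6 h7 ⊢
        exact h.ch_unique hr h6 h7 h2 h5
    rw [h1]
    have hZs : ∀ Q ∈ hZf.toFinset, eu {y | y ∈ Z ∧ Q < y} = a Q := by
      intro Q hQ
      rw [Set.Finite.mem_toFinset] at hQ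
      simp only [ha]
      congr 1
      ext Q'
      constructor
      · rintro ⟨h2, h3⟩
        exact ⟨⟨⟨g, by rw [← hg]; exact h2.1.1⟩, h2.1.2⟩, h3⟩
      · rintro ⟨h2, h3⟩
        refine ⟨⟨⟨hQ.1.1.trans h3.le, h2.2.1, h2.2.2⟩, fun hcon => hQ.2 ?_⟩, h3⟩
        exact le_trans (inf_le_inf_left B h3.le) hcon
    have hΛs : ∀ Q ∈ hΛf.toFinset, eu {y | y ∈ Λ ∧ Q < y} = a Q := by
      intro Q hQ
      rw [Set.Finite.mem_toFinset] at hQ
      simp only [ha]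
      congr 1
      ext Q'
      constructor
      · rintro ⟨h2, h3⟩
        exact ⟨⟨⟨g, by rw [← hg]; exact h2.1⟩, h2.2⟩, h3⟩
      · rintro ⟨h2, h3⟩
        exact ⟨⟨hQ.1.trans h3.le, h2.2.1, h2.2.2⟩, h3⟩
    have h2 := eu_rec' hZf
    rw [Finset.sum_congr rfl hZs] at h2
    have h3 := eu_rec' hΛf
    rw [Finset.sum_congr rfl hΛs] at h3
    have hCtop : C ≠ ⊤ := by
      intro hcon
      apply h.B_ne_top
      rw [eq_top_iff, ← cj_le (g := g), ← hg, hcon]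
      exact le_top
    have h4 : eu Λ = 0 := eu_bot hΛf (m := C) ⟨le_rfl, hCtop, hCinv⟩ fun Q hQ => hQ.1
    have h5 : hΛf.toFinset = hZf.toFinset ∪ hWf.toFinset := by
      ext Q
      rw [Finset.mem_union, Set.Finite.mem_toFinset, Set.Finite.mem_toFinset,
        Set.Finite.mem_toFinset]
      constructor
      · intro hQ
        by_cases hQ' : B ⊓ Q ≤ C
        · exact Or.inr ⟨hQ, hQ'⟩
        · exact Or.inl ⟨hQ, hQ'⟩
      · rintro (hQ | hQ)
        · exact hQ.1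
        · exact hQ.1
    have h6 : Disjoint hZf.toFinset hWf.toFinset := by
      rw [Finset.disjoint_left]
      intro Q hQ hQ'
      rw [Set.Finite.mem_toFinset] at hQ hQ'
      exact hQ.2 hQ'.2
    rw [h5, Finset.sum_union h6] at h3
    linarith
  rw [Finset.sum_congr rfl hfib] at hsum
  -- evaluation
  set ε := eu {Q | B < Q ∧ Q < ⊤ ∧ Inv F Q} with hε
  have hval : ∀ C ∈ hXf.toFinset, eu {Q | (C ≤ Q ∧ Q ≠ ⊤ ∧ Inv F Q) ∧ ¬ B ⊓ Q ≤ C} =
      (if C = B then 1 else 0) + (if Opp B S C then ε else 0) := by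
    intro C hC
    rw [Set.Finite.mem_toFinset] at hC
    obtain ⟨⟨g, rfl⟩, hCinv⟩ := hC
    by_cases h1 : cj g B = B
    · have h2 : ¬ Opp B S (cj g B) := by
        rintro ⟨g', hg', hs⟩
        obtain ⟨s, hsS⟩ := h.nonempty
        refine hs s hsS ?_
        rw [h1] at hg'
        have h3 : g' ∈ B := by
          have : cj 1 B = cj g' B := by rw [cj_one]; exact hg'
          rw [h.cj_B_eq_iff hr, inv_one, one_mul] at this
          exact this
        intro b hb _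
        exact mul_mem (mul_mem (inv_mem h3) hb) h3
      rw [if_pos h1, if_neg h2, add_zero]
      have h3 : {Q | (cj g B ≤ Q ∧ Q ≠ ⊤ ∧ Inv F Q) ∧ ¬ B ⊓ Q ≤ cj g B} = ∅ := by
        rw [Set.eq_empty_iff_forall_notMem]
        rintro Q ⟨_, h3⟩
        rw [h1] at h3
        exact h3 inf_le_left
      rw [h3]
      exact eu_empty
    · rw [if_neg h1, zero_add]
      by_cases h2 : Opp B S (cj g B)
      · rw [if_pos h2]
        exact h.eu_Z_opp hr hF hCinv h2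
      · rw [if_neg h2]
        exact h.eu_Z hr hF hCinv h1 h2
  rw [Finset.sum_congr rfl hval, Finset.sum_add_distrib] at hsum
  have hBX : B ∈ hXf.toFinset := by
    rw [Set.Finite.mem_toFinset]
    exact ⟨⟨1, (cj_one B).symm⟩, fun f hf => hF f hf⟩
  have h1 : ∑ C ∈ hXf.toFinset, (if C = B then (1 : ℤ) else 0) = 1 := by
    rw [Finset.sum_ite_eq' hXf.toFinset B (fun _ => (1 : ℤ)), if_pos hBX]
  have h2 : ∑ C ∈ hXf.toFinset, (if Opp B S C then ε else 0) =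
      ε * (Nat.card {C | Opp B S C ∧ Inv F C} : ℤ) := by
    rw [← Finset.sum_filter, Finset.sum_const, nsmul_eq_mul, mul_comm]
    congr 2
    have hOf : {C | Opp B S C ∧ Inv F C}.Finite := Set.toFinite _
    rw [Nat.card_eq_card_finite_toFinset hOf]
    congr 1
    ext C
    rw [Finset.mem_filter, Set.Finite.mem_toFinset, Set.Finite.mem_toFinset]
    constructor
    · rintro ⟨hC1, hC2⟩
      exact ⟨hC2, hC1.2⟩
    · rintro ⟨hC1, hC2⟩
      obtain ⟨g, hg, hs⟩ := hC1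
      exact ⟨⟨⟨g, hg⟩, hC2⟩, g, hg, hs⟩
  have h3 := eu_rec' hYf
  rw [h3]
  have h4 : ∑ Q ∈ hYf.toFinset, eu {y | y ∈ Y ∧ Q < y} = ∑ Q ∈ hYf.toFinset, a Q := rfl
  rw [h4, ← hsum, h1, h2]
  ring

end SB

end

end Vale.Agent.P240.H195
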