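import Vale.Agent.P240.H195.BNChar
import Vale.Agent.P240.H195.BNFree

/-!
Components of Lie type in characteristic `p`: `AlmostSimpleHQ` if there is one outer class, and the
`l`-adic condition.
-/

namespace Vale.Agent.P240.H195

open Subgroup Vale.Agent.P240.K

universe u v

section
variable {L : Type u} [Group L] {p : ℕ}

lemma LieType.inj (hL : LieType p L) : Function.Injective (MulAut.conj : L →* MulAut L) := by
  rw [injective_iff_map_eq_one]
  intro x hx
  refine hL.2.1 x fun y => ?_
  have := congrArg (fun φ : MulAut L => φ y) hx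
  have h1 : x * y * x⁻¹ = y := this
  rwa [mul_inv_eq_iff_eq_mul] at h1

end

section
variable {G : Type u} [Group G] {p : ℕ} {L : Subgroup G}

/-- outer automorphisms of order `p` come from outer elements -/
lemma outer_of_aut (x : normalizer (L : Set G)) (hx : L.normalizerMonoidHom x ^ p = 1)
    (hn : L.normalizerMonoidHom x ∉ innS L) : Outer p L (x : G) := by
  refine ⟨x.2, ?_, fun hcon => hn ?_⟩
  · rw [← map_pow, ← MonoidHom.mem_ker, normalizerMonoidHom_ker, Subgroup.mem_subgroupOf] at hx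
    exact hx
  · obtain ⟨l, hl, c, hc, hlc⟩ := mem_sup_cent hcon
    refine ⟨⟨l, hl⟩, ?_⟩
    ext y
    change (l : G) * y * (l : G)⁻¹ = x * y * (x : G)⁻¹
    have h1 : c * (y : G) * c⁻¹ = y := by
      rw [mul_inv_eq_iff_eq_mul]
      exact ((mem_centralizer_iff.1 hc) y y.2).symm
    calc (l : G) * y * (l : G)⁻¹ = l * (c * y * c⁻¹) * (l : G)⁻¹ := by rw [h1]
      _ = (l * c) * y * (l * c)⁻¹ := by group
      _ = _ := by rw [← hlc]

/-- `SameOuter` in terms of automorphisms -/
lemma sameOuter_aut {x y : normalizer (L : Set G)} (h : SameOuter L (x : G) (y : G)) :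
    L.normalizerMonoidHom y ∈ zpowers (L.normalizerMonoidHom x) ⊔ innS L := by
  set K : Subgroup (normalizer (L : Set G)) :=
    (zpowers (L.normalizerMonoidHom x) ⊔ innS L).comap L.normalizerMonoidHom with hK
  have hmem : ∀ z : normalizer (L : Set G), z ∈ K ↔
      L.normalizerMonoidHom z ∈ zpowers (L.normalizerMonoidHom x) ⊔ innS L := fun z => Iff.rfl
  have h1 : zpowers (x : G) ⊔ (L ⊔ centralizer (L : Set G)) ≤
      K.map (normalizer (L : Set G)).subtype := by
    refine sup_le ?_ (sup_le ?_ ?_)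
    · rw [zpowers_le]
      exact ⟨x, (hmem x).2 (Subgroup.mem_sup_left (mem_zpowers _)), rfl⟩
    · intro l hl
      refine ⟨⟨l, le_normalizer hl⟩, (hmem _).2 (Subgroup.mem_sup_right ⟨⟨l, hl⟩, ?_⟩), rfl⟩
      ext z
      rfl
    · intro c hc
      have hcN : c ∈ normalizer (L : Set G) := by
        have : centralizer (L : Set G) ≤ normalizer (L : Set G) := centralizer_le_normalizer _
        exact this hc
      refine ⟨⟨c, hcN⟩, (hmem _).2 ?_, rfl⟩
      have h2 : L.normalizerMonoidHom ⟨c, hcN⟩ = 1 := by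
        rw [← MonoidHom.mem_ker, normalizerMonoidHom_ker, Subgroup.mem_subgroupOf]
        exact hc
      rw [h2]
      exact one_mem _
  obtain ⟨z, hz, hzy⟩ := h1 h
  have h2 : z = y := Subtype.ext hzy
  rw [h2] at hz
  exact hz

/-- components of Lie type in characteristic `p` with one outer class -/
theorem almostSimpleHQ_char {𝕜 : Type v} [Field 𝕜] [Finite L] (hL : LieType p L) (hp : p.Prime)
    (hsame : ∀ x y : G, Outer p L x → Outer p L y → SameOuter L x y) : AlmostSimpleHQ 𝕜 p L := by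
  intro A hA hIA
  rw [HQ_sub_iff]
  have hinj := hL.inj
  obtain ⟨hsimple, -, B, N, U, S, h⟩ := hL
  refine NA_of_eu (Set.toFinite _) (h.eu_ne_zero hsimple hinj hp ?_ ?_)
  · rintro _ ⟨x, rfl⟩
    exact hIA x
  · intro F hF F' hF' hFI hF'I f' hf'
    by_cases hf1 : f' = 1
    · rw [hf1]
      exact one_mem _
    obtain ⟨f, hf, hfne⟩ : ∃ f ∈ F, f ≠ 1 := by
      by_contra hcon
      push Not at hcon
      exact hF.1.1 (by rw [eq_bot_iff]; exact fun x hx => mem_bot.2 (hcon x hx))
    obtain ⟨x, hx⟩ := hA (hF.2 hf)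
    obtain ⟨y, hy⟩ := hA (hF'.2 hf')
    have hfn : f ∉ innS L := fun hcon => hfne (by
      have : f ∈ F ⊓ innS L := ⟨hf, hcon⟩
      rwa [hFI, mem_bot] at this)
    have hf'n : f' ∉ innS L := fun hcon => hf1 (by
      have : f' ∈ F' ⊓ innS L := ⟨hf', hcon⟩
      rwa [hF'I, mem_bot] at this)
    have hox : Outer p L (x : G) := outer_of_aut x (by rw [hx]; exact hF.1.2.2 f hf)
      (by rw [hx]; exact hfn)
    have hoy : Outer p L (y : G) := outer_of_aut y (by rw [hy]; exact hF'.1.2.2 f' hf')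
      (by rw [hy]; exact hf'n)
    have h1 := sameOuter_aut (hsame x y hox hoy)
    rw [hx, hy] at h1
    refine (sup_le_sup_right ?_ (innS L)) h1
    rw [zpowers_le]
    exact hf

/-- the sum over `S = {1}` -/
lemma wsum_one [Finite G] (K : Subgroup G) : Q.wsum p {1} K = eu (Ain p K) := by
  classical
  have h0 : Q.wsum p {1} K = wsum p {1} K := rfl
  rw [h0, wsum_eq]
  have h1 : ∑ a ∈ (Set.toFinite (K : Set G)).toFinset,
      (if a = 1 then lam p K 1 else 0) = eu (Ain p K) := ?_
  · rw [← h1]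
    refine Finset.sum_congr rfl fun a _ => ?_
    by_cases ha : a = 1
    · rw [if_pos (by rw [ha]; rfl), if_pos ha, one_mul, ha]
    · rw [if_neg (by rwa [Set.mem_singleton_iff]), if_neg ha, zero_mul]
  rw [Finset.sum_ite_eq' _ (1 : G) (fun _ => lam p K 1), if_pos]
  · unfold lam
    congr 1
    ext E
    exact ⟨fun h => h.1, fun h => ⟨h, one_mem _⟩⟩
  · rw [Set.Finite.mem_toFinset]
    exact one_mem K

/-- the Euler characteristic vanishes on centralizers of inner elements -/
lemma eu_inner_zero [hp : Fact p.Prime] [Finite G]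
    (hZ : ∀ x ∈ L, x ∈ centralizer (L : Set G) → x = 1) {E : Subgroup G} (hE : ElemAb p E)
    (hEN : E ≤ normalizer (L : Set G)) {e : G} (he : e ∈ E)
    (heL : e ∈ L ⊔ centralizer (L : Set G)) (heC : e ∉ centralizer (L : Set G)) :
    eu (Ain p (L ⊓ centralizer (E : Set G))) = 0 := by
  obtain ⟨l, hl, c, hc, rfl⟩ := mem_sup_cent heL
  have hcomm : l * c = c * l := (mem_centralizer_iff.1 hc) l hl
  have hl1 : l ≠ 1 := by
    rintro rfl
    rw [one_mul] at heC
    exact heC hc
  have hlp : l ^ p = 1 := by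
    have h1 := hE.2.2 _ he
    rw [Commute.mul_pow hcomm] at h1
    refine hZ _ (pow_mem hl p) ?_
    have : l ^ p = (c ^ p)⁻¹ := eq_inv_of_mul_eq_one_left h1
    rw [this]
    exact inv_mem (pow_mem hc p)
  have hlE : l ∈ centralizer (E : Set G) := by
    rw [mem_centralizer_iff]
    intro x hx
    have h1 : x * (l * c) = l * c * x := hE.2.1 x hx _ he
    have hxN := hEN hx
    have h2 : x * l * x⁻¹ ∈ L := (mem_normalizer_iff.1 hxN l).1 hl
    have hcN : x * c * x⁻¹ ∈ centralizer (L : Set G) := by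
      rw [mem_centralizer_iff]
      intro y hy
      have h3 : x⁻¹ * y * x ∈ L := by
        have := (mem_normalizer_iff.1 (inv_mem hxN) y).1 hy
        rwa [inv_inv] at this
      have h4 := (mem_centralizer_iff.1 hc) _ h3
      calc y * (x * c * x⁻¹) = x * ((x⁻¹ * y * x) * c) * x⁻¹ := by group
        _ = x * (c * (x⁻¹ * y * x)) * x⁻¹ := by rw [h4]
        _ = x * c * x⁻¹ * y := by group
    have h3 : l⁻¹ * (x * l * x⁻¹) = 1 := by
      refine hZ _ (mul_mem (inv_mem hl) h2) ?_
      have : l⁻¹ * (x * l * x⁻¹) = c * (x * c * x⁻¹)⁻¹ := by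
        have h4 : (x * l * x⁻¹) * (x * c * x⁻¹) = l * c := by
          have : (x * l * x⁻¹) * (x * c * x⁻¹) = x * (l * c) * x⁻¹ := by group
          rw [this, h1]
          group
        rw [eq_mul_inv_iff_mul_eq, mul_assoc, h4]
        group
      rw [this]
      exact mul_mem hc (inv_mem hcN)
    rw [inv_mul_eq_one] at h3
    calc x * l = x * l * x⁻¹ * x := by group
      _ = l * x := by rw [← h3]
  refine eu_normal (V := zpowers l) ?_ ?_ ?_ ?_
  · rw [zpowers_le]
    exact ⟨hl, hlE⟩
  · rintro ⟨_, ⟨i, rfl⟩⟩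
    refine ⟨1, Subtype.ext ?_⟩
    change (l ^ i) ^ p ^ 1 = 1
    rw [pow_one, ← zpow_natCast, zpow_comm, zpow_natCast, hlp, one_zpow]
  · rwa [Ne, zpowers_eq_bot]
  · intro y hy
    have h1 : l * c * y = y * (l * c) := (mem_centralizer_iff.1 hy.2) _ he
    have h2 : y * c = c * y := (mem_centralizer_iff.1 hc) y hy.1
    have h3 : y * l = l * y := by
      have h4 : y * l * c = l * y * c := by
        calc y * l * c = y * (l * c) := by group
          _ = l * c * y := h1.symm
          _ = l * (c * y) := by group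
          _ = l * y * c := by rw [← h2]; group
      exact mul_right_cancel h4
    refine mem_of_comm ?_
    rintro _ ⟨i, rfl⟩
    exact Commute.zpow_right h3 i

/-- the `l`-adic condition with `S = {1}` -/
theorem adic_one [hp : Fact p.Prime] [Finite G] {l : ℕ}
    (hZ : ∀ x ∈ L, x ∈ centralizer (L : Set G) → x = 1) (hl : ¬ (l : ℤ) ∣ eu (Ain p L))
    (hidx : ∀ x, Outer p L x → l ∣ (L ⊓ centralizer {x}).relIndex L) : Q.Adic p l {1} L := by
  refine ⟨?_, ?_, 1, ?_, ?_⟩
  · intro h _ _ s hs _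
    rw [Set.mem_singleton_iff] at hs ⊢
    rw [hs]
    group
  · intro g _ s hs _
    rw [Set.mem_singleton_iff] at hs ⊢
    rw [hs]
    group
  · rw [pow_one, wsum_one]
    exact hl
  · intro E hEN hE hEC
    rw [pow_one, wsum_one]
    have hCz : Q.Cz E = centralizer (E : Set G) := rfl
    rw [hCz]
    by_cases hin : ∃ e ∈ E, e ∈ L ⊔ centralizer (L : Set G) ∧ e ∉ centralizer (L : Set G)
    · obtain ⟨e, he, heL, heC⟩ := hin
      rw [eu_inner_zero hZ hE hEN he heL heC, mul_zero]
      exact dvd_zero _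
    · push Not at hin
      obtain ⟨x, hx, hxC⟩ := SetLike.not_le_iff_exists.1 hEC
      have hxo : Outer p L x := ⟨hEN hx, by
        rw [hE.2.2 x hx]
        exact one_mem _, fun hcon => hxC (hin x hx hcon)⟩
      refine dvd_mul_of_dvd_left ?_ _
      have h1 : L ⊓ centralizer (E : Set G) ≤ L ⊓ centralizer {x} := by
        refine inf_le_inf_left L ?_
        exact centralizer_le (Set.singleton_subset_iff.2 hx)
      have h2 := Subgroup.relIndex_mul_relIndex _ _ L h1 inf_le_left
      rw [← h2]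
      exact_mod_cast dvd_mul_of_dvd_right (hidx x hxo) _

/-- components of Lie type in characteristic `p`: the `l`-adic condition -/
theorem adic_char [hp : Fact p.Prime] [Finite G] {l : ℕ} (hl : l.Prime) (hlp : l ≠ p)
    (hL : LieType p L)
    (hidx : ∀ x, Outer p L x → l ∣ (L ⊓ centralizer {x}).relIndex L) : Q.Adic p l {1} L := by
  refine adic_one ?_ ?_ hidx
  · intro x hx hxC
    have h1 := hL.2.1 ⟨x, hx⟩ fun y => Subtype.ext ((mem_centralizer_iff.1 hxC y y.2).symm)
    exact congrArg Subtype.val h1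
  · obtain ⟨-, -, B, N, U, S, h⟩ := hL
    obtain ⟨ε, hε, h1⟩ := h.eu_all hp.out
    have h2 : eu (Ain p L) = -(ε * (Nat.card U : ℤ)) := by
      rw [← h1, eu_sub]
      congr 1
      ext E
      exact ⟨fun h => ⟨h, le_top⟩, fun h => h.1⟩
    rw [h2, dvd_neg]
    intro hdvd
    have h3 : (l : ℤ) ∣ (Nat.card U : ℤ) := by
      rcases hε with h4 | h4 <;> rw [h4] at hdvd
      · rwa [one_mul] at hdvd
      · rwa [neg_one_mul, dvd_neg] at hdvd
    have h4 : l ∣ Nat.card U := by exact_mod_cast h3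
    obtain ⟨n, hn⟩ := h.pgroup.exists_card_eq
    rw [hn] at h4
    exact hlp ((Nat.prime_dvd_prime_iff_eq hl hp.out).1 (hl.dvd_of_dvd_pow h4))

end

end Vale.Agent.P240.H195
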