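import Vale.Agent.P240.H195.BNGeo4

/-!
Opposite chambers: `U` acts regularly on them.
-/

namespace Vale.Agent.P240.H195

open Subgroup Vale.Agent.P240.K

universe u

section
variable {L : Type u} [Group L] {B N U : Subgroup L} {S : Set L} {r : ℕ}

namespace SB

variable (h : SB r B N U S)
include h

/-- the element in `opp` is a longest element -/
lemma exists_opp [Finite L] (hr : r.Prime) :
    ∃ n, h.toBN0.Long n ∧ ∀ x ∈ U, n * x * n⁻¹ ∈ U → x = 1 := by
  obtain ⟨n, hn, hx⟩ := h.opp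
  refine ⟨n, ⟨hn, fun s hs hrg => ?_⟩, hx⟩
  obtain ⟨x, hxU, hnx, hxs⟩ := h.transit' hr hn hs hrg
  apply hxs
  rw [hx x hxU hnx]
  simp

lemma opp_iff [Finite L] (hr : r.Prime) {n : L} (hn : h.toBN0.Long n) {C : Subgroup L} :
    Opp B S C ↔ ∃ u ∈ U, C = cj (u * n) B := by
  constructor
  · rintro ⟨g, rfl, hg⟩
    obtain ⟨m, hm, hd⟩ := h.bruhat g
    have hml : h.toBN0.Long m := by
      refine ⟨hm, fun s hs hrg => hg s hs ?_⟩
      refine Pr.dc le_Par ?_ hd
      refine (h.pr_iff h.bruhat hm le_Par).2 fun t ht htP => ?_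
      have h1 := (h.gen_mem_par ht hs).1 htP
      intro b hb
      have h2 := (hrg b hb).right h1
      have e1 : m * b * s * (s⁻¹ * t) = m * b * t := by group
      have e2 : m * t = m * s * (s⁻¹ * t) := by group
      rw [e1] at h2
      rw [e2, DC_right_iff h1]
      exact h2
    obtain ⟨a, ha, b, hb, rfl⟩ := hd
    obtain ⟨u, hu, t, htB, htN, rfl⟩ := h.split a ha
    refine ⟨u, hu, ?_⟩
    rw [eq_comm, h.cj_B_eq_iff hr]
    have e : (u * n)⁻¹ * (u * t * m * b) = (n⁻¹ * t * n) * (n⁻¹ * m) * b := by group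
    rw [e]
    exact mul_mem (mul_mem (h.norm' hn.1 htB htN) (h.long_unique hn hml)) hb
  · rintro ⟨u, hu, rfl⟩
    refine ⟨u * n, rfl, fun s hs hp => ?_⟩
    have h1 := hp.left (inv_mem (h.le hu))
    rw [inv_mul_cancel_left] at h1
    exact hn.2 s hs (h.rg_of_pr le_Par hn.1 hs self_mem_Par h1)

lemma opp_free [Finite L] (hr : r.Prime) {n : L} (hopp : ∀ x ∈ U, n * x * n⁻¹ ∈ U → x = 1)
    {u v : L} (hu : u ∈ U) (hv : v ∈ U) (he : cj (u * n) B = cj (v * n) B) : u = v := by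
  rw [h.cj_B_eq_iff hr] at he
  have h1 : u⁻¹ * v ∈ U := mul_mem (inv_mem hu) hv
  have e1 : (u * n)⁻¹ * (v * n) = n⁻¹ * (u⁻¹ * v) * n := by group
  rw [e1] at he
  have h2 := h.conj_U' hr h1 he
  have h3 := hopp _ h2 (by
    have : n * (n⁻¹ * (u⁻¹ * v) * n) * n⁻¹ = u⁻¹ * v := by group
    rwa [this])
  have h4 : u⁻¹ * v = 1 := by
    have : u⁻¹ * v = n * (n⁻¹ * (u⁻¹ * v) * n) * n⁻¹ := by group
    rw [this, h3]
    group
  exact (inv_mul_eq_one.1 h4)

/-- automorphisms fixing `B` fix `U` -/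
lemma apply_U [Finite L] (hr : r.Prime) {f : MulAut L} (hf : am f B = B) {x : L} (hx : x ∈ U) :
    f x ∈ U := by
  obtain ⟨k, hk⟩ := h.exists_pow hx
  have h1 : f x ∈ B := by
    have := apply_mem_am (f := f) (h.le hx)
    rwa [hf] at this
  refine h.mem_U hr h1 (k := k) ?_
  rw [← map_pow, hk, map_one]

/-- the number of opposite chambers stabilized by `F` -/
theorem card_opp [Finite L] (hr : r.Prime) {F : Set (MulAut L)} (hF : ∀ f ∈ F, am f B = B) :
    Nat.card {C | Opp B S C ∧ Inv F C} = 0 ∨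
      Nat.card {C | Opp B S C ∧ Inv F C} = Nat.card {u : L | u ∈ U ∧ ∀ f ∈ F, f u = u} := by
  obtain ⟨n, hn, hopp⟩ := h.exists_opp hr
  by_cases hne : ∃ C, Opp B S C ∧ Inv F C
  · right
    obtain ⟨C₀, hC₀, hC₀F⟩ := hne
    obtain ⟨u₀, hu₀, rfl⟩ := (h.opp_iff hr hn).1 hC₀
    have hkey : ∀ u : L, u ∈ U → ∀ f ∈ F, am f (cj (u * (u₀ * n)) B) = cj (f u * (u₀ * n)) B := by
      intro u _ f hf
      have h1 := hC₀F f hf
      rw [cj_mul, am_cj, h1, ← cj_mul]
    refine (Nat.card_congr (Equiv.ofBijective (fun u : {u : L | u ∈ U ∧ ∀ f ∈ F, f u = u} =>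
      (⟨cj (u.1 * (u₀ * n)) B, ?_, ?_⟩ : {C | Opp B S C ∧ Inv F C})) ⟨?_, ?_⟩)).symm
    · rw [h.opp_iff hr hn]
      refine ⟨u.1 * u₀, mul_mem u.2.1 hu₀, ?_⟩
      rw [mul_assoc]
    · intro f hf
      rw [hkey _ u.2.1 f hf, u.2.2 f hf]
    · rintro ⟨u, hu, hu'⟩ ⟨v, hv, hv'⟩ huv
      have h1 : cj (u * (u₀ * n)) B = cj (v * (u₀ * n)) B := congrArg Subtype.val huv
      rw [← mul_assoc, ← mul_assoc] at h1
      have h2 := h.opp_free hr hopp (mul_mem hu hu₀) (mul_mem hv hu₀) h1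
      exact Subtype.ext (mul_right_cancel h2)
    · rintro ⟨C, hC, hCF⟩
      obtain ⟨v, hv, rfl⟩ := (h.opp_iff hr hn).1 hC
      have hu : v * u₀⁻¹ ∈ U := mul_mem hv (inv_mem hu₀)
      have e : v * u₀⁻¹ * (u₀ * n) = v * n := by group
      refine ⟨⟨v * u₀⁻¹, hu, fun f hf => ?_⟩, ?_⟩
      · have h1 := hkey _ hu f hf
        rw [e, hCF f hf, ← e, ← mul_assoc, ← mul_assoc] at h1
        have h2 := h.opp_free hr hopp (mul_mem hu hu₀)
          (mul_mem (h.apply_U hr (hF f hf) hu) hu₀) h1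
        exact (mul_right_cancel h2).symm
      · apply Subtype.ext
        change cj (v * u₀⁻¹ * (u₀ * n)) B = _
        rw [e]
  · left
    have : {C | Opp B S C ∧ Inv F C} = ∅ := by
      rw [Set.eq_empty_iff_forall_notMem]
      exact fun C hC => hne ⟨C, hC⟩
    rw [this]
    simp

/-- the number of opposite chambers -/
theorem card_opp_empty [Finite L] (hr : r.Prime) :
    Nat.card {C | Opp B S C ∧ Inv (∅ : Set (MulAut L)) C} = Nat.card U := by
  obtain ⟨n, hn, -⟩ := h.exists_opp hr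
  rcases h.card_opp hr (F := ∅) (fun f hf => absurd hf (Set.notMem_empty f)) with h1 | h1
  · exfalso
    rw [Nat.card_eq_zero] at h1
    rcases h1 with h1 | h1
    · exact h1.elim ⟨cj n B, (h.opp_iff hr hn).2 ⟨1, one_mem _, by rw [one_mul]⟩,
        fun f hf => absurd hf (Set.notMem_empty f)⟩
    · exact absurd (inferInstance : Finite {C | Opp B S C ∧ Inv (∅ : Set (MulAut L)) C})
        (not_finite_iff_infinite.2 h1)
  · rw [h1]
    refine Nat.card_congr (Equiv.subtypeEquivRight fun u => ?_)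
    constructor
    · exact fun hu => hu.1
    · exact fun hu => ⟨hu, fun f hf => absurd hf (Set.notMem_empty f)⟩

/-- no chamber opposite `B` is stabilized by a nontrivial element of `U` -/
theorem card_opp_zero [Finite L] (hr : r.Prime) {F : Set (MulAut L)} {x : L} (hx : x ∈ U)
    (hx1 : x ≠ 1) (hxF : MulAut.conj x ∈ F) : Nat.card {C | Opp B S C ∧ Inv F C} = 0 := by
  obtain ⟨n, hn, hopp⟩ := h.exists_opp hr
  have : {C | Opp B S C ∧ Inv F C} = ∅ := by
    rw [Set.eq_empty_iff_forall_notMem]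
    rintro C ⟨hC, hCF⟩
    obtain ⟨v, hv, rfl⟩ := (h.opp_iff hr hn).1 hC
    have h1 := hCF _ hxF
    rw [am_conj, ← cj_mul, ← mul_assoc] at h1
    have h2 := h.opp_free hr hopp (mul_mem hx hv) hv h1
    exact hx1 (mul_eq_right.1 h2)
  rw [this]
  simp

end SB

end

end Vale.Agent.P240.H195
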