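import Vale.Agent.P240.H195.BNWord

/-!
Projections in BN-pairs: `Pr B g H` says that `g B` is the chamber of the residue `g H` which is
closest to `B`.
-/

namespace Vale.Agent.P240.H195

open Subgroup

universe u

section
variable {L : Type u} [Group L] {B N : Subgroup L} {S : Set L}

/-- `B ∩ gHg⁻¹ ≤ gBg⁻¹` -/
def Pr (B : Subgroup L) (g : L) (H : Subgroup L) : Prop :=
  ∀ b ∈ B, g⁻¹ * b * g ∈ H → g⁻¹ * b * g ∈ B

lemma Pr.left {g a : L} {H : Subgroup L} (h : Pr B g H) (ha : a ∈ B) : Pr B (a * g) H := by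
  intro b hb hH
  have e : (a * g)⁻¹ * b * (a * g) = g⁻¹ * (a⁻¹ * b * a) * g := by group
  rw [e] at hH ⊢
  exact h _ (mul_mem (mul_mem (inv_mem ha) hb) ha) hH

lemma Pr.right {g a : L} {H : Subgroup L} (hBH : B ≤ H) (h : Pr B g H) (ha : a ∈ B) :
    Pr B (g * a) H := by
  intro b hb hH
  have e : (g * a)⁻¹ * b * (g * a) = a⁻¹ * (g⁻¹ * b * g) * a := by group
  rw [e] at hH ⊢
  have h1 : g⁻¹ * b * g ∈ H := by
    have : g⁻¹ * b * g = a * (a⁻¹ * (g⁻¹ * b * g) * a) * a⁻¹ := by group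
    rw [this]
    exact mul_mem (mul_mem (hBH ha) hH) (inv_mem (hBH ha))
  exact mul_mem (mul_mem (inv_mem ha) (h b hb h1)) ha

lemma Pr.dc {g n : L} {H : Subgroup L} (hBH : B ≤ H) (h : Pr B n H) (hd : DC B n g) :
    Pr B g H := by
  obtain ⟨a, ha, b, hb, rfl⟩ := hd
  exact (h.left ha).right hBH hb

lemma Pr.mono {g : L} {H K : Subgroup L} (h : Pr B g H) (hKH : K ≤ H) : Pr B g K :=
  fun b hb hK => h b hb (hKH hK)

namespace BN0

variable (h : BN0 B N S)
include h

lemma rg_of_pr {n s : L} {H : Subgroup L} (hBH : B ≤ H) (hn : n ∈ N) (hs : s ∈ S) (hsH : s ∈ H)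
    (hp : Pr B n H) : RG B n s := by
  intro b hb
  rcases h.mul' hs hb hn with h1 | h1
  · exfalso
    obtain ⟨c, hc, d, hd, hcd⟩ := h1
    have e1 : n⁻¹ * c * n = b * s * d⁻¹ := by
      have : n⁻¹ * c * n = n⁻¹ * (c * n * d) * d⁻¹ := by group
      rw [this, ← hcd]
      group
    have h2 : n⁻¹ * c * n ∈ B := hp c hc (by
      rw [e1]
      exact mul_mem (mul_mem (hBH hb) hsH) (inv_mem (hBH hd)))
    rw [e1] at h2
    apply h.not_mem hs
    have : s = b⁻¹ * (b * s * d⁻¹) * d := by group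
    rw [this]
    exact mul_mem (mul_mem (inv_mem hb) h2) hd
  · exact h1

lemma rg_mul_of_pr {n y s : L} {H : Subgroup L} (hn : n ∈ N) (hy : y ∈ N)
    (hyH : y ∈ H) (hs : s ∈ S) (hsH : s ∈ H) (hBH : B ≤ H) (hp : Pr B n H) (hr : RG B y s) :
    RG B (n * y) s := by
  intro b hb
  rcases h.mul' hs hb (mul_mem hn hy) with h1 | h1
  · exfalso
    obtain ⟨c, hc, d, hd, hcd⟩ := h1
    have e1 : n⁻¹ * c * n = y * b * s * d⁻¹ * y⁻¹ := by
      have : n⁻¹ * c * n = n⁻¹ * (c * (n * y) * d) * d⁻¹ * y⁻¹ := by group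
      rw [this, ← hcd]
      group
    have h2 : n⁻¹ * c * n ∈ B := hp c hc (by
      rw [e1]
      exact mul_mem (mul_mem (mul_mem (mul_mem hyH (hBH hb)) hsH) (inv_mem (hBH hd)))
        (inv_mem hyH))
    have h3 : DC B y (y * b * s) := by
      have : y * b * s = (n⁻¹ * c * n) * y * d := by rw [e1]; group
      exact ⟨_, h2, d, hd, this⟩
    have h4 := h.inj hy (mul_mem hy (h.sub s hs)) (h3.trans (hr b hb).symm)
    rw [inv_mul_cancel_left] at h4
    exact h.not_mem hs h4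
  · exact h1

/-- for a projection `n` the lengths add -/
lemma dc_of_pr {n : L} {H : Subgroup L} (hn : n ∈ N) (hBH : B ≤ H) (hp : Pr B n H) :
    ∀ y ∈ N, y ∈ H → ∀ b ∈ B, DC B (n * y) (n * b * y) := by
  intro y hy hyH
  obtain ⟨k, hk⟩ := h.exists_len hy
  induction k using Nat.strong_induction_on generalizing y with
  | _ k ih =>
    intro b hb
    by_cases hyB : y ∈ B
    · rw [DC_right_iff hyB]
      exact ⟨1, one_mem _, b * y, mul_mem hb hyB, by group⟩
    · obtain ⟨s, hs, m, hm, hk0, hr, hms⟩ := h.exists_desc_len hk hyB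
      have hmN := h.wd_mem hm.1
      obtain ⟨hsH, hmH⟩ := h.desc_mem hBH hyH hs hr hms
      obtain ⟨c, hc, d, hd, hcd⟩ := ih (k - 1) (by omega) m hmN hmH hm b hb
      have hrg := h.rg_mul_of_pr hn hmN hmH hs hsH hBH hp hr
      have h1 := ((hrg d hd).left hc).right hms
      have e1 : c * (n * m * d * s) * ((m * s)⁻¹ * y) = n * b * y := by
        calc c * (n * m * d * s) * ((m * s)⁻¹ * y) = (c * (n * m) * d) * m⁻¹ * y := by group
          _ = n * b * m * m⁻¹ * y := by rw [← hcd]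
          _ = n * b * y := by group
      rw [e1] at h1
      have e2 : n * y = n * m * s * ((m * s)⁻¹ * y) := by group
      rw [e2, DC_right_iff hms]
      exact h1

/-- every coset `n (N ∩ H)` contains a projection -/
lemma exists_pr_N (hbr : ∀ x : L, ∃ n ∈ N, DC B n x) {n : L} {H : Subgroup L} (hn : n ∈ N)
    (hBH : B ≤ H) : ∃ y ∈ N, y ∈ H ∧ Pr B (n * y) H := by
  classical
  have hex : ∃ k, ∃ y ∈ N, y ∈ H ∧ Wd B N S k (n * y) := by
    obtain ⟨k, hk⟩ := h.exists_wd hn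
    exact ⟨k, 1, one_mem _, one_mem _, by rwa [mul_one]⟩
  obtain ⟨y, hy, hyH, hk⟩ := Nat.find_spec hex
  have hmin := fun {j : ℕ} (hj : j < Nat.find hex) => Nat.find_min hex hj
  set k := Nat.find hex with hkdef
  set n' := n * y with hn'
  have hn'N : n' ∈ N := mul_mem hn hy
  have key : ∀ z ∈ N, z ∈ H → ∀ b ∈ B, DC B (n' * z) (n' * b * z) := by
    intro z hz hzH
    obtain ⟨i, hi⟩ := h.exists_len hz
    induction i using Nat.strong_induction_on generalizing z with
    | _ i ih =>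
      intro b hb
      by_cases hzB : z ∈ B
      · rw [DC_right_iff hzB]
        exact ⟨1, one_mem _, b * z, mul_mem hb hzB, by group⟩
      · obtain ⟨s, hs, m, hm, hi0, hr, hms⟩ := h.exists_desc_len hi hzB
        have hmN := h.wd_mem hm.1
        have hsN := h.sub s hs
        obtain ⟨hsH, hmH⟩ := h.desc_mem hBH hzH hs hr hms
        obtain ⟨c, hc, d, hd, hcd⟩ := ih (i - 1) (by omega) m hmN hmH hm b hb
        have hrg : RG B (n' * m) s := by
          by_contra hcon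
          obtain ⟨j, hj, x, hx, hxn⟩ := h.exch2 hk hmN hs hr hcon
          have hxN := h.wd_mem hx
          refine hmin (j := j) (by omega) ⟨y * (m * ((x * (m * s))⁻¹ * (n' * m))⁻¹ * s⁻¹ * m⁻¹),
            ?_, ?_, ?_⟩
          · refine mul_mem hy (mul_mem (mul_mem (mul_mem hmN (inv_mem ?_)) (inv_mem hsN))
              (inv_mem hmN))
            exact mul_mem (inv_mem (mul_mem hxN (mul_mem hmN hsN))) (mul_mem hn'N hmN)
          · exact mul_mem hyH (mul_mem (mul_mem (mul_mem hmH (inv_mem (hBH hxn)))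
              (inv_mem hsH)) (inv_mem hmH))
          · have : n * (y * (m * ((x * (m * s))⁻¹ * (n' * m))⁻¹ * s⁻¹ * m⁻¹)) = x := by
              rw [hn']; group
            rwa [this]
        have h1 := ((hrg d hd).left hc).right hms
        have e1 : c * (n' * m * d * s) * ((m * s)⁻¹ * z) = n' * b * z := by
          calc c * (n' * m * d * s) * ((m * s)⁻¹ * z) = (c * (n' * m) * d) * m⁻¹ * z := by group
            _ = n' * b * m * m⁻¹ * z := by rw [← hcd]
            _ = n' * b * z := by group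
        rw [e1] at h1
        have e2 : n' * z = n' * m * s * ((m * s)⁻¹ * z) := by group
        rw [e2, DC_right_iff hms]
        exact h1
  refine ⟨y, hy, hyH, fun b hb hbH => ?_⟩
  obtain ⟨z, hz, c, hc, d, hd, hcd⟩ := hbr (n'⁻¹ * b * n')
  have hzH : z ∈ H := by
    have : z = c⁻¹ * (n'⁻¹ * b * n') * d⁻¹ := by rw [hcd]; group
    rw [this]
    exact mul_mem (mul_mem (inv_mem (hBH hc)) hbH) (inv_mem (hBH hd))
  have h1 := (key z hz hzH c hc).right hd
  have e1 : n' * c * z * d = b * n' * 1 := by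
    calc n' * c * z * d = n' * (c * z * d) := by group
      _ = n' * (n'⁻¹ * b * n') := by rw [← hcd]
      _ = b * n' * 1 := by group
  rw [e1] at h1
  have h2 : DC B n' (b * n' * 1) := ⟨b, hb, 1, one_mem _, rfl⟩
  have h3 := h.inj hn'N (mul_mem hn'N hz) (h2.trans h1.symm)
  rw [inv_mul_cancel_left] at h3
  rw [hcd]
  exact mul_mem (mul_mem hc h3) hd

/-- `Pr` for `n ∈ N` in terms of generators -/
lemma pr_iff (hbr : ∀ x : L, ∃ n ∈ N, DC B n x) {n : L} {H : Subgroup L} (hn : n ∈ N)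
    (hBH : B ≤ H) : Pr B n H ↔ ∀ s ∈ S, s ∈ H → RG B n s := by
  refine ⟨fun hp s hs hsH => h.rg_of_pr hBH hn hs hsH hp, fun hall => ?_⟩
  obtain ⟨y, hy, hyH, hp⟩ := h.exists_pr_N hbr hn hBH
  have hyB : y⁻¹ ∈ B := by
    by_contra hcon
    obtain ⟨k, hk⟩ := h.exists_len (inv_mem hy)
    obtain ⟨s, hs, m, hm, -, hr, hms⟩ := h.exists_desc_len hk hcon
    have hmN := h.wd_mem hm.1
    have hsN := h.sub s hs
    obtain ⟨hsH, hmH⟩ := h.desc_mem hBH (inv_mem hyH) hs hr hms
    have h1 := h.rg_mul_of_pr (mul_mem hn hy) hmN hmH hs hsH hBH hp hr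
    refine h.not_both (mul_mem (mul_mem hn hy) hmN) hs h1 ?_
    refine h.rg_congr hn (mul_mem (mul_mem (mul_mem hn hy) hmN) hsN) hs ?_ (hall s hs hsH)
    have := inv_mem hms
    have e : ((m * s)⁻¹ * y⁻¹)⁻¹ = n⁻¹ * (n * y * m * s) := by group
    rwa [e] at this
  have := hp.right hBH hyB
  rwa [mul_inv_cancel_right] at this

/-- existence of projections -/
theorem exists_pr (hbr : ∀ x : L, ∃ n ∈ N, DC B n x) (g : L) {H : Subgroup L}
    (hBH : B ≤ H) : ∃ x ∈ H, Pr B (g * x) H := by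
  obtain ⟨n, hn, a, ha, c, hc, rfl⟩ := hbr g
  obtain ⟨y, hy, hyH, hp⟩ := h.exists_pr_N hbr hn hBH
  refine ⟨c⁻¹ * y, mul_mem (inv_mem (hBH hc)) hyH, ?_⟩
  have : a * n * c * (c⁻¹ * y) = a * (n * y) := by group
  rw [this]
  exact hp.left ha

/-- uniqueness of projections -/
theorem pr_unique (hbr : ∀ x : L, ∃ n ∈ N, DC B n x) {g x : L} {H : Subgroup L}
    (hBH : B ≤ H) (hx : x ∈ H) (hg : Pr B g H) (hgx : Pr B (g * x) H) : x ∈ B := by
  obtain ⟨n, hn, a, ha, c, hc, rfl⟩ := hbr g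
  have hpn : Pr B n H := by
    refine Pr.dc hBH hg (DC.symm ⟨a, ha, c, hc, rfl⟩)
  obtain ⟨y, hy, b₁, hb₁, b₂, hb₂, hcx⟩ := hbr (c * x)
  have hyH : y ∈ H := by
    have : y = b₁⁻¹ * (c * x) * b₂⁻¹ := by rw [hcx]; group
    rw [this]
    exact mul_mem (mul_mem (inv_mem (hBH hb₁)) (mul_mem (hBH hc) hx)) (inv_mem (hBH hb₂))
  have h1 := h.dc_of_pr hn hBH hpn y hy hyH b₁ hb₁
  have h2 : DC B (n * y) (a * n * c * x) := by
    have e : a * n * c * x = a * (n * b₁ * y) * b₂ := by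
      calc a * n * c * x = a * n * (c * x) := by group
        _ = a * n * (b₁ * y * b₂) := by rw [hcx]
        _ = _ := by group
    rw [e]
    exact (h1.left ha).right hb₂
  have hpny : Pr B (n * y) H := Pr.dc hBH hgx h2.symm
  have hyB : y ∈ B := by
    by_contra hcon
    obtain ⟨k, hk⟩ := h.exists_len hy
    obtain ⟨s, hs, m, hm, -, hr, hms⟩ := h.exists_desc_len hk hcon
    have hmN := h.wd_mem hm.1
    have hsN := h.sub s hs
    obtain ⟨hsH, hmH⟩ := h.desc_mem hBH hyH hs hr hms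
    have h3 := h.rg_mul_of_pr hn hmN hmH hs hsH hBH hpn hr
    refine h.not_both (mul_mem hn hmN) hs h3 ?_
    have h4 := h.rg_of_pr hBH (mul_mem hn hy) hs hsH hpny
    refine h.rg_congr (mul_mem hn hy) (mul_mem (mul_mem hn hmN) hsN) hs ?_ h4
    have := inv_mem hms
    have e : ((m * s)⁻¹ * y)⁻¹ = (n * y)⁻¹ * (n * m * s) := by group
    rwa [e] at this
  have : x = c⁻¹ * (c * x) := by group
  rw [this, hcx]
  exact mul_mem (inv_mem hc) (mul_mem (mul_mem hb₁ hyB) hb₂)

end BN0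

end

end Vale.Agent.P240.H195
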