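import Vale.Agent.P240.H195.BNProj

/-!
Proper subgroups containing `B` have nontrivial normal `r`-subgroups. Opposite chambers.
-/

namespace Vale.Agent.P240.H195

open Subgroup

universe u

section
variable {L : Type u} [Group L] {B N U : Subgroup L} {S : Set L} {r : ℕ}

lemma BN0.closure_eq_of (h : BN0 B N S) (hbr : ∀ x : L, ∃ n ∈ N, DC B n x) {H : Subgroup L}
    (hBH : B ≤ H) : closure ((B : Set L) ∪ (S ∩ H)) = H := by
  apply le_antisymm
  · rw [closure_le]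
    rintro x (hx | hx)
    · exact hBH hx
    · exact hx.2
  · intro x hx
    obtain ⟨n, hn, a, ha, c, hc, rfl⟩ := hbr x
    have hnH : n ∈ H := by
      have : n = a⁻¹ * (a * n * c) * c⁻¹ := by group
      rw [this]
      exact mul_mem (mul_mem (inv_mem (hBH ha)) hx) (inv_mem (hBH hc))
    have hn' : n ∈ N ⊓ H := ⟨hn, hnH⟩
    rw [(h.sub_bn hBH).span] at hn'
    have h1 : closure (S ∩ H) ⊔ (B ⊓ (N ⊓ H)) ≤ closure ((B : Set L) ∪ (S ∩ H)) :=
      sup_le (closure_mono Set.subset_union_right)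
        (fun y hy => subset_closure (Or.inl hy.1))
    exact mul_mem (mul_mem (subset_closure (Or.inl ha)) (h1 hn')) (subset_closure (Or.inl hc))

namespace SB

variable (h : SB r B N U S)
include h

lemma conv [Finite L] (hr : r.Prime) {H : Subgroup L} (hBH : B ≤ H) {w t v : L}
    (hw : (h.toBN0.sub_bn hBH).Long w) (ht : t ∈ S ∩ H) (hv : v ∈ U) (hwv : w⁻¹ * v * w ∈ U) :
    t⁻¹ * v * t ∈ U := by
  have hw' := (h.toBN0.sub_bn hBH).long_inv hw
  have htN := h.sub t ht.1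
  have hwN : w ∈ N := hw.1.1
  have h1 : RG B (w⁻¹ * t) t := (h.rg_or (inv_mem hwN) ht.1).resolve_left (hw'.2 t ht)
  set w₁ := t⁻¹ * w with hw₁
  have hw₁N : w₁ ∈ N := mul_mem (inv_mem htN) hwN
  have e0 : w₁⁻¹ = w⁻¹ * t := by rw [hw₁]; group
  have e00 : t * w₁ = w := by rw [hw₁]; group
  have h2 : ∀ b ∈ B, DC B w (t * b * w₁) := by
    intro b hb
    have := h.rg_inv ht.1 (n := w₁) (by rw [e0]; exact h1) hb
    rwa [e00] at this
  have hyP : t⁻¹ * v * t ∈ Par B t :=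
    mul_mem (mul_mem (inv_mem self_mem_Par) (le_Par (h.le hv))) self_mem_Par
  by_cases hyB : t⁻¹ * v * t ∈ B
  · exact h.conj_U' hr hv hyB
  · exfalso
    obtain ⟨c, hc, d, hd, hcd⟩ := ((h.mem_Par ht.1).1 hyP).resolve_left hyB
    have h3 : DC B w (t⁻¹ * v * t * w₁) := by
      rw [hcd]
      have e : c * t * d * w₁ = c * (t * d * w₁) := by group
      rw [e]
      exact (h2 d hd).left hc
    have h4 : DC B w₁ (t⁻¹ * v * t * w₁) := by
      have e : t⁻¹ * v * t * w₁ = 1 * w₁ * (w⁻¹ * v * w) := by rw [hw₁]; group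
      exact ⟨1, one_mem _, _, h.le hwv, e⟩
    have h5 := h.inj hw₁N hwN (h4.trans h3.symm)
    have e : w₁⁻¹ * w = w⁻¹ * t * w := by rw [hw₁]; group
    rw [e] at h5
    have h6 := h.norm w hwN _ h5 (mul_mem (mul_mem (inv_mem hwN) htN) hwN)
    have e' : w * (w⁻¹ * t * w) * w⁻¹ = t := by group
    rw [e'] at h6
    exact h.not_mem ht.1 h6

lemma norm_U' {b u : L} (hb : b ∈ B) (hu : u ∈ U) : b⁻¹ * u * b ∈ U := by
  have := h.normal b⁻¹ (inv_mem hb) u hu
  rwa [inv_inv] at this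

/-- proper subgroups containing `B` have nontrivial normal `r`-subgroups -/
theorem exists_rad [Finite L] (hr : r.Prime) {H : Subgroup L} (hBH : B ≤ H) (hH : H ≠ ⊤) :
    ∃ V : Subgroup L, V ≤ U ∧ V ≠ ⊥ ∧ H ≤ normalizer (V : Set L) := by
  have h' := h.toBN0.sub_bn hBH
  obtain ⟨w, hw⟩ := (h.toBN0.sub_bn hBH).exists_long
  have hw' := (h.toBN0.sub_bn hBH).long_inv hw
  have hwN : w ∈ N := hw.1.1
  have hwH : w ∈ H := hw.1.2
  -- a generator outside `H`
  obtain ⟨s, hs, hsH⟩ : ∃ s ∈ S, s ∉ H := by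
    by_contra hcon
    push Not at hcon
    apply hH
    rw [eq_top_iff, ← h.closure_top, closure_le]
    rintro x (hx | hx)
    · exact hBH hx
    · exact hcon x hx
  have hrg : RG B w s := by
    obtain ⟨k, hk⟩ := (h.toBN0.sub_bn hBH).exists_wd hw.1
    have key : ∀ {k : ℕ} {n : L}, Wd B (N ⊓ H) (S ∩ H) k n → RG B n s := by
      intro k n hn
      induction hn with
      | zero h1 h2 => exact BN0.rg_one h.toBN0 hs h1 h2.1
      | @succ t m k ht hm ih =>
        by_contra hcon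
        have hmm := (h.toBN0.sub_bn hBH).wd_mem hm
        have h1 := h.rg_step hmm.1 hs ht.1 ih hcon
        apply hsH
        have : s = m⁻¹ * (t * m) * ((t * m)⁻¹ * (m * s)) := by group
        rw [this]
        exact mul_mem (mul_mem (inv_mem hmm.2) (mul_mem ht.2 hmm.2)) (hBH h1)
    exact key hk
  obtain ⟨x, hx, hwx, hxs⟩ := h.transit' hr hwN hs hrg
  let Vs : Set L := {z | ∃ b ∈ B, b⁻¹ * z * b ∈ U ∧ w⁻¹ * (b⁻¹ * z * b) * w ∈ U}
  have hVU : ∀ z ∈ Vs, z ∈ U := by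
    rintro z ⟨b, hb, h1, -⟩
    have := h.normal b hb _ h1
    have e : b * (b⁻¹ * z * b) * b⁻¹ = z := by group
    rwa [e] at this
  -- conjugation by `B`
  have hconjB : ∀ c ∈ B, ∀ z ∈ Vs, c * z * c⁻¹ ∈ Vs := by
    rintro c hc z ⟨b, hb, h1, h2⟩
    have e : (c * b)⁻¹ * (c * z * c⁻¹) * (c * b) = b⁻¹ * z * b := by group
    exact ⟨c * b, mul_mem hc hb, by rwa [e], by rwa [e]⟩
  have hconjS : ∀ t ∈ S ∩ (H : Set L), ∀ z ∈ Vs, t⁻¹ * z * t ∈ Vs := by
    rintro t ht z ⟨b, hb, h1, h2⟩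
    have htN := h.sub t ht.1
    obtain ⟨u, hu, τ, hτB, hτN, rfl⟩ := h.split b hb
    obtain ⟨v, hv⟩ : ∃ v, v = u⁻¹ * z * u := ⟨_, rfl⟩
    have ez : z = u * v * u⁻¹ := by rw [hv]; group
    have e1 : (u * τ)⁻¹ * z * (u * τ) = τ⁻¹ * v * τ := by rw [hv]; group
    rw [e1] at h1 h2
    have hvU : v ∈ U := by
      have := h.normal τ hτB _ h1
      have e : τ * (τ⁻¹ * v * τ) * τ⁻¹ = v := by group
      rwa [e] at this
    have hwvU : w⁻¹ * v * w ∈ U := by
      have := h.normal _ (h.norm' hwN hτB hτN) _ h2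
      have e : w⁻¹ * τ * w * (w⁻¹ * (τ⁻¹ * v * τ) * w) * (w⁻¹ * τ * w)⁻¹ = w⁻¹ * v * w := by group
      rwa [e] at this
    have hcv := h.conv hr hBH hw ht hvU hwvU
    have hvK : v ∈ Kg U t := by
      refine mem_Kg.2 ⟨hvU, ?_⟩
      have := h.normal _ (h.sq t ht.1) _ hcv
      have e : t * t * (t⁻¹ * v * t) * (t * t)⁻¹ = t * v * t⁻¹ := by group
      rwa [e] at this
    have hzK : z ∈ Kg U t := by
      rw [ez]
      exact h.Kg_conj ht.1 (le_Par (h.le hu)) hvK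
    have hzU : t⁻¹ * z * t ∈ U := (h.Kg_conj' ht.1 self_mem_Par hzK).1
    set w₁ := t⁻¹ * w with hw₁
    have hw₁N : w₁ ∈ N := mul_mem (inv_mem htN) hwN
    have e0 : w₁⁻¹ = w⁻¹ * t := by rw [hw₁]; group
    have e00 : t * w₁ = w := by rw [hw₁]; group
    by_cases hut : t⁻¹ * u * t ∈ B
    · have hutU := h.conj_U' hr hu hut
      obtain ⟨s', hs', hβ⟩ := (h.toBN0.sub_bn hBH).long_conj hw ht
      have hs'N := h.sub s' hs'.1
      have h3 : w⁻¹ * v * w ∈ U := hwvU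
      have h4 : s'⁻¹ * (w⁻¹ * v * w) * s' ∈ U := by
        refine h.conv hr hBH hw' hs' h3 ?_
        have e : w⁻¹⁻¹ * (w⁻¹ * v * w) * w⁻¹ = v := by group
        rwa [e]
      have h5 := h.normal _ hβ _ h4
      have e5 : (t * w)⁻¹ * (w * s') * (s'⁻¹ * (w⁻¹ * v * w) * s') *
          ((t * w)⁻¹ * (w * s'))⁻¹ = w⁻¹ * (t⁻¹ * v * t) * w := by group
      rw [e5] at h5
      refine ⟨t⁻¹ * u * t, hut, ?_, ?_⟩
      · have e : (t⁻¹ * u * t)⁻¹ * (t⁻¹ * z * t) * (t⁻¹ * u * t) = t⁻¹ * v * t := by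
          rw [hv]; group
        rw [e]
        exact hcv
      · have e : (t⁻¹ * u * t)⁻¹ * (t⁻¹ * z * t) * (t⁻¹ * u * t) = t⁻¹ * v * t := by
          rw [hv]; group
        rw [e]
        exact h5
    · have h6 : t⁻¹ * u * t ∈ Par B t :=
        mul_mem (mul_mem (inv_mem self_mem_Par) (le_Par (h.le hu))) self_mem_Par
      obtain ⟨c, hc, d, hd, hcd⟩ := ((h.mem_Par ht.1).1 h6).resolve_left hut
      have h1' : RG B (w⁻¹ * t) t := (h.rg_or (inv_mem hwN) ht.1).resolve_left (hw'.2 t ht)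
      have h7 : DC B w (t * d * w₁) := by
        have := h.rg_inv ht.1 (n := w₁) (by rw [e0]; exact h1') hd
        rwa [e00] at this
      obtain ⟨b₃, hb₃, b₄, hb₄, hb⟩ := h7.left hc
      have e8 : t⁻¹ * u * w = b₃ * w * b₄ := by
        rw [← hb]
        have : t⁻¹ * u * w = (t⁻¹ * u * t) * w₁ := by rw [hw₁]; group
        rw [this, hcd]
        group
      refine ⟨b₃, hb₃, h.norm_U' hb₃ hzU, ?_⟩
      have e9 : w⁻¹ * (b₃⁻¹ * (t⁻¹ * z * t) * b₃) * w =
          b₄ * (w⁻¹ * v * w) * b₄⁻¹ := by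
        have e10 : b₃ * w = t⁻¹ * u * w * b₄⁻¹ := by rw [e8]; group
        calc w⁻¹ * (b₃⁻¹ * (t⁻¹ * z * t) * b₃) * w
            = (b₃ * w)⁻¹ * (t⁻¹ * z * t) * (b₃ * w) := by group
          _ = (t⁻¹ * u * w * b₄⁻¹)⁻¹ * (t⁻¹ * z * t) * (t⁻¹ * u * w * b₄⁻¹) := by rw [e10]
          _ = _ := by rw [hv]; group
      rw [e9]
      exact h.normal b₄ hb₄ _ hwvU
  have hnorm : ∀ g : L, (∀ z ∈ Vs, g * z * g⁻¹ ∈ Vs) → (∀ z ∈ Vs, g⁻¹ * z * g ∈ Vs) →
      g ∈ normalizer (closure Vs : Set L) := by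
    intro g h1 h2
    have aux : ∀ g : L, (∀ z ∈ Vs, g * z * g⁻¹ ∈ Vs) → ∀ z ∈ closure Vs,
        g * z * g⁻¹ ∈ closure Vs := by
      intro g h1 z hz
      induction hz using Subgroup.closure_induction with
      | mem z hz => exact subset_closure (h1 z hz)
      | one => rw [mul_one, mul_inv_cancel]; exact one_mem _
      | mul x y _ _ hx hy =>
        have e : g * (x * y) * g⁻¹ = (g * x * g⁻¹) * (g * y * g⁻¹) := by group
        rw [e]
        exact mul_mem hx hy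
      | inv x _ hx =>
        have e : g * x⁻¹ * g⁻¹ = (g * x * g⁻¹)⁻¹ := by group
        rw [e]
        exact inv_mem hx
    rw [mem_normalizer_iff]
    intro z
    refine ⟨aux g h1 z, fun h3 => ?_⟩
    have h4 := aux g⁻¹ (by intro z hz; rw [inv_inv]; exact h2 z hz) _ h3
    have e : g⁻¹ * (g * z * g⁻¹) * g⁻¹⁻¹ = z := by group
    rwa [e] at h4
  refine ⟨closure Vs, (closure_le U).2 fun z hz => hVU z hz, ?_, ?_⟩
  · intro hcon
    have h1 : w * x * w⁻¹ ∈ closure Vs := by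
      refine subset_closure ⟨1, one_mem _, ?_, ?_⟩
      · have e : (1 : L)⁻¹ * (w * x * w⁻¹) * 1 = w * x * w⁻¹ := by group
        rwa [e]
      · have e : w⁻¹ * ((1 : L)⁻¹ * (w * x * w⁻¹) * 1) * w = x := by group
        rwa [e]
    rw [hcon, mem_bot] at h1
    apply hxs
    have : x = 1 := by
      have e : x = w⁻¹ * (w * x * w⁻¹) * w := by group
      rw [e, h1]
      group
    rw [this]
    simp
  · rw [← h.toBN0.closure_eq_of h.bruhat hBH, closure_le]
    rintro g (hg | hg)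
    · refine hnorm g (hconjB g hg) ?_
      intro z hz
      have := hconjB g⁻¹ (inv_mem hg) z hz
      rwa [inv_inv] at this
    · refine hnorm g ?_ (hconjS g hg)
      intro z hz
      have h1 := hconjB _ (h.sq g hg.1) _ (hconjS g hg z hz)
      have e : g * g * (g⁻¹ * z * g) * (g * g)⁻¹ = g * z * g⁻¹ := by group
      rwa [e] at h1

end SB

end

end Vale.Agent.P240.H195
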