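import Vale.Agent.P240.H195.BN

/-!
Split BN-pairs of characteristic `r`: minimal parabolic subgroups, automorphisms centralizing `U`.
-/

namespace Vale.Agent.P240.H195

open Subgroup

universe u

section
variable {L : Type u} [Group L]

/-- the minimal parabolic subgroup `B ∪ B s B` -/
def Par (B : Subgroup L) (s : L) : Subgroup L := B ⊔ zpowers s

/-- `U ∩ U^s` -/
def Kg (U : Subgroup L) (s : L) : Subgroup L := U ⊓ U.comap (MulAut.conj s).toMonoidHom

variable {B N U : Subgroup L} {S : Set L}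

lemma mem_Kg {s x : L} : x ∈ Kg U s ↔ x ∈ U ∧ s * x * s⁻¹ ∈ U := Iff.rfl

lemma le_Par {s : L} : B ≤ Par B s := le_sup_left

lemma self_mem_Par {s : L} : s ∈ Par B s := (le_sup_right : _ ≤ Par B s) (mem_zpowers s)

lemma BN.mem_Par (h : BN B N S) {s x : L} (hs : s ∈ S) : x ∈ Par B s ↔ x ∈ B ∨ DC B s x := by
  constructor
  · have hsN := h.sub s hs
    let K : Subgroup L :=
      { carrier := {x | x ∈ B ∨ DC B s x}
        one_mem' := Or.inl (one_mem _)
        mul_mem' := by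
          rintro x y (hx | hx) (hy | hy)
          · exact Or.inl (mul_mem hx hy)
          · exact Or.inr (hy.left hx)
          · exact Or.inr (hx.right hy)
          · obtain ⟨a, ha, b, hb, rfl⟩ := hx
            obtain ⟨c, hc, d, hd, rfl⟩ := hy
            have e : a * s * b * (c * s * d) = a * (s * (b * c) * s) * d := by group
            rw [Set.mem_ofPred_eq, e]
            rcases h.mul s hs (b * c) (mul_mem hb hc) s hsN with h1 | h1
            · exact Or.inr ((h1.left ha).right hd)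
            · left
              rw [DC_mem (h.sq s hs)] at h1
              exact mul_mem (mul_mem ha h1) hd
        inv_mem' := by
          rintro x (hx | hx)
          · exact Or.inl (inv_mem hx)
          · right
            obtain ⟨a, ha, b, hb, rfl⟩ := hx
            refine ⟨b⁻¹ * (s⁻¹ * s⁻¹), mul_mem (inv_mem hb) (h.inv_mul hs), a⁻¹, inv_mem ha, ?_⟩
            group }
    have h1 : Par B s ≤ K := by
      refine sup_le (fun x hx => Or.inl hx) ?_
      rw [zpowers_le]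
      exact Or.inr (DC.refl s)
    exact fun hx => h1 hx
  · rintro (hx | ⟨a, ha, b, hb, rfl⟩)
    · exact le_Par hx
    · exact mul_mem (mul_mem (le_Par ha) self_mem_Par) (le_Par hb)

lemma BN.closure_top (h : BN B N S) : closure ((B : Set L) ∪ S) = ⊤ := by
  rw [eq_top_iff, ← h.gen, h.span]
  refine sup_le (fun x hx => subset_closure (Or.inl hx)) (sup_le ?_ ?_)
  · exact closure_mono Set.subset_union_right
  · exact fun x hx => subset_closure (Or.inl hx.1)

/-- elements of prime power order whose `p`-th power lies in a subgroup -/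
lemma mem_of_pow {r p : ℕ} (hr : r.Prime) (hp : p.Prime) (hpr : p ≠ r) {H : Subgroup L} {x : L}
    {k : ℕ} (hk : x ^ r ^ k = 1) (hx : x ^ p ∈ H) : x ∈ H := by
  have h1 : Nat.Coprime p (r ^ k) := Nat.Coprime.pow_right k ((Nat.coprime_primes hp hr).2 hpr)
  have h2 := Nat.gcd_eq_gcd_ab p (r ^ k)
  rw [h1.gcd_eq_one] at h2
  have h3 : x = (x ^ p) ^ (p.gcdA (r ^ k)) := by
    have h4 : x ^ (1 : ℤ) = x ^ ((p : ℤ) * p.gcdA (r ^ k) + ((r ^ k : ℕ) : ℤ) * p.gcdB (r ^ k)) := by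
      rw [← h2]
      simp
    rw [zpow_one, zpow_add, zpow_mul, zpow_mul, zpow_natCast, zpow_natCast, hk, one_zpow,
      mul_one] at h4
    exact h4
  rw [h3]
  exact zpow_mem hx _

namespace SB

variable {r : ℕ} (h : SB r B N U S)
include h

lemma exists_pow {x : L} (hx : x ∈ U) : ∃ k : ℕ, x ^ r ^ k = 1 := by
  obtain ⟨k, hk⟩ := h.pgroup ⟨x, hx⟩
  exact ⟨k, by simpa using congrArg Subtype.val hk⟩

lemma mem_U [Finite L] (hr : r.Prime) {x : L} (hx : x ∈ B) {k : ℕ} (hk : x ^ r ^ k = 1) :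
    x ∈ U := by
  obtain ⟨u, hu, t, htB, htN, rfl⟩ := h.split x hx
  have key : ∀ j : ℕ, ∃ v ∈ U, (u * t) ^ j = v * t ^ j := by
    intro j
    induction j with
    | zero => exact ⟨1, one_mem _, by simp⟩
    | succ j ih =>
      obtain ⟨v, hv, hvj⟩ := ih
      refine ⟨v * (t ^ j * u * (t ^ j)⁻¹), mul_mem hv (h.normal _ (pow_mem htB j) u hu), ?_⟩
      rw [pow_succ, hvj, pow_succ]
      group
  obtain ⟨v, hv, hvk⟩ := key (r ^ k)
  rw [hk] at hvk
  have h1 : t ^ r ^ k ∈ U := by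
    have : t ^ r ^ k = v⁻¹ := by
      rw [eq_comm, inv_eq_iff_mul_eq_one]
      exact hvk.symm
    rw [this]
    exact inv_mem hv
  obtain ⟨m, hm⟩ := h.exists_pow h1
  rw [← pow_mul, ← pow_add] at hm
  have h2 : orderOf t ∣ r ^ (k + m) := orderOf_dvd_of_pow_eq_one hm
  have h3 : orderOf t ∣ Nat.card (B ⊓ N : Subgroup L) :=
    Subgroup.orderOf_dvd_natCard _ ⟨htB, htN⟩
  have h4 : Nat.Coprime (r ^ (k + m)) (Nat.card (B ⊓ N : Subgroup L)) :=
    Nat.Coprime.pow_left _ ((Nat.Prime.coprime_iff_not_dvd hr).2 h.coprime)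
  have h5 : orderOf t = 1 := Nat.eq_one_of_dvd_coprimes h4 h2 h3
  rw [orderOf_eq_one_iff] at h5
  rw [h5, mul_one]
  exact hu

lemma conj_U [Finite L] (hr : r.Prime) {x g : L} (hx : x ∈ U) (hg : g * x * g⁻¹ ∈ B) :
    g * x * g⁻¹ ∈ U := by
  obtain ⟨k, hk⟩ := h.exists_pow hx
  refine h.mem_U hr hg (k := k) ?_
  rw [conj_pow, hk, mul_one, mul_inv_cancel]

lemma conj_U' [Finite L] (hr : r.Prime) {x g : L} (hx : x ∈ U) (hg : g⁻¹ * x * g ∈ B) :
    g⁻¹ * x * g ∈ U := by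
  have := h.conj_U hr (g := g⁻¹) hx (by rwa [inv_inv])
  rwa [inv_inv] at this

/-- the stabilizer of `n c` in `U` is transitive on the chambers `s`-adjacent to `n⁻¹…` -/
lemma transit [Finite L] (hr : r.Prime) {n s b : L} (hn : n ∈ N) (hs : s ∈ S) (hb : b ∈ B)
    (hrg : RG B n s) : ∃ x ∈ U, n * x * n⁻¹ ∈ U ∧ (x * s)⁻¹ * (b * s) ∈ B := by
  have hsN := h.sub s hs
  obtain ⟨a, ha, b₂, hb₂, hab⟩ := hrg b hb
  obtain ⟨u, hu, t, htB, htN, rfl⟩ := h.split a ha
  have ht' := h.norm' (mul_mem hn hsN) htB htN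
  set b₃ := (n * s)⁻¹ * t * (n * s) * b₂ with hb₃
  have hb₃B : b₃ ∈ B := mul_mem ht' hb₂
  have e1 : n * b * s = u * n * s * b₃ := by rw [hab, hb₃]; group
  set x := n⁻¹ * u * n with hx
  have e2 : x * s * b₃ = b * s := by
    have : n⁻¹ * (n * b * s) = n⁻¹ * (u * n * s * b₃) := by rw [e1]
    have e3 : n⁻¹ * (n * b * s) = b * s := by group
    rw [e3] at this
    rw [this, hx]
    group
  have e4 : n * x * n⁻¹ = u := by rw [hx]; group
  have hxP : x ∈ Par B s := by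
    have : x = b * s * b₃⁻¹ * s⁻¹ := by
      rw [← e2]; group
    rw [this]
    exact mul_mem (mul_mem (mul_mem (le_Par hb) self_mem_Par) (inv_mem (le_Par hb₃B)))
      (inv_mem self_mem_Par)
  have hxB : x ∈ B := by
    rcases (h.mem_Par hs).1 hxP with h1 | ⟨b₄, hb₄, b₅, hb₅, h1⟩
    · exact h1
    · exfalso
      have h2 : DC B (n * s) (n * x) := by
        rw [h1]
        have e5 : n * (b₄ * s * b₅) = n * b₄ * s * b₅ := by group
        rw [e5]
        exact (hrg b₄ hb₄).right hb₅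
      have h3 : DC B n (n * x) := by
        have e5 : n * x = u * n * 1 := by rw [hx]; group
        exact ⟨u, h.le hu, 1, one_mem _, e5⟩
      have h4 := h.inj hn (mul_mem hn hsN) (h3.trans h2.symm)
      rw [inv_mul_cancel_left] at h4
      exact h.not_mem hs h4
  refine ⟨x, ?_, by rw [e4]; exact hu, ?_⟩
  · rw [hx]
    exact h.conj_U' hr hu (by rw [← hx]; exact hxB)
  · have : (x * s)⁻¹ * (b * s) = b₃ := by rw [← e2]; group
    rw [this]
    exact hb₃B

/-- a transitive element which moves `s c` -/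
lemma transit' [Finite L] (hr : r.Prime) {n s : L} (hn : n ∈ N) (hs : s ∈ S)
    (hrg : RG B n s) : ∃ x ∈ U, n * x * n⁻¹ ∈ U ∧ s⁻¹ * x * s ∉ B := by
  obtain ⟨b, hb, hbs⟩ := h.thick s hs
  obtain ⟨x, hx, hnx, hxb⟩ := h.transit hr hn hs hb hrg
  refine ⟨x, hx, hnx, fun hcon => hbs ?_⟩
  have : s⁻¹ * b * s = (s⁻¹ * x * s) * ((x * s)⁻¹ * (b * s)) := by group
  rw [this]
  exact mul_mem hcon hxb

/-- descents of arbitrary elements -/
lemma desc_elt [Finite L] (hr : r.Prime) {g : L} (hg : g ∉ B) :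
    ∃ s ∈ S, ∃ y ∈ U, g⁻¹ * y * g ∈ Par B s ∧ g⁻¹ * y * g ∉ B := by
  obtain ⟨n, hn, a, ha, b, hb, rfl⟩ := h.bruhat g
  have hnB : n ∉ B := fun hcon => hg (mul_mem (mul_mem ha hcon) hb)
  obtain ⟨s, hs, m, hm, hrg, hms⟩ := h.exists_desc hn hnB
  obtain ⟨x, hx, hmx, hxs⟩ := h.transit' hr hm hs hrg
  set τ := (m * s)⁻¹ * n with hτ
  have e1 : n = m * s * τ := by rw [hτ]; group
  refine ⟨s, hs, a * (m * x * m⁻¹) * a⁻¹, h.normal a ha _ hmx, ?_, ?_⟩
  · have : (a * n * b)⁻¹ * (a * (m * x * m⁻¹) * a⁻¹) * (a * n * b) =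
        b⁻¹ * τ⁻¹ * (s⁻¹ * x * s) * (τ * b) := by rw [e1]; group
    rw [this]
    exact mul_mem (mul_mem (mul_mem (inv_mem (le_Par hb)) (inv_mem (le_Par hms)))
      (mul_mem (mul_mem (inv_mem self_mem_Par) (le_Par (h.le hx))) self_mem_Par))
      (mul_mem (le_Par hms) (le_Par hb))
  · intro hcon
    apply hxs
    have : s⁻¹ * x * s = (τ * b) * ((a * n * b)⁻¹ * (a * (m * x * m⁻¹) * a⁻¹) * (a * n * b)) *
        (τ * b)⁻¹ := by rw [e1]; group
    rw [this]
    exact mul_mem (mul_mem (mul_mem hms hb) hcon) (inv_mem (mul_mem hms hb))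

/-- `N_L(U) = B` -/
lemma mem_B_of_norm [Finite L] (hr : r.Prime) {g : L} (hg : ∀ u ∈ U, g⁻¹ * u * g ∈ U) :
    g ∈ B := by
  by_contra hcon
  obtain ⟨s, hs, y, hy, _, h2⟩ := h.desc_elt hr hcon
  exact h2 (h.le (hg y hy))

lemma par_le_normalizer {s : L} (hs : s ∈ S) : Par B s ≤ normalizer (Kg U s : Set L) := by
  have hsN := h.sub s hs
  have hsB := h.sq s hs
  have hsB' := h.inv_mul hs
  have key : ∀ g x : L, (∀ y ∈ Kg U s, g * y * g⁻¹ ∈ Kg U s) → (∀ y ∈ Kg U s, g⁻¹ * y * g ∈ Kg U s) →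
      (x ∈ Kg U s ↔ g * x * g⁻¹ ∈ Kg U s) := by
    intro g x h1 h2
    refine ⟨h1 x, fun hx => ?_⟩
    have := h2 _ hx
    have e : g⁻¹ * (g * x * g⁻¹) * g = x := by group
    rwa [e] at this
  have hsq : ∀ y ∈ Kg U s, s * y * s⁻¹ ∈ Kg U s := by
    intro y hy
    refine mem_Kg.2 ⟨hy.2, ?_⟩
    have := h.normal _ hsB y hy.1
    have e : s * (s * y * s⁻¹) * s⁻¹ = s * s * y * (s * s)⁻¹ := by group
    rwa [e]
  have hb : ∀ b ∈ B, ∀ y ∈ Kg U s, b * y * b⁻¹ ∈ Kg U s := by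
    intro b hb y hy
    obtain ⟨u, hu, t, htB, htN, rfl⟩ := h.split b hb
    have h1 : t * y * t⁻¹ ∈ U := h.normal t htB y hy.1
    have h2 : s * (t * y * t⁻¹) * s⁻¹ ∈ U := by
      have e : s * (t * y * t⁻¹) * s⁻¹ =
        (s * t * s⁻¹) * (s * y * s⁻¹) * (s * t * s⁻¹)⁻¹ := by group
      rw [e]
      exact h.normal _ (h.norm s hsN t htB htN) _ hy.2
    refine mem_Kg.2 ⟨h.normal _ hb y hy.1, ?_⟩
    have h3 := h.strong s hs _ h1 h2 u hu
    have e : s * (u * t * y * (u * t)⁻¹) * s⁻¹ = s * (u * (t * y * t⁻¹) * u⁻¹) * s⁻¹ := by group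
    rwa [e]
  refine sup_le ?_ ?_
  · intro b hbB
    rw [mem_normalizer_iff]
    intro x
    refine key b x (hb b hbB) ?_
    intro y hy
    have := hb b⁻¹ (inv_mem hbB) y hy
    rwa [inv_inv] at this
  · rw [zpowers_le, mem_normalizer_iff]
    intro x
    refine key s x hsq ?_
    intro y hy
    have h1 := hb _ hsB' _ (hsq y hy)
    have e : s⁻¹ * s⁻¹ * (s * y * s⁻¹) * (s⁻¹ * s⁻¹)⁻¹ = s⁻¹ * y * s := by group
    rwa [e] at h1

lemma Kg_conj {s g x : L} (hs : s ∈ S) (hg : g ∈ Par B s) (hx : x ∈ Kg U s) :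
    g * x * g⁻¹ ∈ Kg U s :=
  (mem_normalizer_iff.1 (h.par_le_normalizer hs hg) x).1 hx

lemma Kg_conj' {s g x : L} (hs : s ∈ S) (hg : g ∈ Par B s) (hx : x ∈ Kg U s) :
    g⁻¹ * x * g ∈ Kg U s := by
  have := h.Kg_conj hs (inv_mem hg) hx
  rwa [inv_inv] at this

lemma coset_form {s g : L} (hs : s ∈ S) (hg : g ∈ Par B s) (hgB : g ∉ B) :
    ∃ u ∈ U, ∃ b ∈ B, g = u * s * b := by
  obtain ⟨a, ha, b, hb, rfl⟩ := ((h.mem_Par hs).1 hg).resolve_left hgB
  obtain ⟨u, hu, t, htB, htN, rfl⟩ := h.split a ha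
  refine ⟨u, hu, s⁻¹ * t * s * b, mul_mem (h.norm' (h.sub s hs) htB htN) hb, ?_⟩
  group

end SB

end

end Vale.Agent.P240.H195
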