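import Vale.Agent.P240.H195.BNSplit

/-!
Words in BN-pairs: exchange, longest elements, subgroups containing `B`.
-/

namespace Vale.Agent.P240.H195

open Subgroup

universe u

section
variable {L : Type u} [Group L] {B N : Subgroup L} {S : Set L}

lemma DC_right_iff {n t x : L} (ht : t ∈ B) : DC B (n * t) x ↔ DC B n x := by
  constructor
  · intro h
    exact DC.trans ⟨1, one_mem _, t, ht, by group⟩ h
  · intro h
    exact DC.trans ⟨1, one_mem _, t⁻¹, inv_mem ht, by group⟩ h

lemma DC_left_iff {n t x : L} (ht : t ∈ B) : DC B (t * n) x ↔ DC B n x := by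
  constructor
  · intro h
    exact DC.trans ⟨t, ht, 1, one_mem _, by group⟩ h
  · intro h
    exact DC.trans ⟨t⁻¹, inv_mem ht, 1, one_mem _, by group⟩ h

namespace BN0

variable (h : BN0 B N S)
include h

lemma wd_mul_right {k : ℕ} {n s : L} (hn : Wd B N S k n) (hs : s ∈ S) : Wd B N S (k + 1) (n * s) := by
  induction hn with
  | @zero t h1 h2 =>
    have hsN := h.sub s hs
    have h3 := Wd.succ hs (Wd.zero (h.norm' hsN h1 h2) (mul_mem (mul_mem (inv_mem hsN) h2) hsN))
    have : s * (s⁻¹ * t * s) = t * s := by group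
    rwa [this] at h3
  | @succ s' n k hs' hn ih =>
    rw [mul_assoc]
    exact Wd.succ hs' ih

lemma wd_inv {k : ℕ} {n : L} (hn : Wd B N S k n) : Wd B N S k n⁻¹ := by
  induction hn with
  | @zero t h1 h2 => exact Wd.zero (inv_mem h1) (inv_mem h2)
  | @succ s n k hs hn ih =>
    have hsN := h.sub s hs
    have h1 := h.wd_mul_right ih hs
    have h2 := wd_right h1 (s⁻¹ * s⁻¹) (h.inv_mul hs) (mul_mem (inv_mem hsN) (inv_mem hsN))
    have : n⁻¹ * s * (s⁻¹ * s⁻¹) = (s * n)⁻¹ := by group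
    rwa [this] at h2

lemma wd_congr {k : ℕ} {n m : L} (hn : Wd B N S k n) (hm : m ∈ N) (hnm : n⁻¹ * m ∈ B) :
    Wd B N S k m := by
  have := wd_right hn (n⁻¹ * m) hnm (mul_mem (inv_mem (h.wd_mem hn)) hm)
  rwa [mul_inv_cancel_left] at this

lemma rg_congr {n m s : L} (hn : n ∈ N) (hm : m ∈ N) (hs : s ∈ S) (hnm : n⁻¹ * m ∈ B)
    (hr : RG B n s) : RG B m s := by
  have := h.rg_right hs hr hnm (mul_mem (inv_mem hn) hm)
  rwa [mul_inv_cancel_left] at this

/-- exchange -/
lemma exch {k : ℕ} {n s : L} (hn : Wd B N S k n) (hs : s ∈ S) :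
    ¬ RG B n s → ∃ j, j + 1 = k ∧ Wd B N S j (n * s) := by
  induction hn with
  | @zero t h1 h2 => exact fun hr => absurd (rg_one h hs h1 h2) hr
  | @succ t m k ht hm ih =>
    intro hr
    have htN := h.sub t ht
    have hsN := h.sub s hs
    have hmN := h.wd_mem hm
    by_cases hr' : RG B m s
    · have h1 := h.rg_step hmN hs ht hr' hr
      refine ⟨k, rfl, ?_⟩
      have h2 := h.wd_left (wd_right hm _ h1 (mul_mem (inv_mem (mul_mem htN hmN))
        (mul_mem hmN hsN))) (t * t) (h.sq t ht) (mul_mem htN htN)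
      have : t * t * (m * ((t * m)⁻¹ * (m * s))) = t * m * s := by group
      rwa [this] at h2
    · obtain ⟨j, hj, hw⟩ := ih hr'
      refine ⟨j + 1, by omega, ?_⟩
      rw [mul_assoc]
      exact Wd.succ ht hw

/-- exchange, second form -/
lemma exch2 {k : ℕ} {x m s : L} (hx : Wd B N S k x) (hm : m ∈ N) (hs : s ∈ S) (hr : RG B m s) :
    ¬ RG B (x * m) s → ∃ j, j + 1 = k ∧ ∃ y, Wd B N S j y ∧ (y * (m * s))⁻¹ * (x * m) ∈ B := by
  induction hx with
  | @zero t h1 h2 => exact fun hr' => absurd (rg_left hr h1) hr'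
  | @succ t y k ht hy ih =>
    intro hr'
    have htN := h.sub t ht
    have hyN := h.wd_mem hy
    by_cases hr'' : RG B (y * m) s
    · have h1 := h.rg_step (mul_mem hyN hm) hs ht hr'' (by rwa [← mul_assoc])
      refine ⟨k, rfl, y, hy, ?_⟩
      have h2 := inv_mem h1
      have : ((t * (y * m))⁻¹ * (y * m * s))⁻¹ = (y * (m * s))⁻¹ * (t * y * m) := by group
      rwa [this] at h2
    · obtain ⟨j, hj, z, hz, hzy⟩ := ih hr''
      refine ⟨j + 1, by omega, t * z, Wd.succ ht hz, ?_⟩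
      have : (t * z * (m * s))⁻¹ * (t * y * m) = (z * (m * s))⁻¹ * (y * m) := by group
      rwa [this]

lemma not_both {n s : L} (hn : n ∈ N) (hs : s ∈ S) (h1 : RG B n s) (h2 : RG B (n * s) s) :
    False := by
  have hsN := h.sub s hs
  obtain ⟨b, hb, hbs⟩ := h.thick s hs
  have hbP : s⁻¹ * b * s ∈ Par B s :=
    mul_mem (mul_mem (inv_mem self_mem_Par) (le_Par hb)) self_mem_Par
  -- `s b s ∈ B s B`
  have h3 : DC B s (s * b * s) := by
    rcases h.mul s hs b hb s hsN with h4 | h4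
    · exact h4
    · exfalso
      rw [DC_mem (h.sq s hs)] at h4
      apply hbs
      have : s⁻¹ * b * s = (s⁻¹ * s⁻¹) * (s * b * s) := by group
      rw [this]
      exact mul_mem (h.inv_mul hs) h4
  obtain ⟨c, hc, d, hd, hcd⟩ := h3
  have h4 : DC B n (n * s * b * s) := by
    refine DC.trans ?_ (h2 b hb)
    have : n * s * s = 1 * n * (s * s) := by group
    exact ⟨1, one_mem _, _, h.sq s hs, this⟩
  have h5 : DC B (n * s) (n * s * b * s) := by
    have : n * s * b * s = n * c * s * d := by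
      calc n * s * b * s = n * (s * b * s) := by group
        _ = _ := by rw [hcd]; group
    rw [this]
    exact (h1 c hc).right hd
  have h6 := h.inj hn (mul_mem hn hsN) (h4.trans h5.symm)
  rw [inv_mul_cancel_left] at h6
  exact h.not_mem hs h6

lemma len_unique {n : L} {j k : ℕ} (hj : h.Len j n) (hk : h.Len k n) : j = k := by
  rcases lt_trichotomy j k with h1 | h1 | h1
  · exact absurd hj.1 (hk.2 j h1)
  · exact h1
  · exact absurd hk.1 (hj.2 k h1)

lemma len_congr {k : ℕ} {n m : L} (hn : h.Len k n) (hm : m ∈ N) (hnm : n⁻¹ * m ∈ B) :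
    h.Len k m := by
  refine ⟨h.wd_congr hn.1 hm hnm, fun j hj hw => hn.2 j hj ?_⟩
  refine h.wd_congr hw (h.wd_mem hn.1) ?_
  have := inv_mem hnm
  rwa [mul_inv_rev, inv_inv] at this

lemma rg_or {n s : L} (hn : n ∈ N) (hs : s ∈ S) : RG B n s ∨ RG B (n * s) s := by
  by_contra hcon
  push Not at hcon
  obtain ⟨k, hk, hkm⟩ := h.exists_len hn
  obtain ⟨j, hj, hw⟩ := h.exch hk hs hcon.1
  obtain ⟨i, hi, hw'⟩ := h.exch hw hs hcon.2
  have hsN := h.sub s hs
  have h1 := wd_right hw' (s⁻¹ * s⁻¹) (h.inv_mul hs) (mul_mem (inv_mem hsN) (inv_mem hsN))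
  have : n * s * s * (s⁻¹ * s⁻¹) = n := by group
  rw [this] at h1
  exact hkm i (by omega) h1

lemma len_mul {k : ℕ} {n s : L} (hn : h.Len k n) (hs : s ∈ S) (hr : RG B n s) :
    h.Len (k + 1) (n * s) := by
  have hnN := h.wd_mem hn.1
  have hsN := h.sub s hs
  refine ⟨h.wd_mul_right hn.1 hs, fun j hj hw => ?_⟩
  obtain ⟨i, hi, hw'⟩ := h.exch hw hs fun hr' => h.not_both hnN hs hr hr'
  have h1 := wd_right hw' (s⁻¹ * s⁻¹) (h.inv_mul hs) (mul_mem (inv_mem hsN) (inv_mem hsN))
  have : n * s * s * (s⁻¹ * s⁻¹) = n := by group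
  rw [this] at h1
  exact hn.2 i (by omega) h1

/-- descents with lengths -/
lemma exists_desc_len {k : ℕ} {n : L} (hn : h.Len k n) (hB : n ∉ B) :
    ∃ s ∈ S, ∃ m, h.Len (k - 1) m ∧ 0 < k ∧ RG B m s ∧ (m * s)⁻¹ * n ∈ B := by
  have hnN := h.wd_mem hn.1
  obtain ⟨s, hs, m, hm, hr, hms⟩ := h.exists_desc_aux hn.1 hn.2 hB
  have hmN := h.wd_mem hm
  have hk : 0 < k := by
    rcases Nat.eq_zero_or_pos k with rfl | hk
    · exfalso
      cases hn.1 with
      | zero h1 h2 => exact hB h1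
    · exact hk
  refine ⟨s, hs, m, ⟨hm, fun j hj hw => ?_⟩, hk, hr, hms⟩
  have h1 := h.wd_congr (h.wd_mul_right hw hs) hnN hms
  exact hn.2 (j + 1) (by omega) h1

/-- all elements of `S` are right descents of `n` -/
def Long (_ : BN0 B N S) (n : L) : Prop := n ∈ N ∧ ∀ s ∈ S, ¬ RG B n s

lemma suffix {l : ℕ} {w : L} (hw : h.Long w) (hl : h.Len l w) :
    ∀ (k : ℕ) (v : L), h.Len k v → ∃ j, j + k = l ∧ ∃ x, Wd B N S j x ∧ (x * v)⁻¹ * w ∈ B := by
  intro k
  induction k with
  | zero =>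
    intro v hv
    have hvB : v ∈ B ∧ v ∈ N := by
      cases hv.1 with
      | zero h1 h2 => exact ⟨h1, h2⟩
    refine ⟨l, by omega, w, hl.1, ?_⟩
    have : (w * v)⁻¹ * w = v⁻¹ * (w⁻¹ * w) := by group
    rw [this, inv_mul_cancel, mul_one]
    exact inv_mem hvB.1
  | succ k ih =>
    intro v hv
    have hvN := h.wd_mem hv.1
    have hvB : v ∉ B := fun hcon => hv.2 0 (Nat.succ_pos k) (Wd.zero hcon hvN)
    obtain ⟨s, hs, m, hm, -, hr, hms⟩ := h.exists_desc_len hv hvB
    rw [Nat.add_sub_cancel] at hm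
    have hmN := h.wd_mem hm.1
    obtain ⟨j, hj, x, hx, hxw⟩ := ih m hm
    have hxN := h.wd_mem hx
    have hr' : ¬ RG B (x * m) s := fun hcon => hw.2 s hs
      (h.rg_congr (mul_mem hxN hmN) hw.1 hs hxw hcon)
    obtain ⟨i, hi, y, hy, hyx⟩ := h.exch2 hx hmN hs hr hr'
    have hyN := h.wd_mem hy
    refine ⟨i, by omega, y, hy, ?_⟩
    have e1 : (y * v)⁻¹ * w = ((m * s)⁻¹ * v)⁻¹ * ((y * (m * s))⁻¹ * (x * m)) *
        ((x * m)⁻¹ * w) := by group
    rw [e1]
    exact mul_mem (mul_mem (inv_mem hms) hyx) hxw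

/-- the longest element is unique modulo `T` -/
theorem long_unique {w w' : L} (hw : h.Long w) (hw' : h.Long w') : w⁻¹ * w' ∈ B := by
  obtain ⟨l, hl⟩ := h.exists_len hw.1
  obtain ⟨l', hl'⟩ := h.exists_len hw'.1
  obtain ⟨j, hj, x, hx, hxw⟩ := h.suffix hw hl l' w' hl'
  obtain ⟨j', hj', x', hx', hxw'⟩ := h.suffix hw' hl' l w hl
  have hj0 : j = 0 := by omega
  subst hj0
  have hxB : x ∈ B ∧ x ∈ N := by
    cases hx with
    | zero h1 h2 => exact ⟨h1, h2⟩
  have h1 : w'⁻¹ * w ∈ B := by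
    have : w'⁻¹ * w = (w'⁻¹ * x * w') * ((x * w')⁻¹ * w) := by group
    rw [this]
    exact mul_mem (h.norm' hw'.1 hxB.1 hxB.2) hxw
  have := inv_mem h1
  rwa [mul_inv_rev, inv_inv] at this

theorem exists_long [Finite L] : ∃ w, h.Long w := by
  by_contra hcon
  have key : ∀ k : ℕ, ∃ n, h.Len k n := by
    intro k
    induction k with
    | zero => exact ⟨1, Wd.zero (one_mem _) (one_mem _), fun j hj => absurd hj (Nat.not_lt_zero j)⟩
    | succ k ih =>
      obtain ⟨n, hn⟩ := ih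
      have h1 : ¬ h.Long n := fun h1 => hcon ⟨n, h1⟩
      unfold Long at h1
      push Not at h1
      obtain ⟨s, hs, hr⟩ := h1 (h.wd_mem hn.1)
      exact ⟨n * s, h.len_mul hn hs hr⟩
  choose f hf using key
  refine not_injective_infinite_finite f fun j k hjk => ?_
  exact h.len_unique (hf j) (by rw [hjk]; exact hf k)

theorem long_inv {w : L} (hw : h.Long w) : h.Long w⁻¹ := by
  obtain ⟨l, hl⟩ := h.exists_len hw.1
  refine ⟨inv_mem hw.1, fun s hs hr => ?_⟩
  have h1 : h.Len l w⁻¹ := by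
    refine ⟨h.wd_inv hl.1, fun j hj hwd => hl.2 j hj ?_⟩
    have := h.wd_inv hwd
    rwa [inv_inv] at this
  have h2 := h.len_mul h1 hs hr
  obtain ⟨j, hj, -⟩ := h.suffix hw hl _ _ h2
  omega

/-- the longest element permutes the generators -/
theorem long_conj {w t : L} (hw : h.Long w) (ht : t ∈ S) : ∃ s ∈ S, (t * w)⁻¹ * (w * s) ∈ B := by
  have htN := h.sub t ht
  have h1 : ¬ h.Long (t * w) := by
    intro hcon
    have h2 := h.long_unique hw hcon
    have h3 : w * (w⁻¹ * (t * w)) * w⁻¹ ∈ B :=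
      h.norm w hw.1 _ h2 (mul_mem (inv_mem hw.1) (mul_mem htN hw.1))
    have : w * (w⁻¹ * (t * w)) * w⁻¹ = t := by group
    rw [this] at h3
    exact h.not_mem ht h3
  unfold Long at h1
  push Not at h1
  obtain ⟨s, hs, hr⟩ := h1 (mul_mem htN hw.1)
  refine ⟨s, hs, ?_⟩
  have h2 : ¬ RG B (t * (t * w)) s := by
    intro hcon
    apply hw.2 s hs
    have := rg_left hcon (inv_mem (h.sq t ht))
    have e : (t * t)⁻¹ * (t * (t * w)) = w := by group
    rwa [e] at this
  have h3 := h.rg_step (mul_mem htN hw.1) hs ht hr h2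
  have e : (t * (t * w))⁻¹ * (t * w * s) = (t * w)⁻¹ * (w * (w⁻¹ * t⁻¹ * t * w * s)) := by group
  have e2 : (t * (t * w))⁻¹ * (t * w * s) = (t * w)⁻¹ * (w * s) := by group
  rwa [e2] at h3

/-- the left version of `RG` -/
lemma rg_inv {n s : L} (hs : s ∈ S) (hr : RG B n⁻¹ s) {b : L} (hb : b ∈ B) :
    DC B (s * n) (s * b * n) := by
  have h1 := hr (b⁻¹ * (s⁻¹ * s⁻¹)) (mul_mem (inv_mem hb) (h.inv_mul hs))
  have h2 := h1.inv
  have e1 : (n⁻¹ * s)⁻¹ = (s⁻¹ * s⁻¹) * (s * n) := by group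
  have e2 : (n⁻¹ * (b⁻¹ * (s⁻¹ * s⁻¹)) * s)⁻¹ = s⁻¹ * (s * s) * b * n := by group
  have e3 : s⁻¹ * (s * s) * b * n = s * b * n := by group
  rw [e1, e2, e3, DC_left_iff (h.inv_mul hs)] at h2
  exact h2

/-- `B ∩ H`-part of the BN-pair for a subgroup `H` containing `B`, generators -/
lemma desc_mem {H : Subgroup L} (hBH : B ≤ H) {n m s : L} (hnH : n ∈ H)
    (hs : s ∈ S) (hr : RG B m s) (hms : (m * s)⁻¹ * n ∈ B) : s ∈ H ∧ m ∈ H := by
  have hmsH : m * s ∈ H := by
    have : m * s = n * ((m * s)⁻¹ * n)⁻¹ := by group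
    rw [this]
    exact mul_mem hnH (inv_mem (hBH hms))
  obtain ⟨b, hb, hbs⟩ := h.thick s hs
  have h1 : m * b * s ∈ H := by
    obtain ⟨c, hc, d, hd, hcd⟩ := hr b hb
    rw [hcd]
    exact mul_mem (mul_mem (hBH hc) hmsH) (hBH hd)
  have h2 : s⁻¹ * b * s ∈ H := by
    have : s⁻¹ * b * s = (m * s)⁻¹ * (m * b * s) := by group
    rw [this]
    exact mul_mem (inv_mem hmsH) h1
  have h3 : s⁻¹ * b * s ∈ Par B s :=
    mul_mem (mul_mem (inv_mem self_mem_Par) (le_Par hb)) self_mem_Par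
  have hsH : s ∈ H := by
    have hsN := h.sub s hs
    rcases h.mul s hs b hb s hsN with h4 | h4
    · obtain ⟨c, hc, d, hd, hcd⟩ := h4
      have : s = c⁻¹ * (s * s) * (s⁻¹ * b * s) * d⁻¹ := by
        calc s = c⁻¹ * (c * s * d) * d⁻¹ := by group
          _ = c⁻¹ * (s * b * s) * d⁻¹ := by rw [hcd]
          _ = _ := by group
      rw [this]
      exact mul_mem (mul_mem (mul_mem (hBH (inv_mem hc)) (hBH (h.sq s hs))) h2) (hBH (inv_mem hd))
    · exfalso
      rw [DC_mem (h.sq s hs)] at h4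
      apply hbs
      have : s⁻¹ * b * s = (s⁻¹ * s⁻¹) * (s * b * s) := by group
      rw [this]
      exact mul_mem (h.inv_mul hs) h4
  refine ⟨hsH, ?_⟩
  have : m = (m * s) * s⁻¹ := by group
  rw [this]
  exact mul_mem hmsH (inv_mem hsH)

lemma par_mem_iff {s x : L} (hs : s ∈ S) : x ∈ Par B s ↔ x ∈ B ∨ DC B s x := by
  constructor
  · have hsN := h.sub s hs
    let K : Subgroup L :=
      { carrier := {x | x ∈ B ∨ DC B s x}
        one_mem' := Or.inl (one_mem _)
        mul_mem' := by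
          rintro x y (hx | hx) (hy | hy)
          · exact Or.inl (mul_mem hx hy)
          · exact Or.inr (hy.left hx)
          · exact Or.inr (hx.right hy)
          · obtain ⟨a, ha, b, hb, rfl⟩ := hx
            obtain ⟨c, hc, d, hd, rfl⟩ := hy
            have e : a * s * b * (c * s * d) = a * (s * (b * c) * s) * d := by group
            rw [Set.mem_ofPred_eq, e]
            rcases h.mul s hs (b * c) (mul_mem hb hc) s hsN with h1 | h1
            · exact Or.inr ((h1.left ha).right hd)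
            · left
              rw [DC_mem (h.sq s hs)] at h1
              exact mul_mem (mul_mem ha h1) hd
        inv_mem' := by
          rintro x (hx | hx)
          · exact Or.inl (inv_mem hx)
          · right
            obtain ⟨a, ha, b, hb, rfl⟩ := hx
            refine ⟨b⁻¹ * (s⁻¹ * s⁻¹), mul_mem (inv_mem hb) (h.inv_mul hs), a⁻¹, inv_mem ha, ?_⟩
            group }
    have h1 : Par B s ≤ K := by
      refine sup_le (fun x hx => Or.inl hx) ?_
      rw [zpowers_le]
      exact Or.inr (DC.refl s)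
    exact fun hx => h1 hx
  · rintro (hx | ⟨a, ha, b, hb, rfl⟩)
    · exact le_Par hx
    · exact mul_mem (mul_mem (le_Par ha) self_mem_Par) (le_Par hb)

/-- the BN-pair of a subgroup containing `B` -/
theorem sub_bn {H : Subgroup L} (hBH : B ≤ H) : BN0 B (N ⊓ H) (S ∩ H) where
  norm := fun n hn t ht ht' => h.norm n hn.1 t ht ht'.1
  sub := fun s hs => ⟨h.sub s hs.1, hs.2⟩
  span := by
    apply le_antisymm
    · intro n hn'
      obtain ⟨hn, hnH⟩ : n ∈ N ∧ n ∈ H := hn'
      obtain ⟨k, hk⟩ := h.exists_len hn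
      induction k using Nat.strong_induction_on generalizing n with
      | _ k ih =>
        by_cases hnB : n ∈ B
        · exact mem_sup_right ⟨hnB, hn, hnH⟩
        · obtain ⟨s, hs, m, hm, hk0, hr, hms⟩ := h.exists_desc_len hk hnB
          have hmN := h.wd_mem hm.1
          obtain ⟨hsH, hmH⟩ := h.desc_mem hBH hnH hs hr hms
          have h1 := ih (k - 1) (by omega) hmN hmH hm
          have hsN := h.sub s hs
          have : n = m * s * ((m * s)⁻¹ * n) := by group
          rw [this]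
          have h2 : (m * s)⁻¹ * n ∈ N := mul_mem (inv_mem (mul_mem hmN hsN)) hn
          have h3 : (m * s)⁻¹ * n ∈ H := mul_mem (inv_mem (mul_mem hmH hsH)) hnH
          exact mul_mem (mul_mem h1 (mem_sup_left (subset_closure ⟨hs, hsH⟩)))
            (mem_sup_right ⟨hms, h2, h3⟩)
    · refine sup_le ?_ inf_le_right
      rw [closure_le]
      exact fun s hs => ⟨h.sub s hs.1, hs.2⟩
  sq := fun s hs => h.sq s hs.1
  mul := fun s hs b hb n hn => h.mul s hs.1 b hb n hn.1
  thick := fun s hs => h.thick s hs.1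

/-- the generators in the subgroup generated by `B` and `J` -/
theorem mem_closure_gen {J : Set L} (hJ : J ⊆ S) (hJc : ∀ s ∈ J, ∀ t ∈ S, s⁻¹ * t ∈ B → t ∈ J)
    {s : L} (hs : s ∈ S) (hsJ : s ∈ closure ((B : Set L) ∪ J)) : s ∈ J := by
  have key : ∀ x ∈ closure ((B : Set L) ∪ J), ∃ k n, Wd B N J k n ∧ DC B n x := by
    intro x hx
    have hstep : ∀ t ∈ J, ∀ y : L, (∃ k n, Wd B N J k n ∧ DC B n y) →
        ∃ k n, Wd B N J k n ∧ DC B n (t * y) := by
      rintro t ht y ⟨k, n, hn, a, ha, b, hb, hab⟩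
      have hnN : n ∈ N := by
        clear hab
        induction hn with
        | zero _ h2 => exact h2
        | succ hs _ ih => exact mul_mem (h.sub _ (hJ hs)) ih
      have e : t * y = t * a * n * b := by rw [hab]; group
      rcases h.mul t (hJ ht) a ha n hnN with h1 | h1
      · exact ⟨k, n, hn, by rw [e]; exact h1.right hb⟩
      · exact ⟨k + 1, t * n, Wd.succ ht hn, by rw [e]; exact h1.right hb⟩
    induction hx using Subgroup.closure_induction_left with
    | one => exact ⟨0, 1, Wd.zero (one_mem _) (one_mem _), DC.refl 1⟩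
    | mul_left t ht y _ ih =>
      rcases ht with ht | ht
      · obtain ⟨k, n, hn, hd⟩ := ih
        exact ⟨k, n, hn, hd.left ht⟩
      · exact hstep t ht y ih
    | inv_mul_cancel t ht y _ ih =>
      rcases ht with ht | ht
      · obtain ⟨k, n, hn, hd⟩ := ih
        exact ⟨k, n, hn, hd.left (inv_mem ht)⟩
      · obtain ⟨k, n, hn, hd⟩ := ih
        have h1 := hstep t ht (t⁻¹ * t⁻¹ * y) ⟨k, n, hn, hd.left (h.inv_mul (hJ ht))⟩
        have e : t * (t⁻¹ * t⁻¹ * y) = t⁻¹ * y := by group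
        rwa [e] at h1
  set H := closure ((B : Set L) ∪ J) with hH
  have hBH : B ≤ H := fun x hx => subset_closure (Or.inl hx)
  have hJH : J ⊆ H := fun x hx => subset_closure (Or.inr hx)
  have hWN : ∀ {k : ℕ} {n : L}, Wd B N J k n → n ∈ N ∧ n ∈ closure J ⊔ (B ⊓ (N ⊓ H)) := by
    intro k n hn
    induction hn with
    | zero h1 h2 => exact ⟨h2, mem_sup_right ⟨h1, h2, hBH h1⟩⟩
    | succ hs _ ih =>
      exact ⟨mul_mem (h.sub _ (hJ hs)) ih.1, mul_mem (mem_sup_left (subset_closure hs)) ih.2⟩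
  have hbn : BN0 B (N ⊓ H) J :=
    { norm := fun n hn t ht ht' => h.norm n hn.1 t ht ht'.1
      sub := fun s hs => ⟨h.sub s (hJ hs), hJH hs⟩
      span := by
        apply le_antisymm
        · intro n hn'
          obtain ⟨hn, hnH⟩ : n ∈ N ∧ n ∈ H := hn'
          obtain ⟨k, m, hm, hd⟩ := key n hnH
          obtain ⟨hmN, hm2⟩ := hWN hm
          have h1 := h.inj hmN hn hd
          have hmH : m ∈ H := by
            have := hBH h1
            have e : m = n * (m⁻¹ * n)⁻¹ := by group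
            rw [e]
            exact mul_mem hnH (inv_mem this)
          have : n = m * (m⁻¹ * n) := by group
          rw [this]
          have h2 : m⁻¹ * n ∈ N := mul_mem (inv_mem hmN) hn
          have h3 : m⁻¹ * n ∈ H := mul_mem (inv_mem hmH) hnH
          exact mul_mem hm2 (mem_sup_right ⟨h1, h2, h3⟩)
        · refine sup_le ?_ inf_le_right
          rw [closure_le]
          exact fun s hs => ⟨h.sub s (hJ hs), hJH hs⟩
      sq := fun s hs => h.sq s (hJ hs)
      mul := fun s hs b hb n hn => h.mul s (hJ hs) b hb n hn.1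
      thick := fun s hs => h.thick s (hJ hs) }
  have hsN := h.sub s hs
  obtain ⟨t, ht, m, hm, hr, hmt⟩ := hbn.exists_desc (n := s) ⟨hsN, hsJ⟩ (h.not_mem hs)
  by_cases hst : t⁻¹ * s ∈ B
  · exact hJc t ht s hs hst
  · exfalso
    have h1 : RG B s t := h.rg_of_ne hs (hJ ht) fun hcon => hst (by
      have := inv_mem hcon
      rwa [mul_inv_rev, inv_inv] at this)
    have htN := h.sub t (hJ ht)
    have h2 : RG B (m * t) t := by
      refine h.rg_congr hsN (mul_mem hm.1 htN) (hJ ht) ?_ h1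
      have := inv_mem hmt
      rwa [mul_inv_rev, inv_inv] at this
    exact h.not_both hm.1 (hJ ht) hr h2

end BN0

end

end Vale.Agent.P240.H195
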