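import Vale.Agent.P240.H195.Defs
import Vale.Agent.P240.V.PADefs

/-!
Components with an element that is not fixed by the outer automorphisms of order `p` and whose fixed
points on the poset of elementary abelian `p`-subgroups have nonzero Euler characteristic; components
with an element whose centralizer in the automorphism group is solvable with an abelian part of exponent
`p`.
-/

namespace Vale.Agent.P240.H195

open Subgroup Vale.Agent.P240.K

/-- `L` has an element `s` such that the poset of nontrivial elementary abelian `p`-subgroups of `L`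
normalized by `s` has nonzero reduced Euler characteristic, and such that `s` is not fixed by any
automorphism `f` of `L` with `f ^ p = 1` that is not inner. -/
def EuFree (p : ℕ) (L : Type*) [Group L] : Prop :=
  ∃ s : L, eulerFix p (⊤ : Subgroup L) s ≠ 0 ∧
    ∀ f : MulAut L, f ^ p = 1 → f ∉ (MulAut.conj (G := L)).range → f s ≠ s

/-- `L` has an element `s` such that the poset of nontrivial elementary abelian `p`-subgroups of `L`
normalized by `s` has nonzero reduced Euler characteristic, and such that `s` does not commute with
any element `x` of `N_G(L)` outside `L C_G(L)` with `x ^ p = 1`. -/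
def EuSub (p : ℕ) {G : Type*} [Group G] (L : Subgroup G) : Prop :=
  ∃ s ∈ L, eulerFix p L s ≠ 0 ∧ ∀ x ∈ normalizer (L : Set G), x ^ p = 1 →
    x ∉ L ⊔ centralizer (L : Set G) → x * s ≠ s * x

/-- The element `s ≠ 1` of `L` has order prime to `p`, every elementary abelian `p`-group of
automorphisms of `L` normalized by conjugation by `s` contains an automorphism `f ≠ 1` with `f s = s`,
and `L` has a solvable `p'`-subgroup `W` centralizing `s`, invariant under all automorphisms fixing `s`,
such that, for automorphisms `f`, `g` with `f ^ p = g ^ p = 1` fixing `s`: `f = 1` if `f` is trivial on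
`W`; the commutator of `f` and `g` is conjugation by an element of `W`; and `f` commutes with all
automorphisms of `L` up to inner automorphisms. -/
def RegElt (p : ℕ) {L : Type*} [Group L] (s : L) : Prop :=
  s ≠ 1 ∧ ¬ p ∣ orderOf s ∧
    (∀ E : Subgroup (MulAut L), ElemAb p E →
      MulAut.conj s ∈ normalizer (E : Set (MulAut L)) → ∃ f ∈ E, f ≠ 1 ∧ f s = s) ∧
    ∃ W : Subgroup L, Group.IsSolvable W ∧ ¬ p ∣ Nat.card W ∧ (∀ w ∈ W, w * s = s * w) ∧
      ∀ f : MulAut L, f s = s → (∀ w ∈ W, f w ∈ W) ∧
        (f ^ p = 1 → ((∀ w ∈ W, f w = w) → f = 1) ∧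
          (∀ g : MulAut L, g s = s → g ^ p = 1 → ∃ w ∈ W, f * g * f⁻¹ * g⁻¹ = MulAut.conj w) ∧
          ∀ a : MulAut L, a * f * a⁻¹ * f⁻¹ ∈ (MulAut.conj (G := L)).range)

/-- `L` has an element as in `RegElt`. -/
def RegFree (p : ℕ) (L : Type*) [Group L] : Prop := ∃ s : L, RegElt p s

/-- The components treated in the main theorem, for a field `𝕜` and a prime `l`: components satisfying
`RigidLie p`, `Treated` components, components satisfying `EuSub p`, and, if `l = p`, components
satisfying `RegFree p`. -/
def GoodComp (𝕜 : Type*) [Field 𝕜] (p l : ℕ) {G : Type*} [Group G] (L : Subgroup G) : Prop :=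
  RigidLie p L ∨ Treated 𝕜 p l L ∨ EuSub p L ∨ (l = p ∧ RegFree p L)

/-- The groups `A` of automorphisms of `L` for which the almost simple case is proved: `L` satisfies
`EuFree p` and has trivial centre, or `L` satisfies `AutFree p r` for some prime `r`, or is an
alternating group of degree at least `5`, or is of Lie type in characteristic `p` and all elementary
abelian `p`-subgroups of `A` that meet `Inn(L)` trivially have the same image in `Out(L)`. -/
def AlmostCase (p : ℕ) {L : Type*} [Group L] (A : Subgroup (MulAut L)) : Prop :=
  (EuFree p L ∧ ∀ x : L, (∀ y, x * y = y * x) → x = 1) ∨ (∃ r : ℕ, r.Prime ∧ AutFree p r L) ∨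
    (∃ n : ℕ, 5 ≤ n ∧ Nonempty (L ≃* alternatingGroup (Fin n))) ∨
    (LieType p L ∧ ∀ E F : Subgroup (MulAut L), ElemAb p E → ElemAb p F → E ≤ A → F ≤ A →
      E ⊓ MulAut.conj.range = ⊥ → F ⊓ MulAut.conj.range = ⊥ → F ≤ E ⊔ MulAut.conj.range)

end Vale.Agent.P240.H195
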