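import Mathlib.GroupTheory.IsSubnormal
import Vale.Agent.P240.H195.EuDefs

/-!
Nonabelian composition factors.
-/

namespace Vale.Agent.P240.H195

open Subgroup Vale.Agent.P240.K

universe u v w

/-- `L` is a nonabelian composition factor of `G`: a nonabelian simple group that is a homomorphic
image of a subnormal subgroup of `G`. -/
def CompFactor (G : Type u) [Group G] (L : Type v) [Group L] : Prop :=
  IsSimpleGroup L ∧ (∃ x y : L, x * y ≠ y * x) ∧
    ∃ (A : Subgroup G) (f : A →* L), A.IsSubnormal ∧ Function.Surjective f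

/-- `f` is an automorphism of `L` with `f ^ p = 1` that is not inner. -/
def OutAut (p : ℕ) {L : Type*} [Group L] (f : MulAut L) : Prop :=
  f ^ p = 1 ∧ f ∉ (MulAut.conj (G := L)).range

/-- At most two subgroups of order `p` of `Out(L)` are generated by images of automorphisms of order
`p`; and if there are two, then the poset `𝒜ₚ(L)` is connected. -/
def FewAut (p : ℕ) (L : Type*) [Group L] : Prop :=
  (∀ f g h : MulAut L, OutAut p f → OutAut p g → OutAut p h →
    g ∈ zpowers f ⊔ (MulAut.conj (G := L)).range ∨ h ∈ zpowers f ⊔ (MulAut.conj (G := L)).range ∨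
      h ∈ zpowers g ⊔ (MulAut.conj (G := L)).range) ∧
  ((∀ f g : MulAut L, OutAut p f → OutAut p g → g ∈ zpowers f ⊔ (MulAut.conj (G := L)).range) ∨
    ∀ A B : Ap p L, Relation.ReflTransGen (fun X Y => X ≤ Y ∨ Y ≤ X) A B)

/-- The composition factors treated in the main theorem: alternating groups, groups of Lie type in
characteristic `p`, groups of order divisible by `p` satisfying `EuFree`, and groups satisfying
`AutFree` for a prime `r` (for example groups of Lie type in a characteristic `r ≠ p`) such that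
`r = l`, or `r ≠ p` is the characteristic of `𝕜`, or the group has few outer automorphisms of order
`p`, or its order is prime to `p`; and, if `l = p`, groups of order divisible by `p` satisfying
`RegFree`. -/
def GoodFactor (𝕜 : Type*) [Field 𝕜] (p l : ℕ) (L : Type*) [Group L] : Prop :=
  (∃ n : ℕ, 5 ≤ n ∧ Nonempty (L ≃* alternatingGroup (Fin n))) ∨ RigidLie p L ∨
    (EuFree p L ∧ p ∣ Nat.card L) ∨ (∃ r : ℕ, r.Prime ∧ AutFree p r L ∧
      (r = l ∨ (r ≠ p ∧ (r : 𝕜) = 0) ∨ FewAut p L ∨ ¬ p ∣ Nat.card L)) ∨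
    (l = p ∧ RegFree p L ∧ p ∣ Nat.card L)

section
variable {G : Type u} [Group G] {L : Type v} [Group L]

theorem CompFactor.of_sub {A : Subgroup G} (hA : A.IsSubnormal) (h : CompFactor A L) :
    CompFactor G L := by
  obtain ⟨h1, h2, A', f, hA', hf⟩ := h
  refine ⟨h1, h2, A'.map A.subtype,
    f.comp (A'.equivMapOfInjective A.subtype A.subtype_injective).symm.toMonoidHom,
    hA'.trans' hA, ?_⟩
  exact hf.comp (A'.equivMapOfInjective A.subtype A.subtype_injective).symm.surjective

theorem CompFactor.of_map {Q : Type w} [Group Q] (π : G →* Q) (hπ : Function.Surjective π)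
    (h : CompFactor Q L) : CompFactor G L := by
  obtain ⟨h1, h2, A, f, hA, hf⟩ := h
  refine ⟨h1, h2, A.comap π, f.comp (π.subgroupComap A), hA.comap π, ?_⟩
  refine hf.comp ?_
  rintro ⟨y, hy⟩
  obtain ⟨x, rfl⟩ := hπ y
  exact ⟨⟨x, hy⟩, rfl⟩

theorem CompFactor.self {L : Subgroup G} (h1 : IsSimpleGroup L) (h2 : ∃ x y : L, x * y ≠ y * x)
    (h3 : L.IsSubnormal) : CompFactor G L :=
  ⟨h1, h2, L, MonoidHom.id L, h3, Function.surjective_id⟩

end

end Vale.Agent.P240.H195
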