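import Vale.Agent.P240.H195.RSol

/-!
The main theorem in terms of composition factors.
-/

namespace Vale.Agent.P240.H195

open Subgroup Vale.Agent.P240.K

universe u v

section
variable {G : Type u} [Group G] {p : ℕ}

/-- the faithful solvable subgroups of a normal `p'`-subgroup -/
theorem solvableFaithful_of [hp : Fact p.Prime] [Finite G] {N : Subgroup G} [N.Normal]
    (hN : ¬ p ∣ Nat.card N)
    (hF : ∀ (L : Type u) [Group L], CompFactor N L → ∃ r : ℕ, r.Prime ∧ AutFree p r L) :
    SolvableFaithful p N := by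
  intro A hA hAN
  obtain ⟨Y, hYN, hYs, hYi, hYc⟩ := solv_inv _ G N A inferInstance le_rfl hN hA.2.2 hF
  refine ⟨Y, hYN, hYs, hYi, fun x hx hxY => ?_⟩
  have h1 : x ∈ A ⊓ centralizer (N : Set G) := by
    refine mem_inf.2 ⟨hx, ?_⟩
    rw [mem_centralizer_iff]
    exact fun v hv => (hYc x hx hxY v hv).symm
  rwa [hAN, Subgroup.mem_bot] at h1

/-- alternating groups of order prime to `p` -/
theorem autFree_alt [hp : Fact p.Prime] {n : ℕ} (h5 : 5 ≤ n)
    (hn : ¬ p ∣ Nat.card (alternatingGroup (Fin n))) :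
    AutFree p 3 (alternatingGroup (Fin n)) := by
  refine ⟨⊥, IsPGroup.of_bot, fun E hE _ => hE.1 ?_⟩
  have h5' : 5 ≤ Fintype.card (Fin n) := by rwa [Fintype.card_fin]
  have hodd : Odd p := by
    rcases hp.out.eq_two_or_odd' with h2 | hodd
    · exfalso
      apply hn
      subst h2
      have h1 : Nat.card (alternatingGroup (Fin n)) * 2 = n.factorial := by
        have : Nontrivial (Fin n) := Fin.nontrivial_iff_two_le.2 (by omega)
        have := two_mul_nat_card_alternatingGroup (α := Fin n)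
        rw [Nat.card_perm, Nat.card_eq_fintype_card (α := Fin n), Fintype.card_fin] at this
        omega
      have h2 : 4 ∣ n.factorial := by
        have h3 : Nat.factorial 4 ∣ n.factorial := Nat.factorial_dvd_factorial (by omega)
        exact (show 4 ∣ Nat.factorial 4 by decide).trans h3
      omega
    · exact hodd
  rw [eq_bot_iff]
  intro f hf
  obtain ⟨x, rfl⟩ := inner_of_odd h5' hodd (hE.2.2 f hf)
  have h1 : x ^ p = 1 := by
    have h2 : MulAut.conj (x ^ p) = 1 := by rw [map_pow]; exact hE.2.2 _ hf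
    have h3 : kap (Fin n) ((x ^ p : alternatingGroup (Fin n)) : Equiv.Perm (Fin n)) = 1 := by
      rw [kap_coe, h2]
    have h4 := kap_injective h5' (h3.trans (map_one _).symm)
    exact Subtype.ext h4
  have h6 : orderOf x ∣ p := orderOf_dvd_of_pow_eq_one h1
  rcases (Nat.dvd_prime hp.out).1 h6 with h | h
  · rw [orderOf_eq_one_iff] at h
    rw [Subgroup.mem_bot, h, map_one]
  · exact absurd (h ▸ orderOf_dvd_natCard x) hn

/-- groups of Lie type in characteristic `p` have order divisible by `p` -/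
theorem RigidLie.dvd [hp : Fact p.Prime] {L : Type v} [Group L] [Finite L] (h : RigidLie p L) :
    p ∣ Nat.card L := by
  obtain ⟨-, -, B, N, U, S, h⟩ := h
  have hU : U ≠ ⊥ := by
    intro hU
    obtain ⟨s, hs⟩ := h.nonempty
    obtain ⟨b, hb, hsb⟩ := h.thick s hs
    obtain ⟨u, hu, t, ht, htN, rfl⟩ := h.split b hb
    rw [hU, Subgroup.mem_bot] at hu
    subst hu
    apply hsb
    have h1 := h.norm s⁻¹ (inv_mem (h.sub s hs)) t ht htN
    rw [one_mul]
    rwa [inv_inv] at h1
  obtain ⟨n, hn⟩ := IsPGroup.iff_card.1 h.pgroup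
  have hn0 : n ≠ 0 := by
    rintro rfl
    rw [pow_zero] at hn
    exact hU (Subgroup.card_eq_one.1 hn)
  exact ((dvd_pow_self p hn0).trans (hn ▸ dvd_rfl)).trans (Subgroup.card_subgroup_dvd_card U)

theorem GoodFactor.autFree [hp : Fact p.Prime] {𝕜 : Type*} [Field 𝕜] {l : ℕ} {L : Type v}
    [Group L] [Finite L] (h : GoodFactor 𝕜 p l L) (hd : ¬ p ∣ Nat.card L) :
    ∃ r : ℕ, r.Prime ∧ AutFree p r L := by
  rcases h with ⟨n, h5, ⟨e⟩⟩ | h | ⟨-, h⟩ | ⟨r, hr, h, -⟩ | ⟨-, -, h⟩
  · refine ⟨3, Nat.prime_three, (autFree_alt h5 fun h => hd ?_).congr e.symm⟩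
    rwa [Nat.card_congr e.toEquiv]
  · exact absurd h.dvd hd
  · exact absurd h hd
  · exact ⟨r, hr, h⟩
  · exact absurd h hd

/-- components are nonabelian composition factors -/
theorem comp_factor [hp : Fact p.Prime] [Finite G] (hO : OpTrivial p G)
    (hO' : OpPrimeTrivial p G) {L : Subgroup G} (hL : L ∈ Q.Comp G) : CompFactor G L := by
  have hF := comp_family hO hO'
  have hc := hF.centre L hL
  obtain ⟨M, hM, K, hK, rfl⟩ := hL
  have hMn := hM.1
  have hnt : (K.map M.subtype : Subgroup G) ≠ ⊥ := by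
    intro h
    exact hK.2.1 ((map_eq_bot_iff_of_injective K M.subtype_injective).1 h)
  have hab : ∃ x ∈ M, ∃ y ∈ M, x * y ≠ y * x := by
    by_contra hcon
    push Not at hcon
    apply hnt
    rw [← hc, left_eq_inf]
    intro x hx
    rw [mem_centralizer_iff]
    exact fun y hy => hcon y (map_subtype_le K hy) x (map_subtype_le K hx)
  obtain ⟨h1, h2⟩ := min_simple hM hK hab
  refine CompFactor.self h1 h2 ?_
  exact hK.1.isSubnormal.trans' hMn.isSubnormal

end

end Vale.Agent.P240.H195
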