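import Vale.Agent.P240.H195.RGC

/-!
The main theorem in terms of composition factors.
-/

namespace Vale.Agent.P240.H195

open Subgroup Vale.Agent.P240.K

universe u v

section
variable {G : Type u} [Group G] {p : ℕ}

theorem GoodFactor.treated [hp : Fact p.Prime] [Finite G] {𝕜 : Type v} [Field 𝕜] {l : ℕ}
    {L : Subgroup G} (h : GoodFactor 𝕜 p l L) (hd : p ∣ Nat.card L) :
    GoodComp 𝕜 p l L := by
  rcases h with ⟨n, h5, ⟨e⟩⟩ | h | ⟨h, -⟩ | ⟨r, hr, h, h1 | h1 | h1 | h1⟩ | ⟨h1, h, -⟩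
  · exact Or.inr (Or.inl (Or.inl ⟨n, h5, ⟨e⟩⟩))
  · exact Or.inl h
  · exact Or.inr (Or.inr (Or.inl h.sub))
  · subst h1
    exact Or.inr (Or.inl (Or.inr (Or.inr (Or.inr (Or.inr (Or.inl h.freeSub))))))
  · exact Or.inr (Or.inl (Or.inr (Or.inr (Or.inr (Or.inr (Or.inr
      ⟨r, hr, h1.1, h1.2, h.freeSub⟩))))))
  · exact Or.inr (Or.inl (Or.inr (Or.inr (Or.inr (Or.inl ⟨h1.fewOuter, Or.inl ⟨r, hr, h⟩⟩)))))
  · exact absurd hd h1
  · exact Or.inr (Or.inr (Or.inr ⟨h1, h⟩))

/-- **The main theorem**: all finite groups `G` with `O_p(G) = 1` whose nonabelian composition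
factors satisfy `GoodFactor`. -/
theorem factor_main {𝕜 : Type v} [Field 𝕜] [hp : Fact p.Prime] [Finite G] {l : ℕ} (hl : l.Prime)
    (hO : OpTrivial p G)
    (h : ∀ (L : Type u) [Group L], CompFactor G L → GoodFactor 𝕜 p l L) : HQ 𝕜 p G := by
  obtain ⟨N, hNn, hN, hmax⟩ := l2_exists_pprime (p := p) (H := G)
  have hsol : SolvableFaithful p N := by
    refine solvableFaithful_of hN fun L _ hL => ?_
    have hfin : Finite L := by
      obtain ⟨-, -, A, f, -, hf⟩ := hL
      exact Finite.of_surjective f hf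
    have hd : ¬ p ∣ Nat.card L := by
      obtain ⟨-, -, A, f, -, hf⟩ := hL
      intro hd
      exact hN (hd.trans ((Subgroup.card_dvd_of_surjective f hf).trans
        (Subgroup.card_subgroup_dvd_card A)))
    exact (h L (hL.of_sub hNn.isSubnormal)).autFree hd
  have hO1 := reduced_op hO N hN
  have hO2 := reduced_op' N hN hmax
  refine reduce_all N hN hsol (all_good hO1 hO2 hl fun L hL => ?_)
  have h1 : CompFactor (Reduced N) L := comp_factor hO1 hO2 hL
  have h2 : CompFactor (centralizer (N : Set G)) L :=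
    h1.of_map (QuotientGroup.mk' _) (QuotientGroup.mk'_surjective _)
  have h3 : CompFactor G L :=
    h2.of_sub (inferInstance : (centralizer (N : Set G)).Normal).isSubnormal
  exact (h L h3).treated (l2_dvd hO2 L hL)

end

end Vale.Agent.P240.H195
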