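import Vale.Agent.P240.H195.CycDefs
import Vale.Agent.P240.H195.CFMain

/-!
Components with an element that normalizes no elementary abelian `p`-group of automorphisms: the
`l`-adic condition holds for every prime `l`.
-/

namespace Vale.Agent.P240.H195

open Subgroup Vale.Agent.P240.K

universe u v

section
variable {G : Type u} [Group G] {p : ℕ}

theorem CycFree.sub {L : Subgroup G} (h : CycFree p L) : CycSub p L := by
  obtain ⟨s, hs⟩ := h
  refine ⟨s, s.2, fun E hE hEN hsE => ?_⟩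
  by_contra hEC
  obtain ⟨h1, h2⟩ := aut_image hE hEN hEC
  refine hs _ h1 ?_
  have hxN : (s : G) ∈ normalizer (L : Set G) := le_normalizer s.2
  have h3 := h2 s hxN hxN hsE
  have h4 : L.normalizerMonoidHom ⟨s, hxN⟩ = MulAut.conj s := by
    ext y
    rfl
  rwa [h4] at h3

theorem CycFree.congr {L L' : Type*} [Group L] [Group L'] (e : L ≃* L') (h : CycFree p L) :
    CycFree p L' := by
  obtain ⟨s, hs⟩ := h
  refine ⟨e s, fun E hE hsE => ?_⟩
  have hinj : Function.Injective (MulAut.congr e.symm).toMonoidHom :=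
    (MulAut.congr e.symm).injective
  refine hs (E.map (MulAut.congr e.symm).toMonoidHom) ?_ ?_
  · refine ⟨fun h => hE.1 ((map_eq_bot_iff_of_injective E hinj).1 h), ?_, ?_⟩
    · rintro _ ⟨x, hx, rfl⟩ _ ⟨y, hy, rfl⟩
      rw [← map_mul, ← map_mul, hE.2.1 x hx y hy]
    · rintro _ ⟨x, hx, rfl⟩
      rw [← map_pow, hE.2.2 x hx, map_one]
  · have h1 : (MulAut.congr e.symm) (MulAut.conj (e s)) = MulAut.conj s := by
      ext y
      simp
    rw [← h1]
    have h2 : ∀ f : MulAut L', f ∈ normalizer (E : Set (MulAut L')) →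
        ∀ y ∈ E.map (MulAut.congr e.symm).toMonoidHom, (MulAut.congr e.symm) f * y *
          ((MulAut.congr e.symm) f)⁻¹ ∈ E.map (MulAut.congr e.symm).toMonoidHom := by
      rintro f hf _ ⟨y, hy, rfl⟩
      refine ⟨f * y * f⁻¹, (mem_normalizer_iff.1 hf y).1 hy, ?_⟩
      rw [map_mul, map_mul, map_inv]
      rfl
    rw [mem_normalizer_iff]
    intro y
    refine ⟨h2 _ hsE y, fun hy => ?_⟩
    have h3 := h2 _ (inv_mem hsE) _ hy
    rw [map_inv] at h3
    have e1 : ((MulAut.congr e.symm) (MulAut.conj (e s)))⁻¹ *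
        ((MulAut.congr e.symm) (MulAut.conj (e s)) * y *
          ((MulAut.congr e.symm) (MulAut.conj (e s)))⁻¹) *
        ((MulAut.congr e.symm) (MulAut.conj (e s)))⁻¹⁻¹ = y := by group
    rwa [e1] at h3

theorem CycFree.hq {𝕜 : Type v} [Field 𝕜] {L : Type u} [Group L] [Finite L]
    (h : CycFree p L) (A : Subgroup (MulAut L)) (hA : ∀ x, MulAut.conj x ∈ A) :
    K.HQ 𝕜 p A := by
  obtain ⟨s, hs⟩ := h
  have : Fact (Nat.Prime 2) := ⟨Nat.prime_two⟩
  rw [HQ_sub_iff]
  refine na_of_hyper (l := 2) (MulAut.conj s) ⊥ IsPGroup.of_bot ?_ ?_ ?_ ?_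
  · exact fun E hE => cj_mem_Ain_conj hA s hE
  · intro u hu E hE
    rw [Subgroup.mem_bot] at hu
    rwa [hu, cj_one]
  · intro u hu
    rw [Subgroup.mem_bot] at hu
    rw [hu, inv_one, one_mul, mul_one]
    exact mem_zpowers _
  · exact fun E hE hc _ => hs E hE.1 hc

/-- the good elements of `L` -/
def gdE (p : ℕ) (L : Subgroup G) : Set G := {s | s ∈ L ∧ ∀ E : Subgroup G, ElemAb p E →
  E ≤ normalizer (L : Set G) → s ∈ normalizer (E : Set G) → E ≤ centralizer (L : Set G)}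

lemma gdE_cj {L : Subgroup G} {g x : G} : x ∈ gdE p (cj g L) ↔ g⁻¹ * x * g ∈ gdE p L := by
  have key : ∀ (L : Subgroup G) (g x : G), g⁻¹ * x * g ∈ gdE p L → x ∈ gdE p (cj g L) := by
    intro L g x ⟨h1, h2⟩
    refine ⟨mem_cj.2 h1, fun E hE hEN hxE => ?_⟩
    have h3 : cj g⁻¹ E ≤ centralizer (L : Set G) := by
      refine h2 (cj g⁻¹ E) (H148.elemAb_cj hE _) ?_ ?_
      · intro y hy
        rw [mem_cj, inv_inv] at hy
        have h4 := H148.mem_normalizer_cj.1 (hEN hy)
        have e1 : g⁻¹ * (g * y * g⁻¹) * g = y := by group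
        rwa [e1] at h4
      · rw [H148.mem_normalizer_cj, inv_inv]
        have e1 : g * (g⁻¹ * x * g) * g⁻¹ = x := by group
        rwa [e1]
    intro y hy
    rw [H148.mem_centralizer_cj]
    refine h3 ?_
    rw [mem_cj, inv_inv]
    have e1 : g * (g⁻¹ * y * g) * g⁻¹ = y := by group
    rwa [e1]
  refine ⟨fun h => ?_, key L g x⟩
  have h1 := key (cj g L) g⁻¹ (g⁻¹ * x * g) (by
    rw [inv_inv]
    have e1 : g * (g⁻¹ * x * g) * g⁻¹ = x := by group
    rwa [e1])
  rwa [← cj_mul, inv_mul_cancel, cj_one] at h1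

lemma cycSub_cj {L : Subgroup G} (h : CycSub p L) (g : G) : CycSub p (cj g L) := by
  obtain ⟨s, hs, h⟩ := h
  have h1 : g * s * g⁻¹ ∈ gdE p (cj g L) := by
    rw [gdE_cj]
    have e1 : g⁻¹ * (g * s * g⁻¹) * g = s := by group
    rw [e1]
    exact ⟨hs, h⟩
  exact ⟨_, h1.1, h1.2⟩

lemma cycSub_cj_iff {L : Subgroup G} {g : G} : CycSub p (cj g L) ↔ CycSub p L := by
  refine ⟨fun h => ?_, fun h => cycSub_cj h g⟩
  have h1 := cycSub_cj h g⁻¹
  rwa [← cj_mul, inv_mul_cancel, cj_one] at h1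

end

end Vale.Agent.P240.H195
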