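import Vale.Agent.P240.H195.Defs

/-!
Components with an element that normalizes no elementary abelian `p`-group of automorphisms.
-/

namespace Vale.Agent.P240.H195

open Subgroup Vale.Agent.P240.K

/-- `L` has an element `s` such that no nontrivial elementary abelian `p`-group of automorphisms of
`L` is normalized by the inner automorphism given by `s`. -/
def CycFree (p : ℕ) (L : Type*) [Group L] : Prop :=
  ∃ s : L, ∀ E : Subgroup (MulAut L), ElemAb p E →
    MulAut.conj s ∈ normalizer (E : Set (MulAut L)) → False

/-- `L` has an element `s` such that every elementary abelian `p`-subgroup of `N_G(L)` normalized by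
`s` centralizes `L`. -/
def CycSub (p : ℕ) {G : Type*} [Group G] (L : Subgroup G) : Prop :=
  ∃ s ∈ L, ∀ E : Subgroup G, ElemAb p E → E ≤ normalizer (L : Set G) →
    s ∈ normalizer (E : Set G) → E ≤ centralizer (L : Set G)

end Vale.Agent.P240.H195
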