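import Vale.Agent.P240.H195.Cyc

/-!
The `l`-adic condition for the elements different from `1`.
-/

namespace Vale.Agent.P240.H195

open Subgroup Vale.Agent.P240.K Finsupp

universe u v

section
variable {G : Type u} [Group G] {p : ℕ}

/-- the sum over the elements different from `1` -/
lemma wsum_ne_one [hp : Fact p.Prime] [Finite G] {S : Set G} {K : Subgroup G}
    (hS : ∀ x ∈ K, (x ∈ S ↔ x ≠ 1)) (hK : p ∣ Nat.card K) : wsum p S K = - lam p K 1 := by
  classical
  have hmem1 : (1 : G) ∈ (Set.toFinite (K : Set G)).toFinset := by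
    rw [Set.Finite.mem_toFinset]
    exact K.one_mem
  rw [wsum_eq]
  simp only [ite_mul, one_mul, zero_mul]
  have hw := webb (p := p) K hK
  rw [← Finset.add_sum_erase _ _ hmem1] at hw
  rw [← Finset.add_sum_erase _ _ hmem1, if_neg fun h => (hS 1 K.one_mem).1 h rfl, zero_add]
  have h2 : ∑ x ∈ (Set.toFinite (K : Set G)).toFinset.erase 1, (if x ∈ S then lam p K x else 0) =
      ∑ x ∈ (Set.toFinite (K : Set G)).toFinset.erase 1, lam p K x := by
    refine Finset.sum_congr rfl fun x hx => ?_
    rw [Finset.mem_erase, Set.Finite.mem_toFinset] at hx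
    rw [if_pos ((hS x hx.2).2 hx.1)]
  rw [h2]
  linarith

lemma lam_one (K : Subgroup G) : lam p K 1 = eu (Ain p K) := by
  unfold lam
  congr 1
  ext E
  exact ⟨fun h => h.1, fun h => ⟨h, one_mem _⟩⟩

/-- `AO` and `FreeSub` components: the `l`-adic condition for the elements different from `1` -/
lemma ne_one_adic [hp : Fact p.Prime] [Finite G] {l : ℕ} (hl : l.Prime) {S : Set G}
    {L : Subgroup G} (hd : p ∣ Nat.card L) (hc : L ⊓ centralizer (L : Set G) = ⊥)
    (h : AO p l L ∨ FreeSub p l L) (hS : ∀ x ∈ L, (x ∈ S ↔ x ≠ 1))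
    (hmove : ∀ h : G, h ^ p = 1 → h ∉ normalizer (L : Set G) → ∀ s ∈ S, s ∈ L → h * s * h⁻¹ ∈ S) :
    AdicGood p l S L := by
  have : Fact l.Prime := ⟨hl⟩
  refine ⟨hmove, fun g hg s hs hsL => ?_, 0, ?_, ?_⟩
  · rw [hS _ (mul_mem (mul_mem hg hsL) (inv_mem hg))]
    intro h1
    rw [hS s hsL] at hs
    apply hs
    have e : s = g⁻¹ * (g * s * g⁻¹) * g := by group
    rw [e, h1]
    group
  · rw [zero_add, pow_one, wsum_ne_one hS hd, dvd_neg]
    rcases h with h | h
    · rw [lam_one]
      exact h.2.1
    · exact H148.free_lam hc h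
  · intro E hEN hE hEC
    rw [zero_add, pow_one]
    rcases h with h | h
    · by_cases hin : ∃ e ∈ E, e ∈ L ⊔ centralizer (L : Set G) ∧ e ∉ centralizer (L : Set G)
      · obtain ⟨e, he, heL, heC⟩ := hin
        have h1 := eu_inner_zero h.1 hE hEN he heL heC
        have hdK : p ∣ Nat.card (L ⊓ centralizer (E : Set G) : Subgroup G) := by
          by_contra hnd
          have h2 : Ain p (L ⊓ centralizer (E : Set G)) = ∅ := by
            ext F
            simp only [Set.mem_empty_iff_false, iff_false]
            rintro ⟨hF, hFK⟩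
            have hFp := ApS_isPGroup hF
            obtain ⟨n, hn⟩ := IsPGroup.iff_card.1 hFp
            have hn0 : n ≠ 0 := by
              rintro rfl
              rw [pow_zero] at hn
              exact hF.1 (Subgroup.card_eq_one.1 hn)
            exact hnd (((dvd_pow_self p hn0).trans (hn ▸ dvd_rfl)).trans
              (Subgroup.card_dvd_of_le hFK))
          rw [h2, eu_empty] at h1
          exact one_ne_zero h1
        rw [wsum_ne_one (fun x hx => hS x (mem_inf.1 hx).1) hdK, lam_one, h1, neg_zero, mul_zero]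
        exact dvd_zero _
      · push Not at hin
        obtain ⟨x, hx, hxC⟩ := SetLike.not_le_iff_exists.1 hEC
        have hxo : Outer p L x := ⟨hEN hx, by
          rw [hE.2.2 x hx]
          exact one_mem _, fun hcon => hxC (hin x hx hcon)⟩
        refine dvd_mul_of_dvd_left ?_ _
        have h1 : L ⊓ centralizer (E : Set G) ≤ L ⊓ centralizer {x} := by
          refine inf_le_inf_left L ?_
          exact centralizer_le (Set.singleton_subset_iff.2 hx)
        have h2 := Subgroup.relIndex_mul_relIndex _ _ L h1 inf_le_left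
        rw [← h2]
        exact_mod_cast dvd_mul_of_dvd_right (h.2.2 x hxo) _
    · exact Dvd.dvd.mul_right (by exact_mod_cast H148.free_index h hE hEN hEC) _

end

end Vale.Agent.P240.H195
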