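import Vale.Agent.P240.H195.ElimDefs
import Vale.Agent.P240.H195.CFTop

/-!
Elimination of normal direct products of simple groups satisfying `ElimFactor`.
-/

namespace Vale.Agent.P240.H195

open Subgroup Vale.Agent.P240.K Finsupp

universe u v

section
variable {G : Type u} [Group G] {p : ℕ}

/-- in a simple subgroup `A`, a subgroup `B` normalized by `A` is trivial or all of `A` -/
lemma simple_sub {A B : Subgroup G} (hA : IsSimpleGroup A) (hB : B ≤ A)
    (hn : ∀ a ∈ A, ∀ b ∈ B, a * b * a⁻¹ ∈ B) : B = ⊥ ∨ B = A := by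
  have h1 : (B.subgroupOf A).Normal := by
    refine ⟨fun x hx g => ?_⟩
    rw [mem_subgroupOf] at hx ⊢
    exact hn g g.2 x hx
  rcases hA.eq_bot_or_eq_top_of_normal _ h1 with h2 | h2
  · left
    rw [eq_bot_iff]
    intro x hx
    have h3 : (⟨x, hB hx⟩ : A) ∈ B.subgroupOf A := hx
    rw [h2, mem_bot] at h3
    exact mem_bot.2 (congrArg Subtype.val h3)
  · right
    refine le_antisymm hB fun x hx => ?_
    have h3 : (⟨x, hx⟩ : A) ∈ B.subgroupOf A := by
      rw [h2]
      exact mem_top _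
    exact h3

/-- a simple group which is not commutative has trivial centre -/
lemma centreless_of {L : Type*} [Group L] (h : IsSimpleGroup L) (h2 : ∃ x y : L, x * y ≠ y * x) :
    ∀ x : L, (∀ y, x * y = y * x) → x = 1 := by
  intro x hx
  rcases h.eq_bot_or_eq_top_of_normal (Subgroup.center L) inferInstance with h3 | h3
  · have h4 : x ∈ Subgroup.center L := mem_center_iff.2 fun y => (hx y).symm
    rwa [h3, mem_bot] at h4
  · exfalso
    obtain ⟨a, b, hab⟩ := h2
    have h4 : a ∈ Subgroup.center L := by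
      rw [h3]
      exact mem_top _
    exact hab (mem_center_iff.1 h4 b).symm

lemma ElimFactor.simple {𝕜 : Type*} [Field 𝕜] {L : Type*} [Group L]
    (h : ElimFactor 𝕜 p L) : IsSimpleGroup L ∧ ∀ x : L, (∀ y, x * y = y * x) → x = 1 := by
  rcases h with h | ⟨-, ⟨n, h5, ⟨e⟩⟩ | ⟨h1, h2, -⟩⟩
  · exact ⟨h.1, h.2.1⟩
  · have h5' : 5 ≤ Nat.card (Fin n) := by simpa using h5
    have h5'' : 5 ≤ Fintype.card (Fin n) := by simpa using h5
    have h1 : IsSimpleGroup (alternatingGroup (Fin n)) := alternatingGroup.isSimpleGroup h5'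
    refine ⟨e.isSimpleGroup, fun x hx => ?_⟩
    have h2 : MulAut.conj (e x) = 1 := by
      apply MulEquiv.ext
      intro y
      obtain ⟨z, rfl⟩ := e.surjective y
      rw [MulAut.conj_apply, MulAut.one_apply, ← map_mul, hx z, map_mul, mul_inv_cancel_right]
    have h3 : kap (Fin n) ((e x : alternatingGroup (Fin n)) : Equiv.Perm (Fin n)) = 1 := by
      rw [kap_coe, h2]
    have h4 := kap_injective h5'' (h3.trans (map_one _).symm)
    have h6 : e x = 1 := Subtype.ext h4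
    exact (map_eq_one_iff e e.injective).1 h6
  · exact ⟨h1, centreless_of h1 h2⟩

lemma ElimFactor.dvd [hp : Fact p.Prime] {𝕜 : Type*} [Field 𝕜] {L : Type*} [Group L] [Finite L]
    (h : ElimFactor 𝕜 p L) : p ∣ Nat.card L := by
  rcases h with h | ⟨h, -⟩
  · exact h.dvd
  · exact h

lemma ElimFactor.tr {𝕜 : Type*} [Field 𝕜] {L L' : Type*} [Group L] [Group L']
    [Finite L] (e : L ≃* L') (h : ElimFactor 𝕜 p L) : ElimFactor 𝕜 p L' := by
  rcases h with h | ⟨hd, h⟩
  · exact Or.inl (h.tr e)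
  · refine Or.inr ⟨by rwa [← Nat.card_congr e.toEquiv], ?_⟩
    rcases h with ⟨n, h5, ⟨f⟩⟩ | ⟨h1, ⟨x, y, hxy⟩, h3⟩
    · exact Or.inl ⟨n, h5, ⟨e.symm.trans f⟩⟩
    · refine Or.inr ⟨e.symm.isSimpleGroup, ⟨e x, e y, fun h => hxy ?_⟩, ?_⟩
      · rw [← map_mul, ← map_mul] at h
        exact e.injective h
      · rcases h3 with ⟨r, hr, hrp, h0, h4⟩ | ⟨h4, ⟨r, hr, h5⟩ | h5⟩
        · exact Or.inl ⟨r, hr, hrp, h0, h4.congr e⟩
        · exact Or.inr ⟨h4.congr e, Or.inl ⟨r, hr, h5.congr e⟩⟩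
        · exact Or.inr ⟨h4.congr e, Or.inr (h5.congr e)⟩

lemma ElimFactor.removable [hp : Fact p.Prime] [Finite G] {𝕜 : Type v} [Field 𝕜] {L : Subgroup G}
    (h : ElimFactor 𝕜 p L) (hL : ¬ RigidLie p L) : Removable 𝕜 p L := by
  rcases h.resolve_left hL with ⟨-, h1 | ⟨h1, h2, ⟨r, hr, hrp, h0, h3⟩ | ⟨h3, ⟨r, hr, h4⟩ | h4⟩⟩⟩
  · exact removable_alt h1
  · exact Or.inr ⟨r, hr, hrp, h0, h3.freeSub⟩
  · exact Or.inl ⟨h3.fewOuter, h4.almostSimpleHQ hr⟩
  · exact Or.inl ⟨h3.fewOuter, fun A _ hA => h4.hq (centreless_of h1 h2) A hA⟩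

/-- **Elimination of normal direct products of simple groups satisfying `ElimFactor`** -/
theorem elim_all {𝕜 : Type v} [Field 𝕜] [hp : Fact p.Prime] [Finite G] (K : Subgroup G) [K.Normal]
    {α : Type u} [Finite α] (L : α → Type u) [∀ i, Group (L i)] (hL : ∀ i, ElimFactor 𝕜 p (L i))
    (e : K ≃* ∀ i, L i) (hC : HQ 𝕜 p (centralizer (K : Set G))) : HQ 𝕜 p G := by
  classical
  have hfin : Finite (∀ i, L i) := Finite.of_equiv K e.toEquiv
  have hfinL : ∀ i, Finite (L i) := fun i =>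
    Finite.of_injective (fun x : L i => (Pi.mulSingle i x : ∀ i, L i)) (Pi.mulSingle_injective i)
  have hcen : ∀ i, ∀ x : L i, (∀ y, x * y = y * x) → x = 1 := fun i => (hL i).simple.2
  set ι : (∀ i, L i) →* G := K.subtype.comp e.symm.toMonoidHom with hι
  have hιinj : Function.Injective ι := K.subtype_injective.comp e.symm.injective
  have hιK : ∀ x, ι x ∈ K := fun x => (e.symm x).2
  have hKι : ∀ k ∈ K, ∃ x, ι x = k := fun k hk => ⟨e ⟨k, hk⟩, by
    change ((e.symm (e ⟨k, hk⟩) : K) : G) = k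
    rw [e.symm_apply_apply]⟩
  set Q : α → Subgroup G := fun i => (ι.comp (MonoidHom.mulSingle L i)).range with hQ
  have hsinj : ∀ i, Function.Injective (ι.comp (MonoidHom.mulSingle L i)) := fun i =>
    hιinj.comp (Pi.mulSingle_injective i)
  have eQ : ∀ i, L i ≃* Q i := fun i => MonoidHom.ofInjective (hsinj i)
  have hmem : ∀ {i} {x : G}, x ∈ Q i ↔ ∃ y : L i, ι (Pi.mulSingle i y) = x := fun {i x} => Iff.rfl
  have hQK : ∀ i, Q i ≤ K := by
    rintro i _ ⟨y, rfl⟩
    exact hιK _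
  have hQn : ∀ i, ∀ k ∈ K, ∀ x ∈ Q i, k * x * k⁻¹ ∈ Q i := by
    rintro i k hk _ ⟨y, rfl⟩
    obtain ⟨z, rfl⟩ := hKι k hk
    refine ⟨z i * y * (z i)⁻¹, ?_⟩
    change ι (Pi.mulSingle i (z i * y * (z i)⁻¹)) = ι z * ι (Pi.mulSingle i y) * (ι z)⁻¹
    rw [← conj_single, map_mul, map_mul, map_inv]
  have hQs : ∀ i, IsSimpleGroup (Q i) := fun i => by
    have := (hL i).simple.1
    exact (eQ i).symm.isSimpleGroup
  -- conjugation permutes the factors
  have key : ∀ (g : G) (i : α), ∃ j, cj g (Q i) = Q j := by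
    intro g i
    by_contra hcon
    push Not at hcon
    have hAs : IsSimpleGroup (cj g (Q i)) := by
      have := hQs i
      exact ((Q i).equivMapOfInjective (MulAut.conj g).toMonoidHom
        (MulAut.conj g).injective).symm.isSimpleGroup
    have hAK : cj g (Q i) ≤ K := by
      intro x hx
      rw [mem_cj] at hx
      have h1 := (inferInstance : K.Normal).conj_mem _ (hQK i hx) g
      have e1 : g * (g⁻¹ * x * g) * g⁻¹ = x := by group
      rwa [e1] at h1
    have hAn : ∀ k ∈ K, ∀ x ∈ cj g (Q i), k * x * k⁻¹ ∈ cj g (Q i) := by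
      intro k hk x hx
      rw [mem_cj] at hx ⊢
      have h1 : g⁻¹ * k * g ∈ K := by
        have h2 := (inferInstance : K.Normal).conj_mem k hk g⁻¹
        rwa [inv_inv] at h2
      have h2 := hQn i _ h1 _ hx
      have e1 : g⁻¹ * k * g * (g⁻¹ * x * g) * (g⁻¹ * k * g)⁻¹ = g⁻¹ * (k * x * k⁻¹) * g := by group
      rwa [e1] at h2
    have hbot : ∀ j, cj g (Q i) ⊓ Q j = ⊥ := by
      intro j
      rcases simple_sub hAs (B := cj g (Q i) ⊓ Q j) inf_le_left
        (fun a ha b hb => ⟨hAn a (hAK ha) b hb.1, hQn j a (hAK ha) b hb.2⟩) with h1 | h1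
      · exact h1
      rcases simple_sub (hQs j) (B := cj g (Q i) ⊓ Q j) inf_le_right
        (fun a ha b hb => ⟨hAn a (hQK j ha) b hb.1, hQn j a (hQK j ha) b hb.2⟩) with h2 | h2
      · exact h2
      exact absurd (h1.symm.trans h2) (hcon j)
    obtain ⟨⟨a, haA⟩, ha1'⟩ : ∃ a : cj g (Q i), a ≠ 1 := exists_ne 1
    have ha1 : a ≠ 1 := fun h => ha1' (Subtype.ext h)
    obtain ⟨x, rfl⟩ := hKι a (hAK haA)
    apply ha1
    have hx1 : x = 1 := by
      funext j
      refine hcen j (x j) fun z => ?_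
      have h1 : ι x * ι (Pi.mulSingle j z) * (ι x)⁻¹ * (ι (Pi.mulSingle j z))⁻¹ ∈
          cj g (Q i) ⊓ Q j := by
        have hzQ : ι (Pi.mulSingle j z) ∈ Q j := ⟨z, rfl⟩
        refine ⟨?_, ?_⟩
        · have h2 := hAn _ (hQK j hzQ) _ (inv_mem haA)
          have h3 := mul_mem haA h2
          have e1 : ι x * (ι (Pi.mulSingle j z) * (ι x)⁻¹ * (ι (Pi.mulSingle j z))⁻¹) =
            ι x * ι (Pi.mulSingle j z) * (ι x)⁻¹ * (ι (Pi.mulSingle j z))⁻¹ := by group
          rwa [e1] at h3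
        · exact (Q j).mul_mem (hQn j _ (hAK haA) _ hzQ) ((Q j).inv_mem hzQ)
      rw [hbot j, mem_bot, mul_inv_eq_one, ← map_inv, ← map_mul, ← map_mul, conj_single] at h1
      have h2 := Pi.mulSingle_injective j (hιinj h1)
      rwa [mul_inv_eq_iff_eq_mul] at h2
    rw [hx1, map_one]
  have hF : Family p (Set.range Q) := by
    refine ⟨?_, ?_, ?_, ?_⟩
    · rintro _ ⟨i, rfl⟩ g
      obtain ⟨j, hj⟩ := key g i
      exact ⟨j, hj.symm⟩
    · rintro _ ⟨i, rfl⟩ _ ⟨j, rfl⟩ hne x hx y hy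
      obtain ⟨a, rfl⟩ := hx
      obtain ⟨b, rfl⟩ := hy
      have hij : i ≠ j := fun h => hne (by rw [h])
      change ι (Pi.mulSingle i a) * ι (Pi.mulSingle j b) =
        ι (Pi.mulSingle j b) * ι (Pi.mulSingle i a)
      rw [← map_mul, ← map_mul]
      exact congrArg ι (Pi.mulSingle_commute hij a b)
    · rintro _ ⟨i, rfl⟩
      rw [eq_bot_iff]
      rintro _ ⟨⟨a, rfl⟩, h2⟩
      have h3 : a = 1 := by
        refine hcen i a fun b => ?_
        have h4 := mem_centralizer_iff.1 h2 (ι (Pi.mulSingle i b)) ⟨b, rfl⟩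
        change ι (Pi.mulSingle i b) * ι (Pi.mulSingle i a) =
          ι (Pi.mulSingle i a) * ι (Pi.mulSingle i b) at h4
        rw [← map_mul, ← map_mul, ← Pi.mulSingle_mul, ← Pi.mulSingle_mul] at h4
        exact (Pi.mulSingle_injective i (hιinj h4)).symm
      rw [h3, mem_bot, map_one]
    · rintro _ ⟨i, rfl⟩
      rw [← Nat.card_congr (eQ i).toEquiv]
      exact (hL i).dvd
  have hEF : ∀ M ∈ Set.range Q, ElimFactor 𝕜 p M := by
    rintro _ ⟨i, rfl⟩
    exact (hL i).tr (eQ i)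
  rw [HQ_sub_iff] at hC
  rw [HQ_iff]
  refine remove hF (T := {M | M ∈ Set.range Q ∧ ¬ RigidLie p M}) (fun L hL => hL.1)
    (fun M hM => (hEF M hM.1).removable hM.2) ?_
  refine rigid_step (R := {M | M ∈ Set.range Q ∧ RigidLie p M})
    (fun L hL => hF.le_Cen (fun L hL => hL.1) hL.1 fun hcon => hcon.2 hL.2)
    (fun g _ M hM => ⟨hF.conj M hM.1 g, rigidLie_cj hM.2⟩)
    (fun L hL M hM => hF.comm L hL.1 M hM.1) (fun L hL => hL.2) ?_
  rw [← Cen_union]
  have hCen : Cen ({M | M ∈ Set.range Q ∧ ¬ RigidLie p M} ∪ {M | M ∈ Set.range Q ∧ RigidLie p M}) =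
      centralizer (K : Set G) := by
    ext g
    rw [mem_Cen]
    constructor
    · intro h
      have h1 : ∀ i, g ∈ centralizer (Q i : Set G) := by
        intro i
        refine h (Q i) ?_
        by_cases h2 : RigidLie p (Q i)
        · exact Or.inr ⟨⟨i, rfl⟩, h2⟩
        · exact Or.inl ⟨⟨i, rfl⟩, h2⟩
      rw [mem_centralizer_iff]
      intro k hk
      obtain ⟨x, rfl⟩ := hKι k hk
      -- `g` commutes with all `ι x`
      have h2 : ∀ x, g * ι x * g⁻¹ = ι x := by
        have : Fintype α := Fintype.ofFinite α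
        set ψ : (∀ i, L i) →* G := (MulAut.conj g).toMonoidHom.comp ι with hψ
        have h3 : ψ = ι := by
          refine MonoidHom.pi_ext fun i z => ?_
          change g * ι (Pi.mulSingle i z) * g⁻¹ = ι (Pi.mulSingle i z)
          have h4 := mem_centralizer_iff.1 (h1 i) (ι (Pi.mulSingle i z)) ⟨z, rfl⟩
          rw [← h4, mul_inv_cancel_right]
        intro x
        exact DFunLike.congr_fun h3 x
      have h3 := h2 x
      rw [mul_inv_eq_iff_eq_mul] at h3
      exact h3.symm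
    · rintro h M (⟨⟨i, rfl⟩, -⟩ | ⟨⟨i, rfl⟩, -⟩)
      · exact centralizer_le (hQK i) h
      · exact centralizer_le (hQK i) h
  rw [hCen]
  exact hC

end

end Vale.Agent.P240.H195
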