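import Vale.Agent.P240.H195.CF

/-!
The simple groups whose normal direct products are eliminated.
-/

namespace Vale.Agent.P240.H195

/-- The simple groups `L` whose normal direct products are eliminated: `L` satisfies `RigidLie p`; or
`p` divides the order of `L` and `L` is alternating of degree at least `5`, or `L` is nonabelian simple
and satisfies `AutFree p r` for the characteristic `r ≠ p` of `𝕜`, or `L` is nonabelian simple and has
few outer automorphisms of order `p` and satisfies `AutFree p r` for some prime `r`, or `EuFree p`. -/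
def ElimFactor (𝕜 : Type*) [Field 𝕜] (p : ℕ) (L : Type*) [Group L] : Prop :=
  RigidLie p L ∨ (p ∣ Nat.card L ∧
    ((∃ n : ℕ, 5 ≤ n ∧ Nonempty (L ≃* alternatingGroup (Fin n))) ∨
      (IsSimpleGroup L ∧ (∃ x y : L, x * y ≠ y * x) ∧
        ((∃ r : ℕ, r.Prime ∧ r ≠ p ∧ (r : 𝕜) = 0 ∧ AutFree p r L) ∨
          (FewAut p L ∧ ((∃ r : ℕ, r.Prime ∧ AutFree p r L) ∨ EuFree p L))))))

end Vale.Agent.P240.H195
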