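import Vale.Agent.P240.H195.Cyc
import Vale.Agent.P240.H195.EuDefs

/-!
Euler characteristics of fixed points, and components satisfying `EuSub`.
-/

namespace Vale.Agent.P240.H195

open Subgroup Vale.Agent.P240.K

universe u v

section
variable {G : Type u} [Group G] {p : ℕ}

/-- a central element of order `p` -/
lemma lam_central_zero [Fact p.Prime] [Finite G] {K : Subgroup G} {c a : G} (hc : c ∈ K)
    (hcp : c ^ p = 1) (hc1 : c ≠ 1) (hcomm : ∀ x ∈ K, x * c = c * x) (ha : a ∈ K) :
    lam p K a = 0 := by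
  have hZ : zpowers c ∈ ApS p G := by
    refine ⟨by rwa [Ne, zpowers_eq_bot], ?_, ?_⟩
    · rintro _ ⟨i, rfl⟩ _ ⟨j, rfl⟩
      exact (Commute.refl c).zpow_zpow i j
    · rintro _ ⟨i, rfl⟩
      change (c ^ i) ^ p = 1
      rw [← zpow_natCast, zpow_comm, zpow_natCast, hcp, one_zpow]
  have hZK : zpowers c ≤ K := by rwa [zpowers_le]
  have hZcomm : ∀ x ∈ K, ∀ y ∈ zpowers c, x * y = y * x := by
    rintro x hx _ ⟨i, rfl⟩
    exact (Commute.zpow_right (hcomm x hx) i)
  have haZ : cj a (zpowers c) = zpowers c := by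
    rw [cj_eq_iff]
    exact mem_of_comm (hZcomm a ha)
  set S : Set (Subgroup G) := {E | E ∈ Ain p K ∧ a ∈ normalizer (E : Set G)} with hS
  have hfin : S.Finite := Set.toFinite _
  rw [lam, ← hS, eu_reflect (fun E => E ⊔ zpowers c) S {E | E ∈ S ∧ zpowers c ≤ E} hfin
    (fun E hE => hE.1) ?_ (fun E _ => le_sup_left) (fun E _ F hF hEF => sup_le hEF hF.2)]
  · exact eu_bot (hfin.subset fun E hE => hE.1) (m := zpowers c)
      ⟨⟨⟨hZ, hZK⟩, cj_eq_iff.1 haZ⟩, le_rfl⟩ fun E hE => hE.2
  · intro E hE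
    refine ⟨⟨⟨sup_mem_ApS hE.1.1 hZ fun x hx y hy => hZcomm x (hE.1.2 hx) y hy,
      sup_le hE.1.2 hZK⟩, ?_⟩, le_sup_right⟩
    rw [← cj_eq_iff]
    have h1 : cj a (E ⊔ zpowers c) = cj a E ⊔ cj a (zpowers c) := Subgroup.map_sup _ _ _
    rw [h1, haZ, cj_eq_iff.2 hE.2]

/-- the Euler characteristic vanishes on centralizers of inner elements -/
lemma lam_inner_zero [hp : Fact p.Prime] [Finite G] {L : Subgroup G}
    (hZ : ∀ x ∈ L, x ∈ centralizer (L : Set G) → x = 1) {E : Subgroup G} (hE : ElemAb p E)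
    (hEN : E ≤ normalizer (L : Set G)) {e : G} (he : e ∈ E)
    (heL : e ∈ L ⊔ centralizer (L : Set G)) (heC : e ∉ centralizer (L : Set G)) {a : G}
    (ha : a ∈ L ⊓ centralizer (E : Set G)) :
    lam p (L ⊓ centralizer (E : Set G)) a = 0 := by
  obtain ⟨l, hl, c, hc, rfl⟩ := mem_sup_cent heL
  have hcomm : l * c = c * l := (mem_centralizer_iff.1 hc) l hl
  have hl1 : l ≠ 1 := by
    rintro rfl
    rw [one_mul] at heC
    exact heC hc
  have hlp : l ^ p = 1 := by
    have h1 := hE.2.2 _ he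
    rw [Commute.mul_pow hcomm] at h1
    refine hZ _ (pow_mem hl p) ?_
    have : l ^ p = (c ^ p)⁻¹ := eq_inv_of_mul_eq_one_left h1
    rw [this]
    exact inv_mem (pow_mem hc p)
  have hlE : l ∈ centralizer (E : Set G) := by
    rw [mem_centralizer_iff]
    intro x hx
    have h1 : x * (l * c) = l * c * x := hE.2.1 x hx _ he
    have hxN := hEN hx
    have h2 : x * l * x⁻¹ ∈ L := (mem_normalizer_iff.1 hxN l).1 hl
    have hcN : x * c * x⁻¹ ∈ centralizer (L : Set G) := by
      rw [mem_centralizer_iff]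
      intro y hy
      have h3 : x⁻¹ * y * x ∈ L := by
        have := (mem_normalizer_iff.1 (inv_mem hxN) y).1 hy
        rwa [inv_inv] at this
      have h4 := (mem_centralizer_iff.1 hc) _ h3
      calc y * (x * c * x⁻¹) = x * ((x⁻¹ * y * x) * c) * x⁻¹ := by group
        _ = x * (c * (x⁻¹ * y * x)) * x⁻¹ := by rw [h4]
        _ = x * c * x⁻¹ * y := by group
    have h3 : l⁻¹ * (x * l * x⁻¹) = 1 := by
      refine hZ _ (mul_mem (inv_mem hl) h2) ?_
      have : l⁻¹ * (x * l * x⁻¹) = c * (x * c * x⁻¹)⁻¹ := by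
        have h4 : (x * l * x⁻¹) * (x * c * x⁻¹) = l * c := by
          have : (x * l * x⁻¹) * (x * c * x⁻¹) = x * (l * c) * x⁻¹ := by group
          rw [this, h1]
          group
        rw [eq_mul_inv_iff_mul_eq, mul_assoc, h4]
        group
      rw [this]
      exact mul_mem hc (inv_mem hcN)
    rw [inv_mul_eq_one] at h3
    calc x * l = x * l * x⁻¹ * x := by group
      _ = l * x := by rw [← h3]
  refine lam_central_zero (mem_inf.2 ⟨hl, hlE⟩) hlp hl1 (fun y hy => ?_) ha
  have h1 : l * c * y = y * (l * c) := (mem_centralizer_iff.1 hy.2) _ he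
  have h2 : y * c = c * y := (mem_centralizer_iff.1 hc) y hy.1
  have h4 : y * l * c = l * y * c := by
    calc y * l * c = y * (l * c) := by group
      _ = l * c * y := h1.symm
      _ = l * (c * y) := by group
      _ = l * y * c := by rw [← h2]; group
  exact mul_right_cancel h4

/-- Euler characteristics in subgroups -/
lemma lam_sub [Finite G] {L : Subgroup G} (s : L) : lam p (⊤ : Subgroup L) s = lam p L (s : G) := by
  have h : (fun E : Subgroup L => E.map L.subtype) ''
      {E | E ∈ Ain p (⊤ : Subgroup L) ∧ s ∈ normalizer (E : Set L)} =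
      {E | E ∈ Ain p L ∧ (s : G) ∈ normalizer (E : Set G)} := by
    have key : ∀ F : Subgroup L, s ∈ normalizer (F : Set L) ↔
        (s : G) ∈ normalizer ((F.map L.subtype : Subgroup G) : Set G) := by
      intro F
      rw [mem_normalizer_iff, mem_normalizer_iff]
      constructor
      · intro h x
        constructor
        · rintro ⟨y, hy, rfl⟩
          exact ⟨s * y * s⁻¹, (h y).1 hy, rfl⟩
        · rintro ⟨y, hy, hyx⟩
          have hx : x ∈ L := by
            have h1 : x = (s : G)⁻¹ * (s * x * (s : G)⁻¹) * s := by group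
            rw [h1, ← hyx]
            exact mul_mem (mul_mem (inv_mem s.2) y.2) s.2
          have h2 : y = s * ⟨x, hx⟩ * s⁻¹ := Subtype.ext hyx
          rw [h2] at hy
          exact ⟨⟨x, hx⟩, (h _).2 hy, rfl⟩
      · intro h x
        constructor
        · intro hx
          obtain ⟨y, hy, hyx⟩ := (h x).1 ⟨x, hx, rfl⟩
          have h2 : y = s * x * s⁻¹ := Subtype.ext hyx
          rwa [h2] at hy
        · intro hx
          obtain ⟨y, hy, hyx⟩ := (h x).2 ⟨_, hx, rfl⟩
          have h2 : y = x := Subtype.ext hyx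
          rwa [h2] at hy
    ext E
    constructor
    · rintro ⟨F, ⟨⟨hF, -⟩, hs⟩, rfl⟩
      exact ⟨⟨(map_mem_ApS (f := L.subtype) L.subtype_injective).2 hF,
        Subgroup.map_subtype_le F⟩, (key F).1 hs⟩
    · rintro ⟨⟨hE, h4⟩, hs⟩
      have h5 := Subgroup.map_subgroupOf_eq_of_le h4
      refine ⟨E.subgroupOf L, ⟨⟨?_, le_top⟩, ?_⟩, h5⟩
      · rw [← map_mem_ApS (f := L.subtype) L.subtype_injective, h5]
        exact hE
      · rw [key, h5]
        exact hs
  rw [lam, lam, ← h, eu_emb (Subgroup.map_injective L.subtype_injective)]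
  intro x y
  rw [lt_iff_le_not_ge, lt_iff_le_not_ge, Subgroup.map_le_map_iff_of_injective L.subtype_injective,
    Subgroup.map_le_map_iff_of_injective L.subtype_injective]

theorem EuFree.sub [Finite G] {L : Subgroup G} (h : EuFree p L) : EuSub p L := by
  obtain ⟨s, hs, hf⟩ := h
  refine ⟨s, s.2, ?_, fun x hx hxp hxo hxs => ?_⟩
  · rw [eulerFix_eq, ← lam_sub, ← eulerFix_eq]
    exact hs
  · refine hf (L.normalizerMonoidHom ⟨x, hx⟩) ?_ ?_ ?_
    · rw [← map_pow]
      have : (⟨x, hx⟩ : normalizer (L : Set G)) ^ p = 1 := Subtype.ext hxp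
      rw [this, map_one]
    · rintro ⟨y, hy⟩
      apply hxo
      have h1 : (y : G)⁻¹ * x ∈ centralizer (L : Set G) := by
        rw [mem_centralizer_iff]
        intro z hz
        have h2 := congrArg (fun f : MulAut L => ((f ⟨z, hz⟩ : L) : G)) hy
        change (y : G) * z * (y : G)⁻¹ = x * z * x⁻¹ at h2
        have h3 : z = (y : G)⁻¹ * (x * z * x⁻¹) * y := by rw [← h2]; group
        calc z * ((y : G)⁻¹ * x) = (y : G)⁻¹ * (x * z * x⁻¹) * y * ((y : G)⁻¹ * x) := by
              rw [← h3]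
          _ = _ := by group
      have h2 : x = (y : G) * ((y : G)⁻¹ * x) := by group
      rw [h2]
      exact mul_mem (mem_sup_left y.2) (mem_sup_right h1)
    · apply Subtype.ext
      change x * s * x⁻¹ = s
      rw [hxs, mul_inv_cancel_right]

end

end Vale.Agent.P240.H195
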