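import Vale.Agent.P240.H195.CycMain
import Vale.Agent.P240.H195.Eu1

/-!
The main theorem with components satisfying `EuSub`.
-/

namespace Vale.Agent.P240.H195

open Subgroup Vale.Agent.P240.K Finsupp

universe u v

section
variable {G : Type u} [Group G] {p : ℕ}

theorem EuFree.congr {L L' : Type*} [Group L] [Group L'] [Finite L] (e : L ≃* L')
    (h : EuFree p L) : EuFree p L' := by
  obtain ⟨s, hs, hf⟩ := h
  have hfin' : Finite L' := Finite.of_equiv L e.toEquiv
  refine ⟨e s, ?_, fun f hfp hfo hfs => ?_⟩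
  · rw [eulerFix_eq] at hs ⊢
    have key : ∀ F : Subgroup L, s ∈ normalizer (F : Set L) ↔
        e s ∈ normalizer ((F.map e.toMonoidHom : Subgroup L') : Set L') := by
      intro F
      rw [mem_normalizer_iff, mem_normalizer_iff]
      constructor
      · intro h x
        obtain ⟨x, rfl⟩ := e.surjective x
        rw [← map_inv, ← map_mul, ← map_mul]
        have h1 : ∀ y, e y ∈ F.map e.toMonoidHom ↔ y ∈ F := fun y =>
          ⟨fun ⟨z, hz, hzy⟩ => by rwa [← e.injective hzy], fun hy => ⟨y, hy, rfl⟩⟩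
        rw [h1, h1]
        exact h x
      · intro h x
        have h1 : ∀ y, e y ∈ F.map e.toMonoidHom ↔ y ∈ F := fun y =>
          ⟨fun ⟨z, hz, hzy⟩ => by rwa [← e.injective hzy], fun hy => ⟨y, hy, rfl⟩⟩
        have h2 := h (e x)
        rwa [← map_inv, ← map_mul, ← map_mul, h1, h1] at h2
    have h : (fun E : Subgroup L => E.map e.toMonoidHom) ''
        {E | E ∈ Ain p (⊤ : Subgroup L) ∧ s ∈ normalizer (E : Set L)} =
        {E | E ∈ Ain p (⊤ : Subgroup L') ∧ e s ∈ normalizer (E : Set L')} := by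
      ext E
      constructor
      · rintro ⟨F, ⟨⟨hF, -⟩, hs⟩, rfl⟩
        exact ⟨⟨(map_mem_ApS (f := e.toMonoidHom) e.injective).2 hF, le_top⟩, (key F).1 hs⟩
      · rintro ⟨⟨hE, -⟩, hs⟩
        have h5 : (E.map e.symm.toMonoidHom).map e.toMonoidHom = E := by
          rw [Subgroup.map_map]
          have : e.toMonoidHom.comp e.symm.toMonoidHom = MonoidHom.id L' := by
            ext x
            simp
          rw [this, Subgroup.map_id]
        refine ⟨E.map e.symm.toMonoidHom, ⟨⟨(map_mem_ApS (f := e.symm.toMonoidHom)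
          e.symm.injective).2 hE, le_top⟩, ?_⟩, h5⟩
        rw [key, h5]
        exact hs
    rw [lam, ← h, eu_emb (Subgroup.map_injective e.injective)]
    · exact hs
    intro x y
    rw [lt_iff_le_not_ge, lt_iff_le_not_ge, Subgroup.map_le_map_iff_of_injective e.injective,
      Subgroup.map_le_map_iff_of_injective e.injective]
  · refine hf ((MulAut.congr e.symm) f) ?_ ?_ ?_
    · rw [← map_pow, hfp, map_one]
    · rintro ⟨y, hy⟩
      refine hfo ⟨e y, ?_⟩
      apply (MulAut.congr e.symm).injective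
      rw [← hy]
      ext z
      simp
    · simp [hfs]

/-- the condition on outer elements -/
def UB (p : ℕ) (L : Subgroup G) (s : G) : Prop :=
  s ∈ L ∧ ∀ x ∈ normalizer (L : Set G), x ^ p = 1 → x ∉ L ⊔ centralizer (L : Set G) →
    x * s ≠ s * x

/-- the good elements: all of them have Euler characteristics of the same sign -/
def gdU (p : ℕ) (L : Subgroup G) : Set G :=
  {s | s ≠ 1 ∧ UB p L s ∧
    (0 < lam p L s ∨ (lam p L s < 0 ∧ ∀ s', s' ≠ 1 → UB p L s' → lam p L s' ≤ 0))}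

lemma cj_inv_cj (g : G) (L : Subgroup G) : cj g⁻¹ (cj g L) = L := by
  rw [← cj_mul, inv_mul_cancel, cj_one]

lemma UB_cj {L : Subgroup G} {g x : G} : UB p (cj g L) x ↔ UB p L (g⁻¹ * x * g) := by
  have key : ∀ (L : Subgroup G) (g x : G), UB p L x → UB p (cj g L) (g * x * g⁻¹) := by
    intro L g x ⟨h1, h2⟩
    refine ⟨cj_mul_mem h1, fun y hy hyp hyo hyx => ?_⟩
    refine h2 (g⁻¹ * y * g) (H148.mem_normalizer_cj.1 hy) ?_ ?_ ?_
    · have e1 : g⁻¹ * y * g = g⁻¹ * y * (g⁻¹)⁻¹ := by rw [inv_inv]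
      rw [e1, conj_pow, hyp]
      group
    · intro h3
      apply hyo
      have h4 : cj g (L ⊔ centralizer (L : Set G)) =
          cj g L ⊔ centralizer ((cj g L : Subgroup G) : Set G) := by
        have h5 : cj g (centralizer (L : Set G)) = centralizer ((cj g L : Subgroup G) : Set G) := by
          ext z
          rw [mem_cj, H148.mem_centralizer_cj]
        rw [← h5]
        exact Subgroup.map_sup _ _ _
      rw [← h4, mem_cj]
      exact h3
    · have e1 : g⁻¹ * y * g * x = g⁻¹ * (y * (g * x * g⁻¹)) * g := by group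
      have e2 : x * (g⁻¹ * y * g) = g⁻¹ * (g * x * g⁻¹ * y) * g := by group
      rw [e1, e2, hyx]
  constructor
  · intro h
    have h1 := key _ g⁻¹ x h
    rwa [cj_inv_cj, inv_inv] at h1
  · intro h
    have h1 := key L g _ h
    have e1 : g * (g⁻¹ * x * g) * g⁻¹ = x := by group
    rwa [e1] at h1

lemma lam_cj' {L : Subgroup G} (g x : G) : lam p (cj g L) x = lam p L (g⁻¹ * x * g) := by
  have h := lam_conj (p := p) g (g⁻¹ * x * g) L
  have e1 : g * (g⁻¹ * x * g) * g⁻¹ = x := by group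
  rwa [e1] at h

lemma conj_ne_one {g x : G} (h : x ≠ 1) : g * x * g⁻¹ ≠ 1 := by
  intro h1
  apply h
  have e1 : x = g⁻¹ * (g * x * g⁻¹) * g := by group
  rw [e1, h1]
  group

lemma gdU_cj {L : Subgroup G} {g x : G} : x ∈ gdU p (cj g L) ↔ g⁻¹ * x * g ∈ gdU p L := by
  unfold gdU
  rw [Set.mem_ofPred_eq, Set.mem_ofPred_eq, UB_cj, lam_cj']
  refine and_congr ?_ (and_congr_right fun _ => or_congr_right (and_congr_right fun _ => ?_))
  · constructor
    · intro h
      have h1 := conj_ne_one (g := g⁻¹) h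
      rwa [inv_inv] at h1
    · intro h h1
      apply h
      rw [h1]
      group
  constructor
  · intro h s hs1 hs
    have h1 := h (g * s * g⁻¹) (conj_ne_one hs1) (by
      rw [UB_cj]
      have e1 : g⁻¹ * (g * s * g⁻¹) * g = s := by group
      rwa [e1])
    rw [lam_cj'] at h1
    have e1 : g⁻¹ * (g * s * g⁻¹) * g = s := by group
    rwa [e1] at h1
  · intro h s hs1 hs
    rw [lam_cj']
    have h2 := conj_ne_one (g := g⁻¹) hs1
    rw [inv_inv] at h2
    exact h _ h2 (UB_cj.1 hs)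

lemma EuSub.nonempty [hp : Fact p.Prime] [Finite G] {L : Subgroup G} (hd : p ∣ Nat.card L)
    (h : EuSub p L) : (gdU p L).Nonempty := by
  classical
  obtain ⟨s, hs, h1, h2⟩ := h
  rw [eulerFix_eq] at h1
  have h0 : ∃ s, s ≠ 1 ∧ UB p L s ∧ lam p L s ≠ 0 := by
    by_cases hs1 : s = 1
    · subst hs1
      by_contra hcon
      push Not at hcon
      have hUB : ∀ x ∈ L, UB p L x := fun x hx => ⟨hx, fun y hy hyp hyo => by
        exact absurd (by rw [mul_one, one_mul]) (h2 y hy hyp hyo)⟩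
      have hw := webb (p := p) L hd
      have hmem1 : (1 : G) ∈ (Set.toFinite (L : Set G)).toFinset := by
        rw [Set.Finite.mem_toFinset]
        exact L.one_mem
      rw [← Finset.add_sum_erase _ _ hmem1] at hw
      apply h1
      rw [← hw, left_eq_add]
      refine Finset.sum_eq_zero fun x hx => ?_
      rw [Finset.mem_erase, Set.Finite.mem_toFinset] at hx
      exact hcon x hx.1 (hUB x hx.2)
    · exact ⟨s, hs1, ⟨hs, h2⟩, h1⟩
  obtain ⟨s, hs1, hUs, hls⟩ := h0
  by_cases h3 : ∃ s', s' ≠ 1 ∧ UB p L s' ∧ 0 < lam p L s'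
  · obtain ⟨s', h4, h5, h6⟩ := h3
    exact ⟨s', h4, h5, Or.inl h6⟩
  · push Not at h3
    exact ⟨s, hs1, hUs, Or.inr ⟨lt_of_le_of_ne (h3 s hs1 hUs) hls, h3⟩⟩

theorem EuSub.cj [Finite G] {L : Subgroup G} (h : EuSub p L) (g : G) : EuSub p (cj g L) := by
  obtain ⟨s, hs, h1, h2⟩ := h
  have h3 : UB p (K.cj g L) (g * s * g⁻¹) := by
    rw [UB_cj]
    have e1 : g⁻¹ * (g * s * g⁻¹) * g = s := by group
    rw [e1]
    exact ⟨hs, h2⟩
  refine ⟨g * s * g⁻¹, h3.1, ?_, h3.2⟩
  rw [eulerFix_eq] at h1 ⊢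
  rw [lam_conj]
  exact h1

theorem CycSub.euSub [Fact p.Prime] [Finite G] {L : Subgroup G}
    (hc : L ⊓ centralizer (L : Set G) = ⊥) (h : CycSub p L) : EuSub p L := by
  obtain ⟨s, hs, hsE⟩ := h
  refine ⟨s, hs, ?_, fun x hx hxp hxo hxs => ?_⟩
  · have h0 : {E | E ∈ Ain p L ∧ s ∈ normalizer (E : Set G)} = ∅ := by
      ext E
      simp only [Set.mem_ofPred_eq, Set.mem_empty_iff_false, iff_false]
      rintro ⟨⟨h1, h2⟩, h3⟩
      have h4 := hsE E h1 (h2.trans le_normalizer) h3
      exact h1.1 (le_bot_iff.1 (hc ▸ le_inf h2 h4))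
    rw [eulerFix_eq, lam, h0, eu_empty]
    exact one_ne_zero
  · have hx1 : x ≠ 1 := by
      rintro rfl
      exact hxo (one_mem _)
    have hE : ElemAb p (zpowers x) := by
      refine ⟨by rwa [Ne, zpowers_eq_bot], ?_, ?_⟩
      · rintro _ ⟨i, rfl⟩ _ ⟨j, rfl⟩
        exact (Commute.refl x).zpow_zpow i j
      · rintro _ ⟨i, rfl⟩
        change (x ^ i) ^ p = 1
        rw [← zpow_natCast, zpow_comm, zpow_natCast, hxp, one_zpow]
    have h1 := hsE _ hE (by rwa [zpowers_le]) (mem_of_comm (by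
      rintro _ ⟨i, rfl⟩
      exact Commute.zpow_right (show Commute s x from hxs.symm) i))
    exact hxo (mem_sup_right (h1 (mem_zpowers x)))

/-- `EuSub` components: the `l`-adic condition for the good elements -/
lemma eu_adic [Fact p.Prime] [Finite G] {l : ℕ} (hl : l.Prime) {S : Set G}
    {L : Subgroup G} (hd : p ∣ Nat.card L) (hc : L ⊓ centralizer (L : Set G) = ⊥) (h : EuSub p L)
    (hS : ∀ x ∈ L, (x ∈ S ↔ x ∈ gdU p L))
    (hmove : ∀ h : G, h ^ p = 1 → h ∉ normalizer (L : Set G) → ∀ s ∈ S, s ∈ L → h * s * h⁻¹ ∈ S) :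
    AdicGood p l S L := by
  classical
  obtain ⟨s, hs1, hUs, hls⟩ := h.nonempty hd
  have hterm : ∀ a : G, (if a ∈ S then (1 : ℤ) else 0) * lam p L a =
      if a ∈ S then lam p L a else 0 := by
    intro a
    split_ifs <;> simp
  have hsL : s ∈ (Set.toFinite (L : Set G)).toFinset := by
    rw [Set.Finite.mem_toFinset]
    exact hUs.1
  have hsS : s ∈ S := (hS s hUs.1).2 ⟨hs1, hUs, hls⟩
  have hw : wsum p S L ≠ 0 := by
    rw [wsum_eq, Finset.sum_congr rfl fun a _ => hterm a]
    rcases hls with hpos | ⟨hneg, hall⟩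
    · refine (Finset.sum_pos' (fun a ha => ?_) ⟨s, hsL, by rwa [if_pos hsS]⟩).ne'
      rw [Set.Finite.mem_toFinset] at ha
      by_cases haS : a ∈ S
      · rw [if_pos haS]
        obtain ⟨-, -, h1 | ⟨-, h1⟩⟩ := (hS a ha).1 haS
        · exact h1.le
        · exact absurd (h1 s hs1 hUs) (not_le.2 hpos)
      · rw [if_neg haS]
    · refine (Finset.sum_neg' (fun a ha => ?_) ⟨s, hsL, by rwa [if_pos hsS]⟩).ne
      rw [Set.Finite.mem_toFinset] at ha
      by_cases haS : a ∈ S
      · rw [if_pos haS]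
        obtain ⟨ha1, hUa, -⟩ := (hS a ha).1 haS
        exact hall a ha1 hUa
      · rw [if_neg haS]
  refine ⟨hmove, fun g hg x hx hxL => ?_, (wsum p S L).natAbs, ?_, ?_⟩
  · rw [hS _ (mul_mem (mul_mem hg hxL) (inv_mem hg))]
    have h1 : K.cj g L = L := cj_eq_iff.2 (le_normalizer hg)
    rw [← h1, gdU_cj]
    have e : g⁻¹ * (g * x * g⁻¹) * g = x := by group
    rw [e]
    exact (hS x hxL).1 hx
  · intro hdvd
    have h1 : (l ^ ((wsum p S L).natAbs + 1)) ∣ (wsum p S L).natAbs := by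
      have h2 := Int.natAbs_dvd_natAbs.2 hdvd
      rwa [Int.natAbs_pow, Int.natAbs_natCast] at h2
    have h2 := Nat.le_of_dvd (Int.natAbs_pos.2 hw) h1
    have h3 : (wsum p S L).natAbs < l ^ ((wsum p S L).natAbs + 1) :=
      lt_of_lt_of_le (Nat.lt_pow_self hl.one_lt) (Nat.pow_le_pow_right hl.pos (Nat.le_succ _))
    omega
  · intro E hEN hE hEC
    have h0 : wsum p S (L ⊓ centralizer (E : Set G)) = 0 := by
      rw [wsum_eq]
      refine Finset.sum_eq_zero fun a ha => ?_
      rw [Set.Finite.mem_toFinset] at ha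
      obtain ⟨haL, haE⟩ := mem_inf.1 ha
      by_cases hin : ∃ e ∈ E, e ∈ L ⊔ centralizer (L : Set G) ∧ e ∉ centralizer (L : Set G)
      · obtain ⟨e, he, heL, heC⟩ := hin
        rw [lam_inner_zero (fun x hx hxC => ?_) hE hEN he heL heC ha, mul_zero]
        have h1 : x ∈ L ⊓ centralizer (L : Set G) := ⟨hx, hxC⟩
        rwa [hc, Subgroup.mem_bot] at h1
      · push Not at hin
        obtain ⟨x, hx, hxC⟩ := SetLike.not_le_iff_exists.1 hEC
        rw [if_neg, zero_mul]
        intro haS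
        refine ((hS a haL).1 haS).2.1.2 x (hEN hx) (hE.2.2 x hx) (fun hcon => hxC (hin x hx hcon)) ?_
        exact (mem_centralizer_iff.1 haE) x hx
    rw [h0, mul_zero]
    exact dvd_zero _

end

end Vale.Agent.P240.H195
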