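import Vale.Agent.P240.H195.Eu2

/-!
The main theorem with components satisfying `EuSub`.
-/

namespace Vale.Agent.P240.H195

open Subgroup Vale.Agent.P240.K Finsupp

universe u v

section
variable {G : Type u} [Group G] {p : ℕ}

/-- nonvanishing Lefschetz numbers imply nonvanishing homology -/
theorem NA_of_lam {𝕜 : Type v} [Field 𝕜] [Finite G] {K : Subgroup G} {s : G}
    (hs : s ∈ normalizer (K : Set G)) (h : lam p K s ≠ 0) : NA 𝕜 (Ain p K) := by
  have hS : (Ain p K).Finite := Set.toFinite _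
  refine NA_of_rat hS ?_
  by_contra hac
  apply h
  have h1 := lefschetz (S := Ain p K) (σ := cj s) (fun E hE => ⟨cj_mem_ApS.2 hE.1, by
    have h2 : cj s K = K := cj_eq_iff.2 hs
    rw [← h2]
    exact cj_le.2 hE.2⟩) (fun x _ y _ h => cj_lt.2 h) hS hac (Nat.lt_succ_self _)
  have h2 : {E | E ∈ Ain p K ∧ cj s E = E} = {E | E ∈ Ain p K ∧ s ∈ normalizer (E : Set G)} := by
    ext E
    exact and_congr_right fun _ => cj_eq_iff
  rw [h2, eu_eq (Set.toFinite _)] at h1
  · exact h1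
  · rw [← Nat.card_eq_card_finite_toFinset hS]
    exact (Nat.card_mono hS fun E hE => hE.1).trans (Nat.le_succ _)

/-- Euler characteristics in images -/
lemma lam_range {L : Type*} [Group L] {M : Type*} [Group M] {f : L →* M}
    (hf : Function.Injective f) (s : L) : lam p f.range (f s) = lam p (⊤ : Subgroup L) s := by
  have h : (fun E : Subgroup L => E.map f) ''
      {E | E ∈ Ain p (⊤ : Subgroup L) ∧ s ∈ normalizer (E : Set L)} =
      {E | E ∈ Ain p f.range ∧ f s ∈ normalizer (E : Set M)} := by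
    have hmem : ∀ (F : Subgroup L) (y : L), f y ∈ F.map f ↔ y ∈ F := fun F y =>
      ⟨fun ⟨z, hz, hzy⟩ => by rwa [← hf hzy], fun hy => ⟨y, hy, rfl⟩⟩
    have key : ∀ F : Subgroup L, s ∈ normalizer (F : Set L) ↔
        f s ∈ normalizer ((F.map f : Subgroup M) : Set M) := by
      intro F
      rw [mem_normalizer_iff, mem_normalizer_iff]
      constructor
      · intro h x
        constructor
        · rintro ⟨y, hy, rfl⟩
          exact ⟨s * y * s⁻¹, (h y).1 hy, by rw [map_mul, map_mul, map_inv]⟩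
        · rintro ⟨y, hy, hyx⟩
          have hx : x = f (s⁻¹ * y * s) := by
            rw [map_mul, map_mul, map_inv, hyx]
            group
          rw [hx, hmem, h]
          have e : s * (s⁻¹ * y * s) * s⁻¹ = y := by group
          rwa [e]
      · intro h x
        have h2 := h (f x)
        rwa [← map_inv, ← map_mul, ← map_mul, hmem, hmem] at h2
    ext E
    constructor
    · rintro ⟨F, ⟨⟨hF, -⟩, hs⟩, rfl⟩
      exact ⟨⟨(map_mem_ApS hf).2 hF, Subgroup.map_le_range f F⟩, (key F).1 hs⟩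
    · rintro ⟨⟨hE, h4⟩, hs⟩
      have h5 := Subgroup.map_comap_eq_self h4
      refine ⟨E.comap f, ⟨⟨?_, le_top⟩, ?_⟩, h5⟩
      · rw [← map_mem_ApS hf, h5]
        exact hE
      · rw [key, h5]
        exact hs
  rw [lam, lam, ← h, eu_emb (Subgroup.map_injective hf)]
  intro x y
  rw [lt_iff_le_not_ge, lt_iff_le_not_ge, Subgroup.map_le_map_iff_of_injective hf,
    Subgroup.map_le_map_iff_of_injective hf]

/-- almost simple groups -/
theorem EuFree.hq {𝕜 : Type v} [Field 𝕜] [hp : Fact p.Prime] {L : Type u} [Group L] [Finite L]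
    (h : EuFree p L) (hc : ∀ x : L, (∀ y, x * y = y * x) → x = 1) (A : Subgroup (MulAut L))
    (hA : ∀ x, MulAut.conj x ∈ A) : K.HQ 𝕜 p A := by
  obtain ⟨s, hs, hf⟩ := h
  have hinj : Function.Injective (MulAut.conj : L →* MulAut L) := by
    rw [injective_iff_map_eq_one]
    intro x hx
    refine hc x fun y => ?_
    have h1 := congrArg (fun f : MulAut L => f y) hx
    change x * y * x⁻¹ = y at h1
    rw [← eq_mul_inv_iff_mul_eq, inv_inv] at h1
    exact h1
  rw [HQ_sub_iff]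
  refine NA_of_lam (s := MulAut.conj s) (le_normalizer (hA s)) ?_
  rw [eulerFix_eq, ← lam_range hinj] at hs
  have h1 : lam p A (MulAut.conj s) = lam p (MulAut.conj (G := L)).range (MulAut.conj s) := by
    rw [lam, lam]
    refine eu_coreflect (fun E => E ⊓ (MulAut.conj (G := L)).range) _ _ _ (Set.toFinite _) rfl
      ?_ ?_ (fun E _ => inf_le_left) (fun E _ F hF hFE => le_inf hFE hF.1.2)
    · rintro E ⟨⟨h1, h2⟩, h3⟩
      refine ⟨⟨h1, h2.trans ?_⟩, h3⟩
      rintro _ ⟨x, rfl⟩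
      exact hA x
    · rintro E ⟨⟨h1, h2⟩, h3⟩
      have hn : MulAut.conj s ∈ normalizer ((MulAut.conj (G := L)).range : Set (MulAut L)) :=
        le_normalizer ⟨s, rfl⟩
      refine ⟨⟨⟨?_, fun x hx y hy => h1.2.1 x hx.1 y hy.1, fun x hx => h1.2.2 x hx.1⟩,
        inf_le_right⟩, w2_conj h3 ⟨s, rfl⟩⟩
      intro hbot
      obtain ⟨f, hf1'⟩ := Subgroup.ne_bot_iff_exists_ne_one.1 h1.1
      have hfE : (f : MulAut L) ∈ E := f.2
      have hf1 : (f : MulAut L) ≠ 1 := fun h => hf1' (Subtype.ext h)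
      have hfo : (f : MulAut L) ∉ (MulAut.conj (G := L)).range := by
        intro hcon
        have h4 : (f : MulAut L) ∈ E ⊓ (MulAut.conj (G := L)).range := ⟨hfE, hcon⟩
        rw [hbot, Subgroup.mem_bot] at h4
        exact hf1 h4
      refine hf f (h1.2.2 f hfE) hfo ?_
      have h4 : (f : MulAut L) * (MulAut.conj s * (f : MulAut L)⁻¹ * (MulAut.conj s)⁻¹) ∈ E :=
        mul_mem hfE ((mem_normalizer_iff.1 h3 _).1 (inv_mem hfE))
      have h5 : (f : MulAut L) * (MulAut.conj s * (f : MulAut L)⁻¹ * (MulAut.conj s)⁻¹) =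
          MulAut.conj ((f : MulAut L) s * s⁻¹) := by
        ext z
        simp [mul_assoc]
      have h6 : MulAut.conj ((f : MulAut L) s * s⁻¹) ∈ E ⊓ (MulAut.conj (G := L)).range := by
        refine ⟨?_, ⟨_, rfl⟩⟩
        rw [← h5]
        exact h4
      rw [hbot, Subgroup.mem_bot, ← map_one (MulAut.conj (G := L))] at h6
      exact mul_inv_eq_one.1 (hinj h6)
  rw [h1]
  exact hs

/-- **The main theorem** for groups with `O_p(G) = O_{p'}(G) = 1`. -/
theorem all_eu {𝕜 : Type v} [Field 𝕜] [hp : Fact p.Prime] [Finite G] {l : ℕ}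
    (hO : OpTrivial p G) (hO' : OpPrimeTrivial p G) (hl : l.Prime)
    (h : ∀ L ∈ Q.Comp G, RigidLie p L ∨ Treated 𝕜 p l L ∨ EuSub p L) : K.HQ 𝕜 p G := by
  classical
  have hlF : Fact l.Prime := ⟨hl⟩
  have hF := comp_family hO hO'
  rw [HQ_iff]
  set R : Set (Subgroup G) := {L | L ∈ Q.Comp G ∧ RigidLie p L} with hR
  set D : Set (Subgroup G) := {L | L ∈ Q.Comp G ∧ ¬ RigidLie p L ∧
    ((AO p l L ∨ FreeSub p l L) ∨ EuSub p L)} with hD
  set T : Set (Subgroup G) := {L | L ∈ Q.Comp G ∧ ¬ RigidLie p L ∧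
    ¬ ((AO p l L ∨ FreeSub p l L) ∨ EuSub p L)} with hT
  have hAF : ∀ (L : Subgroup G) (g : G), (AO p l L ∨ FreeSub p l L) →
      (AO p l (cj g L) ∨ FreeSub p l (cj g L)) := by
    rintro L g (h3 | h3)
    · exact Or.inl (h3.cj g)
    · exact Or.inr (H148.freeSub_cj h3 g)
  have hAFi : ∀ (L : Subgroup G) (g : G), (AO p l (cj g L) ∨ FreeSub p l (cj g L)) →
      (AO p l L ∨ FreeSub p l L) := by
    intro L g h3
    have h1 := hAF _ g⁻¹ h3
    rwa [← cj_mul, inv_mul_cancel, cj_one] at h1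
  have hRc : ∀ g : G, ∀ L ∈ R, cj g L ∈ R := fun g L hL =>
    ⟨hF.conj L hL.1 g, rigidLie_cj hL.2⟩
  have hDc : ∀ L ∈ D, ∀ g : G, L.map (MulAut.conj g).toMonoidHom ∈ D := by
    rintro L ⟨h1, h2, h3⟩ g
    refine ⟨hF.conj L h1 g, fun hcon => h2 (rigidLie_cj_iff.1 hcon), ?_⟩
    rcases h3 with h3 | h3
    · exact Or.inl (hAF L g h3)
    · exact Or.inr (h3.cj g)
  have hrem : ∀ L ∈ T, Removable 𝕜 p L := by
    rintro L ⟨hL, h1, h2⟩
    rcases (h L hL).resolve_left h1 with (h3 | ⟨h3, h4⟩ | ⟨r, hr, hrp, h3, h4⟩ | ⟨h3, h4⟩ | h3 | h3) | h3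
    · exact removable_alt h3
    · rcases h4 with h4 | ⟨h4, h5⟩
      · exact Or.inl ⟨fewOuter_of_same h4, almostSimpleHQ_char h3 hp.out h4⟩
      · exact absurd (Or.inl (Or.inl (ao_char hl h4 h3 h5))) h2
    · have hfree : AutFree p r L := h3.autFree hr hp.out hrp.symm
      rcases h4 with h4 | h4 | h4
      · subst h4
        exact absurd (Or.inl (Or.inr hfree.freeSub)) h2
      · exact Or.inr ⟨r, hr, hrp, h4, hfree.freeSub⟩
      · exact Or.inl ⟨h4, hfree.almostSimpleHQ hr⟩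
    · rcases h4 with ⟨r, hr, h4⟩ | h4
      · exact Or.inl ⟨h3, h4.almostSimpleHQ hr⟩
      · exact Or.inl ⟨h3, h4⟩
    · exact absurd (Or.inl (Or.inr h3)) h2
    · exact Or.inr h3
    · exact absurd (Or.inr h3) h2
  -- the set of elements
  set S : Set G := {x | x ≠ 1 ∧ ∃ L ∈ D, x ∈ L ∧ ((AO p l L ∨ FreeSub p l L) ∨ x ∈ gdU p L)} with hS
  have hdisj : ∀ L ∈ D, ∀ M ∈ D, L ≠ M → ∀ x ∈ L, x ∈ M → x = 1 := by
    intro L hL M hM hne x hxL hxM
    have h1 : x ∈ L ⊓ centralizer (L : Set G) := by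
      refine ⟨hxL, mem_centralizer_iff.2 fun y hy => ?_⟩
      exact hF.comm L hL.1 M hM.1 hne y hy x hxM
    rw [hF.centre L hL.1] at h1
    exact h1
  have hScj : ∀ (g : G), ∀ x ∈ S, g * x * g⁻¹ ∈ S := by
    rintro g x ⟨hx1, L, hL, hxL, hx⟩
    refine ⟨fun h1 => hx1 ?_, cj g L, hDc L hL g, cj_mul_mem hxL, ?_⟩
    · have e : x = g⁻¹ * (g * x * g⁻¹) * g := by group
      rw [e, h1]
      group
    · rcases hx with hx | hx
      · exact Or.inl (hAF L g hx)
      · refine Or.inr (gdU_cj.2 ?_)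
        have e : g⁻¹ * (g * x * g⁻¹) * g = x := by group
        rwa [e]
  refine remove hF (T := T) (fun L hL => hL.1) hrem ?_
  refine rigid_step (R := R) (fun L hL => hF.le_Cen (fun L hL => hL.1) hL.1
    fun hcon => hcon.2.1 hL.2) (fun g _ => hRc g)
    (fun L hL M hM => hF.comm L hL.1 M hM.1) (fun L hL => hL.2) ?_
  rw [← Cen_union]
  refine adic_cen (S := S) hl hF (comp_rest hO hO') (D := D) (fun L hL => hL.1) hDc
    (fun L hL => ?_) (T := T ∪ R) ?_ ?_ ?_
  · by_cases h1 : AO p l L ∨ FreeSub p l L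
    · refine ne_one_adic hl (l2_dvd hO' L hL.1) (hF.centre L hL.1) h1 (fun x hx => ?_)
        fun g _ _ s hs _ => hScj g s hs
      exact ⟨fun hxS => hxS.1, fun hx1 => ⟨hx1, L, hL, hx, Or.inl h1⟩⟩
    · refine eu_adic hl (l2_dvd hO' L hL.1) (hF.centre L hL.1) (hL.2.2.resolve_left h1)
        (fun x hx => ?_) fun g _ _ s hs _ => hScj g s hs
      constructor
      · rintro ⟨hx1, M, hM, hxM, h2⟩
        have hLM : L = M := by
          by_contra hne
          exact hx1 (hdisj L hL M hM hne x hx hxM)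
        subst hLM
        exact h2.resolve_left h1
      · intro h2
        exact ⟨h2.1, L, hL, hx, Or.inr h2⟩
  · rintro L (hL | hL)
    · exact hL.1
    · exact hL.1
  · rintro L hL (hL' | hL')
    · exact hL'.2.2 hL.2.2
    · exact hL.2.1 hL'.2
  · intro L hL
    by_cases h1 : RigidLie p L
    · exact Or.inr (Or.inr ⟨hL, h1⟩)
    · by_cases h2 : (AO p l L ∨ FreeSub p l L) ∨ EuSub p L
      · exact Or.inl ⟨hL, h1, h2⟩
      · exact Or.inr (Or.inl ⟨hL, h1, h2⟩)

end

end Vale.Agent.P240.H195
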