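import Mathlib.Algebra.Algebra.ZMod
import Mathlib.FieldTheory.Finite.Basic
import Mathlib.GroupTheory.SpecificGroups.Cyclic
import Mathlib.NumberTheory.LegendreSymbol.QuadraticChar.Basic

/-!
Automorphisms of finite fields.
-/

namespace Vale.Agent.P240.H195

section
variable {F : Type*} [Field F] [Finite F]

/-- ring automorphisms of a finite field are powers of the Frobenius automorphism -/
lemma ff_aut' {r : ℕ} [hr : Fact r.Prime] [CharP F r] (τ : RingAut F) :
    ∃ n k : ℕ, k < n ∧ Nat.card F = r ^ n ∧ (∀ x, τ x = x ^ r ^ k) ∧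
      ∀ j : ℕ, (∀ x : F, x ^ r ^ j = x) → n ∣ j := by
  let _ : Algebra (ZMod r) F := ZMod.algebra F r
  let σ : Gal(F/ZMod r) := { τ with
    commutes' := fun x => by
      obtain ⟨n, rfl⟩ := ZMod.intCast_surjective x
      change τ (algebraMap (ZMod r) F n) = _
      rw [map_intCast, map_intCast] }
  obtain ⟨k, hk⟩ := (FiniteField.bijective_frobeniusAlgEquivOfAlgebraic_pow (ZMod r) F).2 σ
  have hpow : ∀ (j : ℕ) (x : F),
      (FiniteField.frobeniusAlgEquivOfAlgebraic (ZMod r) F ^ j) x = x ^ r ^ j := by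
    intro j x
    rw [AlgEquiv.coe_pow, FiniteField.coe_frobeniusAlgEquivOfAlgebraic_iterate, ZMod.card]
  refine ⟨Module.finrank (ZMod r) F, k, k.2, ?_, fun x => ?_, fun j hj => ?_⟩
  · rw [Module.natCard_eq_pow_finrank (K := ZMod r), Nat.card_eq_fintype_card, ZMod.card]
  · have h1 : τ x = σ x := rfl
    rw [h1, ← hk]
    exact hpow k x
  · rw [← FiniteField.orderOf_frobeniusAlgEquivOfAlgebraic]
    refine orderOf_dvd_of_pow_eq_one ?_
    ext x
    rw [hpow, hj]
    rfl

lemma ff_aut {r : ℕ} [hr : Fact r.Prime] [CharP F r] (τ : RingAut F) :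
    ∃ k : ℕ, ∀ x, τ x = x ^ r ^ k := by
  obtain ⟨n, k, -, -, h, -⟩ := ff_aut' (r := r) τ
  exact ⟨k, h⟩

/-- automorphisms of order two -/
lemma ff_quad {r : ℕ} [hr : Fact r.Prime] [CharP F r] {τ : RingAut F} (h1 : τ ≠ 1)
    (h2 : τ ^ 2 = 1) : ∃ k : ℕ, 0 < k ∧ Nat.card F = (r ^ k) ^ 2 ∧ ∀ x, τ x = x ^ r ^ k := by
  obtain ⟨n, k, hkn, hcard, hτ, hdvd⟩ := ff_aut' (r := r) τ
  have h3 : n ∣ 2 * k := by
    refine hdvd _ fun x => ?_
    have h4 : (τ ^ 2) x = x := by rw [h2]; rfl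
    rw [pow_two, RingAut.mul_apply, hτ, hτ, ← pow_mul, ← pow_add, ← two_mul] at h4
    exact h4
  have hk : 0 < k := by
    rcases Nat.eq_zero_or_pos k with h4 | h4
    · exfalso
      apply h1
      ext x
      rw [hτ, h4, pow_zero, pow_one]
      rfl
    · exact h4
  refine ⟨k, hk, ?_, hτ⟩
  obtain ⟨c, hc⟩ := h3
  have h5 : c = 1 := by
    have h6 : c < 2 := by
      by_contra h7
      have : n * 2 ≤ n * c := Nat.mul_le_mul_left _ (by omega)
      omega
    rcases Nat.eq_zero_or_pos c with h8 | h8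
    · rw [h8] at hc; omega
    · omega
  rw [hcard, ← pow_mul]
  congr 1
  rw [h5] at hc
  omega

omit [Finite F] in
lemma ff_mul_pow {r k : ℕ} {x : F} (j : ℕ) {σ : RingAut F} (hσ : ∀ x, σ x = x ^ r ^ k) :
    (σ ^ j) x = x ^ r ^ (k * j) := by
  induction j with
  | zero => simp
  | succ j ih =>
    rw [pow_succ', RingAut.mul_apply, ih, hσ, ← pow_mul, ← pow_add, mul_add, mul_one, add_comm,
      Nat.add_comm]

/-- the automorphism group of a finite field is cyclic -/
instance ff_cyclic : IsCyclic (RingAut F) := by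
  obtain ⟨r, hr⟩ := CharP.exists F
  have hr' : Fact r.Prime := ⟨(CharP.char_is_prime_or_zero F r).resolve_right
    (CharP.char_ne_zero_of_finite F r)⟩
  let τ : RingAut F := frobeniusEquiv F r
  have hτ : ∀ x, τ x = x ^ r ^ 1 := fun x => by rw [pow_one]; rfl
  refine ⟨⟨τ, fun σ => ?_⟩⟩
  obtain ⟨k, hk⟩ := ff_aut (r := r) σ
  refine ⟨k, ?_⟩
  ext x
  rw [hk]
  change (τ ^ (k : ℤ)) x = _
  rw [zpow_natCast, ff_mul_pow k hτ, one_mul]

instance : Finite (RingAut F) :=
  Finite.of_injective (fun σ : RingAut F => (σ : F → F)) fun _ _ h => RingEquiv.ext (congrFun h)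

/-- automorphisms of prime order generate the same subgroup -/
lemma ff_prime {p : ℕ} (hp : p.Prime) {σ τ : RingAut F} (hσ : σ ^ p = 1) (hσ1 : σ ≠ 1)
    (hτ : τ ^ p = 1) : ∃ k : ℕ, τ = σ ^ k := by
  classical
  have := Fintype.ofFinite (RingAut F)
  have h1 := IsCyclic.card_pow_eq_one_le (α := RingAut F) hp.pos
  have : Fact p.Prime := ⟨hp⟩
  have ho : orderOf σ = p := orderOf_eq_prime hσ hσ1
  have h2 : (Finset.image (fun k => σ ^ k) (Finset.range p)) ⊆
      Finset.univ.filter fun x : RingAut F => x ^ p = 1 := by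
    intro x hx
    obtain ⟨k, -, rfl⟩ := Finset.mem_image.1 hx
    rw [Finset.mem_filter]
    exact ⟨Finset.mem_univ _, by rw [← pow_mul, mul_comm, pow_mul, hσ, one_pow]⟩
  have h3 : (Finset.image (fun k => σ ^ k) (Finset.range p)).card = p := by
    rw [Finset.card_image_of_injOn, Finset.card_range]
    intro i hi j hj hij
    rw [Finset.coe_range, Set.mem_Iio] at hi hj
    exact pow_injOn_Iio_orderOf (by rw [Set.mem_Iio, ho]; exact hi)
      (by rw [Set.mem_Iio, ho]; exact hj) hij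
  have h4 := Finset.eq_of_subset_of_card_le h2 (by rw [h3]; exact h1)
  have h5 : τ ∈ Finset.univ.filter fun x : RingAut F => x ^ p = 1 :=
    Finset.mem_filter.2 ⟨Finset.mem_univ _, hτ⟩
  rw [← h4] at h5
  obtain ⟨k, -, hk⟩ := Finset.mem_image.1 h5
  exact ⟨k, hk.symm⟩

lemma sq_mul_of_not {a b : F} (ha : ¬ IsSquare a) (hb : ¬ IsSquare b) : IsSquare (a * b) := by
  classical
  have := Fintype.ofFinite F
  have h1 : ringChar F ≠ 2 := fun h => ha (FiniteField.isSquare_of_char_two h a)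
  have ha0 : a ≠ 0 := by rintro rfl; exact ha (IsSquare.zero)
  have hb0 : b ≠ 0 := by rintro rfl; exact hb (IsSquare.zero)
  have h2 := quadraticChar_neg_one_iff_not_isSquare.2 ha
  have h3 := quadraticChar_neg_one_iff_not_isSquare.2 hb
  rw [← quadraticChar_one_iff_isSquare (mul_ne_zero ha0 hb0), map_mul, h2, h3]
  norm_num

omit [Finite F] in
lemma sq_aut {a : F} (τ : RingAut F) : IsSquare (τ a) ↔ IsSquare a := by
  constructor
  · rintro ⟨b, hb⟩
    refine ⟨τ⁻¹ b, ?_⟩
    have h1 : τ⁻¹ (τ a) = a := by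
      rw [← RingAut.mul_apply, inv_mul_cancel, RingAut.one_apply]
    rw [← map_mul, ← hb, h1]
  · rintro ⟨b, rfl⟩
    exact ⟨τ b, map_mul _ _ _⟩

lemma sq_of_norm {r : ℕ} [hr : Fact r.Prime] [CharP F r] (hr2 : r ≠ 2) {τ : RingAut F}
    (h1 : τ ≠ 1) (h2 : τ ^ 2 = 1) {c d : F} (hd : d ≠ 0) (hc : c ≠ 0) (hτc : τ c = c)
    (hcd : d * τ d = c ^ 2) : IsSquare d := by
  have := Fintype.ofFinite F
  obtain ⟨k, hk, hcard, hτ⟩ := ff_quad h1 h2
  have hF : ringChar F ≠ 2 := by rw [ringChar.eq F r]; exact hr2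
  rw [FiniteField.isSquare_iff hF hd]
  have hodd : Odd (r ^ k) := (hr.out.odd_of_ne_two hr2).pow
  obtain ⟨j, hj⟩ := hodd
  have h3 : Fintype.card F / 2 = (2 * j + 2) * j := by
    rw [← Nat.card_eq_fintype_card, hcard, hj]
    have : (2 * j + 1) ^ 2 = 2 * ((2 * j + 2) * j) + 1 := by ring
    omega
  have h4 : d ^ (2 * j + 2) = c ^ 2 := by
    rw [← hcd, hτ, hj]
    ring
  have h5 : c ^ (2 * j) = 1 := by
    have h6 : c ^ (2 * j + 1) = c := by rw [← hj, ← hτ, hτc]
    rw [pow_succ] at h6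
    exact mul_right_cancel₀ hc (by rw [h6, one_mul])
  rw [h3, pow_mul, h4, ← pow_mul, h5]

/-- additive maps that vanish on squares vanish -/
lemma zero_of_sq {ψ : F → F} (hadd : ∀ x y, ψ (x + y) = ψ x + ψ y)
    (hsq : ∀ a : F, a ≠ 0 → ψ (a ^ 2) = 0) (c : F) : ψ c = 0 := by
  have h0 : ψ 0 = 0 := by
    have := hadd 0 0
    rw [add_zero] at this
    exact left_eq_add.1 this
  have hsq' : ∀ a : F, ψ (a ^ 2) = 0 := by
    intro a
    by_cases ha : a = 0
    · rw [ha, zero_pow two_ne_zero, h0]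
    · exact hsq a ha
  have hneg : ∀ x, ψ (-x) = -ψ x := by
    intro x
    have := hadd x (-x)
    rw [add_neg_cancel, h0] at this
    exact (neg_eq_of_add_eq_zero_right this.symm).symm
  by_cases h2 : (2 : F) = 0
  · have hch : ringChar F = 2 := by
      have h3 : ringChar F ∣ 2 := (ringChar.spec F 2).1 (by exact_mod_cast h2)
      rcases (Nat.dvd_prime Nat.prime_two).1 h3 with h4 | h4
      · exact absurd h4 (CharP.ringChar_ne_one)
      · exact h4
    obtain ⟨d, hd⟩ := FiniteField.isSquare_of_char_two hch c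
    rw [hd, ← pow_two, hsq']
  · have e : c = ((c + 1) / 2) ^ 2 + -(((c - 1) / 2) ^ 2) := by
      field_simp
      ring
    rw [e, hadd, hneg, hsq', hsq', neg_zero, add_zero]

end

end Vale.Agent.P240.H195
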