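import Vale.Agent.P240.H195.Six
import Vale.Agent.P240.H195.CF

/-!
`A_6` has few outer automorphisms of order two.
-/

namespace Vale.Agent.P240.H195

open Equiv Equiv.Perm Subgroup Vale.Agent.P240.K

section

lemma elemAb_pair {A : Type*} [Group A] {z w : A} (hz : z ^ 2 = 1) (hw : w ^ 2 = 1)
    (h : z * w = w * z) (hne : z ≠ 1) : ElemAb 2 (closure {z, w}) := by
  have h1 : ∀ a ∈ ({z, w} : Set A), ∀ b ∈ ({z, w} : Set A), a * b = b * a := by
    rintro a (rfl | rfl) b (rfl | rfl)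
    · rfl
    · exact h
    · exact h.symm
    · rfl
  have h2 : closure {z, w} ≤ centralizer ({z, w} : Set A) := by
    refine (closure_le _).2 fun a ha => ?_
    rw [SetLike.mem_coe, mem_centralizer_iff]
    exact fun b hb => h1 b hb a ha
  have h3 : closure {z, w} ≤ centralizer ((closure {z, w} : Subgroup A) : Set A) := by
    refine (closure_le _).2 fun a ha => ?_
    rw [SetLike.mem_coe, mem_centralizer_iff]
    intro b hb
    exact (mem_centralizer_iff.1 (h2 hb) a ha).symm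
  refine ⟨fun hb => hne ?_, fun x hx y hy => ?_, fun x hx => ?_⟩
  · have h4 : z ∈ closure {z, w} := subset_closure (Or.inl rfl)
    rw [hb, Subgroup.mem_bot] at h4
    exact h4
  · exact mem_centralizer_iff.1 (h3 hy) x hx
  · induction hx using closure_induction with
    | mem x hx =>
      rcases hx with rfl | rfl
      · exact hz
      · exact hw
    | one => exact one_pow 2
    | mul x y hx hy h4 h5 =>
      have h6 : Commute x y := mem_centralizer_iff.1 (h3 hy) x hx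
      rw [h6.mul_pow, h4, h5, one_mul]
    | inv x _ h4 => rw [inv_pow, h4, inv_one]

/-- the connectedness relation -/
abbrev Rl (A : Type*) [Group A] : Ap 2 A → Ap 2 A → Prop :=
  Relation.ReflTransGen (fun X Y : Ap 2 A => X ≤ Y ∨ Y ≤ X)

lemma Rl.symm {A : Type*} [Group A] {X Y : Ap 2 A} (h : Rl A X Y) : Rl A Y X := by
  induction h with
  | refl => exact Relation.ReflTransGen.refl
  | tail _ hbc ih =>
    exact Relation.ReflTransGen.trans (Relation.ReflTransGen.single (Or.symm hbc)) ih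

lemma elemAb_zpowers {A : Type*} [Group A] {z : A} (hz : z ^ 2 = 1) (hne : z ≠ 1) :
    ElemAb 2 (zpowers z) := by
  have h := elemAb_pair hz hz rfl hne
  rwa [Set.pair_eq_singleton, ← zpowers_eq_closure] at h

/-- the subgroup generated by an involution -/
def Zi {A : Type*} [Group A] (z : A) (hz : z ^ 2 = 1) (hne : z ≠ 1) : Ap 2 A :=
  ⟨zpowers z, elemAb_zpowers hz hne⟩

lemma rl_comm {A : Type*} [Group A] {z w : A} {hz : z ^ 2 = 1} {hw : w ^ 2 = 1} {hz1 : z ≠ 1}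
    {hw1 : w ≠ 1} (h : z * w = w * z) : Rl A (Zi z hz hz1) (Zi w hw hw1) := by
  have h1 : Rl A (Zi z hz hz1) ⟨closure {z, w}, elemAb_pair hz hw h hz1⟩ :=
    Relation.ReflTransGen.single (Or.inl (zpowers_le.2 (subset_closure (Or.inl rfl))))
  have h2 : Rl A ⟨closure {z, w}, elemAb_pair hz hw h hz1⟩ (Zi w hw hw1) :=
    Relation.ReflTransGen.single (Or.inr (zpowers_le.2 (subset_closure (Or.inr rfl))))
  exact h1.trans h2

lemma rl_map {A : Type*} [Group A] (φ : MulAut A) {z w : A} {hz : z ^ 2 = 1} {hw : w ^ 2 = 1}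
    {hz1 : z ≠ 1} {hw1 : w ≠ 1} (h : Rl A (Zi z hz hz1) (Zi w hw hw1)) {hz' : (φ z) ^ 2 = 1}
    {hw' : (φ w) ^ 2 = 1} {hz1' : φ z ≠ 1} {hw1' : φ w ≠ 1} :
    Rl A (Zi (φ z) hz' hz1') (Zi (φ w) hw' hw1') := by
  have hact : ∀ X : Ap 2 A, ElemAb 2 (X.1.map φ.toMonoidHom) := by
    intro X
    refine ⟨fun hb => X.2.1 ((map_eq_bot_iff_of_injective _ φ.injective).1 hb), ?_, ?_⟩
    · rintro _ ⟨x, hx, rfl⟩ _ ⟨y, hy, rfl⟩
      rw [← map_mul, ← map_mul, X.2.2.1 x hx y hy]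
    · rintro _ ⟨x, hx, rfl⟩
      rw [← map_pow, X.2.2.2 x hx, map_one]
  have h0 : ∀ X Y : Ap 2 A, Rl A X Y → Rl A (⟨X.1.map φ.toMonoidHom, hact X⟩ : Ap 2 A)
      (⟨Y.1.map φ.toMonoidHom, hact Y⟩ : Ap 2 A) := by
    intro X Y hXY
    induction hXY with
    | refl => exact Relation.ReflTransGen.refl
    | tail _ hbc ih =>
      exact ih.trans (Relation.ReflTransGen.single
        (hbc.imp (fun h => map_mono h) fun h => map_mono h))
  have h1 := h0 _ _ h
  have h2 : ∀ (x : A) (hx : x ^ 2 = 1) (hx1 : x ≠ 1) (hx' : (φ x) ^ 2 = 1) (hx1' : φ x ≠ 1),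
      (⟨(Zi x hx hx1).1.map φ.toMonoidHom, hact _⟩ : Ap 2 A) = Zi (φ x) hx' hx1' := by
    intro x hx hx1 hx' hx1'
    exact Subtype.ext (MonoidHom.map_zpowers φ.toMonoidHom x)
  rw [h2 z hz hz1 hz' hz1', h2 w hw hw1 hw' hw1'] at h1
  exact h1

/-- the involution `(0 1)(2 3)` -/
def z0 : alternatingGroup (Fin 6) :=
  ⟨swap 0 1 * swap 2 3, mem_alternatingGroup.2 (by decide)⟩

lemma kap_sq (σ : Perm (Fin 6)) : (kap (Fin 6) σ z0) ^ 2 = 1 := by
  rw [← map_pow]
  have h : z0 ^ 2 = 1 := Subtype.ext (show (swap (0 : Fin 6) 1 * swap 2 3) ^ 2 = 1 by decide)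
  rw [h, map_one]

lemma kap_ne (σ : Perm (Fin 6)) : kap (Fin 6) σ z0 ≠ 1 := by
  intro h
  rw [map_eq_one_iff _ (kap (Fin 6) σ).injective] at h
  exact absurd (show (swap (0 : Fin 6) 1 * swap 2 3) = 1 from congrArg Subtype.val h) (by decide)

lemma rl_mul {σ τ ρ : Perm (Fin 6)}
    (h : Rl _ (Zi _ (kap_sq σ) (kap_ne σ)) (Zi _ (kap_sq τ) (kap_ne τ))) :
    Rl _ (Zi _ (kap_sq (ρ * σ)) (kap_ne (ρ * σ))) (Zi _ (kap_sq (ρ * τ)) (kap_ne (ρ * τ))) := by
  have h1 := kap_sq (ρ * σ)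
  have h2 := kap_ne (ρ * σ)
  have h3 := kap_sq (ρ * τ)
  have h4 := kap_ne (ρ * τ)
  rw [map_mul, MulAut.mul_apply] at h1 h2 h3 h4
  have h5 := rl_map (kap (Fin 6) ρ) h (hz' := h1) (hw' := h3) (hz1' := h2) (hw1' := h4)
  have e1 : Zi _ (kap_sq (ρ * σ)) (kap_ne (ρ * σ)) = Zi _ h1 h2 := by
    apply Subtype.ext
    change zpowers (kap (Fin 6) (ρ * σ) z0) = zpowers (kap (Fin 6) ρ (kap (Fin 6) σ z0))
    rw [map_mul, MulAut.mul_apply]
  have e2 : Zi _ (kap_sq (ρ * τ)) (kap_ne (ρ * τ)) = Zi _ h3 h4 := by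
    apply Subtype.ext
    change zpowers (kap (Fin 6) (ρ * τ) z0) = zpowers (kap (Fin 6) ρ (kap (Fin 6) τ z0))
    rw [map_mul, MulAut.mul_apply]
  rw [e1, e2]
  exact h5

/-- commuting conjugates of `z0` are connected -/
lemma rl_of_comm {σ τ : Perm (Fin 6)} (h : (σ * (swap (0 : Fin 6) 1 * swap 2 3) * σ⁻¹) *
    (τ * (swap (0 : Fin 6) 1 * swap 2 3) * τ⁻¹) = (τ * (swap (0 : Fin 6) 1 * swap 2 3) * τ⁻¹) *
    (σ * (swap (0 : Fin 6) 1 * swap 2 3) * σ⁻¹)) :
    Rl _ (Zi _ (kap_sq σ) (kap_ne σ)) (Zi _ (kap_sq τ) (kap_ne τ)) := by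
  refine rl_comm (Subtype.ext ?_)
  rw [Subgroup.coe_mul, Subgroup.coe_mul, kap_apply, kap_apply]
  exact h

lemma rl_gen : ∀ i : Fin 5, Rl _ (Zi _ (kap_sq 1) (kap_ne 1))
    (Zi _ (kap_sq (swap i.castSucc i.succ)) (kap_ne (swap i.castSucc i.succ))) := by
  intro i
  fin_cases i
  · exact rl_of_comm (by decide)
  · exact rl_of_comm (by decide)
  · exact rl_of_comm (by decide)
  · have h1 : Rl _ (Zi _ (kap_sq 1) (kap_ne 1)) (Zi _ (kap_sq (swap 0 4 * swap 1 5))
        (kap_ne (swap 0 4 * swap 1 5))) := rl_of_comm (by decide)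
    have h2 : Rl _ (Zi _ (kap_sq (swap 0 4 * swap 1 5)) (kap_ne (swap 0 4 * swap 1 5)))
        (Zi _ (kap_sq (swap 0 2 * swap 1 4 * swap 2 3 * swap 3 5))
        (kap_ne (swap 0 2 * swap 1 4 * swap 2 3 * swap 3 5))) := rl_of_comm (by decide)
    exact (h1.trans h2).trans (rl_of_comm (by decide))
  · exact rl_of_comm (by decide)

lemma rl_all (σ : Perm (Fin 6)) : Rl _ (Zi _ (kap_sq 1) (kap_ne 1)) (Zi _ (kap_sq σ) (kap_ne σ)) := by
  have hσ : σ ∈ Submonoid.closure (Set.range fun i : Fin 5 => swap i.castSucc i.succ) := by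
    rw [mclosure_swap_castSucc_succ]
    exact Submonoid.mem_top σ
  induction hσ using Submonoid.closure_induction with
  | mem x hx =>
    obtain ⟨i, rfl⟩ := hx
    exact rl_gen i
  | one => exact Relation.ReflTransGen.refl
  | mul x y _ _ hx hy =>
    have h1 := rl_mul (ρ := x) hy
    rw [mul_one] at h1
    exact hx.trans h1

/-- the involutions of `A_6` are the conjugates of `z0` -/
lemma invol_conj {z : alternatingGroup (Fin 6)} (hz : z ^ 2 = 1) (hne : z ≠ 1) :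
    ∃ σ : Perm (Fin 6), z = kap (Fin 6) σ z0 := by
  have ho : orderOf (z : Perm (Fin 6)) = 2 := by
    rw [orderOf_coe]
    exact orderOf_eq_prime hz hne
  obtain ⟨k, hk⟩ := cycleType_prime_order (σ := (z : Perm (Fin 6))) (by rw [ho]; norm_num)
  rw [ho] at hk
  have hs : sign (z : Perm (Fin 6)) = 1 := mem_alternatingGroup.1 z.2
  have hle := sum_cycleType_le (z : Perm (Fin 6))
  rw [hk, Multiset.sum_replicate, Fintype.card_fin] at hle
  rw [sign_of_cycleType, hk, Multiset.sum_replicate, Multiset.card_replicate] at hs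
  have hk1 : k = 1 := by
    have h3 : k ≤ 2 := by
      rw [smul_eq_mul] at hle
      omega
    interval_cases k
    · exact absurd hs (by decide)
    · rfl
    · exact absurd hs (by decide)
  subst hk1
  have h0 : (swap (0 : Fin 6) 1 * swap 2 3).cycleType = {2, 2} := by
    have h1 : orderOf (swap (0 : Fin 6) 1 * swap 2 3) = 2 :=
      orderOf_eq_prime (by decide) (by decide)
    obtain ⟨m, hm⟩ := cycleType_prime_order (σ := swap (0 : Fin 6) 1 * swap 2 3)
      (by rw [h1]; norm_num)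
    rw [h1] at hm
    have h2 : (swap (0 : Fin 6) 1 * swap 2 3).support.card = 4 := by decide
    rw [← sum_cycleType, hm, Multiset.sum_replicate, smul_eq_mul] at h2
    have h3 : m = 1 := by omega
    rw [hm, h3]
    rfl
  have h1 : IsConj (swap (0 : Fin 6) 1 * swap 2 3) (z : Perm (Fin 6)) := by
    rw [isConj_iff_cycleType_eq, h0, hk]
    rfl
  obtain ⟨σ, hσ⟩ := isConj_iff.1 h1
  refine ⟨σ, Subtype.ext ?_⟩
  rw [kap_apply]
  exact hσ.symm

/-- the poset of elementary abelian 2-subgroups of `A_6` is connected -/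
lemma conn_six (X Y : Ap 2 (alternatingGroup (Fin 6))) : Rl _ X Y := by
  have key : ∀ X : Ap 2 (alternatingGroup (Fin 6)), Rl _ (Zi _ (kap_sq 1) (kap_ne 1)) X := by
    intro X
    obtain ⟨z, hz, hne⟩ := X.1.bot_or_exists_ne_one.resolve_left X.2.1
    obtain ⟨σ, hσ⟩ := invol_conj (X.2.2.2 z hz) hne
    have h2 : Rl _ (Zi _ (kap_sq σ) (kap_ne σ)) X :=
      Relation.ReflTransGen.single (Or.inl (zpowers_le.2 (by rw [← hσ]; exact hz)))
    exact (rl_all σ).trans h2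
  exact (key X).symm.trans (key Y)

/-- `A_6` has few outer automorphisms of order two -/
theorem fewAut_six : FewAut 2 (alternatingGroup (Fin 6)) := by
  have hodd : ∀ f : MulAut (alternatingGroup (Fin 6)), OutAut 2 f → ∀ σ, f = kap (Fin 6) σ →
      sign σ = -1 := by
    rintro f ⟨-, hf⟩ σ rfl
    rcases Int.units_eq_one_or (sign σ) with h | h
    · exact absurd ⟨⟨σ, mem_alternatingGroup.2 h⟩, (kap_coe ⟨σ, mem_alternatingGroup.2 h⟩).symm⟩ hf
    · exact h
  have hmem : ∀ f g : MulAut (alternatingGroup (Fin 6)), f⁻¹ * g ∈ (MulAut.conj).range →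
      g ∈ zpowers f ⊔ (MulAut.conj (G := alternatingGroup (Fin 6))).range := by
    intro f g h
    have h1 : g = f * (f⁻¹ * g) := by group
    rw [h1]
    exact mul_mem ((le_sup_left : zpowers f ≤ _) (mem_zpowers f))
      ((le_sup_right : (MulAut.conj).range ≤ _) h)
  have h1 : ∀ f g : MulAut (alternatingGroup (Fin 6)), OutAut 2 f → OutAut 2 g →
      (∃ σ, f = kap (Fin 6) σ) → (∃ σ, g = kap (Fin 6) σ) →
      g ∈ zpowers f ⊔ (MulAut.conj (G := alternatingGroup (Fin 6))).range := by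
    rintro f g hf hg ⟨σ, hσ⟩ ⟨τ, hτ⟩
    apply hmem
    have h2 := hodd f hf σ hσ
    have h3 := hodd g hg τ hτ
    have h4 : sign (σ⁻¹ * τ) = 1 := by
      rw [map_mul, map_inv, h2, h3]
      decide
    refine ⟨⟨σ⁻¹ * τ, mem_alternatingGroup.2 h4⟩, ?_⟩
    rw [← kap_coe, hσ, hτ]
    change kap (Fin 6) (σ⁻¹ * τ) = _
    rw [map_mul, map_inv]
  have h2 : ∀ f g : MulAut (alternatingGroup (Fin 6)), OutAut 2 f → OutAut 2 g →
      (¬ ∃ σ, f = kap (Fin 6) σ) → (¬ ∃ σ, g = kap (Fin 6) σ) →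
      g ∈ zpowers f ⊔ (MulAut.conj (G := alternatingGroup (Fin 6))).range := by
    intro f g hf hg hf' hg'
    have hff : f * f = 1 := by rw [← pow_two]; exact hf.1
    have hgg : g * g = 1 := by rw [← pow_two]; exact hg.1
    obtain ⟨a, ha⟩ := exotic_inner hf' hg' hff hgg
    apply hmem
    have h3 : f⁻¹ = f := inv_eq_of_mul_eq_one_right hff
    rw [h3, ha]
    exact ⟨a, rfl⟩
  refine ⟨fun f g h hf hg hh => ?_, Or.inr conn_six⟩
  by_cases h3 : ∃ σ, f = kap (Fin 6) σ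
  · by_cases h4 : ∃ σ, g = kap (Fin 6) σ
    · exact Or.inl (h1 f g hf hg h3 h4)
    · by_cases h5 : ∃ σ, h = kap (Fin 6) σ
      · exact Or.inr (Or.inl (h1 f h hf hh h3 h5))
      · exact Or.inr (Or.inr (h2 g h hg hh h4 h5))
  · by_cases h4 : ∃ σ, g = kap (Fin 6) σ
    · by_cases h5 : ∃ σ, h = kap (Fin 6) σ
      · exact Or.inr (Or.inr (h1 g h hg hh h4 h5))
      · exact Or.inr (Or.inl (h2 f h hf hh h3 h5))
    · exact Or.inl (h2 f g hf hg h3 h4)

end

end Vale.Agent.P240.H195
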