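import Vale.Agent.P240.H195.Hyper
import Vale.Agent.P240.H195.SixConn

/-!
Groups with few outer automorphisms of order `p`.
-/

namespace Vale.Agent.P240.H195

open Subgroup Vale.Agent.P240.K

universe u v

section
variable {G : Type u} [Group G] {p : ℕ}

theorem FewAut.fewOuter {L : Subgroup G} (h : FewAut p L) : FewOuter p L := by
  have hout : ∀ {x : G} (hx : Outer p L x), OutAut p (L.normalizerMonoidHom ⟨x, hx.1⟩) := by
    intro x hx
    refine ⟨?_, ?_⟩
    · rw [← map_pow]
      have h1 : (⟨x, hx.1⟩ : normalizer (L : Set G)) ^ p ∈ L.normalizerMonoidHom.ker := by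
        rw [normalizerMonoidHom_ker, Subgroup.mem_subgroupOf]
        exact hx.2.1
      exact MonoidHom.mem_ker.1 h1
    · rintro ⟨l, hl⟩
      exact hx.2.2 (mem_sup_of_inner hx.1 l hl.symm)
  have hsame : ∀ {x y : G} (hx : Outer p L x) (hy : Outer p L y),
      L.normalizerMonoidHom ⟨y, hy.1⟩ ∈
        zpowers (L.normalizerMonoidHom ⟨x, hx.1⟩) ⊔ (MulAut.conj (G := L)).range →
      SameOuter L x y := by
    intro x y hx hy h1
    have hn : (MulAut.conj (G := L)).range.Normal := by
      refine ⟨?_⟩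
      rintro _ ⟨l, rfl⟩ g
      refine ⟨g l, ?_⟩
      ext z
      simp
    obtain ⟨_, ⟨i, rfl⟩, _, ⟨l, rfl⟩, h2⟩ := Subgroup.mem_sup_of_normal_right.1 h1
    have h3 : x ^ (-i) * y ∈ L ⊔ centralizer (L : Set G) := by
      refine mem_sup_of_inner (mul_mem (zpow_mem hx.1 _) hy.1) l ?_
      have h4 : (⟨x ^ (-i) * y, mul_mem (zpow_mem hx.1 _) hy.1⟩ : normalizer (L : Set G)) =
          ⟨x, hx.1⟩ ^ (-i) * ⟨y, hy.1⟩ := rfl
      rw [h4, map_mul, map_zpow, ← h2, ← mul_assoc]
      change L.normalizerMonoidHom ⟨x, hx.1⟩ ^ (-i) * L.normalizerMonoidHom ⟨x, hx.1⟩ ^ i * _ = _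
      rw [← zpow_add, neg_add_cancel, zpow_zero, one_mul]
    rw [SameOuter]
    have h5 : y = x ^ i * (x ^ (-i) * y) := by
      rw [← mul_assoc, ← zpow_add, add_neg_cancel, zpow_zero, one_mul]
    rw [h5]
    exact mul_mem ((le_sup_left : zpowers x ≤ _) (zpow_mem (mem_zpowers x) i))
      ((le_sup_right : L ⊔ centralizer (L : Set G) ≤ _) h3)
  refine ⟨fun x y z hx hy hz => ?_, ?_⟩
  · rcases h.1 _ _ _ (hout hx) (hout hy) (hout hz) with h1 | h1 | h1
    · exact Or.inl (hsame hx hy h1)
    · exact Or.inr (Or.inl (hsame hx hz h1))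
    · exact Or.inr (Or.inr (hsame hy hz h1))
  · rcases h.2 with h1 | h1
    · exact Or.inl fun x y hx hy => hsame hx hy (h1 _ _ (hout hx) (hout hy))
    · exact Or.inr (Or.inr h1)

theorem FewAut.congr {L : Type u} {L' : Type v} [Group L] [Group L'] (e : L ≃* L')
    (h : FewAut p L) : FewAut p L' := by
  have hconj : ∀ x : L, MulAut.congr e (MulAut.conj x) = MulAut.conj (e x) := by
    intro x
    ext y
    simp [MulAut.congr]
  have hrange : (MulAut.conj (G := L)).range.map (MulAut.congr e).toMonoidHom =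
      (MulAut.conj (G := L')).range := by
    ext f
    constructor
    · rintro ⟨_, ⟨x, rfl⟩, rfl⟩
      exact ⟨e x, (hconj x).symm⟩
    · rintro ⟨x, rfl⟩
      refine ⟨_, ⟨e.symm x, rfl⟩, ?_⟩
      exact (hconj _).trans (by rw [e.apply_symm_apply])
  have hout : ∀ f : MulAut L', OutAut p f → OutAut p ((MulAut.congr e).symm f) := by
    rintro f ⟨h1, h2⟩
    refine ⟨by rw [← map_pow, h1, map_one], ?_⟩
    rintro ⟨x, hx⟩
    apply h2
    refine ⟨e x, ?_⟩
    rw [← hconj, hx, MulEquiv.apply_symm_apply]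
  have hmem : ∀ f g : MulAut L', (MulAut.congr e).symm g ∈
      zpowers ((MulAut.congr e).symm f) ⊔ (MulAut.conj (G := L)).range →
      g ∈ zpowers f ⊔ (MulAut.conj (G := L')).range := by
    intro f g hg
    have h1 : (MulAut.congr e) ((MulAut.congr e).symm g) ∈ (zpowers ((MulAut.congr e).symm f) ⊔
        (MulAut.conj (G := L)).range).map (MulAut.congr e).toMonoidHom := ⟨_, hg, rfl⟩
    rw [Subgroup.map_sup, hrange, MonoidHom.map_zpowers, MulEquiv.apply_symm_apply] at h1
    have h2 : (MulAut.congr e).toMonoidHom ((MulAut.congr e).symm f) = f :=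
      MulEquiv.apply_symm_apply _ _
    rwa [h2] at h1
  refine ⟨fun f g k hf hg hk => ?_, ?_⟩
  · rcases h.1 _ _ _ (hout f hf) (hout g hg) (hout k hk) with h1 | h1 | h1
    · exact Or.inl (hmem f g h1)
    · exact Or.inr (Or.inl (hmem f k h1))
    · exact Or.inr (Or.inr (hmem g k h1))
  · rcases h.2 with h1 | h1
    · exact Or.inl fun f g hf hg => hmem f g (h1 _ _ (hout f hf) (hout g hg))
    · right
      have hact : ∀ X : Ap p L, ElemAb p (X.1.map e.toMonoidHom) := by
        intro X
        refine ⟨fun hb => X.2.1 ((map_eq_bot_iff_of_injective _ e.injective).1 hb), ?_, ?_⟩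
        · rintro _ ⟨x, hx, rfl⟩ _ ⟨y, hy, rfl⟩
          rw [← map_mul, ← map_mul, X.2.2.1 x hx y hy]
        · rintro _ ⟨x, hx, rfl⟩
          rw [← map_pow, X.2.2.2 x hx, map_one]
      have h0 : ∀ X Y : Ap p L, Relation.ReflTransGen (fun X Y => X ≤ Y ∨ Y ≤ X) X Y →
          Relation.ReflTransGen (fun X Y => X ≤ Y ∨ Y ≤ X)
            (⟨X.1.map e.toMonoidHom, hact X⟩ : Ap p L') ⟨Y.1.map e.toMonoidHom, hact Y⟩ := by
        intro X Y hXY
        induction hXY with
        | refl => exact Relation.ReflTransGen.refl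
        | tail _ hbc ih =>
          exact ih.trans (Relation.ReflTransGen.single
            (hbc.imp (fun h => map_mono h) fun h => map_mono h))
      have hsurj : ∀ Y : Ap p L', ∃ X : Ap p L, (⟨X.1.map e.toMonoidHom, hact X⟩ : Ap p L') = Y := by
        intro Y
        refine ⟨⟨Y.1.map e.symm.toMonoidHom, ?_⟩, ?_⟩
        · refine ⟨fun hb => Y.2.1 ((map_eq_bot_iff_of_injective _ e.symm.injective).1 hb), ?_, ?_⟩
          · rintro _ ⟨x, hx, rfl⟩ _ ⟨y, hy, rfl⟩
            rw [← map_mul, ← map_mul, Y.2.2.1 x hx y hy]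
          · rintro _ ⟨x, hx, rfl⟩
            rw [← map_pow, Y.2.2.2 x hx, map_one]
        · apply Subtype.ext
          change (Y.1.map e.symm.toMonoidHom).map e.toMonoidHom = Y.1
          rw [Subgroup.map_map]
          have : e.toMonoidHom.comp e.symm.toMonoidHom = MonoidHom.id L' := by
            ext x
            exact e.apply_symm_apply x
          rw [this, Subgroup.map_id]
      intro A B
      obtain ⟨X, rfl⟩ := hsurj A
      obtain ⟨Y, rfl⟩ := hsurj B
      exact h0 X Y (h1 X Y)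

theorem fewOuter_six {L : Subgroup G} (e : L ≃* alternatingGroup (Fin 6)) : FewOuter 2 L :=
  (fewAut_six.congr e.symm).fewOuter

end

end Vale.Agent.P240.H195
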