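import Vale.Agent.P240.H195.BNHQ
import Vale.Agent.P240.H195.Alt
import Vale.Agent.P240.H195.Few

/-!
The main theorem: groups whose components are alternating, of Lie type in characteristic `p`, of Lie
type in two other characteristics, or of Lie type with few outer subgroups.
-/

namespace Vale.Agent.P240.H195

open Subgroup Vale.Agent.P240.K

universe u v

section
variable {G : Type u} [Group G] {p l : ℕ} {L : Subgroup G}

/-- the numerical form of the `l`-adic condition with `S = {1}` -/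
def AO (p l : ℕ) (L : Subgroup G) : Prop :=
  (∀ x ∈ L, x ∈ centralizer (L : Set G) → x = 1) ∧ ¬ (l : ℤ) ∣ eu (Ain p L) ∧
    ∀ x, Outer p L x → l ∣ (L ⊓ centralizer {x}).relIndex L

lemma cj_centralizer_eq (g : G) (L : Subgroup G) :
    centralizer ((cj g L : Subgroup G) : Set G) = cj g (centralizer (L : Set G)) := by
  ext x
  rw [H148.mem_centralizer_cj, mem_cj]

lemma outer_cj {g x : G} (h : Outer p (cj g L) x) : Outer p L (g⁻¹ * x * g) := by
  obtain ⟨h1, h2, h3⟩ := h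
  refine ⟨H148.mem_normalizer_cj.1 h1, ?_, fun hcon => h3 ?_⟩
  · have e : (g⁻¹ * x * g) ^ p = g⁻¹ * x ^ p * g := by
      have := conj_pow (i := p) (a := g⁻¹) (b := x)
      rwa [inv_inv] at this
    rw [e]
    exact H148.mem_centralizer_cj.1 h2
  · rw [cj_centralizer_eq]
    have h4 : cj g L ⊔ cj g (centralizer (L : Set G)) = cj g (L ⊔ centralizer (L : Set G)) :=
      (Subgroup.map_sup L _ (MulAut.conj g).toMonoidHom).symm
    rw [h4, mem_cj]
    exact hcon

lemma cj_inf_singleton (g x : G) (L : Subgroup G) :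
    cj g L ⊓ centralizer {x} = cj g (L ⊓ centralizer {g⁻¹ * x * g}) := by
  ext y
  rw [mem_inf, mem_cj, mem_cj, mem_inf, mem_centralizer_singleton_iff,
    mem_centralizer_singleton_iff]
  refine and_congr_right fun _ => ?_
  constructor
  · intro h
    have e1 : g⁻¹ * y * g * (g⁻¹ * x * g) = g⁻¹ * (y * x) * g := by group
    have e2 : g⁻¹ * x * g * (g⁻¹ * y * g) = g⁻¹ * (x * y) * g := by group
    rw [e1, e2, h]
  · intro h
    have e1 : g⁻¹ * y * g * (g⁻¹ * x * g) = g⁻¹ * (y * x) * g := by group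
    have e2 : g⁻¹ * x * g * (g⁻¹ * y * g) = g⁻¹ * (x * y) * g := by group
    rw [e1, e2] at h
    exact mul_left_cancel (mul_right_cancel h)

lemma AO.cj (h : AO p l L) (g : G) : AO p l (K.cj g L) := by
  obtain ⟨h1, h2, h3⟩ := h
  refine ⟨?_, ?_, ?_⟩
  · intro x hx hxC
    rw [mem_cj] at hx
    have h4 := h1 _ hx (H148.mem_centralizer_cj.1 hxC)
    have e : x = g * (g⁻¹ * x * g) * g⁻¹ := by group
    rw [e, h4]
    group
  · rw [eu_Ain_cj]
    exact h2
  · intro x hx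
    have h4 := h3 _ (outer_cj hx)
    rw [cj_inf_singleton]
    have h5 : (K.cj g (L ⊓ centralizer {g⁻¹ * x * g})).relIndex (K.cj g L) =
        (L ⊓ centralizer {g⁻¹ * x * g}).relIndex L :=
      Subgroup.relIndex_map_map_of_injective _ _ (MulAut.conj g).injective
    rw [h5]
    exact h4

theorem ao_char [hp : Fact p.Prime] [Finite G] (hl : l.Prime) (hlp : l ≠ p) (hL : LieType p L)
    (hidx : ∀ x, Outer p L x → l ∣ (L ⊓ centralizer {x}).relIndex L) : AO p l L := by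
  refine ⟨?_, ?_, hidx⟩
  · intro x hx hxC
    have h1 := hL.2.1 ⟨x, hx⟩ fun y => Subtype.ext ((mem_centralizer_iff.1 hxC y y.2).symm)
    exact congrArg Subtype.val h1
  · obtain ⟨-, -, B, N, U, S, h⟩ := hL
    obtain ⟨ε, hε, h1⟩ := h.eu_all hp.out
    have h2 : eu (Ain p L) = -(ε * (Nat.card U : ℤ)) := by
      rw [← h1, eu_sub]
      congr 1
      ext E
      exact ⟨fun h => ⟨h, le_top⟩, fun h => h.1⟩
    rw [h2, dvd_neg]
    intro hdvd
    have h3 : (l : ℤ) ∣ (Nat.card U : ℤ) := by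
      rcases hε with h4 | h4 <;> rw [h4] at hdvd
      · rwa [one_mul] at hdvd
      · rwa [neg_one_mul, dvd_neg] at hdvd
    have h4 : l ∣ Nat.card U := by exact_mod_cast h3
    obtain ⟨n, hn⟩ := h.pgroup.exists_card_eq
    rw [hn] at h4
    exact hlp ((Nat.prime_dvd_prime_iff_eq hl hp.out).1 (hl.dvd_of_dvd_pow h4))

/-- components of alternating type can be removed -/
theorem removable_alt {𝕜 : Type v} [Field 𝕜] [hp : Fact p.Prime] [Finite G]
    (h : AltCase L) : Removable 𝕜 p L := by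
  obtain ⟨n, h5, ⟨e⟩⟩ := h
  have h5' : 5 ≤ Fintype.card (Fin n) := by rwa [Fintype.card_fin]
  refine Or.inl ⟨?_, almostSimpleHQ_alt h5' e⟩
  by_cases h7 : p = 2 ∧ n = 6
  · obtain ⟨rfl, rfl⟩ := h7
    exact fewOuter_six e
  · refine fewOuter_alt h5' ?_ e
    rw [Fintype.card_fin]
    by_contra hcon
    push Not at hcon
    exact h7 hcon

/-- the main theorem for groups with `O_p(G) = O_{p'}(G) = 1` -/
theorem treated_main {𝕜 : Type v} [Field 𝕜] [hp : Fact p.Prime] [Finite G] (hO : OpTrivial p G)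
    (hO' : OpPrimeTrivial p G) (hl : l.Prime) (h : ∀ L ∈ Q.Comp G, Treated 𝕜 p l L) :
    HQ 𝕜 p G := by
  have hfam := comp_family hO hO'
  refine H148.criterion hO hO' {L | L ∈ Q.Comp G ∧ (AO p l L ∨ FreeSub p l L)} {1} ∅ ∅
    (fun L hL => hL.1) ?_ (Or.inr ⟨l, hl, fun L hL => ?_⟩) fun L hL => ?_
  · rintro L ⟨hL, hL'⟩ g
    refine ⟨hfam.conj L hL g, ?_⟩
    rcases hL' with h1 | h1
    · exact Or.inl (h1.cj g)
    · exact Or.inr (H148.freeSub_cj h1 g)
  · rcases hL.2 with h1 | h1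
    · exact Or.inl (adic_one h1.1 h1.2.1 h1.2.2)
    · exact Or.inr h1
  · rcases h L hL with h1 | ⟨h1, h2⟩ | ⟨r, hr, hrp, h1, h2⟩ | ⟨h1, h2⟩ | h1 | h1
    · exact Or.inr (removable_alt h1)
    · rcases h2 with h2 | ⟨h2, h3⟩
      · exact Or.inr (Or.inl ⟨fewOuter_of_same h2, almostSimpleHQ_char h1 hp.out h2⟩)
      · exact Or.inl ⟨hL, Or.inl (ao_char hl h2 h1 h3)⟩
    · have hfree : AutFree p r L := h1.autFree hr hp.out hrp.symm
      rcases h2 with h2 | h2 | h2
      · subst h2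
        exact Or.inl ⟨hL, Or.inr hfree.freeSub⟩
      · exact Or.inr (Or.inr ⟨r, hr, hrp, h2, hfree.freeSub⟩)
      · exact Or.inr (Or.inl ⟨h2, hfree.almostSimpleHQ hr⟩)
    · rcases h2 with ⟨r, hr, h2⟩ | h2
      · exact Or.inr (Or.inl ⟨h1, h2.almostSimpleHQ hr⟩)
      · exact Or.inr (Or.inl ⟨h1, h2⟩)
    · exact Or.inl ⟨hL, Or.inr h1⟩
    · exact Or.inr (Or.inr h1)

/-- almost simple groups -/
theorem almost_simple {𝕜 : Type v} [Field 𝕜] [hp : Fact p.Prime] {L : Type u} [Group L] [Finite L]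
    {A : Subgroup (MulAut L)} (hA : ∀ x, MulAut.conj x ∈ A)
    (h : (∃ r : ℕ, r.Prime ∧ AutFree p r L) ∨
      (∃ n : ℕ, 5 ≤ n ∧ Nonempty (L ≃* alternatingGroup (Fin n))) ∨
      (LieType p L ∧ ∀ E F : Subgroup (MulAut L), ElemAb p E → ElemAb p F → E ≤ A → F ≤ A →
        E ⊓ MulAut.conj.range = ⊥ → F ⊓ MulAut.conj.range = ⊥ → F ≤ E ⊔ MulAut.conj.range)) :
    HQ 𝕜 p A := by
  rcases h with ⟨r, hr, h⟩ | ⟨n, h5, ⟨e⟩⟩ | ⟨h1, h2⟩
  · exact h.hq hr A hA
  · exact hq_transport e (hq_alt (by rwa [Fintype.card_fin])) A hA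
  · rw [HQ_sub_iff]
    have hinj := h1.inj
    obtain ⟨hsimple, -, B, N, U, S, h⟩ := h1
    refine NA_of_eu (Set.toFinite _) (h.eu_ne_zero hsimple hinj hp.out ?_ ?_)
    · rintro _ ⟨x, rfl⟩
      exact hA x
    · intro F hF F' hF' hFI hF'I
      exact h2 F F' hF.1 hF'.1 hF.2 hF'.2 hFI hF'I

end

end Vale.Agent.P240.H195
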