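import Vale.Agent.P240.H195.THom

/-!
Upper links in a set of elementary abelian subgroups closed under subgroups and under products with
subgroups of `M`.
-/

namespace Vale.Agent.P240.H195

open Finsupp Subgroup Vale.Agent.P240.K

universe u v

section
variable {𝕜 : Type v} [Field 𝕜] {G : Type u} [Group G] {p : ℕ}

theorem link_acyclic' [Finite G] (M : Subgroup G) {𝒮 : Set (Subgroup G)}
    (hS : 𝒮 ⊆ ApS p G)
    (hSu : ∀ F : Subgroup G, F = ⊥ ∨ F ∈ 𝒮 → ∀ B ∈ Ain p (M ⊓ centralizer (F : Set G)), F ⊔ B ∈ 𝒮)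
    {F : Subgroup G} (hF : F = ⊥ ∨ F ∈ 𝒮) (hFM : F ⊓ M = ⊥)
    (hlk : ∀ T ∈ 𝒮, F < T → T ⊓ M = ⊥ → ¬ NA 𝕜 {X | X ∈ 𝒮 ∧ T < X})
    (hac : ¬ NA 𝕜 (Ain p (M ⊓ centralizer (F : Set G)))) :
    ¬ NA 𝕜 {X | X ∈ 𝒮 ∧ F < X} := by
  have hFB : F ∈ ApB p G := hF.imp id fun h => hS h
  refine not_NA_attach_all (S := {X | X ∈ 𝒮 ∧ F < X}) (Set.toFinite _)
    (X := {X | (X ∈ 𝒮 ∧ F < X) ∧ X ⊓ M ≠ ⊥}) (fun X hX => hX.1) ?_ ?_ ?_
  · intro x hx y hy hxy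
    refine ⟨hy, fun h => hx.2 ?_⟩
    rw [← le_bot_iff, ← h]
    exact inf_le_inf_right _ hxy
  · refine not_NA_down (R := (fun B => F ⊔ B) '' (Ain p (M ⊓ centralizer (F : Set G))))
      (ρ := fun X => F ⊔ (X ⊓ M)) ?_ ?_ ?_ ?_ ?_
    · rintro _ ⟨B, hB, rfl⟩
      have h1 := r2_sup_mem hFB hFM hB
      exact ⟨⟨hSu F hF B hB, h1.1.2⟩, h1.2⟩
    · intro X hX
      exact ⟨X ⊓ M, r2_inf_mem (hS hX.1.1) hX.1.2.le hX.2, rfl⟩
    · intro X hX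
      exact sup_le hX.1.2.le inf_le_left
    · intro X _ Y _ hXY
      exact sup_le_sup_left (inf_le_inf_right _ hXY) _
    · rw [NA_image]
      · exact hac
      · intro B hB B' hB' h
        have h' : F ⊔ B = F ⊔ B' := h
        rw [← r2_sup hFM hB, ← r2_sup hFM hB', h']
      · intro B hB B' hB'
        exact r2_lt hFM hB hB'
  · intro T hT hTX
    have hTM : T ⊓ M = ⊥ := by
      by_contra h
      exact hTX ⟨hT, h⟩
    have : {x | x ∈ {X | X ∈ 𝒮 ∧ F < X} ∧ T < x} = {X | X ∈ 𝒮 ∧ T < X} := by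
      ext x
      constructor
      · rintro ⟨h1, h2⟩
        exact ⟨h1.1, h2⟩
      · rintro ⟨h1, h2⟩
        exact ⟨⟨h1, hT.2.trans h2⟩, h2⟩
    rw [this]
    exact hlk T hT.1 hT.2 hTM

theorem link_lift' [Finite G] (M : Subgroup G) {𝒮 : Set (Subgroup G)}
    (hS : 𝒮 ⊆ ApS p G)
    (hSu : ∀ F : Subgroup G, F = ⊥ ∨ F ∈ 𝒮 → ∀ B ∈ Ain p (M ⊓ centralizer (F : Set G)), F ⊔ B ∈ 𝒮)
    {F : Subgroup G} (hF : F = ⊥ ∨ F ∈ 𝒮) (hFM : F ⊓ M = ⊥)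
    (hlk : ∀ T ∈ 𝒮, F < T → T ⊓ M = ⊥ → ¬ NA 𝕜 {X | X ∈ 𝒮 ∧ T < X})
    {b : Ch 𝕜 (Subgroup G)} (hb : b ∈ Sp 𝕜 (st (Ain p (M ⊓ centralizer (F : Set G)))))
    {c : Ch 𝕜 (Subgroup G)} (hc : c ∈ Sp 𝕜 (st {X | X ∈ 𝒮 ∧ F < X}))
    (hcb : bd c = mp (fun B => F ⊔ B) b) :
    ∃ d ∈ Sp 𝕜 (st (Ain p (M ⊓ centralizer (F : Set G)))), bd d = b := by
  have hFB : F ∈ ApB p G := hF.imp id fun h => hS h
  obtain ⟨c0, hc0, hbc0⟩ := up_lift (S := {X | X ∈ 𝒮 ∧ F < X}) (Set.toFinite _)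
    (X := {X | (X ∈ 𝒮 ∧ F < X) ∧ X ⊓ M ≠ ⊥}) (fun X hX => hX.1) (by
      intro x hx y hy hxy
      refine ⟨hy, fun h => hx.2 ?_⟩
      rw [← le_bot_iff, ← h]
      exact inf_le_inf_right _ hxy) (by
      intro T hT hTX
      have hTM : T ⊓ M = ⊥ := by
        by_contra h
        exact hTX ⟨hT, h⟩
      have : {x | x ∈ {X | X ∈ 𝒮 ∧ F < X} ∧ T < x} = {X | X ∈ 𝒮 ∧ T < X} := by
        ext x
        constructor
        · rintro ⟨h1, h2⟩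
          exact ⟨h1.1, h2⟩
        · rintro ⟨h1, h2⟩
          exact ⟨⟨h1, hT.2.trans h2⟩, h2⟩
      rw [this]
      exact hlk T hT.1 hT.2 hTM) hc (by
      rw [hcb]
      exact mp_mem (st_map (fun B hB => by
          have h1 := r2_sup_mem hFB hFM hB
          exact ⟨⟨hSu F hF B hB, h1.1.2⟩, h1.2⟩)
        fun B hB B' hB' h => (r2_lt hFM hB hB').1 h) hb)
  have h1 : mp (fun X => X ⊓ M) c0 ∈ Sp 𝕜 (wk (Ain p (M ⊓ centralizer (F : Set G)))) :=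
    mp_wk (fun X hX => r2_inf_mem (hS hX.1.1) hX.1.2.le hX.2)
      (fun X _ Y _ hXY => inf_le_inf_right _ hXY) hc0
  refine ⟨pi (mp (fun X => X ⊓ M) c0), pi_mem h1, ?_⟩
  have h2 : mp ((fun X => X ⊓ M) ∘ fun B => F ⊔ B) b = b :=
    mp_eq_self (P := st (Ain p (M ⊓ centralizer (F : Set G))))
      (fun l hl a ha => r2_sup hFM (hl.2 a ha)) hb
  rw [bd_pi h1, bd_mp, hbc0, hcb, mp_mp, h2, pi_of_st hb]

/-- a strictly decreasing list of nontrivial subgroups of a group of order `p ^ k` -/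
lemma len_le [hp : Fact p.Prime] [Finite G] (m : List (Subgroup G)) :
    st (ApS p G) m → ∀ (E : Subgroup G) (k : ℕ), Nat.card E = p ^ k → (∀ y ∈ m, y ≤ E) →
      m.length ≤ k := by
  induction m with
  | nil => intro _ E k _ _; exact Nat.zero_le _
  | cons x m ih =>
    intro hm E k hE hle
    have hp2 := List.pairwise_cons.1 hm.1
    have hxS : x ∈ ApS p G := hm.2 x (by simp)
    have hxE : x ≤ E := hle x (by simp)
    have hm' : st (ApS p G) m := ⟨hp2.2, fun a ha => hm.2 a (by simp [ha])⟩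
    obtain ⟨j, hjk, hj⟩ := (Nat.dvd_prime_pow hp.out).1 (hE ▸ Subgroup.card_dvd_of_le hxE)
    have hj0 : j ≠ 0 := by
      rintro rfl
      rw [pow_zero] at hj
      exact hxS.1 (Subgroup.eq_bot_of_card_eq x hj)
    rcases m with _ | ⟨y, m⟩
    · simp only [List.length_cons, List.length_nil]
      omega
    · have hyx : y < x := hp2.1 y (by simp)
      obtain ⟨i, hij, hi⟩ := (Nat.dvd_prime_pow hp.out).1 (hj ▸ Subgroup.card_dvd_of_le hyx.le)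
      have hne : i ≠ j := by
        rintro rfl
        apply hyx.ne
        exact Subgroup.eq_of_le_of_card_ge hyx.le (by rw [hi, hj])
      have h1 := ih hm' y i hi (fun a ha => by
        rcases List.mem_cons.1 ha with h | ha
        · rw [h]
        · exact le_of_lt ((List.pairwise_cons.1 hp2.2).1 a ha))
      rw [List.length_cons]
      omega

/-- The join of a top cycle for `F` and a cycle of `M ∩ C(F)` that is not a boundary is not a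
boundary in `𝒮`, if the centralizers of the larger subgroups have acyclic posets. -/
theorem join_cycle [hp : Fact p.Prime] [Finite G] (M : Subgroup G) {𝒮 : Set (Subgroup G)}
    (hS : 𝒮 ⊆ ApS p G) (hSd : ∀ X ∈ 𝒮, ∀ X' ≤ X, X' ≠ ⊥ → X' ∈ 𝒮)
    (hSu : ∀ F : Subgroup G, F = ⊥ ∨ F ∈ 𝒮 → ∀ B ∈ Ain p (M ⊓ centralizer (F : Set G)), F ⊔ B ∈ 𝒮)
    {F H : Subgroup G} (hF : F = ⊥ ∨ F ∈ 𝒮) (hFM : F ⊓ M = ⊥)
    (hmax : ∀ T ∈ 𝒮, F < T → T ⊓ M = ⊥ → ¬ NA 𝕜 (Ain p (M ⊓ centralizer (T : Set G))))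
    {o : Ch 𝕜 (Subgroup G)} {φ : List (Subgroup G)} (hT : TopCycle 𝕜 p H F o φ)
    (hHS : ∀ E ∈ Ain p H, E ∈ 𝒮) (hHS2 : ∀ E ∈ Ain p H, ∀ E' ∈ Ain p (M ⊓ centralizer (F : Set G)),
      E ⊔ E' ∈ 𝒮)
    (hna : NA 𝕜 (Ain p (M ⊓ centralizer (F : Set G)))) :
    ∃ y ∈ Sp 𝕜 (st {E | E ∈ 𝒮 ∧ E ≤ H ⊔ (M ⊓ centralizer (F : Set G))}), bd y = 0 ∧
      ∀ c ∈ Sp 𝕜 (st 𝒮), bd c ≠ y := by
  obtain ⟨b, hb, hbd, hbne⟩ := hna
  have hlk : ∀ T : Subgroup G, T ∈ 𝒮 → F < T → T ⊓ M = ⊥ → ¬ NA 𝕜 {X | X ∈ 𝒮 ∧ T < X} := by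
    intro T
    induction T using WellFoundedGT.induction with
    | ind T ih =>
      intro hT hFT hTM
      exact link_acyclic' M hS hSu (Or.inr hT) hTM (fun T' hT' hTT' hT'M =>
        ih T' hTT' hT' (hFT.trans hTT') hT'M) (hmax T hT hFT hTM)
  have hb' : ∀ k : ℕ, (⇑(sg (𝕜 := 𝕜) (α := Subgroup G)))^[k] b ∈
      Sp 𝕜 (st (Ain p (M ⊓ centralizer (F : Set G)))) ∧
      bd ((⇑(sg (𝕜 := 𝕜) (α := Subgroup G)))^[k] b) = 0 := by
    intro k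
    induction k with
    | zero => exact ⟨hb, hbd⟩
    | succ k ih =>
      rw [Function.iterate_succ_apply']
      exact ⟨sg_mem ih.1, by rw [bd_sg, ih.2, map_zero, neg_zero]⟩
  obtain ⟨hb1, hb2⟩ := hb' φ.length
  have hMS : ∀ E ∈ Ain p (M ⊓ centralizer (F : Set G)), E ∈ 𝒮 := by
    intro E hE
    have h1 := hSu F hF E hE
    exact hSd _ h1 E le_sup_right hE.1.1
  set X : Set (Subgroup G) := {E | E ∈ 𝒮 ∧ E ≤ H ⊔ (M ⊓ centralizer (F : Set G))} with hX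
  have hX1 : ∀ E ∈ Ain p H, E ∈ X := fun E hE => ⟨hHS E hE, hE.2.trans le_sup_left⟩
  have hX2 : ∀ E ∈ Ain p (M ⊓ centralizer (F : Set G)), E ∈ X :=
    fun E hE => ⟨hMS E hE, hE.2.trans le_sup_right⟩
  have hX3 : ∀ E ∈ Ain p H, ∀ E' ∈ Ain p (M ⊓ centralizer (F : Set G)), E ⊔ E' ∈ X :=
    fun a ha b hb => ⟨hHS2 a ha b hb, sup_le_sup ha.2 hb.2⟩
  have hcm : sh o ((⇑(sg (𝕜 := 𝕜) (α := Subgroup G)))^[φ.length] b) ∈ Sp 𝕜 (wk X) := by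
    refine sh_mem (A := Ain p H) (B := Ain p (M ⊓ centralizer (F : Set G))) hX1 hX2 hX3 ?_ ?_
    · exact Sp_mono (fun l hl => st_wk l hl.1) hT.mem
    · exact Sp_mono (fun l hl => st_wk l hl) hb1
  have hcb : bd (sh o ((⇑(sg (𝕜 := 𝕜) (α := Subgroup G)))^[φ.length] b)) = 0 := by
    rw [bd_sh, hT.cyc, hb2, map_zero, map_zero, LinearMap.zero_apply, add_zero]
  refine ⟨pi (sh o ((⇑(sg (𝕜 := 𝕜) (α := Subgroup G)))^[φ.length] b)), pi_mem hcm,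
    by rw [bd_pi hcm, hcb, map_zero], fun γ hγ hbγ => ?_⟩
  have hφF : ∀ f ∈ φ, f ≤ F := by
    have hst : st (Ain p H) φ :=
      ((mem_Sp.1 hT.mem) φ (Finsupp.mem_support_iff.2 hT.ne)).1
    rcases hT.top with ⟨h1, -⟩ | ⟨φ', h1⟩
    · intro f hf
      rw [h1] at hf
      exact absurd hf (by simp)
    · intro f hf
      rw [h1] at hf hst
      rcases List.mem_cons.1 hf with h2 | h2
      · rw [h2]
      · exact le_of_lt ((List.pairwise_cons.1 hst.1).1 f h2)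
  have hlen : ∀ m, st 𝒮 m → (∀ y ∈ m, ∃ f ∈ φ, y ≤ f) → m.length ≤ φ.length := by
    intro m hm hmφ
    refine len_le m ⟨hm.1, fun a ha => hS (hm.2 a ha)⟩ F φ.length hT.card fun y hy => ?_
    obtain ⟨f, hf, hyf⟩ := hmφ y hy
    exact hyf.trans (hφF f hf)
  have h3 : bd (cf φ γ) = mp (fun B => F ⊔ B) (o φ • b) := by
    rw [bd_cf φ hlen hγ, hbγ, cf_sh hFM hT hb, map_smul]
  have h4 : cf φ γ ∈ Sp 𝕜 (st {X | X ∈ 𝒮 ∧ F < X}) := by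
    refine Sp_mono (fun l hl => st_mono ?_ l hl) (cf_mem φ hγ)
    rintro x ⟨hx1, hx2⟩
    refine ⟨hx1, ?_⟩
    rcases hT.top with ⟨-, h1⟩ | ⟨φ', h1⟩
    · rw [h1]
      exact bot_lt_iff_ne_bot.2 (hS hx1).1
    · exact hx2 F (by rw [h1]; simp)
  obtain ⟨d, hd, hdb⟩ := link_lift' M hS hSu hF hFM hlk (Submodule.smul_mem _ (o φ) hb) h4 h3
  refine hbne ((o φ)⁻¹ • d) (Submodule.smul_mem _ _ hd) ?_
  rw [map_smul, hdb, smul_smul, inv_mul_cancel₀ hT.ne, one_smul]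

end

end Vale.Agent.P240.H195
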