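import Vale.Agent.P240.H195.RCar

/-!
A cocycle on a poset `S` from a cocycle on its upper part `S \ D` and one on the part `S ∩ D ∩ E` of
its lower part, if the first one vanishes above the elements of `D` outside `E`.
-/

namespace Vale.Agent.P240.H195

open Finsupp Vale.Agent.P240.K

universe u v

section
variable {𝕜 : Type v} [Field 𝕜] {α : Type u} {D E S : Set α}
  {lW lD : Ch 𝕜 α →ₗ[𝕜] 𝕜}

lemma Phi_bd2 [PartialOrder α]
    (hlow : ∀ x ∈ S, ∀ y ∈ S, x ≤ y → y ∈ D → x ∈ D)
    (hlowE : ∀ x ∈ S, ∀ y ∈ S, x ≤ y → y ∈ E → x ∈ E)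
    (hW : Coc {x | x ∈ S ∧ x ∉ D} lW) (hD : Coc {x | x ∈ S ∧ x ∈ D ∧ x ∈ E} lD)
    (hvan : ∀ x ∈ S, x ∈ D → x ∉ E →
      ∀ P ∈ Sp 𝕜 (wk {y | (y ∈ S ∧ y ∉ D) ∧ x ≤ y}), lW P = 0) :
    ∀ (l : List α), wk S l → ∀ P : Ch 𝕜 α,
      P ∈ Sp 𝕜 (fun p : List α => wk {x | x ∈ S ∧ x ∉ D} p ∧ ∀ b ∈ p, ∀ x ∈ l, x ≤ b) →
      Phi D id lW (lD.comp (res E)) (bd (single l (1 : 𝕜))) P =
        PhiL D id lW (lD.comp (res E)) l (sg (bd P)) := by
  have hW' : ∀ P ∈ Sp 𝕜 (wk {x | x ∈ S ∧ x ∉ D}), lW (sg (bd P)) = 0 := by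
    intro P hP
    have := hW (sg P) (sg_mem hP)
    rw [bd_sg, map_neg, neg_eq_zero] at this
    exact this
  intro l
  induction l with
  | nil =>
    intro _ P hP
    rw [PhiL, bd_single_nil, map_zero, LinearMap.zero_apply, LinearMap.smul_apply,
      hW' P (Sp_mono (fun p hp => hp.1) hP), smul_zero]
  | cons x l ih =>
    intro hl P hP
    have hp := List.pairwise_cons.1 hl.1
    have hxS : x ∈ S := hl.2 x (by simp)
    have hlS : wk S l := ⟨hp.2, fun a ha => hl.2 a (by simp [ha])⟩
    by_cases hx : x ∈ D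
    · have hall : ∀ a ∈ x :: l, a ∈ D := by
        intro a ha
        rcases List.mem_cons.1 ha with h | ha'
        · rw [h]; exact hx
        · exact hlow a (hl.2 a ha) x hxS (hp.1 a ha') hx
      rw [PhiL_of_D hall, Phi_of_D, LinearMap.smul_apply, LinearMap.smul_apply,
        hW' P (Sp_mono (fun p hp => hp.1) hP), smul_zero]
      · by_cases hxE : x ∈ E
        · have hallE : ∀ a ∈ x :: l, a ∈ E := by
            intro a ha
            rcases List.mem_cons.1 ha with h | ha'
            · rw [h]; exact hxE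
            · exact hlowE a (hl.2 a ha) x hxS (hp.1 a ha') hxE
          have hm : single (x :: l) (1 : 𝕜) ∈ Sp 𝕜 (wk {x | x ∈ S ∧ x ∈ D ∧ x ∈ E}) :=
            single_mem_Sp ⟨hl.1, fun a ha => ⟨hl.2 a ha, hall a ha, hallE a ha⟩⟩ _
          rw [LinearMap.comp_apply, res_of_mem, hD _ hm, zero_smul]
          exact Sp_mono (fun l hl a ha => (hl.2 a ha).2.2) (bd_wk hm)
        · rw [hvan x hxS hx hxE P (Sp_mono ?_ hP), smul_zero]
          rintro p ⟨h1, h2⟩
          exact ⟨h1.1, fun a ha => ⟨h1.2 a ha, h2 a ha x (by simp)⟩⟩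
      · exact bd_mem (fun l l' hs h a ha => h a (hs.subset ha)) (single_mem_Sp hall _)
    · have hP' : ap (id x) P ∈ Sp 𝕜 (fun p : List α => wk {x | x ∈ S ∧ x ∉ D} p ∧
          ∀ b ∈ p, ∀ y ∈ l, y ≤ b) := by
        refine ap_mem ?_ hP
        rintro p ⟨hp1, hp2⟩
        refine ⟨⟨?_, ?_⟩, ?_⟩
        · rw [List.pairwise_append]
          refine ⟨hp1.1, by simp, ?_⟩
          intro a ha b hb
          rw [List.mem_singleton] at hb
          rw [hb]
          exact hp2 a ha x (by simp)
        · intro a ha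
          rcases List.mem_append.1 ha with ha | ha
          · exact hp1.2 a ha
          · rw [List.mem_singleton] at ha
            rw [ha]
            exact ⟨hxS, hx⟩
        · intro b hb y hy
          rcases List.mem_append.1 hb with hb | hb
          · exact hp2 b hb y (by simp [hy])
          · rw [List.mem_singleton] at hb
            rw [hb]
            exact hp.1 y hy
      rw [bd_single_cons, map_sub, LinearMap.sub_apply, Phi_cons_not hx, ih hlS _ hP',
        PhiL_cons_not hx, Phi_single, LinearMap.comp_apply, bd_ap, map_add, sg_sg, sg_ap, map_add,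
        map_neg]
      abel

theorem phi_coc2 [PartialOrder α]
    (hlow : ∀ x ∈ S, ∀ y ∈ S, x ≤ y → y ∈ D → x ∈ D)
    (hlowE : ∀ x ∈ S, ∀ y ∈ S, x ≤ y → y ∈ E → x ∈ E)
    (hW : Coc {x | x ∈ S ∧ x ∉ D} lW) (hD : Coc {x | x ∈ S ∧ x ∈ D ∧ x ∈ E} lD)
    (hvan : ∀ x ∈ S, x ∈ D → x ∉ E →
      ∀ P ∈ Sp 𝕜 (wk {y | (y ∈ S ∧ y ∉ D) ∧ x ≤ y}), lW P = 0) :
    Coc S (phi D id lW (lD.comp (res E))) := by
  intro c hc
  have := eq_of_Sp (F := (phi D id lW (lD.comp (res E))).comp bd) (G := 0)
    (fun l (hl : wk S l) => by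
      rw [LinearMap.comp_apply, phi, LinearMap.flip_apply,
        Phi_bd2 hlow hlowE hW hD hvan l hl _ (single_mem_Sp ⟨⟨by simp, by simp⟩, by simp⟩ _)]
      simp) hc
  simpa using this

/-- join with the first element -/
def hdm [Max α] : List α → α → α
  | [] => id
  | b :: _ => fun a => a ⊔ b

lemma phiL_A {A : Set α} (hA : ∀ a ∈ A, a ∉ D) : ∀ (s : List α) (p : List α),
    (∀ a ∈ s, a ∈ A) → PhiL D id lW lD s (single p 1) =
      lW (single (p ++ s) 1) * lD (single [] (1 : 𝕜)) := by
  intro s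
  induction s with
  | nil => intro p _; rw [PhiL]; simp [mul_comm]
  | cons a s ih =>
    intro p hs
    rw [PhiL_cons_not (hA a (hs a (by simp))), LinearMap.comp_apply, ap_single,
      ih _ (fun x hx => hs x (by simp [hx]))]
    simp

variable [Max α] {A B : Set α} {d : ℕ} (hA : ∀ a ∈ A, a ∉ D) (hB : ∀ b ∈ B, b ∈ D)
  (hAB : ∀ a ∈ A, ∀ b ∈ B, a ⊔ b ∉ D)
  (hl : ∀ q : List α, q.length ≠ d → lW (single q (1 : 𝕜)) = 0)
include hA hB hAB hl

lemma phi_sh_zero (n : ℕ) : ∀ s t : List α, s.length + t.length = n → (∀ a ∈ s, a ∈ A) →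
    (∀ b ∈ t, b ∈ B) → ∀ p : List α, d < p.length + s.length →
      Phi D id lW lD (sh (single s (1 : 𝕜)) (single t (1 : 𝕜))) (single p 1) = 0 := by
  induction n with
  | zero =>
    intro s t h _ _ p hp
    have hs : s = [] := List.length_eq_zero_iff.1 (by omega)
    have ht : t = [] := List.length_eq_zero_iff.1 (by omega)
    subst hs ht
    rw [sh_nil_left, Phi_single, PhiL, LinearMap.smul_apply, hl p (by simp at hp; omega), smul_zero]
  | succ n ih =>
    intro s t h hs ht p hp
    rcases s with _ | ⟨a, s⟩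
    · rw [sh_nil_left, Phi_single, PhiL_of_D fun b hb => hB b (ht b hb), LinearMap.smul_apply,
        hl p (by simp at hp; omega), smul_zero]
    rcases t with _ | ⟨b, t⟩
    · rw [sh_nil_right, Phi_single, phiL_A hA _ _ hs,
        hl _ (by rw [List.length_append]; omega), zero_mul]
    have h1 := ih s (b :: t) (by simp only [List.length_cons] at h ⊢; omega)
      (fun x hx => hs x (by simp [hx])) ht (p ++ [a ⊔ b])
      (by simp only [List.length_append, List.length_cons, List.length_nil] at hp ⊢; omega)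
    have h2 := ih (a :: s) t (by simp only [List.length_cons] at h ⊢; omega) hs
      (fun x hx => ht x (by simp [hx])) (p ++ [a ⊔ b])
      (by simp only [List.length_append, List.length_cons, List.length_nil] at hp ⊢; omega)
    have hab := hAB a (hs a (by simp)) b (ht b (by simp))
    rw [← cons_single a s, ← cons_single b t, sh_cons_cons, Phi_cons_not hab, id_eq, ap_single,
      map_add, LinearMap.add_apply, cons_single, cons_single, h1, sg_single, map_smul sh,
      LinearMap.smul_apply, map_smul (Phi D id lW lD), LinearMap.smul_apply, h2]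
    simp

lemma phi_sh_eq (n : ℕ) : ∀ s t : List α, s.length + t.length = n → (∀ a ∈ s, a ∈ A) →
    (∀ b ∈ t, b ∈ B) → ∀ p : List α, p.length + s.length = d →
      Phi D id lW lD (sh (single s (1 : 𝕜)) (single t (1 : 𝕜))) (single p 1) =
        lW (single (p ++ s.map (hdm t)) 1) * lD (single t (1 : 𝕜)) := by
  induction n with
  | zero =>
    intro s t h _ _ p hp
    have hs : s = [] := List.length_eq_zero_iff.1 (by omega)
    have ht : t = [] := List.length_eq_zero_iff.1 (by omega)
    subst hs ht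
    rw [sh_nil_left, Phi_single, PhiL]
    simp [mul_comm]
  | succ n ih =>
    intro s t h hs ht p hp
    rcases s with _ | ⟨a, s⟩
    · rw [sh_nil_left, Phi_single, PhiL_of_D fun b hb => hB b (ht b hb)]
      simp [mul_comm]
    rcases t with _ | ⟨b, t⟩
    · rw [sh_nil_right, Phi_single, phiL_A hA _ _ hs]
      congr 2
      simp [hdm]
    have h1 := ih s (b :: t) (by simp only [List.length_cons] at h ⊢; omega)
      (fun x hx => hs x (by simp [hx])) ht (p ++ [a ⊔ b])
      (by simp only [List.length_append, List.length_cons, List.length_nil] at hp ⊢; omega)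
    have h2 := phi_sh_zero (lD := lD) hA hB hAB hl n (a :: s) t
      (by simp only [List.length_cons] at h ⊢; omega) hs
      (fun x hx => ht x (by simp [hx])) (p ++ [a ⊔ b])
      (by simp only [List.length_append, List.length_cons, List.length_nil] at hp ⊢; omega)
    have hab := hAB a (hs a (by simp)) b (ht b (by simp))
    rw [← cons_single a s, ← cons_single b t, sh_cons_cons, Phi_cons_not hab, id_eq, ap_single,
      map_add, LinearMap.add_apply, cons_single, cons_single, h1, sg_single, map_smul sh,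
      LinearMap.smul_apply, map_smul (Phi D id lW lD), LinearMap.smul_apply, h2]
    simp [hdm]

theorem phi_shuffle2 {x y : Ch 𝕜 α}
    (hx : x ∈ Sp 𝕜 (fun l : List α => (∀ a ∈ l, a ∈ A) ∧ l.length = d))
    (hy : y ∈ Sp 𝕜 (fun l : List α => ∀ b ∈ l, b ∈ B))
    (hinv : ∀ b ∈ B, lW (mp (fun a => a ⊔ b) x) = lW x) :
    phi D id lW lD (sh x y) = lW x * lD y := by
  have h1 : ∀ t : List α, (∀ b ∈ t, b ∈ B) →
      phi D id lW lD (sh x (single t (1 : 𝕜))) = lW x * lD (single t (1 : 𝕜)) := by
    intro t ht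
    have h2 := eq_of_Sp (F := (phi D id lW lD).comp ((sh).flip (single t (1 : 𝕜))))
      (G := (lD (single t (1 : 𝕜))) • (lW.comp (mp (hdm t))))
      (fun s (hs : (∀ a ∈ s, a ∈ A) ∧ s.length = d) => by
        have h3 := phi_sh_eq (lD := lD) hA hB hAB hl _ s t rfl hs.1 ht [] (by simpa using hs.2)
        rw [LinearMap.comp_apply, LinearMap.flip_apply, phi, LinearMap.flip_apply, h3,
          LinearMap.smul_apply, LinearMap.comp_apply, mp_single, smul_eq_mul, List.nil_append,
          mul_comm]) hx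
    simp only [LinearMap.comp_apply, LinearMap.flip_apply, LinearMap.smul_apply, smul_eq_mul] at h2
    rw [h2, mul_comm]
    congr 1
    rcases t with _ | ⟨b, t⟩
    · congr 1
      exact mp_eq_self (P := fun _ => True) (fun _ _ _ _ => rfl) (by simp [mem_Sp])
    · exact hinv b (ht b (by simp))
  have := eq_of_Sp (F := (phi D id lW lD).comp (sh x)) (G := (lW x) • lD)
    (fun t (ht : ∀ b ∈ t, b ∈ B) => by
      rw [LinearMap.comp_apply, h1 t ht, LinearMap.smul_apply, smul_eq_mul]) hy
  simpa using this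

end

end Vale.Agent.P240.H195
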