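import Vale.Agent.P240.H195.TMain
import Vale.Agent.P240.H195.RPhi
import Vale.Agent.P240.H195.RLink

/-!
Groups `G` acting on a group `L` with a split BN-pair of characteristic `p` that is (isomorphic to) a
normal subgroup of `G`.
-/

namespace Vale.Agent.P240.H195

open Subgroup Vale.Agent.P240.K Finsupp

universe u v w

section
variable {𝕜 : Type v} [Field 𝕜] {G : Type w} [Group G] {L : Type u} [Group L]
  {B N U : Subgroup L} {S : Set L} {p : ℕ}

/-- `ι` identifies `L` with a normal subgroup of `G`, and `ψ` is the action of `G` on `L`. -/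
structure Act (ψ : G →* MulAut L) (ι : L →* G) : Prop where
  conj : ∀ g x, ι (ψ g x) = g * ι x * g⁻¹
  inner : ∀ x, ψ (ι x) = MulAut.conj x
  inj : Function.Injective (MulAut.conj : L →* MulAut L)

namespace Act

variable {ψ : G →* MulAut L} {ι : L →* G} (ha : Act ψ ι)
include ha

lemma ι_inj : Function.Injective ι := by
  intro x y hxy
  apply ha.inj
  rw [← ha.inner, ← ha.inner, hxy]

lemma normal : ι.range.Normal := by
  constructor
  rintro _ ⟨x, rfl⟩ g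
  exact ⟨ψ g x, ha.conj g x⟩

lemma eq_one {x : G} (hx : x ∈ ι.range) (hx' : ψ x = 1) : x = 1 := by
  obtain ⟨y, rfl⟩ := hx
  rw [ha.inner] at hx'
  rw [ha.inj (hx'.trans (map_one _).symm), map_one]

lemma comm {x y : G} (hx : ψ x = 1) (hy : y ∈ ι.range) : x * y = y * x := by
  obtain ⟨z, rfl⟩ := hy
  have h1 := ha.conj x z
  rw [hx, MulAut.one_apply] at h1
  rw [eq_mul_inv_iff_mul_eq] at h1
  exact h1.symm

end Act

/-- the nontrivial `p`-subgroups of `G` that are elementary abelian modulo `L` -/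
def YS (p : ℕ) (ι : L →* G) : Set (Subgroup G) :=
  {R | R ≠ ⊥ ∧ IsPGroup p R ∧ (∀ x ∈ R, ∀ y ∈ R, x * y * x⁻¹ * y⁻¹ ∈ ι.range) ∧
    ∀ x ∈ R, x ^ p ∈ ι.range}

/-- the subgroups with trivial inner part -/
def Dn (ψ : G →* MulAut L) : Set (Subgroup G) := {R | R.map ψ ⊓ innS L = ⊥}

/-- the subgroups acting type preservingly -/
def Tp (ψ : G →* MulAut L) (B : Subgroup L) : Set (Subgroup G) := {R | R.map ψ ≤ tpS B}

variable {ψ : G →* MulAut L} {ι : L →* G}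

lemma YS_down {R R' : Subgroup G} (hR : R ∈ YS p ι) (hle : R' ≤ R) (hne : R' ≠ ⊥) :
    R' ∈ YS p ι :=
  ⟨hne, hR.2.1.to_le hle, fun x hx y hy => hR.2.2.1 x (hle hx) y (hle hy),
    fun x hx => hR.2.2.2 x (hle hx)⟩

lemma Dn_down {R R' : Subgroup G} (hR : R ∈ Dn ψ) (hle : R' ≤ R) : R' ∈ Dn ψ := by
  change R'.map ψ ⊓ innS L = ⊥
  rw [eq_bot_iff]
  exact (inf_le_inf_right _ (Subgroup.map_mono hle)).trans (le_of_eq hR)

lemma Tp_down {R R' : Subgroup G} (hR : R ∈ Tp ψ B) (hle : R' ≤ R) : R' ∈ Tp ψ B :=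
  (Subgroup.map_mono hle).trans hR

lemma YS_of_ApS [Fact p.Prime] {E : Subgroup G} (hE : E ∈ ApS p G) : E ∈ YS p ι := by
  refine ⟨hE.1, isPGroup_of_mem hE, fun x hx y hy => ?_, fun x hx => ?_⟩
  · have : x * y * x⁻¹ * y⁻¹ = 1 := by rw [hE.2.1 x hx y hy]; group
    rw [this]
    exact one_mem _
  · rw [hE.2.2 x hx]
    exact one_mem _

/-- the elements of `YS` with trivial inner part are elementary abelian -/
lemma Act.elemAb (ha : Act ψ ι) {R : Subgroup G} (hR : R ∈ YS p ι) (hD : R ∈ Dn ψ) :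
    R ∈ ApS p G := by
  have key : ∀ x ∈ R, x ∈ ι.range → x = 1 := by
    intro x hx hxι
    refine ha.eq_one hxι ?_
    have h1 : ψ x ∈ R.map ψ ⊓ innS L := by
      refine mem_inf.2 ⟨⟨x, hx, rfl⟩, ?_⟩
      obtain ⟨y, rfl⟩ := hxι
      exact ⟨y, (ha.inner y).symm⟩
    rw [show R.map ψ ⊓ innS L = ⊥ from hD, mem_bot] at h1
    exact h1
  refine ⟨hR.1, fun x hx y hy => ?_, fun x hx => key _ (pow_mem hx p) (hR.2.2.2 x hx)⟩
  have h1 := key _ (mul_mem (mul_mem (mul_mem hx hy) (inv_mem hx)) (inv_mem hy))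
    (hR.2.2.1 x hx y hy)
  rw [mul_inv_eq_one, mul_inv_eq_iff_eq_mul] at h1
  exact h1

/-- reduction to elementary abelian subgroups -/
theorem NA_of_YS [hp : Fact p.Prime] [Finite G] (h : NA 𝕜 (YS p ι)) : NA 𝕜 (ApS p G) := by
  by_contra hac
  refine ac_dn (S := YS p ι) (Set.toFinite _) (X := ApS p G) (fun E hE => YS_of_ApS hE) ?_ ?_
    hac h
  · rintro E hE R hR hle
    exact ⟨hR.1, fun x hx y hy => hE.2.1 x (hle hx) y (hle hy),
      fun x hx => hE.2.2 x (hle hx)⟩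
  · intro T hT hTA
    have : {x | x ∈ YS p ι ∧ x < T} = {x | x ≠ ⊥ ∧ x < T} := by
      ext x
      exact ⟨fun hx => ⟨hx.1.1, hx.2⟩, fun hx => ⟨YS_down hT hx.2.le hx.1, hx.2⟩⟩
    rw [this]
    exact frat_ac hT.2.1 hT.1 fun hcon => hTA ⟨hT.1, hcon.1, hcon.2⟩

/-- the proper parabolic subgroups stabilized by `X` -/
def Yc (ψ : G →* MulAut L) (B : Subgroup L) (X : Subgroup G) : Set (Subgroup L) :=
  YF B ((X.map ψ : Subgroup (MulAut L)) : Set (MulAut L))

/-- the proper parabolic subgroups -/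
def Y0 (B : Subgroup L) : Set (Subgroup L) :=
  YF B ((⊥ : Subgroup (MulAut L)) : Set (MulAut L))

lemma mem_Y0 {Q : Subgroup L} : Q ∈ Y0 B ↔ Pb B Q ∧ Q ≠ ⊤ := by
  refine ⟨fun h => ⟨h.1, h.2.1⟩, fun h => ⟨h.1, h.2, fun f hf => ?_⟩⟩
  have hf' : f = 1 := mem_bot.1 hf
  rw [hf', am_one]

/-- the poset of the subgroups in `YS` with nontrivial inner part and the parabolic subgroups -/
def Wt (p : ℕ) (ψ : G →* MulAut L) (ι : L →* G) (B : Subgroup L) : Set (Subgroup G) :=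
  {X | (X ∈ YS p ι ∧ X ∉ Dn ψ) ∨ ∃ P ∈ Y0 B, X = P.map ι}

lemma Yc_anti {X X' : Subgroup G} (h : X ≤ X') : Yc ψ B X' ⊆ Yc ψ B X :=
  fun _ hQ => ⟨hQ.1, hQ.2.1, fun f hf => hQ.2.2 f (Subgroup.map_mono h hf)⟩

lemma Act.map_map (ha : Act ψ ι) (P : Subgroup L) : (P.map ι).map ψ = P.map MulAut.conj := by
  rw [Subgroup.map_map]
  congr 1
  ext x
  rw [MonoidHom.comp_apply, ha.inner]

/-- an element outside `Dn` -/
lemma exists_inner [Fact p.Prime] (ha : Act ψ ι) {X : Subgroup G} (hX : X ∈ YS p ι)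
    (hXD : X ∉ Dn ψ) : ∃ x : L, x ≠ 1 ∧ MulAut.conj x ∈ X.map ψ ∧ ∃ k : ℕ, x ^ p ^ k = 1 := by
  obtain ⟨f, hf, hf1⟩ : ∃ f ∈ X.map ψ ⊓ innS L, f ≠ 1 := by
    by_contra hcon
    push Not at hcon
    exact hXD (eq_bot_iff.2 fun f hf => mem_bot.2 (hcon f hf))
  obtain ⟨h1, ⟨x, rfl⟩⟩ := mem_inf.1 hf
  refine ⟨x, fun hcon => hf1 (by rw [hcon, map_one]), h1, ?_⟩
  obtain ⟨k, hk⟩ := (hX.2.1.map ψ) ⟨_, h1⟩
  refine ⟨k, ha.inj ?_⟩
  rw [map_pow, map_one]
  simpa using congrArg Subtype.val hk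

lemma YS_mono_up {X X' : Subgroup G} (hXD : X ∉ Dn ψ) (hle : X ≤ X') : X' ∉ Dn ψ :=
  fun hcon => hXD (Dn_down hcon hle)

namespace SB

variable (h : SB p B N U S) (ha : Act ψ ι)
include h ha

/-- the carriers are acyclic -/
theorem carrier_ac [hp : Fact p.Prime] [Finite L] : ∀ X ∈ Wt p ψ ι B, ¬ NA 𝕜 (Yc ψ B X) := by
  rintro X (⟨hX, hXD⟩ | ⟨P, hP, rfl⟩)
  · obtain ⟨x, hx1, hx, k, hk⟩ := exists_inner ha hX hXD
    exact h.yf_ac hp.out (hX.2.1.map ψ) hx1 hx hk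
  · rw [mem_Y0] at hP
    rw [Yc, ha.map_map]
    refine ac_min (F := P) ⟨hP.1, hP.2, ?_⟩ ?_
    · rintro _ ⟨x, hx, rfl⟩
      rw [am_conj]
      exact cj_self hx
    · intro Q hQ x hx
      refine h.mem_of_cj_eq hp.out hQ.1 ?_
      have := hQ.2.2 (MulAut.conj x) ⟨x, hx, rfl⟩
      rwa [am_conj] at this

omit h ha in
lemma carrier_anti : ∀ X ∈ Wt p ψ ι B, ∀ X' ∈ Wt p ψ ι B, X ≤ X' → Yc ψ B X' ⊆ Yc ψ B X :=
  fun _ _ _ _ hle => Yc_anti hle

omit h in
lemma carrier_D : ∀ P ∈ Y0 B, ∀ Q ∈ Y0 B, P ≤ Q → Q ∈ Yc ψ B (P.map ι) := by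
  intro P _ Q hQ hle
  rw [mem_Y0] at hQ
  rw [Yc, ha.map_map]
  refine ⟨hQ.1, hQ.2, ?_⟩
  rintro _ ⟨x, hx, rfl⟩
  rw [am_conj]
  exact cj_self (hle hx)

end SB

/-- chains of stable parabolic subgroups for groups that are not type preserving -/
lemma SB.len_tp (h : SB p B N U S) [hp : Fact p.Prime] [Finite L] {F : Subgroup (MulAut L)}
    (hF : IsPGroup p F) (hFc : ∀ x ∈ F, ∀ y ∈ F, x * y = y * x) {l : List (Subgroup L)}
    (hl : st (YF B (F : Set (MulAut L))) l) :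
    l.length ≤ (mps B S ⊤).ncard ∧ (¬ F ≤ tpS B → l.length < (mps B S ⊤).ncard) := by
  obtain ⟨g, hg⟩ := h.exists_fix hp.out hF
  set F' := cj (MulAut.conj g)⁻¹ F with hF'
  have hF'eq : (F' : Set (MulAut L)) = (fun f => (MulAut.conj g)⁻¹ * f * MulAut.conj g) ''
      (F : Set (MulAut L)) := by
    ext φ
    constructor
    · intro hφ
      have h1 : (MulAut.conj g)⁻¹⁻¹ * φ * (MulAut.conj g)⁻¹ ∈ F := mem_cj.1 hφ
      refine ⟨_, h1, ?_⟩
      simp only [inv_inv]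
      group
    · rintro ⟨f, hf, rfl⟩
      change _ ∈ F'
      rw [hF', mem_cj]
      have e : (MulAut.conj g)⁻¹⁻¹ * ((MulAut.conj g)⁻¹ * f * MulAut.conj g) * (MulAut.conj g)⁻¹ =
          f := by group
      rw [e]
      exact hf
  have hfix : ∀ f ∈ F', am f B = B := by
    intro f' hf'
    have h2 : f' ∈ (F' : Set (MulAut L)) := hf'
    rw [hF'eq] at h2
    obtain ⟨f, hf, rfl⟩ := h2
    have h1 := am_conj_cj f g (cj g B)
    rw [hg f hf, ← cj_mul, inv_mul_cancel, cj_one] at h1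
    exact h1
  have hcomm : ∀ x ∈ F', ∀ y ∈ F', x * y = y * x := by
    intro x hx y hy
    have hx' : x ∈ (F' : Set (MulAut L)) := hx
    have hy' : y ∈ (F' : Set (MulAut L)) := hy
    rw [hF'eq] at hx' hy'
    obtain ⟨a, ha, rfl⟩ := hx'
    obtain ⟨b, hb, rfl⟩ := hy'
    have h1 := hFc a ha b hb
    calc (MulAut.conj g)⁻¹ * a * MulAut.conj g * ((MulAut.conj g)⁻¹ * b * MulAut.conj g)
        = (MulAut.conj g)⁻¹ * (a * b) * MulAut.conj g := by group
      _ = (MulAut.conj g)⁻¹ * (b * a) * MulAut.conj g := by rw [h1]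
      _ = _ := by group
  have hl' : st (YF B (F' : Set (MulAut L))) (l.map (cjIso g⁻¹)) := by
    refine st_map (S := YF B (F : Set (MulAut L))) ?_
      (fun x _ y _ hxy => (cjIso g⁻¹).lt_iff_lt.2 hxy) l hl
    intro Q hQ
    rw [hF'eq, YF_conj_eq]
    exact ⟨Q, hQ, rfl⟩
  have h1 := h.len_bound hp.out (F := F') hcomm hfix hl'
  rw [List.length_map] at h1
  have hle : Nat.card (F' ⊓ fixD (mps B S ⊤) : Subgroup (MulAut L)) ≤ Nat.card F' :=
    Nat.card_le_card_of_injective _ (Subgroup.inclusion_injective inf_le_left)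
  have hpos : 0 < Nat.card F' := Nat.card_pos
  constructor
  · have h2 : p ^ l.length * Nat.card F' ≤ p ^ (mps B S ⊤).ncard * Nat.card F' :=
      h1.trans (by rw [mul_comm]; exact Nat.mul_le_mul_left _ hle)
    exact (Nat.pow_le_pow_iff_right hp.out.one_lt).1 (Nat.le_of_mul_le_mul_right h2 hpos)
  · intro htp
    have hlt : Nat.card (F' ⊓ fixD (mps B S ⊤) : Subgroup (MulAut L)) < Nat.card F' := by
      refine lt_of_le_of_ne hle fun hcon => htp ?_
      have h2 : F' ⊓ fixD (mps B S ⊤) = F' :=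
        Subgroup.eq_of_le_of_card_ge inf_le_left (le_of_eq hcon.symm)
      have h3 : F' ≤ tpS B := by
        intro f hf
        refine h.tp_of_fix (hfix f hf) fun P hP => ?_
        rw [← h2] at hf
        exact hf.2 P hP
      intro f hf
      have h4 : (MulAut.conj g)⁻¹ * f * MulAut.conj g ∈ F' := by
        have : (MulAut.conj g)⁻¹ * f * MulAut.conj g ∈ (F' : Set (MulAut L)) := by
          rw [hF'eq]
          exact ⟨f, hf, rfl⟩
        exact this
      have h5 : MulAut.conj g ∈ tpS B := inn_le_tpS ⟨g, rfl⟩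
      have h6 := mul_mem (mul_mem h5 (h3 h4)) (inv_mem h5)
      have e : MulAut.conj g * ((MulAut.conj g)⁻¹ * f * MulAut.conj g) * (MulAut.conj g)⁻¹ = f := by
        group
      rwa [e] at h6
    have h2 : p ^ l.length * Nat.card F' < p ^ (mps B S ⊤).ncard * Nat.card F' := by
      refine h1.trans_lt ?_
      rw [mul_comm]
      exact Nat.mul_lt_mul_of_pos_left hlt (pow_pos hp.out.pos _)
    exact (Nat.pow_lt_pow_iff_right hp.out.one_lt).1 (Nat.lt_of_mul_lt_mul_right h2)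

end

end Vale.Agent.P240.H195
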