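import Vale.Agent.P240.H195.BN

/-!
Transport of BN-pairs along isomorphisms.
-/

namespace Vale.Agent.P240.H195

open Subgroup

universe u v

section
variable {L : Type u} {L' : Type v} [Group L] [Group L'] (e : L ≃* L')
  {B N U : Subgroup L} {S : Set L} {r : ℕ}

/-- transport of a subgroup -/
abbrev tr (B : Subgroup L) : Subgroup L' := B.comap e.symm.toMonoidHom

lemma mem_tr {x : L'} : x ∈ tr e B ↔ e.symm x ∈ B := Iff.rfl

lemma tr_eq_map : tr e B = B.map e.toMonoidHom := by
  ext x
  rw [mem_tr]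
  constructor
  · intro h
    exact ⟨e.symm x, h, e.apply_symm_apply x⟩
  · rintro ⟨y, hy, rfl⟩
    change e.symm (e y) ∈ B
    rwa [e.symm_apply_apply]

lemma tr_symm_tr (Q : Subgroup L') : tr e (tr e.symm Q) = Q := by
  ext x
  change e.symm.symm (e.symm x) ∈ Q ↔ x ∈ Q
  rw [e.symm.symm_apply_apply]

lemma DC_tr {n x : L'} : DC (tr e B) n x ↔ DC B (e.symm n) (e.symm x) := by
  constructor
  · rintro ⟨a, ha, b, hb, rfl⟩
    exact ⟨e.symm a, ha, e.symm b, hb, by rw [map_mul, map_mul]⟩
  · rintro ⟨a, ha, b, hb, h⟩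
    refine ⟨e a, by rwa [mem_tr, e.symm_apply_apply], e b, by rwa [mem_tr, e.symm_apply_apply], ?_⟩
    apply e.symm.injective
    rw [h, map_mul, map_mul, e.symm_apply_apply, e.symm_apply_apply]

lemma tr_closure : closure (e.symm ⁻¹' S) = tr e (closure S) := by
  rw [tr_eq_map, MonoidHom.map_closure]
  congr 1
  ext x
  constructor
  · intro h
    exact ⟨e.symm x, h, e.apply_symm_apply x⟩
  · rintro ⟨y, hy, rfl⟩
    change e.symm (e y) ∈ S
    rwa [e.symm_apply_apply]

lemma tr_sup (A C : Subgroup L) : tr e (A ⊔ C) = tr e A ⊔ tr e C := by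
  rw [tr_eq_map, tr_eq_map, tr_eq_map, Subgroup.map_sup]

theorem BN0.tr (h : BN0 B N S) : BN0 (tr e B) (tr e N) (e.symm ⁻¹' S) where
  norm n hn t ht htN := by
    rw [mem_tr] at *
    rw [map_mul, map_mul, map_inv]
    exact h.norm _ hn _ ht htN
  sub s hs := h.sub _ hs
  span := by
    rw [tr_closure]
    change H195.tr e N = H195.tr e (closure S) ⊔ H195.tr e (B ⊓ N)
    rw [← tr_sup, ← h.span]
  sq s hs := by
    rw [mem_tr, map_mul]
    exact h.sq _ hs
  mul s hs b hb n hn := by
    rw [DC_tr, DC_tr, map_mul, map_mul, map_mul]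
    exact h.mul _ hs _ hb _ hn
  thick s hs := by
    obtain ⟨b, hb, hb'⟩ := h.thick _ hs
    refine ⟨e b, by rwa [mem_tr, e.symm_apply_apply], fun hcon => hb' ?_⟩
    rw [mem_tr, map_mul, map_mul, map_inv, e.symm_apply_apply] at hcon
    exact hcon

theorem BN.tr (h : BN B N S) : BN (tr e B) (tr e N) (e.symm ⁻¹' S) where
  toBN0 := h.toBN0.tr e
  gen := by
    rw [← tr_sup, h.gen]
    exact Subgroup.comap_top _

lemma tr_card (A : Subgroup L) : Nat.card (tr e A) = Nat.card A := by
  rw [tr_eq_map]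
  exact Subgroup.card_map_of_injective e.injective

theorem SB.tr (h : SB r B N U S) : SB r (tr e B) (tr e N) (tr e U) (e.symm ⁻¹' S) where
  toBN := h.toBN.tr e
  le x hx := h.le hx
  pgroup := h.pgroup.comap_of_injective _ e.symm.injective
  normal b hb u hu := by
    rw [mem_tr] at *
    rw [map_mul, map_mul, map_inv]
    exact h.normal _ hb _ hu
  split b hb := by
    obtain ⟨u, hu, t, ht, htN, hbu⟩ := h.split _ hb
    refine ⟨e u, by rwa [mem_tr, e.symm_apply_apply], e t, by rwa [mem_tr, e.symm_apply_apply],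
      by rwa [mem_tr, e.symm_apply_apply], ?_⟩
    apply e.symm.injective
    rw [map_mul, e.symm_apply_apply, e.symm_apply_apply]
    exact hbu
  coprime := by
    have h1 : (H195.tr e B ⊓ H195.tr e N : Subgroup L') = H195.tr e (B ⊓ N) := rfl
    rw [h1, tr_card]
    exact h.coprime
  strong s hs x hx hsx u hu := by
    rw [mem_tr] at *
    rw [map_mul, map_mul, map_inv] at hsx ⊢
    rw [map_mul, map_mul, map_inv]
    exact h.strong _ hs _ hx hsx _ hu
  opp := by
    obtain ⟨n, hn, h1⟩ := h.opp
    refine ⟨e n, by rwa [mem_tr, e.symm_apply_apply], fun x hx hnx => ?_⟩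
    rw [mem_tr, map_mul, map_mul, map_inv, e.symm_apply_apply] at hnx
    apply e.symm.injective
    rw [map_one]
    exact h1 _ hx hnx
  nonempty := by
    obtain ⟨s, hs⟩ := h.nonempty
    exact ⟨e s, by change e.symm (e s) ∈ S; rwa [e.symm_apply_apply]⟩

theorem RigidBN.tr (h : RigidBN r B N U S) :
    RigidBN r (tr e B) (tr e N) (tr e U) (e.symm ⁻¹' S) where
  toSB := h.toSB.tr e
  comm x hx hx' y hy hy' := by
    apply e.symm.injective
    rw [map_mul, map_mul]
    exact h.comm _ hx hx' _ hy hy'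
  rigid n hn hopp f hfp hfQ hfC hfT := by
    have hmem : ∀ (A : Subgroup L') (g : MulAut L') (x : L'),
        x ∈ A.map g.toMonoidHom ↔ g.symm x ∈ A := fun A g x => by
      constructor
      · rintro ⟨y, hy, rfl⟩
        change g.symm (g y) ∈ A
        rwa [g.symm_apply_apply]
      · intro h
        exact ⟨g.symm x, h, g.apply_symm_apply x⟩
    have hmem' : ∀ (A : Subgroup L) (g : MulAut L) (x : L),
        x ∈ A.map g.toMonoidHom ↔ g.symm x ∈ A := fun A g x => by
      constructor
      · rintro ⟨y, hy, rfl⟩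
        change g.symm (g y) ∈ A
        rwa [g.symm_apply_apply]
      · intro h
        exact ⟨g.symm x, h, g.apply_symm_apply x⟩
    set g : MulAut L := MulAut.congr e.symm f with hg
    have hga : ∀ x, g x = e.symm (f (e x)) := fun x => rfl
    have hgs : ∀ x, g.symm x = e.symm (f.symm (e x)) := fun x => rfl
    have h1 : g = 1 := by
      refine h.rigid (e.symm n) hn (fun x hx hnx => ?_) g (by rw [hg, ← map_pow, hfp, map_one]) ?_ ?_
        fun t ht htN => ?_
      · have h2 := hopp (e x) (by rwa [mem_tr, e.symm_apply_apply]) (by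
          rw [mem_tr, map_mul, map_mul, map_inv, e.symm_apply_apply]
          exact hnx)
        exact e.injective (h2.trans (map_one e).symm)
      · intro Q hQ
        have h2 := hfQ (H195.tr e Q) fun x hx => hQ hx
        ext x
        rw [hmem', hgs]
        have h3 : e x ∈ (H195.tr e Q).map f.toMonoidHom ↔ e x ∈ H195.tr e Q := by rw [h2]
        rw [hmem, mem_tr, mem_tr, e.symm_apply_apply] at h3
        exact h3
      · ext x
        rw [hmem', hmem', hmem', hgs]
        have h3 : e x ∈ ((H195.tr e B).map (MulAut.conj n).toMonoidHom).map f.toMonoidHom ↔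
            e x ∈ (H195.tr e B).map (MulAut.conj n).toMonoidHom := by rw [hfC]
        rw [hmem, hmem, hmem, MulAut.conj_symm_apply, MulAut.conj_symm_apply, mem_tr, mem_tr,
          map_mul, map_mul, map_mul, map_mul, map_inv, e.symm_apply_apply] at h3
        rw [MulAut.conj_symm_apply, MulAut.conj_symm_apply]
        exact h3
      · rw [hga]
        have h2 := hfT (e t) (by rwa [mem_tr, e.symm_apply_apply]) (by
          rwa [mem_tr, e.symm_apply_apply])
        rw [h2, e.symm_apply_apply]
    apply MulEquiv.ext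
    intro x
    have h2 : g (e.symm x) = e.symm x := by rw [h1]; rfl
    rw [hga, e.apply_symm_apply] at h2
    exact e.symm.injective h2

theorem SplitBN.tr (h : SplitBN r B N U S) :
    SplitBN r (tr e B) (tr e N) (tr e U) (e.symm ⁻¹' S) where
  toSB := h.toSB.tr e
  irr J hJ hJne hJc hd := by
    have hmem : ∀ x : L, x ∈ e ⁻¹' J ↔ e x ∈ J := fun x => Iff.rfl
    have hS : ∀ x : L, e x ∈ e.symm ⁻¹' S ↔ x ∈ S := fun x => by
      change e.symm (e x) ∈ S ↔ x ∈ S
      rw [e.symm_apply_apply]
    obtain ⟨a, ha, b, hb, hab⟩ := h.irr (e ⁻¹' J) (fun x hx => (hS x).1 (hJ hx)) (by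
        obtain ⟨x, hx⟩ := hJne
        exact ⟨e.symm x, by change e (e.symm x) ∈ J; rwa [e.apply_symm_apply]⟩) (by
        obtain ⟨x, hx, hx'⟩ := hJc
        refine ⟨e.symm x, hx, fun hcon => hx' ?_⟩
        rwa [hmem, e.apply_symm_apply] at hcon) (by
        intro a ha b hb hab
        refine hd (e a) ha (e b) ⟨(hS b).2 hb.1, hb.2⟩ ?_
        rw [mem_tr, map_mul, map_inv, e.symm_apply_apply, e.symm_apply_apply]
        exact hab)
    refine ⟨e a, ha, e b, ⟨(hS b).2 hb.1, hb.2⟩, fun hcon => hab ?_⟩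
    rw [mem_tr, map_mul, map_inv, map_mul, map_mul, e.symm_apply_apply, e.symm_apply_apply] at hcon
    exact hcon

include e in
lemma centreless_tr (h : ∀ x : L, (∀ y, x * y = y * x) → x = 1) :
    ∀ x : L', (∀ y, x * y = y * x) → x = 1 := by
  intro x hx
  apply e.symm.injective
  rw [map_one]
  refine h _ fun y => ?_
  have h1 := congrArg e.symm (hx (e y))
  rwa [map_mul, map_mul, e.symm_apply_apply] at h1

include e in
theorem RigidLie.tr (h : RigidLie r L) : RigidLie r L' := by
  obtain ⟨hs, hc, B, N, U, S, hB⟩ := h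
  exact ⟨e.symm.isSimpleGroup, centreless_tr e hc, _, _, _, _, hB.tr e⟩

include e in
theorem LieType.tr (h : LieType r L) : LieType r L' := by
  obtain ⟨hs, hc, B, N, U, S, hB⟩ := h
  exact ⟨e.symm.isSimpleGroup, centreless_tr e hc, _, _, _, _, hB.tr e⟩

end

end Vale.Agent.P240.H195
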