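import Vale.Agent.P240.H195.RFam
import Vale.Agent.P240.H195.RIso

/-!
The main theorem: components of Lie type in characteristic `p` are removed first, then the removable
components; the remaining components satisfy the `l`-adic condition.
-/

namespace Vale.Agent.P240.H195

open Subgroup Vale.Agent.P240.K Finsupp

universe u v

section
variable {𝕜 : Type v} [Field 𝕜] {G : Type u} [Group G] {p : ℕ}

theorem prod_cen [hp : Fact p.Prime] [Finite G] {F : Set (Subgroup G)} (hF : Family p F)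
    {D : Set (Subgroup G)} (hDF : D ⊆ F)
    (hconj : ∀ L ∈ D, ∀ g : G, L.map (MulAut.conj g).toMonoidHom ∈ D) {S : Set G}
    (hS : ∀ L ∈ D, ∀ h ∈ Rest F D, h ^ p = 1 → h ∉ normalizer (L : Set G) → ∀ s ∈ S, s ∈ L →
      h * s * h⁻¹ ∈ S)
    (hno : ∑ g ∈ (Set.toFinite (Sel D S)).toFinset, lam p (Rz (Rest F D) D) g ≠ 0)
    {T : Set (Subgroup G)} (hTF : T ⊆ F) (hTD : ∀ L ∈ D, L ∉ T)
    (hT : ∀ L ∈ F, L ∈ D ∨ L ∈ T) : NA 𝕜 (Ain p (Cen T)) := by
  refine NA_of_rat (Set.toFinite _) ?_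
  by_contra hac
  apply hno
  have h0 : ((0 : ℕ) : ℤ) ∣ ∑ g ∈ (Set.toFinite (Sel D S)).toFinset,
      lam p (Rz (Rest F D) D) g :=
    twisted (family_Fam hF hDF hconj) hS hp.out.ne_zero.symm (Or.inl rfl) fun g hg =>
      residue_lam hF hTF hTD hp.out.ne_zero.symm
        (fun L h1 h2 h3 => absurd ((hT L h1).resolve_left h3) h2) hac hg
  rwa [Nat.cast_zero, zero_dvd_iff] at h0

/-- the `l`-adic criterion for the common centralizer of the other components -/
theorem adic_cen [hp : Fact p.Prime] {l : ℕ} (hl : l.Prime) [Finite G]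
    {F D : Set (Subgroup G)} {S : Set G}
    (hF : Family p F) (hC : Rest F (∅ : Set (Subgroup G)) = ⊥) (hDF : D ⊆ F)
    (hconj : ∀ L ∈ D, ∀ g : G, L.map (MulAut.conj g).toMonoidHom ∈ D)
    (hloc : ∀ L ∈ D, AdicGood p l S L)
    {T : Set (Subgroup G)} (hTF : T ⊆ F) (hTD : ∀ L ∈ D, L ∉ T)
    (hT : ∀ L ∈ F, L ∈ D ∨ L ∈ T) : NA 𝕜 (Ain p (Cen T)) := by
  have : Fact l.Prime := ⟨hl⟩
  refine prod_cen (p := p) (D := D) (S := S) hF hDF hconj (fun L hL h _ hh hn => (hloc L hL).move h hh hn) ?_ hTF hTD hT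
  refine Fam.adic (l := l) (family_Fam hF hDF hconj) (fun L hL => (hloc L hL).conj) ?_ ?_
  · intro E hE hER
    by_contra h
    push Not at h
    apply hE.1
    rw [eq_bot_iff]
    intro x hx
    rw [Subgroup.mem_bot]
    rw [← Subgroup.mem_bot, ← hC, mem_Rest]
    intro L hL _
    by_cases hLD : L ∈ D
    · exact h L hLD hx
    · exact mem_Rest.1 (hER hx) L hL hLD
  · intro L hL
    obtain ⟨k, h1, h2⟩ := (hloc L hL).adic
    exact ⟨k, h1, fun E hE _ hEN hEC => h2 E hEN hE hEC⟩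

/-- the `l`-adic condition with `S = {1}` for `l`-free components -/
lemma free_adic [hp : Fact p.Prime] {l : ℕ} [hl : Fact l.Prime] [Finite G] {L : Subgroup G}
    (hc : L ⊓ centralizer (L : Set G) = ⊥) (hF : FreeSub p l L) : AdicGood p l {1} L := by
  classical
  refine ⟨fun h _ _ s hs _ => ?_, fun g _ s hs _ => ?_, 0, ?_, ?_⟩
  · rw [Set.mem_singleton_iff] at hs ⊢
    rw [hs, mul_one, mul_inv_cancel]
  · rw [Set.mem_singleton_iff] at hs ⊢
    rw [hs, mul_one, mul_inv_cancel]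
  · rw [zero_add, pow_one]
    have hlam := H148.free_lam (p := p) (l := l) hc hF
    have hmem1 : (1 : G) ∈ (Set.toFinite (L : Set G)).toFinset := by
      rw [Set.Finite.mem_toFinset]
      exact L.one_mem
    rw [wsum_eq]
    simp only [ite_mul, one_mul, zero_mul]
    have h1 : ∑ a ∈ (Set.toFinite (L : Set G)).toFinset,
        (if a ∈ ({1} : Set G) then lam p L a else 0) = lam p L 1 := by
      rw [Finset.sum_eq_single_of_mem 1 hmem1]
      · rw [if_pos (Set.mem_singleton 1)]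
      · intro b _ hb1
        rw [if_neg fun h => hb1 (Set.mem_singleton_iff.1 h)]
    rw [h1]
    exact hlam
  · intro E hEN hE hEC
    rw [zero_add, pow_one]
    exact Dvd.dvd.mul_right (by exact_mod_cast H148.free_index hF hE hEN hEC) _

lemma rigidLie_cj {L : Subgroup G} {g : G} (h : RigidLie p L) : RigidLie p (cj g L) :=
  h.tr (L.equivMapOfInjective (MulAut.conj g).toMonoidHom (MulAut.conj g).injective)

lemma rigidLie_cj_iff {L : Subgroup G} {g : G} : RigidLie p (cj g L) ↔ RigidLie p L := by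
  refine ⟨fun h => ?_, rigidLie_cj⟩
  have h1 := rigidLie_cj (g := g⁻¹) h
  rwa [← cj_mul, inv_mul_cancel, cj_one] at h1

lemma Cen_union (S T : Set (Subgroup G)) : Cen (S ∪ T) = Cen S ⊓ Cen T := by
  ext x
  rw [mem_inf, mem_Cen, mem_Cen, mem_Cen]
  constructor
  · exact fun h => ⟨fun L hL => h L (Or.inl hL), fun L hL => h L (Or.inr hL)⟩
  · rintro ⟨h1, h2⟩ L (hL | hL)
    · exact h1 L hL
    · exact h2 L hL

/-- **The main theorem** for groups with `O_p(G) = O_{p'}(G) = 1`. -/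
theorem all_main {𝕜 : Type v} [Field 𝕜] [hp : Fact p.Prime] [Finite G] {l : ℕ}
    (hO : OpTrivial p G) (hO' : OpPrimeTrivial p G) (hl : l.Prime)
    (h : ∀ L ∈ Q.Comp G, RigidLie p L ∨ Treated 𝕜 p l L) : HQ 𝕜 p G := by
  have hlF : Fact l.Prime := ⟨hl⟩
  have hF := comp_family hO hO'
  rw [HQ_iff]
  set R : Set (Subgroup G) := {L | L ∈ Q.Comp G ∧ RigidLie p L} with hR
  set D : Set (Subgroup G) := {L | L ∈ Q.Comp G ∧ ¬ RigidLie p L ∧ (AO p l L ∨ FreeSub p l L)}
    with hD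
  set T : Set (Subgroup G) := {L | L ∈ Q.Comp G ∧ ¬ RigidLie p L ∧ ¬ (AO p l L ∨ FreeSub p l L)}
    with hT
  have hRc : ∀ g : G, ∀ L ∈ R, cj g L ∈ R := fun g L hL =>
    ⟨hF.conj L hL.1 g, rigidLie_cj hL.2⟩
  have hDc : ∀ L ∈ D, ∀ g : G, L.map (MulAut.conj g).toMonoidHom ∈ D := by
    rintro L ⟨h1, h2, h3⟩ g
    refine ⟨hF.conj L h1 g, fun hcon => h2 (rigidLie_cj_iff.1 hcon), ?_⟩
    rcases h3 with h3 | h3
    · exact Or.inl (h3.cj g)
    · exact Or.inr (H148.freeSub_cj h3 g)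
  have hrem : ∀ L ∈ T, Removable 𝕜 p L := by
    rintro L ⟨hL, h1, h2⟩
    rcases (h L hL).resolve_left h1 with h3 | ⟨h3, h4⟩ | ⟨r, hr, hrp, h3, h4⟩ | ⟨h3, h4⟩ | h3 | h3
    · exact removable_alt h3
    · rcases h4 with h4 | ⟨h4, h5⟩
      · exact Or.inl ⟨fewOuter_of_same h4, almostSimpleHQ_char h3 hp.out h4⟩
      · exact absurd (Or.inl (ao_char hl h4 h3 h5)) h2
    · have hfree : AutFree p r L := h3.autFree hr hp.out hrp.symm
      rcases h4 with h4 | h4 | h4
      · subst h4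
        exact absurd (Or.inr hfree.freeSub) h2
      · exact Or.inr ⟨r, hr, hrp, h4, hfree.freeSub⟩
      · exact Or.inl ⟨h4, hfree.almostSimpleHQ hr⟩
    · rcases h4 with ⟨r, hr, h4⟩ | h4
      · exact Or.inl ⟨h3, h4.almostSimpleHQ hr⟩
      · exact Or.inl ⟨h3, h4⟩
    · exact absurd (Or.inr h3) h2
    · exact Or.inr h3
  refine remove hF (T := T) (fun L hL => hL.1) hrem ?_
  refine rigid_step (R := R) (fun L hL => hF.le_Cen (fun L hL => hL.1) hL.1
    fun hcon => hcon.2.1 hL.2) (fun g _ => hRc g)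
    (fun L hL M hM => hF.comm L hL.1 M hM.1) (fun L hL => hL.2) ?_
  rw [← Cen_union]
  refine adic_cen (S := {1}) hl hF (comp_rest hO hO') (D := D) (fun L hL => hL.1) hDc
    (fun L hL => ?_) (T := T ∪ R) ?_ ?_ ?_
  · rcases hL.2.2 with h1 | h1
    · exact adic_adic (adic_one h1.1 h1.2.1 h1.2.2)
    · exact free_adic (hF.centre L hL.1) h1
  · rintro L (hL | hL)
    · exact hL.1
    · exact hL.1
  · rintro L hL (hL' | hL')
    · exact hL'.2.2 hL.2.2
    · exact hL.2.1 hL'.2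
  · intro L hL
    by_cases h1 : RigidLie p L
    · exact Or.inr (Or.inr ⟨hL, h1⟩)
    · by_cases h2 : AO p l L ∨ FreeSub p l L
      · exact Or.inl ⟨hL, h1, h2⟩
      · exact Or.inr (Or.inl ⟨hL, h1, h2⟩)

end

end Vale.Agent.P240.H195
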