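import Vale.Agent.P240.H195.THom

/-!
Acyclic carriers: if every element `x` of a poset has an acyclic set `Y x`, decreasing in `x`, then
there is a chain map sending lists with smallest element `x` to chains of `Y x`.
-/

namespace Vale.Agent.P240.H195

open Finsupp Vale.Agent.P240.K

universe u v w

section
variable {𝕜 : Type v} [Field 𝕜] {α : Type u} {β : Type w} [PartialOrder α] [PartialOrder β]

/-- linear extension of a function on lists -/
noncomputable def lx (F : List α → Ch 𝕜 β) : Ch 𝕜 α →ₗ[𝕜] Ch 𝕜 β := Finsupp.linearCombination 𝕜 F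

omit [PartialOrder α] [PartialOrder β] in
lemma lx_single (F : List α → Ch 𝕜 β) (l : List α) : lx F (single l (1 : 𝕜)) = F l := by
  simp [lx, Finsupp.linearCombination_single]

open Classical in
/-- the values of the chain map on lists of length `n` -/
noncomputable def carF (Y : α → Set β) (D : Set β) (j : β → α) : ℕ → List α → Ch 𝕜 β
  | 0, _ => single [] 1
  | n + 1, l =>
    if h1 : ∃ m : List β, st D m ∧ m.map j = l then single h1.choose 1
    else if h : ∃ c ∈ Sp 𝕜 (st {y | ∀ x, l.getLast? = Option.some x → y ∈ Y x}),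
        bd c = lx (carF Y D j n) (bd (single l (1 : 𝕜))) then len (n + 1) h.choose else 0

/-- the chain map -/
noncomputable def car (Y : α → Set β) (D : Set β) (j : β → α) : Ch 𝕜 α →ₗ[𝕜] Ch 𝕜 β :=
  lx fun l => carF Y D j l.length l

variable {Y : α → Set β} {D : Set β} {j : β → α}

omit [PartialOrder α] in
lemma car_single (l : List α) : car Y D j (single l (1 : 𝕜)) = carF Y D j l.length l :=
  lx_single _ l

omit [PartialOrder α] in
lemma car_eq_lx {n : ℕ} {c : Ch 𝕜 α} (hc : c ∈ Sp 𝕜 (fun l : List α => l.length = n)) :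
    car Y D j c = lx (carF Y D j n) c := by
  refine eq_of_Sp (F := car Y D j) (G := lx (carF Y D j n)) (fun l hl => ?_) hc
  rw [car_single, lx_single, hl]

omit [PartialOrder α] in
lemma carF_map (hj : Function.Injective j) {n : ℕ} {m : List β} (hm : st D m)
    (hn : m.length = n) : carF (𝕜 := 𝕜) Y D j n (m.map j) = single m 1 := by
  cases n with
  | zero =>
    rw [List.length_eq_zero_iff] at hn
    subst hn
    rfl
  | succ n =>
    have h1 : ∃ m' : List β, st D m' ∧ m'.map j = m.map j := ⟨m, hm, rfl⟩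
    rw [carF, dif_pos h1]
    have h2 : h1.choose = m := List.map_injective_iff.2 hj h1.choose_spec.2
    rw [h2]

omit [PartialOrder α] in
lemma car_map (hj : Function.Injective j) {c : Ch 𝕜 β} (hc : c ∈ Sp 𝕜 (st D)) :
    car Y D j (mp j c) = c := by
  have := eq_of_Sp (F := (car Y D j).comp (mp j)) (G := LinearMap.id) (fun m (hm : st D m) => by
    rw [LinearMap.comp_apply, mp_single, car_single, carF_map hj hm (by rw [List.length_map])]
    rfl) hc
  simpa using this

omit [PartialOrder α] in
lemma faces {l : List α} {n : ℕ} (hl : l.length = n + 1) :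
    bd (single l (1 : 𝕜)) ∈ Sp 𝕜 (fun m : List α => m.length = n ∧ m.Sublist l) := by
  have h1 : bd (single l (1 : 𝕜)) ∈ Sp 𝕜 (fun m : List α => m.Sublist l) :=
    bd_mem (fun l l' hs h => hs.trans h)
      (single_mem_Sp (P := fun m : List α => m.Sublist l) (List.Sublist.refl l) _)
  have h2 := len_mem (n := n) h1
  rwa [← bd_len, len_single, if_pos hl] at h2

/-- the properties of the chain map on lists of length `n` -/
theorem carF_spec {W : Set α} (hac : ∀ x ∈ W, ¬ NA 𝕜 (Y x))
    (hanti : ∀ x ∈ W, ∀ y ∈ W, x ≤ y → Y y ⊆ Y x) (hj : Function.Injective j)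
    (hjD : ∀ x ∈ D, ∀ y ∈ D, x ≤ y → y ∈ Y (j x)) : ∀ n : ℕ, ∀ l : List α, st W l →
      l.length = n → carF Y D j n l ∈ Sp 𝕜 (fun m : List β => m.length = n) ∧
      carF Y D j n l ∈ Sp 𝕜 (st {y | ∀ x, l.getLast? = Option.some x → y ∈ Y x}) ∧
      bd (carF Y D j n l) = car Y D j (bd (single l (1 : 𝕜))) := by
  intro n
  induction n with
  | zero =>
    intro l _ hn
    rw [List.length_eq_zero_iff] at hn
    subst hn
    rw [carF]
    refine ⟨single_mem_Sp (P := fun m : List β => m.length = 0) rfl _,
      single_mem_Sp ⟨List.Pairwise.nil, by simp⟩ _, ?_⟩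
    rw [bd_single_nil, bd_single_nil, map_zero]
  | succ n ih =>
    intro l hl hn
    by_cases h1 : ∃ m : List β, st D m ∧ m.map j = l
    · obtain ⟨m, hm, rfl⟩ := h1
      have hmn : m.length = n + 1 := by rw [← hn, List.length_map]
      rw [carF_map hj hm hmn]
      have h2 : ∀ y ∈ m, y ∈ {y | ∀ x, (m.map j).getLast? = Option.some x → y ∈ Y x} := by
        intro y hy x hx
        rcases List.eq_nil_or_concat m with rfl | ⟨m', x', rfl⟩
        · simp at hmn
        rw [List.concat_eq_append] at *
        have hx' : j x' = x := by simpa using hx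
        subst hx'
        refine hjD x' (hm.2 x' (by simp)) y (hm.2 y hy) ?_
        rcases List.mem_append.1 hy with h2 | h2
        · exact ((List.pairwise_append.1 hm.1).2.2 y h2 x' (by simp)).le
        · rw [List.mem_singleton] at h2
          rw [h2]
      refine ⟨single_mem_Sp (P := fun m : List β => m.length = n + 1) hmn _,
        single_mem_Sp ⟨hm.1, h2⟩ _, ?_⟩
      have e : single (m.map j) (1 : 𝕜) = mp j (single m 1) := by rw [mp_single]
      rw [e, bd_mp, car_map hj]
      exact bd_mem (fun l l' hs h => ⟨h.1.sublist hs, fun a ha => h.2 a (hs.subset ha)⟩)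
        (single_mem_Sp hm _)
    · have hf := faces (𝕜 := 𝕜) hn
      have hlx : car Y D j (bd (single l (1 : 𝕜))) =
          lx (carF Y D j n) (bd (single l (1 : 𝕜))) :=
        car_eq_lx (Sp_mono (fun m hm => hm.1) hf)
      rcases List.eq_nil_or_concat l with rfl | ⟨l', x, rfl⟩
      · simp at hn
      rw [List.concat_eq_append] at *
      have hxW : x ∈ W := hl.2 x (by simp)
      have hlast : {y : β | ∀ x', (l' ++ [x]).getLast? = Option.some x' → y ∈ Y x'} = Y x := by
        ext y
        simp
      have hsub : ∀ m : List α, m.Sublist (l' ++ [x]) → st W m :=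
        fun m hm => ⟨hl.1.sublist hm, fun a ha => hl.2 a (hm.subset ha)⟩
      have hz : lx (carF Y D j n) (bd (single (l' ++ [x]) (1 : 𝕜))) ∈ Sp 𝕜 (st (Y x)) := by
        refine map_mem _ (fun m hm => ?_) hf
        rw [lx_single]
        have h2 := (ih m (hsub m hm.2) hm.1).2.1
        rcases List.eq_nil_or_concat m with rfl | ⟨m', x', rfl⟩
        · have hn0 : n = 0 := hm.1.symm
          subst hn0
          exact single_mem_Sp ⟨List.Pairwise.nil, by simp⟩ _
        rw [List.concat_eq_append] at *
        refine Sp_mono (st_mono fun y hy => ?_) h2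
        have hx'W : x' ∈ W := hl.2 x' (hm.2.subset (by simp))
        refine hanti x hxW x' hx'W ?_ (hy x' (by simp))
        have hx'l : x' ∈ l' ++ [x] := hm.2.subset (by simp)
        rcases List.mem_append.1 hx'l with h3 | h3
        · exact ((List.pairwise_append.1 hl.1).2.2 x' h3 x (by simp)).le
        · rw [List.mem_singleton] at h3
          rw [h3]
      have hbz : bd (lx (carF Y D j n) (bd (single (l' ++ [x]) (1 : 𝕜)))) = 0 := by
        have h3 : ∀ c ∈ Sp 𝕜 (fun m : List α => m.length = n ∧ m.Sublist (l' ++ [x])),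
            bd (lx (carF Y D j n) c) = car Y D j (bd c) := by
          intro c hc
          refine eq_of_Sp (F := bd.comp (lx (carF Y D j n))) (G := (car Y D j).comp bd)
            (fun m hm => ?_) hc
          rw [LinearMap.comp_apply, LinearMap.comp_apply, lx_single]
          exact (ih m (hsub m hm.2) hm.1).2.2
        rw [h3 _ hf, bd_bd, map_zero]
      have h4 := not_NA_iff.1 (hac x hxW) _ hz hbz
      have h5 : ∃ c ∈ Sp 𝕜 (st {y | ∀ x', (l' ++ [x]).getLast? = Option.some x' → y ∈ Y x'}),
          bd c = lx (carF Y D j n) (bd (single (l' ++ [x]) (1 : 𝕜))) := by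
        rw [hlast]
        exact h4
      have hval : carF (𝕜 := 𝕜) Y D j (n + 1) (l' ++ [x]) = len (n + 1) h5.choose := by
        rw [carF, dif_neg h1, dif_pos h5]
      have h6 := h5.choose_spec
      rw [hval]
      refine ⟨Sp_mono (fun m hm => hm.1) (len_mem (P := fun _ => True) (by simp [mem_Sp])),
        len_st h6.1, ?_⟩
      rw [bd_len, h6.2, hlx]
      refine len_of_mem (map_mem _ (fun m hm => ?_) hf)
      rw [lx_single]
      exact (ih m (hsub m hm.2) hm.1).1

variable {W : Set α} (hac : ∀ x ∈ W, ¬ NA 𝕜 (Y x))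
  (hanti : ∀ x ∈ W, ∀ y ∈ W, x ≤ y → Y y ⊆ Y x) (hj : Function.Injective j)
  (hjD : ∀ x ∈ D, ∀ y ∈ D, x ≤ y → y ∈ Y (j x))
include hac hanti hj hjD

/-- the chain map commutes with the boundary -/
theorem bd_car {c : Ch 𝕜 α} (hc : c ∈ Sp 𝕜 (st W)) : bd (car Y D j c) = car Y D j (bd c) := by
  refine eq_of_Sp (F := bd.comp (car Y D j)) (G := (car Y D j).comp bd) (fun l hl => ?_) hc
  rw [LinearMap.comp_apply, LinearMap.comp_apply, car_single]
  exact (carF_spec hac hanti hj hjD _ l hl rfl).2.2

/-- the values at chains above `x` of length `n ≥ 1` -/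
theorem car_mem {n : ℕ} {Z : Set α} {V : Set β} (hZW : Z ⊆ W) (hV : ∀ x ∈ Z, Y x ⊆ V)
    {c : Ch 𝕜 α} (hc : c ∈ Sp 𝕜 (fun l : List α => st Z l ∧ l.length = n + 1)) :
    car Y D j c ∈ Sp 𝕜 (fun m : List β => st V m ∧ m.length = n + 1) := by
  refine map_mem _ (fun l hl => ?_) hc
  rw [car_single]
  obtain ⟨h1, h2, -⟩ := carF_spec hac hanti hj hjD _ l
    ⟨hl.1.1, fun a ha => hZW (hl.1.2 a ha)⟩ rfl
  rw [hl.2] at h1 h2 ⊢
  refine Sp_mono (fun m hm => ?_) (mem_Sp_inf h1 h2)
  refine ⟨⟨hm.2.1, fun y hy => ?_⟩, hm.1⟩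
  rcases List.eq_nil_or_concat l with rfl | ⟨l', x, rfl⟩
  · simp at hl
  rw [List.concat_eq_append] at *
  exact hV x (hl.1.2 x (by simp)) (hm.2.2 y hy x (by simp))

end

end Vale.Agent.P240.H195
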