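import Vale.Agent.P240.H195.TTop

/-!
Products of groups with rigid split BN-pairs.
-/

namespace Vale.Agent.P240.H195

open Subgroup Vale.Agent.P240.K

universe u

section
variable {ι : Type*} [Finite ι] [DecidableEq ι] {L : ι → Type u} [∀ i, Group (L i)]
  {B N U : ∀ i, Subgroup (L i)} {S : ∀ i, Set (L i)} {p : ℕ}

/-- the product of subgroups -/
abbrev PP (B : ∀ i, Subgroup (L i)) : Subgroup (∀ i, L i) := Subgroup.pi Set.univ B

/-- the union of the sets of fundamental reflections -/
def PS (S : ∀ i, Set (L i)) : Set (∀ i, L i) := {x | ∃ i, ∃ s ∈ S i, x = Pi.mulSingle i s}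

omit [Finite ι] [DecidableEq ι] in
lemma mem_PP {x : ∀ i, L i} : x ∈ PP B ↔ ∀ i, x i ∈ B i := by
  rw [Subgroup.mem_pi]
  exact ⟨fun h i => h i (Set.mem_univ i), fun h i _ => h i⟩

omit [Finite ι] in
lemma single_mem {i : ι} {x : L i} : Pi.mulSingle i x ∈ PP B ↔ x ∈ B i := by
  rw [mem_PP]
  constructor
  · intro h
    have := h i
    rwa [Pi.mulSingle_eq_same] at this
  · intro h j
    by_cases hj : j = i
    · subst hj
      rwa [Pi.mulSingle_eq_same]
    · rw [Pi.mulSingle_eq_of_ne hj]
      exact one_mem _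

omit [Finite ι] [DecidableEq ι] in
lemma DC_pi {n x : ∀ i, L i} : DC (PP B) n x ↔ ∀ i, DC (B i) (n i) (x i) := by
  constructor
  · rintro ⟨a, ha, b, hb, rfl⟩ i
    exact ⟨a i, mem_PP.1 ha i, b i, mem_PP.1 hb i, rfl⟩
  · intro h
    choose a ha b hb he using h
    exact ⟨a, mem_PP.2 ha, b, mem_PP.2 hb, funext he⟩

omit [Finite ι] in
lemma conj_single {i : ι} (g : ∀ i, L i) (x : L i) :
    g * Pi.mulSingle i x * g⁻¹ = Pi.mulSingle i (g i * x * (g i)⁻¹) := by
  funext j
  by_cases hj : j = i
  · subst hj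
    simp
  · simp [Pi.mulSingle_eq_of_ne hj]

theorem BN.prod (h : ∀ i, BN (B i) (N i) (S i)) : BN (PP B) (PP N) (PS S) where
  norm n hn t htB htN := mem_PP.2 fun i =>
    (h i).norm (n i) (mem_PP.1 hn i) (t i) (mem_PP.1 htB i) (mem_PP.1 htN i)
  sub := by
    rintro _ ⟨i, s, hs, rfl⟩
    exact single_mem.2 ((h i).sub s hs)
  span := by
    apply le_antisymm
    · rw [Subgroup.pi_le_iff]
      intro i
      rw [(h i).span, Subgroup.map_sup]
      refine sup_le_sup ?_ ?_
      · rw [MonoidHom.map_closure]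
        refine Subgroup.closure_mono ?_
        rintro _ ⟨s, hs, rfl⟩
        exact ⟨i, s, hs, rfl⟩
      · rintro _ ⟨t, ht, rfl⟩
        exact mem_inf.2 ⟨single_mem.2 ht.1, single_mem.2 ht.2⟩
    · refine sup_le ?_ inf_le_right
      rw [Subgroup.closure_le]
      rintro _ ⟨i, s, hs, rfl⟩
      exact single_mem.2 ((h i).sub s hs)
  sq := by
    rintro _ ⟨i, s, hs, rfl⟩
    rw [← Pi.mulSingle_mul]
    exact single_mem.2 ((h i).sq s hs)
  mul := by
    rintro _ ⟨i, s, hs, rfl⟩ b hb n hn
    have hother : ∀ j, j ≠ i → ((Pi.mulSingle i s : ∀ i, L i) * b * n) j = b j * n j := by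
      intro j hj
      simp [Pi.mulSingle_eq_of_ne hj]
    have hsame : ((Pi.mulSingle i s : ∀ i, L i) * b * n) i = s * b i * n i := by simp
    rcases (h i).mul s hs (b i) (mem_PP.1 hb i) (n i) (mem_PP.1 hn i) with h1 | h1
    · left
      rw [DC_pi]
      intro j
      by_cases hj : j = i
      · subst hj
        rw [hsame]
        exact h1
      · rw [hother j hj]
        exact (DC.refl _).left (mem_PP.1 hb j)
    · right
      rw [DC_pi]
      intro j
      by_cases hj : j = i
      · subst hj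
        rw [hsame]
        have : ((Pi.mulSingle j s : ∀ i, L i) * n) j = s * n j := by simp
        rw [this]
        exact h1
      · rw [hother j hj]
        have : ((Pi.mulSingle i s : ∀ i, L i) * n) j = n j := by
          simp [Pi.mulSingle_eq_of_ne hj]
        rw [this]
        exact (DC.refl _).left (mem_PP.1 hb j)
  thick := by
    rintro _ ⟨i, s, hs, rfl⟩
    obtain ⟨b, hb, h1⟩ := (h i).thick s hs
    refine ⟨Pi.mulSingle i b, single_mem.2 hb, fun hcon => h1 ?_⟩
    have := mem_PP.1 hcon i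
    simpa using this
  gen := by
    rw [eq_top_iff, ← Subgroup.pi_top Set.univ, Subgroup.pi_le_iff]
    intro i
    rw [← (h i).gen, Subgroup.map_sup]
    refine sup_le_sup ?_ ?_
    · rintro _ ⟨t, ht, rfl⟩
      exact single_mem.2 ht
    · rintro _ ⟨t, ht, rfl⟩
      exact single_mem.2 ht

theorem SB.prod [Nonempty ι] [hp : Fact p.Prime] [∀ i, Finite (L i)]
    (h : ∀ i, SB p (B i) (N i) (U i) (S i)) : SB p (PP B) (PP N) (PP U) (PS S) where
  toBN := BN.prod fun i => (h i).toBN
  le x hx := mem_PP.2 fun i => (h i).le (mem_PP.1 hx i)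
  pgroup := by
    classical
    have := Fintype.ofFinite ι
    rintro ⟨x, hx⟩
    choose k hk using fun i => (h i).pgroup ⟨x i, mem_PP.1 hx i⟩
    refine ⟨∑ i, k i, Subtype.ext (funext fun i => ?_)⟩
    have h1 : x i ^ p ^ k i = 1 := congrArg Subtype.val (hk i)
    change x i ^ p ^ (∑ i, k i) = 1
    rw [← Finset.add_sum_erase _ _ (Finset.mem_univ i), pow_add, pow_mul, h1, one_pow]
  normal b hb x hx := mem_PP.2 fun i =>
    (h i).normal (b i) (mem_PP.1 hb i) (x i) (mem_PP.1 hx i)
  split b hb := by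
    choose u hu t ht htN he using fun i => (h i).split (b i) (mem_PP.1 hb i)
    exact ⟨u, mem_PP.2 hu, t, mem_PP.2 ht, mem_PP.2 htN, funext he⟩
  coprime := by
    intro hdvd
    obtain ⟨⟨x, hx⟩, hxo⟩ := exists_prime_orderOf_dvd_card' (G := (PP B ⊓ PP N : Subgroup _)) p hdvd
    have hxp : x ^ p = 1 := by
      have h1 := pow_orderOf_eq_one (⟨x, hx⟩ : (PP B ⊓ PP N : Subgroup _))
      rw [hxo] at h1
      exact congrArg Subtype.val h1
    have hx1 : x = 1 := by
      funext i
      exact r4_eq_one (M := B i ⊓ N i) (h i).coprime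
        (mem_inf.2 ⟨mem_PP.1 hx.1 i, mem_PP.1 hx.2 i⟩) (congrFun hxp i)
    have h2 : (⟨x, hx⟩ : (PP B ⊓ PP N : Subgroup _)) = 1 := Subtype.ext hx1
    rw [h2, orderOf_one] at hxo
    exact hp.out.one_lt.ne hxo
  strong := by
    rintro _ ⟨i, s, hs, rfl⟩ x hx hsx u hu
    rw [mem_PP] at hx hsx hu ⊢
    intro j
    by_cases hj : j = i
    · subst hj
      have h1 := (h j).strong s hs (x j) (hx j) (by simpa using hsx j) (u j) (hu j)
      simpa using h1
    · have : ((Pi.mulSingle i s : ∀ i, L i) * (u * x * u⁻¹) * (Pi.mulSingle i s)⁻¹) j =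
          u j * x j * (u j)⁻¹ := by
        simp [Pi.mulSingle_eq_of_ne hj]
      rw [this]
      exact mul_mem (mul_mem (hu j) (hx j)) (inv_mem (hu j))
  opp := by
    choose n hn h1 using fun i => (h i).opp
    refine ⟨n, mem_PP.2 hn, fun x hx hnx => funext fun i => ?_⟩
    exact h1 i (x i) (mem_PP.1 hx i) (mem_PP.1 hnx i)
  nonempty := by
    obtain ⟨i⟩ := ‹Nonempty ι›
    obtain ⟨s, hs⟩ := (h i).nonempty
    exact ⟨Pi.mulSingle i s, i, s, hs, rfl⟩

omit [Finite ι] in
/-- automorphisms stabilizing all subgroups that contain `B` act on the factors -/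
lemma aut_single (hBN : ∀ i, SB p (B i) (N i) (U i) (S i)) (hs : ∀ i, IsSimpleGroup (L i))
    {f : MulAut (∀ i, L i)}
    (hf : ∀ Q : Subgroup (∀ i, L i), PP B ≤ Q → Q.map f.toMonoidHom = Q) (i : ι) (x : L i) :
    f (Pi.mulSingle i x) = Pi.mulSingle i (f (Pi.mulSingle i x) i) := by
  have key : ∀ j, j ≠ i → ∀ x : L i, f (Pi.mulSingle i x) j = 1 := by
    intro j hj
    set K : Subgroup (L j) := ((MonoidHom.mulSingle L i).range.map f.toMonoidHom).map
      (Pi.evalMonoidHom L j) with hK
    have hKn : K.Normal := by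
      constructor
      rintro _ ⟨_, ⟨_, ⟨x, rfl⟩, rfl⟩, rfl⟩ g
      obtain ⟨y, hy⟩ := f.surjective (Pi.mulSingle j g)
      refine ⟨_, ⟨_, ⟨y i * x * (y i)⁻¹, rfl⟩, rfl⟩, ?_⟩
      change f (Pi.mulSingle i (y i * x * (y i)⁻¹)) j = g * f (Pi.mulSingle i x) j * g⁻¹
      rw [← conj_single, map_mul, map_mul, map_inv, hy]
      simp
    have hKB : K ≤ B j := by
      rintro _ ⟨_, ⟨_, ⟨x, rfl⟩, rfl⟩, rfl⟩
      have h1 := hf ((B j).comap (Pi.evalMonoidHom L j)) fun y hy => mem_PP.1 hy j
      have h2 : f (Pi.mulSingle i x) ∈ ((B j).comap (Pi.evalMonoidHom L j)).map f.toMonoidHom := by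
        refine ⟨Pi.mulSingle i x, ?_, rfl⟩
        change (Pi.mulSingle i x : ∀ i, L i) j ∈ B j
        rw [Pi.mulSingle_eq_of_ne hj]
        exact one_mem _
      rw [h1] at h2
      exact h2
    have hKbot : K = ⊥ := by
      rcases (hs j).eq_bot_or_eq_top_of_normal K hKn with h1 | h1
      · exact h1
      · exfalso
        obtain ⟨s, hs'⟩ := (hBN j).nonempty
        obtain ⟨b, hb, h2⟩ := (hBN j).thick s hs'
        apply h2
        apply hKB
        rw [h1]
        exact mem_top _
    intro x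
    have h3 : f (Pi.mulSingle i x) j ∈ K := ⟨_, ⟨_, ⟨x, rfl⟩, rfl⟩, rfl⟩
    rwa [hKbot, mem_bot] at h3
  funext j
  by_cases hj : j = i
  · subst hj
    rw [Pi.mulSingle_eq_same]
  · rw [Pi.mulSingle_eq_of_ne hj, key j hj]

theorem RigidBN.prod [Nonempty ι] [hp : Fact p.Prime] [∀ i, Finite (L i)]
    (h : ∀ i, RigidBN p (B i) (N i) (U i) (S i)) (hs : ∀ i, IsSimpleGroup (L i)) :
    RigidBN p (PP B) (PP N) (PP U) (PS S) where
  toSB := SB.prod fun i => (h i).toSB
  comm x hx hx' y hy hy' := funext fun i =>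
    (h i).comm (x i) (mem_PP.1 hx i) (mem_PP.1 hx' i) (y i) (mem_PP.1 hy i) (mem_PP.1 hy' i)
  rigid n hn hopp f hfp hfQ hfC hfT := by
    classical
    have := Fintype.ofFinite ι
    have hfQ' : ∀ Q : Subgroup (∀ i, L i), PP B ≤ Q → Q.map (f⁻¹).toMonoidHom = Q := by
      intro Q hQ
      have h1 := hfQ Q hQ
      have h2 : (Q.map f.toMonoidHom).map (f⁻¹).toMonoidHom = Q := by
        rw [Subgroup.map_map]
        have : (f⁻¹).toMonoidHom.comp f.toMonoidHom = MonoidHom.id (∀ i, L i) := by
          ext x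
          exact congrFun (f.symm_apply_apply x) _
        rw [this, Subgroup.map_id]
      rwa [h1] at h2
    have h1 := fun i x => aut_single (fun i => (h i).toSB) hs hfQ i x
    have h1' := fun i x => aut_single (fun i => (h i).toSB) hs hfQ' i x
    -- the automorphisms of the factors
    set F : ∀ i, MulAut (L i) := fun i =>
      { toFun := fun x => f (Pi.mulSingle i x) i
        invFun := fun x => f⁻¹ (Pi.mulSingle i x) i
        left_inv := fun x => by
          change f⁻¹ (Pi.mulSingle i (f (Pi.mulSingle i x) i)) i = x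
          rw [← h1 i x]
          have : f⁻¹ (f (Pi.mulSingle i x)) = Pi.mulSingle i x := f.symm_apply_apply _
          rw [this, Pi.mulSingle_eq_same]
        right_inv := fun x => by
          change f (Pi.mulSingle i (f⁻¹ (Pi.mulSingle i x) i)) i = x
          rw [← h1' i x]
          have : f (f⁻¹ (Pi.mulSingle i x)) = Pi.mulSingle i x := f.apply_symm_apply _
          rw [this, Pi.mulSingle_eq_same]
        map_mul' := fun x y => by
          rw [Pi.mulSingle_mul, map_mul]
          rfl } with hF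
    have hFa : ∀ i x, f (Pi.mulSingle i x) = Pi.mulSingle i (F i x) := h1
    have hFp : ∀ i (k : ℕ) x, (f ^ k) (Pi.mulSingle i x) = Pi.mulSingle i ((F i ^ k) x) := by
      intro i k
      induction k with
      | zero => intro x; rfl
      | succ k ih =>
        intro x
        rw [pow_succ, pow_succ]
        change (f ^ k) (f (Pi.mulSingle i x)) = Pi.mulSingle i ((F i ^ k) (F i x))
        rw [hFa, ih]
    have hF1 : ∀ i, F i = 1 := by
      intro i
      refine (h i).rigid (n i) (mem_PP.1 hn i) ?_ (F i) ?_ ?_ ?_ ?_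
      · intro x hx hnx
        have h2 := hopp (Pi.mulSingle i x) (single_mem.2 hx) (by
          rw [conj_single]
          exact single_mem.2 hnx)
        rwa [Pi.mulSingle_eq_one_iff] at h2
      · apply MulEquiv.ext
        intro x
        have h2 := hFp i p x
        rw [hfp] at h2
        exact (Pi.mulSingle_injective i h2).symm
      · intro Q hQ
        have h2 := hfQ (Q.comap (Pi.evalMonoidHom L i)) fun y hy => hQ (mem_PP.1 hy i)
        have key : Q.map (F i).toMonoidHom ≤ Q := by
          rintro _ ⟨x, hx, rfl⟩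
          have h3 : f (Pi.mulSingle i x) ∈
              (Q.comap (Pi.evalMonoidHom L i)).map f.toMonoidHom := by
            refine ⟨Pi.mulSingle i x, ?_, rfl⟩
            change (Pi.mulSingle i x : ∀ i, L i) i ∈ Q
            rw [Pi.mulSingle_eq_same]
            exact hx
          rw [h2] at h3
          exact h3
        exact Subgroup.eq_of_le_of_card_ge key
          (le_of_eq (Nat.card_congr (Q.equivMapOfInjective _ (F i).injective).toEquiv))
      · have key : ((B i).map (MulAut.conj (n i)).toMonoidHom).map (F i).toMonoidHom ≤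
            (B i).map (MulAut.conj (n i)).toMonoidHom := by
          rintro _ ⟨_, ⟨x, hx, rfl⟩, rfl⟩
          have h3 : f (n * Pi.mulSingle i x * n⁻¹) ∈
              ((PP B).map (MulAut.conj n).toMonoidHom).map f.toMonoidHom :=
            ⟨_, ⟨Pi.mulSingle i x, single_mem.2 hx, rfl⟩, rfl⟩
          rw [hfC] at h3
          obtain ⟨y, hy, hyx⟩ := h3
          refine ⟨y i, mem_PP.1 hy i, ?_⟩
          have h4 := congrFun hyx i
          rw [conj_single] at h4
          exact h4
        exact Subgroup.eq_of_le_of_card_ge key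
          (le_of_eq (Nat.card_congr (Subgroup.equivMapOfInjective _ _ (F i).injective).toEquiv))
      · intro t htB htN
        have h2 := hfT (Pi.mulSingle i t) (single_mem.2 htB) (single_mem.2 htN)
        rw [hFa] at h2
        exact Pi.mulSingle_injective i h2
    have h5 : (⊤ : Subgroup (∀ i, L i)) ≤ f.toMonoidHom.eqLocus (MonoidHom.id _) := by
      rw [← Subgroup.pi_top Set.univ, Subgroup.pi_le_iff]
      rintro i _ ⟨x, -, rfl⟩
      change f (Pi.mulSingle i x) = Pi.mulSingle i x
      rw [hFa, hF1]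
      rfl
    apply MulEquiv.ext
    intro x
    exact h5 (mem_top x)

end

end Vale.Agent.P240.H195
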