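import Vale.Agent.P240.H195.RFin
import Vale.Agent.P240.H195.TProd
import Vale.Agent.P240.H195.Main

/-!
Removing all components with a rigid split BN-pair of characteristic `p`.
-/

namespace Vale.Agent.P240.H195

open Subgroup Vale.Agent.P240.K Finsupp

universe u v

section
variable {𝕜 : Type v} [Field 𝕜] {G : Type u} [Group G] {p : ℕ}

/-- removing a set `R` of commuting subgroups of `H`, permuted by `H` -/
theorem rigid_step [hp : Fact p.Prime] [Finite G] {H : Subgroup G} {R : Set (Subgroup G)}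
    (hRH : ∀ L ∈ R, L ≤ H) (hconj : ∀ g ∈ H, ∀ L ∈ R, cj g L ∈ R)
    (hcomm : ∀ L ∈ R, ∀ M ∈ R, L ≠ M → ∀ x ∈ L, ∀ y ∈ M, x * y = y * x)
    (hR : ∀ L ∈ R, RigidLie p L) (hC : NA 𝕜 (Ain p (H ⊓ Cen R))) : NA 𝕜 (Ain p H) := by
  classical
  rcases R.eq_empty_or_nonempty with hemp | hne
  · rwa [hemp, Cen_empty, inf_top_eq] at hC
  have : Nonempty R := hne.to_subtype
  have : Fintype R := Fintype.ofFinite R
  have hcomm' : Pairwise fun i j : R => ∀ x y : G, x ∈ (i : Subgroup G) →
      y ∈ (j : Subgroup G) → Commute x y := by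
    intro i j hij x y hx hy
    exact hcomm i i.2 j j.2 (fun h => hij (Subtype.ext h)) x hx y hy
  set Φ : (∀ i : R, (i : Subgroup G)) →* G := Subgroup.noncommPiCoprod hcomm' with hΦ
  have hΦs : ∀ (i : R) (x : (i : Subgroup G)), Φ (Pi.mulSingle i x) = x := fun i x =>
    Subgroup.noncommPiCoprod_mulSingle i x
  have hact : ∀ (x : ∀ i : R, (i : Subgroup G)) (i : R) (y : (i : Subgroup G)),
      Φ x * y * (Φ x)⁻¹ = ((x i * y * (x i)⁻¹ : (i : Subgroup G)) : G) := by
    intro x i y
    rw [← hΦs i y, ← map_inv, ← map_mul, ← map_mul, conj_single, hΦs]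
  have hcen : ∀ (i : R) (x : (i : Subgroup G)), (∀ y, x * y = y * x) → x = 1 :=
    fun i x hx => (hR i i.2).2.1 x hx
  have hΦinj : Function.Injective Φ := by
    rw [injective_iff_map_eq_one]
    intro x hx
    funext i
    refine hcen i (x i) fun y => ?_
    have h1 := hact x i y
    rw [hx, one_mul, inv_one, mul_one] at h1
    have h2 : y = x i * y * (x i)⁻¹ := Subtype.ext h1
    rw [eq_mul_inv_iff_mul_eq] at h2
    exact h2.symm
  set K : Subgroup G := Φ.range with hK
  have hKle : ∀ i : R, (i : Subgroup G) ≤ K := by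
    intro i x hx
    exact ⟨Pi.mulSingle i ⟨x, hx⟩, hΦs i ⟨x, hx⟩⟩
  have hK' : ∀ {J : Subgroup G}, (∀ i : R, (i : Subgroup G) ≤ J) → K ≤ J := by
    intro J hJ
    rw [hK, hΦ, Subgroup.noncommPiCoprod_range]
    exact iSup_le hJ
  have hKH : K ≤ H := hK' fun i => hRH i i.2
  have hnorm : H ≤ normalizer (K : Set G) := by
    have key : ∀ g ∈ H, ∀ x ∈ K, g * x * g⁻¹ ∈ K := by
      intro g hg
      have h1 : K ≤ K.comap (MulAut.conj g).toMonoidHom := by
        refine hK' fun i x hx => ?_
        exact hKle ⟨_, hconj g hg i i.2⟩ (cj_mul_mem hx)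
      intro x hx
      exact h1 hx
    intro g hg
    rw [mem_normalizer_iff]
    intro x
    refine ⟨key g hg x, fun hx => ?_⟩
    have h1 := key g⁻¹ (inv_mem hg) _ hx
    have e : g⁻¹ * (g * x * g⁻¹) * g⁻¹⁻¹ = x := by group
    rwa [e] at h1
  set e : (∀ i : R, (i : Subgroup G)) ≃* K := MonoidHom.ofInjective hΦinj with he
  set ψ : H →* MulAut (∀ i : R, (i : Subgroup G)) :=
    (MulAut.congr e.symm).toMonoidHom.comp
      (K.normalizerMonoidHom.comp (Subgroup.inclusion hnorm)) with hψ
  have hψa : ∀ (g : H) x, Φ (ψ g x) = g * Φ x * (g : G)⁻¹ := by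
    intro g x
    change ((e (e.symm (K.normalizerMonoidHom (Subgroup.inclusion hnorm g) (e x))) : K) : G) = _
    rw [e.apply_symm_apply]
    rfl
  set ι : (∀ i : R, (i : Subgroup G)) →* H := Φ.codRestrict H fun x => hKH ⟨x, rfl⟩ with hι
  have hιa : ∀ x, ((ι x : H) : G) = Φ x := fun x => rfl
  have hact' : Act ψ ι := by
    refine ⟨fun g x => ?_, fun x => ?_, ?_⟩
    · apply Subtype.ext
      rw [hιa, hψa]
      rfl
    · apply MulEquiv.ext
      intro y
      apply hΦinj
      rw [hψa, hιa, MulAut.conj_apply, map_mul, map_mul, map_inv]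
    · rw [injective_iff_map_eq_one]
      intro x hx
      funext i
      refine hcen i (x i) fun y => ?_
      have h1 := congrFun (DFunLike.congr_fun hx (Pi.mulSingle i y)) i
      rw [MulAut.conj_apply, MulAut.one_apply, conj_single, Pi.mulSingle_eq_same,
        Pi.mulSingle_eq_same, mul_inv_eq_iff_eq_mul] at h1
      exact h1
  have hker : ψ.ker.map H.subtype = H ⊓ Cen R := by
    ext g
    constructor
    · rintro ⟨h, hh, rfl⟩
      refine mem_inf.2 ⟨h.2, mem_Cen.2 fun M hM => mem_centralizer_iff.2 fun y hy => ?_⟩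
      have h2 := hψa h (Pi.mulSingle ⟨M, hM⟩ ⟨y, hy⟩)
      rw [show ψ h = 1 from hh, MulAut.one_apply, hΦs, eq_mul_inv_iff_mul_eq] at h2
      exact h2
    · rintro ⟨hgH, hgC⟩
      refine ⟨⟨g, hgH⟩, ?_, rfl⟩
      change ψ ⟨g, hgH⟩ = 1
      apply MulEquiv.ext
      intro y
      apply hΦinj
      rw [hψa, MulAut.one_apply, mul_inv_eq_iff_eq_mul]
      have h1 : K ≤ centralizer {g} := by
        refine hK' fun i x hx => ?_
        rw [mem_centralizer_singleton_iff]
        exact (mem_centralizer_iff.1 (mem_Cen.1 hgC i i.2)) x hx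
      exact (mem_centralizer_singleton_iff.1 (h1 ⟨y, rfl⟩)).symm
  have hM : NA 𝕜 (Ain p ψ.ker) := by
    rw [← NA_Ain_map H.subtype_injective, hker]
    exact hC
  choose B N U S hRB using fun i : R => (hR i i.2).2.2
  have htop : NA 𝕜 (ApS p H) :=
    hact'.top (RigidBN.prod hRB fun i => (hR i i.2).1) hM
  have h1 : Ain p (⊤ : Subgroup H) = ApS p H := by
    ext E
    exact ⟨fun h => h.1, fun h => ⟨h, le_top⟩⟩
  rw [← h1, ← NA_Ain_map H.subtype_injective, ← MonoidHom.range_eq_map,
    Subgroup.range_subtype] at htop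
  exact htop

/-- **Elimination of normal products of groups of Lie type in characteristic `p`** -/
theorem rigid_elim [hp : Fact p.Prime] [Finite G] (K : Subgroup G) [K.Normal] {α : Type u}
    [Finite α] (L : α → Type u) [∀ i, Group (L i)] (hL : ∀ i, RigidLie p (L i))
    (e : K ≃* ∀ i, L i) (hC : HQ 𝕜 p (centralizer (K : Set G))) : HQ 𝕜 p G := by
  classical
  have hfin : Finite (∀ i, L i) := Finite.of_equiv K e.toEquiv
  have hfinL : ∀ i, Finite (L i) := fun i =>
    Finite.of_injective (fun x : L i => (Pi.mulSingle i x : ∀ i, L i)) (Pi.mulSingle_injective i)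
  rw [HQ_sub_iff] at hC
  rw [HQ_iff]
  rcases isEmpty_or_nonempty α with hα | hα
  · have hK : K = ⊥ := by
      rw [eq_bot_iff]
      intro x hx
      have h1 : (⟨x, hx⟩ : K) = 1 := e.injective (Subsingleton.elim _ _)
      exact mem_bot.2 (congrArg Subtype.val h1)
    have h2 : centralizer (K : Set G) = ⊤ := by
      rw [eq_top_iff]
      intro x _
      rw [mem_centralizer_iff]
      intro y hy
      rw [hK] at hy
      have : y = 1 := by simpa using hy
      rw [this, one_mul, mul_one]
    rw [h2] at hC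
    have h1 : Ain p (⊤ : Subgroup G) = ApS p G := by
      ext E
      exact ⟨fun h => h.1, fun h => ⟨h, le_top⟩⟩
    rwa [h1] at hC
  set ι : (∀ i, L i) →* G := K.subtype.comp e.symm.toMonoidHom with hι
  set ψ : G →* MulAut (∀ i, L i) := (MulAut.congr e).toMonoidHom.comp MulAut.conjNormal with hψ
  have hψa : ∀ g x, ι (ψ g x) = g * ι x * g⁻¹ := by
    intro g x
    change ((e.symm (e (MulAut.conjNormal g (e.symm x))) : K) : G) = _
    rw [e.symm_apply_apply, MulAut.conjNormal_apply]
    rfl
  have hιinj : Function.Injective ι := K.subtype_injective.comp e.symm.injective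
  have hact' : Act ψ ι := by
    refine ⟨hψa, fun x => ?_, ?_⟩
    · apply MulEquiv.ext
      intro y
      apply hιinj
      rw [hψa, MulAut.conj_apply, map_mul, map_mul, map_inv]
    · rw [injective_iff_map_eq_one]
      intro x hx
      funext i
      refine (hL i).2.1 (x i) fun y => ?_
      have h1 := congrFun (DFunLike.congr_fun hx (Pi.mulSingle i y)) i
      rw [MulAut.conj_apply, MulAut.one_apply, conj_single, Pi.mulSingle_eq_same,
        Pi.mulSingle_eq_same, mul_inv_eq_iff_eq_mul] at h1
      exact h1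
  have hker : ψ.ker = centralizer (K : Set G) := by
    ext g
    constructor
    · intro hg
      rw [mem_centralizer_iff]
      intro y hy
      have h2 := hψa g (e ⟨y, hy⟩)
      rw [show ψ g = 1 from hg, MulAut.one_apply] at h2
      have h3 : ι (e ⟨y, hy⟩) = y := by
        change ((e.symm (e ⟨y, hy⟩) : K) : G) = y
        rw [e.symm_apply_apply]
      rw [h3, eq_mul_inv_iff_mul_eq] at h2
      exact h2
    · intro hg
      change ψ g = 1
      apply MulEquiv.ext
      intro y
      apply hιinj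
      rw [hψa, MulAut.one_apply, mul_inv_eq_iff_eq_mul]
      exact ((mem_centralizer_iff.1 hg) (ι y) (e.symm y).2).symm
  choose B N U S hRB using fun i => (hL i).2.2
  exact hact'.top (RigidBN.prod hRB fun i => (hL i).1) (by rw [hker]; exact hC)

end

end Vale.Agent.P240.H195
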