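import Vale.Agent.P240.H195.RTop

/-!
If `L` is a normal subgroup of `G` with a rigid split BN-pair of characteristic `p`, then
non-acyclicity passes from `C_G(L)` to `G`.
-/

namespace Vale.Agent.P240.H195

open Subgroup Vale.Agent.P240.K Finsupp

universe u v w

section
variable {𝕜 : Type v} [Field 𝕜] {G : Type w} [Group G] {L : Type u} [Group L]
  {B N U : Subgroup L} {S : Set L} {p : ℕ} {ψ : G →* MulAut L} {ι : L →* G}

/-- **Main theorem**: non-acyclicity passes from `C_G(L)` to `G`. -/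
theorem Act.top [hp : Fact p.Prime] [Finite G] [Finite L] (ha : Act ψ ι)
    (h : RigidBN p B N U S) (hM : NA 𝕜 (Ain p ψ.ker)) : NA 𝕜 (ApS p G) := by
  classical
  have hKn : ι.range.Normal := ha.normal
  obtain ⟨n, hnN, hn⟩ := h.opp
  -- a faithful type preserving group of maximal order
  set 𝓕 : Set (Subgroup G) := {F | F ∈ ApB p G ∧ F ⊓ ψ.ker = ⊥ ∧ F ∈ Dn ψ ∧ F ∈ Tp ψ B ∧
    NA 𝕜 (Ain p (ψ.ker ⊓ centralizer (F : Set G)))} with h𝓕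
  have hbot𝓕 : (⊥ : Subgroup G) ∈ 𝓕 := by
    refine ⟨Or.inl rfl, bot_inf_eq _, ?_, ?_, ?_⟩
    · change (⊥ : Subgroup G).map ψ ⊓ innS L = ⊥
      rw [Subgroup.map_bot, bot_inf_eq]
    · change (⊥ : Subgroup G).map ψ ≤ tpS B
      rw [Subgroup.map_bot]
      exact bot_le
    · have e : ψ.ker ⊓ centralizer ((⊥ : Subgroup G) : Set G) = ψ.ker := by
        refine inf_eq_left.2 fun x _ => ?_
        rw [Subgroup.mem_centralizer_iff]
        intro y hy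
        have hy1 : y = 1 := by simpa using hy
        rw [hy1, one_mul, mul_one]
      rw [e]
      exact hM
  obtain ⟨Fm, hFm, hmax⟩ := (Set.toFinite 𝓕).exists_maximalFor
    (fun F : Subgroup G => Nat.card F) 𝓕 ⟨⊥, hbot𝓕⟩
  have hmax' : ∀ F ∈ 𝓕, Nat.card F ≤ Nat.card Fm := by
    intro F hF
    rcases le_total (Nat.card F) (Nat.card Fm) with h1 | h1
    · exact h1
    · exact hmax hF h1
  obtain ⟨F₀, hF₀B, hF₀M, hF₀D, hF₀t, hF₀c, hF₀b, hF₀C, g, hg⟩ :=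
    ha.exists_F0 h.toSB hnN hn hFm.1 hFm.2.1 hFm.2.2.1 hFm.2.2.2.1
  have hF₀na : NA 𝕜 (Ain p (ψ.ker ⊓ centralizer (F₀ : Set G))) := by
    rw [hg]
    exact (NA_Ain_map (MulAut.conj g).injective _).2 hFm.2.2.2.2
  have hmax₀ : ∀ F ∈ 𝓕, Nat.card F ≤ Nat.card F₀ := fun F hF => by
    rw [hF₀c]
    exact hmax' F hF
  have hF₀comm : (∀ x ∈ F₀, ∀ y ∈ F₀, x * y = y * x) ∧ ∀ x ∈ F₀, x ^ p = 1 := by
    rcases hF₀B with h1 | h1
    · rw [h1]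
      refine ⟨fun x hx y hy => ?_, fun x hx => ?_⟩
      · rw [mem_bot.1 hx, mem_bot.1 hy]
      · rw [mem_bot.1 hx, one_pow]
    · exact ⟨h1.2.1, h1.2.2⟩
  have hF₀i : ∀ f ∈ F₀, ψ f ∈ innS L → f = 1 := by
    intro f hf hfI
    have h1 : ψ f ∈ F₀.map ψ ⊓ innS L := mem_inf.2 ⟨⟨f, hf, rfl⟩, hfI⟩
    rw [show F₀.map ψ ⊓ innS L = ⊥ from hF₀D, mem_bot] at h1
    have h2 : f ∈ F₀ ⊓ ψ.ker := mem_inf.2 ⟨hf, h1⟩
    rwa [hF₀M, mem_bot] at h2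
  -- the torus
  set T : Subgroup L := B ⊓ cj n B with hT
  have hTN : ∀ t ∈ T, t ∈ B ∧ t ∈ N := fun t ht =>
    ⟨ht.1, h.inf_opp hp.out hnN hn ht.1 ht.2⟩
  have hT' : ∀ t ∈ B, t ∈ N → t ∈ T := by
    intro t htB htN
    refine mem_inf.2 ⟨htB, ?_⟩
    rw [mem_cj]
    exact h.norm' hnN htB htN
  set T' : Subgroup G := T.map ι with hT'def
  have hT'I : T' ≤ ι.range := Subgroup.map_le_range ι T
  have hT'card : ¬ p ∣ Nat.card T' := by
    have h1 : T = B ⊓ N := by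
      ext t
      exact ⟨fun ht => hTN t ht, fun ht => hT' t ht.1 ht.2⟩
    rw [hT'def, Subgroup.card_map_of_injective ha.ι_inj, h1]
    exact h.coprime
  have hT'c : ∀ x ∈ T', ∀ y ∈ T', x * y = y * x := by
    rintro _ ⟨x, hx, rfl⟩ _ ⟨y, hy, rfl⟩
    rw [← map_mul, ← map_mul, h.comm x (hTN x hx).1 (hTN x hx).2 y (hTN y hy).1 (hTN y hy).2]
  have hT'sol : Group.IsSolvable T' := by
    refine Group.isSolvable_of_comm ?_
    rintro ⟨x, hx⟩ ⟨y, hy⟩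
    exact Subtype.ext (hT'c x hx y hy)
  have hTF : ∀ f ∈ F₀, ∀ t ∈ T, ψ f t ∈ T := by
    intro f hf t ht
    have h1 : ψ f t ∈ am (ψ f) B := apply_mem_am ht.1
    have h2 : ψ f t ∈ am (ψ f) (cj n B) := apply_mem_am ht.2
    rw [hF₀b f hf] at h1
    rw [hF₀C f hf] at h2
    exact mem_inf.2 ⟨h1, h2⟩
  have hn' : ∀ x ∈ F₀, ∀ y ∈ T', x * y * x⁻¹ ∈ T' := by
    rintro f hf _ ⟨t, ht, rfl⟩
    rw [← ha.conj]
    exact ⟨ψ f t, hTF f hf t ht, rfl⟩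
  have hfaith : ∀ x ∈ F₀, (∀ y ∈ T', x * y = y * x) → x = 1 := by
    intro f hf hfT
    refine hF₀i f hf ?_
    have h1 : ψ f = 1 := by
      refine h.rigid n hnN hn (ψ f) (by rw [← map_pow, hF₀comm.2 f hf, map_one])
        (fun Q hQ => ?_) (hF₀C f hf) fun t htB htN => ?_
      · exact h.tp_fix hp.out (hF₀t ⟨f, hf, rfl⟩) (hF₀b f hf) hQ
      · apply ha.ι_inj
        rw [ha.conj, hfT _ ⟨t, hT' t htB htN, rfl⟩, mul_inv_cancel_right]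
    rw [h1]
    exact one_mem _
  obtain ⟨o, φ, ho⟩ := quillen_cycle (𝕜 := 𝕜) hF₀B hT'sol hT'card hn' hfaith
  set H : Subgroup G := T' ⊔ F₀ with hH
  -- `H` stabilizes `nBn⁻¹` and all subgroups containing `B`
  have hHst : ∀ (V : Subgroup (MulAut L)), (∀ t ∈ T, MulAut.conj t ∈ V) →
      (∀ f ∈ F₀, ψ f ∈ V) → ∀ x ∈ H, ψ x ∈ V := by
    intro V h1 h2
    have h3 : H ≤ V.comap ψ := by
      refine sup_le ?_ fun f hf => h2 f hf
      rintro _ ⟨t, ht, rfl⟩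
      rw [mem_comap, ha.inner]
      exact h1 t ht
    exact fun x hx => h3 hx
  have hHQ : ∀ Q, B ≤ Q → ∀ x ∈ H, am (ψ x) Q = Q := fun Q hQ =>
    hHst (stabA Q) (fun t ht => cj_self (hQ ht.1))
      fun f hf => h.tp_fix hp.out (hF₀t ⟨f, hf, rfl⟩) (hF₀b f hf) hQ
  have hHC : ∀ x ∈ H, am (ψ x) (cj n B) = cj n B :=
    hHst (stabA (cj n B)) (fun t ht => cj_self ht.2) fun f hf => hF₀C f hf
  have hHt : H ∈ Tp ψ B := by
    rintro _ ⟨x, hx, rfl⟩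
    exact hHst (tpS B) (fun t _ => inn_le_tpS ⟨t, rfl⟩) (fun f hf => hF₀t ⟨f, hf, rfl⟩) x hx
  have hlong : h.toBN0.Long n := by
    refine ⟨hnN, fun s hs hrg => ?_⟩
    obtain ⟨x, hxU, hnx, hxs⟩ := h.transit' hp.out hnN hs hrg
    apply hxs
    rw [hn x hxU hnx]
    simp
  set HL : Set (MulAut L) := ((H.map ψ : Subgroup (MulAut L)) : Set (MulAut L)) with hHL
  obtain ⟨z, hz, hzl, hzb, hz0⟩ := h.top_cycle (𝕜 := 𝕜) hp.out (F := HL)
    (by rintro _ ⟨f, hf, rfl⟩; exact hHQ B le_rfl f hf)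
    (by rintro _ ⟨f, hf, rfl⟩ Q hQ; exact hHQ Q hQ f hf) (n := n)
    ((h.opp_iff hp.out hlong).2 ⟨1, one_mem _, by rw [one_mul]⟩)
    (by rintro _ ⟨f, hf, rfl⟩; exact hHC f hf)
  obtain ⟨a, ham, e, he, hal, hab, hel, hae⟩ := h.exists_alpha' (𝕜 := 𝕜) hp.out hz hzl hzb
  obtain ⟨d', hd'⟩ : ∃ k, (mps B S ⊤).ncard = k + 1 := by
    obtain ⟨s, hs⟩ := h.nonempty
    have : (mps B S ⊤).ncard ≠ 0 := by
      intro hcon
      rw [Set.ncard_eq_zero (Set.toFinite _)] at hcon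
      have h1 : Par B s ∈ mps B S ⊤ := ⟨⟨s, hs, rfl⟩, le_top⟩
      rw [hcon] at h1
      exact h1
    exact Nat.exists_eq_succ_of_ne_zero this
  rw [hd'] at hzl hal hel
  -- the set `𝒮`
  set 𝒮 : Set (Subgroup G) := {E | E ∈ ApS p G ∧ E ∈ Dn ψ ∧ E ∈ Tp ψ B} with h𝒮
  have hSd : ∀ X ∈ 𝒮, ∀ X' ≤ X, X' ≠ ⊥ → X' ∈ 𝒮 := fun X hX X' hle hne =>
    ⟨mem_ApS_of_le hX.1 hle hne, Dn_down hX.2.1 hle, Tp_down hX.2.2 hle⟩
  have hmapB : ∀ {F' B' : Subgroup G}, B' ≤ ψ.ker → (F' ⊔ B').map ψ = F'.map ψ := by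
    intro F' B' hB'
    rw [Subgroup.map_sup, (Subgroup.map_eq_bot_iff B').2 hB', sup_bot_eq]
  have hDT : ∀ {F' B' : Subgroup G}, F' ∈ Dn ψ → F' ∈ Tp ψ B → B' ≤ ψ.ker →
      F' ⊔ B' ∈ Dn ψ ∧ F' ⊔ B' ∈ Tp ψ B := by
    intro F' B' h1 h2 h3
    refine ⟨?_, ?_⟩
    · change (F' ⊔ B').map ψ ⊓ innS L = ⊥
      rw [hmapB h3]
      exact h1
    · change (F' ⊔ B').map ψ ≤ tpS B
      rw [hmapB h3]
      exact h2
  have hSu : ∀ F' : Subgroup G, F' = ⊥ ∨ F' ∈ 𝒮 →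
      ∀ B' ∈ Ain p (ψ.ker ⊓ centralizer (F' : Set G)), F' ⊔ B' ∈ 𝒮 := by
    rintro F' hF' B' hB'
    have hker : B' ≤ ψ.ker := hB'.2.trans inf_le_left
    have h1 : F' ∈ Dn ψ ∧ F' ∈ Tp ψ B := by
      rcases hF' with h1 | h1
      · rw [h1]
        exact ⟨hbot𝓕.2.2.1, hbot𝓕.2.2.2.1⟩
      · exact h1.2
    refine ⟨?_, hDT h1.1 h1.2 hker⟩
    rcases hF' with h2 | h2
    · rw [h2, bot_sup_eq]
      exact hB'.1
    · exact sup_mem_ApS h2.1 hB'.1 fun x hx y hy =>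
        (mem_centralizer_iff.1 (mem_inf.1 (hB'.2 hy)).2) x hx
  have hmaxS : ∀ T₁ ∈ 𝒮, F₀ < T₁ → T₁ ⊓ ψ.ker = ⊥ →
      ¬ NA 𝕜 (Ain p (ψ.ker ⊓ centralizer (T₁ : Set G))) := by
    intro T₁ hT₁ hlt hT₁M hna
    have h1 := hmax₀ T₁ ⟨Or.inr hT₁.1, hT₁M, hT₁.2.1, hT₁.2.2, hna⟩
    exact absurd (Set.Finite.card_lt_card (Set.toFinite _) hlt) (not_lt.2 h1)
  have hnorm : F₀ ≤ normalizer (T' : Set G) := by
    intro f hf
    rw [mem_normalizer_iff]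
    intro y
    refine ⟨hn' f hf y, fun hy => ?_⟩
    have h2 := hn' f⁻¹ (inv_mem hf) _ hy
    have e2 : f⁻¹ * (f * y * f⁻¹) * f⁻¹⁻¹ = y := by group
    rwa [e2] at h2
  have hHi : ∀ E : Subgroup G, E ≤ H → (∀ x ∈ E, x ^ p = 1) → ∀ x ∈ E, ψ x ∈ innS L → x = 1 := by
    intro E hE hEp x hx hxI
    have h1 : x ∈ ((T' ⊔ F₀ : Subgroup G) : Set G) := hE hx
    rw [Subgroup.coe_mul_of_right_le_normalizer_left T' F₀ hnorm] at h1
    obtain ⟨t, ht, f, hf, rfl⟩ := Set.mem_mul.1 h1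
    have h2 : ψ f ∈ innS L := by
      have ht' : ψ t ∈ innS L := by
        obtain ⟨t', _, rfl⟩ := ht
        exact ⟨t', (ha.inner t').symm⟩
      have h3 := mul_mem (inv_mem ht') hxI
      rwa [map_mul, inv_mul_cancel_left] at h3
    have h3 := hF₀i f hf h2
    subst h3
    have h4 := hEp _ hx
    rw [mul_one] at h4 ⊢
    exact r4_eq_one hT'card ht h4
  have hHS : ∀ E ∈ Ain p H, E ∈ 𝒮 := by
    intro E hE
    refine ⟨hE.1, ?_, Tp_down hHt hE.2⟩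
    change E.map ψ ⊓ innS L = ⊥
    rw [eq_bot_iff]
    rintro _ ⟨⟨x, hx, rfl⟩, hxI⟩
    rw [hHi E hE.2 hE.1.2.2 x hx hxI, map_one]
    exact one_mem _
  have hHcomm : ∀ x ∈ H, ∀ y ∈ ψ.ker ⊓ centralizer (F₀ : Set G), x * y = y * x := by
    intro x hx y hy
    have h1 : H ≤ centralizer {y} := by
      refine sup_le ?_ ?_
      · intro t ht
        rw [mem_centralizer_singleton_iff]
        exact (ha.comm (show ψ y = 1 from (mem_inf.1 hy).1) (hT'I ht)).symm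
      · intro f hf
        rw [mem_centralizer_singleton_iff]
        exact (mem_centralizer_iff.1 (mem_inf.1 hy).2) f hf
    exact mem_centralizer_singleton_iff.1 (h1 hx)
  have hHS2 : ∀ E ∈ Ain p H, ∀ E' ∈ Ain p (ψ.ker ⊓ centralizer (F₀ : Set G)), E ⊔ E' ∈ 𝒮 := by
    intro E hE E' hE'
    have h1 := hHS E hE
    refine ⟨sup_mem_ApS hE.1 hE'.1 fun x hx y hy => hHcomm x (hE.2 hx) y (hE'.2 hy),
      hDT h1.2.1 h1.2.2 (hE'.2.trans inf_le_left)⟩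
  have hF₀S : F₀ = ⊥ ∨ F₀ ∈ 𝒮 := hF₀B.imp id fun h1 => ⟨h1, hF₀D, hF₀t⟩
  obtain ⟨y, hy, hyb, hyn⟩ := join_cycle (𝕜 := 𝕜) ψ.ker (𝒮 := 𝒮) (fun E hE => hE.1) hSd hSu hF₀S
    hF₀M hmaxS ho hHS hHS2 hF₀na
  set 𝓑 : Set (Subgroup G) := {E | E ∈ 𝒮 ∧ E ≤ H ⊔ (ψ.ker ⊓ centralizer (F₀ : Set G))} with h𝓑
  have h𝓑st : ∀ E ∈ 𝓑, ∀ x ∈ E, ψ x ∈ H.map ψ := by
    intro E hE x hx
    have h1 : H ⊔ (ψ.ker ⊓ centralizer (F₀ : Set G)) ≤ (H.map ψ).comap ψ := by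
      refine sup_le (Subgroup.le_comap_map ψ H) ?_
      rintro y ⟨hy, -⟩
      rw [mem_comap, show ψ y = 1 from hy]
      exact one_mem _
    exact h1 (hE.2 hx)
  -- the cycle of `p`-subgroups of `L`
  have hιm : Function.Injective (Subgroup.map ι) := Subgroup.map_injective ha.ι_inj
  have hιlt : ∀ {P Q : Subgroup L}, P < Q → P.map ι < Q.map ι := fun {P Q} hPQ =>
    lt_of_le_of_ne (Subgroup.map_mono hPQ.le) fun hcon => hPQ.ne (hιm hcon)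
  have hQY : ∀ Q ∈ QF p HL, Q.map ι ∈ YS p ι ∧ Q.map ι ∉ Dn ψ := by
    intro Q hQ
    refine ⟨⟨?_, hQ.2.1.map ι, fun x hx y hy => ?_, fun x hx => ?_⟩, fun hcon => hQ.1 ?_⟩
    · intro hcon
      apply hQ.1
      rwa [Subgroup.map_eq_bot_iff_of_injective _ ha.ι_inj] at hcon
    · have h1 := Subgroup.map_le_range ι Q
      exact mul_mem (mul_mem (mul_mem (h1 hx) (h1 hy)) (inv_mem (h1 hx))) (inv_mem (h1 hy))
    · exact pow_mem (Subgroup.map_le_range ι Q hx) p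
    · rw [eq_bot_iff]
      intro x hx
      have h1 : MulAut.conj x ∈ (Q.map ι).map ψ ⊓ innS L := by
        refine mem_inf.2 ⟨?_, ⟨x, rfl⟩⟩
        rw [ha.map_map]
        exact ⟨x, hx, rfl⟩
      rw [show (Q.map ι).map ψ ⊓ innS L = ⊥ from hcon, mem_bot] at h1
      exact mem_bot.2 (ha.inj (by rw [h1, map_one]))
  set 𝓐 : Set (Subgroup G) := (fun Q : Subgroup L => Q.map ι) '' QF p HL with h𝓐
  obtain ⟨a', ha'⟩ : ∃ a', a' = mp (Subgroup.map ι) a := ⟨_, rfl⟩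
  have ha'm : a' ∈ Sp 𝕜 (st 𝓐) := by
    rw [ha']
    refine mp_mem (P := st (QF p HL)) ?_ ham
    exact fun l hl => st_map (T := 𝓐) (fun Q hQ => ⟨Q, hQ, rfl⟩)
      (fun P _ Q _ hPQ => hιlt hPQ) l hl
  have ha'b : bd a' = 0 := by rw [ha', bd_mp, hab, map_zero]
  have ha'l : len (d' + 1) a' = a' := by rw [ha', mp_len, hal]
  -- products
  have hprod : ∀ Q ∈ QF p HL, ∀ E ∈ 𝓑, Q.map ι ⊔ E ∈ YS p ι ∧ (Q.map ι ⊔ E) ⊓ ι.range = Q.map ι := by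
    intro Q hQ E hE
    have hEQ : ∀ x ∈ E, ∀ y ∈ Q.map ι, x * y * x⁻¹ ∈ Q.map ι := by
      rintro x hx _ ⟨q, hq, rfl⟩
      refine ⟨ψ x q, ?_, ha.conj x q⟩
      have h1 := apply_mem_am (f := ψ x) hq
      rwa [hQ.2.2 (ψ x) (h𝓑st E hE x hx)] at h1
    have hEn : E ≤ normalizer ((Q.map ι : Subgroup G) : Set G) := by
      intro x hx
      rw [mem_normalizer_iff]
      intro y
      refine ⟨hEQ x hx y, fun hy => ?_⟩
      have h2 := hEQ x⁻¹ (inv_mem hx) _ hy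
      have e2 : x⁻¹ * (x * y * x⁻¹) * x⁻¹⁻¹ = y := by group
      rwa [e2] at h2
    have hmod := sup_mod (p := p) (E := E) hKn (fun x hx y hy => by
        have : x * y * x⁻¹ * y⁻¹ = 1 := by rw [hE.1.1.2.1 x hx y hy]; group
        rw [this]
        exact one_mem _) (fun x hx => by
        rw [hE.1.1.2.2 x hx]
        exact one_mem _)
    have hle : Q.map ι ⊔ E ≤ ι.range ⊔ E := sup_le_sup_right (Subgroup.map_le_range ι Q) E
    refine ⟨⟨fun hcon => (hQY Q hQ).1.1 ?_, ?_, fun x hx y hy => hmod.1 x (hle hx) y (hle hy),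
      fun x hx => hmod.2 x (hle hx)⟩, ?_⟩
    · rw [eq_bot_iff, ← hcon]
      exact le_sup_left
    · rw [sup_comm]
      exact (isPGroup_of_mem hE.1.1).to_sup_of_normal_right' (hQ.2.1.map ι) hEn
    · refine le_antisymm ?_ (le_inf le_sup_left (Subgroup.map_le_range ι Q))
      rintro x ⟨hx, hxK⟩
      have h1 : x ∈ ((Q.map ι ⊔ E : Subgroup G) : Set G) := hx
      rw [Subgroup.coe_mul_of_right_le_normalizer_left _ E hEn] at h1
      obtain ⟨q, hq, e', he', rfl⟩ := Set.mem_mul.1 h1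
      have h2 : e' ∈ ι.range := by
        have h3 := mul_mem (inv_mem (Subgroup.map_le_range ι Q hq)) hxK
        rwa [inv_mul_cancel_left] at h3
      have h3 : ψ e' ∈ E.map ψ ⊓ innS L := by
        refine mem_inf.2 ⟨⟨e', he', rfl⟩, ?_⟩
        obtain ⟨e'', rfl⟩ := h2
        exact ⟨e'', (ha.inner e'').symm⟩
      rw [show E.map ψ ⊓ innS L = ⊥ from hE.1.2.1, mem_bot] at h3
      rw [ha.eq_one h2 h3, mul_one]
      exact hq
  -- the chain map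
  set ρ : Ch 𝕜 (Subgroup G) →ₗ[𝕜] Ch 𝕜 (Subgroup L) := car (Yc ψ B) (Y0 B) (Subgroup.map ι)
    with hρ
  have hac := h.toSB.carrier_ac (𝕜 := 𝕜) ha
  have hanti := SB.carrier_anti (p := p) (ψ := ψ) (ι := ι) (B := B)
  have hcD := SB.carrier_D (B := B) ha
  have hρbd : ∀ {c : Ch 𝕜 (Subgroup G)}, c ∈ Sp 𝕜 (st (Wt p ψ ι B)) → bd (ρ c) = ρ (bd c) :=
    fun hc => bd_car hac hanti hιm hcD hc
  have hY0len : ∀ l : List (Subgroup L), st (Y0 B) l → l.length ≤ d' + 1 := by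
    intro l hl
    have h1 := (h.toSB.len_tp (F := ⊥) IsPGroup.of_bot (fun x hx y hy => by
      rw [mem_bot.1 hx, mem_bot.1 hy]) hl).1
    rwa [hd'] at h1
  have hρzero : ∀ {c : Ch 𝕜 (Subgroup G)},
      c ∈ Sp 𝕜 (fun l => st (Wt p ψ ι B) l ∧ l.length = d' + 1 + 1) → ρ c = 0 := by
    intro c hc
    have h1 := car_mem hac hanti hιm hcD (V := Y0 B) (Set.Subset.refl _)
      (fun X _ Q hQ => mem_Y0.2 ⟨hQ.1, hQ.2.1⟩) hc
    have h2 : ρ c ∈ Sp 𝕜 (fun _ : List (Subgroup L) => False) := by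
      refine Sp_mono (fun l hl => ?_) h1
      have := hY0len l hl.1
      omega
    exact eq_zero_of_disj (fun _ h _ => h) h2 h2
  have hzY : z ∈ Sp 𝕜 (st (Y0 B)) :=
    Sp_mono (st_mono fun Q (hQ : Q ∈ YF B HL) => mem_Y0.2 ⟨hQ.1, hQ.2.1⟩) hz
  have heW : mp (Subgroup.map ι) e ∈ Sp 𝕜 (st (Wt p ψ ι B)) := by
    refine mp_mem (P := st (QF p HL ∪ YF B HL)) ?_ he
    refine fun l hl => st_map (T := Wt p ψ ι B) ?_ (fun P _ Q _ hPQ => hιlt hPQ) l hl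
    rintro Q (hQ | hQ)
    · exact Or.inl (hQY Q hQ)
    · exact Or.inr ⟨Q, mem_Y0.2 ⟨hQ.1, hQ.2.1⟩, rfl⟩
  have hρa : ρ a' = z := by
    have h1 : ρ (mp (Subgroup.map ι) z) = z := car_map hιm hzY
    have h2 : mp (Subgroup.map ι) z = a' + bd (mp (Subgroup.map ι) e) := by
      rw [hae, map_add, ← bd_mp, ← ha']
    have h3 : ρ (mp (Subgroup.map ι) e) = 0 := by
      have h4 := len_mem (n := d' + 1 + 1) heW
      rw [mp_len, hel] at h4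
      exact hρzero (Sp_mono (fun l hl => ⟨hl.2, hl.1⟩) h4)
    rw [h2, map_add, ← hρbd heW, h3, map_zero, add_zero] at h1
    exact h1
  -- the cocycle on the upper part
  obtain ⟨m₀, hm₀⟩ : ∃ m₀, z m₀ ≠ 0 := by
    by_contra hcon
    push Not at hcon
    exact hz0 (Finsupp.ext hcon)
  obtain ⟨lW, hlW⟩ : ∃ lW : Ch 𝕜 (Subgroup G) →ₗ[𝕜] 𝕜,
      lW = (Finsupp.lapply m₀).comp (ρ.comp (Vale.Agent.P240.K.pi.comp (len (d' + 1)))) := ⟨_, rfl⟩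
  have hlWa : ∀ c, lW c = ρ (pi (len (d' + 1) c)) m₀ := fun c => by rw [hlW]; rfl
  have hWsub : {x | x ∈ YS p ι ∧ x ∉ Dn ψ} ⊆ Wt p ψ ι B := fun X hX => Or.inl hX
  have hnW : Nrm lW := by
    intro l hl
    rw [hlWa, len_single]
    split_ifs
    · rw [pi_single, if_neg hl, map_zero, Finsupp.zero_apply]
    · rw [map_zero, map_zero, Finsupp.zero_apply]
  have hlen : ∀ q : List (Subgroup G), q.length ≠ d' + 1 → lW (single q (1 : 𝕜)) = 0 := by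
    intro q hq
    rw [hlWa, len_single, if_neg hq, map_zero, map_zero, Finsupp.zero_apply]
  have hcocW : Coc {x | x ∈ YS p ι ∧ x ∉ Dn ψ} lW := by
    intro c hc
    have h1 : len (d' + 1 + 1) c ∈ Sp 𝕜 (wk {x | x ∈ YS p ι ∧ x ∉ Dn ψ}) :=
      Sp_mono (fun l hl => hl.2) (len_mem hc)
    have h2 : pi (len (d' + 1 + 1) c) ∈ Sp 𝕜 (st (Wt p ψ ι B)) :=
      Sp_mono (st_mono hWsub) (pi_mem h1)
    rw [hlWa, ← bd_len, ← bd_pi h1, ← hρbd h2, hρzero, map_zero, Finsupp.zero_apply]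
    have h3 := len_mem (n := d' + 1 + 1) h2
    rw [pi_len, len_len] at h3
    exact Sp_mono (fun l hl => ⟨hl.2, hl.1⟩) h3
  have hlWa' : lW a' ≠ 0 := by
    rw [hlWa, ha'l, pi_of_st ha'm, hρa]
    exact hm₀
  have hvan : ∀ x ∈ YS p ι, x ∈ Dn ψ → x ∉ Tp ψ B →
      ∀ P ∈ Sp 𝕜 (wk {y | (y ∈ YS p ι ∧ y ∉ Dn ψ) ∧ x ≤ y}), lW P = 0 := by
    intro X hX hXD hXT P hP
    have h1 : len (d' + 1) P ∈ Sp 𝕜 (wk {y | (y ∈ YS p ι ∧ y ∉ Dn ψ) ∧ X ≤ y}) :=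
      Sp_mono (fun l hl => hl.2) (len_mem hP)
    have h2 : pi (len (d' + 1) P) ∈ Sp 𝕜 (fun l =>
        st {y | (y ∈ YS p ι ∧ y ∉ Dn ψ) ∧ X ≤ y} l ∧ l.length = d' + 1) := by
      have h3 := len_mem (n := d' + 1) (pi_mem h1)
      rw [pi_len, len_len] at h3
      exact Sp_mono (fun l hl => ⟨hl.2, hl.1⟩) h3
    have h4 := car_mem hac hanti hιm hcD (Z := {y | (y ∈ YS p ι ∧ y ∉ Dn ψ) ∧ X ≤ y})
      (V := Yc ψ B X) (fun Y hY => hWsub hY.1) (fun Y hY => Yc_anti hY.2) h2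
    have hXA := ha.elemAb hX hXD
    have h5 : ρ (pi (len (d' + 1) P)) = 0 := by
      have h6 : ρ (pi (len (d' + 1) P)) ∈ Sp 𝕜 (fun _ : List (Subgroup L) => False) := by
        refine Sp_mono (fun l hl => ?_) h4
        have h7 := (h.toSB.len_tp (F := X.map ψ) (hX.2.1.map ψ) (by
          rintro _ ⟨x, hx, rfl⟩ _ ⟨y, hy, rfl⟩
          rw [← map_mul, ← map_mul, hXA.2.1 x hx y hy]) hl.1).2 hXT
        rw [hd'] at h7
        omega
      exact eq_zero_of_disj (fun _ h _ => h) h6 h6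
    rw [hlWa, h5, Finsupp.zero_apply]
  have hinv : ∀ E ∈ 𝓑, lW (mp (fun A => A ⊔ E) a') = lW a' := by
    intro E hE
    set Z : Set (Subgroup G) := {X | X ∈ YS p ι ∧ X ⊓ ι.range ≠ ⊥} with hZ
    have hZW : Z ⊆ {x | x ∈ YS p ι ∧ x ∉ Dn ψ} := by
      rintro X ⟨h1, h2⟩
      refine ⟨h1, fun hcon => h2 ?_⟩
      rw [eq_bot_iff]
      rintro x ⟨hx, hxK⟩
      refine mem_bot.2 (ha.eq_one hxK ?_)
      have h3 : ψ x ∈ X.map ψ ⊓ innS L := by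
        refine mem_inf.2 ⟨⟨x, hx, rfl⟩, ?_⟩
        obtain ⟨x', rfl⟩ := hxK
        exact ⟨x', (ha.inner x').symm⟩
      rw [show X.map ψ ⊓ innS L = ⊥ from hcon, mem_bot] at h3
      exact h3
    have hm : mp (fun A => A ⊔ E) a' ∈ Sp 𝕜 (wk Z) := by
      refine mp_mem (P := st 𝓐) (fun l hl => ?_) ha'm
      refine wk_map (S := 𝓐) (T := Z) ?_ (fun x _ y _ hxy => sup_le_sup_right hxy E) l
        (st_wk l hl)
      rintro _ ⟨Q, hQ, rfl⟩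
      have h1 := hprod Q hQ E hE
      refine ⟨h1.1, ?_⟩
      change (Q.map ι ⊔ E) ⊓ ι.range ≠ ⊥
      rw [h1.2]
      exact (hQY Q hQ).1.1
    have h2 := h2_mem (𝕜 := 𝕜) (S := Z) (ρ := fun X => X ⊓ ι.range)
      (fun X hX => ⟨YS_down hX.1 inf_le_left hX.2, by
        rw [inf_assoc, inf_idem]
        exact hX.2⟩) (fun X _ => inf_le_left) (fun X _ Y _ hle => inf_le_inf_right _ hle) hm
    have h3 := bd_h2 (fun X : Subgroup G => X ⊓ ι.range) (mp (fun A => A ⊔ E) a')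
    rw [bd_mp, ha'b, map_zero, map_zero, add_zero, mp_mp] at h3
    have h4 : mp ((fun X : Subgroup G => X ⊓ ι.range) ∘ fun A => A ⊔ E) a' = a' := by
      refine mp_eq_self (P := st 𝓐) (fun l hl A hA => ?_) ha'm
      obtain ⟨Q, hQ, rfl⟩ := hl.2 A hA
      exact (hprod Q hQ E hE).2
    rw [h4] at h3
    have h5 := hcocW _ (Sp_mono (fun l hl => ⟨hl.1, fun a ha => hZW (hl.2 a ha)⟩) h2)
    rw [h3, map_sub, sub_eq_zero] at h5
    exact h5.symm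
  -- the cocycle on the lower part
  have hset : {x | x ∈ YS p ι ∧ x ∈ Dn ψ ∧ x ∈ Tp ψ B} = 𝒮 := by
    ext X
    exact ⟨fun hX => ⟨ha.elemAb hX.1 hX.2.1, hX.2⟩, fun hX => ⟨YS_of_ApS hX.1, hX.2⟩⟩
  have hyS : y ∈ Sp 𝕜 (st 𝒮) := Sp_mono (st_mono fun E hE => hE.1) hy
  obtain ⟨lD, hnD, hcocD, -, hlD⟩ := exists_cocycle 𝒮 ⊥ y (by
    rw [sup_bot_eq, pi_of_st hyS]
    rintro ⟨c, hc, hcy⟩
    exact hyn c hc hcy)
  have hnD' : Nrm (lD.comp (res (Tp ψ B))) := by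
    intro l hl
    rw [LinearMap.comp_apply, res_single]
    split_ifs
    · exact hnD l hl
    · rw [map_zero]
  have hcoc : Coc (YS p ι) (phi (Dn ψ) id lW (lD.comp (res (Tp ψ B)))) := by
    refine phi_coc2 (fun x _ y _ hxy hy => Dn_down hy hxy) (fun x _ y _ hxy hy => Tp_down hy hxy)
      hcocW ?_ hvan
    rw [hset]
    exact hcocD
  have hval : phi (Dn ψ) id lW (lD.comp (res (Tp ψ B))) (sh a' y) = lW a' * lD y := by
    have h1 : lD.comp (res (Tp ψ B)) y = lD y := by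
      rw [LinearMap.comp_apply, res_of_mem]
      exact Sp_mono (fun l hl E hE => (hl.2 E hE).2.2) hyS
    rw [phi_shuffle2 (A := 𝓐) (B := 𝓑) (d := d' + 1) ?_ ?_ ?_ hlen ?_ ?_ hinv, h1]
    · rintro _ ⟨Q, hQ, rfl⟩
      exact (hQY Q hQ).2
    · exact fun E hE => hE.1.2.1
    · rintro _ ⟨Q, hQ, rfl⟩ E hE
      exact YS_mono_up (hQY Q hQ).2 le_sup_left
    · have h9 := len_mem (n := d' + 1) ha'm
      rw [ha'l] at h9
      exact Sp_mono (fun l hl => ⟨hl.2.2, hl.1⟩) h9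
    · exact Sp_mono (fun l hl => hl.2) hy
  refine NA_of_YS (ι := ι) (NA_of_functional _ (fun l hl hns => ?_) hcoc (sh a' y) ?_ ?_ ?_)
  · rw [phi_single]
    exact PhiL_nrm (S := YS p ι) hnW hnD' l hl hns []
  · refine sh_mem (A := 𝓐) (B := 𝓑) ?_ ?_ ?_ (Sp_mono st_wk ha'm) (Sp_mono st_wk hy)
    · rintro _ ⟨Q, hQ, rfl⟩
      exact (hQY Q hQ).1
    · exact fun E hE => YS_of_ApS hE.1.1
    · rintro _ ⟨Q, hQ, rfl⟩ E hE
      exact (hprod Q hQ E hE).1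
  · rw [bd_sh, ha'b, hyb, map_zero, map_zero, LinearMap.zero_apply, add_zero]
  · rw [hval]
    exact mul_ne_zero hlWa' hlD

end

end Vale.Agent.P240.H195
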