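import Vale.Agent.P240.H195.SM3

/-!
Automorphisms of `PSL_n(F)`, part 4: all automorphisms are given by semilinear maps, up to the
inverse transpose automorphism.
-/

namespace Vale.Agent.P240.H195

open Subgroup Matrix Vale.Agent.P240.K

section
variable {F : Type*} [Field F] {m : ℕ}

/-- the inverse transpose -/
def itf (x : SLm m F) : SLm m F := ⟨(x⁻¹).1.transpose, by
  rw [Matrix.det_transpose]; exact (x⁻¹).2⟩

lemma itf_val (x : SLm m F) : (itf x).1 = (x⁻¹).1.transpose := rfl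

lemma itf_mul (x y : SLm m F) : itf (x * y) = itf x * itf y := by
  apply Subtype.ext
  have h1 : (itf x * itf y).1 = (itf x).1 * (itf y).1 := rfl
  rw [h1, itf_val, itf_val, itf_val, _root_.mul_inv_rev]
  have h2 : (y⁻¹ * x⁻¹).1 = (y⁻¹).1 * (x⁻¹).1 := rfl
  rw [h2, Matrix.transpose_mul]

lemma itf_inv (x : SLm m F) : ((itf x)⁻¹).1 = x.1.transpose := by
  have h1 : itf x * ⟨x.1.transpose, by rw [Matrix.det_transpose]; exact x.2⟩ = 1 := by
    apply Subtype.ext
    change (x⁻¹).1.transpose * x.1.transpose = 1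
    rw [← Matrix.transpose_mul]
    have h2 : x.1 * (x⁻¹).1 = 1 := by
      have := congrArg (fun y : SLm m F => y.1) (mul_inv_cancel x)
      exact this
    rw [h2, Matrix.transpose_one]
  rw [← eq_inv_of_mul_eq_one_right h1]

lemma itf_itf (x : SLm m F) : itf (itf x) = x := by
  apply Subtype.ext
  rw [itf_val, itf_inv, Matrix.transpose_transpose]

/-- the inverse transpose automorphism -/
def itA (m : ℕ) (F : Type*) [Field F] : MulAut (SLm m F) where
  toFun := itf
  invFun := itf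
  left_inv := itf_itf
  right_inv := itf_itf
  map_mul' := itf_mul

lemma itA_apply (x : SLm m F) : itA m F x = itf x := rfl

lemma itA_sq : ind (itA m F) * ind (itA m F) = 1 := by
  rw [← ind_mul]
  have : itA m F * itA m F = 1 := by
    ext1 x
    exact itf_itf x
  rw [this, ind_one]

lemma itf_tx {a b : Fin (m + 1)} (h : a ≠ b) (c : F) : itf (tx h c) = tx h.symm (-c) := by
  refine sl_ext fun i j => ?_
  rw [itf_val, tx_inv, Matrix.transpose_apply, tx_apply, tx_apply]
  by_cases hij : i = j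
  · subst hij
    by_cases h1 : i = a ∧ i = b
    · exact absurd (h1.1 ▸ h1.2) h
    · have h2 : ¬ (i = b ∧ i = a) := fun h3 => h1 ⟨h3.2, h3.1⟩
      rw [if_pos rfl, if_neg h1, if_neg h2]
  · rw [if_neg (Ne.symm hij), if_neg hij]
    by_cases h1 : j = a ∧ i = b
    · rw [if_pos h1, if_pos ⟨h1.2, h1.1⟩]
    · have h2 : ¬ (i = b ∧ j = a) := fun h3 => h1 ⟨h3.2, h3.1⟩
      rw [if_neg h1, if_neg h2]

lemma itf_mon [Finite F] {x : SLm m F} {σ} (hx : Mon x σ) : Mon (itf x) σ := by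
  intro i j hij
  rw [itf_val, Matrix.transpose_apply] at hij
  have h1 := mon_inv hx j i hij
  rw [h1]
  simp

/-- conjugation of `inverse transpose` -/
lemma it_conj (f : MulAut (PL m F)) (y : PL m F) :
    f * MulAut.conj y = MulAut.conj (f y) * f := by
  ext1 z
  simp only [MulAut.mul_apply, MulAut.conj_apply, map_mul, map_inv]

variable [Finite F]

/-- **All automorphisms of `PSL_n(F)`** are given by semilinear maps and the inverse transpose. -/
theorem aut_psl {r : ℕ} [hr : Fact r.Prime] [CharP F r] (hm : 2 ≤ m)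
    (hsimple : IsSimpleGroup (PL m F)) (f : MulAut (PL m F)) :
    ∃ (M : GLm m F) (τ : RingAut F), f = sem M τ ∨ f = sem M τ * ind (itA m F) := by
  have h := psl_SB (F := F) (p := r) (m := m) (by omega)
  have hrp := hr.out
  obtain ⟨n₀, σ, hσ, hrev, hopp, hnf⟩ := exists_nf (F := F) (r := r) (m := m) (by omega)
  obtain ⟨g, hB, hC⟩ := hnf f
  obtain ⟨f₂, hf₂⟩ : ∃ f₂ : MulAut (PL m F), f₂ = (MulAut.conj g)⁻¹ * f := ⟨_, rfl⟩
  rw [← hf₂] at hB hC
  have hf : f = MulAut.conj g * f₂ := by rw [hf₂, mul_inv_cancel_left]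
  obtain ⟨g₀, hg₀⟩ := QuotientGroup.mk'_surjective _ g
  have eg : MulAut.conj g = sem (tog g₀) 1 := by rw [← hg₀]; exact conj_eq_sem g₀
  rcases rho_cases (r := r) (by omega) hσ hrev hB hC with hroot | hroot
  · obtain ⟨M, τ, hM⟩ := sem_of_fix (r := r) hm hsimple hσ hopp hC hroot
    exact ⟨_, _, Or.inl (by rw [hf, eg, hM, sem_mul])⟩
  · obtain ⟨γ, hγ⟩ : ∃ γ : MulAut (PL m F), γ = MulAut.conj (pr m F n₀) * ind (itA m F) := ⟨_, rfl⟩
    have hγx : ∀ x : SLm m F, γ (pr m F x) = pr m F (n₀ * itf x * n₀⁻¹) := by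
      intro x
      rw [hγ, MulAut.mul_apply, ind_apply, itA_apply, MulAut.conj_apply, ← map_inv (pr m F),
        ← map_mul (pr m F), ← map_mul (pr m F)]
    have hγB : am γ ((BU m F).map (pr m F)) = (BU m F).map (pr m F) := am_eq_of_le (by
      rintro _ ⟨_, ⟨x, hx, rfl⟩, rfl⟩
      refine ⟨n₀ * itf x * n₀⁻¹, ?_, (hγx x).symm⟩
      intro u v huv
      by_contra hne
      obtain ⟨a, rfl⟩ := σ.surjective u
      obtain ⟨b, rfl⟩ := σ.surjective v
      rw [hrev, hrev, Fin.rev_lt_rev] at huv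
      have h1 := (mon_conj_ne hσ (itf x) a b).1 hne
      rw [itf_val, Matrix.transpose_apply] at h1
      exact h1 ((inv_mem (show x ∈ BU m F from hx) : x⁻¹ ∈ BU m F) b a huv))
    have hγC : am γ (cj (pr m F n₀)⁻¹ ((BU m F).map (pr m F))) =
        cj (pr m F n₀)⁻¹ ((BU m F).map (pr m F)) := by
      rw [am_cj, hγB, h.cj_B_eq_iff hrp, ← map_inv (pr m F) n₀, hγx, ← map_inv (pr m F),
        ← map_mul (pr m F), mem_pr_BU]
      have h1 := mon_mul (mon_inv (mon_mul (mon_mul hσ (itf_mon (mon_inv hσ))) (mon_inv hσ)))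
        (mon_inv hσ)
      have e : (σ * σ⁻¹ * σ⁻¹)⁻¹ * σ⁻¹ = 1 := by group
      rw [e] at h1
      exact mem_T' h1
    have hroot' : ∀ (i : Fin m) (c : F), ∃ d : F, (f₂ * γ) (pr m F (tx (cs_ne i) c)) =
        pr m F (tx (cs_ne i) d) := by
      intro i c
      have hne : σ i.succ ≠ σ i.castSucc := fun h1 => cs_ne i (σ.injective h1).symm
      have e1 : σ i.castSucc = (Fin.rev i).succ := by rw [hrev, Fin.rev_castSucc]
      have e2 : σ i.succ = (Fin.rev i).castSucc := by rw [hrev, Fin.rev_succ]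
      have h1 : ∃ c' : F, n₀ * itf (tx (cs_ne i) c) * n₀⁻¹ = tx (cs_ne (Fin.rev i)) c' := by
        rw [itf_tx, mon_conj_tx hσ (cs_ne i).symm hne]
        refine ⟨n₀.1 (σ i.succ) i.succ * -c * (n₀.1 (σ i.castSucc) i.castSucc)⁻¹, ?_⟩
        refine sl_ext fun u v => ?_
        rw [tx_apply, tx_apply, e1, e2]
      obtain ⟨c', hc'⟩ := h1
      obtain ⟨d, hd⟩ := hroot (Fin.rev i) c'
      refine ⟨d, ?_⟩
      rw [MulAut.mul_apply, hγx, hc', hd]
      exact tx_cs_congr (Fin.rev_rev i) d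
    obtain ⟨M, τ, hM⟩ := sem_of_fix (r := r) (f := f₂ * γ) hm hsimple hσ hopp
      (by rw [am_mul, hγC, hC]) hroot'
    have e3 : f₂ = sem M τ * (MulAut.conj (ind (itA m F) (pr m F n₀⁻¹)) * ind (itA m F)) := by
      rw [← it_conj, ← hM, hγ, map_inv (pr m F), map_inv]
      have e4 := itA_sq (m := m) (F := F)
      calc f₂ = f₂ * (MulAut.conj (pr m F n₀) * 1 * (MulAut.conj (pr m F n₀))⁻¹) := by group
        _ = _ := by rw [← e4]; group
    have e5 : ind (itA m F) (pr m F n₀⁻¹) = pr m F (itf n₀⁻¹) := rfl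
    refine ⟨tog g₀ * gla 1 (M * gla τ (tog (itf n₀⁻¹))), 1 * (τ * 1), Or.inr ?_⟩
    rw [hf, eg, e3, e5, conj_eq_sem, ← mul_assoc (sem M τ), sem_mul, ← mul_assoc, sem_mul]

end

end Vale.Agent.P240.H195
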