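import Mathlib.LinearAlgebra.Matrix.ToLin
import Mathlib.LinearAlgebra.Determinant
import Vale.Agent.P240.H195.SM4

/-!
Elementary abelian `2`-subgroups of `PSL_n(F)` with a nondegenerate commutator form: general lemmas.
-/

namespace Vale.Agent.P240.H195

open Subgroup Matrix

section
variable {F : Type*} [Field F]

/-- two injective anticommuting endomorphisms exist only in even dimension -/
lemma even_finrank {V : Type*} [AddCommGroup V] [Module F V] [FiniteDimensional F V]
    (h2 : (2 : F) ≠ 0) {a b : V →ₗ[F] V} (hab : a ∘ₗ b = -(b ∘ₗ a)) (ha : Function.Injective a)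
    (hb : Function.Injective b) : Even (Module.finrank F V) := by
  have h1 : LinearMap.det (a ∘ₗ b) = LinearMap.det (-(b ∘ₗ a)) := by rw [hab]
  have h3 : (-(b ∘ₗ a) : V →ₗ[F] V) = (-1 : F) • (b ∘ₗ a) := by rw [neg_one_smul]
  rw [h3, LinearMap.det_smul, LinearMap.det_comp, LinearMap.det_comp] at h1
  have ha0 : LinearMap.det a ≠ 0 := by
    intro h0
    exact (LinearMap.bot_lt_ker_of_det_eq_zero h0).ne' (LinearMap.ker_eq_bot.2 ha)
  have hb0 : LinearMap.det b ≠ 0 := by
    intro h0
    exact (LinearMap.bot_lt_ker_of_det_eq_zero h0).ne' (LinearMap.ker_eq_bot.2 hb)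
  rcases Nat.even_or_odd (Module.finrank F V) with h | h
  · exact h
  · exfalso
    rw [h.neg_one_pow] at h1
    have h4 : (2 : F) * (LinearMap.det a * LinearMap.det b) = 0 := by linear_combination h1
    rcases mul_eq_zero.1 h4 with h5 | h5
    · exact h2 h5
    · rcases mul_eq_zero.1 h5 with h6 | h6
      · exact ha0 h6
      · exact hb0 h6

/-- Gauss sums: the order of a nondegenerate quadratic space over the field of two elements is a
square -/
lemma sq_card {E : Type*} [Group E] [Fintype E] {Q : E → ℤ} {c : E → E → ℤ}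
    (hQ : ∀ e, Q e * Q e = 1) (hQc : ∀ e f, Q (e * f) = c e f * Q e * Q f) (hQ1 : Q 1 = 1)
    (hc1 : ∀ e, c e 1 = 1) (hc : ∀ f, f ≠ 1 → ∑ e, c e f = 0) :
    (∑ e, Q e) ^ 2 = Fintype.card E := by
  classical
  have h1 : (∑ e, Q e) ^ 2 = ∑ e, ∑ f, Q e * Q f := by
    rw [sq, Finset.sum_mul_sum]
  rw [h1]
  have h2 : ∀ e, ∑ f, Q e * Q f = ∑ f, c e f * Q f := by
    intro e
    rw [← Equiv.sum_comp (Equiv.mulLeft e) fun f => Q e * Q f]
    refine Finset.sum_congr rfl fun f _ => ?_
    rw [Equiv.coe_mulLeft, hQc]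
    calc Q e * (c e f * Q e * Q f) = (Q e * Q e) * (c e f * Q f) := by ring
      _ = _ := by rw [hQ, one_mul]
  rw [Finset.sum_congr rfl fun e _ => h2 e, Finset.sum_comm]
  rw [Finset.sum_eq_single_of_mem (1 : E) (Finset.mem_univ _)]
  · rw [Finset.sum_congr rfl fun e _ => by rw [hc1, hQ1, one_mul]]
    simp
  · intro f _ hf
    rw [← Finset.sum_mul, hc f hf, zero_mul]

/-- elements of a group of matrices modulo scalars that are pairwise separated by commutators are
linearly independent -/
lemma card_le_sq {m : ℕ} {E : Type*} [Group E] [Fintype E]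
    {t ti : E → Matrix (Fin (m + 1)) (Fin (m + 1)) F} (hti : ∀ e, t e * ti e = 1) {c : E → E → ℤ}
    (hcm : ∀ f e, t f * t e * ti f = (c f e : F) • t e)
    (hmul : ∀ f e e', c f (e * e') = c f e * c f e')
    (hone : ∀ f e, c f e * c f e = 1) (hinv : ∀ e : E, e * e = 1)
    (hc : ∀ e, e ≠ 1 → ∑ f, c f e = 0) (hE : (Fintype.card E : F) ≠ 0) :
    Fintype.card E ≤ (m + 1) * (m + 1) := by
  classical
  have hli : LinearIndependent F t := by
    rw [Fintype.linearIndependent_iff]
    intro g hg e₀
    have h1 : ∀ f, ∑ e, (g e * (c f e : F)) • t e = 0 := by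
      intro f
      have h2 : t f * (∑ e, g e • t e) * ti f = 0 := by rw [hg, mul_zero, zero_mul]
      rw [Finset.mul_sum, Finset.sum_mul] at h2
      rw [← h2]
      refine Finset.sum_congr rfl fun e _ => ?_
      rw [Matrix.mul_smul, Matrix.smul_mul, hcm, smul_smul]
    have h3 : ∑ f, (c f e₀ : F) • ∑ e, (g e * (c f e : F)) • t e = 0 :=
      Finset.sum_eq_zero fun f _ => by rw [h1, smul_zero]
    have h4 : ∑ f, (c f e₀ : F) • ∑ e, (g e * (c f e : F)) • t e =
        ∑ e, (g e * ((∑ f, c f (e₀ * e) : ℤ) : F)) • t e := by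
      simp only [Finset.smul_sum]
      rw [Finset.sum_comm]
      refine Finset.sum_congr rfl fun e _ => ?_
      rw [Int.cast_sum, Finset.mul_sum, Finset.sum_smul]
      refine Finset.sum_congr rfl fun f _ => ?_
      rw [smul_smul, hmul, Int.cast_mul]
      congr 1
      ring
    rw [h4, Finset.sum_eq_single_of_mem e₀ (Finset.mem_univ _)] at h3
    · have h5 : ∀ f, c f (e₀ * e₀) = 1 := fun f => by rw [hmul, hone]
      rw [Finset.sum_congr rfl fun f _ => h5 f] at h3
      have h6 : ((∑ _f : E, (1 : ℤ) : ℤ) : F) = (Fintype.card E : F) := by simp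
      rw [h6] at h3
      have ht : t e₀ ≠ 0 := by
        intro h0
        have h7 := hti e₀
        rw [h0, zero_mul] at h7
        exact zero_ne_one h7
      rcases smul_eq_zero.1 h3 with h7 | h7
      · rcases mul_eq_zero.1 h7 with h8 | h8
        · exact h8
        · exact absurd h8 hE
      · exact absurd h7 ht
    · intro e _ he
      have h5 : e₀ * e ≠ 1 := by
        intro h6
        apply he
        have h7 := hinv e₀
        rw [← h6] at h7
        exact (mul_left_cancel h7).symm
      rw [hc _ h5, Int.cast_zero, mul_zero, zero_smul]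
  have h := hli.fintype_card_le_finrank
  rwa [Module.finrank_matrix, Fintype.card_fin, Module.finrank_self, mul_one] at h

end

end Vale.Agent.P240.H195
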