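import Vale.Agent.P240.H195.RG8

/-!
The groups `PSL_n(F)`, `n = 2 ^ a`, satisfy `RegFree 2` if `(|F| - 1) / 2` is odd.
-/

namespace Vale.Agent.P240.H195

open Subgroup Matrix Vale.Agent.P240.K

/-- The hypotheses on the field and the degree. -/
structure RegHyp (l m a N : ℕ) (F : Type*) [Field F] : Prop where
  prime : l.Prime
  char : CharP F l
  ne : l ≠ 2
  deg : m + 1 = 2 ^ a
  rank : 3 ≤ m
  ex : ∀ j, l ^ j ≠ m + 2
  odd : Odd N
  sign : ∀ x : F, x ≠ 0 → x ^ N = 1 ∨ x ^ N = -1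
  simple : IsSimpleGroup (PL m F)
  centre : ∀ x : PL m F, (∀ y, x * y = y * x) → x = 1

section
variable {F : Type*} [Field F] {l m a N : ℕ}

lemma RegHyp.two (h : RegHyp l m a N F) : (2 : F) ≠ 0 := by
  have := h.char
  have : Fact l.Prime := ⟨h.prime⟩
  exact two_ne h.ne

lemma RegHyp.root (h : RegHyp l m a N F) : ∀ c : F, c ^ (m + 1) = 1 → c = 1 ∨ c = -1 := by
  intro c hc
  rw [h.deg] at hc
  exact root_two h.odd h.sign hc

lemma RegHyp.oddK (h : RegHyp l m a N F) : Odd (l ^ (m + 1)) := (h.prime.odd_of_ne_two h.ne).pow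

lemma RegHyp.powK (h : RegHyp l m a N F) : (s0 m F) ^ l ^ (m + 1) = 1 := by
  have := h.char
  have : Fact l.Prime := ⟨h.prime⟩
  exact s0_pow_one

/-- automorphisms of `SL` inducing automorphisms that fix elements of odd order -/
lemma RegHyp.fix (h : RegHyp l m a N F) {θ : MulAut (SLm m F)} {x : SLm m F}
    (hx : x ^ l ^ (m + 1) = 1) (hf : ind θ (pr m F x) = pr m F x) : θ x = x := by
  rcases sg_of_pr h.root (x := θ x) (y := x) hf with h1 | h1
  · exact Subtype.ext h1
  · exact (no_neg h.two h.oddK (by rw [← map_pow, hx, map_one]) hx h1).elim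

/-- the centralizer in `PSL` -/
lemma RegHyp.cent (h : RegHyp l m a N F) {x : SLm m F}
    (hx : pr m F x * pr m F (s0 m F) = pr m F (s0 m F) * pr m F x) :
    x.1 * Nm m F = Nm m F * x.1 := by
  rw [← comm_iff_Nm]
  have h1 : pr m F (s0 m F * x * (s0 m F)⁻¹) = pr m F x := by
    rw [map_mul, map_mul, map_inv, ← hx, mul_inv_cancel_right]
  rcases sg_of_pr h.root h1 with h2 | h2
  · exact mul_inv_eq_iff_eq_mul.1 (show s0 m F * x * (s0 m F)⁻¹ = x from Subtype.ext h2)
  · exact (odd_no_neg h.two h.oddK h.powK h2).elim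

lemma map_s0 (τ : RingAut F) : (s0 m F).1.map τ = (s0 m F).1 := by
  ext i j
  rw [Matrix.map_apply, s0_val, Matrix.add_apply, Nm, Matrix.of_apply, Matrix.one_apply, map_add]
  split_ifs <;> simp

/-- semilinear automorphisms fixing `s` -/
lemma RegHyp.semfix (h : RegHyp l m a N F) {M : GLm m F} {τ : RingAut F}
    (hf : sem M τ (pr m F (s0 m F)) = pr m F (s0 m F)) : M.1 * Nm m F = Nm m F * M.1 := by
  have h1 := congrArg Subtype.val (h.fix h.powK hf)
  change M.1 * (s0 m F).1.map τ * (M⁻¹).1 = (s0 m F).1 at h1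
  rw [map_s0] at h1
  have h3 : (M⁻¹).1 * M.1 = 1 := by rw [← Units.val_mul, inv_mul_cancel, Units.val_one]
  have h4 : M.1 * (s0 m F).1 = (s0 m F).1 * M.1 := by
    calc M.1 * (s0 m F).1 = M.1 * (s0 m F).1 * ((M⁻¹).1 * M.1) := by rw [h3, mul_one]
      _ = M.1 * (s0 m F).1 * (M⁻¹).1 * M.1 := by rw [← mul_assoc]
      _ = _ := by rw [h1]
  rw [s0_val, mul_add, add_mul, mul_one, one_mul] at h4
  exact add_left_cancel h4

lemma comm_ne {X : Matrix (Fin (m + 1)) (Fin (m + 1)) F} (hX : X * Nm m F = Nm m F * X)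
    (hd : X.det ≠ 0) : X 0 0 ≠ 0 := by
  intro h0
  rw [comm_det hX, h0, zero_pow (Nat.succ_ne_zero m)] at hd
  exact hd rfl

/-- semilinear involutions fixing `s` are trivial -/
lemma RegHyp.sem_one (h : RegHyp l m a N F) {M : GLm m F} {τ : RingAut F}
    (hf : sem M τ (pr m F (s0 m F)) = pr m F (s0 m F)) (h2 : sem M τ * sem M τ = 1) :
    sem M τ = 1 := by
  have := h.char
  have : Fact l.Prime := ⟨h.prime⟩
  have hM := h.semfix hf
  rw [sem_mul] at h2
  obtain ⟨h3, d, hd⟩ := sem_triv h.ne (by have := h.rank; omega) h.root h2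
  have hτ := tau_sq h.odd h.two h.sign h3
  subst hτ
  rw [Units.val_mul, gla_one] at hd
  have h4 := comm_invol h.two hM (comm_ne hM (gl_det_ne M)) hd
  exact sem_scalar (c := M.1 0 0) (by rw [← Algebra.algebraMap_eq_smul_one] at h4; exact h4)

/-- involutions fixing `s` -/
lemma RegHyp.cases [Finite F] (h : RegHyp l m a N F) {f : MulAut (PL m F)}
    (hf : f (pr m F (s0 m F)) = pr m F (s0 m F)) (h2 : f ^ 2 = 1) :
    f = 1 ∨ ∃ M : GLm m F, f = sem M 1 * ind (itA m F) := by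
  have := h.char
  have : Fact l.Prime := ⟨h.prime⟩
  rw [sq] at h2
  obtain ⟨M, τ, rfl | rfl⟩ := aut_psl (by have := h.rank; omega) h.simple f
  · exact Or.inl (h.sem_one hf h2)
  · right
    have h3 : sem M τ * ind (itA m F) * (sem M τ * ind (itA m F)) = sem (M * gla τ (git M)) (τ * τ) := by
      rw [mul_assoc, ← mul_assoc (ind (itA m F)), it_sem, mul_assoc, itA_sq, mul_one, sem_mul]
    rw [h3] at h2
    obtain ⟨h4, -⟩ := sem_triv h.ne (by have := h.rank; omega) h.root h2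
    have hτ := tau_sq h.odd h.two h.sign h4
    subst hτ
    exact ⟨M, rfl⟩

/-- the product of two graph involutions fixing `s` -/
lemma RegHyp.prod (h : RegHyp l m a N F) {M M' : GLm m F}
    (hf : (sem M 1 * ind (itA m F) * (sem M' 1 * ind (itA m F))) (pr m F (s0 m F)) =
      pr m F (s0 m F)) :
    ∃ w : PL m F, (w * pr m F (s0 m F) = pr m F (s0 m F) * w ∧ w ^ l ^ (m + 1) = 1) ∧
      sem M 1 * ind (itA m F) * (sem M' 1 * ind (itA m F)) = MulAut.conj w := by
  have := h.char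
  have : Fact l.Prime := ⟨h.prime⟩
  have h3 : sem M 1 * ind (itA m F) * (sem M' 1 * ind (itA m F)) = sem (M * git M') 1 := by
    rw [mul_assoc, ← mul_assoc (ind (itA m F)), it_sem, mul_assoc, itA_sq, mul_one, sem_mul, gla_one,
      mul_one]
  rw [h3] at hf ⊢
  set H := M * git M' with hH
  have hM := h.semfix hf
  have hc0 := comm_ne hM (gl_det_ne H)
  set c := H.1 0 0 with hc
  have hu : (c⁻¹ • H.1) * Nm m F = Nm m F * (c⁻¹ • H.1) := by
    rw [Matrix.smul_mul, Matrix.mul_smul, hM]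
  have hu0 : (c⁻¹ • H.1) 0 0 = 1 := by
    rw [Matrix.smul_apply, ← hc, smul_eq_mul, inv_mul_cancel₀ hc0]
  have hdet : (c⁻¹ • H.1).det = 1 := by rw [comm_det hu, hu0, one_pow]
  obtain ⟨u, hu1⟩ : ∃ u : SLm m F, u.1 = c⁻¹ • H.1 := ⟨⟨_, hdet⟩, rfl⟩
  rw [← hu1] at hu hu0
  refine ⟨pr m F u, ⟨?_, ?_⟩, sem_inner (c := c) ?_⟩
  · rw [← map_mul, ← map_mul, comm_iff_Nm.2 hu]
  · rw [← map_pow]
    have : u ^ l ^ (m + 1) = 1 := Subtype.ext (by
      rw [sl_pow_val, comm_unip hu hu0]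
      rfl)
    rw [this, map_one]
  · rw [hu1, smul_smul, mul_inv_cancel₀ hc0, one_smul]

/-- graph automorphisms fixing `s` move an element of the centralizer -/
lemma RegHyp.moves (h : RegHyp l m a N F) {M : GLm m F}
    (hf : (sem M 1 * ind (itA m F)) (pr m F (s0 m F)) = pr m F (s0 m F))
    (hw : ∀ w : PL m F, w * pr m F (s0 m F) = pr m F (s0 m F) * w → w ^ l ^ (m + 1) = 1 →
      (sem M 1 * ind (itA m F)) w = w) : False := by
  have := h.char
  have : Fact l.Prime := ⟨h.prime⟩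
  have hm := h.rank
  rw [← ind_mul] at hf
  -- the element
  set K := Nm m F with hK
  have hwc : (1 + K ^ (m - 1)) * K = K * (1 + K ^ (m - 1)) := by
    rw [add_mul, mul_add, one_mul, mul_one, ← pow_succ, ← pow_succ']
  have hw0 : (1 + K ^ (m - 1)) 0 0 = 1 := by
    rw [Matrix.add_apply, Matrix.one_apply_eq, hK, Nm_pow, Matrix.of_apply, if_neg, add_zero]
    simp
    omega
  have hdet : (1 + K ^ (m - 1)).det = 1 := by rw [comm_det hwc, hw0, one_pow]
  obtain ⟨w₀, hw1⟩ : ∃ u : SLm m F, u.1 = 1 + K ^ (m - 1) := ⟨⟨_, hdet⟩, rfl⟩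
  rw [← hw1] at hwc hw0
  have hwK : w₀ ^ l ^ (m + 1) = 1 := Subtype.ext (by
      rw [sl_pow_val, comm_unip hwc hw0]
      rfl)
  have hws := hw (pr m F w₀) (by rw [← map_mul, ← map_mul, comm_iff_Nm.2 hwc])
    (by rw [← map_pow, hwK, map_one])
  rw [← ind_mul] at hws
  -- the relations
  have hrel : ∀ x : SLm m F, x ^ l ^ (m + 1) = 1 →
      ind (act M 1 * itA m F) (pr m F x) = pr m F x → M.1 * x.1.transpose = (x⁻¹).1 * M.1 := by
    intro x hx hfx
    have h1 := h.fix hx hfx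
    have h2 : (act M 1 * itA m F) x⁻¹ = x⁻¹ := by rw [map_inv, h1]
    have h3 := congrArg Subtype.val h2
    change M.1 * (itf x⁻¹).1.map (1 : RingAut F) * (M⁻¹).1 = (x⁻¹).1 at h3
    have h4 : (itf x⁻¹).1.map (1 : RingAut F) = x.1.transpose := by
      rw [itf_val, inv_inv]
      ext i j
      rfl
    rw [h4] at h3
    have h5 : (M⁻¹).1 * M.1 = 1 := by rw [← Units.val_mul, inv_mul_cancel, Units.val_one]
    calc M.1 * x.1.transpose = M.1 * x.1.transpose * ((M⁻¹).1 * M.1) := by rw [h5, mul_one]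
      _ = M.1 * x.1.transpose * (M⁻¹).1 * M.1 := by rw [← mul_assoc]
      _ = _ := by rw [h3]
  have hr1 := hrel _ h.powK hf
  have hr2 := hrel _ hwK hws
  set T := ((s0 m F)⁻¹).1 with hT
  have hTs : T * (1 + K) = 1 := by
    have : ((s0 m F)⁻¹ * s0 m F).1 = T * (1 + K) := rfl
    rw [← this, inv_mul_cancel]
    rfl
  have hTK : T * K = K * T := by
    have h1 : (s0 m F)⁻¹.1 * Nm m F = Nm m F * (s0 m F)⁻¹.1 :=
      comm_iff_Nm.1 ((Commute.refl (s0 m F)).inv_right)
    exact h1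
  have hTm : T * K ^ m = K ^ m := by
    have h1 : T * (1 + K) * K ^ m = K ^ m := by rw [hTs, one_mul]
    rw [mul_assoc, add_mul, one_mul, ← pow_succ', hK, Nm_nil, add_zero] at h1
    exact h1
  have hW : ∀ k, T ^ k * K ^ m = K ^ m := by
    intro k
    induction k with
    | zero => rw [pow_zero, one_mul]
    | succ k ih => rw [pow_succ, mul_assoc, hTm, ih]
  have hWm : (w₀⁻¹).1 * K ^ m = K ^ m := by
    have h1 : (w₀⁻¹).1 * w₀.1 = 1 := by
      rw [← sl_val_mul, inv_mul_cancel]; rfl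
    have h2 : (w₀⁻¹).1 * w₀.1 * K ^ m = K ^ m := by rw [h1, one_mul]
    have h3 : K ^ (m - 1) * K ^ m = 0 := by
      rw [← pow_add]
      obtain ⟨d, hd⟩ := Nat.exists_eq_add_of_le (show m + 1 ≤ m - 1 + m by omega)
      rw [hd, pow_add, hK, Nm_nil, zero_mul]
    rw [mul_assoc, hw1, add_mul, one_mul, h3, add_zero] at h2
    exact h2
  -- transport of powers
  have hA1 : M.1 * K.transpose = (-(T * K)) * M.1 := by
    have h1 : (s0 m F).1.transpose = 1 + K.transpose := by
      rw [s0_val, Matrix.transpose_add, Matrix.transpose_one]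
    rw [h1, mul_add, mul_one] at hr1
    have h2 : T = 1 - T * K := by
      rw [eq_sub_iff_add_eq]
      rw [mul_add, mul_one] at hTs
      exact hTs
    have h3 : M.1 * K.transpose = T * M.1 - M.1 := by
      rw [← hr1]
      abel
    rw [h3]
    conv_lhs => rw [h2]
    rw [Matrix.sub_mul, Matrix.neg_mul, Matrix.one_mul]
    abel
  have hA : ∀ k, M.1 * K.transpose ^ k = (-(T * K)) ^ k * M.1 := by
    intro k
    induction k with
    | zero => rw [pow_zero, pow_zero, mul_one, one_mul]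
    | succ k ih => rw [pow_succ, ← mul_assoc, ih, mul_assoc, hA1, ← mul_assoc, ← pow_succ]
  have heven : Even (m - 1) := by
    obtain ⟨b, rfl⟩ : ∃ b, a = b + 1 := by
      refine ⟨a - 1, ?_⟩
      have : a ≠ 0 := by
        rintro rfl
        have := h.deg
        omega
      omega
    have := h.deg
    rw [pow_succ] at this
    exact ⟨2 ^ b - 1, by omega⟩
  have h5 := hA (m - 1)
  rw [heven.neg_pow, (show Commute T K from hTK).mul_pow] at h5
  have h6 : M.1 * K.transpose ^ (m - 1) = -((w₀⁻¹).1 * K ^ (m - 1)) * M.1 := by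
    have h1 : w₀.1.transpose = 1 + K.transpose ^ (m - 1) := by
      rw [hw1, Matrix.transpose_add, Matrix.transpose_one, Matrix.transpose_pow]
    rw [h1, mul_add, mul_one] at hr2
    have h7 : (w₀⁻¹).1 * (1 + K ^ (m - 1)) = 1 := by
      rw [← hw1, ← sl_val_mul, inv_mul_cancel]; rfl
    have h2 : (w₀⁻¹).1 = 1 - (w₀⁻¹).1 * K ^ (m - 1) := by
      rw [eq_sub_iff_add_eq]
      rw [mul_add, mul_one] at h7
      exact h7
    have h3 : M.1 * K.transpose ^ (m - 1) = (w₀⁻¹).1 * M.1 - M.1 := by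
      rw [← hr2]
      abel
    rw [h3]
    conv_lhs => rw [h2]
    rw [Matrix.sub_mul, Matrix.neg_mul, Matrix.one_mul]
    abel
  rw [h6] at h5
  have h7 : -((w₀⁻¹).1 * K ^ (m - 1)) = T ^ (m - 1) * K ^ (m - 1) := by
    have h8 := congrArg (· * (M⁻¹).1) h5
    simp only [mul_assoc] at h8
    have h9 : M.1 * (M⁻¹).1 = 1 := by rw [← Units.val_mul, mul_inv_cancel, Units.val_one]
    rw [h9, mul_one] at h8
    simp only [← mul_assoc] at h8
    rw [h8]
    simp only [mul_one]
  have h8 := congrArg (· * K) h7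
  simp only [Matrix.neg_mul, mul_assoc, ← pow_succ] at h8
  have h9 : m - 1 + 1 = m := by omega
  rw [h9, hWm, hW] at h8
  have h10 := congrFun (congrFun h8 ⟨m, by omega⟩) 0
  rw [Matrix.neg_apply, hK, Nm_pow, Matrix.of_apply, if_pos (by simp)] at h10
  exact h.two (by linear_combination -h10)

end

end Vale.Agent.P240.H195
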