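import Mathlib.GroupTheory.Nilpotent
import Vale.Agent.P240.H195.RG9

/-!
The groups `PSL_n(F)`, `n = 2 ^ a`, satisfy `RegFree 2` if `(|F| - 1) / 2` is odd.
-/

namespace Vale.Agent.P240.H195

open Subgroup Matrix Vale.Agent.P240.K

section
variable {L : Type*} [Group L]

lemma conj_fix_iff (hc : ∀ x : L, (∀ y, x * y = y * x) → x = 1) {f : MulAut L} {s : L} :
    MulAut.conj s * f = f * MulAut.conj s ↔ f s = s := by
  have hinj : Function.Injective (MulAut.conj : L →* MulAut L) := by
    rw [injective_iff_map_eq_one]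
    intro x hx
    refine hc x fun y => ?_
    have h1 := congrArg (fun f : MulAut L => f y) hx
    change x * y * x⁻¹ = y at h1
    exact mul_inv_eq_iff_eq_mul.1 h1
  have h1 : f * MulAut.conj s = MulAut.conj (f s) * f := by
    ext1 z
    simp only [MulAut.mul_apply, MulAut.conj_apply, map_mul, map_inv]
  rw [h1]
  constructor
  · intro h
    exact (hinj (mul_right_cancel h)).symm
  · intro h
    rw [h]

/-- a group of automorphisms normalized by conjugation by `s` without nontrivial elements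
fixing `s` consists of inner automorphisms -/
lemma inner_of_free [Finite L] (hc : ∀ x : L, (∀ y, x * y = y * x) → x = 1) {s : L}
    {E : Subgroup (MulAut L)}
    (hs : MulAut.conj s ∈ normalizer (E : Set (MulAut L))) (hfree : ∀ f ∈ E, f s = s → f = 1) :
    ∀ f ∈ E, f ∈ (MulAut.conj (G := L)).range := by
  have hk : ∀ f : MulAut L, f ∈ E → MulAut.conj s * f * (MulAut.conj s)⁻¹ * f⁻¹ ∈ E := fun f hf =>
    mul_mem ((mem_normalizer_iff.1 hs f).1 hf) (inv_mem hf)
  let κ : E → E := fun f => ⟨_, hk f.1 f.2⟩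
  have hinj : Function.Injective κ := by
    intro f g hfg
    have h1 : MulAut.conj s * f.1 * (MulAut.conj s)⁻¹ * (f.1)⁻¹ =
        MulAut.conj s * g.1 * (MulAut.conj s)⁻¹ * (g.1)⁻¹ := congrArg Subtype.val hfg
    have h2 : MulAut.conj s * ((g.1)⁻¹ * f.1) = ((g.1)⁻¹ * f.1) * MulAut.conj s := by
      calc MulAut.conj s * ((g.1)⁻¹ * f.1)
          = ((MulAut.conj s * g.1 * (MulAut.conj s)⁻¹ * (g.1)⁻¹) * g.1)⁻¹ *
            ((MulAut.conj s * f.1 * (MulAut.conj s)⁻¹ * (f.1)⁻¹) * f.1) * MulAut.conj s := by group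
        _ = _ := by rw [h1]; group
    have h3 := hfree _ (mul_mem (inv_mem g.2) f.2) ((conj_fix_iff hc).1 h2)
    exact Subtype.ext (inv_mul_eq_one.1 h3).symm
  have hsurj := Finite.surjective_of_injective hinj
  intro f hf
  obtain ⟨g, hg⟩ := hsurj ⟨f, hf⟩
  have h1 : MulAut.conj s * g.1 * (MulAut.conj s)⁻¹ * (g.1)⁻¹ = f := congrArg Subtype.val hg
  refine ⟨s * g.1 s⁻¹, ?_⟩
  rw [← h1]
  ext z
  simp [mul_assoc]

end

section
variable {F : Type*} [Field F] {l m a N : ℕ}

/-- no elementary abelian group of automorphisms -/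
lemma RegHyp.free [Finite F] (h : RegHyp l m a N F) {E : Subgroup (MulAut (PL m F))}
    (hE : ElemAb 2 E)
    (hs : MulAut.conj (pr m F (s0 m F)) ∈ normalizer (E : Set (MulAut (PL m F)))) :
    ∃ f ∈ E, f ≠ 1 ∧ f (pr m F (s0 m F)) = pr m F (s0 m F) := by
  have := h.char
  have : Fact l.Prime := ⟨h.prime⟩
  by_contra hcon
  push Not at hcon
  have hfree : ∀ f ∈ E, f (pr m F (s0 m F)) = pr m F (s0 m F) → f = 1 := by
    intro f hf hfs
    by_contra h1
    exact hcon f hf h1 hfs
  have hinn := inner_of_free h.centre hs hfree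
  set φ : SLm m F →* MulAut (PL m F) := MulAut.conj.comp (pr m F) with hφ
  have hφ1 : ∀ x : SLm m F, φ x = 1 → x.1 = 1 ∨ x.1 = -1 := by
    intro x hx
    have h1 : pr m F x = 1 := by
      refine h.centre _ fun y => ?_
      have h2 := congrArg (fun f : MulAut (PL m F) => f y) hx
      change pr m F x * y * (pr m F x)⁻¹ = y at h2
      exact mul_inv_eq_iff_eq_mul.1 h2
    rw [← map_one (pr m F)] at h1
    exact sg_of_pr h.root h1
  have hP : RegData (E.comap φ) :=
    { sq := fun x hx => hφ1 _ (by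
        rw [map_mul]
        have h1 := hE.2.2 _ hx
        rwa [sq] at h1)
      comm := fun x hx y hy => by
        have h1 := hE.2.1 _ hx _ hy
        have h2 : φ (x * y * (y * x)⁻¹) = 1 := by
          rw [map_mul, map_inv, map_mul, map_mul, h1, mul_inv_cancel]
        have h3 : (x * y * (y * x)⁻¹).1 * (y * x).1 = (x * y).1 := by
          rw [← sl_val_mul, inv_mul_cancel_right]
        rcases hφ1 _ h2 with h4 | h4
        · left
          rw [h4, one_mul] at h3
          exact Subtype.ext h3.symm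
        · right
          rw [h4, Matrix.neg_mul, one_mul] at h3
          exact h3.symm
      norm := by
        rw [mem_normalizer_iff]
        intro x
        change φ x ∈ E ↔ φ (s0 m F * x * (s0 m F)⁻¹) ∈ E
        rw [map_mul, map_mul, map_inv]
        exact mem_normalizer_iff.1 hs (φ x)
      free := fun x hx hc => by
        have h1 : φ x (pr m F (s0 m F)) = pr m F (s0 m F) := by
          change pr m F x * pr m F (s0 m F) * (pr m F x)⁻¹ = pr m F (s0 m F)
          rw [← map_mul, ← hc, map_mul, mul_inv_cancel_right]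
        exact hφ1 _ (hfree _ hx h1) }
  have htriv := hP.trivial h.ne h.deg h.ex h.root
  apply hE.1
  rw [eq_bot_iff]
  intro f hf
  obtain ⟨y, rfl⟩ := hinn f hf
  obtain ⟨x, rfl⟩ := QuotientGroup.mk'_surjective _ y
  have h1 : pr m F x = 1 := by
    rw [← map_one (pr m F)]
    exact pr_sg (htriv x hf)
  rw [Subgroup.mem_bot]
  change MulAut.conj (pr m F x) = 1
  rw [h1, map_one]

/-- the elements of order a power of `l` of the centralizer of `s` -/
def RegHyp.W (h : RegHyp l m a N F) : Subgroup (PL m F) where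
  carrier := {w | w * pr m F (s0 m F) = pr m F (s0 m F) * w ∧ w ^ l ^ (m + 1) = 1}
  one_mem' := ⟨by rw [one_mul, mul_one], one_pow _⟩
  mul_mem' := by
    rintro x y ⟨hx, hx'⟩ ⟨hy, hy'⟩
    refine ⟨(show Commute _ _ from hx).mul_left hy, ?_⟩
    have hxy : x * y = y * x := by
      obtain ⟨x, rfl⟩ := QuotientGroup.mk'_surjective _ x
      obtain ⟨y, rfl⟩ := QuotientGroup.mk'_surjective _ y
      have h1 : x * y = y * x := Subtype.ext (comm_comm (h.cent hx) (h.cent hy))
      rw [← map_mul, h1, map_mul]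
    rw [(show Commute x y from hxy).mul_pow, hx', hy', one_mul]
  inv_mem' := by
    rintro x ⟨hx, hx'⟩
    exact ⟨(show Commute _ _ from hx).inv_left, by rw [inv_pow, hx', inv_one]⟩

lemma RegHyp.mem_W (h : RegHyp l m a N F) {w : PL m F} : w ∈ h.W ↔
    w * pr m F (s0 m F) = pr m F (s0 m F) * w ∧ w ^ l ^ (m + 1) = 1 := Iff.rfl

/-- **The groups `PSL_n(F)`.** -/
theorem RegHyp.regFree [Finite F] (h : RegHyp l m a N F) : RegFree 2 (PL m F) := by
  have := h.char
  have hlF : Fact l.Prime := ⟨h.prime⟩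
  have hm := h.rank
  set s := pr m F (s0 m F) with hs
  have hsK : s ^ l ^ (m + 1) = 1 := by rw [hs, ← map_pow, h.powK, map_one]
  have h2l : ¬ 2 ∣ l := fun h2 => h.ne ((Nat.prime_dvd_prime_iff_eq Nat.prime_two h.prime).1 h2).symm
  have hpl : IsPGroup l h.W := fun w => ⟨m + 1, Subtype.ext w.2.2⟩
  have hinv : ∀ {f : MulAut (PL m F)}, f ^ 2 = 1 → f⁻¹ = f := fun hf => by
    rw [sq] at hf
    exact inv_eq_of_mul_eq_one_left hf
  refine ⟨s, ?_, ?_, fun E hE hsE => h.free hE hsE, h.W, ?_, ?_, fun w hw => hw.1, fun f hf =>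
    ⟨fun w hw => ?_, fun hf2 => ⟨fun hfw => ?_, fun g hg hg2 => ?_, fun b => ?_⟩⟩⟩
  · intro h1
    rw [hs, ← map_one (pr m F)] at h1
    have h10 : (⟨1, by omega⟩ : Fin (m + 1)) ≠ 0 := by
      intro h
      have := congrArg Fin.val h
      simp at this
    have hent : (s0 m F).1 ⟨1, by omega⟩ 0 = 1 := by
      rw [s0_val, Matrix.add_apply, Matrix.one_apply_ne h10, Nm, Matrix.of_apply, if_pos (by simp),
        zero_add]
    rcases sg_of_pr h.root h1 with h2 | h2
    · rw [h2] at hent
      change (1 : Matrix (Fin (m + 1)) (Fin (m + 1)) F) ⟨1, by omega⟩ 0 = 1 at hent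
      rw [Matrix.one_apply_ne h10] at hent
      exact zero_ne_one hent
    · rw [h2] at hent
      change -(1 : Matrix (Fin (m + 1)) (Fin (m + 1)) F) ⟨1, by omega⟩ 0 = 1 at hent
      rw [Matrix.one_apply_ne h10, neg_zero] at hent
      exact zero_ne_one hent
  · intro h2
    have h3 : orderOf s ∣ l ^ (m + 1) := orderOf_dvd_of_pow_eq_one hsK
    exact h2l (Nat.prime_two.dvd_of_dvd_pow (h2.trans h3))
  · have : Group.IsNilpotent h.W := hpl.isNilpotent
    infer_instance
  · obtain ⟨k, hk⟩ := IsPGroup.iff_card.1 hpl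
    rw [hk]
    exact fun h2 => h2l (Nat.prime_two.dvd_of_dvd_pow h2)
  · refine ⟨?_, by rw [← map_pow, hw.2, map_one]⟩
    have h1 := congrArg f hw.1
    rw [map_mul, map_mul] at h1
    change f w * f s = f s * f w at h1
    rwa [hf] at h1
  · rcases h.cases hf hf2 with h1 | ⟨M, rfl⟩
    · exact h1
    · exact (h.moves hf fun w hw hw2 => hfw w ⟨hw, hw2⟩).elim
  · rcases h.cases hf hf2 with rfl | ⟨M, rfl⟩
    · exact ⟨1, one_mem _, by rw [map_one]; group⟩
    rcases h.cases hg hg2 with rfl | ⟨M', rfl⟩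
    · exact ⟨1, one_mem _, by rw [map_one]; group⟩
    obtain ⟨w, hw, hwe⟩ := h.prod (M := M) (M' := M') (by
      rw [MulAut.mul_apply]
      change _ = s
      rw [hg, hf])
    refine ⟨w * w, mul_mem hw hw, ?_⟩
    rw [hinv hf2, hinv hg2, map_mul, ← hwe]
    simp only [mul_assoc]
  · rcases h.cases hf hf2 with rfl | ⟨M, rfl⟩
    · exact ⟨1, by rw [map_one]; group⟩
    obtain ⟨A, τ, hb⟩ := aut_psl (by omega) h.simple b
    exact graph_comm h.odd h.deg h.sign hb

end

end Vale.Agent.P240.H195
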