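import Mathlib.GroupTheory.PGroup
import Vale.Agent.P240.H195.RG1

/-!
Abelian subgroups normalized by a regular unipotent element.
-/

namespace Vale.Agent.P240.H195

open Subgroup Matrix

section
variable {F : Type*} [Field F]

/-- invariant functions on a set on which an `l`-group acts without fixed points have sum zero in
characteristic `l` -/
lemma sum_zero_of_free {P X : Type*} [Group P] [MulAction P X] [Fintype X] {l : ℕ} [hl : Fact l.Prime]
    [CharP F l] (hP : IsPGroup l P) (hX : ∀ x : X, ∃ g : P, g • x ≠ x) (f : X → F)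
    (hf : ∀ (g : P) (x : X), f (g • x) = f x) : ∑ x, f x = 0 := by
  classical
  rw [← Finset.sum_fiberwise_of_maps_to (t := Finset.univ.image f) (g := f)
    (fun x _ => Finset.mem_image_of_mem f (Finset.mem_univ x))]
  refine Finset.sum_eq_zero fun v _ => ?_
  have h1 : ∑ x ∈ Finset.univ.filter (fun x => f x = v), f x =
      ((Finset.univ.filter (fun x => f x = v)).card : F) * v := by
    rw [Finset.sum_congr rfl fun x hx => (Finset.mem_filter.1 hx).2, Finset.sum_const, nsmul_eq_mul]
  rw [h1]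
  let act : MulAction P {x : X // f x = v} :=
    { smul := fun g x => ⟨g • x.1, by rw [hf]; exact x.2⟩
      one_smul := fun x => Subtype.ext (one_smul P x.1)
      mul_smul := fun g h x => Subtype.ext (mul_smul g h x.1) }
  have h2 := hP.card_modEq_card_fixedPoints {x : X // f x = v}
  have h3 : Nat.card (MulAction.fixedPoints P {x : X // f x = v}) = 0 := by
    have : IsEmpty (MulAction.fixedPoints P {x : X // f x = v}) := by
      refine ⟨fun ⟨x, hx⟩ => ?_⟩
      obtain ⟨g, hg⟩ := hX x.1
      exact hg (congrArg Subtype.val (hx g))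
    exact Nat.card_of_isEmpty
  rw [h3] at h2
  have h4 : l ∣ Nat.card {x : X // f x = v} := (Nat.modEq_zero_iff_dvd).1 h2
  have h5 : Nat.card {x : X // f x = v} = (Finset.univ.filter (fun x => f x = v)).card := by
    rw [Nat.card_eq_fintype_card, Fintype.card_subtype]
  rw [h5] at h4
  rw [(CharP.cast_eq_zero_iff F l _).2 h4, zero_mul]

/-- a projection commuting with a nilpotent endomorphism with kernel of dimension `1` is trivial -/
lemma proj_trivial {V : Type*} [AddCommGroup V] [Module F V] {N π : Module.End F V}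
    (hN : IsNilpotent N) (hker : ∀ u w, N u = 0 → N w = 0 → u ≠ 0 → ∃ c : F, w = c • u)
    (hπ : π * π = π) (hc : π * N = N * π) : π = 0 ∨ π = 1 := by
  have key : ∀ x : V, x ≠ 0 → ∃ k : ℕ, (N ^ k) x ≠ 0 ∧ N ((N ^ k) x) = 0 := by
    intro x hx
    obtain ⟨n, hn⟩ := hN
    classical
    have hex : ∃ k, (N ^ k) x = 0 := ⟨n, by rw [hn]; rfl⟩
    have h0 : Nat.find hex ≠ 0 := by
      intro h0
      have := Nat.find_spec hex
      rw [h0, pow_zero] at this
      exact hx this
    obtain ⟨k, hk⟩ := Nat.exists_eq_succ_of_ne_zero h0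
    refine ⟨k, Nat.find_min hex (by omega), ?_⟩
    have h1 := Nat.find_spec hex
    rw [hk, pow_succ'] at h1
    exact h1
  have hcp : ∀ k : ℕ, π * N ^ k = N ^ k * π := fun k => (Commute.pow_right (show Commute π N from hc) k)
  by_contra hcon
  push Not at hcon
  obtain ⟨h0, h1⟩ := hcon
  obtain ⟨x, hx⟩ : ∃ x, π x ≠ 0 := by
    by_contra h
    push Not at h
    exact h0 (LinearMap.ext h)
  obtain ⟨y, hy⟩ : ∃ y, y - π y ≠ 0 := by
    by_contra h
    push Not at h
    exact h1 (LinearMap.ext fun y => (sub_eq_zero.1 (h y)).symm)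
  obtain ⟨k, hk, hk0⟩ := key _ hx
  obtain ⟨j, hj, hj0⟩ := key _ hy
  obtain ⟨c, hcu⟩ := hker _ _ hk0 hj0 hk
  have h2 : π ((N ^ k) (π x)) = (N ^ k) (π x) := by
    have h3 : π ((N ^ k) (π x)) = (π * N ^ k) (π x) := rfl
    rw [h3, hcp]
    change (N ^ k) ((π * π) x) = _
    rw [hπ]
  have h3 : π ((N ^ j) (y - π y)) = 0 := by
    have h4 : π ((N ^ j) (y - π y)) = (π * N ^ j) (y - π y) := rfl
    rw [h4, hcp]
    change (N ^ j) (π (y - π y)) = 0
    have h5 : π (y - π y) = 0 := by
      rw [map_sub]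
      change π y - (π * π) y = 0
      rw [hπ, sub_self]
    rw [h5, map_zero]
  rw [hcu, map_smul, h2, ← hcu] at h3
  exact hj h3

end

section
variable {F : Type*} [Field F] [Finite F] {m : ℕ}

/-- The abelian case: a group `C` of commuting special linear matrices, normalized by the regular
unipotent matrix `s`, without nontrivial elements commuting with `s`, is trivial. -/
theorem reg_abelian {l : ℕ} [hl : Fact l.Prime] [CharP F l] (hn : ((m + 1 : ℕ) : F) ≠ 0)
    {s : SLm m F} {k : ℕ} (hsk : s ^ l ^ k = 1)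
    (hnil : IsNilpotent (Matrix.toLin' (s.1 - 1)))
    (hker : ∀ u w, Matrix.toLin' (s.1 - 1) u = 0 → Matrix.toLin' (s.1 - 1) w = 0 → u ≠ 0 →
      ∃ c : F, w = c • u) {C : Subgroup (SLm m F)} (hCc : (Nat.card C : F) ≠ 0)
    (hs : ∀ c ∈ C, s * c * s⁻¹ ∈ C) (hfree : ∀ c ∈ C, s * c = c * s → c = 1) : C = ⊥ := by
  classical
  have hfC : Fintype C := Fintype.ofFinite C
  -- the action of the group generated by `s`
  have hsz : ∀ g ∈ zpowers s, ∀ c ∈ C, g * c * g⁻¹ ∈ C := by
    have h1 : zpowers s ≤ normalizer (C : Set (SLm m F)) := by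
      rw [zpowers_le]
      rw [mem_normalizer_iff]
      intro c
      refine ⟨hs c, fun hc => ?_⟩
      have h3 : Function.Surjective (fun c : C => (⟨s * c * s⁻¹, hs c c.2⟩ : C)) := by
        refine Finite.surjective_of_injective fun a b hab => ?_
        have := congrArg Subtype.val hab
        simp only [mul_left_inj, mul_right_inj] at this
        exact Subtype.ext this
      obtain ⟨⟨c', hc'⟩, he⟩ := h3 ⟨_, hc⟩
      have := congrArg Subtype.val he
      simp only [mul_left_inj, mul_right_inj] at this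
      rwa [← this]
    intro g hg c hc
    exact (mem_normalizer_iff.1 (h1 hg) c).1 hc
  let act : MulAction (zpowers s) {c : C // c ≠ 1} :=
    { smul := fun g c => ⟨⟨g.1 * c.1.1 * g.1⁻¹, hsz g.1 g.2 c.1.1 c.1.2⟩, fun h => c.2 (by
        have h1 : g.1 * c.1.1 * g.1⁻¹ = 1 := congrArg Subtype.val h
        rw [mul_inv_eq_one, mul_eq_left] at h1
        exact Subtype.ext h1)⟩
      one_smul := fun c => Subtype.ext (Subtype.ext (by
        change (1 : SLm m F) * c.1.1 * (1 : SLm m F)⁻¹ = c.1.1
        rw [one_mul, inv_one, mul_one]))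
      mul_smul := fun g h c => Subtype.ext (Subtype.ext (by
        change (g.1 * h.1) * c.1.1 * (g.1 * h.1)⁻¹ = g.1 * (h.1 * c.1.1 * h.1⁻¹) * g.1⁻¹
        group)) }
  have hsmul : ∀ (g : zpowers s) (c : {c : C // c ≠ 1}), (g • c).1.1 = g.1 * c.1.1 * g.1⁻¹ :=
    fun g c => rfl
  have hP : IsPGroup l (zpowers s) := by
    rintro ⟨g, i, rfl⟩
    refine ⟨k, Subtype.ext ?_⟩
    change (s ^ i) ^ l ^ k = 1
    rw [← zpow_natCast, zpow_comm, zpow_natCast, hsk, one_zpow]
  have hsum := sum_zero_of_free (F := F) hP (X := {c : C // c ≠ 1}) (fun c => by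
    refine ⟨⟨s, mem_zpowers s⟩, fun h => c.2 ?_⟩
    have h1 : s * c.1.1 * s⁻¹ = c.1.1 := congrArg (fun c : {c : C // c ≠ 1} => c.1.1) h
    exact Subtype.ext (hfree c.1.1 c.1.2 (by rw [← h1, inv_mul_cancel_right, h1])))
    (fun c => (c.1.1.1).trace) (fun g c => by
      rw [hsmul]
      have h1 : (g.1 * c.1.1 * g.1⁻¹).1 = g.1.1 * c.1.1.1 * (g.1⁻¹).1 := rfl
      rw [h1, Matrix.trace_mul_comm, ← Matrix.mul_assoc]
      have h2 : (g.1⁻¹).1 * g.1.1 = 1 := by
        have := congrArg (fun y : SLm m F => y.1) (inv_mul_cancel g.1)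
        exact this
      rw [h2, Matrix.one_mul])
  set T : Matrix (Fin (m + 1)) (Fin (m + 1)) F := ∑ c : C, c.1.1 with hT
  have htr : T.trace = ((m + 1 : ℕ) : F) := by
    rw [hT, Matrix.trace_sum, ← Finset.add_sum_erase _ _ (Finset.mem_univ (1 : C))]
    have h1 : ∑ c ∈ Finset.univ.erase (1 : C), (c.1.1).trace = ∑ c : {c : C // c ≠ 1}, (c.1.1.1).trace := by
      refine Finset.sum_subtype _ (fun c => ?_) (fun c : C => (c.1.1).trace)
      simp
    rw [h1, hsum, add_zero]
    have h2 : ((1 : C) : SLm m F).1 = 1 := rfl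
    rw [h2, Matrix.trace_one, Fintype.card_fin]
  have hcT : ∀ c ∈ C, c.1 * T = T := by
    intro c hc
    rw [hT, Finset.mul_sum, ← Equiv.sum_comp (Equiv.mulLeft (⟨c, hc⟩ : C)) fun c : C => c.1.1]
    rfl
  have hTT : T * T = (Nat.card C : F) • T := by
    have h1 : T * T = ∑ c : C, c.1.1 * T := by
      conv_lhs => rw [hT, Finset.sum_mul]
    rw [h1, Finset.sum_congr rfl fun c _ => hcT c.1 c.2, Finset.sum_const, Finset.card_univ,
      Nat.card_eq_fintype_card, Nat.cast_smul_eq_nsmul]
  have hsT : s.1 * T = T * s.1 := by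
    rw [hT, Finset.mul_sum, Finset.sum_mul]
    have h1 : ∀ c : C, s.1 * c.1.1 = (s * c.1 * s⁻¹).1 * s.1 := by
      intro c
      have h2 : s * c.1 = (s * c.1 * s⁻¹) * s := by group
      have := congrArg (fun y : SLm m F => y.1) h2
      exact this
    rw [Finset.sum_congr rfl fun c _ => h1 c]
    let σ : C → C := fun c => ⟨s * c * s⁻¹, hs c c.2⟩
    have hσ : Function.Bijective σ := by
      rw [← Finite.injective_iff_bijective]
      intro a b hab
      have := congrArg Subtype.val hab
      simp only [σ, mul_left_inj, mul_right_inj] at this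
      exact Subtype.ext this
    exact Equiv.sum_comp (Equiv.ofBijective σ hσ) fun c : C => c.1.1 * s.1
  -- the projection
  set d : F := (Nat.card C : F) with hd
  have hpi := proj_trivial (N := Matrix.toLin' (s.1 - 1)) (π := Matrix.toLin' (d⁻¹ • T)) hnil hker
    (by
      change Matrix.toLin' (d⁻¹ • T) ∘ₗ Matrix.toLin' (d⁻¹ • T) = _
      rw [← Matrix.toLin'_mul, Matrix.smul_mul, Matrix.mul_smul, hTT, smul_smul d⁻¹ d,
        inv_mul_cancel₀ hCc, one_smul])
    (by
      change Matrix.toLin' (d⁻¹ • T) ∘ₗ Matrix.toLin' (s.1 - 1) =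
        Matrix.toLin' (s.1 - 1) ∘ₗ Matrix.toLin' (d⁻¹ • T)
      rw [← Matrix.toLin'_mul, ← Matrix.toLin'_mul, Matrix.smul_mul, Matrix.mul_smul, Matrix.mul_sub,
        Matrix.sub_mul, hsT, Matrix.mul_one, Matrix.one_mul])
  rcases hpi with h | h
  · exfalso
    have h1 : d⁻¹ • T = 0 := by
      apply Matrix.toLin'.injective
      rw [h, map_zero]
    have h2 : T = 0 := by
      rcases smul_eq_zero.1 h1 with h3 | h3
      · exact absurd h3 (inv_ne_zero hCc)
      · exact h3
    rw [h2, Matrix.trace_zero] at htr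
    exact hn htr.symm
  · have h1 : d⁻¹ • T = 1 := by
      apply Matrix.toLin'.injective
      rw [h, Matrix.toLin'_one]
      rfl
    rw [eq_bot_iff]
    intro c hc
    rw [Subgroup.mem_bot]
    apply Subtype.ext
    have h2 : c.1 * (d⁻¹ • T) = d⁻¹ • T := by rw [Matrix.mul_smul, hcT c hc]
    rw [h1, Matrix.mul_one] at h2
    exact h2

end

end Vale.Agent.P240.H195
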