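import Mathlib.FieldTheory.Finite.Basic
import Mathlib.GroupTheory.OrderOfElement
import Mathlib.Dynamics.PeriodicPts.Lemmas
import Vale.Agent.P240.H195.RG2

/-!
Centres, periods, kernels of powers.
-/

namespace Vale.Agent.P240.H195

open Subgroup Matrix

section

/-- a permutation all of whose cycles have length `l ^ j` -/
lemma dvd_card_of_period {X : Type*} [Fintype X] (σ : Equiv.Perm X) {l j : ℕ} [hl : Fact l.Prime]
    (h1 : σ ^ l ^ (j + 1) = 1) (h2 : ∀ x, (σ ^ l ^ j) x ≠ x) : l ^ (j + 1) ∣ Fintype.card X := by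
  classical
  have hper : ∀ x : X, Function.minimalPeriod (σ • ·) x = l ^ (j + 1) := by
    intro x
    have h3 : Function.minimalPeriod (σ • ·) x ∣ l ^ (j + 1) := by
      rw [← Function.isPeriodicPt_iff_minimalPeriod_dvd]
      change (σ • ·)^[l ^ (j + 1)] x = x
      rw [smul_iterate, h1]
      exact one_smul _ x
    obtain ⟨i, hi, hi'⟩ := (Nat.dvd_prime_pow hl.out).1 h3
    rw [hi']
    congr 1
    by_contra hne
    have h4 : Function.minimalPeriod (σ • ·) x ∣ l ^ j := by
      rw [hi']
      exact pow_dvd_pow l (by omega)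
    rw [← Function.isPeriodicPt_iff_minimalPeriod_dvd] at h4
    have h5 : (σ • ·)^[l ^ j] x = x := h4
    rw [smul_iterate] at h5
    exact h2 x h5
  have h3 : Nat.card X = ∑ ω : Quotient (MulAction.orbitRel (zpowers σ) X), l ^ (j + 1) := by
    rw [Nat.card_congr (MulAction.selfEquivSigmaOrbits (zpowers σ) X), Nat.card_sigma]
    refine Finset.sum_congr rfl fun ω _ => ?_
    rw [← hper (Quotient.out ω), MulAction.minimalPeriod_eq_card, Nat.card_eq_fintype_card]
  rw [← Nat.card_eq_fintype_card, h3, Finset.sum_const, smul_eq_mul]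
  exact Dvd.intro_left _ rfl

end

section
variable {F : Type*} [Field F] {m : ℕ}

/-- the nilpotent regular matrix -/
def Nm (m : ℕ) (F : Type*) [Field F] : Matrix (Fin (m + 1)) (Fin (m + 1)) F :=
  Matrix.of fun i j => if i.val = j.val + 1 then 1 else 0

lemma Nm_pow (k : ℕ) : (Nm m F) ^ k = Matrix.of fun i j => if i.val = j.val + k then 1 else 0 := by
  induction k with
  | zero =>
    rw [pow_zero]
    ext i j
    rw [Matrix.of_apply, Matrix.one_apply, add_zero]
    simp only [Fin.ext_iff]
  | succ k ih =>
    rw [pow_succ, ih]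
    ext i j
    rw [Matrix.mul_apply, Matrix.of_apply]
    simp only [Nm, Matrix.of_apply, mul_ite, mul_one, mul_zero]
    by_cases h : j.val + 1 < m + 1
    · rw [Finset.sum_eq_single_of_mem (⟨j.val + 1, h⟩ : Fin (m + 1)) (Finset.mem_univ _)]
      · rw [if_pos rfl]
        simp only [add_assoc, add_comm 1 k]
      · intro x _ hx
        rw [if_neg]
        intro h1
        exact hx (Fin.ext h1)
    · rw [Finset.sum_eq_zero, if_neg]
      · have := i.2
        omega
      · intro x _
        rw [if_neg]
        have := x.2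
        omega

lemma Nm_mulVec (k : ℕ) (v : Fin (m + 1) → F) (i : Fin (m + 1)) :
    ((Nm m F) ^ k *ᵥ v) i = if h : k ≤ i.val then v ⟨i.val - k, by omega⟩ else 0 := by
  rw [Nm_pow, Matrix.mulVec, dotProduct]
  simp only [Matrix.of_apply, ite_mul, one_mul, zero_mul]
  split_ifs with h
  · rw [Finset.sum_eq_single_of_mem (⟨i.val - k, by omega⟩ : Fin (m + 1)) (Finset.mem_univ _)]
    · rw [if_pos (by simp; omega)]
    · intro x _ hx
      rw [if_neg]
      intro h1
      apply hx
      apply Fin.ext
      simp only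
      omega
  · refine Finset.sum_eq_zero fun x _ => ?_
    rw [if_neg]
    omega

lemma Nm_nil : (Nm m F) ^ (m + 1) = 0 := by
  rw [Nm_pow]
  ext i j
  rw [Matrix.of_apply, Matrix.zero_apply, if_neg]
  have := i.2
  omega

lemma Nm_isNil : IsNilpotent (Matrix.toLin' (Nm m F)) := by
  refine ⟨m + 1, ?_⟩
  rw [← Matrix.toLin'_pow, Nm_nil, map_zero]

lemma mem_ker_Nm {k : ℕ} {v : Fin (m + 1) → F} :
    Matrix.toLin' ((Nm m F) ^ k) v = 0 ↔ ∀ i : Fin (m + 1), i.val + k ≤ m → v i = 0 := by
  rw [Matrix.toLin'_apply]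
  constructor
  · intro h i hi
    have h1 := congrFun h ⟨i.val + k, by omega⟩
    rw [Nm_mulVec, dif_pos (by simp)] at h1
    have h2 : (⟨i.val + k - k, by omega⟩ : Fin (m + 1)) = i := Fin.ext (by simp)
    simp only [Pi.zero_apply] at h1
    rw [← h1]
    congr 1
    exact h2.symm
  · intro h
    ext i
    rw [Nm_mulVec]
    split_ifs with hk
    · have := i.2
      exact h _ (by simp only; omega)
    · rfl

lemma Nm_ker {u w : Fin (m + 1) → F} (hu : Matrix.toLin' (Nm m F) u = 0)
    (hw : Matrix.toLin' (Nm m F) w = 0) (hu0 : u ≠ 0) : ∃ c : F, w = c • u := by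
  rw [← pow_one (Nm m F)] at hu hw
  rw [mem_ker_Nm] at hu hw
  have h1 : u (Fin.last m) ≠ 0 := by
    intro h
    apply hu0
    ext i
    by_cases hi : i = Fin.last m
    · rw [hi, h]; rfl
    · have : i.val < m := by
        have h3 := i.2
        have h4 : i.val ≠ m := fun h5 => hi (Fin.ext h5)
        omega
      exact hu i (by omega)
  refine ⟨w (Fin.last m) / u (Fin.last m), ?_⟩
  ext i
  rw [Pi.smul_apply, smul_eq_mul]
  by_cases hi : i = Fin.last m
  · rw [hi]
    field_simp
  · have : i.val < m := by
      have h3 := i.2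
      have h4 : i.val ≠ m := fun h5 => hi (Fin.ext h5)
      omega
    rw [hu i (by omega), hw i (by omega), mul_zero]

/-- the dimension of the kernel of a power -/
lemma finrank_ker_Nm {k : ℕ} (hk : k ≤ m + 1) :
    Module.finrank F (LinearMap.ker (Matrix.toLin' ((Nm m F) ^ k))) = k := by
  let g : (Fin k → F) →ₗ[F] (Fin (m + 1) → F) :=
    { toFun := fun v i => if h : m + 1 ≤ i.val + k then v ⟨i.val + k - (m + 1), by omega⟩ else 0
      map_add' := fun u v => by
        ext i
        simp only [Pi.add_apply]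
        split_ifs <;> simp
      map_smul' := fun c v => by
        ext i
        simp only [Pi.smul_apply, RingHom.id_apply, smul_eq_mul]
        split_ifs <;> simp }
  have hg : Function.Injective g := by
    intro u v huv
    ext i
    have h1 := congrFun huv ⟨i.val + (m + 1) - k, by omega⟩
    change (if h : m + 1 ≤ (i.val + (m + 1) - k) + k then u ⟨(i.val + (m + 1) - k) + k - (m + 1), _⟩
      else 0) = (if h : m + 1 ≤ (i.val + (m + 1) - k) + k then
      v ⟨(i.val + (m + 1) - k) + k - (m + 1), _⟩ else 0) at h1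
    rw [dif_pos (by omega), dif_pos (by omega)] at h1
    have h2 : (⟨(i.val + (m + 1) - k) + k - (m + 1), by omega⟩ : Fin k) = i := Fin.ext (by simp only; omega)
    rwa [h2] at h1
  have hr : LinearMap.range g = LinearMap.ker (Matrix.toLin' ((Nm m F) ^ k)) := by
    ext v
    rw [LinearMap.mem_ker, mem_ker_Nm, LinearMap.mem_range]
    constructor
    · rintro ⟨u, rfl⟩ i hi
      change (if h : m + 1 ≤ i.val + k then u _ else 0) = 0
      rw [dif_neg (by omega)]
    · intro h
      refine ⟨fun i => v ⟨i.val + (m + 1) - k, by omega⟩, ?_⟩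
      ext i
      change (if h : m + 1 ≤ i.val + k then v _ else 0) = v i
      split_ifs with h1
      · congr 1
        apply Fin.ext
        simp only
        omega
      · exact (h i (by omega)).symm
  rw [← hr, LinearMap.finrank_range_of_inj hg, Module.finrank_fin_fun]

end

end Vale.Agent.P240.H195
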