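import Vale.Agent.P240.H195.SL2

/-!
The BN-pair of the special linear group, part 3: the split BN-pair.
-/

namespace Vale.Agent.P240.H195

open Subgroup Matrix

section
variable {F : Type*} [Field F] [Finite F] {m : ℕ}

/-- representatives of the adjacent transpositions -/
def SS (m : ℕ) (F : Type*) [Field F] : Set (SLm m F) :=
  {A | ∃ i : Fin m, Mon A (Equiv.swap i.castSucc i.succ)}

lemma cs_ne (i : Fin m) : i.castSucc ≠ i.succ := (Fin.castSucc_lt_succ (i := i)).ne

lemma cs_lt (i : Fin m) : i.castSucc < i.succ := Fin.castSucc_lt_succ (i := i)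

omit [Finite F] in
lemma up_of_conj {s x : SLm m F} {i : Fin m} (hs : Mon s (Equiv.swap i.castSucc i.succ))
    (hx : IsUp x) (h0 : x.1 i.castSucc i.succ = 0) : IsUp (s * x * s⁻¹) := by
  intro u v huv
  by_contra hne
  have h1 := (mon_conj_ne hs x (Equiv.swap i.castSucc i.succ u)
    (Equiv.swap i.castSucc i.succ v)).1 (by
      rw [Equiv.swap_apply_self, Equiv.swap_apply_self]; exact hne)
  have h2 : Equiv.swap i.castSucc i.succ u ≤ Equiv.swap i.castSucc i.succ v := by
    by_contra hlt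
    exact h1 (hx _ _ (not_le.1 hlt))
  obtain ⟨rfl, rfl⟩ := adj_swap i huv h2
  rw [Equiv.swap_apply_left, Equiv.swap_apply_right] at h1
  exact h1 h0

omit [Finite F] in
lemma super_zero_of_conj {s x : SLm m F} {i : Fin m} (hs : Mon s (Equiv.swap i.castSucc i.succ))
    (hx : IsUp (s * x * s⁻¹)) : x.1 i.castSucc i.succ = 0 := by
  by_contra hne
  have h1 := (mon_conj_ne hs x i.castSucc i.succ).2 hne
  rw [Equiv.swap_apply_left, Equiv.swap_apply_right] at h1
  exact h1 (hx _ _ (cs_lt i))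

theorem sl_BN0 : BN0 (BU m F) (NM m F) (SS m F) where
  norm := by
    rintro n ⟨σ, hn⟩ t ht htN
    have h1 : Mon (n * t * n⁻¹) (σ * 1 * σ⁻¹) :=
      mon_mul (mon_mul hn (mem_T.1 (mem_inf.2 ⟨ht, htN⟩))) (mon_inv hn)
    rw [mul_one, mul_inv_cancel] at h1
    exact mem_T' h1
  sub := fun s ⟨i, hi⟩ => ⟨_, hi⟩
  span := by
    refine le_antisymm ?_ (sup_le ((closure_le _).2 fun s ⟨i, hi⟩ => ⟨_, hi⟩) inf_le_right)
    rintro n ⟨σ, hn⟩
    have hσ : σ ∈ Submonoid.closure
        (Set.range fun i : Fin m => Equiv.swap i.castSucc i.succ) := by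
      rw [Equiv.Perm.mclosure_swap_castSucc_succ]
      exact Submonoid.mem_top _
    induction hσ using Submonoid.closure_induction_left generalizing n with
    | one => exact mem_sup_right (mem_T.2 hn)
    | mul_left x hx y hy ih =>
      obtain ⟨i, rfl⟩ := hx
      obtain ⟨s, hs⟩ := exists_mon (F := F) (m := m) (Equiv.swap i.castSucc i.succ)
      have h1 : Mon (s⁻¹ * n) y := by
        have h2 := mon_mul (mon_inv hs) hn
        rwa [← mul_assoc, inv_mul_cancel, one_mul] at h2
      have h2 := ih h1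
      have : n = s * (s⁻¹ * n) := by group
      rw [this]
      exact mul_mem (mem_sup_left (subset_closure ⟨i, hs⟩)) h2
  sq := by
    rintro s ⟨i, hs⟩
    have h1 := mon_mul hs hs
    rw [Equiv.swap_mul_self] at h1
    exact mem_T' h1
  mul := by
    rintro s ⟨i, hs⟩ x hx n ⟨σ, hn⟩
    have hx' : IsUp x := hx
    set a := i.castSucc with ha
    set b := i.succ with hb
    have hab : a ≠ b := cs_ne i
    set c := x.1 a b / x.1 a a with hc
    set x0 := x * tx hab (-c) with hx0
    have hx0U : IsUp x0 := up_mul hx' (tx_up (cs_lt i) _)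
    have h00 : x0.1 a b = 0 := by
      rw [hx0, mul_tx_apply, if_pos rfl, hc]
      have := up_diag_ne hx' a
      field_simp
      ring
    have hxe : x = x0 * tx hab c := by
      rw [hx0, mul_assoc, tx_mul_tx, neg_add_cancel, tx_zero, mul_one]
    have h1 : s * x0 * s⁻¹ ∈ BU m F := up_of_conj hs hx0U h00
    have e1 : s * x * n = (s * x0 * s⁻¹) * (s * tx hab c * n) := by
      rw [hxe]; group
    -- it suffices to treat `s x_ab(c) n`
    suffices hsuf : DC (BU m F) n (s * tx hab c * n) ∨ DC (BU m F) (s * n) (s * tx hab c * n) by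
      rw [e1]
      rcases hsuf with ⟨y, hy, z, hz, h2⟩ | ⟨y, hy, z, hz, h2⟩
      · exact Or.inl ⟨_, mul_mem h1 hy, z, hz, by rw [h2]; group⟩
      · exact Or.inr ⟨_, mul_mem h1 hy, z, hz, by rw [h2]; group⟩
    have hσ : σ⁻¹ a ≠ σ⁻¹ b := fun h => hab ((σ⁻¹).injective h)
    by_cases hc0 : c = 0
    · right
      rw [hc0, tx_zero, mul_one]
      exact ⟨1, one_mem _, 1, one_mem _, by group⟩
    rcases lt_or_gt_of_ne hσ with hlt | hlt
    · right
      obtain ⟨d, hd⟩ := mon_conj_tx' hn hab hσ c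
      refine ⟨1, one_mem _, tx hσ d, tx_up hlt d, ?_⟩
      rw [← hd]
      group
    · left
      have hs' : (Equiv.swap a b) a ≠ (Equiv.swap a b) b := by
        rw [Equiv.swap_apply_left, Equiv.swap_apply_right]; exact hab.symm
      obtain ⟨c', hc', hsc⟩ : ∃ c' : F, c' ≠ 0 ∧ s * tx hab c * s⁻¹ = tx hab.symm c' := by
        refine ⟨s.1 (Equiv.swap a b a) a * c * (s.1 (Equiv.swap a b b) b)⁻¹,
          mul_ne_zero (mul_ne_zero (mon_ne hs _) hc0) (inv_ne_zero (mon_ne hs _)), ?_⟩
        rw [mon_conj_tx hs hab hs']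
        congr 1
        · rw [Equiv.swap_apply_left]
        · rw [Equiv.swap_apply_right]
      set w := tx hab (-c'⁻¹) * (tx hab.symm c' * tx hab (-c'⁻¹)) with hw
      have hwM : Mon w (Equiv.swap a b) := rank_one hab hc'
      have e2 : tx hab.symm c' = tx hab c'⁻¹ * w * tx hab c'⁻¹ := by
        have h2 : tx hab c'⁻¹ * tx hab (-c'⁻¹) = 1 := by
          rw [tx_mul_tx, add_neg_cancel, tx_zero]
        have h3 : tx hab (-c'⁻¹) * tx hab c'⁻¹ = 1 := by
          rw [tx_mul_tx, neg_add_cancel, tx_zero]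
        calc tx hab.symm c' = (tx hab c'⁻¹ * tx hab (-c'⁻¹)) * tx hab.symm c' *
              (tx hab (-c'⁻¹) * tx hab c'⁻¹) := by rw [h2, h3, one_mul, mul_one]
          _ = _ := by rw [hw]; group
      obtain ⟨d, hd⟩ : ∃ d : F, s⁻¹ * tx hab c'⁻¹ * s = tx hab.symm d := by
        have hsi : Equiv.swap a b = (Equiv.swap a b)⁻¹ := (Equiv.swap_inv a b).symm
        have h4 : (Equiv.swap a b)⁻¹ a ≠ (Equiv.swap a b)⁻¹ b := by
          rw [← hsi]; exact hs'
        obtain ⟨d, hd⟩ := mon_conj_tx' hs hab h4 c'⁻¹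
        refine ⟨d, ?_⟩
        rw [hd]
        congr 1
        · rw [← hsi, Equiv.swap_apply_left]
        · rw [← hsi, Equiv.swap_apply_right]
      obtain ⟨d', hd'⟩ := mon_conj_tx' hn hab.symm hσ.symm d
      have hwsM : Mon (w * s) 1 := by
        have h5 := mon_mul hwM hs
        rwa [Equiv.swap_mul_self] at h5
      refine ⟨tx hab c'⁻¹ * (w * s), mul_mem (tx_up (cs_lt i) _) (mem_T' hwsM),
        tx hσ.symm d', tx_up hlt d', ?_⟩
      rw [← hd', ← hd]
      have e3 : s * tx hab c * n = (s * tx hab c * s⁻¹) * (s * n) := by group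
      rw [e3, hsc, e2]
      group
  thick := by
    rintro s ⟨i, hs⟩
    refine ⟨tx (cs_ne i) 1, tx_up (cs_lt i) 1, fun hcon => ?_⟩
    have h1 : Mon s⁻¹ (Equiv.swap i.castSucc i.succ) := by
      have := mon_inv hs
      rwa [Equiv.swap_inv] at this
    have h2 : IsUp (s⁻¹ * tx (cs_ne i) (1 : F) * s⁻¹⁻¹) := by rwa [inv_inv]
    have h3 := super_zero_of_conj h1 h2
    rw [tx_apply, if_neg (cs_ne i), if_pos ⟨rfl, rfl⟩, zero_add] at h3
    exact one_ne_zero h3

end

end Vale.Agent.P240.H195
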