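import Mathlib.LinearAlgebra.Matrix.CharP
import Vale.Agent.P240.H195.SL3

/-!
The BN-pair of the special linear group, part 4: the split BN-pair.
-/

namespace Vale.Agent.P240.H195

open Subgroup Matrix

section
variable {F : Type*} [Field F] [Finite F] {m : ℕ}

lemma tx_mem {a b : Fin (m + 1)} (h : a ≠ b) (c : F) : tx h c ∈ BU m F ⊔ NM m F := by
  rcases lt_or_gt_of_ne h with h1 | h1
  · exact mem_sup_left (tx_up h1 c)
  · obtain ⟨w, hw⟩ := exists_mon (F := F) (m := m) (Equiv.swap a b)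
    have h2 : Equiv.swap a b b ≠ Equiv.swap a b a := fun h3 => h ((Equiv.swap a b).injective h3.symm)
    have e1 := mon_conj_tx hw h.symm h2 ((w.1 (Equiv.swap a b b) b)⁻¹ * c *
      w.1 (Equiv.swap a b a) a)
    have e2 : tx h2 (w.1 (Equiv.swap a b b) b * ((w.1 (Equiv.swap a b b) b)⁻¹ * c *
      w.1 (Equiv.swap a b a) a) * (w.1 (Equiv.swap a b a) a)⁻¹) = tx h c := by
      have h3 := mon_ne hw b
      have h4 := mon_ne hw a
      congr 1
      · rw [Equiv.swap_apply_right]
      · rw [Equiv.swap_apply_left]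
      · field_simp
    rw [← e2, ← e1]
    have hwN : w ∈ BU m F ⊔ NM m F := mem_sup_right ⟨_, hw⟩
    exact mul_mem (mul_mem hwN (mem_sup_left (tx_up h1 _))) (inv_mem hwN)

theorem sl_gen (hm : 0 < m) : BU m F ⊔ NM m F = ⊤ := by
  rw [eq_top_iff]
  intro A _
  have : Nontrivial (Fin (m + 1)) := Fin.nontrivial_iff_two_le.2 (by omega)
  refine SpecialLinearGroup.diagonal_transvection_induction' (fun A => A ∈ BU m F ⊔ NM m F) A
    (fun i j hij c hc => ?_) (fun i j hij a => tx_mem hij a) (fun A B hA hB => mul_mem hA hB)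
  refine mem_sup_left fun u v huv => ?_
  rw [SpecialLinearGroup.diag2n_coe, Matrix.diagonal_apply_ne _ huv.ne']

lemma up_inv_diag {b : SLm m F} (hb : IsUp b) (i) : (b⁻¹).1 i i = (b.1 i i)⁻¹ := by
  have h1 : IsUp b⁻¹ := inv_mem (mem_BU.2 hb)
  have h2 := up_mul_diag hb h1 i
  rw [mul_inv_cancel, sl_one, if_pos rfl] at h2
  exact (inv_eq_of_mul_eq_one_right h2.symm).symm

/-- unipotent matrices have `p`-power order -/
lemma uu_pow {p : ℕ} [hp : Fact p.Prime] [CharP F p] {x : SLm m F} (hx : x ∈ UU m F) :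
    ∃ k, x ^ p ^ k = 1 := by
  set D : Matrix (Fin (m + 1)) (Fin (m + 1)) F := x.1 - 1 with hD
  have hDz : ∀ i j : Fin (m + 1), ¬ i < j → D i j = 0 := by
    intro i j hij
    rw [hD, Matrix.sub_apply, Matrix.one_apply]
    rcases eq_or_lt_of_le (not_lt.1 hij) with h1 | h1
    · rw [h1, if_pos rfl, hx.2 i, sub_self]
    · rw [if_neg h1.ne', hx.1 i j h1, sub_self]
  have hpow : ∀ k : ℕ, ∀ i j : Fin (m + 1), (D ^ k) i j ≠ 0 → (i : ℕ) + k ≤ j := by
    intro k
    induction k with
    | zero =>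
      intro i j h
      rw [pow_zero, Matrix.one_apply] at h
      by_contra hlt
      apply h
      rw [if_neg]
      rintro rfl
      omega
    | succ k ih =>
      intro i j h
      rw [pow_succ, Matrix.mul_apply] at h
      obtain ⟨l, -, hl⟩ := Finset.exists_ne_zero_of_sum_ne_zero h
      have h1 := ih i l (left_ne_zero_of_mul hl)
      have h2 : l < j := by
        by_contra h3
        exact right_ne_zero_of_mul hl (hDz l j h3)
      rw [Fin.lt_def] at h2
      omega
  refine ⟨m + 1, Subtype.ext ?_⟩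
  have h1 : (x ^ p ^ (m + 1)).1 = (1 + D) ^ p ^ (m + 1) := by
    rw [SpecialLinearGroup.coe_pow, hD, add_sub_cancel]
  have hch : CharP (Matrix (Fin (m + 1)) (Fin (m + 1)) F) p := inferInstance
  rw [h1, add_pow_char_pow_of_commute p (m + 1) (Commute.one_left D), one_pow]
  have h2 : D ^ p ^ (m + 1) = 0 := by
    ext i j
    by_contra hne
    have h3 := hpow _ i j hne
    have h4 : m + 1 < p ^ (m + 1) := Nat.lt_pow_self hp.out.one_lt
    have h5 := j.2
    omega
  rw [h2, add_zero]
  rfl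

theorem sl_SB {p : ℕ} [hp : Fact p.Prime] [CharP F p] (hm : 0 < m) :
    SB p (BU m F) (NM m F) (UU m F) (SS m F) where
  toBN0 := sl_BN0
  gen := sl_gen hm
  le := fun x hx => hx.1
  pgroup := fun x => by
    obtain ⟨k, hk⟩ := uu_pow (p := p) x.2
    exact ⟨k, Subtype.ext hk⟩
  normal := by
    intro b hb u hu
    have h1 : IsUp b⁻¹ := inv_mem hb
    refine ⟨up_mul (up_mul hb hu.1) h1, fun i => ?_⟩
    rw [up_mul_diag (up_mul hb hu.1) h1, up_mul_diag hb hu.1, hu.2, mul_one, up_inv_diag hb,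
      mul_inv_cancel₀ (up_diag_ne hb i)]
  split := by
    intro b hb
    have hdet : (Matrix.diagonal fun i => b.1 i i).det = 1 := by
      rw [Matrix.det_diagonal]
      have h1 : b.1.det = ∏ i, b.1 i i := Matrix.det_of_isUpperTriangular fun i j hij => hb i j hij
      rw [← h1]
      exact b.2
    set t : SLm m F := ⟨Matrix.diagonal fun i => b.1 i i, hdet⟩ with ht
    have hte : ∀ i j, t.1 i j = if i = j then b.1 i i else 0 := fun i j => Matrix.diagonal_apply ..
    have htM : Mon t 1 := by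
      intro i j hij
      rw [hte] at hij
      by_contra hne
      exact hij (if_neg hne)
    have htU := mem_T' htM
    have hti : IsUp t⁻¹ := inv_mem (mem_BU.2 htU)
    refine ⟨b * t⁻¹, ⟨up_mul hb hti, fun i => ?_⟩, t, htU, ⟨1, htM⟩, by group⟩
    rw [up_mul_diag hb hti, up_inv_diag htU, hte, if_pos rfl, mul_inv_cancel₀ (up_diag_ne hb i)]
  coprime := by
    intro hdvd
    obtain ⟨t, ht⟩ := exists_prime_orderOf_dvd_card' p hdvd
    have htM : Mon t.1 1 := mem_T.1 t.2
    have h1 : t ^ p = 1 := by rw [← ht]; exact pow_orderOf_eq_one t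
    have hU := mem_T' htM
    have hpow : ∀ k : ℕ, ∀ i, IsUp (t.1 ^ k) ∧ (t.1 ^ k).1 i i = (t.1.1 i i) ^ k := by
      intro k i
      induction k with
      | zero => simp [up_one, sl_one]
      | succ k ih =>
        rw [pow_succ]
        refine ⟨up_mul ih.1 hU, ?_⟩
        rw [up_mul_diag ih.1 hU, ih.2, pow_succ]
    have h2 : t.1 = 1 := by
      refine sl_ext fun i j => ?_
      by_cases hij : i = j
      · subst hij
        have h3 := (hpow p i).2
        have h4 : t.1 ^ p = 1 := congrArg Subtype.val h1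
        rw [h4, sl_one, if_pos rfl] at h3
        rw [sl_one, if_pos rfl]
        have h5 : (t.1.1 i i - 1) ^ p = 0 := by
          rw [sub_pow_char, one_pow, ← h3, sub_self]
        exact sub_eq_zero.1 (pow_eq_zero_iff hp.out.ne_zero |>.1 h5)
      · rw [sl_one, if_neg hij]
        exact mon_eq htM (by rw [Equiv.Perm.one_apply]; exact hij)
    have h3 : t = 1 := Subtype.ext h2
    rw [h3, orderOf_one] at ht
    exact hp.out.one_lt.ne ht
  strong := by
    rintro s ⟨i, hs⟩ x hx hsx u hu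
    have h0 := super_zero_of_conj hs hsx.1
    have hu' : IsUp u⁻¹ := inv_mem (mem_BU.2 hu.1)
    have hU : IsUp (u * x * u⁻¹) := up_mul (up_mul hu.1 hx.1) hu'
    have h1 : (u * x * u⁻¹).1 i.castSucc i.succ = 0 := by
      have e : u * x * u⁻¹ * u = u * x := by group
      have h2 := up_mul_super hU hu.1 i
      rw [e, up_mul_super hu.1 hx.1, h0, hu.2, hu.2, hx.2, mul_zero, zero_add, mul_one] at h2
      have h3 : (u * x * u⁻¹).1 i.castSucc i.castSucc = 1 := by
        rw [up_mul_diag (up_mul hu.1 hx.1) hu', up_mul_diag hu.1 hx.1, up_inv_diag hu.1, hu.2,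
          hx.2, inv_one, mul_one, mul_one]
      rw [h3, one_mul] at h2
      rw [mul_one] at h2
      exact add_eq_left.1 h2.symm
    refine ⟨up_of_conj hs hU h1, fun j => ?_⟩
    obtain ⟨j, rfl⟩ := (Equiv.swap i.castSucc i.succ).surjective j
    rw [mon_conj hs, up_mul_diag (up_mul hu.1 hx.1) hu', up_mul_diag hu.1 hx.1, up_inv_diag hu.1,
      hu.2, hx.2, inv_one, mul_one, mul_one, mul_one, mul_inv_cancel₀ (mon_ne hs j)]
  opp := by
    obtain ⟨w, hw⟩ := exists_mon (F := F) (m := m) Fin.revPerm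
    refine ⟨w, ⟨_, hw⟩, fun x hx hwx => sl_ext fun i j => ?_⟩
    rw [sl_one]
    rcases lt_trichotomy i j with h1 | h1 | h1
    · rw [if_neg h1.ne]
      by_contra hne
      have h2 := (mon_conj_ne hw x i j).2 hne
      exact h2 (hwx.1 _ _ (by
        rw [Fin.revPerm_apply, Fin.revPerm_apply]
        exact Fin.rev_lt_rev.2 h1))
    · rw [h1, if_pos rfl, hx.2]
    · rw [if_neg h1.ne', hx.1 i j h1]
  nonempty := by
    obtain ⟨s, hs⟩ := exists_mon (F := F) (m := m)
      (Equiv.swap (⟨0, hm⟩ : Fin m).castSucc (⟨0, hm⟩ : Fin m).succ)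
    exact ⟨s, ⟨0, hm⟩, hs⟩

end

end Vale.Agent.P240.H195
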