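import Mathlib.LinearAlgebra.Matrix.ProjectiveSpecialLinearGroup
import Vale.Agent.P240.H195.SL4
import Vale.Agent.P240.H195.BNFix

/-!
The BN-pair of the special linear group, part 5: central quotients.
-/

namespace Vale.Agent.P240.H195

open Subgroup

section
variable {G L : Type*} [Group G] [Group L] {B N U : Subgroup G} {S : Set G} {p : ℕ}

lemma map_mem_iff {π : G →* L} {H : Subgroup G} (hk : ∀ k, π k = 1 → k ∈ H) {x : G} :
    π x ∈ H.map π ↔ x ∈ H := by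
  constructor
  · rintro ⟨y, hy, hyx⟩
    have h1 : π (y⁻¹ * x) = 1 := by rw [map_mul, map_inv, hyx, inv_mul_cancel]
    have h2 := mul_mem hy (hk _ h1)
    rwa [mul_inv_cancel_left] at h2
  · exact fun hx => ⟨x, hx, rfl⟩

lemma DC.map {π : G →* L} {n x : G} (h : DC B n x) : DC (B.map π) (π n) (π x) := by
  obtain ⟨a, ha, b, hb, rfl⟩ := h
  exact ⟨π a, ⟨a, ha, rfl⟩, π b, ⟨b, hb, rfl⟩, by rw [map_mul, map_mul]⟩

lemma SB.map_U (h : SB p B N U S) (hp : p.Prime) [Finite G] {π : G →* L}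
    (hk : ∀ k, π k = 1 → k ∈ B ∧ k ∈ N ∧ ∀ g, k * g = g * k) {x : G} {j : ℕ}
    (hx : x ^ p ^ j = 1) : π x ∈ U.map π ↔ x ∈ U := by
  constructor
  · rintro ⟨u, hu, hux⟩
    have h1 : π (u⁻¹ * x) = 1 := by rw [map_mul, map_inv, hux, inv_mul_cancel]
    obtain ⟨hzB, hzN, hzc⟩ := hk _ h1
    set z := u⁻¹ * x with hz
    obtain ⟨i, hi⟩ := h.pgroup ⟨u, hu⟩
    have hi' : u ^ p ^ i = 1 := congrArg Subtype.val hi
    have hxe : x = u * z := by rw [hz]; group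
    have hcomm : Commute u z := (hzc u).symm
    have h2 : z ^ p ^ (i + j) = 1 := by
      have h3 : x ^ p ^ (i + j) = 1 := by
        rw [pow_add, mul_comm, pow_mul, hx, one_pow]
      rw [hxe, hcomm.mul_pow, pow_add, pow_mul, hi', one_pow, one_mul] at h3
      rw [pow_add]
      exact h3
    have h3 : orderOf z ∣ p ^ (i + j) := orderOf_dvd_of_pow_eq_one h2
    have h4 : orderOf z ∣ Nat.card (B ⊓ N : Subgroup G) := by
      have := orderOf_dvd_natCard (⟨z, hzB, hzN⟩ : (B ⊓ N : Subgroup G))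
      rwa [← Subgroup.orderOf_coe] at this
    have h5 : orderOf z = 1 := by
      have h6 : Nat.Coprime (p ^ (i + j)) (Nat.card (B ⊓ N : Subgroup G)) :=
        Nat.Coprime.pow_left _ ((Nat.Prime.coprime_iff_not_dvd hp).2 h.coprime)
      exact Nat.eq_one_of_dvd_coprimes h6 h3 h4
    rw [orderOf_eq_one_iff] at h5
    rw [hxe, h5, mul_one]
    exact hu
  · exact fun hx => ⟨x, hx, rfl⟩

/-- a split BN-pair of a central quotient -/
theorem SB.quot [Finite G] (h : SB p B N U S) (hp : p.Prime) (π : G →* L)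
    (hπ : Function.Surjective π) (hk : ∀ k, π k = 1 → k ∈ B ∧ k ∈ N ∧ ∀ g, k * g = g * k) :
    SB p (B.map π) (N.map π) (U.map π) (π '' S) := by
  have hB : ∀ x, π x ∈ B.map π ↔ x ∈ B := fun x => map_mem_iff fun k hk' => (hk k hk').1
  have hN : ∀ x, π x ∈ N.map π ↔ x ∈ N := fun x => map_mem_iff fun k hk' => (hk k hk').2.1
  have hpow : ∀ {x}, x ∈ U → ∃ j : ℕ, x ^ p ^ j = 1 := fun {x} hx => by
    obtain ⟨j, hj⟩ := h.pgroup ⟨x, hx⟩
    exact ⟨j, congrArg Subtype.val hj⟩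
  have hconj : ∀ {x} (g : G), x ∈ U → ∃ j : ℕ, (g * x * g⁻¹) ^ p ^ j = 1 := fun {x} g hx => by
    obtain ⟨j, hj⟩ := hpow hx
    exact ⟨j, by rw [conj_pow, hj, mul_one, mul_inv_cancel]⟩
  have hBN : B.map π ⊓ N.map π = (B ⊓ N).map π := by
    ext y
    obtain ⟨x, rfl⟩ := hπ y
    rw [mem_inf, hB, hN, map_mem_iff fun k hk' => mem_inf.2 ⟨(hk k hk').1, (hk k hk').2.1⟩, mem_inf]
  refine { norm := ?_, sub := ?_, span := ?_, sq := ?_, mul := ?_, thick := ?_, gen := ?_,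
           le := ?_, pgroup := ?_, normal := ?_, split := ?_, coprime := ?_, strong := ?_,
           opp := ?_, nonempty := ?_ }
  · rintro _ ⟨n, hn, rfl⟩ t htB htN
    obtain ⟨t, rfl⟩ := hπ t
    rw [← map_inv, ← map_mul, ← map_mul, hB]
    exact h.norm n hn t ((hB t).1 htB) ((hN t).1 htN)
  · rintro _ ⟨s, hs, rfl⟩
    exact ⟨s, h.sub s hs, rfl⟩
  · rw [hBN, ← MonoidHom.map_closure, ← Subgroup.map_sup, ← h.span]
  · rintro _ ⟨s, hs, rfl⟩
    rw [← map_mul, hB]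
    exact h.sq s hs
  · rintro _ ⟨s, hs, rfl⟩ _ ⟨b, hb, rfl⟩ _ ⟨n, hn, rfl⟩
    rw [← map_mul, ← map_mul, ← map_mul]
    exact (h.mul s hs b hb n hn).imp DC.map DC.map
  · rintro _ ⟨s, hs, rfl⟩
    obtain ⟨b, hb, hbs⟩ := h.thick s hs
    refine ⟨π b, ⟨b, hb, rfl⟩, ?_⟩
    rw [← map_inv, ← map_mul, ← map_mul, hB]
    exact hbs
  · rw [← Subgroup.map_sup, h.gen]
    exact Subgroup.map_top_of_surjective π hπ
  · exact Subgroup.map_mono h.le
  · exact h.pgroup.map π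
  · rintro _ ⟨b, hb, rfl⟩ _ ⟨u, hu, rfl⟩
    exact ⟨_, h.normal b hb u hu, by rw [map_mul, map_mul, map_inv]⟩
  · rintro _ ⟨b, hb, rfl⟩
    obtain ⟨u, hu, t, htB, htN, rfl⟩ := h.split b hb
    exact ⟨π u, ⟨u, hu, rfl⟩, π t, ⟨t, htB, rfl⟩, ⟨t, htN, rfl⟩, map_mul _ _ _⟩
  · intro hdvd
    rw [hBN] at hdvd
    exact h.coprime (hdvd.trans (Subgroup.card_map_dvd _ _))
  · rintro _ ⟨s, hs, rfl⟩ _ ⟨x, hx, rfl⟩ hsx _ ⟨u, hu, rfl⟩
    rw [← map_inv, ← map_mul, ← map_mul] at hsx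
    obtain ⟨j, hj⟩ := hconj s hx
    refine ⟨_, h.strong s hs x hx ((h.map_U hp hk hj).1 hsx) u hu, ?_⟩
    simp only [map_mul, map_inv]
  · obtain ⟨n, hn, hx⟩ := h.opp
    refine ⟨π n, ⟨n, hn, rfl⟩, ?_⟩
    rintro _ ⟨x, hxU, rfl⟩ hnx
    rw [← map_inv, ← map_mul, ← map_mul] at hnx
    obtain ⟨j, hj⟩ := hconj n hxU
    rw [hx x hxU ((h.map_U hp hk hj).1 hnx), map_one]
  · exact h.nonempty.image π

end

section
variable {F : Type*} [Field F] [Finite F] {m : ℕ}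

/-- the projective special linear group -/
abbrev PL (m : ℕ) (F : Type*) [Field F] : Type _ :=
  Matrix.ProjectiveSpecialLinearGroup (Fin (m + 1)) F

/-- the projection -/
abbrev pr (m : ℕ) (F : Type*) [Field F] : SLm m F →* PL m F :=
  QuotientGroup.mk' (center (SLm m F))

lemma pr_eq_one {k : SLm m F} (hk : pr m F k = 1) : k ∈ BU m F ∧ k ∈ NM m F ∧ ∀ g, k * g = g * k := by
  have h1 : k ∈ center (SLm m F) := (QuotientGroup.eq_one_iff k).1 hk
  obtain ⟨c, -, hc⟩ := Matrix.SpecialLinearGroup.mem_center_iff.1 h1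
  have h2 : Mon k 1 := by
    intro i j hij
    by_contra hne
    apply hij
    rw [Equiv.Perm.one_apply] at hne
    rw [← hc, Matrix.scalar_apply, Matrix.diagonal_apply_ne _ hne]
  have h3 := mem_inf.1 (mem_T.2 h2)
  exact ⟨h3.1, h3.2, fun g => (mem_center_iff.1 h1 g).symm⟩

theorem psl_SB {p : ℕ} [hp : Fact p.Prime] [CharP F p] (hm : 0 < m) :
    SB p ((BU m F).map (pr m F)) ((NM m F).map (pr m F)) ((UU m F).map (pr m F))
      (pr m F '' SS m F) :=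
  (sl_SB hm).quot hp.out (pr m F) (QuotientGroup.mk'_surjective _) fun _ => pr_eq_one

end

end Vale.Agent.P240.H195
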