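import Mathlib.Data.Nat.Prime.Basic
import Mathlib.Tactic

/-!
Numerical lemmas for Singer cycles.
-/

namespace Vale.Agent.P240.H195

/-- `D^k - 1 > k (D - 1)^2` for `k ≥ 3` -/
lemma num_pow {D : ℕ} (hD : 2 ≤ D) : ∀ k : ℕ, 3 ≤ k → k * (D - 1) * (D - 1) < D ^ k - 1 := by
  obtain ⟨d, rfl⟩ : ∃ d, D = d + 2 := ⟨D - 2, by omega⟩
  intro k hk
  induction k, hk using Nat.le_induction with
  | base =>
    have h1 : (d + 2) ^ 3 - 1 = d ^ 3 + 6 * d ^ 2 + 12 * d + 7 := by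
      have : (d + 2) ^ 3 = d ^ 3 + 6 * d ^ 2 + 12 * d + 8 := by ring
      omega
    rw [h1]
    have h2 : d + 2 - 1 = d + 1 := rfl
    rw [h2]
    nlinarith
  | succ k hk ih =>
    have h2 : d + 2 - 1 = d + 1 := rfl
    rw [h2] at ih ⊢
    have h3 : 1 ≤ (d + 2) ^ k := Nat.one_le_pow _ _ (by omega)
    obtain ⟨X, hX⟩ : ∃ X, (d + 2) ^ k = X + 1 := ⟨(d + 2) ^ k - 1, by omega⟩
    rw [hX] at ih
    rw [pow_succ, hX]
    have h4 : X + 1 - 1 = X := rfl
    rw [h4] at ih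
    have h5 : (X + 1) * (d + 2) - 1 = X * (d + 2) + d + 1 := by
      have : (X + 1) * (d + 2) = X * (d + 2) + d + 2 := by ring
      omega
    rw [h5]
    have h6 : (k + 1) * (d + 1) * (d + 1) ≤ 2 * (k * (d + 1) * (d + 1)) := by
      have : (k + 1) ≤ 2 * k := by omega
      calc (k + 1) * (d + 1) * (d + 1) = (k + 1) * ((d + 1) * (d + 1)) := by ring
        _ ≤ 2 * k * ((d + 1) * (d + 1)) := Nat.mul_le_mul_right _ this
        _ = _ := by ring
    nlinarith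

/-- the block inequality -/
lemma num_block {q n t D k : ℕ} (hq : 2 ≤ q) (hn : 3 ≤ n) (ht : t * (q - 1) + 1 = q ^ n)
    (hD : q ≤ D) (hk : 2 ≤ k) (h1 : D ^ k ≤ q ^ n) (h2 : t ≤ k * (D - 1)) : False := by
  have h3 : q ^ 3 ≤ q ^ n := Nat.pow_le_pow_right (by omega) hn
  obtain ⟨u, rfl⟩ : ∃ u, q = u + 2 := ⟨q - 2, by omega⟩
  obtain ⟨e, rfl⟩ : ∃ e, D = e + 2 := ⟨D - 2, by omega⟩
  have e1 : u + 2 - 1 = u + 1 := rfl
  have e2 : e + 2 - 1 = e + 1 := rfl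
  rw [e1] at ht
  rw [e2] at h2
  rcases Nat.lt_or_ge 2 k with h4 | h4
  · have h5 := num_pow (D := e + 2) (by omega) k (by omega)
    rw [e2] at h5
    have h6 : t * (u + 1) ≤ k * (e + 1) * (e + 1) := Nat.mul_le_mul h2 (by omega)
    omega
  · have h5 : k = 2 := by omega
    subst h5
    have h6 : t * (u + 1) ≤ 2 * (e + 1) * (u + 1) := Nat.mul_le_mul_right _ h2
    have h7 : (e + 2) ^ 2 = e ^ 2 + 4 * e + 4 := by ring
    have h8 : (u + 2) ^ 3 = u ^ 3 + 6 * u ^ 2 + 12 * u + 8 := by ring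
    have h9 : (e + 1) * (e + 3) ≤ (e + 1) * (2 * (u + 1)) := by nlinarith
    have h10 : e + 3 ≤ 2 * (u + 1) := Nat.le_of_mul_le_mul_left h9 (by omega)
    nlinarith [mul_self_nonneg u]

/-- exceptional parameters for the centralizer of a Singer cycle -/
lemma num_cent {q n a k : ℕ} (hq : 2 ≤ q) (hn : 3 ≤ n) (ha : 2 ≤ a) (hk : 2 ≤ k)
    (hak : a ^ k = q ^ n) (h1 : q ^ n - 1 ≤ (q - 1) * (q - 1) * (a - 1))
    (h2 : q ^ n - 1 ≤ (q - 1) * n * (a - 1)) : n = 3 ∧ q = 4 := by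
  obtain ⟨u, rfl⟩ : ∃ u, q = u + 2 := ⟨q - 2, by omega⟩
  obtain ⟨e, rfl⟩ : ∃ e, a = e + 2 := ⟨a - 2, by omega⟩
  have e1 : u + 2 - 1 = u + 1 := rfl
  have e2 : e + 2 - 1 = e + 1 := rfl
  rw [e1, e2] at h1 h2
  rcases Nat.lt_or_ge 3 n with h3 | h3
  · exfalso
    have h4 : (u + 2) ^ 4 ≤ (u + 2) ^ n := Nat.pow_le_pow_right (by omega) (by omega)
    have h5 : (e + 2) ^ 2 ≤ (e + 2) ^ k := Nat.pow_le_pow_right (by omega) hk
    rw [hak] at h5
    have h6 : (u + 2) ^ 4 = (u + 1) * (u + 1) * ((u + 2) ^ 2) +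
        (2 * u + 3) * (u + 2) ^ 2 := by ring
    rcases Nat.lt_or_ge ((u + 2) ^ 2) (e + 2) with h7 | h7
    · have h8 : (u + 1) * (u + 1) * (e + 1) ≤ (e + 1) * (e + 1) := by
        refine Nat.mul_le_mul_right _ ?_
        nlinarith
      have h9 : (e + 2) ^ 2 = (e + 1) * (e + 1) + 2 * e + 3 := by ring
      omega
    · have h8 : (u + 1) * (u + 1) * (e + 1) ≤ (u + 1) * (u + 1) * ((u + 2) ^ 2) :=
        Nat.mul_le_mul_left _ (by omega)
      have h9 : 1 < (2 * u + 3) * (u + 2) ^ 2 := by nlinarith [pow_pos (show 0 < u + 2 by omega) 2]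
      omega
  · have h4 : n = 3 := by omega
    subst h4
    refine ⟨rfl, ?_⟩
    rcases Nat.lt_or_ge 2 k with h5 | h5
    · exfalso
      have h6 : (e + 2) ^ 3 ≤ (e + 2) ^ k := Nat.pow_le_pow_right (by omega) (by omega)
      rw [hak] at h6
      have h7 : e + 2 ≤ u + 2 := (Nat.pow_le_pow_iff_left (by norm_num)).1 h6
      have h8 : (u + 1) * (u + 1) * (e + 1) ≤ (u + 1) * (u + 1) * (u + 1) :=
        Nat.mul_le_mul_left _ (by omega)
      have h9 : (u + 2) ^ 3 = (u + 1) * (u + 1) * (u + 1) + 3 * u ^ 2 + 9 * u + 7 := by ring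
      omega
    · have h6 : k = 2 := by omega
      subst h6
      have h7 : (e + 1) * (e + 3) ≤ (e + 1) * (3 * (u + 1)) := by
        have : (e + 2) ^ 2 = (e + 1) * (e + 3) + 1 := by ring
        have h8 : (u + 1) * 3 * (e + 1) = (e + 1) * (3 * (u + 1)) := by ring
        omega
      have h8 : e + 3 ≤ 3 * (u + 1) := Nat.le_of_mul_le_mul_left h7 (by omega)
      have h9 : (e + 2) ^ 2 ≤ (3 * u + 2) ^ 2 := Nat.pow_le_pow_left (by omega) 2
      rw [hak] at h9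
      have h10 : (u + 2) ^ 3 ≤ (3 * u + 2) ^ 2 := h9
      have h11 : u ^ 3 + 4 ≤ 3 * u ^ 2 := by nlinarith
      have h12 : u < 4 := by
        by_contra hcon
        push Not at hcon
        nlinarith [Nat.mul_le_mul hcon (Nat.mul_le_mul hcon (le_refl u))]
      interval_cases u
      · omega
      · omega
      · rfl
      · omega

/-- no involution inverts a Singer cycle -/
lemma num_inv {q n a : ℕ} (hq : 2 ≤ q) (hn : 3 ≤ n) (hq4 : ¬ (n = 3 ∧ q = 4)) (ha : 2 ≤ a)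
    (hak : a ^ 2 = q ^ n) (h1 : a - 1 ≤ (q - 1) * (q - 1)) (h2 : a - 1 ≤ (q - 1) * n) : False := by
  rcases Nat.lt_or_ge 3 n with h3 | h3
  · have h4 : q ^ 4 ≤ q ^ n := Nat.pow_le_pow_right (by omega) (by omega)
    rw [← hak] at h4
    have h5 : q ^ 2 ≤ a := by
      have : (q ^ 2) ^ 2 ≤ a ^ 2 := by rw [← pow_mul]; exact h4
      exact (Nat.pow_le_pow_iff_left (by norm_num)).1 this
    obtain ⟨u, rfl⟩ : ∃ u, q = u + 2 := ⟨q - 2, by omega⟩
    have e1 : u + 2 - 1 = u + 1 := rfl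
    rw [e1] at h1
    have h6 : (u + 2) ^ 2 = (u + 1) * (u + 1) + 2 * u + 3 := by ring
    omega
  · have h4 : n = 3 := by omega
    subst h4
    have h5 : a ≤ 3 * (q - 1) + 1 := by omega
    obtain ⟨u, rfl⟩ : ∃ u, q = u + 2 := ⟨q - 2, by omega⟩
    have e1 : u + 2 - 1 = u + 1 := rfl
    rw [e1] at h5
    have h6 : a ^ 2 ≤ (3 * u + 4) ^ 2 := Nat.pow_le_pow_left (by omega) 2
    rw [hak] at h6
    have h7 : u < 6 := by
      by_contra hcon
      push Not at hcon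
      have h8 : (u + 2) ^ 3 = u ^ 3 + 6 * u ^ 2 + 12 * u + 8 := by ring
      have h9 : (3 * u + 4) ^ 2 = 9 * u ^ 2 + 24 * u + 16 := by ring
      nlinarith [Nat.mul_le_mul hcon (Nat.mul_le_mul hcon (le_refl u)), Nat.mul_le_mul hcon hcon]
    have h8 : a < 20 := by omega
    have hu2 : u ≠ 2 := fun h => hq4 ⟨rfl, by omega⟩
    interval_cases u <;> interval_cases a <;> omega

end Vale.Agent.P240.H195
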