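import Mathlib.FieldTheory.Finite.GaloisField
import Mathlib.FieldTheory.IntermediateField.Adjoin.Basic
import Vale.Agent.P240.H195.FF
import Vale.Agent.P240.H195.SN1

/-!
Generators of the group of elements of norm one in an extension of finite fields.
-/

namespace Vale.Agent.P240.H195

section
variable {F K : Type*} [Field F] [Field K] [Algebra F K] [Finite K]

variable (K) in
lemma exists_zeta : ∃ ζ : K, ζ ≠ 0 ∧ orderOf ζ = Nat.card K - 1 := by
  obtain ⟨g, hg⟩ := IsCyclic.exists_generator (α := Kˣ)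
  refine ⟨g, g.ne_zero, ?_⟩
  rw [orderOf_units, orderOf_eq_card_of_forall_mem_zpowers hg, Nat.card_units]

omit [Field F] [Field K] [Algebra F K] [Finite K] in
lemma finite_F (F K : Type*) [Field F] [Field K] [Algebra F K] [Finite K] : Finite F :=
  Finite.of_injective _ (algebraMap F K).injective

variable (F K) in
lemma card_KF : Nat.card K = Nat.card F ^ Module.finrank F K :=
  Module.natCard_eq_pow_finrank

variable (F K) in
lemma t_mul : (Nat.card K - 1) / (Nat.card F - 1) * (Nat.card F - 1) = Nat.card K - 1 := by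
  have := finite_F F K
  rw [card_KF F K]
  exact Nat.div_mul_cancel (Nat.sub_one_dvd_pow_sub_one _ _)

lemma exp_dvd {ζ : K} (hζ : orderOf ζ = Nat.card K - 1) {c : ℕ}
    (h : ∃ l : F, ζ ^ ((Nat.card F - 1) * c) = algebraMap F K l) :
    Nat.card K - 1 ∣ (Nat.card F - 1) * c * (Nat.card F - 1) ∧
      Nat.card K - 1 ∣ (Nat.card F - 1) * c * Module.finrank F K := by
  have := finite_F F K
  have hQ : 1 < Nat.card K := Finite.one_lt_card
  have hζ0 : ζ ≠ 0 := by
    rintro rfl
    have h1 : orderOf (0 : K) = 0 := by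
      rw [orderOf_eq_zero_iff']
      intro n hn h0
      rw [zero_pow hn.ne'] at h0
      exact zero_ne_one h0
    omega
  obtain ⟨l, hl⟩ := h
  have hl0 : l ≠ 0 := by
    rintro rfl
    rw [map_zero] at hl
    exact pow_ne_zero _ hζ0 hl
  constructor
  · rw [← hζ]
    apply orderOf_dvd_of_pow_eq_one
    rw [pow_mul, hl, ← map_pow]
    have h1 : l ^ (Nat.card F - 1) = 1 := by
      have := Fintype.ofFinite F
      rw [Nat.card_eq_fintype_card]
      exact FiniteField.pow_card_sub_one_eq_one l hl0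
    rw [h1, map_one]
  · rw [← hζ]
    apply orderOf_dvd_of_pow_eq_one
    rw [pow_mul, hl, ← map_pow, ← Algebra.norm_algebraMap (S := K), FiniteField.algebraMap_norm_eq_pow,
      ← hl, ← pow_mul]
    have h2 : (Nat.card F - 1) * c * ((Nat.card K - 1) / (Nat.card F - 1)) =
        (Nat.card K - 1) * c := by
      calc (Nat.card F - 1) * c * ((Nat.card K - 1) / (Nat.card F - 1)) =
          ((Nat.card K - 1) / (Nat.card F - 1) * (Nat.card F - 1)) * c := by ring
        _ = _ := by rw [t_mul F K]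
    rw [h2, pow_mul, ← hζ, pow_orderOf_eq_one, one_pow]

/-- a generator of the elements of norm one generates the extension -/
lemma adj_top {ζ : K} (hζ : orderOf ζ = Nat.card K - 1) (hn : 2 ≤ Module.finrank F K) :
    Algebra.adjoin F {ζ ^ (Nat.card F - 1)} = ⊤ := by
  have hF := finite_F F K
  have hFd : FiniteDimensional F K := Module.finite_of_finrank_pos (by omega)
  have hq : 1 < Nat.card F := Finite.one_lt_card
  have hQ : 1 < Nat.card K := Finite.one_lt_card
  have hζ0 : ζ ≠ 0 := by
    rintro rfl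
    have h1 : orderOf (0 : K) = 0 := by
      rw [orderOf_eq_zero_iff']
      intro n hn h0
      rw [zero_pow hn.ne'] at h0
      exact zero_ne_one h0
    omega
  set w := ζ ^ (Nat.card F - 1) with hw
  have hw0 : w ≠ 0 := pow_ne_zero _ hζ0
  rw [← IntermediateField.adjoin_simple_toSubalgebra_of_isAlgebraic
    (Algebra.IsAlgebraic.isAlgebraic w)]
  have htop : IntermediateField.adjoin F {w} = ⊤ := by
    by_contra hne
    set E := IntermediateField.adjoin F {w} with hE
    have h1 : Module.finrank F E < Module.finrank F K := by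
      have h2 : E.toSubalgebra.toSubmodule ≠ ⊤ := by
        intro h3
        apply hne
        rw [← IntermediateField.toSubalgebra_injective.eq_iff]
        exact (Subalgebra.toSubmodule_injective h3 : E.toSubalgebra = ⊤)
      exact Submodule.finrank_lt h2
    have hwE : w ∈ E := IntermediateField.mem_adjoin_simple_self F w
    have hcE : Nat.card E = Nat.card F ^ Module.finrank F E := Module.natCard_eq_pow_finrank
    have hpow : w ^ (Nat.card E - 1) = 1 := by
      have := Fintype.ofFinite E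
      have h3 := FiniteField.pow_card_sub_one_eq_one (⟨w, hwE⟩ : E) (fun h4 => hw0 (by
        simpa using congrArg Subtype.val h4))
      rw [← Nat.card_eq_fintype_card] at h3
      simpa using congrArg Subtype.val h3
    rw [hw, ← pow_mul] at hpow
    have h4 := orderOf_dvd_of_pow_eq_one hpow
    rw [hζ, hcE, card_KF F K] at h4
    have hE0 : 0 < Module.finrank F E := Module.finrank_pos
    have h5 : 1 < Nat.card F ^ Module.finrank F E := Nat.one_lt_pow hE0.ne' hq
    have h6 := Nat.le_of_dvd (Nat.mul_pos (by omega) (by omega)) h4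
    obtain ⟨q', hq'⟩ : ∃ q', Nat.card F = q' + 1 := ⟨Nat.card F - 1, by omega⟩
    have h7 : Nat.card F * Nat.card F ^ Module.finrank F E ≤ Nat.card F ^ Module.finrank F K := by
      rw [← pow_succ']
      exact Nat.pow_le_pow_right (by omega) (by omega)
    obtain ⟨X, hX⟩ : ∃ X, Nat.card F ^ Module.finrank F E = X + 1 :=
      ⟨Nat.card F ^ Module.finrank F E - 1, by omega⟩
    rw [hX] at h6 h7
    rw [hq'] at h6 h7 hq
    have e1 : q' + 1 - 1 = q' := rfl
    have e2 : X + 1 - 1 = X := rfl
    rw [e1, e2] at h6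
    have h8 : (q' + 1) * (X + 1) = q' * X + q' + X + 1 := by ring
    omega
  rw [htop]
  rfl

/-- automorphisms that fix a generator up to scalars are trivial -/
theorem aut_eq_one {ζ : K} (hζ : orderOf ζ = Nat.card K - 1) (hn : 3 ≤ Module.finrank F K)
    (hex : ¬ (Module.finrank F K = 3 ∧ Nat.card F = 4)) {ρ : RingAut K}
    (h : ∃ l : F, ρ (ζ ^ (Nat.card F - 1)) = algebraMap F K l * ζ ^ (Nat.card F - 1)) : ρ = 1 := by
  have hF := finite_F F K
  have hq : 1 < Nat.card F := Finite.one_lt_card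
  have hQ : 1 < Nat.card K := Finite.one_lt_card
  have hζ0 : ζ ≠ 0 := by
    rintro rfl
    have h1 : orderOf (0 : K) = 0 := by
      rw [orderOf_eq_zero_iff']
      intro n hn h0
      rw [zero_pow hn.ne'] at h0
      exact zero_ne_one h0
    omega
  obtain ⟨r, hr⟩ := CharP.exists K
  have hrp : Fact r.Prime := ⟨(CharP.char_is_prime_or_zero K r).resolve_right
    (CharP.char_ne_zero_of_finite K r)⟩
  obtain ⟨N, k, hkN, hcard, hρ, -⟩ := ff_aut' (r := r) ρ
  rcases Nat.eq_zero_or_pos k with hk | hk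
  · ext x
    rw [hρ, hk, pow_zero, pow_one]
    rfl
  · exfalso
    obtain ⟨l, hl⟩ := h
    have hr1 : 1 < r := hrp.out.one_lt
    have hrk : 1 ≤ r ^ k := Nat.one_le_pow _ _ (by omega)
    have h1 : ζ ^ ((Nat.card F - 1) * (r ^ k - 1)) = algebraMap F K l := by
      rw [hρ, ← pow_mul] at hl
      have h2 : (Nat.card F - 1) * r ^ k = (Nat.card F - 1) * (r ^ k - 1) + (Nat.card F - 1) := by
        obtain ⟨X, hX⟩ : ∃ X, r ^ k = X + 1 := ⟨r ^ k - 1, by omega⟩
        rw [hX]
        have : X + 1 - 1 = X := rfl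
        rw [this]
        ring
      rw [h2, pow_add] at hl
      exact mul_right_cancel₀ (pow_ne_zero _ hζ0) hl
    obtain ⟨h2, h3⟩ := exp_dvd hζ ⟨l, h1⟩
    set g := N.gcd k with hg
    have hg0 : 0 < g := Nat.gcd_pos_of_pos_right _ hk
    have hgcd : (Nat.card K - 1).gcd (r ^ k - 1) = r ^ g - 1 := by
      rw [hcard]
      exact Nat.pow_sub_one_gcd_pow_sub_one _ _ _
    have hrg : 1 < r ^ g := Nat.one_lt_pow hg0.ne' hr1
    have key : ∀ c : ℕ, 0 < c → Nat.card K - 1 ∣ (Nat.card F - 1) * (r ^ k - 1) * c →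
        Nat.card K - 1 ≤ (Nat.card F - 1) * c * (r ^ g - 1) := by
      intro c hc hd
      have h4 : Nat.card K - 1 ∣ (Nat.card F - 1) * c * (r ^ k - 1) := by
        have e : (Nat.card F - 1) * c * (r ^ k - 1) = (Nat.card F - 1) * (r ^ k - 1) * c := by ring
        rwa [e]
      have h5 : Nat.card K - 1 ∣ (Nat.card F - 1) * c * (r ^ g - 1) := by
        rw [← hgcd, ← Nat.gcd_mul_left]
        exact Nat.dvd_gcd (dvd_mul_left _ _) h4
      exact Nat.le_of_dvd (Nat.mul_pos (Nat.mul_pos (by omega) hc) (by omega)) h5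
    have h4 := key _ (show 0 < Nat.card F - 1 by omega) h2
    have h5 := key _ (show 0 < Module.finrank F K by omega) h3
    obtain ⟨c, hc⟩ : g ∣ N := Nat.gcd_dvd_left _ _
    have hc2 : 2 ≤ c := by
      have h6 : g ≤ k := Nat.gcd_le_right _ hk
      by_contra hcon
      have h7 : c = 0 ∨ c = 1 := by omega
      rcases h7 with h7 | h7
      · rw [h7, mul_zero] at hc
        omega
      · rw [h7, mul_one] at hc
        omega
    rw [card_KF F K] at h4 h5
    refine hex (num_cent (by omega) hn (a := r ^ g) (by omega) hc2 ?_ ?_ ?_)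
    · rw [← pow_mul, ← hc, ← hcard, card_KF F K]
    · exact h4
    · exact h5

/-- no automorphism of order at most two inverts a generator up to scalars -/
theorem no_inv {ζ : K} (hζ : orderOf ζ = Nat.card K - 1) (hn : 3 ≤ Module.finrank F K)
    (hq4 : ¬ (Module.finrank F K = 3 ∧ Nat.card F = 4)) {ρ : RingAut K} (hρ2 : ρ ^ 2 = 1)
    (h : ∃ l : F, ρ (ζ ^ (Nat.card F - 1)) * ζ ^ (Nat.card F - 1) = algebraMap F K l) : False := by
  have hF := finite_F F K
  have hq : 1 < Nat.card F := Finite.one_lt_card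
  have hQ : 1 < Nat.card K := Finite.one_lt_card
  obtain ⟨r, hr⟩ := CharP.exists K
  have hrp : Fact r.Prime := ⟨(CharP.char_is_prime_or_zero K r).resolve_right
    (CharP.char_ne_zero_of_finite K r)⟩
  obtain ⟨l, hl⟩ := h
  by_cases hρ1 : ρ = 1
  · subst hρ1
    have h1 : ζ ^ ((Nat.card F - 1) * 2) = algebraMap F K l := by
      rw [pow_mul, pow_two]
      exact hl
    obtain ⟨h2, -⟩ := exp_dvd hζ ⟨l, h1⟩
    have h3 := Nat.le_of_dvd (Nat.mul_pos (Nat.mul_pos (by omega) (by omega)) (by omega)) h2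
    rw [card_KF F K] at h3
    have h4 : Nat.card F ^ 3 ≤ Nat.card F ^ Module.finrank F K :=
      Nat.pow_le_pow_right (by omega) hn
    obtain ⟨u, hu⟩ : ∃ u, Nat.card F = u + 2 := ⟨Nat.card F - 2, by omega⟩
    rw [hu] at h3 h4
    have e1 : u + 2 - 1 = u + 1 := rfl
    rw [e1] at h3
    have h5 : (u + 2) ^ 3 = (u + 1) * 2 * (u + 1) + u ^ 3 + 4 * u ^ 2 + 8 * u + 6 := by ring
    omega
  · obtain ⟨k, hk, hcard, hρ⟩ := ff_quad (r := r) hρ1 hρ2
    set a := r ^ k with ha
    have ha1 : 1 < a := Nat.one_lt_pow hk.ne' hrp.out.one_lt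
    have h1 : ζ ^ ((Nat.card F - 1) * (a + 1)) = algebraMap F K l := by
      rw [← hl, hρ, mul_add, mul_one, pow_add, ← pow_mul]
    obtain ⟨h2, h3⟩ := exp_dvd hζ ⟨l, h1⟩
    have hfac : Nat.card K - 1 = (a + 1) * (a - 1) := by
      rw [hcard]
      obtain ⟨e, he⟩ : ∃ e, a = e + 1 := ⟨a - 1, by omega⟩
      rw [he]
      have : (e + 1) ^ 2 = (e + 1 + 1) * (e + 1 - 1) + 1 := by
        have : e + 1 - 1 = e := rfl
        rw [this]; ring
      omega
    rw [hfac] at h2 h3
    have key : ∀ c : ℕ, 0 < c → (a + 1) * (a - 1) ∣ (Nat.card F - 1) * (a + 1) * c →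
        a - 1 ≤ (Nat.card F - 1) * c := by
      intro c hc hd
      have h4 : (a + 1) * (a - 1) ∣ (a + 1) * ((Nat.card F - 1) * c) := by
        have e : (a + 1) * ((Nat.card F - 1) * c) = (Nat.card F - 1) * (a + 1) * c := by ring
        rwa [e]
      exact Nat.le_of_dvd (Nat.mul_pos (by omega) hc) (Nat.dvd_of_mul_dvd_mul_left (by omega) h4)
    refine num_inv (q := Nat.card F) (n := Module.finrank F K) (a := a) (by omega) hn hq4
      (by omega) ?_ (key _ (by omega) h2) (key _ (by omega) h3)
    rw [← hcard, card_KF F K]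

end

end Vale.Agent.P240.H195
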