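import Mathlib.LinearAlgebra.Projectivization.Action
import Mathlib.LinearAlgebra.Projectivization.Cardinality
import Vale.Agent.P240.H195.SL5
import Vale.Agent.P240.H195.SN2

/-!
A Singer cycle normalizes no elementary abelian `p`-subgroup, part 1: an invariant line.
-/

namespace Vale.Agent.P240.H195

open Subgroup Matrix
open scoped LinearAlgebra.Projectivization

section
variable {F K : Type*} [Field F] [Field K] [Algebra F K] {m : ℕ}
  (b : Module.Basis (Fin (m + 1)) F K)

/-- special linear matrices as linear maps of `K` -/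
noncomputable def ax (x : SLm m F) : K →ₗ[F] K := Matrix.toLin b b x.1

lemma ax_mul (x y : SLm m F) (v : K) : ax b (x * y) v = ax b x (ax b y v) := by
  have : (x * y).1 = x.1 * y.1 := rfl
  rw [ax, this, Matrix.toLin_mul b b b]
  rfl

lemma ax_one (v : K) : ax b 1 v = v := by
  have : (1 : SLm m F).1 = 1 := rfl
  rw [ax, this, Matrix.toLin_one]
  rfl

lemma ax_s {s : SLm m F} {w : K} (hs : s.1 = Algebra.leftMulMatrix b w) (v : K) :
    ax b s v = w * v := by
  rw [ax, hs, Algebra.leftMulMatrix_apply, Matrix.toLin_toMatrix]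
  rfl

lemma ax_pow {s : SLm m F} {w : K} (hs : s.1 = Algebra.leftMulMatrix b w) (i : ℕ) (v : K) :
    ax b (s ^ i) v = w ^ i * v := by
  induction i with
  | zero => rw [pow_zero, pow_zero, ax_one, one_mul]
  | succ i ih => rw [pow_succ', pow_succ', ax_mul, ih, ax_s b hs, mul_assoc]

lemma ax_repr (x : SLm m F) (v : K) : b.equivFun (ax b x v) = x.1 *ᵥ b.equivFun v := by
  have h := LinearMap.toMatrix_mulVec_repr b b (ax b x) v
  rw [ax, LinearMap.toMatrix_toLin] at h
  rw [ax]
  exact h.symm

lemma ax_inj {x y : SLm m F} (h : ∀ v, ax b x v = ax b y v) : x = y := by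
  apply Subtype.ext
  have h1 : ax b x = ax b y := LinearMap.ext h
  exact (Matrix.toLin b b).injective h1

variable [Finite K]

/-- `p`-subgroups stabilize a line -/
lemma exists_line {p : ℕ} [hp : Fact p.Prime]
    (hpt : ¬ p ∣ (Nat.card K - 1) / (Nat.card F - 1)) {P : Subgroup (SLm m F)}
    (hP : IsPGroup p P) : ∃ v : K, v ≠ 0 ∧ ∀ x ∈ P, ∃ c : F, ax b x v = c • v := by
  have hF := finite_F F K
  have hfin : Finite (ℙ F (Fin (m + 1) → F)) := inferInstance
  have hcard : Nat.card (ℙ F (Fin (m + 1) → F)) = (Nat.card K - 1) / (Nat.card F - 1) := by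
    rw [Projectivization.card'', Nat.card_congr b.equivFun.toEquiv]
  obtain ⟨L, hL⟩ := hP.nonempty_fixed_point_of_prime_not_dvd_card (ℙ F (Fin (m + 1) → F))
    (by rwa [hcard])
  induction L using Projectivization.ind with
  | h v hv =>
  refine ⟨b.equivFun.symm v, fun h => hv ?_, fun x hx => ?_⟩
  · have h1 := congrArg b.equivFun h
    rw [LinearEquiv.apply_symm_apply, map_zero] at h1
    exact h1
  · have h1 : x • (Projectivization.mk F v hv) = Projectivization.mk F v hv := hL ⟨x, hx⟩
    rw [Projectivization.smul_mk, Projectivization.mk_eq_mk_iff] at h1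
    obtain ⟨a, ha⟩ := h1
    refine ⟨a, ?_⟩
    apply b.equivFun.injective
    rw [ax_repr, map_smul, LinearEquiv.apply_symm_apply]
    exact ha.symm

end

end Vale.Agent.P240.H195
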