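import Mathlib.RingTheory.IntegralDomain
import Vale.Agent.P240.H195.SN3

/-!
A Singer cycle normalizes no elementary abelian `p`-subgroup, part 2.
-/

namespace Vale.Agent.P240.H195

open Subgroup Matrix

section
variable {F K : Type*} [Field F] [Field K] [Algebra F K] {m : ℕ}
  (b : Module.Basis (Fin (m + 1)) F K) [Finite K]

/-- the joint eigenspace -/
def eigW (P : Subgroup (SLm m F)) (χ : SLm m F → F) : Submodule F K where
  carrier := {w | ∀ x ∈ P, ax b x w = χ x • w}
  add_mem' := by
    intro u v hu hv x hx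
    rw [map_add, hu x hx, hv x hx, smul_add]
  zero_mem' := by
    intro x _
    rw [map_zero, smul_zero]
  smul_mem' := by
    intro c v hv x hx
    rw [map_smul, hv x hx, smul_comm]

omit [Finite K] in
lemma mem_eigW {P : Subgroup (SLm m F)} {χ : SLm m F → F} {w : K} :
    w ∈ eigW b P χ ↔ ∀ x ∈ P, ax b x w = χ x • w := Iff.rfl

lemma t_mod {p n q t : ℕ} (hq : 1 < q) (ht : t * (q - 1) + 1 = q ^ n) (h1 : p ∣ q - 1)
    (h2 : p ∣ n) : p ∣ t := by
  have h3 : t = ∑ i ∈ Finset.range n, q ^ i := by
    have h4 : (∑ i ∈ Finset.range n, q ^ i) * (q - 1) + 1 = q ^ n := by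
      have := Nat.geomSum_eq (show 2 ≤ q by omega) n
      rw [this, Nat.div_mul_cancel (Nat.sub_one_dvd_pow_sub_one _ _)]
      have : 1 ≤ q ^ n := Nat.one_le_pow _ _ (by omega)
      omega
    have h5 : t * (q - 1) = (∑ i ∈ Finset.range n, q ^ i) * (q - 1) := by omega
    exact Nat.eq_of_mul_eq_mul_right (by omega) h5
  have h4 : (∑ i ∈ Finset.range n, q ^ i) ≡ n [MOD p] := by
    have h5 : q ≡ 1 [MOD p] := by
      have : 1 ≡ q [MOD p] := (Nat.modEq_iff_dvd' (by omega)).2 h1
      exact this.symm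
    have h6 : ∀ i ∈ Finset.range n, q ^ i ≡ 1 [MOD p] := by
      intro i _
      have := h5.pow i
      rwa [one_pow] at this
    induction n with
    | zero => rfl
    | succ n _ =>
      clear ht h2 h3
      have : ∀ k : ℕ, (∑ i ∈ Finset.range k, q ^ i) ≡ k [MOD p] := by
        intro k
        induction k with
        | zero => rfl
        | succ k ih =>
          rw [Finset.sum_range_succ]
          have h7 : q ^ k ≡ 1 [MOD p] := by
            have := h5.pow k
            rwa [one_pow] at this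
          exact ih.add h7
      exact this _
  rw [h3]
  exact (Nat.modEq_zero_iff_dvd).1 (h4.trans ((Nat.modEq_zero_iff_dvd).2 h2))

/-- A Singer cycle normalizes no nontrivial elementary abelian `p`-subgroup of `SL_n(F)`. -/
theorem sing_inv {p : ℕ} [hp : Fact p.Prime] (hm : 2 ≤ m)
    (hpt : ¬ p ∣ (Nat.card K - 1) / (Nat.card F - 1)) (hpF : (p : F) ≠ 0)
    {ζ : K} (hζ : orderOf ζ = Nat.card K - 1) {s : SLm m F}
    (hs : s.1 = Algebra.leftMulMatrix b (ζ ^ (Nat.card F - 1))) {P : Subgroup (SLm m F)}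
    (hPc : ∀ x ∈ P, ∀ y ∈ P, x * y = y * x) (hPp : ∀ x ∈ P, x ^ p = 1)
    (hPs : s ∈ normalizer (P : Set (SLm m F))) : P = ⊥ := by
  classical
  have hF := finite_F F K
  have hq : 1 < Nat.card F := Finite.one_lt_card
  have hQ : 1 < Nat.card K := Finite.one_lt_card
  have hfr : Module.finrank F K = m + 1 := by
    rw [Module.finrank_eq_card_basis b, Fintype.card_fin]
  have hQq := card_KF F K
  rw [hfr] at hQq
  set q := Nat.card F with hqd
  set t := (Nat.card K - 1) / (q - 1) with htd
  have htm : t * (q - 1) + 1 = q ^ (m + 1) := by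
    have := t_mul F K
    rw [← hqd] at this
    rw [htd, this, ← hQq]
    omega
  have ht0 : 0 < t := by
    rcases Nat.eq_zero_or_pos t with h | h
    · rw [h] at htm
      have : 1 < q ^ (m + 1) := Nat.one_lt_pow (by omega) hq
      omega
    · exact h
  have hζ0 : ζ ≠ 0 := by
    rintro rfl
    have h1 : orderOf (0 : K) = 0 := by
      rw [orderOf_eq_zero_iff']
      intro n hn h0
      rw [zero_pow hn.ne'] at h0
      exact zero_ne_one h0
    omega
  set w := ζ ^ (q - 1) with hw
  have hw0 : w ≠ 0 := pow_ne_zero _ hζ0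
  have hordw : orderOf w = t := by
    rw [hw, orderOf_pow_of_dvd (by omega) (by
      rw [hζ, hQq]; exact Nat.sub_one_dvd_pow_sub_one _ _), hζ]
  have hPg : IsPGroup p P := fun x => ⟨1, by rw [pow_one]; exact Subtype.ext (hPp x x.2)⟩
  obtain ⟨v₀, hv₀, hex⟩ := exists_line b hpt hPg
  have hex' : ∀ x : SLm m F, ∃ c : F, x ∈ P → ax b x v₀ = c • v₀ := by
    intro x
    by_cases hx : x ∈ P
    · obtain ⟨c, hc⟩ := hex x hx
      exact ⟨c, fun _ => hc⟩
    · exact ⟨0, fun h => absurd h hx⟩
  choose χ hχ using hex'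
  have hχu : ∀ {c d : F}, c • v₀ = d • v₀ → c = d := fun h => smul_left_injective F hv₀ h
  have hχ1 : χ 1 = 1 := by
    apply hχu
    rw [← hχ 1 (one_mem P), ax_one, one_smul]
  have hχm : ∀ x ∈ P, ∀ y ∈ P, χ (x * y) = χ x * χ y := by
    intro x hx y hy
    apply hχu
    rw [← hχ _ (mul_mem hx hy), ax_mul, hχ y hy, map_smul, hχ x hx, smul_smul, mul_comm]
  have hcs : ∀ (i : ℕ), ∀ x ∈ P, (s ^ i)⁻¹ * x * s ^ i ∈ P := by
    intro i x hx
    have h1 : (s ^ i)⁻¹ ∈ normalizer (P : Set (SLm m F)) := inv_mem (pow_mem hPs i)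
    have := (mem_normalizer_iff.1 h1 x).1 hx
    rwa [inv_inv] at this
  have hcs' : ∀ (i : ℕ), ∀ x ∈ P, s ^ i * x * (s ^ i)⁻¹ ∈ P := by
    intro i x hx
    exact (mem_normalizer_iff.1 (pow_mem hPs i) x).1 hx
  set W := eigW b P χ with hW
  have hv₀W : v₀ ∈ W := fun x hx => hχ x hx
  have hshift : ∀ (i : ℕ), ∀ u ∈ W, ∀ x ∈ P,
      ax b x (w ^ i * u) = χ ((s ^ i)⁻¹ * x * s ^ i) • (w ^ i * u) := by
    intro i u hu x hx
    rw [← ax_pow b hs, ← ax_mul]
    have e : x * s ^ i = s ^ i * ((s ^ i)⁻¹ * x * s ^ i) := by group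
    rw [e, ax_mul, hu _ (hcs i x hx), map_smul]
  -- the stabilizer of the eigenspace
  have hexk : ∃ k : ℕ, 0 < k ∧ ∀ x ∈ P, χ ((s ^ k)⁻¹ * x * s ^ k) = χ x := by
    refine ⟨orderOf s, orderOf_pos s, fun x _ => ?_⟩
    rw [pow_orderOf_eq_one, inv_one, one_mul, mul_one]
  set k := Nat.find hexk with hk
  obtain ⟨hk0, hkχ⟩ := Nat.find_spec hexk
  rw [← hk] at hk0 hkχ
  have hkmin : ∀ j, 0 < j → j < k → ¬ ∀ x ∈ P, χ ((s ^ j)⁻¹ * x * s ^ j) = χ x := by
    intro j hj hjk h1
    exact Nat.find_min hexk hjk ⟨hj, h1⟩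
  have hWk : ∀ u ∈ W, w ^ k * u ∈ W := by
    intro u hu x hx
    rw [hshift k u hu x hx, hkχ x hx]
  have hWkj : ∀ j : ℕ, ∀ u ∈ W, w ^ (k * j) * u ∈ W := by
    intro j
    induction j with
    | zero => intro u hu; rw [mul_zero, pow_zero, one_mul]; exact hu
    | succ j ih =>
      intro u hu
      rw [mul_add, mul_one, add_comm, pow_add, mul_assoc]
      exact hWk _ (ih u hu)
  rcases Nat.lt_or_ge 1 k with hk1 | hk1
  · exfalso
    have hWfin : Finite W := inferInstance
    -- the size of the eigenspace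
    have hqD : q ≤ Nat.card W := by
      refine Nat.card_le_card_of_injective (fun c : F => (⟨c • v₀, W.smul_mem c hv₀W⟩ : W)) ?_
      intro c d hcd
      exact hχu (congrArg Subtype.val hcd)
    have htD : t ≤ k * (Nat.card W - 1) := by
      have hcW : Nat.card {u : W // u ≠ 0} = Nat.card W - 1 := by
        have := Fintype.ofFinite W
        rw [Nat.card_eq_fintype_card, Nat.card_eq_fintype_card, Fintype.card_subtype_compl,
          Fintype.card_subtype_eq]
      have h1 : Nat.card (Fin t) ≤ Nat.card (Fin k × {u : W // u ≠ 0}) := by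
        refine Nat.card_le_card_of_injective (fun j : Fin t =>
          ((⟨(j : ℕ) % k, Nat.mod_lt _ hk0⟩ : Fin k),
            (⟨⟨w ^ (k * ((j : ℕ) / k)) * v₀, hWkj _ v₀ hv₀W⟩, fun h => by
              have h2 := congrArg Subtype.val h
              exact mul_ne_zero (pow_ne_zero _ hw0) hv₀ h2⟩ : {u : W // u ≠ 0}))) ?_
        intro i j hij
        have h2 := congrArg (fun y => (y.1 : ℕ)) hij
        have h3 : w ^ (k * ((i : ℕ) / k)) * v₀ = w ^ (k * ((j : ℕ) / k)) * v₀ :=
          congrArg (fun y => ((y.2.1 : W) : K)) hij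
        have h4 := mul_right_cancel₀ hv₀ h3
        have hi : k * ((i : ℕ) / k) < orderOf w := by
          rw [hordw]
          exact lt_of_le_of_lt (Nat.mul_div_le _ _) i.2
        have hj : k * ((j : ℕ) / k) < orderOf w := by
          rw [hordw]
          exact lt_of_le_of_lt (Nat.mul_div_le _ _) j.2
        have h5 := pow_injOn_Iio_orderOf (Set.mem_Iio.2 hi) (Set.mem_Iio.2 hj) h4
        have h6 : (i : ℕ) % k = (j : ℕ) % k := h2
        refine Fin.ext ?_
        rw [← Nat.div_add_mod (i : ℕ) k, ← Nat.div_add_mod (j : ℕ) k, h5, h6]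
      rwa [Nat.card_prod, Nat.card_fin, Nat.card_fin, hcW] at h1
    -- independence
    have hPF : ((Nat.card P : ℕ) : F) ≠ 0 := by
      obtain ⟨n, hn⟩ := IsPGroup.iff_card.1 hPg
      rw [hn, Nat.cast_pow]
      exact pow_ne_zero _ hpF
    have hDk : Nat.card W ^ k ≤ Nat.card K := by
      have h1 : Nat.card (Fin k → W) ≤ Nat.card K := by
        refine Nat.card_le_card_of_injective (fun f : Fin k → W =>
          ∑ i : Fin k, w ^ (i : ℕ) * (f i : K)) ?_
        intro f g hfg
        have := Fintype.ofFinite P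
        have hproj : ∀ (j : Fin k) (f : Fin k → W),
            ∑ x : P, χ ((s ^ (j : ℕ))⁻¹ * (x : SLm m F)⁻¹ * s ^ (j : ℕ)) •
              ax b (x : SLm m F) (∑ i : Fin k, w ^ (i : ℕ) * (f i : K)) =
            (Nat.card P : F) • (w ^ (j : ℕ) * (f j : K)) := by
          intro j f
          have h2 : ∀ x : P, χ ((s ^ (j : ℕ))⁻¹ * (x : SLm m F)⁻¹ * s ^ (j : ℕ)) •
              ax b (x : SLm m F) (∑ i : Fin k, w ^ (i : ℕ) * (f i : K)) =
              ∑ i : Fin k, (χ ((s ^ (j : ℕ))⁻¹ * (x : SLm m F)⁻¹ * s ^ (j : ℕ)) *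
                χ ((s ^ (i : ℕ))⁻¹ * (x : SLm m F) * s ^ (i : ℕ))) •
                (w ^ (i : ℕ) * (f i : K)) := by
            intro x
            rw [map_sum, Finset.smul_sum]
            refine Finset.sum_congr rfl fun i _ => ?_
            rw [hshift (i : ℕ) (f i) (f i).2 x x.2, smul_smul]
          rw [Finset.sum_congr rfl fun x _ => h2 x, Finset.sum_comm]
          rw [Finset.sum_eq_single j]
          · rw [← Finset.sum_smul]
            congr 1
            have h3 : ∀ x : P, χ ((s ^ (j : ℕ))⁻¹ * (x : SLm m F)⁻¹ * s ^ (j : ℕ)) *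
                χ ((s ^ (j : ℕ))⁻¹ * (x : SLm m F) * s ^ (j : ℕ)) = 1 := by
              intro x
              rw [← hχm _ (hcs _ _ (inv_mem x.2)) _ (hcs _ _ x.2), ← hχ1]
              congr 1
              group
            rw [Finset.sum_congr rfl fun x _ => h3 x, Finset.sum_const, Finset.card_univ,
              nsmul_eq_mul, mul_one, Nat.card_eq_fintype_card]
          · intro i _ hij
            rw [← Finset.sum_smul]
            let ψ : P →* F :=
              { toFun := fun x => χ ((s ^ (j : ℕ))⁻¹ * (x : SLm m F)⁻¹ * s ^ (j : ℕ)) *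
                  χ ((s ^ (i : ℕ))⁻¹ * (x : SLm m F) * s ^ (i : ℕ))
                map_one' := by
                  have e1 : (s ^ (j : ℕ))⁻¹ * ((1 : P) : SLm m F)⁻¹ * s ^ (j : ℕ) = 1 := by
                    rw [OneMemClass.coe_one]; group
                  have e2 : (s ^ (i : ℕ))⁻¹ * ((1 : P) : SLm m F) * s ^ (i : ℕ) = 1 := by
                    rw [OneMemClass.coe_one]; group
                  rw [e1, e2, hχ1, mul_one]
                map_mul' := by
                  intro x y
                  have e1 : (s ^ (j : ℕ))⁻¹ * ((x * y : P) : SLm m F)⁻¹ * s ^ (j : ℕ) =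
                      ((s ^ (j : ℕ))⁻¹ * (x : SLm m F)⁻¹ * s ^ (j : ℕ)) *
                      ((s ^ (j : ℕ))⁻¹ * (y : SLm m F)⁻¹ * s ^ (j : ℕ)) := by
                    have h4 := hPc x x.2 y y.2
                    have h5 : ((x * y : P) : SLm m F)⁻¹ = (x : SLm m F)⁻¹ * (y : SLm m F)⁻¹ := by
                      rw [Subgroup.coe_mul, h4, _root_.mul_inv_rev]
                    rw [h5]
                    group
                  have e2 : (s ^ (i : ℕ))⁻¹ * ((x * y : P) : SLm m F) * s ^ (i : ℕ) =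
                      ((s ^ (i : ℕ))⁻¹ * (x : SLm m F) * s ^ (i : ℕ)) *
                      ((s ^ (i : ℕ))⁻¹ * (y : SLm m F) * s ^ (i : ℕ)) := by
                    rw [Subgroup.coe_mul]
                    group
                  rw [e1, e2, hχm _ (hcs _ _ (inv_mem x.2)) _ (hcs _ _ (inv_mem y.2)),
                    hχm _ (hcs _ _ x.2) _ (hcs _ _ y.2)]
                  ring }
            have hψ : ψ ≠ 1 := by
              intro hψ1
              have h3 : ∀ x ∈ P, χ ((s ^ (i : ℕ))⁻¹ * x * s ^ (i : ℕ)) =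
                  χ ((s ^ (j : ℕ))⁻¹ * x * s ^ (j : ℕ)) := by
                intro x hx
                have h4 : ψ ⟨x, hx⟩ = 1 := by rw [hψ1]; rfl
                have h5 : χ ((s ^ (j : ℕ))⁻¹ * x⁻¹ * s ^ (j : ℕ)) *
                  χ ((s ^ (i : ℕ))⁻¹ * x * s ^ (i : ℕ)) = 1 := h4
                have h6 : χ ((s ^ (j : ℕ))⁻¹ * x * s ^ (j : ℕ)) *
                    χ ((s ^ (j : ℕ))⁻¹ * x⁻¹ * s ^ (j : ℕ)) = 1 := by
                  rw [← hχm _ (hcs _ _ hx) _ (hcs _ _ (inv_mem hx)), ← hχ1]
                  congr 1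
                  group
                calc χ ((s ^ (i : ℕ))⁻¹ * x * s ^ (i : ℕ)) =
                    (χ ((s ^ (j : ℕ))⁻¹ * x * s ^ (j : ℕ)) *
                    χ ((s ^ (j : ℕ))⁻¹ * x⁻¹ * s ^ (j : ℕ))) *
                      χ ((s ^ (i : ℕ))⁻¹ * x * s ^ (i : ℕ)) := by rw [h6, one_mul]
                  _ = χ ((s ^ (j : ℕ))⁻¹ * x * s ^ (j : ℕ)) *
                    (χ ((s ^ (j : ℕ))⁻¹ * x⁻¹ * s ^ (j : ℕ)) *
                      χ ((s ^ (i : ℕ))⁻¹ * x * s ^ (i : ℕ))) := by ring
                  _ = _ := by rw [h5, mul_one]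
              have h7 : ∀ a c : ℕ, a < c → c < k → (∀ x ∈ P, χ ((s ^ a)⁻¹ * x * s ^ a) =
                  χ ((s ^ c)⁻¹ * x * s ^ c)) → False := by
                intro a c hac hck h8
                refine hkmin (c - a) (by omega) (by omega) fun x hx => ?_
                have h9 := h8 _ (hcs' a x hx)
                have e1 : (s ^ a)⁻¹ * (s ^ a * x * (s ^ a)⁻¹) * s ^ a = x := by group
                have e2 : (s ^ c)⁻¹ * (s ^ a * x * (s ^ a)⁻¹) * s ^ c =
                    (s ^ (c - a))⁻¹ * x * s ^ (c - a) := by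
                  have e3 : s ^ c = s ^ a * s ^ (c - a) := by rw [← pow_add]; congr 1; omega
                  rw [e3]
                  group
                rw [e1, e2] at h9
                exact h9.symm
              rcases lt_trichotomy (i : ℕ) (j : ℕ) with h8 | h8 | h8
              · exact h7 _ _ h8 j.2 h3
              · exact hij (Fin.ext h8)
              · exact h7 _ _ h8 i.2 fun x hx => (h3 x hx).symm
            have h3 := sum_hom_units_eq_zero ψ hψ
            have h4 : ∑ x : P, χ ((s ^ (j : ℕ))⁻¹ * (x : SLm m F)⁻¹ * s ^ (j : ℕ)) *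
              χ ((s ^ (i : ℕ))⁻¹ * (x : SLm m F) * s ^ (i : ℕ)) = 0 := h3
            rw [h4, zero_smul]
          · exact fun h => absurd (Finset.mem_univ j) h
        funext j
        have h2 := hproj j f
        have h3 := hproj j g
        have h4 : ∑ i : Fin k, w ^ (i : ℕ) * (f i : K) = ∑ i : Fin k, w ^ (i : ℕ) * (g i : K) := hfg
        rw [h4, h3] at h2
        have h5 := smul_right_injective K hPF h2
        exact Subtype.ext (mul_left_cancel₀ (pow_ne_zero _ hw0) h5).symm
      rwa [Nat.card_fun, Nat.card_fin] at h1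
    exact num_block (by omega) (by omega) htm hqD hk1 (hQq ▸ hDk) htD
  · have hk2 : k = 1 := by omega
    rw [hk2] at hWk
    -- `W` is everything
    have hall : ∀ y : K, ∀ u ∈ W, y * u ∈ W := by
      intro y
      have hy : y ∈ Algebra.adjoin F {w} := by
        rw [adj_top hζ (by rw [hfr]; omega)]
        exact Algebra.mem_top
      induction hy using Algebra.adjoin_induction with
      | mem x hx =>
        intro u hu
        rw [Set.mem_singleton_iff] at hx
        rw [hx]
        have := hWk u hu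
        rwa [pow_one] at this
      | algebraMap c =>
        intro u hu
        rw [← Algebra.smul_def]
        exact W.smul_mem c hu
      | add x y _ _ hx hy =>
        intro u hu
        rw [add_mul]
        exact W.add_mem (hx u hu) (hy u hu)
      | mul x y _ _ hx hy =>
        intro u hu
        rw [mul_assoc]
        exact hx _ (hy u hu)
    have htop : ∀ u : K, u ∈ W := by
      intro u
      have := hall (u * v₀⁻¹) v₀ hv₀W
      rwa [inv_mul_cancel_right₀ hv₀] at this
    rw [eq_bot_iff]
    intro x hx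
    rw [Subgroup.mem_bot]
    have hsc : x.1 = χ x • (1 : Matrix (Fin (m + 1)) (Fin (m + 1)) F) := by
      have h1 : ax b x = χ x • LinearMap.id := LinearMap.ext fun u => htop u x hx
      have h2 := congrArg (LinearMap.toMatrix b b) h1
      rw [ax, LinearMap.toMatrix_toLin, map_smul, LinearMap.toMatrix_id] at h2
      exact h2
    have hdet : χ x ^ (m + 1) = 1 := by
      have h1 : x.1.det = 1 := x.2
      rw [hsc, Matrix.det_smul, Matrix.det_one, mul_one, Fintype.card_fin] at h1
      exact h1
    have hpow : χ x ^ p = 1 := by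
      have h1 : ∀ i : ℕ, χ (x ^ i) = χ x ^ i := by
        intro i
        induction i with
        | zero => rw [pow_zero, pow_zero, hχ1]
        | succ i ih => rw [pow_succ, pow_succ, hχm _ (pow_mem hx i) _ hx, ih]
      rw [← h1, hPp x hx, hχ1]
    have hχx : χ x = 1 := by
      by_contra hne
      have h1 : orderOf (χ x) = p := orderOf_eq_prime hpow hne
      have h2 : p ∣ m + 1 := by rw [← h1]; exact orderOf_dvd_of_pow_eq_one hdet
      have h3 : p ∣ q - 1 := by
        rw [← h1]
        apply orderOf_dvd_of_pow_eq_one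
        have := Fintype.ofFinite F
        rw [hqd, Nat.card_eq_fintype_card]
        refine FiniteField.pow_card_sub_one_eq_one _ fun h4 => ?_
        rw [h4, zero_pow (by omega)] at hdet
        exact zero_ne_one hdet
      exact hpt (t_mod hq htm h3 h2)
    apply Subtype.ext
    rw [hsc, hχx, one_smul]
    rfl

end

end Vale.Agent.P240.H195
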