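import Vale.Agent.P240.H195.SM4
import Vale.Agent.P240.H195.SN4

/-!
The centralizer of a Singer cycle, part 1: semilinear maps.
-/

namespace Vale.Agent.P240.H195

open Subgroup Matrix

section
variable {F K : Type*} [Field F] [Field K] [Algebra F K] {m : ℕ}
  (b : Module.Basis (Fin (m + 1)) F K)

lemma map_add' (τ : RingAut F) (A C : Matrix (Fin (m + 1)) (Fin (m + 1)) F) :
    (A + C).map τ = A.map τ + C.map τ := by
  ext i j
  exact map_add τ _ _

lemma algebraMap_map (τ : RingAut F) (c : F) :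
    (algebraMap F (Matrix (Fin (m + 1)) (Fin (m + 1)) F) c).map τ =
      algebraMap F (Matrix (Fin (m + 1)) (Fin (m + 1)) F) (τ c) := by
  ext i j
  rw [Matrix.map_apply, Matrix.algebraMap_matrix_apply, Matrix.algebraMap_matrix_apply]
  split_ifs
  · rfl
  · exact map_zero τ

lemma conj_algebraMap (M : GLm m F) (c : F) :
    M.1 * algebraMap F (Matrix (Fin (m + 1)) (Fin (m + 1)) F) c * (M⁻¹).1 =
      algebraMap F (Matrix (Fin (m + 1)) (Fin (m + 1)) F) c := by
  rw [← Algebra.commutes, mul_assoc, ← Units.val_mul, mul_inv_cancel, Units.val_one, mul_one]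

/-- semilinear maps normalizing the field `K` induce automorphisms of `K` -/
theorem sem_sing [Finite K] {M : GLm m F} {τ : RingAut F} {y₀ z₀ : K}
    (hy : Algebra.adjoin F {y₀} = ⊤)
    (h : M.1 * (Algebra.leftMulMatrix b y₀).map τ * (M⁻¹).1 = Algebra.leftMulMatrix b z₀) :
    ∃ ρ : RingAut K, (∀ y, M.1 * (Algebra.leftMulMatrix b y).map τ * (M⁻¹).1 =
      Algebra.leftMulMatrix b (ρ y)) ∧ ∀ c : F, ρ (algebraMap F K c) = algebraMap F K (τ c) := by
  have hinj := Algebra.leftMulMatrix_injective b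
  have hM : (M⁻¹).1 * M.1 = 1 := by rw [← Units.val_mul, inv_mul_cancel, Units.val_one]
  have halg : ∀ c : F, M.1 * (Algebra.leftMulMatrix b (algebraMap F K c)).map τ * (M⁻¹).1 =
      Algebra.leftMulMatrix b (algebraMap F K (τ c)) := by
    intro c
    rw [AlgHom.commutes, AlgHom.commutes, algebraMap_map, conj_algebraMap]
  have hadd : ∀ A C : Matrix (Fin (m + 1)) (Fin (m + 1)) F,
      M.1 * (A + C).map τ * (M⁻¹).1 = M.1 * A.map τ * (M⁻¹).1 + M.1 * C.map τ * (M⁻¹).1 := by
    intro A C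
    rw [map_add', mul_add, add_mul]
  have hmul : ∀ A C : Matrix (Fin (m + 1)) (Fin (m + 1)) F,
      M.1 * (A * C).map τ * (M⁻¹).1 = (M.1 * A.map τ * (M⁻¹).1) * (M.1 * C.map τ * (M⁻¹).1) := by
    intro A C
    rw [map_mul']
    calc M.1 * (A.map τ * C.map τ) * (M⁻¹).1
        = M.1 * A.map τ * 1 * (C.map τ * (M⁻¹).1) := by
          simp only [mul_assoc, one_mul]
      _ = _ := by rw [← hM]; simp only [mul_assoc]
  have hall : ∀ y : K, ∃ z : K, M.1 * (Algebra.leftMulMatrix b y).map τ * (M⁻¹).1 =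
      Algebra.leftMulMatrix b z := by
    intro y
    have hy' : y ∈ Algebra.adjoin F {y₀} := by rw [hy]; exact Algebra.mem_top
    induction hy' using Algebra.adjoin_induction with
    | mem x hx =>
      rw [Set.mem_singleton_iff] at hx
      exact ⟨z₀, by rw [hx, h]⟩
    | algebraMap c => exact ⟨_, halg c⟩
    | add x y _ _ hx hy =>
      obtain ⟨u, hu⟩ := hx
      obtain ⟨v, hv⟩ := hy
      exact ⟨u + v, by rw [map_add, hadd, hu, hv, map_add]⟩
    | mul x y _ _ hx hy =>
      obtain ⟨u, hu⟩ := hx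
      obtain ⟨v, hv⟩ := hy
      exact ⟨u * v, by rw [map_mul, hmul, hu, hv, map_mul]⟩
  choose ρ₀ hρ₀ using hall
  have hρalg : ∀ c : F, ρ₀ (algebraMap F K c) = algebraMap F K (τ c) := by
    intro c
    apply hinj
    rw [← hρ₀, halg]
  let ρ' : K →+* K :=
    { toFun := ρ₀
      map_one' := by
        have := hρalg 1
        rwa [map_one, map_one, map_one] at this
      map_mul' := fun x y => by
        apply hinj
        rw [← hρ₀, map_mul, hmul, hρ₀, hρ₀, map_mul]
      map_zero' := by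
        have := hρalg 0
        rwa [map_zero, map_zero, map_zero] at this
      map_add' := fun x y => by
        apply hinj
        rw [← hρ₀, map_add, hadd, hρ₀, hρ₀, map_add] }
  have hb : Function.Bijective ρ' := by
    rw [Finite.injective_iff_bijective.symm]
    exact ρ'.injective
  exact ⟨RingEquiv.ofBijective ρ' hb, fun y => hρ₀ y, hρalg⟩

/-- the commutant of `K` -/
lemma commutant {M : Matrix (Fin (m + 1)) (Fin (m + 1)) F}
    (h : ∀ y : K, M * Algebra.leftMulMatrix b y = Algebra.leftMulMatrix b y * M) :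
    ∃ c : K, M = Algebra.leftMulMatrix b c := by
  refine ⟨Matrix.toLin b b M 1, ?_⟩
  rw [Algebra.leftMulMatrix_apply, ← LinearMap.toMatrix_toLin b b M]
  congr 1
  rw [LinearMap.toMatrix_toLin]
  refine LinearMap.ext fun y => ?_
  have h1 := congrArg (Matrix.toLin b b) (h y)
  rw [Matrix.toLin_mul b b b, Matrix.toLin_mul b b b, Algebra.leftMulMatrix_apply,
    Matrix.toLin_toMatrix] at h1
  have h2 := LinearMap.congr_fun h1 1
  change Matrix.toLin b b M (y * 1) = y * Matrix.toLin b b M 1 at h2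
  rw [mul_one] at h2
  rw [h2]
  exact mul_comm _ _

lemma sem_scalar {M : GLm m F} {c : F}
    (h : M.1 = algebraMap F (Matrix (Fin (m + 1)) (Fin (m + 1)) F) c) : sem M 1 = 1 := by
  ext1 x
  obtain ⟨x, rfl⟩ := QuotientGroup.mk'_surjective _ x
  change pr m F (actf M 1 x) = pr m F x
  congr 1
  apply Subtype.ext
  rw [actf_val]
  have h1 : x.1.map (1 : RingAut F) = x.1 := by
    ext i j
    rfl
  rw [h1, h, Algebra.commutes, ← h, mul_assoc, ← Units.val_mul, mul_inv_cancel, Units.val_one,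
    mul_one]

lemma sem_one_pow (M : GLm m F) (k : ℕ) : sem M 1 ^ k = sem (M ^ k) 1 := by
  induction k with
  | zero => rw [pow_zero, pow_zero, sem, act_one, ind_one]
  | succ k ih => rw [pow_succ, ih, sem_mul, gla_one, mul_one, pow_succ]

/-- equality in `PSL` -/
lemma pr_eq_iff {x y : SLm m F} (h : pr m F x = pr m F y) :
    ∃ c : F, c ^ (m + 1) = 1 ∧ x.1 = algebraMap F (Matrix (Fin (m + 1)) (Fin (m + 1)) F) c * y.1 := by
  have h1 : x * y⁻¹ ∈ center (SLm m F) := by
    rw [← QuotientGroup.eq_one_iff]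
    have : pr m F (x * y⁻¹) = 1 := by rw [map_mul, map_inv, h, mul_inv_cancel]
    exact this
  rw [Matrix.SpecialLinearGroup.mem_center_iff] at h1
  obtain ⟨c, hc, h1⟩ := h1
  rw [Fintype.card_fin] at hc
  refine ⟨c, hc, ?_⟩
  have h2 : (x * y⁻¹).1 * y.1 = x.1 := by
    have : (x * y⁻¹ * y).1 = (x * y⁻¹).1 * y.1 := rfl
    rw [← this, inv_mul_cancel_right]
  rw [← h2]
  have h3 : (x * y⁻¹).1 = Matrix.scalar (Fin (m + 1)) c := h1.symm
  rw [h3]
  rfl

/-- semilinear automorphisms centralizing a Singer cycle have order prime to `p` -/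
theorem sem_cent [Finite K] {p : ℕ} (hpt : p.Coprime ((Nat.card K - 1) / (Nat.card F - 1)))
    (hm : 2 ≤ m) (hex : ¬ (m + 1 = 3 ∧ Nat.card F = 4)) {ζ : K}
    (hζ : orderOf ζ = Nat.card K - 1) {s : SLm m F}
    (hs : s.1 = Algebra.leftMulMatrix b (ζ ^ (Nat.card F - 1))) {M : GLm m F} {τ : RingAut F}
    (hfix : sem M τ (pr m F s) = pr m F s) (hp : sem M τ ^ p = 1) : sem M τ = 1 := by
  have hfr : Module.finrank F K = m + 1 := by
    rw [Module.finrank_eq_card_basis b, Fintype.card_fin]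
  obtain ⟨l, -, hl⟩ := pr_eq_iff (x := actf M τ s) hfix
  rw [actf_val, hs] at hl
  obtain ⟨ρ, hρ, hρF⟩ := sem_sing b (M := M) (τ := τ) (y₀ := ζ ^ (Nat.card F - 1))
    (z₀ := algebraMap F K l * ζ ^ (Nat.card F - 1)) (adj_top hζ (by omega)) (by
      rw [hl, map_mul, AlgHom.commutes])
  have hρ1 : ρ = 1 := by
    refine aut_eq_one hζ (by omega) (by rw [hfr]; exact hex) ⟨l, ?_⟩
    apply Algebra.leftMulMatrix_injective b
    rw [← hρ, hl, map_mul, AlgHom.commutes]
  have hτ1 : τ = 1 := by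
    ext c
    have h1 := hρF c
    rw [hρ1] at h1
    exact ((algebraMap F K).injective h1).symm
  subst hτ1
  have hcomm : ∀ y : K, M.1 * Algebra.leftMulMatrix b y = Algebra.leftMulMatrix b y * M.1 := by
    intro y
    have h1 := hρ y
    rw [hρ1] at h1
    have h2 : (Algebra.leftMulMatrix b y).map (1 : RingAut F) = Algebra.leftMulMatrix b y := by
      ext i j
      rfl
    rw [h2] at h1
    have h3 : ((1 : RingAut K) y) = y := rfl
    rw [h3] at h1
    calc M.1 * Algebra.leftMulMatrix b y =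
        M.1 * Algebra.leftMulMatrix b y * ((M⁻¹).1 * M.1) := by
          rw [← Units.val_mul, inv_mul_cancel, Units.val_one, mul_one]
      _ = (M.1 * Algebra.leftMulMatrix b y * (M⁻¹).1) * M.1 := by rw [mul_assoc, mul_assoc,
          mul_assoc]
      _ = _ := by rw [h1]
  obtain ⟨c, hc⟩ := commutant b hcomm
  have ht : sem M 1 ^ ((Nat.card K - 1) / (Nat.card F - 1)) = 1 := by
    rw [sem_one_pow]
    refine sem_scalar (c := Algebra.norm F c) ?_
    rw [Units.val_pow_eq_pow_val, hc, ← map_pow, ← FiniteField.algebraMap_norm_eq_pow,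
      AlgHom.commutes]
  have h1 := orderOf_dvd_of_pow_eq_one hp
  have h2 := orderOf_dvd_of_pow_eq_one ht
  have h3 := Nat.dvd_gcd h1 h2
  rw [hpt] at h3
  rw [← orderOf_eq_one_iff]
  exact Nat.dvd_one.1 h3

end

end Vale.Agent.P240.H195
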