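import Vale.Agent.P240.H195.RG3
import Vale.Agent.P240.H195.SN5

/-!
Groups of special linear matrices that are extraspecial modulo scalars.
-/

namespace Vale.Agent.P240.H195

open Subgroup Matrix

section
variable {F : Type*} [Field F] {m : ℕ}

lemma sgn_unique (h2 : (2 : F) ≠ 0) {A : Matrix (Fin (m + 1)) (Fin (m + 1)) F} (hA : A ≠ 0)
    {ε δ : ℤ} (hε : ε * ε = 1) (hδ : δ * δ = 1) (h : (ε : F) • A = (δ : F) • A) : ε = δ := by
  have key : ∀ x : F, x + x = 0 → x = 0 := by
    intro x hx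
    have : (2 : F) * x = 0 := by linear_combination hx
    exact (mul_eq_zero.1 this).resolve_left h2
  have hne : ∀ B : Matrix (Fin (m + 1)) (Fin (m + 1)) F, B ≠ 0 → B ≠ -B := by
    intro B hB h3
    apply hB
    ext i j
    have h4 := congrFun (congrFun h3 i) j
    rw [Matrix.neg_apply] at h4
    exact key _ (by linear_combination h4)
  rcases mul_self_eq_one_iff.1 hε with h3 | h3 <;> rcases mul_self_eq_one_iff.1 hδ with h4 | h4
  · rw [h3, h4]
  · subst h3; subst h4
    rw [Int.cast_one, one_smul, Int.cast_neg, Int.cast_one, neg_one_smul] at h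
    exact absurd h (hne A hA)
  · subst h3; subst h4
    rw [Int.cast_one, one_smul, Int.cast_neg, Int.cast_one, neg_one_smul] at h
    exact absurd h.symm (hne A hA)
  · rw [h3, h4]

lemma sl_ne_zero (x : SLm m F) : x.1 ≠ 0 := by
  intro h
  have h1 := x.2
  rw [h, Matrix.det_zero] at h1
  exact zero_ne_one h1

open Classical in
/-- the sign of the commutator -/
noncomputable def cg (x y : SLm m F) : ℤ := if x * y = y * x then 1 else -1

open Classical in
/-- the sign of the square -/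
noncomputable def qg (x : SLm m F) : ℤ := if x * x = 1 then 1 else -1

lemma cg_sq (x y : SLm m F) : cg x y * cg x y = 1 := by
  unfold cg
  split_ifs <;> norm_num

lemma qg_sq (x : SLm m F) : qg x * qg x = 1 := by
  unfold qg
  split_ifs <;> norm_num

lemma cg_symm (x y : SLm m F) : cg x y = cg y x := by
  unfold cg
  by_cases h : x * y = y * x
  · rw [if_pos h, if_pos h.symm]
  · rw [if_neg h, if_neg fun h1 => h h1.symm]

lemma cg_eq {x y : SLm m F} (h : x * y = y * x ∨ (x * y).1 = -(y * x).1) :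
    x.1 * y.1 = (cg x y : F) • (y.1 * x.1) := by
  unfold cg
  split_ifs with h1
  · rw [Int.cast_one, one_smul]
    exact congrArg Subtype.val h1
  · rw [Int.cast_neg, Int.cast_one, neg_one_smul]
    exact h.resolve_left h1

lemma qg_eq {x : SLm m F} (h : (x * x).1 = 1 ∨ (x * x).1 = -1) :
    x.1 * x.1 = (qg x : F) • (1 : Matrix (Fin (m + 1)) (Fin (m + 1)) F) := by
  unfold qg
  split_ifs with h1
  · rw [Int.cast_one, one_smul]
    exact congrArg Subtype.val h1
  · rw [Int.cast_neg, Int.cast_one, neg_one_smul]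
    exact h.resolve_left fun h2 => h1 (Subtype.ext h2)

lemma sg_eq {x y : SLm m F} (h : x.1 = y.1 ∨ x.1 = -y.1) : ∃ ε : ℤ, ε * ε = 1 ∧ x.1 = (ε : F) • y.1 := by
  rcases h with h | h
  · exact ⟨1, by norm_num, by rw [Int.cast_one, one_smul, h]⟩
  · exact ⟨-1, by norm_num, by rw [Int.cast_neg, Int.cast_one, neg_one_smul, h]⟩

/-- the two numerical conditions -/
theorem gauss {E : Type*} [Group E] [Fintype E] (h2 : (2 : F) ≠ 0) (t : E → SLm m F)
    (hT1 : ∀ e, (t e * t e).1 = 1 ∨ (t e * t e).1 = -1)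
    (hT2 : ∀ e f, t e * t f = t f * t e ∨ (t e * t f).1 = -(t f * t e).1)
    (hT3 : ∀ e f, (t (e * f)).1 = (t e * t f).1 ∨ (t (e * f)).1 = -(t e * t f).1)
    (hnd : ∀ f, f ≠ 1 → ∃ e, t e * t f ≠ t f * t e)
    (hE2 : ∀ e : E, e * e = 1) (hE : (Fintype.card E : F) ≠ 0) :
    (∃ S : ℤ, S ^ 2 = Fintype.card E) ∧ Fintype.card E ≤ (m + 1) * (m + 1) := by
  classical
  have hval : ∀ x y : SLm m F, (x * y).1 = x.1 * y.1 := fun _ _ => rfl
  have hc2 : ∀ e f, (t e).1 * (t f).1 = (cg (t e) (t f) : F) • ((t f).1 * (t e).1) :=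
    fun e f => cg_eq (hT2 e f)
  have hq : ∀ e, (t e).1 * (t e).1 = (qg (t e) : F) • (1 : Matrix (Fin (m + 1)) (Fin (m + 1)) F) :=
    fun e => qg_eq (hT1 e)
  have hinv : ∀ x : SLm m F, x.1 * (x⁻¹).1 = 1 := fun x => by
    rw [← hval, mul_inv_cancel]; rfl
  have hcm : ∀ f e, (t f).1 * (t e).1 * ((t f)⁻¹).1 = (cg (t f) (t e) : F) • (t e).1 := by
    intro f e
    rw [hc2, Matrix.smul_mul, mul_assoc, hinv, mul_one]
  have hinv' : ∀ x : SLm m F, (x⁻¹).1 * x.1 = 1 := fun x => by
    rw [← hval, inv_mul_cancel]; rfl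
  have h1c : ∀ e, t e * t 1 = t 1 * t e := by
    intro e
    obtain ⟨ε, hε, h3⟩ := sg_eq (hT3 1 1)
    rw [mul_one] at h3
    have h4 : (ε : F) • (t 1).1 = 1 := by
      have h5 : (1 : Matrix (Fin (m + 1)) (Fin (m + 1)) F) = ((t 1)⁻¹).1 * (t 1).1 := (hinv' _).symm
      rw [h5]
      conv_rhs => rw [h3]
      rw [Matrix.mul_smul, hval, ← mul_assoc, hinv', one_mul]
    have h5 : (t 1).1 = (ε : F) • 1 := by
      rw [← h4, smul_smul, ← Int.cast_mul, hε, Int.cast_one, one_smul]
    apply Subtype.ext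
    rw [hval, hval, h5, Matrix.mul_smul, Matrix.smul_mul, mul_one, one_mul]
  have hmul : ∀ f e e', cg (t f) (t (e * e')) = cg (t f) (t e) * cg (t f) (t e') := by
    intro f e e'
    obtain ⟨ε, hε, h3⟩ := sg_eq (hT3 e e')
    refine sgn_unique h2 (sl_ne_zero (t (e * e'))) (cg_sq _ _) ?_ ?_
    · have h4 := cg_sq (t f) (t e)
      have h5 := cg_sq (t f) (t e')
      calc _ = (cg (t f) (t e) * cg (t f) (t e)) * (cg (t f) (t e') * cg (t f) (t e')) := by ring
        _ = 1 := by rw [h4, h5, one_mul]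
    · rw [← hcm]
      conv_lhs => rw [h3]
      rw [h3, hval, Matrix.mul_smul, Matrix.smul_mul, smul_smul]
      have h4 : (t f).1 * ((t e).1 * (t e').1) * ((t f)⁻¹).1 =
          ((t f).1 * (t e).1 * ((t f)⁻¹).1) * ((t f).1 * (t e').1 * ((t f)⁻¹).1) := by
        have h5 := hinv' (t f)
        calc (t f).1 * ((t e).1 * (t e').1) * ((t f)⁻¹).1 =
            (t f).1 * (t e).1 * 1 * ((t e').1 * ((t f)⁻¹).1) := by
              simp only [mul_assoc, mul_one]
          _ = _ := by rw [← h5]; simp only [mul_assoc]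
      rw [h4, hcm, hcm, Matrix.smul_mul, Matrix.mul_smul, smul_smul, smul_smul]
      congr 1
      push_cast
      ring
  have hsum : ∀ f, f ≠ 1 → ∑ e, cg (t e) (t f) = 0 := by
    intro f hf
    obtain ⟨e₀, he₀⟩ := hnd f hf
    have h3 : cg (t e₀) (t f) = -1 := by
      unfold cg
      rw [if_neg he₀]
    have h4 : ∑ e, cg (t e) (t f) = ∑ e, cg (t (e₀ * e)) (t f) :=
      (Equiv.sum_comp (Equiv.mulLeft e₀) fun e => cg (t e) (t f)).symm
    have h5 : ∀ e, cg (t (e₀ * e)) (t f) = -cg (t e) (t f) := by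
      intro e
      rw [cg_symm, hmul, cg_symm _ (t e₀), h3, cg_symm _ (t e)]
      ring
    rw [Finset.sum_congr rfl fun e _ => h5 e, Finset.sum_neg_distrib] at h4
    omega
  refine ⟨⟨∑ e, qg (t e), sq_card (Q := fun e => qg (t e)) (c := fun e f => cg (t e) (t f))
    (fun e => qg_sq _) (fun e f => ?_) ?_ (fun e => ?_) hsum⟩, ?_⟩
  · obtain ⟨ε, hε, h3⟩ := sg_eq (hT3 e f)
    refine sgn_unique (F := F) (m := m) h2 (A := 1) one_ne_zero (qg_sq _) ?_ ?_
    · have h4 := cg_sq (t e) (t f)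
      have h5 := qg_sq (t e)
      have h6 := qg_sq (t f)
      calc _ = (cg (t e) (t f) * cg (t e) (t f)) * (qg (t e) * qg (t e)) * (qg (t f) * qg (t f)) := by
            ring
        _ = 1 := by rw [h4, h5, h6]; norm_num
    · rw [← hq, h3, hval, Matrix.mul_smul, Matrix.smul_mul, smul_smul]
      have h4 : (t e).1 * (t f).1 * ((t e).1 * (t f).1) =
          (cg (t e) (t f) : F) • (((t e).1 * (t e).1) * ((t f).1 * (t f).1)) := by
        have h5 : (t e).1 * (t f).1 * ((t e).1 * (t f).1) = (t e).1 * ((t f).1 * (t e).1) * (t f).1 := by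
          simp only [mul_assoc]
        rw [h5, hc2 f e, cg_symm, Matrix.mul_smul, Matrix.smul_mul]
        simp only [mul_assoc]
      rw [h4, hq, hq, Matrix.smul_mul, Matrix.mul_smul, smul_smul, smul_smul, smul_smul, one_mul]
      congr 1
      have h6 : (ε : F) * (ε : F) = 1 := by rw [← Int.cast_mul, hε, Int.cast_one]
      push_cast
      calc _ = ((ε : F) * (ε : F)) * ((cg (t e) (t f) : F) * (qg (t e) : F) * (qg (t f) : F)) := by
            ring
        _ = _ := by rw [h6, one_mul]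
  · have h3 : t 1 * t 1 = 1 := by
      obtain ⟨ε, hε, h3⟩ := sg_eq (hT3 1 1)
      rw [mul_one] at h3
      have h4 : (ε : F) • (t 1).1 = 1 := by
        have h5 : (1 : Matrix (Fin (m + 1)) (Fin (m + 1)) F) = ((t 1)⁻¹).1 * (t 1).1 := (hinv' _).symm
        rw [h5]
        conv_rhs => rw [h3]
        rw [Matrix.mul_smul, hval, ← mul_assoc, hinv', one_mul]
      apply Subtype.ext
      have h5 : (t 1 * t 1).1 = ((ε : F) • (t 1).1) * ((ε : F) • (t 1).1) := by
        rw [Matrix.mul_smul, Matrix.smul_mul, smul_smul, ← Int.cast_mul, hε, Int.cast_one, one_smul]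
        rfl
      rw [h5, h4, mul_one]
      rfl
    unfold qg
    rw [if_pos h3]
  · unfold cg
    rw [if_pos (h1c e)]
  · refine card_le_sq (t := fun e => (t e).1) (ti := fun e => ((t e)⁻¹).1) (fun e => hinv _)
      (c := fun f e => cg (t f) (t e)) hcm hmul (fun f e => cg_sq _ _) hE2 (fun e he => hsum e he) hE

end

end Vale.Agent.P240.H195
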