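import Mathlib.Algebra.CharP.Lemmas
import Mathlib.LinearAlgebra.Matrix.CharP
import Mathlib.LinearAlgebra.Matrix.Block
import Vale.Agent.P240.H195.RG4

/-!
Groups of special linear matrices that are elementary abelian modulo scalars, normalized by a regular
unipotent element.
-/

namespace Vale.Agent.P240.H195

open Subgroup Matrix

section
variable {F : Type*} [Field F] {m : ℕ}

lemma det_reg : (1 + Nm m F).det = 1 := by
  rw [Matrix.det_of_isLowerTriangular]
  · refine Finset.prod_eq_one fun i _ => ?_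
    rw [Matrix.add_apply, Matrix.one_apply_eq, Nm, Matrix.of_apply, if_neg (by omega), add_zero]
  · intro i j hij
    have hij' : i < j := hij
    rw [Matrix.add_apply, Matrix.one_apply_ne hij'.ne, Nm, Matrix.of_apply, if_neg, add_zero]
    have : i.val < j.val := hij'
    omega

/-- the regular unipotent element -/
def s0 (m : ℕ) (F : Type*) [Field F] : SLm m F := ⟨1 + Nm m F, det_reg⟩

lemma s0_val : (s0 m F).1 = 1 + Nm m F := rfl

lemma sl_pow_val (x : SLm m F) (k : ℕ) : (x ^ k).1 = x.1 ^ k := rfl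

lemma s0_pow {l : ℕ} [hl : Fact l.Prime] [CharP F l] (j : ℕ) :
    ((s0 m F) ^ l ^ j).1 = 1 + (Nm m F) ^ l ^ j := by
  rw [sl_pow_val, s0_val, add_pow_char_pow_of_commute _ _ (Commute.one_left _), one_pow]

lemma s0_pow_one {l : ℕ} [hl : Fact l.Prime] [CharP F l] : (s0 m F) ^ l ^ (m + 1) = 1 := by
  apply Subtype.ext
  rw [s0_pow]
  have h1 : m + 1 ≤ l ^ (m + 1) := (Nat.lt_pow_self hl.out.one_lt).le
  obtain ⟨d, hd⟩ := Nat.exists_eq_add_of_le h1
  rw [hd, pow_add, Nm_nil, zero_mul, add_zero]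
  rfl

lemma pow_odd_eq {G : Type*} [Group G] {c : G} (hc : c * c = 1) {N : ℕ} (hN : Odd N) : c ^ N = c := by
  obtain ⟨k, rfl⟩ := hN
  rw [pow_succ, pow_mul, sq, hc, one_pow, one_mul]

/-- an element of odd order inverts no sign -/
lemma odd_comm {G : Type*} [Group G] {s z c : G} {N : ℕ} (hN : Odd N) (hs : s ^ N = 1)
    (hc : c * c = 1) (hcs : s * c = c * s) (h : s * z * s⁻¹ = c * z) : c = 1 := by
  have key : ∀ i : ℕ, s ^ i * z * (s ^ i)⁻¹ = c ^ i * z := by
    intro i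
    induction i with
    | zero => simp
    | succ i ih =>
      have h1 : s * c ^ i = c ^ i * s := (Commute.pow_right (show Commute s c from hcs) i)
      calc s ^ (i + 1) * z * (s ^ (i + 1))⁻¹ = s * (s ^ i * z * (s ^ i)⁻¹) * s⁻¹ := by
            rw [pow_succ', _root_.mul_inv_rev]; group
        _ = s * c ^ i * z * s⁻¹ := by rw [ih]; group
        _ = c ^ i * (s * z * s⁻¹) := by rw [h1]; group
        _ = c ^ (i + 1) * z := by rw [h, pow_succ]; group
  have h1 := key N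
  rw [hs, one_mul, inv_one, mul_one, pow_odd_eq hc hN] at h1
  exact (mul_eq_right.1 h1.symm)

/-- an element of odd order inverts no sign -/
lemma odd_no_neg (ht : (2 : F) ≠ 0) {u x : SLm m F} {N : ℕ} (hN : Odd N) (hu : u ^ N = 1)
    (h : (u * x * u⁻¹).1 = -x.1) : False := by
  have hval : ∀ x y : SLm m F, (x * y).1 = x.1 * y.1 := fun _ _ => rfl
  have e2 : x.1 * (x⁻¹).1 = 1 := by
    rw [← hval, mul_inv_cancel]; rfl
  obtain ⟨c, hcdef⟩ : ∃ c : SLm m F, c = u * x * u⁻¹ * x⁻¹ := ⟨_, rfl⟩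
  have hc1 : c.1 = -1 := by rw [hcdef, hval _ x⁻¹, h, Matrix.neg_mul, e2]
  have hc2 : c * c = 1 := by
    apply Subtype.ext
    rw [hval, hc1, Matrix.neg_mul, Matrix.mul_neg, one_mul, neg_neg]
    rfl
  have hcs : u * c = c * u := by
    apply Subtype.ext
    rw [hval, hval, hc1, Matrix.neg_mul, Matrix.mul_neg, one_mul, mul_one]
  have h5 := odd_comm hN hu hc2 hcs (z := x) (by rw [hcdef]; group)
  rw [h5] at hc1
  have h6 : (1 : Matrix (Fin (m + 1)) (Fin (m + 1)) F) 0 0 =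
      (-1 : Matrix (Fin (m + 1)) (Fin (m + 1)) F) 0 0 := congrFun (congrFun hc1 0) 0
  rw [Matrix.neg_apply, Matrix.one_apply_eq] at h6
  exact ht (by linear_combination h6)

lemma pr_sg {x y : SLm m F} (h : x.1 = y.1 ∨ x.1 = -y.1) : pr m F x = pr m F y := by
  rcases h with h | h
  · rw [Subtype.ext h]
  · have h1 : (x * y⁻¹).1 = Matrix.scalar (Fin (m + 1)) (-1 : F) := by
      have h2 : (x * y⁻¹).1 = x.1 * (y⁻¹).1 := rfl
      have h3 : y.1 * (y⁻¹).1 = 1 := by
        have : (y * y⁻¹).1 = y.1 * (y⁻¹).1 := rfl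
        rw [← this, mul_inv_cancel]; rfl
      rw [h2, h, Matrix.neg_mul, h3, map_neg, map_one]
    have h2 : (-1 : F) ^ (m + 1) = 1 := by
      have h3 := (x * y⁻¹).2
      rw [h1, Matrix.scalar_apply, Matrix.det_diagonal, Finset.prod_const, Finset.card_univ,
        Fintype.card_fin] at h3
      exact h3
    have h3 : x * y⁻¹ ∈ center (SLm m F) := by
      rw [Matrix.SpecialLinearGroup.mem_center_iff]
      exact ⟨-1, by rwa [Fintype.card_fin], h1.symm⟩
    have h4 : pr m F (x * y⁻¹) = 1 := (QuotientGroup.eq_one_iff _).2 h3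
    rw [map_mul, map_inv, mul_inv_eq_one] at h4
    exact h4

lemma sg_of_pr (hc : ∀ c : F, c ^ (m + 1) = 1 → c = 1 ∨ c = -1) {x y : SLm m F}
    (h : pr m F x = pr m F y) : x.1 = y.1 ∨ x.1 = -y.1 := by
  obtain ⟨c, h1, h2⟩ := pr_eq_iff h
  rcases hc c h1 with rfl | rfl
  · left
    rw [h2, map_one, one_mul]
  · right
    rw [h2, map_neg, map_one, Matrix.neg_mul, one_mul]

/-- The data: a subgroup `P` of special linear matrices, elementary abelian modulo scalars, on which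
the regular unipotent element acts without nontrivial fixed points modulo scalars. -/
structure RegData (P : Subgroup (SLm m F)) : Prop where
  sq : ∀ x ∈ P, (x * x).1 = 1 ∨ (x * x).1 = -1
  comm : ∀ x ∈ P, ∀ y ∈ P, x * y = y * x ∨ (x * y).1 = -(y * x).1
  norm : s0 m F ∈ normalizer (P : Set (SLm m F))
  free : ∀ x ∈ P, s0 m F * x = x * s0 m F → x.1 = 1 ∨ x.1 = -1

variable [Finite F] {l : ℕ} [hl : Fact l.Prime] [CharP F l]

omit [Finite F] in
lemma two_ne (hl2 : l ≠ 2) : (2 : F) ≠ 0 := by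
  intro h
  have h1 : ((2 : ℕ) : F) = 0 := by exact_mod_cast h
  rw [CharP.cast_eq_zero_iff F l] at h1
  exact hl2 ((Nat.prime_dvd_prime_iff_eq hl.out Nat.prime_two).1 h1)

/-- the radical is trivial -/
lemma RegData.radical (hl2 : l ≠ 2) (hn : ((m + 1 : ℕ) : F) ≠ 0) {P : Subgroup (SLm m F)}
    (h : RegData P) {z : SLm m F} (hz : z ∈ P) (hzc : ∀ y ∈ P, z * y = y * z) :
    z.1 = 1 ∨ z.1 = -1 := by
  have h2 := two_ne (F := F) hl2
  have hodd : Odd (l ^ (m + 1)) := (hl.out.odd_of_ne_two hl2).pow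
  set s := s0 m F with hs
  have hsk : s ^ l ^ (m + 1) = 1 := s0_pow_one
  set Z : Subgroup (SLm m F) := P ⊓ centralizer (P : Set (SLm m F)) with hZ
  have hsZ : ∀ z ∈ Z, s * z * s⁻¹ ∈ Z := by
    intro z hz
    obtain ⟨hz1, hz2⟩ := mem_inf.1 hz
    refine mem_inf.2 ⟨(mem_normalizer_iff.1 h.norm z).1 hz1, ?_⟩
    rw [mem_centralizer_iff]
    intro y hy
    have h3 : s⁻¹ * y * s ∈ P := by
      have := (mem_normalizer_iff.1 (inv_mem h.norm) y).1 hy
      rwa [inv_inv] at this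
    have h4 := (mem_centralizer_iff.1 hz2) _ h3
    calc y * (s * z * s⁻¹) = s * ((s⁻¹ * y * s) * z) * s⁻¹ := by group
      _ = s * (z * (s⁻¹ * y * s)) * s⁻¹ := by rw [h4]
      _ = s * z * s⁻¹ * y := by group
  have hZc : ∀ z ∈ Z, ∀ w ∈ Z, z * w = w * z := fun z hz w hw =>
    ((mem_centralizer_iff.1 (mem_inf.1 hz).2) w (mem_inf.1 hw).1).symm
  have hkZ : ∀ z ∈ Z, s * z * s⁻¹ * z⁻¹ ∈ Z := fun z hz => mul_mem (hsZ z hz) (inv_mem hz)
  let κ : Z →* SLm m F :=
    { toFun := fun z => s * z.1 * s⁻¹ * (z.1)⁻¹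
      map_one' := by simp
      map_mul' := by
        intro z w
        have h3 := hZc _ (hkZ w.1 w.2) _ (inv_mem z.2)
        calc s * (z.1 * w.1) * s⁻¹ * (z.1 * w.1)⁻¹
            = (s * z.1 * s⁻¹) * ((s * w.1 * s⁻¹ * (w.1)⁻¹) * (z.1)⁻¹) := by group
          _ = _ := by rw [h3]; group }
  have hκ : ∀ z : Z, κ z = s * z.1 * s⁻¹ * (z.1)⁻¹ := fun z => rfl
  have hsign : ∀ z ∈ P, ∀ c : SLm m F, c = s * z * s⁻¹ * z⁻¹ → (c.1 = 1 ∨ c.1 = -1) → c = 1 := by
    intro z hz c hcz hc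
    rcases hc with hc | hc
    · exact Subtype.ext hc
    · have hc2 : c * c = 1 := by
        apply Subtype.ext
        have : (c * c).1 = c.1 * c.1 := rfl
        rw [this, hc, Matrix.neg_mul, Matrix.mul_neg, one_mul, neg_neg]
        rfl
      have hcs : s * c = c * s := by
        apply Subtype.ext
        have e1 : (s * c).1 = s.1 * c.1 := rfl
        have e2 : (c * s).1 = c.1 * s.1 := rfl
        rw [e1, e2, hc, Matrix.neg_mul, Matrix.mul_neg, one_mul, mul_one]
      exact odd_comm hodd hsk hc2 hcs (z := z) (by rw [hcz]; group)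
  have hC : κ.range = ⊥ := by
    refine reg_abelian hn hsk ?_ ?_ ?_ ?_ ?_
    · rw [hs, s0_val, add_sub_cancel_left]
      exact Nm_isNil
    · rw [hs, s0_val, add_sub_cancel_left]
      exact fun u w hu hw hu0 => Nm_ker hu hw hu0
    · have hp2 : IsPGroup 2 Z := by
        intro z
        refine ⟨2, ?_⟩
        apply Subtype.ext
        apply Subtype.ext
        have e1 : ((z ^ 2 ^ 2 : Z) : SLm m F) = (z.1 * z.1) * (z.1 * z.1) := by
          have : ((z ^ 2 ^ 2 : Z) : SLm m F) = z.1 ^ (2 * 2) := rfl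
          rw [this, pow_mul, _root_.sq, _root_.sq]
        rw [e1]
        have e2 : ((z.1 * z.1) * (z.1 * z.1)).1 = (z.1 * z.1).1 * (z.1 * z.1).1 := rfl
        rw [e2]
        rcases h.sq z.1 (mem_inf.1 z.2).1 with h3 | h3
        · rw [h3, one_mul]; rfl
        · rw [h3, Matrix.neg_mul, Matrix.mul_neg, one_mul, neg_neg]; rfl
      have hr2 : IsPGroup 2 κ.range := hp2.of_surjective κ.rangeRestrict κ.rangeRestrict_surjective
      obtain ⟨r, hr⟩ := IsPGroup.iff_card.1 hr2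
      rw [hr]
      push_cast
      exact pow_ne_zero _ h2
    · rintro _ ⟨z, rfl⟩
      refine ⟨⟨s * z.1 * s⁻¹, hsZ z.1 z.2⟩, ?_⟩
      rw [hκ, hκ]
      group
    · rintro _ ⟨z, rfl⟩ hc
      have h3 : κ z ∈ P := by
        rw [hκ]
        exact (mem_inf.1 (hkZ z.1 z.2)).1
      exact hsign z.1 (mem_inf.1 z.2).1 _ (hκ z) (h.free _ h3 hc)
  have hzZ : z ∈ Z := by
    refine mem_inf.2 ⟨hz, ?_⟩
    rw [mem_centralizer_iff]
    exact fun y hy => (hzc y hy).symm
  have h3 : κ ⟨z, hzZ⟩ = 1 := by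
    have : κ ⟨z, hzZ⟩ ∈ κ.range := ⟨_, rfl⟩
    rwa [hC, Subgroup.mem_bot] at this
  rw [hκ] at h3
  refine h.free z hz ?_
  rw [mul_inv_eq_one] at h3
  exact (mul_inv_eq_iff_eq_mul.1 h3)

omit [Finite F] in
/-- the odd-dimensional kernel -/
lemma no_anti (hl2 : l ≠ 2) {j : ℕ} (hj : l ^ j ≤ m + 1) {a b : SLm m F}
    (ha : (s0 m F) ^ l ^ j * a = a * (s0 m F) ^ l ^ j)
    (hb : (s0 m F) ^ l ^ j * b = b * (s0 m F) ^ l ^ j) (hab : (a * b).1 = -(b * a).1) : False := by
  have h2 := two_ne (F := F) hl2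
  set N := (Nm m F) ^ l ^ j with hN
  have hcomm : ∀ x : SLm m F, (s0 m F) ^ l ^ j * x = x * (s0 m F) ^ l ^ j → N * x.1 = x.1 * N := by
    intro x hx
    have h3 := congrArg Subtype.val hx
    have e1 : ((s0 m F) ^ l ^ j * x).1 = ((s0 m F) ^ l ^ j).1 * x.1 := rfl
    have e2 : (x * (s0 m F) ^ l ^ j).1 = x.1 * ((s0 m F) ^ l ^ j).1 := rfl
    rw [e1, e2, s0_pow, add_mul, mul_add, one_mul, mul_one] at h3
    exact add_left_cancel h3
  set K := LinearMap.ker (Matrix.toLin' N) with hK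
  have hmap : ∀ x : SLm m F, (s0 m F) ^ l ^ j * x = x * (s0 m F) ^ l ^ j →
      ∀ v ∈ K, Matrix.toLin' x.1 v ∈ K := by
    intro x hx v hv
    rw [hK, LinearMap.mem_ker] at hv ⊢
    have h3 : Matrix.toLin' N (Matrix.toLin' x.1 v) = Matrix.toLin' (N * x.1) v := by
      rw [Matrix.toLin'_mul]
      rfl
    rw [h3, hcomm x hx, Matrix.toLin'_mul, LinearMap.comp_apply, hv, map_zero]
  have hinj : ∀ x : SLm m F, Function.Injective (Matrix.toLin' x.1) := by
    intro x v w hvw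
    have h3 : (x⁻¹).1 * x.1 = 1 := by
      have : (x⁻¹ * x).1 = (x⁻¹).1 * x.1 := rfl
      rw [← this, inv_mul_cancel]; rfl
    have h4 := congrArg (Matrix.toLin' (x⁻¹).1) hvw
    rw [← LinearMap.comp_apply, ← LinearMap.comp_apply, ← Matrix.toLin'_mul, h3,
      Matrix.toLin'_one] at h4
    exact h4
  have hev := even_finrank (V := K) h2
    (a := (Matrix.toLin' a.1).restrict (hmap a ha)) (b := (Matrix.toLin' b.1).restrict (hmap b hb))
    (by
      apply LinearMap.ext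
      intro v
      apply Subtype.ext
      have e1 : a.1 * b.1 = -(b.1 * a.1) := hab
      have e2 : Matrix.toLin' (a.1 * b.1) v.1 = -(Matrix.toLin' (b.1 * a.1) v.1) := by
        rw [e1, map_neg]
        rfl
      rw [Matrix.toLin'_mul, Matrix.toLin'_mul] at e2
      exact e2)
    (fun v w hvw => Subtype.ext (hinj a (congrArg Subtype.val hvw)))
    (fun v w hvw => Subtype.ext (hinj b (congrArg Subtype.val hvw)))
  rw [hK, hN, finrank_ker_Nm hj] at hev
  have hodd : Odd (l ^ j) := (hl.out.odd_of_ne_two hl2).pow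
  exact (Nat.not_even_iff_odd.2 hodd) hev

end

end Vale.Agent.P240.H195
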