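import Vale.Agent.P240.H195.RG5

/-!
The regular unipotent element normalizes no elementary abelian `2`-subgroup of `PSL_n(F)` on which it
acts without fixed points.
-/

namespace Vale.Agent.P240.H195

open Subgroup Matrix

/-- arithmetic: powers of an odd prime dividing `(2 ^ b - 1) * (2 ^ b + 1)` -/
lemma pow_le_of_dvd {l : ℕ} [hl : Fact l.Prime] (hl2 : l ≠ 2) {b j : ℕ} (hb : 1 ≤ b)
    (h : l ^ j ∣ 2 ^ b * 2 ^ b - 1) : l ^ j ≤ 2 ^ b + 1 := by
  have h2 : 2 ≤ 2 ^ b := by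
    calc 2 = 2 ^ 1 := rfl
      _ ≤ 2 ^ b := Nat.pow_le_pow_right (by norm_num) hb
  set n := 2 ^ b with hn
  have h3 : n * n - 1 = (n + 1) * (n - 1) := by
    have := Nat.mul_self_sub_mul_self_eq n 1
    rwa [mul_one] at this
  rw [h3] at h
  by_cases h4 : l ∣ n - 1
  · have h5 : ¬ l ∣ n + 1 := by
      intro h5
      have h6 := (Nat.dvd_add_right h4).1 (show l ∣ (n - 1) + 2 by
        have : (n - 1) + 2 = n + 1 := by omega
        rwa [this])
      exact hl2 ((Nat.prime_dvd_prime_iff_eq hl.out Nat.prime_two).1 h6)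
    have h6 : (l ^ j).Coprime (n + 1) := (hl.out.coprime_iff_not_dvd.2 h5).pow_left j
    have h7 := Nat.le_of_dvd (by omega) (h6.dvd_of_dvd_mul_left h)
    omega
  · have h6 : (l ^ j).Coprime (n - 1) := (hl.out.coprime_iff_not_dvd.2 h4).pow_left j
    exact Nat.le_of_dvd (by omega) (h6.dvd_of_dvd_mul_right h)

section
variable {F : Type*} [Field F] {m : ℕ} [Finite F] {l : ℕ} [hl : Fact l.Prime] [CharP F l]

/-- the minimal step: all elements of `P` commute with `s ^ l ^ (i + 1)`, and only the trivial ones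
commute with `s ^ l ^ i` -/
lemma RegData.step (hl2 : l ≠ 2) {a : ℕ} (ha : m + 1 = 2 ^ a) (hex : ∀ j, l ^ j ≠ m + 2)
    (hc : ∀ c : F, c ^ (m + 1) = 1 → c = 1 ∨ c = -1) {P : Subgroup (SLm m F)} (h : RegData P)
    {i : ℕ} (h1 : ∀ x ∈ P, (s0 m F) ^ l ^ (i + 1) * x = x * (s0 m F) ^ l ^ (i + 1))
    (h2 : ∀ x ∈ P, (s0 m F) ^ l ^ i * x = x * (s0 m F) ^ l ^ i → x.1 = 1 ∨ x.1 = -1) :
    ∀ x ∈ P, x.1 = 1 ∨ x.1 = -1 := by
  classical
  by_contra hcon
  push Not at hcon
  obtain ⟨x₀, hx₀, hx1, hx2⟩ := hcon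
  have ht := two_ne (F := F) hl2
  have hn : ((m + 1 : ℕ) : F) ≠ 0 := by
    rw [ha]
    push_cast
    exact pow_ne_zero _ ht
  have hrad : ∀ z ∈ P, (∀ y ∈ P, z * y = y * z) → z.1 = 1 ∨ z.1 = -1 :=
    fun z hz hzc => h.radical hl2 hn hz hzc
  set E : Subgroup (PL m F) := P.map (pr m F) with hE
  have hlift : ∀ e : E, ∃ x ∈ P, pr m F x = e.1 := fun e => e.2
  choose T hTP hT using hlift
  have hTx : ∀ x (hx : x ∈ P), (T ⟨pr m F x, ⟨x, hx, rfl⟩⟩).1 = x.1 ∨
      (T ⟨pr m F x, ⟨x, hx, rfl⟩⟩).1 = -x.1 := fun x hx => sg_of_pr hc (hT _)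
  have hval : ∀ x y : SLm m F, (x * y).1 = x.1 * y.1 := fun _ _ => rfl
  have hone : ∀ x : SLm m F, (x.1 = 1 ∨ x.1 = -1) → pr m F x = 1 := by
    intro x hx
    rw [← map_one (pr m F)]
    exact pr_sg hx
  have hTone : ∀ e : E, ((T e).1 = 1 ∨ (T e).1 = -1) → e = 1 := by
    intro e he
    apply Subtype.ext
    rw [← hT e, hone _ he]
    rfl
  have hcommT : ∀ z x : SLm m F, ∀ y : SLm m F, (x.1 = y.1 ∨ x.1 = -y.1) → z * x = x * z →
      z * y = y * z := by
    intro z x y hxy hzx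
    have h3 := congrArg Subtype.val hzx
    rw [hval, hval] at h3
    apply Subtype.ext
    rw [hval, hval]
    rcases hxy with h4 | h4
    · rwa [h4] at h3
    · rw [h4, Matrix.mul_neg, Matrix.neg_mul] at h3
      exact neg_injective h3
  have hnd : ∀ f : E, f ≠ 1 → ∃ e, T e * T f ≠ T f * T e := by
    intro f hf
    by_contra hcon
    push Not at hcon
    apply hf
    apply hTone
    refine hrad _ (hTP f) fun y hy => ?_
    exact hcommT (T f) _ y (hTx y hy) (hcon _).symm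
  have hE2 : ∀ e : E, e * e = 1 := by
    intro e
    apply Subtype.ext
    change (e.1 * e.1 : PL m F) = 1
    rw [← hT e, ← map_mul]
    exact hone _ (h.sq _ (hTP e))
  have hne : Nontrivial E := by
    refine ⟨⟨pr m F x₀, ⟨x₀, hx₀, rfl⟩⟩, 1, fun h3 => ?_⟩
    have h4 : pr m F x₀ = pr m F 1 := by
      rw [map_one]
      exact congrArg Subtype.val h3
    rcases sg_of_pr hc h4 with h5 | h5
    · exact hx1 h5
    · exact hx2 h5
  have : Fintype E := Fintype.ofFinite E
  have hp2 : IsPGroup 2 E := fun e => ⟨1, by rw [pow_one, _root_.sq, hE2]⟩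
  obtain ⟨r, hr⟩ := IsPGroup.iff_card.1 hp2
  rw [Nat.card_eq_fintype_card] at hr
  obtain ⟨⟨S, hS⟩, hle⟩ := gauss ht T (fun e => h.sq _ (hTP e))
    (fun e f => h.comm _ (hTP e) _ (hTP f))
    (fun e f => sg_of_pr hc (by rw [hT, map_mul, hT, hT]; rfl)) hnd hE2 (by
      rw [hr]
      push_cast
      exact pow_ne_zero _ ht)
  -- the order is `(2 ^ b) ^ 2`
  obtain ⟨b, hb⟩ : ∃ b, Fintype.card E = 2 ^ b * 2 ^ b := by
    have h3 : S.natAbs * S.natAbs = Fintype.card E := by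
      have h4 : ((S.natAbs * S.natAbs : ℕ) : ℤ) = Fintype.card E := by
        rw [Nat.cast_mul, Int.natAbs_mul_self', ← _root_.sq, hS]
      exact_mod_cast h4
    have h4 : S.natAbs ∣ 2 ^ r := by
      rw [← hr, ← h3]
      exact Dvd.intro _ rfl
    obtain ⟨b, -, hb⟩ := (Nat.dvd_prime_pow Nat.prime_two).1 h4
    exact ⟨b, by rw [← h3, hb]⟩
  have hb1 : 1 ≤ b := by
    by_contra hb0
    have : b = 0 := by omega
    subst this
    rw [pow_zero, mul_one] at hb
    exact absurd Fintype.one_lt_card (by rw [hb]; exact lt_irrefl _)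
  have hbm : 2 ^ b ≤ m + 1 := by
    rw [hb] at hle
    exact Nat.mul_self_le_mul_self_iff.1 hle
  -- the action of `s`
  set s := s0 m F with hs
  have hsE : ∀ e ∈ E, pr m F s * e * (pr m F s)⁻¹ ∈ E := by
    rintro _ ⟨x, hx, rfl⟩
    exact ⟨s * x * s⁻¹, (mem_normalizer_iff.1 h.norm x).1 hx, by simp⟩
  have hsE' : ∀ e ∈ E, (pr m F s)⁻¹ * e * pr m F s ∈ E := by
    rintro _ ⟨x, hx, rfl⟩
    refine ⟨s⁻¹ * x * s, ?_, by simp⟩
    have := (mem_normalizer_iff.1 (inv_mem h.norm) x).1 hx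
    rwa [inv_inv] at this
  let σ : Equiv.Perm {e : E // e ≠ 1} :=
    { toFun := fun e => ⟨⟨pr m F s * e.1.1 * (pr m F s)⁻¹, hsE _ e.1.2⟩, fun h3 => e.2 (by
        apply Subtype.ext
        have h4 := congrArg Subtype.val h3
        change pr m F s * e.1.1 * (pr m F s)⁻¹ = 1 at h4
        rw [mul_inv_eq_one, mul_eq_left] at h4
        exact h4)⟩
      invFun := fun e => ⟨⟨(pr m F s)⁻¹ * e.1.1 * pr m F s, hsE' _ e.1.2⟩, fun h3 => e.2 (by
        apply Subtype.ext
        have h4 := congrArg Subtype.val h3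
        change (pr m F s)⁻¹ * e.1.1 * pr m F s = 1 at h4
        rw [mul_assoc, inv_mul_eq_one] at h4
        exact (mul_eq_right.1 h4.symm))⟩
      left_inv := fun e => by
        apply Subtype.ext
        apply Subtype.ext
        change (pr m F s)⁻¹ * (pr m F s * e.1.1 * (pr m F s)⁻¹) * pr m F s = e.1.1
        group
      right_inv := fun e => by
        apply Subtype.ext
        apply Subtype.ext
        change pr m F s * ((pr m F s)⁻¹ * e.1.1 * pr m F s) * (pr m F s)⁻¹ = e.1.1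
        group }
  have hσ : ∀ (k : ℕ) (e : {e : E // e ≠ 1}), ((σ ^ k) e).1.1 =
      pr m F (s ^ k) * e.1.1 * (pr m F (s ^ k))⁻¹ := by
    intro k
    induction k with
    | zero => intro e; simp
    | succ k ih =>
      intro e
      rw [pow_succ', Equiv.Perm.mul_apply]
      change pr m F s * ((σ ^ k) e).1.1 * (pr m F s)⁻¹ = _
      rw [ih, pow_succ', map_mul]
      group
  have hper := dvd_card_of_period (l := l) (j := i) σ (by
      ext e
      rw [hσ, Equiv.Perm.one_apply]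
      obtain ⟨x, hx, hxe⟩ := e.1.2
      rw [← hxe, ← map_mul, h1 x hx, map_mul]
      group) (by
      intro e he
      have h3 := congrArg (fun e : {e : E // e ≠ 1} => e.1.1) he
      simp only [hσ] at h3
      rw [← hT e.1, ← map_mul, ← map_inv, ← map_mul] at h3
      apply e.2
      apply hTone
      refine h2 _ (hTP _) ?_
      rcases sg_of_pr hc h3 with h4 | h4
      · exact mul_inv_eq_iff_eq_mul.1 (show s ^ l ^ i * T e.1 * (s ^ l ^ i)⁻¹ = T e.1 from
          Subtype.ext h4)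
      · refine (odd_no_neg ht (u := s ^ l ^ i) (x := T e.1) (N := l ^ (m + 1))
          (hl.out.odd_of_ne_two hl2).pow ?_ h4).elim
        rw [← pow_mul, mul_comm, pow_mul, s0_pow_one, one_pow])
  have hcard : Fintype.card {e : E // e ≠ 1} = 2 ^ b * 2 ^ b - 1 := by
    rw [Fintype.card_subtype_compl, hb, Fintype.card_subtype_eq]
  rw [hcard] at hper
  have hle2 := pow_le_of_dvd hl2 hb1 hper
  have hlm : l ^ (i + 1) ≤ m + 1 := by
    have := hex (i + 1)
    omega
  obtain ⟨f, hf⟩ := exists_ne (1 : E)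
  obtain ⟨e, he⟩ := hnd f hf
  exact no_anti hl2 hlm (h1 _ (hTP e)) (h1 _ (hTP f))
    ((h.comm _ (hTP e) _ (hTP f)).resolve_left he)

/-- **The main step.** -/
theorem RegData.trivial (hl2 : l ≠ 2) {a : ℕ} (ha : m + 1 = 2 ^ a) (hex : ∀ j, l ^ j ≠ m + 2)
    (hc : ∀ c : F, c ^ (m + 1) = 1 → c = 1 ∨ c = -1) {P : Subgroup (SLm m F)} (h : RegData P) :
    ∀ x ∈ P, x.1 = 1 ∨ x.1 = -1 := by
  classical
  by_contra hcon
  push Not at hcon
  obtain ⟨x₀, hx₀, hx1, hx2⟩ := hcon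
  have hexj : ∃ j, ∃ x ∈ P, ¬ (x.1 = 1 ∨ x.1 = -1) ∧
      (s0 m F) ^ l ^ j * x = x * (s0 m F) ^ l ^ j :=
    ⟨m + 1, x₀, hx₀, fun h3 => h3.elim hx1 hx2, by rw [s0_pow_one, one_mul, mul_one]⟩
  have h0 : Nat.find hexj ≠ 0 := by
    intro h0
    obtain ⟨x, hx, hx3, hx4⟩ := Nat.find_spec hexj
    rw [h0, pow_zero, pow_one] at hx4
    exact hx3 (h.free x hx hx4)
  obtain ⟨i, hi⟩ := Nat.exists_eq_succ_of_ne_zero h0
  obtain ⟨x, hx, hx3, hx4⟩ := Nat.find_spec hexj
  rw [hi] at hx4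
  have hmin : ∀ x ∈ P, (s0 m F) ^ l ^ i * x = x * (s0 m F) ^ l ^ i → x.1 = 1 ∨ x.1 = -1 := by
    intro y hy hy2
    by_contra hy3
    exact Nat.find_min hexj (m := i) (by omega) ⟨y, hy, hy3, hy2⟩
  set t := (s0 m F) ^ l ^ (i + 1) with ht
  have hst : s0 m F * t = t * s0 m F := (Commute.self_pow _ _)
  have h' : RegData (P ⊓ centralizer {t}) :=
    { sq := fun x hx => h.sq x hx.1
      comm := fun x hx y hy => h.comm x hx.1 y hy.1
      free := fun x hx => h.free x hx.1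
      norm := by
        have hN : s0 m F ∈ normalizer ((centralizer {t} : Subgroup (SLm m F)) : Set (SLm m F)) :=
          le_normalizer (by
            rw [mem_centralizer_iff]
            intro y hy
            rw [Set.mem_singleton_iff.1 hy, hst])
        rw [mem_normalizer_iff]
        intro y
        rw [mem_inf, mem_inf, (mem_normalizer_iff.1 h.norm y), (mem_normalizer_iff.1 hN y)] }
  have hx5 := h'.step hl2 ha hex hc (i := i)
    (fun x hx => (mem_centralizer_iff.1 (mem_inf.1 hx).2) t rfl)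
    (fun x hx => hmin x (mem_inf.1 hx).1) x (mem_inf.2 ⟨hx, by
      rw [mem_centralizer_iff]
      intro y hy
      rw [Set.mem_singleton_iff.1 hy]
      exact hx4⟩)
  exact hx3 hx5

end

end Vale.Agent.P240.H195
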