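import Vale.Agent.P240.H195.SL7

/-!
The BN-pair of the special linear group, part 8: `RigidLie p` for `PSL_n(F)`, `char F = p`.
-/

namespace Vale.Agent.P240.H195

open Subgroup Vale.Agent.P240.K

section
variable {F : Type*} [Field F] {m : ℕ}

lemma pr_inj_tx {a b : Fin (m + 1)} (h : a ≠ b) {c d : F}
    (he : pr m F (tx h c) = pr m F (tx h d)) : c = d := by
  have h1 : pr m F (tx h (c - d)) = 1 := by
    have h2 : tx h (c - d) = tx h c * (tx h d)⁻¹ := by rw [tx_inv, tx_mul_tx, sub_eq_add_neg]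
    rw [h2, map_mul, map_inv, he, mul_inv_cancel]
  have h2 : tx h (c - d) ∈ center (SLm m F) := (QuotientGroup.eq_one_iff _).1 h1
  exact sub_eq_zero.1 ((Matrix.SpecialLinearGroup.transvection_mem_center_iff h _).1 h2)

variable [Finite F]

/-- minimal parabolic subgroups -/
def MP (j : Fin m) : Subgroup (SLm m F) :=
  sgp (fun A => ∀ u v, v < u → ¬ (u = j.succ ∧ v = j.castSucc) → A.1 u v = 0)
    (fun u v h _ => up_one u v h) (by
      intro A B hA hB u v huv hne
      rw [sl_mul]
      refine Finset.sum_eq_zero fun k _ => ?_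
      by_cases h1 : k < u ∧ ¬ (u = j.succ ∧ k = j.castSucc)
      · rw [hA u k h1.1 h1.2, zero_mul]
      · by_cases h2 : v < k ∧ ¬ (k = j.succ ∧ v = j.castSucc)
        · rw [hB k v h2.1 h2.2, mul_zero]
        · exfalso
          simp only [Fin.ext_iff, Fin.lt_def, Fin.val_castSucc, Fin.val_succ] at *
          omega)

lemma mem_MP {j : Fin m} {A : SLm m F} :
    A ∈ MP j ↔ ∀ u v, v < u → ¬ (u = j.succ ∧ v = j.castSucc) → A.1 u v = 0 := Iff.rfl

lemma BU_le_MP (j : Fin m) : BU m F ≤ MP j := fun _ hA u v huv _ => hA u v huv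

omit [Finite F] in
lemma diag2n_mon {i j : Fin (m + 1)} (hij : i ≠ j) {a : F} (ha : a ≠ 0) :
    Mon (Matrix.SpecialLinearGroup.diag2n hij a ha) 1 := by
  intro u v huv
  by_contra hne
  apply huv
  rw [Matrix.SpecialLinearGroup.diag2n_coe, Matrix.diagonal_apply_ne]
  exact hne

lemma diag2n_conj {i j : Fin (m + 1)} (hij : i ≠ j) {a : F} (ha : a ≠ 0) (c : F) :
    Matrix.SpecialLinearGroup.diag2n hij a ha * tx hij c *
      (Matrix.SpecialLinearGroup.diag2n hij a ha)⁻¹ = tx hij (a ^ 2 * c) := by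
  rw [mon_conj_tx (diag2n_mon hij ha) hij hij]
  congr 1
  rw [Equiv.Perm.one_apply, Equiv.Perm.one_apply, Matrix.SpecialLinearGroup.diag2n_coe,
    Matrix.diagonal_apply_eq, Matrix.diagonal_apply_eq, if_pos rfl, if_neg hij.symm, if_pos rfl,
    inv_inv]
  ring

theorem psl_rigid {p : ℕ} [hp : Fact p.Prime] [CharP F p] (hm : 0 < m)
    (hsimple : IsSimpleGroup (PL m F)) :
    RigidBN p ((BU m F).map (pr m F)) ((NM m F).map (pr m F)) ((UU m F).map (pr m F))
      (pr m F '' SS m F) where
  toSB := psl_SB hm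
  comm := by
    have hdiag : ∀ {x y : SLm m F}, Mon x 1 → Mon y 1 → x * y = y * x := by
      intro x y hx hy
      refine sl_ext fun i j => ?_
      have hxy := mon_mul hx hy
      have hyx := mon_mul hy hx
      rw [mul_one] at hxy hyx
      by_cases hij : i = j
      · subst hij
        rw [up_mul_diag (mem_T' hx) (mem_T' hy), up_mul_diag (mem_T' hy) (mem_T' hx), mul_comm]
      · rw [mon_eq hxy (by rw [Equiv.Perm.one_apply]; exact hij),
          mon_eq hyx (by rw [Equiv.Perm.one_apply]; exact hij)]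
    intro x hxB hxN y hyB hyN
    obtain ⟨x, rfl⟩ := QuotientGroup.mk'_surjective _ x
    obtain ⟨y, rfl⟩ := QuotientGroup.mk'_surjective _ y
    have hB : ∀ x, pr m F x ∈ (BU m F).map (pr m F) ↔ x ∈ BU m F :=
      fun x => map_mem_iff fun k hk' => (pr_eq_one hk').1
    have hN : ∀ x, pr m F x ∈ (NM m F).map (pr m F) ↔ x ∈ NM m F :=
      fun x => map_mem_iff fun k hk' => (pr_eq_one hk').2.1
    rw [← map_mul, ← map_mul, hdiag (mem_T.1 (mem_inf.2 ⟨(hB x).1 hxB, (hN x).1 hxN⟩))
      (mem_T.1 (mem_inf.2 ⟨(hB y).1 hyB, (hN y).1 hyN⟩))]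
  rigid := by
    classical
    have h := psl_SB (F := F) (p := p) hm
    have hr := hp.out
    have hB : ∀ x, pr m F x ∈ (BU m F).map (pr m F) ↔ x ∈ BU m F :=
      fun x => map_mem_iff fun k hk' => (pr_eq_one hk').1
    intro n hnN hopp f hfp hfQ hfC hfT
    have hnN' := hnN
    obtain ⟨n₀, ⟨σ, hσ⟩, rfl⟩ := hnN
    set n := pr m F n₀ with hn
    -- `σ` reverses the order
    have hanti : ∀ {a b}, a < b → σ b < σ a := by
      intro a b hab
      by_contra hcon
      have hlt : σ a < σ b := lt_of_le_of_ne (not_lt.1 hcon) fun h1 => hab.ne (σ.injective h1)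
      have h1 : pr m F (tx hab.ne 1) ∈ (UU m F).map (pr m F) :=
        ⟨_, ⟨tx_up hab 1, tx_diag hab.ne 1⟩, rfl⟩
      have h2 : n * pr m F (tx hab.ne 1) * n⁻¹ ∈ (UU m F).map (pr m F) := by
        rw [hn, ← map_inv, ← map_mul, ← map_mul, mon_conj_tx hσ hab.ne hlt.ne]
        exact ⟨_, ⟨tx_up hlt _, tx_diag hlt.ne _⟩, rfl⟩
      have h3 := hopp _ h1 h2
      have h4 : pr m F (tx hab.ne 1) = pr m F (tx hab.ne 0) := by
        rw [h3, tx_zero, map_one]
      exact one_ne_zero (pr_inj_tx hab.ne h4)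
    have hrev : ∀ a, σ a = Fin.rev a := by
      have hmono : StrictMono fun a => Fin.rev (σ a) := fun a b hab => Fin.rev_lt_rev.2 (hanti hab)
      have hid := (StrictMono.range_inj hmono strictMono_id).1 (by
        rw [Set.range_id, Set.range_eq_univ]
        exact fun y => ⟨σ.symm (Fin.rev y), by simp⟩)
      intro a
      have := congrFun hid a
      simp only [id_eq] at this
      calc σ a = Fin.rev (Fin.rev (σ a)) := (Fin.rev_rev _).symm
        _ = Fin.rev a := by rw [this]
    -- the automorphism `e = n⁻¹ f n`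
    obtain ⟨e, hedef⟩ : ∃ e : MulAut (PL m F), e = (MulAut.conj n)⁻¹ * f * MulAut.conj n := ⟨_, rfl⟩
    have he : ∀ y, e y = n⁻¹ * f (n * y * n⁻¹) * n := by
      intro y
      rw [hedef, MulAut.mul_apply, MulAut.mul_apply, MulAut.conj_apply, MulAut.conj_inv_apply]
    have hep : e ^ p = 1 := by
      have h1 := conj_pow (i := p) (a := (MulAut.conj n)⁻¹) (b := f)
      rw [inv_inv] at h1
      rw [hedef, h1, hfp, mul_one, inv_mul_cancel]
    have heB : am e ((BU m F).map (pr m F)) = (BU m F).map (pr m F) := by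
      have h1 : am f (am (MulAut.conj n) ((BU m F).map (pr m F))) =
        am (MulAut.conj n) ((BU m F).map (pr m F)) := hfC
      rw [hedef, am_mul, am_mul, h1, ← am_mul, inv_mul_cancel, am_one]
    have hopp' : ∀ x ∈ (UU m F).map (pr m F), n⁻¹ * x * n⁻¹⁻¹ ∈ (UU m F).map (pr m F) → x = 1 := by
      intro x hx hnx
      have h1 := hopp _ hnx (by
        have : n * (n⁻¹ * x * n⁻¹⁻¹) * n⁻¹ = x := by group
        rwa [this])
      have : x = n * (n⁻¹ * x * n⁻¹⁻¹) * n⁻¹ := by group
      rw [this, h1]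
      group
    have heopp : am e (cj n⁻¹ ((BU m F).map (pr m F))) = cj n⁻¹ ((BU m F).map (pr m F)) := by
      have h1 : am f ((BU m F).map (pr m F)) = (BU m F).map (pr m F) := hfQ _ le_rfl
      rw [← am_conj, ← am_mul, hedef]
      have h2 : (MulAut.conj n)⁻¹ * f * MulAut.conj n * MulAut.conj n⁻¹ =
          (MulAut.conj n)⁻¹ * f := by
        rw [map_inv]; group
      rw [h2, am_mul, h1, map_inv]
    have heT : ∀ t : SLm m F, Mon t 1 → e (pr m F t) = pr m F t := by
      intro t ht
      have h1 : Mon (n₀ * t * n₀⁻¹) 1 := by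
        have := mon_mul (mon_mul hσ ht) (mon_inv hσ)
        rwa [mul_one, mul_inv_cancel] at this
      have h2 := mem_inf.1 (mem_T.2 h1)
      rw [he, hn, ← map_inv, ← map_mul, ← map_mul, hfT _ ⟨_, h2.1, rfl⟩ ⟨_, h2.2, rfl⟩,
        ← map_mul, ← map_mul]
      congr 1
      group
    -- the action on the simple root subgroups
    have hroot : ∀ (i : Fin m) (c : F), ∃ d : F, e (pr m F (tx (cs_ne i) c)) =
        pr m F (tx (cs_ne i) d) := by
      intro i c
      set j := Fin.rev i with hj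
      have e1 : σ i.castSucc = j.succ := by rw [hrev, Fin.rev_castSucc]
      have e2 : σ i.succ = j.castSucc := by rw [hrev, Fin.rev_succ]
      have hne : σ i.castSucc ≠ σ i.succ := fun h1 => cs_ne i (σ.injective h1)
      have h1 : e (pr m F (tx (cs_ne i) c)) ∈ (UU m F).map (pr m F) :=
        h.apply_U hr heB ⟨_, ⟨tx_up (cs_lt i) c, tx_diag _ c⟩, rfl⟩
      obtain ⟨x, hx, hxe⟩ := h1
      have hfP : am f ((MP j).map (pr m F)) = (MP j).map (pr m F) :=
        hfQ _ (Subgroup.map_mono (BU_le_MP j))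
      have h2 : n * pr m F (tx (cs_ne i) c) * n⁻¹ ∈ (MP j).map (pr m F) := by
        rw [hn, ← map_inv, ← map_mul, ← map_mul, mon_conj_tx hσ (cs_ne i) hne]
        refine ⟨_, fun u v huv huv' => ?_, rfl⟩
        rw [tx_apply, if_neg huv.ne', if_neg (by rw [e1, e2]; exact huv'), add_zero]
      have h3 : f (n * pr m F (tx (cs_ne i) c) * n⁻¹) ∈ (MP j).map (pr m F) := by
        have := apply_mem_am (f := f) h2
        rwa [hfP] at this
      have h4 : f (n * pr m F (tx (cs_ne i) c) * n⁻¹) = pr m F (n₀ * x * n₀⁻¹) := by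
        rw [map_mul (pr m F), map_mul (pr m F), map_inv (pr m F), hxe, he, ← hn]
        group
      rw [h4, map_mem_iff fun k hk' => BU_le_MP j (pr_eq_one hk').1] at h3
      refine ⟨x.1 i.castSucc i.succ, ?_⟩
      rw [← hxe]
      congr 1
      refine sl_ext fun u v => ?_
      rw [tx_apply]
      rcases lt_trichotomy u v with h5 | h5 | h5
      · rw [if_neg h5.ne, zero_add]
        by_cases h6 : u = i.castSucc ∧ v = i.succ
        · rw [if_pos h6, h6.1, h6.2]
        · rw [if_neg h6]
          by_contra h7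
          refine (mon_conj_ne hσ x u v).2 h7 (h3 _ _ (hanti h5) fun h8 => h6 ?_)
          rw [← e1, ← e2] at h8
          exact ⟨σ.injective h8.1, σ.injective h8.2⟩
      · subst h5
        rw [if_pos rfl, hx.2, if_neg, add_zero]
        rintro ⟨h6, h7⟩
        exact cs_ne i (h6.symm.trans h7)
      · rw [if_neg h5.ne', hx.1 u v h5, if_neg, add_zero]
        rintro ⟨rfl, rfl⟩
        exact lt_asymm h5 (cs_lt i)
    have hfix : ∀ (i : Fin m) (c : F), e (pr m F (tx (cs_ne i) c)) = pr m F (tx (cs_ne i) c) := by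
      intro i
      choose φ hφ using hroot i
      have hadd : ∀ x y, φ (x + y) = φ x + φ y := by
        intro x y
        apply pr_inj_tx (cs_ne i)
        rw [← hφ, ← tx_mul_tx, ← tx_mul_tx, map_mul, map_mul, map_mul, hφ, hφ]
      have hsq : ∀ a c : F, a ≠ 0 → φ (a ^ 2 * c) = a ^ 2 * φ c := by
        intro a c ha
        apply pr_inj_tx (cs_ne i)
        have h1 := heT _ (diag2n_mon (cs_ne i) ha)
        rw [← hφ, ← diag2n_conj (cs_ne i) ha, ← diag2n_conj (cs_ne i) ha, map_mul, map_mul,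
          map_inv, map_mul, map_mul, map_inv, h1, hφ, map_mul, map_mul, map_inv]
      have hlin := linear_of_sq hadd hsq
      have hpow : ∀ k : ℕ, ∀ c, (e ^ k) (pr m F (tx (cs_ne i) c)) =
          pr m F (tx (cs_ne i) (c * φ 1 ^ k)) := by
        intro k
        induction k with
        | zero => intro c; simp
        | succ k ih =>
          intro c
          rw [pow_succ', MulAut.mul_apply, ih, hφ, hlin, mul_assoc, ← pow_succ]
      have h1 : φ 1 ^ p = 1 := by
        have h2 := hpow p 1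
        rw [hep, MulAut.one_apply, one_mul] at h2
        exact (pr_inj_tx (cs_ne i) h2).symm
      have h2 : φ 1 = 1 := by
        have h3 : (φ 1 - 1) ^ p = 0 := by
          rw [sub_pow_char, one_pow, h1, sub_self]
        exact sub_eq_zero.1 (pow_eq_zero_iff hp.out.ne_zero |>.1 h3)
      intro c
      rw [hφ, hlin, h2, mul_one]
    have hU : ∀ u ∈ (UU m F).map (pr m F), e u = u := by
      have hle : UU m F ≤ (e.toMonoidHom.comp (pr m F)).eqLocus (pr m F) :=
        uu_gen fun i c => hfix i c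
      rintro _ ⟨x, hx, rfl⟩
      exact hle hx
    have he1 := h.eq_one_of_opp hsimple hr hU (inv_mem hnN') hopp' heopp
    rw [hedef] at he1
    have : f = MulAut.conj n * ((MulAut.conj n)⁻¹ * f * MulAut.conj n) * (MulAut.conj n)⁻¹ := by
      group
    rw [this, he1]
    group

/-- simple groups `PSL_n(F)` satisfy `RigidLie p` in the characteristic `p` of `F` -/
theorem psl_rigidLie {p : ℕ} [hp : Fact p.Prime] [CharP F p] (hm : 0 < m)
    (hs : IsSimpleGroup (PL m F)) (hZ : ∀ x : PL m F, (∀ y, x * y = y * x) → x = 1) :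
    RigidLie p (PL m F) :=
  ⟨hs, hZ, _, _, _, _, psl_rigid hm hs⟩

end

end Vale.Agent.P240.H195
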