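import Mathlib.LinearAlgebra.Matrix.GeneralLinearGroup.Defs
import Vale.Agent.P240.H195.FF
import Vale.Agent.P240.H195.SL8

/-!
Automorphisms of `PSL_n(F)` induced by semilinear maps.
-/

namespace Vale.Agent.P240.H195

open Subgroup Matrix

section
variable {F : Type*} [Field F] {m : ℕ}

/-- the general linear group -/
abbrev GLm (m : ℕ) (F : Type*) [Field F] : Type _ := GL (Fin (m + 1)) F

/-- the automorphism `x ↦ M τ(x) M⁻¹` of the special linear group -/
def actf (M : GLm m F) (τ : RingAut F) (x : SLm m F) : SLm m F :=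
  ⟨M.1 * (x.1.map τ) * (M⁻¹).1, by
    rw [Matrix.det_mul, Matrix.det_mul, mul_comm M.1.det, mul_assoc, ← Matrix.det_mul,
      ← Units.val_mul, mul_inv_cancel, Units.val_one, Matrix.det_one, mul_one]
    have h1 : (x.1.map τ).det = τ x.1.det := by
      have := (RingHom.map_det (τ : F →+* F) x.1).symm
      exact this
    have h2 : x.1.det = 1 := x.2
    rw [h1, h2, map_one]⟩

lemma actf_val (M : GLm m F) (τ : RingAut F) (x : SLm m F) :
    (actf M τ x).1 = M.1 * (x.1.map τ) * (M⁻¹).1 := rfl

/-- application of an automorphism of the field to invertible matrices -/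
def gla (τ : RingAut F) (M : GLm m F) : GLm m F :=
  ⟨M.1.map τ, (M⁻¹).1.map τ, by
    have : (M.1 * (M⁻¹).1).map (τ : F →+* F) = M.1.map (τ : F →+* F) * (M⁻¹).1.map (τ : F →+* F) :=
      Matrix.map_mul
    rw [← Units.val_mul, mul_inv_cancel, Units.val_one, Matrix.map_one _ (map_zero _) (map_one _)]
      at this
    exact this.symm, by
    have : ((M⁻¹).1 * M.1).map (τ : F →+* F) = (M⁻¹).1.map (τ : F →+* F) * M.1.map (τ : F →+* F) :=
      Matrix.map_mul
    rw [← Units.val_mul, inv_mul_cancel, Units.val_one, Matrix.map_one _ (map_zero _) (map_one _)]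
      at this
    exact this.symm⟩

lemma gla_val (τ : RingAut F) (M : GLm m F) : (gla τ M).1 = M.1.map τ := rfl

lemma gla_inv_val (τ : RingAut F) (M : GLm m F) : ((gla τ M)⁻¹).1 = (M⁻¹).1.map τ := rfl

lemma map_mul' (τ : RingAut F) (A C : Matrix (Fin (m + 1)) (Fin (m + 1)) F) :
    (A * C).map τ = A.map τ * C.map τ := by
  have : (A * C).map (τ : F →+* F) = A.map (τ : F →+* F) * C.map (τ : F →+* F) := Matrix.map_mul
  exact this

lemma det_map' (τ : RingAut F) (A : Matrix (Fin (m + 1)) (Fin (m + 1)) F) :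
    (A.map τ).det = τ A.det := by
  have := (RingHom.map_det (τ : F →+* F) A).symm
  exact this

lemma actf_actf (M M' : GLm m F) (τ τ' : RingAut F) (x : SLm m F) :
    actf M τ (actf M' τ' x) = actf (M * gla τ M') (τ * τ') x := by
  apply Subtype.ext
  rw [actf_val, actf_val, actf_val, map_mul', map_mul', _root_.mul_inv_rev, Units.val_mul, Units.val_mul,
    gla_val, gla_inv_val]
  have : (x.1.map τ').map τ = x.1.map (τ * τ') := by
    rw [Matrix.map_map]; rfl
  rw [this]
  simp only [Matrix.mul_assoc]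

lemma actf_mul (M : GLm m F) (τ : RingAut F) (x y : SLm m F) :
    actf M τ (x * y) = actf M τ x * actf M τ y := by
  apply Subtype.ext
  rw [SpecialLinearGroup.coe_mul]
  change M.1 * ((x * y).1.map τ) * (M⁻¹).1 =
    (M.1 * (x.1.map τ) * (M⁻¹).1) * (M.1 * (y.1.map τ) * (M⁻¹).1)
  have h1 : (x * y).1 = x.1 * y.1 := rfl
  rw [h1, map_mul']
  have h2 : (M⁻¹).1 * M.1 = 1 := by rw [← Units.val_mul, inv_mul_cancel, Units.val_one]
  calc M.1 * (x.1.map τ * y.1.map τ) * (M⁻¹).1
      = M.1 * x.1.map τ * 1 * (y.1.map τ * (M⁻¹).1) := by simp only [Matrix.mul_assoc, Matrix.one_mul]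
    _ = _ := by rw [← h2]; simp only [Matrix.mul_assoc]

lemma actf_one (x : SLm m F) : actf 1 1 x = x := by
  apply Subtype.ext
  rw [actf_val, inv_one, Units.val_one, Matrix.one_mul, Matrix.mul_one]
  ext i j
  rfl

/-- the automorphism `x ↦ M τ(x) M⁻¹` of the special linear group -/
def act (M : GLm m F) (τ : RingAut F) : MulAut (SLm m F) where
  toFun := actf M τ
  invFun := actf (gla τ⁻¹ M⁻¹) τ⁻¹
  left_inv x := by
    rw [actf_actf]
    have h1 : gla τ⁻¹ M⁻¹ * gla τ⁻¹ M = 1 := by
      apply Units.ext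
      rw [Units.val_mul, gla_val, gla_val, ← map_mul', ← Units.val_mul, inv_mul_cancel,
        Units.val_one, Matrix.map_one _ (map_zero _) (map_one _)]
    rw [h1, inv_mul_cancel, actf_one]
  right_inv x := by
    rw [actf_actf]
    have h1 : M * gla τ (gla τ⁻¹ M⁻¹) = 1 := by
      have h2 : gla τ (gla τ⁻¹ M⁻¹) = M⁻¹ := by
        apply Units.ext
        rw [gla_val, gla_val, Matrix.map_map]
        ext i j
        rw [Matrix.map_apply]
        change (τ * τ⁻¹) _ = _
        rw [mul_inv_cancel]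
        rfl
      rw [h2, mul_inv_cancel]
    rw [h1, mul_inv_cancel, actf_one]
  map_mul' := actf_mul M τ

lemma act_apply (M : GLm m F) (τ : RingAut F) (x : SLm m F) : act M τ x = actf M τ x := rfl

lemma act_mul (M M' : GLm m F) (τ τ' : RingAut F) :
    act M τ * act M' τ' = act (M * gla τ M') (τ * τ') := by
  ext1 x
  exact actf_actf M M' τ τ' x

lemma act_one : act (1 : GLm m F) 1 = 1 := by
  ext1 x
  exact actf_one x

/-- automorphisms of `SL` induce automorphisms of `PSL` -/
def ind (θ : MulAut (SLm m F)) : MulAut (PL m F) :=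
  QuotientGroup.congr (center (SLm m F)) (center (SLm m F)) θ
    (Subgroup.characteristic_iff_map_eq.1 inferInstance θ)

lemma ind_apply (θ : MulAut (SLm m F)) (x : SLm m F) : ind θ (pr m F x) = pr m F (θ x) := rfl

lemma ind_mul (θ θ' : MulAut (SLm m F)) : ind (θ * θ') = ind θ * ind θ' := by
  ext1 x
  obtain ⟨x, rfl⟩ := QuotientGroup.mk'_surjective _ x
  rfl

lemma ind_one : ind (1 : MulAut (SLm m F)) = 1 := by
  ext1 x
  obtain ⟨x, rfl⟩ := QuotientGroup.mk'_surjective _ x
  rfl

/-- the automorphism of `PSL` given by `M` and `τ` -/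
abbrev sem (M : GLm m F) (τ : RingAut F) : MulAut (PL m F) := ind (act M τ)

lemma sem_mul (M M' : GLm m F) (τ τ' : RingAut F) :
    sem M τ * sem M' τ' = sem (M * gla τ M') (τ * τ') := by
  rw [← ind_mul, act_mul]

lemma gla_one (M : GLm m F) : gla 1 M = M := by
  apply Units.ext
  rw [gla_val]
  ext i j
  rfl

/-- field automorphisms -/
def fa : RingAut F →* MulAut (PL m F) where
  toFun τ := sem 1 τ
  map_one' := by rw [sem, act_one, ind_one]
  map_mul' τ τ' := by
    rw [sem_mul]
    have : gla τ (1 : GLm m F) = 1 := by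
      apply Units.ext
      rw [gla_val, Units.val_one, Matrix.map_one _ (map_zero _) (map_one _)]
    rw [this, mul_one]

lemma sem_eq (M : GLm m F) (τ : RingAut F) : sem M τ = sem M 1 * fa τ := by
  change _ = sem M 1 * sem 1 τ
  rw [sem_mul, gla_one, mul_one, one_mul]

/-- powers -/
lemma sem_pow (M : GLm m F) (τ : RingAut F) (k : ℕ) : ∃ M' : GLm m F, sem M τ ^ k = sem M' (τ ^ k) ∧
    M'.1.det = ∏ i ∈ Finset.range k, (τ ^ i) M.1.det := by
  induction k with
  | zero =>
    refine ⟨1, by rw [pow_zero, pow_zero, sem, act_one, ind_one], ?_⟩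
    rw [Finset.range_zero, Finset.prod_empty, Units.val_one, Matrix.det_one]
  | succ k ih =>
    obtain ⟨M', h1, h2⟩ := ih
    refine ⟨M' * gla (τ ^ k) M, ?_, ?_⟩
    · rw [pow_succ, h1, sem_mul, pow_succ]
    · rw [Units.val_mul, Matrix.det_mul, h2, gla_val, det_map', Finset.prod_range_succ]

end

end Vale.Agent.P240.H195
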