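import Vale.Agent.P240.H195.BNCent
import Vale.Agent.P240.H195.SLA

/-!
All automorphisms of `PSL_2(F)` are induced by semilinear maps.
-/

namespace Vale.Agent.P240.H195

open Subgroup Matrix Vale.Agent.P240.K

section
variable {L : Type*} [Group L] {B N U : Subgroup L} {S : Set L} {p : ℕ}

/-- automorphisms map `B` to a conjugate of `B` -/
lemma SB.exists_conj (h : SB p B N U S) [Finite L] (hr : p.Prime) (f : MulAut L) :
    ∃ g : L, am f B = cj g B := by
  have : Fact p.Prime := ⟨hr⟩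
  obtain ⟨P₀, hP₀⟩ := h.pgroup.exists_le_sylow
  have hU : (P₀ : Subgroup L) = U := h.eq_U_of_le hr P₀.2 hP₀
  have hfU : IsPGroup p (am f U) := h.pgroup.map _
  obtain ⟨P, hP⟩ := hfU.exists_le_sylow
  obtain ⟨g, hg⟩ := MulAction.exists_smul_eq L P₀ P
  have hgU : (P : Subgroup L) = cj g U := by
    rw [← hg, ← hU]
    rfl
  have hUe : am f U = cj g U := by
    rw [hgU] at hP
    refine Subgroup.eq_of_le_of_card_ge hP ?_
    rw [card_am]
    exact (Subgroup.card_map_of_injective (f := (MulAut.conj g).toMonoidHom)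
      (MulAut.conj g).injective).le
  refine ⟨g, ?_⟩
  ext x
  rw [mem_am, h.mem_cj_B_iff hr, h.mem_B_iff hr]
  have e : am f (cj (f⁻¹ x) U) = cj x (am f U) := by
    rw [am_cj, ← MulAut.mul_apply, mul_inv_cancel, MulAut.one_apply]
  constructor
  · intro h1
    rw [h1, hUe] at e
    exact e.symm
  · intro h1
    apply am_injective f
    rw [e, hUe, h1]

end

section
variable {F : Type*} [Field F] {m : ℕ}

/-- special linear matrices as invertible matrices -/
def tog (x : SLm m F) : GLm m F := ⟨x.1, (x⁻¹).1, by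
    have := congrArg (fun y : SLm m F => y.1) (mul_inv_cancel x)
    exact this, by
    have := congrArg (fun y : SLm m F => y.1) (inv_mul_cancel x)
    exact this⟩

lemma conj_eq_sem (x : SLm m F) : MulAut.conj (pr m F x) = sem (tog x) 1 := by
  ext1 y
  obtain ⟨y, rfl⟩ := QuotientGroup.mk'_surjective _ y
  rw [MulAut.conj_apply]
  change _ = pr m F (actf (tog x) 1 y)
  rw [← map_inv, ← map_mul, ← map_mul]
  congr 1

lemma det_sq_inner {M : GLm 1 F} {d : F} (hd : M.1.det = d ^ 2) :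
    ∃ y, sem M 1 = MulAut.conj y := by
  have hd0 : d ≠ 0 := by
    rintro rfl
    have h1 : M.1.det ≠ 0 := (Matrix.isUnit_iff_isUnit_det _).1 M.isUnit |>.ne_zero
    exact h1 (by rw [hd]; ring)
  have hdet : (d⁻¹ • M.1).det = 1 := by
    rw [Matrix.det_smul, hd, Fintype.card_fin]
    change d⁻¹ ^ 2 * d ^ 2 = 1
    rw [← mul_pow, inv_mul_cancel₀ hd0, one_pow]
  obtain ⟨z, hz⟩ : ∃ z : SLm 1 F, z.1 = d⁻¹ • M.1 := ⟨⟨_, hdet⟩, rfl⟩
  refine ⟨pr 1 F z, ?_⟩
  rw [conj_eq_sem]
  ext1 y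
  obtain ⟨y, rfl⟩ := QuotientGroup.mk'_surjective _ y
  change pr 1 F (actf M 1 y) = pr 1 F (actf (tog z) 1 y)
  congr 1
  apply Subtype.ext
  have hinv : ((tog z)⁻¹).1 = d • (M⁻¹).1 := by
    have h1 : (tog z).1 * (d • (M⁻¹).1) = 1 := by
      change z.1 * (d • (M⁻¹).1) = 1
      rw [hz, Matrix.smul_mul, Matrix.mul_smul, smul_smul, inv_mul_cancel₀ hd0, one_smul,
        ← Units.val_mul, mul_inv_cancel, Units.val_one]
    have h2 : ((tog z)⁻¹).1 * ((tog z).1 * (d • (M⁻¹).1)) = ((tog z)⁻¹).1 := by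
      rw [h1, Matrix.mul_one]
    rw [← Matrix.mul_assoc, ← Units.val_mul, inv_mul_cancel, Units.val_one, Matrix.one_mul] at h2
    exact h2.symm
  rw [actf_val, actf_val, hinv]
  change _ = z.1 * _ * (d • (M⁻¹).1)
  rw [hz, Matrix.smul_mul, Matrix.smul_mul, Matrix.mul_smul, smul_smul, inv_mul_cancel₀ hd0,
    one_smul]

end

end Vale.Agent.P240.H195
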