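import Vale.Agent.P240.H195.RG6
import Vale.Agent.P240.H195.SLB

/-!
Fields with few roots of unity of order `2 ^ a`, and the centralizer of a regular unipotent element.
-/

namespace Vale.Agent.P240.H195

open Subgroup Matrix

section
variable {F : Type*} [Field F]

/-- no automorphism of order two -/
lemma tau_sq {N : ℕ} (hN : Odd N) (h2 : (2 : F) ≠ 0)
    (hF : ∀ x : F, x ≠ 0 → x ^ N = 1 ∨ x ^ N = -1) {τ : RingAut F} (h : τ * τ = 1) : τ = 1 := by
  ext x
  by_contra hne
  have hne' : x - τ x ≠ 0 := fun h0 => hne (sub_eq_zero.1 h0).symm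
  set y := x - τ x with hy
  have h1 : τ y = -y := by
    have h3 : τ (τ x) = x := by
      have := congrArg (fun f : RingAut F => f x) h
      exact this
    rw [hy, map_sub, h3]
    ring
  have h3 : τ (y ^ N) = y ^ N := by
    rcases hF y hne' with h4 | h4
    · rw [h4, map_one]
    · rw [h4, map_neg, map_one]
  rw [map_pow, h1, hN.neg_pow] at h3
  have h4 : y ^ N ≠ 0 := pow_ne_zero _ hne'
  have h5 : (2 : F) * y ^ N = 0 := by linear_combination -h3
  exact (mul_ne_zero h2 h4) h5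

lemma root_two {N a : ℕ} (hN : Odd N) (hF : ∀ x : F, x ≠ 0 → x ^ N = 1 ∨ x ^ N = -1) {c : F}
    (hc : c ^ 2 ^ a = 1) : c = 1 ∨ c = -1 := by
  have hc0 : c ≠ 0 := by
    rintro rfl
    rw [zero_pow (pow_ne_zero _ two_ne_zero)] at hc
    exact zero_ne_one hc
  have h1 : (c * c) ^ N = 1 := by
    rw [mul_pow]
    rcases hF c hc0 with h | h <;> rw [h] <;> ring
  have h2 : (c * c) ^ 2 ^ a = 1 := by rw [mul_pow, hc, one_mul]
  have h3 : orderOf (c * c) ∣ N := orderOf_dvd_of_pow_eq_one h1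
  have h4 : orderOf (c * c) ∣ 2 ^ a := orderOf_dvd_of_pow_eq_one h2
  have h5 : Nat.Coprime N (2 ^ a) := (Nat.coprime_two_right.2 hN).pow_right a
  have h6 : orderOf (c * c) = 1 := Nat.eq_one_of_dvd_coprimes h5 h3 h4
  rw [orderOf_eq_one_iff] at h6
  exact mul_self_eq_one_iff.1 h6

lemma exists_root {N : ℕ} (hN : Odd N) (a : ℕ) : ∀ {x : F}, x ^ N = 1 → ∃ y : F, y ^ 2 ^ a = x := by
  induction a with
  | zero => intro x _; exact ⟨x, by rw [pow_zero, pow_one]⟩
  | succ a ih =>
    intro x hx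
    obtain ⟨j, hj⟩ := hN
    have h1 : x ^ (j + 1) * x ^ (j + 1) = x := by
      rw [← pow_add]
      have : j + 1 + (j + 1) = N + 1 := by omega
      rw [this, pow_succ, hx, one_mul]
    obtain ⟨y, hy⟩ := ih (x := x ^ (j + 1)) (by rw [← pow_mul, mul_comm, pow_mul, hx, one_pow])
    exact ⟨y, by rw [pow_succ, pow_mul, hy, sq, h1]⟩

end

section
variable {F : Type*} [Field F] {m : ℕ}

lemma comm_Nm_apply {X : Matrix (Fin (m + 1)) (Fin (m + 1)) F} (h : X * Nm m F = Nm m F * X)
    (i j : Fin (m + 1)) : X i j = if h : j.val ≤ i.val then X ⟨i.val - j.val, by omega⟩ 0 else 0 := by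
  have h1 : X * (Nm m F) ^ j.val = (Nm m F) ^ j.val * X :=
    (Commute.pow_right (show Commute X (Nm m F) from h) _)
  have h2 : (X * (Nm m F) ^ j.val) i 0 = X i j := by
    rw [Matrix.mul_apply, Finset.sum_eq_single_of_mem j (Finset.mem_univ _)]
    · rw [Nm_pow, Matrix.of_apply, if_pos (by simp), mul_one]
    · intro k _ hk
      rw [Nm_pow, Matrix.of_apply, if_neg, mul_zero]
      intro h3
      apply hk
      apply Fin.ext
      simpa using h3
  have h3 : ((Nm m F) ^ j.val * X) i 0 =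
      if h : j.val ≤ i.val then X ⟨i.val - j.val, by omega⟩ 0 else 0 :=
    Nm_mulVec j.val (fun k => X k 0) i
  rw [← h2, h1, h3]

lemma comm_Nm_sum {X : Matrix (Fin (m + 1)) (Fin (m + 1)) F} (h : X * Nm m F = Nm m F * X) :
    X = ∑ k : Fin (m + 1), X k 0 • (Nm m F) ^ k.val := by
  ext i j
  rw [Matrix.sum_apply, comm_Nm_apply h]
  simp only [Matrix.smul_apply, Nm_pow, Matrix.of_apply, smul_eq_mul, mul_ite, mul_one, mul_zero]
  split_ifs with h1
  · rw [Finset.sum_eq_single_of_mem (⟨i.val - j.val, by omega⟩ : Fin (m + 1)) (Finset.mem_univ _)]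
    · rw [if_pos (by simp only; omega)]
    · intro k _ hk
      rw [if_neg]
      intro h3
      apply hk
      apply Fin.ext
      simp only
      omega
  · symm
    refine Finset.sum_eq_zero fun k _ => ?_
    rw [if_neg]
    omega

lemma comm_comm {X Y : Matrix (Fin (m + 1)) (Fin (m + 1)) F} (hX : X * Nm m F = Nm m F * X)
    (hY : Y * Nm m F = Nm m F * Y) : X * Y = Y * X := by
  rw [comm_Nm_sum hX, Finset.sum_mul, Finset.mul_sum]
  refine Finset.sum_congr rfl fun k _ => ?_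
  rw [Matrix.smul_mul, Matrix.mul_smul]
  congr 1
  exact (Commute.pow_left (show Commute (Nm m F) Y from hY.symm) _)

lemma comm_dec {X : Matrix (Fin (m + 1)) (Fin (m + 1)) F} (h : X * Nm m F = Nm m F * X) :
    ∃ Y : Matrix (Fin (m + 1)) (Fin (m + 1)) F, Y * Nm m F = Nm m F * Y ∧
      X = X 0 0 • 1 + Nm m F * Y := by
  refine ⟨∑ k : Fin m, X k.succ 0 • (Nm m F) ^ k.val, ?_, ?_⟩
  · rw [Finset.sum_mul, Finset.mul_sum]
    refine Finset.sum_congr rfl fun k _ => ?_
    rw [Matrix.smul_mul, Matrix.mul_smul, ← pow_succ, ← pow_succ']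
  · conv_lhs => rw [comm_Nm_sum h]
    rw [Fin.sum_univ_succ, Finset.mul_sum]
    congr 1
    refine Finset.sum_congr rfl fun k _ => ?_
    rw [Matrix.mul_smul, ← pow_succ']
    rfl

lemma comm_det {X : Matrix (Fin (m + 1)) (Fin (m + 1)) F} (h : X * Nm m F = Nm m F * X) :
    X.det = (X 0 0) ^ (m + 1) := by
  have h1 : X.IsLowerTriangular := by
    intro i j hij
    have hij' : i.val < j.val := hij
    rw [comm_Nm_apply h, dif_neg (by omega)]
  rw [Matrix.det_of_isLowerTriangular _ h1]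
  have h2 : ∀ i : Fin (m + 1), X i i = X 0 0 := by
    intro i
    rw [comm_Nm_apply h, dif_pos le_rfl]
    congr 1
    apply Fin.ext
    simp
  rw [Finset.prod_congr rfl fun i _ => h2 i, Finset.prod_const, Finset.card_univ, Fintype.card_fin]

lemma Nm_row (Y : Matrix (Fin (m + 1)) (Fin (m + 1)) F) (j : Fin (m + 1)) :
    (Nm m F * Y) 0 j = 0 := by
  rw [Matrix.mul_apply]
  refine Finset.sum_eq_zero fun k _ => ?_
  rw [Nm, Matrix.of_apply, if_neg (by simp), zero_mul]

lemma comm_nil {Y : Matrix (Fin (m + 1)) (Fin (m + 1)) F} (hY : Y * Nm m F = Nm m F * Y) {k : ℕ}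
    (hk : m + 1 ≤ k) : (Nm m F * Y) ^ k = 0 := by
  rw [(show Commute (Nm m F) Y from hY.symm).mul_pow]
  obtain ⟨d, rfl⟩ := Nat.exists_eq_add_of_le hk
  rw [pow_add, Nm_nil, zero_mul, zero_mul]

lemma comm_unip {l : ℕ} [hl : Fact l.Prime] [CharP F l]
    {X : Matrix (Fin (m + 1)) (Fin (m + 1)) F} (h : X * Nm m F = Nm m F * X) (h0 : X 0 0 = 1) :
    X ^ l ^ (m + 1) = 1 := by
  obtain ⟨Y, hY, hX⟩ := comm_dec h
  rw [h0, one_smul] at hX
  rw [hX, add_pow_char_pow_of_commute _ _ (Commute.one_left _), one_pow,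
    comm_nil hY (Nat.lt_pow_self hl.out.one_lt).le, add_zero]

/-- an invertible matrix commuting with `Nm` whose square is scalar is scalar -/
lemma comm_invol (ht : (2 : F) ≠ 0) {X : Matrix (Fin (m + 1)) (Fin (m + 1)) F}
    (h : X * Nm m F = Nm m F * X) (h0 : X 0 0 ≠ 0) {d : F} (hd : X * X = d • 1) :
    X = X 0 0 • 1 := by
  obtain ⟨Y, hY, hX⟩ := comm_dec h
  set c := X 0 0 with hc
  set Z := Nm m F * Y with hZ
  have h1 : X * X = (c * c) • 1 + (2 * c) • Z + Z * Z := by
    rw [hX]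
    simp only [Matrix.add_mul, Matrix.mul_add, Matrix.smul_mul, Matrix.mul_smul, Matrix.one_mul,
      Matrix.mul_one, smul_smul, two_mul, add_smul, smul_add]
    abel
  have h2 : d = c * c := by
    have h3 := congrFun (congrFun h1 0) 0
    rw [hd, Matrix.add_apply, Matrix.add_apply, Matrix.smul_apply, Matrix.smul_apply,
      Matrix.smul_apply, Matrix.one_apply_eq, hZ, Nm_row, Matrix.mul_assoc, Nm_row, smul_zero,
      add_zero, add_zero, smul_eq_mul, smul_eq_mul, mul_one, mul_one] at h3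
    exact h3
  rw [hd, h2, add_assoc, left_eq_add] at h1
  have h3 : Z * Z = (-(2 * c)) • Z := by
    rw [neg_smul]
    exact eq_neg_of_add_eq_zero_right h1
  have h4 : ∀ k : ℕ, Z ^ (k + 1) = (-(2 * c)) ^ k • Z := by
    intro k
    induction k with
    | zero => rw [pow_zero, one_smul, zero_add, pow_one]
    | succ k ih => rw [pow_succ, ih, Matrix.smul_mul, h3, smul_smul, pow_succ]
  have h5 := h4 m
  rw [hZ, comm_nil hY le_rfl, ← hZ] at h5
  have h6 : (-(2 * c)) ^ m ≠ 0 := pow_ne_zero _ (neg_ne_zero.2 (mul_ne_zero ht h0))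
  have h7 : Z = 0 := (smul_eq_zero.1 h5.symm).resolve_left h6
  rw [hX, h7, add_zero]

/-- elements of odd order are not negatives of each other -/
lemma no_neg (ht : (2 : F) ≠ 0) {x y : SLm m F} {K : ℕ} (hK : Odd K) (hx : x ^ K = 1)
    (hy : y ^ K = 1) (h : x.1 = -y.1) : False := by
  have h1 : (x ^ K).1 = -(y ^ K).1 := by
    rw [sl_pow_val, sl_pow_val, h, hK.neg_pow]
  rw [hx, hy] at h1
  have h6 : (1 : Matrix (Fin (m + 1)) (Fin (m + 1)) F) 0 0 =
      (-1 : Matrix (Fin (m + 1)) (Fin (m + 1)) F) 0 0 := congrFun (congrFun h1 0) 0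
  rw [Matrix.neg_apply, Matrix.one_apply_eq] at h6
  exact ht (by linear_combination h6)

end

end Vale.Agent.P240.H195
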