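import Vale.Agent.P240.H195.RG7
import Vale.Agent.P240.H195.EuDefs

/-!
Automorphisms of `PSL_n(F)` fixing a regular unipotent element.
-/

namespace Vale.Agent.P240.H195

open Subgroup Matrix Vale.Agent.P240.K

section
variable {F : Type*} [Field F] {m : ℕ}

lemma sl_val_mul (x y : SLm m F) : (x * y).1 = x.1 * y.1 := rfl

lemma comm_iff_Nm {x : SLm m F} : s0 m F * x = x * s0 m F ↔ x.1 * Nm m F = Nm m F * x.1 := by
  constructor
  · intro h
    have h1 := congrArg Subtype.val h
    rw [sl_val_mul, sl_val_mul, s0_val, add_mul, mul_add, one_mul, mul_one] at h1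
    exact (add_left_cancel h1).symm
  · intro h
    apply Subtype.ext
    rw [sl_val_mul, sl_val_mul, s0_val, add_mul, mul_add, one_mul, mul_one, h]

lemma tx_ppow {a b : Fin (m + 1)} (h : a ≠ b) (c : F) (k : ℕ) : (tx h c) ^ k = tx h (k * c) := by
  induction k with
  | zero => rw [pow_zero, Nat.cast_zero, zero_mul, tx_zero]
  | succ k ih => rw [pow_succ, ih, tx_mul_tx, Nat.cast_succ, add_mul, one_mul]

lemma tx_val {a b : Fin (m + 1)} (h : a ≠ b) (c : F) :
    (tx h c).1 = (1 : Matrix (Fin (m + 1)) (Fin (m + 1)) F) + single a b c := rfl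

/-- trivial semilinear automorphisms -/
lemma sem_triv {l : ℕ} [hl : Fact l.Prime] [CharP F l] (hl2 : l ≠ 2) (hm : 0 < m)
    (hc : ∀ c : F, c ^ (m + 1) = 1 → c = 1 ∨ c = -1) {M : GLm m F} {τ : RingAut F}
    (h : sem M τ = 1) : τ = 1 ∧ ∃ d : F, M.1 = d • 1 := by
  have ht := two_ne (F := F) hl2
  have key : ∀ {a b : Fin (m + 1)} (hab : a ≠ b) (c : F), actf M τ (tx hab c) = tx hab c := by
    intro a b hab c
    have h1 : pr m F (actf M τ (tx hab c)) = pr m F (tx hab c) := by
      have := congrArg (fun f : MulAut (PL m F) => f (pr m F (tx hab c))) h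
      exact this
    have h2 : (tx hab c) ^ l = 1 := by rw [tx_ppow, CharP.cast_eq_zero, zero_mul, tx_zero]
    rcases sg_of_pr hc h1 with h3 | h3
    · exact Subtype.ext h3
    · have h4 : (act M τ (tx hab c)) ^ l = 1 := by rw [← map_pow, h2, map_one]
      exact (no_neg ht (hl.out.odd_of_ne_two hl2) h4 h2 h3).elim
  have key2 : ∀ {a b : Fin (m + 1)} (_ : a ≠ b) (c : F),
      M.1 * single a b (τ c) = single a b c * M.1 := by
    intro a b hab c
    have h1 := congrArg Subtype.val (key hab c)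
    rw [actf_val, tx_val] at h1
    have h2 : (1 + single a b c : Matrix (Fin (m + 1)) (Fin (m + 1)) F).map τ =
        1 + single a b (τ c) := by
      ext i j
      rw [Matrix.map_apply, Matrix.add_apply, Matrix.add_apply, map_add, Matrix.one_apply,
        Matrix.single_apply, Matrix.single_apply]
      split_ifs <;> simp
    rw [h2] at h1
    have h3 : (M⁻¹).1 * M.1 = 1 := by rw [← Units.val_mul, inv_mul_cancel, Units.val_one]
    have h4 : M.1 * (1 + single a b (τ c)) = (1 + single a b c) * M.1 := by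
      calc M.1 * (1 + single a b (τ c)) = M.1 * (1 + single a b (τ c)) * ((M⁻¹).1 * M.1) := by
            rw [h3, mul_one]
        _ = M.1 * (1 + single a b (τ c)) * (M⁻¹).1 * M.1 := by rw [← mul_assoc]
        _ = _ := by rw [h1]
    rw [mul_add, add_mul, mul_one, one_mul] at h4
    exact add_left_cancel h4
  obtain ⟨d, hd⟩ := mem_range_scalar_of_commute_single (M := M.1) (fun a b hab => by
    have h1 := key2 hab 1
    rw [map_one] at h1
    exact h1.symm)
  have hd' : M.1 = d • 1 := by
    rw [← hd, Matrix.scalar_apply, Matrix.smul_one_eq_diagonal]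
  have hd0 : d ≠ 0 := by
    rintro rfl
    rw [zero_smul] at hd'
    have h3 : (M⁻¹).1 * M.1 = 1 := by rw [← Units.val_mul, inv_mul_cancel, Units.val_one]
    rw [hd', mul_zero] at h3
    exact zero_ne_one h3
  refine ⟨?_, d, hd'⟩
  ext c
  have h01 : (⟨0, by omega⟩ : Fin (m + 1)) ≠ ⟨1, by omega⟩ := by
    intro h
    have := congrArg Fin.val h
    simp at this
  have h1 := key2 h01 c
  rw [hd', Matrix.smul_mul, Matrix.mul_smul, one_mul, mul_one] at h1
  have h2 := congrFun (congrFun h1 ⟨0, by omega⟩) ⟨1, by omega⟩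
  rw [Matrix.smul_apply, Matrix.smul_apply, Matrix.single_apply, Matrix.single_apply,
    if_pos ⟨rfl, rfl⟩, if_pos ⟨rfl, rfl⟩, smul_eq_mul, smul_eq_mul] at h2
  exact mul_left_cancel₀ hd0 h2

/-- matrices that are scalar multiples of special linear matrices induce inner automorphisms -/
lemma sem_inner {M : GLm m F} {c : F} {x : SLm m F} (h : M.1 = c • x.1) :
    sem M 1 = MulAut.conj (pr m F x) := by
  have h1 : sem (M * (tog x)⁻¹) 1 = 1 := by
    refine sem_scalar (c := c) ?_
    rw [Units.val_mul, h, Matrix.smul_mul]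
    have : x.1 * ((tog x)⁻¹).1 = 1 := by
      have h2 : (tog x).1 * ((tog x)⁻¹).1 = 1 := by
        rw [← Units.val_mul, mul_inv_cancel, Units.val_one]
      exact h2
    rw [this, Algebra.algebraMap_eq_smul_one]
  have h2 : sem (M * (tog x)⁻¹) 1 * sem (tog x) 1 = sem M 1 := by
    rw [sem_mul, gla_one, inv_mul_cancel_right, mul_one]
  rw [← h2, h1, one_mul, conj_eq_sem]

lemma gl_det_ne (M : GLm m F) : M.1.det ≠ 0 :=
  ((Matrix.isUnit_iff_isUnit_det _).1 M.isUnit).ne_zero

/-- inner automorphisms by roots of the determinant -/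
lemma sem_inner_of_root {M : GLm m F} {y : F} (h : y ^ (m + 1) = M.1.det) :
    sem M 1 ∈ (MulAut.conj (G := PL m F)).range := by
  have hy : y ≠ 0 := by
    rintro rfl
    rw [zero_pow (Nat.succ_ne_zero m)] at h
    exact gl_det_ne M h.symm
  have h1 : (y⁻¹ • M.1).det = 1 := by
    rw [Matrix.det_smul, Fintype.card_fin, ← h, ← mul_pow, inv_mul_cancel₀ hy, one_pow]
  refine ⟨pr m F ⟨_, h1⟩, (sem_inner (c := y) ?_).symm⟩
  rw [smul_smul, mul_inv_cancel₀ hy, one_smul]

/-- the inverse transpose of an invertible matrix -/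
def git (X : GLm m F) : GLm m F := ⟨(X⁻¹).1.transpose, X.1.transpose, by
    rw [← Matrix.transpose_mul, ← Units.val_mul, mul_inv_cancel, Units.val_one,
      Matrix.transpose_one], by
    rw [← Matrix.transpose_mul, ← Units.val_mul, inv_mul_cancel, Units.val_one,
      Matrix.transpose_one]⟩

lemma git_val (X : GLm m F) : (git X).1 = (X⁻¹).1.transpose := rfl

lemma git_det (X : GLm m F) : (git X).1.det * X.1.det = 1 := by
  rw [git_val, Matrix.det_transpose, ← Matrix.det_mul, ← Units.val_mul, inv_mul_cancel,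
    Units.val_one, Matrix.det_one]

lemma it_sem (X : GLm m F) (τ : RingAut F) :
    ind (itA m F) * sem X τ = sem (git X) τ * ind (itA m F) := by
  rw [← ind_mul, ← ind_mul]
  congr 1
  ext1 x
  change itf (actf X τ x) = actf (git X) τ (itf x)
  apply Subtype.ext
  have h1 : (actf X τ x)⁻¹ = actf X τ x⁻¹ := (map_inv (act X τ) x).symm
  rw [itf_val, h1, actf_val, actf_val, itf_val, Matrix.transpose_mul, Matrix.transpose_mul,
    git_val, Matrix.transpose_map, mul_assoc]
  rfl

/-- the sign -/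
lemma same_inner {N a : ℕ} (hN : Odd N) (ha : m + 1 = 2 ^ a) {X Y : GLm m F} (τ : RingAut F)
    (h : X.1.det ^ N = Y.1.det ^ N) :
    sem X τ * (sem Y τ)⁻¹ ∈ (MulAut.conj (G := PL m F)).range := by
  have h1 : sem X τ * (sem Y τ)⁻¹ = sem (X * Y⁻¹) 1 := by
    rw [mul_inv_eq_iff_eq_mul, sem_mul, gla_one, inv_mul_cancel_right, one_mul]
  rw [h1]
  have h2 : ((X * Y⁻¹).1.det) ^ N = 1 := by
    have h3 : (X * Y⁻¹).1.det * Y.1.det = X.1.det := by
      rw [← Matrix.det_mul, ← Units.val_mul, inv_mul_cancel_right]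
    have h4 := congrArg (· ^ N) h3
    simp only [mul_pow] at h4
    rw [h, mul_eq_right₀ (pow_ne_zero _ (gl_det_ne Y))] at h4
    exact h4
  obtain ⟨y, hy⟩ := exists_root hN a h2
  exact sem_inner_of_root (y := y) ((congrArg (y ^ ·) ha).trans hy)

/-- graph automorphisms commute with all automorphisms modulo inner automorphisms -/
lemma graph_comm {N a : ℕ} (hN : Odd N) (ha : m + 1 = 2 ^ a)
    (hF : ∀ x : F, x ≠ 0 → x ^ N = 1 ∨ x ^ N = -1) {M A : GLm m F} {τ : RingAut F}
    {g : MulAut (PL m F)} (hg : g = sem A τ ∨ g = sem A τ * ind (itA m F)) :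
    g * (sem M 1 * ind (itA m F)) * g⁻¹ * (sem M 1 * ind (itA m F))⁻¹ ∈
      (MulAut.conj (G := PL m F)).range := by
  have hpm : ∀ x : F, x ≠ 0 → τ (x ^ N) = x ^ N := by
    intro x hx
    rcases hF x hx with h | h
    · rw [h, map_one]
    · rw [h, map_neg, map_one]
  have hsq : ∀ x : F, x ≠ 0 → x ^ N * x ^ N = 1 := by
    intro x hx
    rcases hF x hx with h | h
    · rw [h, one_mul]
    · rw [h, neg_mul_neg, one_mul]
  have hinv : ∀ X : GLm m F, (git X).1.det ^ N = X.1.det ^ N := by
    intro X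
    have h1 := congrArg (· ^ N) (git_det X)
    simp only [mul_pow, one_pow] at h1
    have h2 := hsq _ (gl_det_ne X)
    exact mul_right_cancel₀ (pow_ne_zero N (gl_det_ne X)) (h1.trans h2.symm)
  have hι := itA_sq (F := F) (m := m)
  set ι := ind (itA m F) with hιdef
  set f := sem M 1 * ι with hf
  have hgf : g * f * g⁻¹ * f⁻¹ = (g * f) * (f * g)⁻¹ := by group
  rw [hgf]
  rcases hg with rfl | rfl
  · have e1 : sem A τ * f = sem (A * gla τ M) τ * ι := by
      rw [hf, ← mul_assoc, sem_mul, mul_one]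
    have e2 : f * sem A τ = sem (M * git A) τ * ι := by
      rw [hf, mul_assoc, it_sem, ← mul_assoc, sem_mul, gla_one, one_mul]
    rw [e1, e2]
    have e3 : sem (A * gla τ M) τ * ι * (sem (M * git A) τ * ι)⁻¹ =
        sem (A * gla τ M) τ * (sem (M * git A) τ)⁻¹ := by group
    rw [e3]
    refine same_inner hN ha τ ?_
    rw [Units.val_mul, Units.val_mul, Matrix.det_mul, Matrix.det_mul, mul_pow, mul_pow, hinv, gla_val,
      det_map', ← map_pow, hpm _ (gl_det_ne M), mul_comm]
  · have e1 : sem A τ * ι * f = sem (A * gla τ (git M)) τ := by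
      rw [hf, mul_assoc, ← mul_assoc ι, it_sem, mul_assoc, hι, mul_one, sem_mul, mul_one]
    have e2 : f * (sem A τ * ι) = sem (M * git A) τ := by
      rw [hf, mul_assoc, ← mul_assoc ι, it_sem, mul_assoc, hι, mul_one, sem_mul, gla_one, one_mul]
    rw [e1, e2]
    refine same_inner hN ha τ ?_
    rw [Units.val_mul, Units.val_mul, Matrix.det_mul, Matrix.det_mul, mul_pow, mul_pow, hinv, gla_val,
      det_map', ← map_pow, hinv, hpm _ (gl_det_ne M), mul_comm]

end

end Vale.Agent.P240.H195
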