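import Vale.Agent.P240.H195.Eu3

/-!
Components satisfying `RegFree`: the local condition.
-/

namespace Vale.Agent.P240.H195

open Subgroup Vale.Agent.P240.K

section
variable {p : ℕ}

/-- isomorphisms -/
theorem RegElt.congr {L L' : Type*} [Group L] [Group L'] (e : L ≃* L') {s : L}
    (h : RegElt p s) : RegElt p (e s) := by
  obtain ⟨h1, h2, h3, W, hW, hpW, hWs, h4⟩ := h
  have hΦ : ∀ (f : MulAut L) (x : L), (MulAut.congr e f) (e x) = e (f x) := fun f x => by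
    simp
  have hconj : ∀ x : L, MulAut.congr e (MulAut.conj x) = MulAut.conj (e x) := by
    intro x
    ext z
    obtain ⟨z, rfl⟩ := e.surjective z
    rw [hΦ]
    simp
  refine ⟨?_, ?_, fun E hE hs => ?_, W.map e.toMonoidHom, ?_, ?_, ?_, fun f hf => ?_⟩
  · intro h
    apply h1
    rw [← map_one e] at h
    exact e.injective h
  · rwa [MulEquiv.orderOf_eq]
  · have hE' : ElemAb p (E.comap (MulAut.congr e).toMonoidHom) := by
      refine ⟨fun hbot => hE.1 ?_, fun x hx y hy => ?_, fun x hx => ?_⟩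
      · rw [eq_bot_iff]
        intro f hf
        obtain ⟨f, rfl⟩ := (MulAut.congr e).surjective f
        have h5 : f ∈ E.comap (MulAut.congr e).toMonoidHom := hf
        rw [hbot, Subgroup.mem_bot] at h5
        rw [h5, map_one, Subgroup.mem_bot]
      · apply (MulAut.congr e).injective
        rw [map_mul, map_mul]
        exact hE.2.1 _ hx _ hy
      · apply (MulAut.congr e).injective
        rw [map_pow, map_one]
        exact hE.2.2 _ hx
    obtain ⟨f, hfE, hf1, hfs⟩ := h3 _ hE' (by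
      rw [mem_normalizer_iff]
      intro f
      change MulAut.congr e f ∈ E ↔ MulAut.congr e (MulAut.conj s * f * (MulAut.conj s)⁻¹) ∈ E
      rw [map_mul, map_mul, map_inv, hconj]
      exact mem_normalizer_iff.1 hs _)
    refine ⟨MulAut.congr e f, hfE, fun h => hf1 ?_, by rw [hΦ, hfs]⟩
    apply (MulAut.congr e).injective
    rw [h, map_one]
  · have := hW
    exact Group.isSolvable_of_surjective (f := (W.equivMapOfInjective e.toMonoidHom e.injective).toMonoidHom)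
      (W.equivMapOfInjective e.toMonoidHom e.injective).surjective
  · rwa [Nat.card_congr (W.equivMapOfInjective e.toMonoidHom e.injective).symm.toEquiv]
  · rintro _ ⟨w, hw, rfl⟩
    change e w * e s = e s * e w
    rw [← map_mul, hWs w hw, map_mul]
  · obtain ⟨f, rfl⟩ := (MulAut.congr e).surjective f
    rw [hΦ] at hf
    obtain ⟨h5, h6⟩ := h4 f (e.injective hf)
    refine ⟨?_, fun hfp => ?_⟩
    · rintro _ ⟨w, hw, rfl⟩
      exact ⟨f w, h5 w hw, (hΦ f w).symm⟩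
    · rw [← map_pow, ← map_one (MulAut.congr e)] at hfp
      obtain ⟨h7, h8, h9⟩ := h6 ((MulAut.congr e).injective hfp)
      refine ⟨fun hw => ?_, fun g hg hgp => ?_, fun b => ?_⟩
      · rw [h7 fun w hw' => ?_, map_one]
        have h10 := hw (e w) ⟨w, hw', rfl⟩
        rw [hΦ] at h10
        exact e.injective h10
      · obtain ⟨g, rfl⟩ := (MulAut.congr e).surjective g
        rw [hΦ] at hg
        rw [← map_pow, ← map_one (MulAut.congr e)] at hgp
        obtain ⟨w, hw, hwe⟩ := h8 g (e.injective hg) ((MulAut.congr e).injective hgp)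
        refine ⟨e w, ⟨w, hw, rfl⟩, ?_⟩
        rw [← map_inv, ← map_inv, ← map_mul, ← map_mul, ← map_mul, hwe, hconj]
      · obtain ⟨b, rfl⟩ := (MulAut.congr e).surjective b
        obtain ⟨x, hx⟩ := h9 b
        refine ⟨e x, ?_⟩
        rw [← map_inv, ← map_inv, ← map_mul, ← map_mul, ← map_mul, ← hx, hconj]

theorem RegFree.congr {L L' : Type*} [Group L] [Group L'] (e : L ≃* L') (h : RegFree p L) :
    RegFree p L' := by
  obtain ⟨s, hs⟩ := h
  exact ⟨e s, hs.congr e⟩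

end

section
variable {G : Type*} [Group G] {p : ℕ} {L : Subgroup G}

/-- the automorphism of `L` induced by an element of the normalizer -/
lemma nmh_eq_one {x : G} (hx : x ∈ normalizer (L : Set G)) :
    L.normalizerMonoidHom ⟨x, hx⟩ = 1 ↔ x ∈ centralizer (L : Set G) := by
  rw [← MonoidHom.mem_ker, normalizerMonoidHom_ker, Subgroup.mem_subgroupOf]

lemma nmh_apply {x : G} (hx : x ∈ normalizer (L : Set G)) (y : L) :
    ((L.normalizerMonoidHom ⟨x, hx⟩ y : L) : G) = x * y * x⁻¹ := rfl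

lemma nmh_conj (w : L) : L.normalizerMonoidHom ⟨w, le_normalizer w.2⟩ = MulAut.conj w := by
  ext y
  rfl

lemma nmh_fix {x : G} (hx : x ∈ normalizer (L : Set G)) {y : L} (h : x * y = y * x) :
    L.normalizerMonoidHom ⟨x, hx⟩ y = y := by
  apply Subtype.ext
  rw [nmh_apply, h, mul_inv_cancel_right]

lemma mem_Cn {s x : G} : x ∈ K.Cn L s ↔ x ∈ normalizer (L : Set G) ∧ x * s = s * x := by
  rw [K.Cn, mem_inf, mem_centralizer_iff]
  simp only [Set.mem_singleton_iff, forall_eq]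
  exact and_congr_right fun _ => eq_comm

/-- elements inducing inner automorphisms -/
lemma mem_of_nmh {x : G} (hx : x ∈ normalizer (L : Set G)) {w : L}
    (h : L.normalizerMonoidHom ⟨x, hx⟩ = MulAut.conj w) :
    (w : G)⁻¹ * x ∈ centralizer (L : Set G) := by
  have hw : (w : G) ∈ normalizer (L : Set G) := le_normalizer w.2
  rw [← nmh_eq_one (mul_mem (inv_mem hw) hx)]
  have h1 : (⟨(w : G)⁻¹ * x, mul_mem (inv_mem hw) hx⟩ : normalizer (L : Set G)) =
      ⟨w, hw⟩⁻¹ * ⟨x, hx⟩ := rfl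
  rw [h1, map_mul, map_inv, h, nmh_conj, inv_mul_cancel]

/-- the elements acting on `L` like an element of `E` -/
lemma nmh_sup {E : Subgroup G} (hEN : E ≤ normalizer (L : Set G)) {x : G}
    (hx : x ∈ E ⊔ centralizer (L : Set G)) : ∃ hxN : x ∈ normalizer (L : Set G),
      L.normalizerMonoidHom ⟨x, hxN⟩ ∈
        (E.subgroupOf (normalizer (L : Set G))).map L.normalizerMonoidHom := by
  set A := (E.subgroupOf (normalizer (L : Set G))).map L.normalizerMonoidHom with hA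
  have h1 : E ⊔ centralizer (L : Set G) ≤
      (A.comap L.normalizerMonoidHom).map (normalizer (L : Set G)).subtype := by
    refine sup_le (fun e he => ?_) (fun c hc => ?_)
    · exact ⟨⟨e, hEN he⟩, ⟨⟨e, hEN he⟩, he, rfl⟩, rfl⟩
    · have hcN : c ∈ normalizer (L : Set G) := centralizer_le_normalizer _ hc
      refine ⟨⟨c, hcN⟩, ?_, rfl⟩
      change L.normalizerMonoidHom ⟨c, hcN⟩ ∈ A
      rw [(nmh_eq_one hcN).2 hc]
      exact one_mem _
  obtain ⟨y, hy, rfl⟩ := h1 hx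
  exact ⟨y.2, hy⟩

/-- the local conditions for one element -/
theorem RegElt.local [Finite G] {s : L}
    (h : RegElt p s) :
    (∀ E ≤ normalizer (L : Set G), ElemAb p E →
      (∀ e ∈ E, (s : G) * e * (s : G)⁻¹ ∈ E ⊔ centralizer (L : Set G)) →
      (∀ e ∈ E, (s : G) * e * (s : G)⁻¹ * e⁻¹ ∈ centralizer (L : Set G) →
        e ∈ centralizer (L : Set G)) → E ≤ centralizer (L : Set G)) ∧
    (∃ W ≤ L ⊓ K.Cn L (s : G), Group.IsSolvable W ∧ ¬ p ∣ Nat.card W ∧
      (∀ x ∈ K.Cn L (s : G), ∀ w ∈ W, x * w * x⁻¹ ∈ W) ∧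
      ∀ x ∈ K.Cn L (s : G), x ^ p = 1 →
        ((∀ w ∈ W, x * w = w * x) → x ∈ centralizer (L : Set G)) ∧
        ∀ y ∈ K.Cn L (s : G), y ^ p = 1 → x * y * x⁻¹ * y⁻¹ ∈ W ⊔ centralizer (L : Set G)) ∧
    ∀ x ∈ K.Cn L (s : G), x ^ p = 1 → ∀ g ∈ normalizer (L : Set G),
      ∃ n ∈ L, x * n ∈ K.Cn L (g * s * g⁻¹) ∧ (x * n) ^ p ∈ centralizer (L : Set G) := by
  obtain ⟨-, -, h3, W, hW, hpW, hWs, h4⟩ := h
  have hpow : ∀ {x : G} (hx : x ∈ normalizer (L : Set G)), x ^ p = 1 →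
      L.normalizerMonoidHom ⟨x, hx⟩ ^ p = 1 := by
    intro x hx hxp
    rw [← map_pow]
    have : (⟨x, hx⟩ : normalizer (L : Set G)) ^ p = 1 := Subtype.ext hxp
    rw [this, map_one]
  have hsN : (s : G) ∈ normalizer (L : Set G) := le_normalizer s.2
  refine ⟨fun E hEN hE hsE hfr => ?_, ⟨W.map L.subtype, ?_, ?_, ?_, fun x hx w hw => ?_,
    fun x hx hxp => ⟨fun hxw => ?_, fun y hy hyp => ?_⟩⟩, fun x hx hxp g hg => ?_⟩
  · by_contra hEC
    obtain ⟨h5, -⟩ := aut_image hE hEN hEC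
    obtain ⟨f, ⟨e, he, hfe⟩, hf1, hfs⟩ := h3 _ h5 (by
      rw [← cj_eq_iff]
      refine Subgroup.eq_of_le_of_card_ge ?_ ?_
      · rintro _ ⟨φ, ⟨e, he, rfl⟩, rfl⟩
        obtain ⟨hN, h6⟩ := nmh_sup hEN (hsE e he)
        have h7 : (⟨(s : G) * e * (s : G)⁻¹, hN⟩ : normalizer (L : Set G)) =
            ⟨s, hsN⟩ * e * ⟨s, hsN⟩⁻¹ := rfl
        rw [h7, map_mul, map_mul, map_inv, nmh_conj] at h6
        exact h6
      · exact (Subgroup.card_map_of_injective (MulAut.conj _).injective).ge)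
    have hes : (e : G) * s * (e : G)⁻¹ = s := by
      have h6 := congrArg (fun y : L => (y : G)) hfs
      rw [← hfe] at h6
      exact h6
    apply hf1
    rw [← hfe, nmh_eq_one e.2]
    refine hfr e he ?_
    have h6 : (s : G) * (e : G) * (s : G)⁻¹ * (e : G)⁻¹ = 1 := by
      have h7 : (e : G) * s = s * e := mul_inv_eq_iff_eq_mul.1 hes
      rw [← h7]
      group
    rw [h6]
    exact one_mem _
  · rintro _ ⟨w, hw, rfl⟩
    refine mem_inf.2 ⟨w.2, mem_Cn.2 ⟨le_normalizer w.2, ?_⟩⟩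
    exact congrArg Subtype.val (hWs w hw)
  · have := hW
    exact Group.isSolvable_of_surjective
      (f := (W.equivMapOfInjective L.subtype L.subtype_injective).toMonoidHom)
      (W.equivMapOfInjective L.subtype L.subtype_injective).surjective
  · rwa [Nat.card_congr (W.equivMapOfInjective L.subtype L.subtype_injective).symm.toEquiv]
  · obtain ⟨w, hw, rfl⟩ := hw
    obtain ⟨hxN, hxs⟩ := mem_Cn.1 hx
    exact ⟨_, (h4 _ (nmh_fix hxN hxs)).1 w hw, nmh_apply hxN w⟩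
  · obtain ⟨hxN, hxs⟩ := mem_Cn.1 hx
    rw [← nmh_eq_one hxN]
    refine ((h4 _ (nmh_fix hxN hxs)).2 (hpow hxN hxp)).1 fun w hw => ?_
    exact nmh_fix hxN (hxw w ⟨w, hw, rfl⟩)
  · obtain ⟨hxN, hxs⟩ := mem_Cn.1 hx
    obtain ⟨hyN, hys⟩ := mem_Cn.1 hy
    obtain ⟨w, hw, hwe⟩ := ((h4 _ (nmh_fix hxN hxs)).2 (hpow hxN hxp)).2.1 _ (nmh_fix hyN hys)
      (hpow hyN hyp)
    have hN : x * y * x⁻¹ * y⁻¹ ∈ normalizer (L : Set G) :=
      mul_mem (mul_mem (mul_mem hxN hyN) (inv_mem hxN)) (inv_mem hyN)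
    have h5 : L.normalizerMonoidHom ⟨x * y * x⁻¹ * y⁻¹, hN⟩ = MulAut.conj w := by
      rw [← hwe, ← map_inv, ← map_inv, ← map_mul, ← map_mul, ← map_mul]
      rfl
    have h6 : x * y * x⁻¹ * y⁻¹ = w * ((w : G)⁻¹ * (x * y * x⁻¹ * y⁻¹)) := by group
    rw [h6]
    exact mul_mem (mem_sup_left ⟨w, hw, rfl⟩) (mem_sup_right (mem_of_nmh hN h5))
  · obtain ⟨hxN, hxs⟩ := mem_Cn.1 hx
    obtain ⟨w, hwe⟩ := ((h4 _ (nmh_fix hxN hxs)).2 (hpow hxN hxp)).2.2
      (L.normalizerMonoidHom ⟨g, hg⟩)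
    have hN : g * x * g⁻¹ * x⁻¹ ∈ normalizer (L : Set G) :=
      mul_mem (mul_mem (mul_mem hg hxN) (inv_mem hg)) (inv_mem hxN)
    have h5 : L.normalizerMonoidHom ⟨g * x * g⁻¹ * x⁻¹, hN⟩ = MulAut.conj w := by
      rw [hwe, ← map_inv, ← map_inv, ← map_mul, ← map_mul, ← map_mul]
      rfl
    obtain ⟨c, hcd⟩ : ∃ c, c = (w : G)⁻¹ * (g * x * g⁻¹ * x⁻¹) := ⟨_, rfl⟩
    have hcC : c ∈ centralizer (L : Set G) := hcd ▸ mem_of_nmh hN h5
    have hdC : x⁻¹ * c * x ∈ centralizer (L : Set G) := by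
      have := conj_centralizer (inv_mem hxN) hcC
      rwa [inv_inv] at this
    -- `x * (x⁻¹ * w * x) = w * x = g x g⁻¹ (x⁻¹ c x)⁻¹`
    have hkey : x * (x⁻¹ * w * x) = g * x * g⁻¹ * (x⁻¹ * c * x)⁻¹ := by
      rw [hcd]
      group
    refine ⟨x⁻¹ * w * x, ?_, ?_, ?_⟩
    · have := (mem_normalizer_iff.1 (inv_mem hxN) (w : G)).1 w.2
      rwa [inv_inv] at this
    · rw [hkey, mem_Cn]
      refine ⟨mul_mem (mul_mem (mul_mem hg hxN) (inv_mem hg))
        (inv_mem (centralizer_le_normalizer _ hdC)), ?_⟩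
      have hgs : g * s * g⁻¹ ∈ L := (mem_normalizer_iff.1 hg _).1 s.2
      have h6 : (x⁻¹ * c * x)⁻¹ * (g * s * g⁻¹) = (g * s * g⁻¹) * (x⁻¹ * c * x)⁻¹ :=
        ((mem_centralizer_iff.1 (inv_mem hdC)) _ hgs).symm
      calc g * x * g⁻¹ * (x⁻¹ * c * x)⁻¹ * (g * s * g⁻¹)
          = g * x * g⁻¹ * ((x⁻¹ * c * x)⁻¹ * (g * s * g⁻¹)) := by group
        _ = g * (x * s) * g⁻¹ * (x⁻¹ * c * x)⁻¹ := by rw [h6]; group
        _ = g * s * g⁻¹ * (g * x * g⁻¹ * (x⁻¹ * c * x)⁻¹) := by rw [hxs]; group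
    · rw [hkey]
      have hN2 : g * x * g⁻¹ * (x⁻¹ * c * x)⁻¹ ∈ normalizer (L : Set G) :=
        mul_mem (mul_mem (mul_mem hg hxN) (inv_mem hg))
          (inv_mem (centralizer_le_normalizer _ hdC))
      rw [← nmh_eq_one (pow_mem hN2 p)]
      have h6 : (⟨(g * x * g⁻¹ * (x⁻¹ * c * x)⁻¹) ^ p, pow_mem hN2 p⟩ :
          normalizer (L : Set G)) = (⟨g, hg⟩ * ⟨x, hxN⟩ * ⟨g, hg⟩⁻¹ *
            ⟨x⁻¹ * c * x, centralizer_le_normalizer _ hdC⟩⁻¹) ^ p := rfl
      rw [h6, map_pow, map_mul, map_mul, map_mul, map_inv, map_inv,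
        (nmh_eq_one (centralizer_le_normalizer _ hdC)).2 hdC, inv_one, mul_one, conj_pow,
        hpow hxN hxp, mul_one, mul_inv_cancel]

end

end Vale.Agent.P240.H195
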