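import Vale.Agent.P240.H195.RGA

/-!
Components satisfying `RegFree`, mixed with components satisfying `EuSub`.
-/

namespace Vale.Agent.P240.H195

open Subgroup Vale.Agent.P240.K Finsupp

universe u v

section
variable {G : Type u} [Group G] {p : ℕ}

lemma family_disj {F : Set (Subgroup G)} (hF : Family p F) {L M : Subgroup G} (hL : L ∈ F)
    (hM : M ∈ F) {x : G} (hx : x ≠ 1) (hxL : x ∈ L) (hxM : x ∈ M) : L = M := by
  by_contra hne
  apply hx
  have h1 : x ∈ L ⊓ centralizer (L : Set G) := by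
    refine ⟨hxL, mem_centralizer_iff.2 fun y hy => ?_⟩
    exact hF.comm L hL M hM hne y hy x hxM
  rw [hF.centre L hL] at h1
  exact h1

/-- the choice of classes -/
theorem exists_classes {F D : Set (Subgroup G)} (hF : Family p F) (hDF : D ⊆ F)
    (hconj : ∀ L ∈ D, ∀ g : G, cj g L ∈ D) (hreg : ∀ L ∈ D, RegFree p L) :
    ∃ S : Set G, (∀ x ∈ S, x ≠ 1 ∧ ∃ L ∈ D, x ∈ L) ∧ (∀ g : G, ∀ x ∈ S, g * x * g⁻¹ ∈ S) ∧
      ∀ L ∈ D, (∃ s ∈ S, s ∈ L) ∧ (∀ s ∈ S, ∀ hs : s ∈ L, RegElt p (⟨s, hs⟩ : L)) ∧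
        ∀ s ∈ S, s ∈ L → ∀ t ∈ S, t ∈ L → ∃ g ∈ normalizer (L : Set G), g * s * g⁻¹ = t := by
  have ha : ∀ L ∈ D, ∃ x : G, ∃ h : x ∈ L, RegElt p (⟨x, h⟩ : L) := by
    intro L hL
    obtain ⟨s, hs⟩ := hreg L hL
    exact ⟨s, s.2, hs⟩
  choose! a ha using ha
  let R : Setoid (Subgroup G) :=
    { r := fun L M => ∃ g : G, cj g L = M
      iseqv := ⟨fun L => ⟨1, cj_one L⟩, fun {L M} ⟨g, hg⟩ => ⟨g⁻¹, by rw [← hg, cj_inv_cj]⟩,
        fun {L M N} ⟨g, hg⟩ ⟨h, hh⟩ => ⟨h * g, by rw [cj_mul, hg, hh]⟩⟩ }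
  let rep : Subgroup G → Subgroup G := fun L => Quotient.out (Quotient.mk R L)
  have hrep : ∀ L, ∃ g : G, cj g (rep L) = L := fun L =>
    @Quotient.exact _ R _ _ (Quotient.out_eq (Quotient.mk R L))
  have hrep' : ∀ L (g : G), rep (cj g L) = rep L := fun L g => by
    change Quotient.out _ = Quotient.out _
    congr 1
    exact Quotient.sound ⟨g⁻¹, cj_inv_cj g L⟩
  have hrr : ∀ M, rep (rep M) = rep M := by
    intro M
    obtain ⟨g, hg⟩ := hrep M
    conv_rhs => rw [← hg]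
    rw [hrep']
  have hrD : ∀ M ∈ D, rep M ∈ D := by
    intro M hM
    obtain ⟨g, hg⟩ := hrep M
    have h1 := hconj M hM g⁻¹
    rw [← hg, cj_inv_cj] at h1
    rwa [← hg, hrep', hrr]
  have ha1 : ∀ L ∈ D, a L ≠ 1 := by
    intro L hL h1
    obtain ⟨h2, h3⟩ := ha L hL
    exact h3.1 (Subtype.ext h1)
  have haL : ∀ L ∈ D, a L ∈ L := fun L hL => (ha L hL).1
  -- the structure of the elements
  have hkey : ∀ M ∈ D, ∀ g : G, ∀ L ∈ D, g * a (rep M) * g⁻¹ ∈ L → cj g (rep M) = L := by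
    intro M hM g L hL h1
    exact family_disj hF (hDF (hconj _ (hrD M hM) g)) (hDF hL) (conj_ne_one (ha1 _ (hrD M hM)))
      (cj_mul_mem (haL _ (hrD M hM))) h1
  refine ⟨{x | ∃ M ∈ D, ∃ g : G, x = g * a (rep M) * g⁻¹}, ?_, ?_, fun L hL => ⟨?_, ?_, ?_⟩⟩
  · rintro _ ⟨M, hM, g, rfl⟩
    exact ⟨conj_ne_one (ha1 _ (hrD M hM)), _, hconj _ (hrD M hM) g,
      cj_mul_mem (haL _ (hrD M hM))⟩
  · rintro g _ ⟨M, hM, h, rfl⟩
    exact ⟨M, hM, g * h, by group⟩
  · obtain ⟨g, hg⟩ := hrep L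
    refine ⟨_, ⟨L, hL, g, rfl⟩, ?_⟩
    have h1 := cj_mul_mem (g := g) (haL _ (hrD L hL))
    rwa [hg] at h1
  · rintro _ ⟨M, hM, g, rfl⟩ hs
    have h1 := hkey M hM g L hL hs
    obtain ⟨h2, h3⟩ := ha _ (hrD M hM)
    subst h1
    exact h3.congr ((rep M).equivMapOfInjective (MulAut.conj g).toMonoidHom (MulAut.conj g).injective)
  · rintro _ ⟨M, hM, g, rfl⟩ hs _ ⟨M', hM', h, rfl⟩ ht
    have h1 := hkey M hM g L hL hs
    have h2 := hkey M' hM' h L hL ht
    have h3 : rep M = rep M' := by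
      have e1 : rep L = rep M := by rw [← h1, hrep', hrr]
      have e2 : rep L = rep M' := by rw [← h2, hrep', hrr]
      rw [← e1, e2]
    refine ⟨h * g⁻¹, ?_, ?_⟩
    · rw [← cj_eq_iff, cj_mul]
      conv_lhs => rw [← h1]
      rw [cj_inv_cj, h3, h2]
    · rw [h3]
      group

/-- the local condition -/
theorem local_of [Finite G] {S : Set G} {L : Subgroup G} (h1 : ∃ s ∈ S, s ∈ L)
    (h2 : ∀ s ∈ S, ∀ hs : s ∈ L, RegElt p (⟨s, hs⟩ : L))
    (h3 : ∀ s ∈ S, s ∈ L → ∀ t ∈ S, t ∈ L → ∃ g ∈ normalizer (L : Set G), g * s * g⁻¹ = t)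
    (hS : ∀ g : G, ∀ x ∈ S, g * x * g⁻¹ ∈ S) : LocalGood p S L where
  ne := h1
  move := fun h _ _ s hs _ => hS h s hs
  order := fun s hs hsL hd => (h2 s hs hsL).2.1 (by rwa [Subgroup.orderOf_mk])
  fix := fun s hs hsL => (h2 s hs hsL).local.1
  kernel := fun s hs hsL => (h2 s hs hsL).local.2.1
  same := fun s hs hsL t ht htL => by
    obtain ⟨g, hg, hgt⟩ := h3 s hs hsL t ht htL
    refine ⟨⟨g, hg, hgt⟩, fun x hx hxp => ?_⟩
    rw [← hgt]
    exact (h2 s hs hsL).local.2.2 x hx hxp g hg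

/-- the sign of the good elements of an `EuSub` component -/
lemma gdU_sign (L : Subgroup G) : ∃ ε : ℤ, ∀ s ∈ gdU p L, 0 < ε * lam p L s := by
  by_cases h : ∃ s', s' ≠ 1 ∧ UB p L s' ∧ 0 < lam p L s'
  · refine ⟨1, fun s hs => ?_⟩
    obtain ⟨s', h1, h2, h3⟩ := h
    obtain ⟨-, -, h4 | ⟨-, h4⟩⟩ := hs
    · rwa [one_mul]
    · exact absurd (h4 s' h1 h2) (not_le.2 h3)
  · refine ⟨-1, fun s hs => ?_⟩
    obtain ⟨h1, h2, h4 | ⟨h4, -⟩⟩ := hs
    · exact absurd ⟨s, h1, h2, h4⟩ h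
    · linarith

/-- **Mixing**: the sign of the Lefschetz numbers is constant. -/
theorem mixed_sign [hp : Fact p.Prime] [Finite G] {F DE DR : Set (Subgroup G)} {S : Set G}
    (hF : Family p F) (hE : DE ⊆ F) (hR : DR ⊆ F) (hdisj : ∀ L ∈ DE, L ∉ DR)
    (hcE : ∀ L ∈ DE, ∀ g : G, cj g L ∈ DE) (hcR : ∀ L ∈ DR, ∀ g : G, cj g L ∈ DR)
    (hC : Rest F (∅ : Set (Subgroup G)) = ⊥)
    (hgE : ∀ L ∈ DE, ∀ x ∈ L, x ∈ S → x ∈ gdU p L) (hloc : ∀ L ∈ DR, LocalGood p S L) :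
    ∃ ε : ℤ, ∀ z ∈ Sel (DE ∪ DR) S,
      0 < ε * lam p (Rz (Rest F (DE ∪ DR)) (DE ∪ DR)) z := by
  classical
  obtain ⟨k, hk⟩ := sign_const hF hR hcR hC hloc
  choose ε hε using fun L : Subgroup G => gdU_sign (p := p) L
  refine ⟨(∏ L ∈ (Set.toFinite DE).toFinset, ε L) * (-1) ^ k, fun z hz => ?_⟩
  set D := DE ∪ DR with hD
  have hDF : D ⊆ F := Set.union_subset hE hR
  have hcD : ∀ L ∈ D, ∀ g : G, cj g L ∈ D := by
    rintro L (hL | hL) g
    · exact Or.inl (hcE L hL g)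
    · exact Or.inr (hcR L hL g)
  have hFamD : Fam p (Rest F D) D := family_Fam hF hDF hcD
  have hFamE : Fam p (Rest F DE) DE := family_Fam hF hE hcE
  have hFamR : Fam p (Rest F DR) DR := family_Fam hF hR hcR
  set K := Rz (Rest F D) D with hKdef
  set C := Rz (Rest F DR) DR with hCdef
  have hCE : ∀ x ∈ C, ∀ L ∈ DE, x ∈ centralizer (L : Set G) := fun x hx L hL =>
    mem_Rest.1 (mem_Rz.1 hx).1 L (hE hL) (hdisj L hL)
  have hcomm : ∀ x ∈ Gn DE, ∀ y ∈ C, x * y = y * x := by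
    intro x hx y hy
    have h1 : Gn DE ≤ centralizer (C : Set G) := by
      refine iSup₂_le fun L hL x hx => ?_
      rw [mem_centralizer_iff]
      intro y hy
      exact ((mem_centralizer_iff.1 (hCE y hy L hL)) x hx).symm
    exact ((mem_centralizer_iff.1 (h1 hx)) y hy).symm
  have hGRC : Gn DR ≤ C := hFamR.gn_le_Rz
  have hGED : Gn DE ≤ Gn D := biSup_mono fun L hL => Or.inl hL
  have hGEK : Gn DE ≤ K := hGED.trans hFamD.gn_le_Rz
  have hCK : C ≤ K := by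
    intro x hx
    refine mem_Rz.2 ⟨mem_Rest.2 fun M hM hMD => mem_Rest.1 (mem_Rz.1 hx).1 M hM fun h =>
      hMD (Or.inr h), ?_⟩
    rintro L (hL | hL)
    · exact centralizer_le_normalizer _ (hCE x hx L hL)
    · exact (mem_Rz.1 hx).2 L hL
  have hKN : ∀ e ∈ K, ∀ M ∈ F, e ∈ normalizer (M : Set G) := by
    intro e he M hM
    by_cases hMD : M ∈ D
    · exact (mem_Rz.1 he).2 M hMD
    · exact centralizer_le_normalizer _ (mem_Rest.1 (mem_Rz.1 he).1 M hM hMD)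
  have hCn : ∀ e ∈ K, ∀ x ∈ C, e * x * e⁻¹ ∈ C := by
    intro e he x hx
    refine mem_Rz.2 ⟨mem_Rest.2 fun M hM hMD => conj_centralizer (hKN e he M hM)
      (mem_Rest.1 (mem_Rz.1 hx).1 M hM hMD), fun L hL => ?_⟩
    exact mul_mem (mul_mem (hKN e he L (hR hL)) ((mem_Rz.1 hx).2 L hL))
      (inv_mem (hKN e he L (hR hL)))
  have hGn : ∀ e : G, ∀ x ∈ Gn DE, e * x * e⁻¹ ∈ Gn DE := fun e x hx =>
    (mem_normalizer_iff.1 (mem_normalizer_Gn fun L hL => hcE L hL e) x).1 hx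
  -- the decomposition of `z`
  obtain ⟨a, ha, b, hb, hzab⟩ : ∃ a ∈ Gn DE, ∃ b ∈ Gn DR, z = a * b := by
    have h1 : z ∈ Gn DE ⊔ Gn DR := by
      have h2 : (⨆ L ∈ D, L : Subgroup G) = Gn DE ⊔ Gn DR := iSup_union
      rw [← h2]
      exact hz.1
    exact mem_sup_comm (fun a ha b hb => hcomm a ha b (hGRC hb)) h1
  have hbC : b ∈ C := hGRC hb
  set H := Gn DE ⊔ C with hH
  have hHK : H ≤ K := sup_le hGEK hCK
  have haH : a ∈ H := mem_sup_left ha
  have hbH : b ∈ H := mem_sup_right hbC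
  have hzH : z ∈ H := hzab ▸ mul_mem haH hbH
  have hzK : z ∈ K := hHK hzH
  -- the first reduction
  have hlam1 : lam p K z = lam p H z := by
    rw [lam, lam]
    refine eu_coreflect (fun E => E ⊓ H) _ _ _ (Set.toFinite _) rfl ?_ ?_
      (fun E _ => inf_le_left) (fun E _ F hF hFE => le_inf hFE hF.1.2)
    · rintro E ⟨⟨h1, h2⟩, h3⟩
      exact ⟨⟨h1, h2.trans hHK⟩, h3⟩
    · rintro E ⟨⟨h1, h2⟩, h3⟩
      refine ⟨⟨⟨?_, fun x hx y hy => h1.2.1 x hx.1 y hy.1, fun x hx => h1.2.2 x hx.1⟩,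
        inf_le_right⟩, w2_conj h3 hzH⟩
      intro hbot
      obtain ⟨⟨e, he⟩, he1'⟩ := Subgroup.ne_bot_iff_exists_ne_one.1 h1.1
      have he1 : e ≠ 1 := fun h => he1' (Subtype.ext h)
      have heK : e ∈ K := h2 he
      have h4 : z * e * z⁻¹ * e⁻¹ ∈ E ⊓ H := by
        refine ⟨E.mul_mem ((mem_normalizer_iff.1 h3 e).1 he) (E.inv_mem he), ?_⟩
        have h5 : z * e * z⁻¹ * e⁻¹ = z * ((e * b⁻¹ * e⁻¹) * (e * a⁻¹ * e⁻¹)) := by
          rw [hzab]
          group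
        rw [h5]
        exact mul_mem hzH (mul_mem (mem_sup_right (hCn e heK _ (inv_mem hbC)))
          (mem_sup_left (hGn e _ (inv_mem ha))))
      rw [hbot, Subgroup.mem_bot] at h4
      have hez : e * z = z * e := by
        have h5 := mul_inv_eq_one.1 h4
        exact (mul_inv_eq_iff_eq_mul.1 h5).symm
      -- `e` lies in `H`
      have hex : ∀ L ∈ DE, ∃ l ∈ L, l⁻¹ * e ∈ centralizer (L : Set G) := by
        intro L hL
        obtain ⟨s, hsS, hsL, hsz⟩ := hz.2 L (Or.inl hL)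
        have h5 := hgE L hL s hsL hsS
        have heN := hKN e heK L (hE hL)
        have h6 := (mem_Cn.1 (sel_comm (hF.centre L (hE hL)) hsL hsz heN hez)).2
        have h7 : e ∈ L ⊔ centralizer (L : Set G) := by
          by_contra hcon
          exact h5.2.1.2 e heN (h1.2.2 e he) hcon h6
        obtain ⟨l, hl, c, hc', hlc⟩ := mem_sup_cent h7
        refine ⟨l, hl, ?_⟩
        rw [hlc, inv_mul_cancel_left]
        exact hc'
      choose! l hl hlc using hex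
      obtain ⟨d, hd, hdc⟩ := exists_prod hF hE l hl
      rw [sSup_eq_iSup] at hd
      have hd' : d ∈ Gn DE := hd
      have hde : d⁻¹ * e ∈ C := by
        have hdK : d⁻¹ * e ∈ K := mul_mem (inv_mem (hGEK hd')) heK
        refine mem_Rz.2 ⟨mem_Rest.2 fun M hM hMR => ?_, fun L hL => hKN _ hdK L (hR hL)⟩
        by_cases hME : M ∈ DE
        · obtain ⟨c, hc', hdc'⟩ := hdc M hME
          have h5 : d⁻¹ * e = c⁻¹ * ((l M)⁻¹ * e) := by
            rw [hdc']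
            group
          rw [h5]
          exact mul_mem (inv_mem hc') (hlc M hME)
        · exact mem_Rest.1 (mem_Rz.1 hdK).1 M hM fun h => h.elim hME hMR
      have heH : e ∈ H := by
        have h5 : e = d * (d⁻¹ * e) := by group
        rw [h5]
        exact mul_mem (mem_sup_left hd') (mem_sup_right hde)
      have h5 : e ∈ E ⊓ H := ⟨he, heH⟩
      rw [hbot, Subgroup.mem_bot] at h5
      exact he1 h5
  -- the product formula
  have hint : Gn DE ⊓ C = ⊥ := by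
    rw [eq_bot_iff]
    rintro x ⟨hx1, hx2⟩
    rw [Subgroup.mem_bot]
    refine hF.center_trivial hE ?_ fun L hL => hCE x hx2 L hL
    rw [sSup_eq_iSup]
    exact hx1
  have hz1 : z ∈ normalizer (Gn DE : Set G) := mem_normalizer_Gn fun L hL => hcE L hL z
  have hz2 : z ∈ normalizer (C : Set G) := by
    rw [hzab]
    exact mul_mem (mem_of_comm (hcomm a ha)) (le_normalizer hbC)
  have hlam2 : lam p H z = lam p (Gn DE) z * lam p C z := lam_sup hcomm hint hz1 hz2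
  have hlam3 : lam p (Gn DE) z = lam p (Gn DE) a := by
    rw [hzab]
    exact lam_mul_right fun x hx => (hcomm x hx b hbC).symm
  have hlam4 : lam p C z = lam p C b := by
    rw [hzab, hcomm a ha b hbC]
    exact lam_mul_right fun x hx => hcomm a ha x hx
  have hlam5 : lam p (Gn DE) a = ∏ L ∈ (Set.toFinite DE).toFinset, lam p L a := lam_prod hFamE ha
  have hpos1 : 0 < ∏ L ∈ (Set.toFinite DE).toFinset, (ε L * lam p L a) := by
    refine Finset.prod_pos fun L hL => ?_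
    rw [Set.Finite.mem_toFinset] at hL
    obtain ⟨s, hsS, hsL, hsz⟩ := hz.2 L (Or.inl hL)
    have h1 : s⁻¹ * a ∈ centralizer (L : Set G) := by
      have h2 : s⁻¹ * a = s⁻¹ * z * b⁻¹ := by
        rw [hzab]
        group
      rw [h2]
      exact mul_mem hsz (inv_mem (hCE b hbC L hL))
    have h2 : lam p L a = lam p L s := by
      have h3 : lam p L (s * (s⁻¹ * a)) = lam p L s :=
        lam_mul_right fun y hy => ((mem_centralizer_iff.1 h1) y hy).symm
      rwa [mul_inv_cancel_left] at h3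
    rw [h2]
    exact hε L s (hgE L hL s hsL hsS)
  have hbS : b ∈ Sel DR S := by
    refine ⟨hb, fun L hL => ?_⟩
    obtain ⟨s, hsS, hsL, hsz⟩ := hz.2 L (Or.inr hL)
    refine ⟨s, hsS, hsL, ?_⟩
    have haL : a ∈ centralizer (L : Set G) := by
      have h1 : Gn DE ≤ centralizer (L : Set G) := by
        refine iSup₂_le fun M hM x hx => ?_
        rw [mem_centralizer_iff]
        intro y hy
        refine hF.comm L (hR hL) M (hE hM) ?_ y hy x hx
        rintro rfl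
        exact hdisj L hM hL
      exact h1 ha
    have h2 : s⁻¹ * a⁻¹ = a⁻¹ * s⁻¹ := (mem_centralizer_iff.1 (inv_mem haL)) _ (inv_mem hsL)
    have h3 : s⁻¹ * b = a⁻¹ * (s⁻¹ * z) := by
      calc s⁻¹ * b = (s⁻¹ * a⁻¹) * (a * b) := by group
        _ = a⁻¹ * (s⁻¹ * z) := by rw [h2, hzab]; group
    rw [h3]
    exact mul_mem (inv_mem haL) hsz
  have hpos2 := hk b hbS
  rw [hlam1, hlam2, hlam3, hlam4, hlam5]
  have h9 : (∏ L ∈ (Set.toFinite DE).toFinset, ε L) * (-1) ^ k *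
      ((∏ L ∈ (Set.toFinite DE).toFinset, lam p L a) * lam p C b) =
      (∏ L ∈ (Set.toFinite DE).toFinset, (ε L * lam p L a)) * ((-1) ^ k * lam p C b) := by
    rw [Finset.prod_mul_distrib]
    ring
  rw [h9]
  exact mul_pos hpos1 hpos2

end

end Vale.Agent.P240.H195
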