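import Vale.Agent.P240.H195.RGB

/-!
The main theorem with components satisfying `RegFree`.
-/

namespace Vale.Agent.P240.H195

open Subgroup Vale.Agent.P240.K Finsupp

universe u v

section
variable {G : Type u} [Group G] {p : ℕ}

/-- `FreeSub p p` is impossible for groups of order divisible by `p` with trivial centre -/
theorem freeSub_self [hp : Fact p.Prime] [Finite G] {L : Subgroup G} (hd : p ∣ Nat.card L)
    (hc : L ⊓ centralizer (L : Set G) = ⊥) (h : FreeSub p p L) : False := by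
  obtain ⟨U, hUL, hU, hfree⟩ := h
  -- a Sylow subgroup of `L` containing `U`
  have hU' : IsPGroup p (U.subgroupOf L) := hU.comap_of_injective L.subtype L.subtype_injective
  obtain ⟨P, hP⟩ := hU'.exists_le_sylow
  have hPne : Nontrivial P := by
    rw [← Finite.one_lt_card_iff_nontrivial]
    have h1 : p ∣ Nat.card P := by
      have := P.dvd_card_of_dvd_card hd
      exact this
    exact lt_of_lt_of_le hp.out.one_lt (Nat.le_of_dvd Nat.card_pos h1)
  have hZ : Nontrivial (center P) := P.2.center_nontrivial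
  have hZp : p ∣ Nat.card (center P) := by
    obtain ⟨n, hn⟩ := IsPGroup.iff_card.1 (P.2.to_subgroup (center P))
    have hn0 : n ≠ 0 := by
      rintro rfl
      rw [pow_zero] at hn
      exact absurd (Finite.one_lt_card (α := center P)) (by rw [hn]; exact lt_irrefl _)
    rw [hn]
    exact dvd_pow_self p hn0
  obtain ⟨z, hz⟩ := exists_prime_orderOf_dvd_card' p hZp
  set x : G := (((z : P) : L) : G) with hx
  have hxp : x ^ p = 1 := by
    have h1 : z ^ p = 1 := orderOf_dvd_iff_pow_eq_one.1 hz.dvd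
    have h2 := congrArg (fun y : center P => (((y : P) : L) : G)) h1
    exact h2
  have hx1 : x ≠ 1 := by
    intro h1
    have h2 : z = 1 := by
      apply Subtype.ext
      apply Subtype.ext
      exact Subtype.ext h1
    rw [h2, orderOf_one] at hz
    exact hp.out.one_lt.ne hz
  have hxL : x ∈ L := ((z : P) : L).2
  have hE : ElemAb p (zpowers x) := by
    refine ⟨by rwa [Ne, zpowers_eq_bot], ?_, ?_⟩
    · rintro _ ⟨i, rfl⟩ _ ⟨j, rfl⟩
      exact (Commute.refl x).zpow_zpow i j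
    · rintro _ ⟨i, rfl⟩
      change (x ^ i) ^ p = 1
      rw [← zpow_natCast, zpow_comm, zpow_natCast, hxp, one_zpow]
  have hEL : zpowers x ≤ L := by rwa [zpowers_le]
  have h1 := hfree _ hE (hEL.trans le_normalizer) (by
    intro u hu
    refine mem_of_comm ?_
    have hux : u * x = x * u := by
      have huP : (⟨u, hUL hu⟩ : L) ∈ (P : Subgroup L) := hP hu
      have h2 := mem_center_iff.1 z.2 ⟨⟨u, hUL hu⟩, huP⟩
      have h3 := congrArg (fun y : P => ((y : L) : G)) h2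
      exact h3
    rintro _ ⟨i, rfl⟩
    exact Commute.zpow_right (show Commute u x from hux) i)
  exact hE.1 (le_bot_iff.1 (hc ▸ le_inf hEL h1))

/-- **The main theorem** for groups with `O_p(G) = O_{p'}(G) = 1`, with components satisfying
`RegFree`. -/
theorem all_reg {𝕜 : Type v} [Field 𝕜] [hp : Fact p.Prime] [Finite G]
    (hO : OpTrivial p G) (hO' : OpPrimeTrivial p G)
    (h : ∀ L ∈ Q.Comp G, (RigidLie p L ∨ Treated 𝕜 p p L ∨ EuSub p L) ∨ RegFree p L) :
    K.HQ 𝕜 p G := by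
  classical
  have hF := comp_family hO hO'
  rw [HQ_iff]
  set R : Set (Subgroup G) := {L | L ∈ Q.Comp G ∧ RigidLie p L} with hR
  set DE : Set (Subgroup G) := {L | L ∈ Q.Comp G ∧ ¬ RigidLie p L ∧ EuSub p L} with hDE
  set DR : Set (Subgroup G) := {L | L ∈ Q.Comp G ∧ ¬ RigidLie p L ∧ ¬ EuSub p L ∧ RegFree p L}
    with hDR
  set T : Set (Subgroup G) := {L | L ∈ Q.Comp G ∧ ¬ RigidLie p L ∧ ¬ EuSub p L ∧ ¬ RegFree p L}
    with hT
  have hEi : ∀ (L : Subgroup G) (g : G), EuSub p (cj g L) → EuSub p L := by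
    intro L g h3
    have h1 := h3.cj g⁻¹
    rwa [cj_inv_cj] at h1
  have hRc : ∀ (L : Subgroup G) (g : G), RegFree p L → RegFree p (cj g L) := fun L g h3 =>
    h3.congr (L.equivMapOfInjective (MulAut.conj g).toMonoidHom (MulAut.conj g).injective)
  have hRgc : ∀ g : G, ∀ L ∈ R, cj g L ∈ R := fun g L hL =>
    ⟨hF.conj L hL.1 g, rigidLie_cj hL.2⟩
  have hcE : ∀ L ∈ DE, ∀ g : G, cj g L ∈ DE := by
    rintro L ⟨h1, h2, h3⟩ g
    exact ⟨hF.conj L h1 g, fun hcon => h2 (rigidLie_cj_iff.1 hcon), h3.cj g⟩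
  have hcR : ∀ L ∈ DR, ∀ g : G, cj g L ∈ DR := by
    rintro L ⟨h1, h2, h3, h4⟩ g
    exact ⟨hF.conj L h1 g, fun hcon => h2 (rigidLie_cj_iff.1 hcon), fun hcon => h3 (hEi L g hcon),
      hRc L g h4⟩
  have hrem : ∀ L ∈ T, Removable 𝕜 p L := by
    rintro L ⟨hL, h1, h2, h2'⟩
    rcases (h L hL).resolve_right h2' with h3 | (h3 | ⟨h3, h4⟩ | ⟨r, hr, hrp, h3, h4⟩ | ⟨h3, h4⟩ |
      h3 | h3) | h3
    · exact absurd h3 h1
    · exact removable_alt h3
    · rcases h4 with h4 | ⟨h4, -⟩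
      · exact Or.inl ⟨fewOuter_of_same h4, almostSimpleHQ_char h3 hp.out h4⟩
      · exact absurd rfl h4
    · have hfree : AutFree p r L := h3.autFree hr hp.out hrp.symm
      rcases h4 with h4 | h4 | h4
      · exact absurd h4 hrp
      · exact Or.inr ⟨r, hr, hrp, h4, hfree.freeSub⟩
      · exact Or.inl ⟨h4, hfree.almostSimpleHQ hr⟩
    · rcases h4 with ⟨r, hr, h4⟩ | h4
      · exact Or.inl ⟨h3, h4.almostSimpleHQ hr⟩
      · exact Or.inl ⟨h3, h4⟩
    · exact (freeSub_self (l2_dvd hO' L hL) (hF.centre L hL) h3).elim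
    · exact Or.inr h3
    · exact absurd h3 h2
  have hDEF : DE ⊆ Q.Comp G := fun L hL => hL.1
  have hDRF : DR ⊆ Q.Comp G := fun L hL => hL.1
  have hDF : DE ∪ DR ⊆ Q.Comp G := Set.union_subset hDEF hDRF
  have hdisj : ∀ L ∈ DE, L ∉ DR := fun L h1 h2 => h2.2.2.1 h1.2.2
  have hcD : ∀ L ∈ DE ∪ DR, ∀ g : G, cj g L ∈ DE ∪ DR := by
    rintro L (hL | hL) g
    · exact Or.inl (hcE L hL g)
    · exact Or.inr (hcR L hL g)
  obtain ⟨S₀, hS1, hS2, hS3⟩ := exists_classes hF hDRF hcR fun L hL => hL.2.2.2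
  set S : Set G := {x | (x ≠ 1 ∧ ∃ L ∈ DE, x ∈ L ∧ x ∈ gdU p L) ∨ x ∈ S₀} with hS
  have hScj : ∀ (g : G), ∀ x ∈ S, g * x * g⁻¹ ∈ S := by
    rintro g x (⟨hx1, L, hL, hxL, hx⟩ | hx)
    · refine Or.inl ⟨conj_ne_one hx1, cj g L, hcE L hL g, cj_mul_mem hxL, gdU_cj.2 ?_⟩
      have e : g⁻¹ * (g * x * g⁻¹) * g = x := by group
      rwa [e]
    · exact Or.inr (hS2 g x hx)
  have hSR : ∀ L ∈ DR, ∀ x ∈ L, x ∈ S → x ∈ S₀ := by
    rintro L hL x hxL (⟨hx1, M, hM, hxM, -⟩ | hx)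
    · have h1 := family_disj hF (hDEF hM) (hDRF hL) hx1 hxM hxL
      subst h1
      exact absurd hL (hdisj _ hM)
    · exact hx
  have hSE : ∀ L ∈ DE, ∀ x ∈ L, x ∈ S → x ∈ gdU p L := by
    rintro L hL x hxL (⟨hx1, M, hM, hxM, hx⟩ | hx)
    · have h1 := family_disj hF (hDEF hM) (hDEF hL) hx1 hxM hxL
      subst h1
      exact hx
    · obtain ⟨hx1, M, hM, hxM⟩ := hS1 x hx
      have h1 := family_disj hF (hDEF hL) (hDRF hM) hx1 hxL hxM
      subst h1
      exact absurd hM (hdisj _ hL)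
  have hloc : ∀ L ∈ DR, LocalGood p S L := by
    intro L hL
    obtain ⟨h1, h2, h3⟩ := hS3 L hL
    refine local_of ?_ (fun s hs hsL => h2 s (hSR L hL s hsL hs) hsL)
      (fun s hs hsL t ht htL => h3 s (hSR L hL s hsL hs) hsL t (hSR L hL t htL ht) htL) hScj
    obtain ⟨s, hs, hsL⟩ := h1
    exact ⟨s, Or.inr hs, hsL⟩
  obtain ⟨ε, hε⟩ := mixed_sign hF hDEF hDRF hdisj hcE hcR (comp_rest hO hO') hSE hloc
  refine remove hF (T := T) (fun L hL => hL.1) hrem ?_
  refine rigid_step (R := R) (fun L hL => hF.le_Cen (fun L hL => hL.1) hL.1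
    fun hcon => hcon.2.1 hL.2) (fun g _ => hRgc g)
    (fun L hL M hM => hF.comm L hL.1 M hM.1) (fun L hL => hL.2) ?_
  rw [← Cen_union]
  refine prod_cen (S := S) hF (D := DE ∪ DR) hDF hcD (fun L _ h _ _ _ s hs _ => hScj h s hs) ?_
    (T := T ∪ R) ?_ ?_ ?_
  · intro h0
    -- the set of elements is not empty
    have hne : ∀ L ∈ DE ∪ DR, ∃ x ∈ S, x ∈ L := by
      rintro L (hL | hL)
      · obtain ⟨s, hs⟩ := hL.2.2.nonempty (l2_dvd hO' L hL.1)
        exact ⟨s, Or.inl ⟨hs.1, L, hL, hs.2.1.1, hs⟩, hs.2.1.1⟩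
      · obtain ⟨⟨s, hs, hsL⟩, -⟩ := hS3 L hL
        exact ⟨s, Or.inr hs, hsL⟩
    choose! l hlS hlL using hne
    obtain ⟨d, hd, hdc⟩ := exists_prod hF hDF l hlL
    have hdS : d ∈ Sel (DE ∪ DR) S := by
      refine ⟨?_, fun L hL => ⟨l L, hlS L hL, hlL L hL, ?_⟩⟩
      · rw [sSup_eq_iSup] at hd
        exact hd
      · obtain ⟨c, hc, hdc⟩ := hdc L hL
        rw [hdc, inv_mul_cancel_left]
        exact hc
    have h1 : 0 < ∑ z ∈ (Set.toFinite (Sel (DE ∪ DR) S)).toFinset,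
        ε * lam p (Rz (Rest (K.Comp G) (DE ∪ DR)) (DE ∪ DR)) z :=
      Finset.sum_pos (fun z hz => hε z ((Set.Finite.mem_toFinset _).1 hz))
        ⟨d, (Set.Finite.mem_toFinset _).2 hdS⟩
    rw [← Finset.mul_sum, h0, mul_zero] at h1
    exact lt_irrefl _ h1
  · rintro L (hL | hL)
    · exact hL.1
    · exact hL.1
  · rintro L (hL | hL) (hL' | hL')
    · exact hL'.2.2.1 hL.2.2
    · exact hL.2.1 hL'.2
    · exact hL'.2.2.2 hL.2.2.2
    · exact hL.2.1 hL'.2
  · intro L hL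
    by_cases h1 : RigidLie p L
    · exact Or.inr (Or.inr ⟨hL, h1⟩)
    · by_cases h2 : EuSub p L
      · exact Or.inl (Or.inl ⟨hL, h1, h2⟩)
      · by_cases h3 : RegFree p L
        · exact Or.inl (Or.inr ⟨hL, h1, h2, h3⟩)
        · exact Or.inr (Or.inl ⟨hL, h1, h2, h3⟩)

/-- **The main theorem** for groups with `O_p(G) = O_{p'}(G) = 1`. -/
theorem all_good {𝕜 : Type v} [Field 𝕜] [hp : Fact p.Prime] [Finite G] {l : ℕ}
    (hO : OpTrivial p G) (hO' : OpPrimeTrivial p G) (hl : l.Prime)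
    (h : ∀ L ∈ Q.Comp G, GoodComp 𝕜 p l L) : K.HQ 𝕜 p G := by
  by_cases hlp : l = p
  · subst hlp
    refine all_reg hO hO' fun L hL => ?_
    rcases h L hL with h | h | h | ⟨-, h⟩
    · exact Or.inl (Or.inl h)
    · exact Or.inl (Or.inr (Or.inl h))
    · exact Or.inl (Or.inr (Or.inr h))
    · exact Or.inr h
  · refine all_eu hO hO' hl fun L hL => ?_
    rcases h L hL with h | h | h | ⟨h, -⟩
    · exact Or.inl h
    · exact Or.inr (Or.inl h)
    · exact Or.inr (Or.inr h)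
    · exact absurd h hlp

end

end Vale.Agent.P240.H195
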