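import Mathlib.FieldTheory.Finite.Basic
import Vale.Agent.P240.H195.RG10

/-!
The groups `PSL_n(F)`, `n = 2 ^ a ≥ 4`, `|F| ≡ 3` modulo `4`.
-/

namespace Vale.Agent.P240.H195

open Subgroup Matrix Vale.Agent.P240.K

/-- powers of two that differ by two -/
lemma two_pow_diff {u v : ℕ} (h : 2 ^ u + 2 = 2 ^ v) : u = 1 := by
  have h4 : ∀ k : ℕ, 2 ^ (k + 1 + 1) = 4 * 2 ^ k := fun k => by ring
  obtain _ | _ | k := u
  · obtain _ | _ | v := v
    · simp at h
    · simp at h
    · rw [h4, pow_zero] at h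
      omega
  · rfl
  · exfalso
    have h1 : 0 < 2 ^ k := pow_pos (by norm_num) _
    obtain _ | _ | v := v
    · rw [h4, pow_zero] at h
      omega
    · rw [h4, zero_add, pow_one] at h
      omega
    · rw [h4, h4] at h
      omega

/-- powers of primes `r ≡ 3` modulo `4` of the form `2 ^ a + 1` -/
lemma pow_eq_nine {r j a : ℕ} (hr : r % 4 = 3) (ha : 2 ≤ a) (h : r ^ j = 2 ^ a + 1) :
    a = 3 ∧ r = 3 := by
  have h4 : (2 ^ a + 1) % 4 = 1 := by
    obtain ⟨b, rfl⟩ := Nat.exists_eq_add_of_le ha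
    rw [pow_add]
    omega
  have heven : Even j := by
    by_contra hodd
    rw [Nat.not_even_iff_odd] at hodd
    obtain ⟨i, rfl⟩ := hodd
    have h1 : r ^ (2 * i + 1) % 4 = 3 := by
      have h2 : r ^ 2 % 4 = 1 := by
        rw [Nat.pow_mod, hr]
      rw [pow_succ, pow_mul, Nat.mul_mod, Nat.pow_mod, h2, one_pow, hr]
      norm_num
    rw [h] at h1
    omega
  obtain ⟨i, rfl⟩ := heven
  have h1 : 1 ≤ r ^ i := Nat.one_le_pow _ _ (by omega)
  have h2 : (r ^ i + 1) * (r ^ i - 1) = 2 ^ a := by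
    have h3 := Nat.mul_self_sub_mul_self_eq (r ^ i) 1
    rw [← pow_add, h, mul_one] at h3
    omega
  have hd1 : r ^ i - 1 ∣ 2 ^ a := Dvd.intro_left _ h2
  have hd2 : r ^ i + 1 ∣ 2 ^ a := Dvd.intro _ h2
  obtain ⟨u, -, hu⟩ := (Nat.dvd_prime_pow Nat.prime_two).1 hd1
  obtain ⟨v, -, hv⟩ := (Nat.dvd_prime_pow Nat.prime_two).1 hd2
  have hu1 := two_pow_diff (u := u) (v := v) (by omega)
  subst hu1
  have h3 : r ^ i = 3 := by omega
  have hi : i ≠ 0 := by
    rintro rfl
    rw [pow_zero] at h3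
    omega
  have hdvd : r ∣ 3 := h3 ▸ dvd_pow_self r hi
  have hr3 : r = 3 := by
    rcases (Nat.dvd_prime Nat.prime_three).1 hdvd with h4 | h4
    · omega
    · exact h4
  refine ⟨?_, hr3⟩
  have h5 : 2 ^ a = 2 ^ 3 := by
    rw [← h2, h3]
    norm_num
  exact Nat.pow_right_injective le_rfl h5

/-- the hypotheses `RegHyp` -/
theorem regHyp_of {F : Type*} [Field F] [Finite F] {r m a : ℕ} [hr : Fact r.Prime]
    [hrc : CharP F r] (ha : 2 ≤ a) (hm : m + 1 = 2 ^ a) (hq : Nat.card F % 4 = 3)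
    (hex : ¬ (a = 3 ∧ r = 3)) (hs : IsSimpleGroup (PL m F))
    (hc : ∀ x : PL m F, (∀ y, x * y = y * x) → x = 1) :
    RegHyp r m a ((Nat.card F - 1) / 2) F := by
  have hfin : Fintype F := Fintype.ofFinite F
  obtain ⟨f, -, hf⟩ := FiniteField.card F r
  rw [← Nat.card_eq_fintype_card] at hf
  have hr4 : r % 4 = 3 := by
    have h1 : r % 4 = 0 ∨ r % 4 = 1 ∨ r % 4 = 2 ∨ r % 4 = 3 := by omega
    have h2 : Nat.card F % 4 = (r % 4) ^ (f : ℕ) % 4 := by rw [hf, Nat.pow_mod]
    have hf0 : (f : ℕ) ≠ 0 := f.pos.ne'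
    have h3 : ∀ b : ℕ, 2 ∣ b → ¬ (b ^ (f : ℕ)) % 4 = 3 := by
      intro b hb h
      have h4 : 2 ∣ b ^ (f : ℕ) := hb.trans (dvd_pow_self b hf0)
      omega
    rcases h1 with h1 | h1 | h1 | h1
    · rw [h1] at h2
      exact absurd (h2.symm.trans hq) (h3 0 (by norm_num))
    · rw [h1, one_pow] at h2
      omega
    · rw [h1] at h2
      exact absurd (h2.symm.trans hq) (h3 2 (by norm_num))
    · exact h1
  have h4 : 4 ≤ 2 ^ a := by
    calc 4 = 2 ^ 2 := rfl
      _ ≤ 2 ^ a := Nat.pow_le_pow_right (by norm_num) ha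
  exact
    { prime := hr.out
      char := hrc
      ne := by omega
      deg := hm
      rank := by omega
      ex := fun j hj => hex (pow_eq_nine (j := j) hr4 ha (by rw [hj, ← hm]))
      odd := by
        rw [Nat.odd_iff]
        omega
      sign := fun x hx => by
        have h1 : x ^ (Nat.card F - 1) = 1 := by
          rw [Nat.card_eq_fintype_card]
          exact FiniteField.pow_card_sub_one_eq_one x hx
        have h2 : Nat.card F - 1 = (Nat.card F - 1) / 2 + (Nat.card F - 1) / 2 := by omega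
        rw [h2, pow_add] at h1
        exact mul_self_eq_one_iff.1 h1
      simple := hs
      centre := hc }

end Vale.Agent.P240.H195
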