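import Vale.Agent.P240.H195.CF
import Vale.Agent.P240.H195.RAdic

/-!
Elementary abelian `p`-groups acting on a group `V` of order prime to `p`: if the nonabelian
composition factors of `V` satisfy `AutFree` for some primes, then there is a solvable invariant
subgroup with the same kernel.
-/

namespace Vale.Agent.P240.H195

open Subgroup Vale.Agent.P240.K
open scoped Pointwise

universe u

section
variable {H : Type u} [Group H] {p : ℕ}

/-- coprime action: trivial on `W` and modulo `W` -/
lemma cop_triv [hp : Fact p.Prime] [Finite H] {V W : Subgroup H} {x : H} (hx : x ^ p = 1)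
    (hV : ¬ p ∣ Nat.card V) (hWV : W ≤ V) (h1 : ∀ w ∈ W, x * w = w * x)
    (h2 : ∀ v ∈ V, x * v * x⁻¹ * v⁻¹ ∈ W) {v : H} (hv : v ∈ V) : x * v = v * x := by
  set w := x * v * x⁻¹ * v⁻¹ with hw
  have hwW : w ∈ W := h2 v hv
  have e1 : x * v * x⁻¹ = w * v := by rw [hw]; group
  have key : ∀ k : ℕ, x ^ k * v * (x ^ k)⁻¹ = w ^ k * v := by
    intro k
    induction k with
    | zero => simp
    | succ k ih =>
      have h3 : x * w ^ k * x⁻¹ = w ^ k := by
        rw [h1 _ (pow_mem hwW k)]
        group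
      calc x ^ (k + 1) * v * (x ^ (k + 1))⁻¹ = x * (x ^ k * v * (x ^ k)⁻¹) * x⁻¹ := by
            rw [pow_succ']; group
        _ = x * (w ^ k * v) * x⁻¹ := by rw [ih]
        _ = (x * w ^ k * x⁻¹) * (x * v * x⁻¹) := by group
        _ = w ^ k * (w * v) := by rw [h3, e1]
        _ = w ^ (k + 1) * v := by rw [pow_succ]; group
  have h4 := key p
  rw [hx, one_mul, inv_one, mul_one] at h4
  have h5 : w ^ p = 1 := (mul_eq_right.1 h4.symm)
  have h6 : orderOf w ∣ p := orderOf_dvd_of_pow_eq_one h5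
  have h7 : orderOf w ∣ Nat.card V := by
    have := orderOf_dvd_natCard (⟨w, hWV hwW⟩ : V)
    rwa [orderOf_mk] at this
  have h8 : orderOf w = 1 := by
    rcases (Nat.dvd_prime hp.out).1 h6 with h | h
    · exact h
    · exact absurd (h ▸ h7) hV
  rw [orderOf_eq_one_iff] at h8
  rw [h8, one_mul] at e1
  exact mul_inv_eq_iff_eq_mul.1 e1

lemma isPGroup_of_pow {A : Subgroup H} (hA : ∀ x ∈ A, x ^ p = 1) : IsPGroup p A :=
  fun x => ⟨1, by rw [pow_one]; exact Subtype.ext (hA x x.2)⟩

/-- an invariant Sylow subgroup -/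
lemma inv_sylow [hp : Fact p.Prime] [Finite H] {M A : Subgroup H} (hM : M.Normal)
    (hpM : ¬ p ∣ Nat.card M) (hA : ∀ x ∈ A, x ^ p = 1) (r : ℕ) [hr : Fact r.Prime] :
    ∃ R : Sylow r M, ∀ x ∈ A, ∀ y ∈ (R : Subgroup M).map M.subtype,
      x * y * x⁻¹ ∈ (R : Subgroup M).map M.subtype := by
  let φ : A →* MulAut M := (MulAut.conjNormal (H := M)).comp A.subtype
  let _ : MulAction A (Sylow r M) := MulAction.compHom _ φ
  have hcard : ¬ p ∣ Nat.card (Sylow r M) := by
    intro h
    refine hpM (h.trans ?_)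
    have h1 : Nat.card (Sylow r M) ∣ ((default : Sylow r M) : Subgroup M).index :=
      Sylow.card_dvd_index _
    exact h1.trans (Subgroup.index_dvd_card _)
  obtain ⟨R, hR⟩ := (isPGroup_of_pow hA).nonempty_fixed_point_of_prime_not_dvd_card
    (Sylow r M) hcard
  refine ⟨R, ?_⟩
  rintro x hx _ ⟨y, hy, rfl⟩
  have h1 : φ ⟨x, hx⟩ • R = R := hR ⟨x, hx⟩
  have h2 : φ ⟨x, hx⟩ y ∈ (R : Subgroup M) := by
    have h3 : φ ⟨x, hx⟩ • y ∈ φ ⟨x, hx⟩ • (R : Subgroup M) := Subgroup.smul_mem_pointwise_smul _ _ _ hy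
    have h4 : φ ⟨x, hx⟩ • (R : Subgroup M) = (R : Subgroup M) := by
      have := congrArg (fun P : Sylow r M => (P : Subgroup M)) h1
      exact this
    rwa [h4] at h3
  exact ⟨_, h2, rfl⟩

/-- a nonabelian minimal normal subgroup `M` and a minimal normal subgroup `K` of `M` -/
lemma min_simple [Finite H] {M : Subgroup H} (hM : MinNormal M) {K : Subgroup M}
    (hK : MinNormal K) (hna : ∃ x ∈ M, ∃ y ∈ M, x * y ≠ y * x) :
    IsSimpleGroup (K.map M.subtype) ∧ ∃ x y : (K.map M.subtype : Subgroup H), x * y ≠ y * x := by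
  set L : Subgroup H := K.map M.subtype with hL
  have hLC : L ∈ Comp H := ⟨M, hM, K, hK, rfl⟩
  have hMle : M ≤ normalClosure (L : Set H) :=
    l2_le_of_normal hM hK inferInstance subset_normalClosure
  have hconj : ∀ z ∈ Group.conjugatesOfSet (L : Set H), ∃ L' ∈ Comp H, z ∈ L' ∧
      ∃ g : H, L' = L.map (MulAut.conj g).toMonoidHom := by
    intro z hz
    rw [Group.mem_conjugatesOfSet_iff] at hz
    obtain ⟨y, hy, hyz⟩ := hz
    obtain ⟨g, rfl⟩ := isConj_iff.1 hyz
    exact ⟨_, l2_conj L hLC g, ⟨y, hy, rfl⟩, g, rfl⟩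
  have hnab : ∃ x y : L, x * y ≠ y * x := by
    by_contra hab
    push Not at hab
    have hab' : ∀ x ∈ L, ∀ y ∈ L, x * y = y * x := fun x hx y hy =>
      congrArg Subtype.val (hab ⟨x, hx⟩ ⟨y, hy⟩)
    have h1 : ∀ a ∈ Group.conjugatesOfSet (L : Set H), ∀ b ∈ Group.conjugatesOfSet (L : Set H),
        a * b = b * a := by
      intro a ha b hb
      obtain ⟨L1, hL1, haL, g1, hg1⟩ := hconj a ha
      obtain ⟨L2, hL2, hbL, g2, hg2⟩ := hconj b hb
      by_cases h : L1 = L2
      · subst h
        rw [hg1] at haL hbL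
        obtain ⟨a', ha', rfl⟩ := haL
        obtain ⟨b', hb', rfl⟩ := hbL
        rw [← map_mul, ← map_mul, hab' a' ha' b' hb']
      · exact l2_comm L1 hL1 L2 hL2 h a haL b hbL
    have h2 : normalClosure (L : Set H) ≤
        centralizer (Group.conjugatesOfSet (L : Set H)) := by
      refine (closure_le _).2 fun a ha => ?_
      rw [SetLike.mem_coe, mem_centralizer_iff]
      exact fun b hb => h1 b hb a ha
    have h3 : normalClosure (L : Set H) ≤
        centralizer ((normalClosure (L : Set H) : Subgroup H) : Set H) := by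
      refine (closure_le _).2 fun a ha => ?_
      rw [SetLike.mem_coe, mem_centralizer_iff]
      intro b hb
      exact (mem_centralizer_iff.1 (h2 hb) a ha).symm
    obtain ⟨x, hx, y, hy, hxy⟩ := hna
    exact hxy ((mem_centralizer_iff.1 (h3 (hMle hy)) x (hMle hx)))
  refine ⟨?_, hnab⟩
  have hnt : Nontrivial L := by
    obtain ⟨x, y, hxy⟩ := hnab
    refine ⟨x, y, ?_⟩
    rintro rfl
    exact hxy rfl
  refine ⟨fun X hX => ?_⟩
  have hXn : ∀ l ∈ L, ∀ x ∈ X.map L.subtype, l * x * l⁻¹ ∈ X.map L.subtype := by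
    rintro l hl _ ⟨x, hx, rfl⟩
    exact ⟨_, hX.conj_mem x hx ⟨l, hl⟩, rfl⟩
  have hN : M ≤ normalizer ((X.map L.subtype : Subgroup H) : Set H) := by
    refine hMle.trans ((closure_le _).2 fun a ha => ?_)
    obtain ⟨L', hL', haL, g, -⟩ := hconj a ha
    by_cases h : L' = L
    · subst h
      rw [SetLike.mem_coe, mem_normalizer_iff]
      intro x
      refine ⟨fun hx => hXn a haL x hx, fun hx => ?_⟩
      have h1 := hXn a⁻¹ (inv_mem haL) _ hx
      have e : a⁻¹ * (a * x * a⁻¹) * a⁻¹⁻¹ = x := by group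
      rwa [e] at h1
    · have hc : ∀ x ∈ L, a * x = x * a := fun x hx => l2_comm L' hL' L hLC h a haL x hx
      rw [SetLike.mem_coe, mem_normalizer_iff]
      intro x
      constructor
      · intro hx
        rw [hc x (map_subtype_le X hx), mul_inv_cancel_right]
        exact hx
      · intro hx
        have h1 : x = a⁻¹ * (a * x * a⁻¹) * a := by group
        have h2 := hc _ (map_subtype_le X hx)
        have h3 : x = a * x * a⁻¹ := by
          rw [h1]
          calc a⁻¹ * (a * x * a⁻¹) * a = a⁻¹ * ((a * x * a⁻¹) * a) := by group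
            _ = a⁻¹ * (a * (a * x * a⁻¹)) := by rw [h2]
            _ = a * (a⁻¹ * (a * x * a⁻¹) * a) * a⁻¹ := by group
        rw [h3]
        exact hx
  have hXK : (X.map L.subtype).subgroupOf M ≤ K := by
    intro x hx
    rw [mem_subgroupOf] at hx
    obtain ⟨k, hk, hkx⟩ := map_subtype_le X hx
    have : k = x := Subtype.ext hkx
    exact this ▸ hk
  have hXM : ((X.map L.subtype).subgroupOf M).Normal := by
    refine ⟨fun n hn g => ?_⟩
    rw [mem_subgroupOf] at hn ⊢
    exact (mem_normalizer_iff.1 (hN g.2) n).1 hn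
  rcases hK.2.2 _ hXM hXK with h | h
  · left
    rw [eq_bot_iff]
    intro x hx
    have h1 : (x : H) ∈ M := map_subtype_le K x.2
    have h2 : (⟨x, h1⟩ : M) ∈ (X.map L.subtype).subgroupOf M := by
      rw [mem_subgroupOf]
      exact ⟨x, hx, rfl⟩
    rw [h, mem_bot] at h2
    have h3 : (x : H) = 1 := congrArg (fun z : M => (z : H)) h2
    rw [mem_bot]
    exact Subtype.ext h3
  · right
    rw [eq_top_iff]
    intro x _
    obtain ⟨k, hk, hkx⟩ := x.2
    have hk' : k ∈ (X.map L.subtype).subgroupOf M := by rw [h]; exact hk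
    rw [mem_subgroupOf] at hk'
    obtain ⟨y, hy, hyk⟩ := hk'
    have : y = x := Subtype.ext (hyk.trans hkx)
    exact this ▸ hy

/-- Sylow's theorem for `r`-subgroups of `M` -/
lemma conj_sylow [Finite H] {M Y : Subgroup H} (hYM : Y ≤ M) {r : ℕ} [hr : Fact r.Prime]
    (R : Sylow r M) (hY : IsPGroup r Y) :
    ∃ m ∈ M, ∀ y ∈ Y, m * y * m⁻¹ ∈ (R : Subgroup M).map M.subtype := by
  have h1 : IsPGroup r (Y.subgroupOf M) :=
    hY.of_injective (Subgroup.subgroupOfEquivOfLe hYM).toMonoidHom
      (Subgroup.subgroupOfEquivOfLe hYM).injective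
  obtain ⟨Q, hQ⟩ := h1.exists_le_sylow
  obtain ⟨m, hm⟩ := MulAction.exists_smul_eq M Q R
  refine ⟨m, m.2, fun y hy => ?_⟩
  have h2 : (⟨y, hYM hy⟩ : M) ∈ (Q : Subgroup M) := hQ (mem_subgroupOf.2 hy)
  have h3 : m * ⟨y, hYM hy⟩ * m⁻¹ ∈ (R : Subgroup M) := by
    rw [← hm]
    have h4 := Subgroup.smul_mem_pointwise_smul (⟨y, hYM hy⟩ : M) (MulAut.conj m)
      (Q : Subgroup M) h2
    exact h4
  exact ⟨_, h3, rfl⟩

/-- an element of order `p` that centralizes a Sylow `r`-subgroup of `M` centralizes `L` -/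
lemma cent_of_sylow [hp : Fact p.Prime] [Finite H] {M L : Subgroup H}
    (hML : M ≤ normalizer (L : Set H)) (hLM : L ≤ M) {r : ℕ} [hr : Fact r.Prime] (R : Sylow r M)
    (hfree : AutFree p r L) (hrd : r ∣ Nat.card L) {x : H} (hx : x ^ p = 1)
    (hxR : ∀ y ∈ (R : Subgroup M).map M.subtype, x * y = y * x)
    (hcent : ∀ y ∈ L, (∀ z ∈ L, y * z = z * y) → y = 1)
    (hcj : L.map (MulAut.conj x).toMonoidHom = L ∨
      ∀ y ∈ L, ∀ z ∈ L.map (MulAut.conj x).toMonoidHom, y * z = z * y) :
    x ∈ centralizer (L : Set H) := by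
  have hxN : x ∈ normalizer (L : Set H) := by
    rcases hcj with h | h
    · rwa [← cj_eq_iff]
    · exfalso
      obtain ⟨y, hy⟩ := exists_prime_orderOf_dvd_card' (G := L) r hrd
      have hy1 : (y : H) ≠ 1 := by
        intro h1
        have h2 : y = 1 := Subtype.ext h1
        rw [h2, orderOf_one] at hy
        exact hr.out.one_lt.ne hy
      have hYp : IsPGroup r (zpowers (y : H)) := by
        rw [IsPGroup.iff_card]
        exact ⟨1, by rw [Nat.card_zpowers, ← hy, orderOf_coe, pow_one]⟩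
      obtain ⟨m, hm, hmR⟩ := conj_sylow ((zpowers_le.2 (hLM y.2))) R hYp
      have hz := hmR y (mem_zpowers _)
      have hzL : m * y * m⁻¹ ∈ L := (mem_normalizer_iff.1 (hML hm) _).1 y.2
      have hzx : m * y * m⁻¹ ∈ L.map (MulAut.conj x).toMonoidHom := by
        refine ⟨m * y * m⁻¹, hzL, ?_⟩
        change x * (m * y * m⁻¹) * x⁻¹ = _
        rw [hxR _ hz]
        group
      have h1 := hcent _ hzL fun z hz' => (h z hz' _ hzx).symm
      apply hy1
      have h2 : (y : H) = m⁻¹ * (m * y * m⁻¹) * m := by group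
      rw [h2, h1]
      group
  obtain ⟨U, hUL, hU, hE⟩ := hfree.freeSub
  obtain ⟨m, hm, hmR⟩ := conj_sylow (hUL.trans hLM) R hU
  have hmN := hML hm
  set x' := m⁻¹ * x * m with hx'
  have hx'p : x' ^ p = 1 := by
    have := conj_pow (i := p) (a := m⁻¹) (b := x)
    rw [inv_inv] at this
    rw [hx', this, hx, mul_one, inv_mul_cancel]
  have hx'N : x' ∈ normalizer (L : Set H) := mul_mem (mul_mem (inv_mem hmN) hxN) hmN
  have hcomm : ∀ u ∈ U, u * x' = x' * u := by
    intro u hu
    have h1 := hxR _ (hmR u hu)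
    have h2 : u * x' = m⁻¹ * (m * u * m⁻¹ * x) * m := by rw [hx']; group
    rw [h2, ← h1, hx']
    group
  have hx'C : x' ∈ centralizer (L : Set H) := by
    by_cases h1 : x' = 1
    · rw [h1]; exact one_mem _
    · refine hE (zpowers x') ⟨?_, ?_, ?_⟩ (zpowers_le.2 hx'N) ?_ (mem_zpowers x')
      · rwa [Ne, zpowers_eq_bot]
      · rintro _ ⟨i, rfl⟩ _ ⟨j, rfl⟩
        exact ((Commute.refl x').zpow_zpow i j).eq
      · rintro _ ⟨i, rfl⟩
        change (x' ^ i) ^ p = 1
        rw [← zpow_natCast, ← zpow_mul, mul_comm, zpow_mul, zpow_natCast, hx'p, one_zpow]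
      · intro u hu
        have h3 : u ∈ centralizer (zpowers x' : Set H) := by
          rw [mem_centralizer_iff]
          rintro _ ⟨i, rfl⟩
          exact (Commute.zpow_left (show Commute x' u from (hcomm u hu).symm) i).eq
        exact centralizer_le_normalizer _ h3
  have h2 := conj_centralizer hmN hx'C
  have h3 : m * x' * m⁻¹ = x := by rw [hx']; group
  rwa [h3] at h2

lemma range_sup_of_comm {A B : Subgroup H} (h : ∀ a ∈ A, ∀ b ∈ B, a * b = b * a) :
    ∃ f : A × B →* H, f.range = A ⊔ B := by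
  have hc : ∀ (a : A) (b : B), Commute (A.subtype a) (B.subtype b) := fun a b => h a a.2 b b.2
  refine ⟨MonoidHom.noncommCoprod A.subtype B.subtype hc, ?_⟩
  rw [MonoidHom.noncommCoprod_range, Subgroup.range_subtype, Subgroup.range_subtype]

/-- the prime may be chosen to divide the order of `L` -/
lemma autFree_dvd {L : Type u} [Group L] [Finite L] [Nontrivial L]
    (h : ∃ r : ℕ, r.Prime ∧ AutFree p r L) : ∃ r : ℕ, r.Prime ∧ r ∣ Nat.card L ∧ AutFree p r L := by
  obtain ⟨r, hr, U, hU, hfree⟩ := h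
  have : Fact r.Prime := ⟨hr⟩
  by_cases hU1 : U = ⊥
  · obtain ⟨r', hr', hd⟩ := Nat.exists_prime_and_dvd (Finite.one_lt_card (α := L)).ne'
    refine ⟨r', hr', hd, ⊥, IsPGroup.of_bot, fun E hE _ => hfree E hE ?_⟩
    rw [hU1, Subgroup.map_bot]
    exact bot_le
  · refine ⟨r, hr, ?_, U, hU, hfree⟩
    obtain ⟨n, hn⟩ := IsPGroup.iff_card.1 hU
    have hn0 : n ≠ 0 := by
      rintro rfl
      rw [pow_zero] at hn
      exact hU1 (Subgroup.card_eq_one.1 hn)
    exact ((dvd_pow_self r hn0).trans (hn ▸ dvd_rfl)).trans (Subgroup.card_subgroup_dvd_card U)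

theorem solv_inv [hp : Fact p.Prime] : ∀ (n : ℕ) (H : Type u) [Group H] [Finite H]
    (V A : Subgroup H), V.Normal → Nat.card V ≤ n → ¬ p ∣ Nat.card V → (∀ x ∈ A, x ^ p = 1) →
    (∀ (L : Type u) [Group L], CompFactor V L → ∃ r : ℕ, r.Prime ∧ AutFree p r L) →
    ∃ Y ≤ V, Group.IsSolvable Y ∧ (∀ x ∈ A, ∀ y ∈ Y, x * y * x⁻¹ ∈ Y) ∧
      ∀ x ∈ A, (∀ y ∈ Y, x * y = y * x) → ∀ v ∈ V, x * v = v * x := by
  intro n
  induction n with
  | zero =>
    intro H _ _ V A _ hn
    exact absurd (Nat.card_pos (α := V)) (by omega)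
  | succ n ih =>
    intro H _ _ V A hV hn hpV hA hF
    by_cases hV1 : V = ⊥
    · refine ⟨⊥, bot_le, inferInstance, ?_, ?_⟩
      · intro x _ y hy
        rw [Subgroup.mem_bot] at hy ⊢
        rw [hy, mul_one, mul_inv_cancel]
      · intro x _ _ v hv
        rw [hV1, Subgroup.mem_bot] at hv
        rw [hv, mul_one, one_mul]
    obtain ⟨M, hMV, hM⟩ := l2_exists_min V hV hV1
    have hMn := hM.1
    set π : H →* H ⧸ M := QuotientGroup.mk' M with hπ
    have hπs : Function.Surjective π := QuotientGroup.mk'_surjective M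
    have hπ1 : ∀ x, π x = 1 ↔ x ∈ M := fun x => QuotientGroup.eq_one_iff x
    have hsm : Function.Surjective (π.subgroupMap V) := π.subgroupMap_surjective V
    have hcard : Nat.card (V.map π) < Nat.card V := by
      refine lt_of_le_of_ne (Nat.card_le_card_of_surjective _ hsm) fun hcd => hM.2.1 ?_
      have hinj := ((Nat.bijective_iff_surjective_and_card _).2 ⟨hsm, hcd.symm⟩).1
      rw [eq_bot_iff]
      intro m hm
      have h1 : π.subgroupMap V ⟨m, hMV hm⟩ = 1 := Subtype.ext ((hπ1 m).2 hm)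
      have h2 := hinj (h1.trans (map_one _).symm)
      exact Subgroup.mem_bot.2 (congrArg Subtype.val h2)
    have hpV' : ¬ p ∣ Nat.card (V.map π) := fun h =>
      hpV (h.trans (Subgroup.card_dvd_of_surjective _ hsm))
    obtain ⟨Y', hY'V, hY's, hY'i, hY'c⟩ := ih (H ⧸ M) (V.map π) (A.map π) (hV.map π hπs)
      (by omega) hpV' (by
        rintro _ ⟨x, hx, rfl⟩
        rw [← map_pow, hA x hx, map_one]) (fun L _ hL => hF L (hL.of_map (π.subgroupMap V) hsm))
    set Z : Subgroup H := Y'.comap π with hZ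
    have hMZ : M ≤ Z := by
      intro m hm
      rw [hZ, mem_comap, (hπ1 m).2 hm]
      exact one_mem _
    have hZV : Z ≤ V := by
      intro z hz
      obtain ⟨v, hv, hvz⟩ := hY'V (mem_comap.1 hz)
      have h1 : v⁻¹ * z ∈ M := by
        rw [← hπ1, map_mul, map_inv, hvz, inv_mul_cancel]
      have h2 : z = v * (v⁻¹ * z) := by group
      rw [h2]
      exact mul_mem hv (hMV h1)
    have hZi : ∀ x ∈ A, ∀ z ∈ Z, x * z * x⁻¹ ∈ Z := by
      intro x hx z hz
      rw [hZ, mem_comap, map_mul, map_mul, map_inv]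
      exact hY'i _ ⟨x, hx, rfl⟩ _ hz
    have hZc : ∀ x ∈ A, (∀ z ∈ Z, x * z = z * x) → ∀ v ∈ V, x * v = v * x := by
      intro x hx hxZ v hv
      refine cop_triv (hA x hx) hpV hMV (fun m hm => hxZ m (hMZ hm)) (fun v hv => ?_) hv
      rw [← hπ1, map_mul, map_mul, map_mul, map_inv, map_inv]
      have h1 := hY'c (π x) ⟨x, hx, rfl⟩ (fun y hy => ?_) (π v) ⟨v, hv, rfl⟩
      · rw [h1]; group
      · obtain ⟨z, rfl⟩ := hπs y
        rw [← map_mul, ← map_mul, hxZ z hy]
    by_cases hab : ∀ x ∈ M, ∀ y ∈ M, x * y = y * x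
    · refine ⟨Z, hZV, ?_, hZi, hZc⟩
      have hMs : Group.IsSolvable M :=
        Group.isSolvable_of_comm fun a b => Subtype.ext (hab a a.2 b b.2)
      refine Group.isSolvable_of_ker_le_range (Subgroup.inclusion hMZ) (π.subgroupComap Y') ?_
      intro z hz
      have h1 : (z : H) ∈ M := by
        rw [← hπ1]
        exact congrArg Subtype.val hz
      exact ⟨⟨z, h1⟩, rfl⟩
    push Not at hab
    have hMC : M ⊓ centralizer (M : Set H) = ⊥ := by
      rcases hM.2.2 (M ⊓ centralizer (M : Set H)) inferInstance inf_le_left with h | h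
      · exact h
      · exfalso
        obtain ⟨x, hx, y, hy, hxy⟩ := hab
        have h1 : y ∈ M ⊓ centralizer (M : Set H) := by rw [h]; exact hy
        exact hxy (mem_centralizer_iff.1 (mem_inf.1 h1).2 x hx)
    have hMt : (⊤ : Subgroup M) ≠ ⊥ := by
      intro h
      apply hM.2.1
      rw [eq_bot_iff]
      intro x hx
      have hx' : (⟨x, hx⟩ : M) ∈ (⊤ : Subgroup M) := mem_top _
      rw [h, Subgroup.mem_bot] at hx'
      exact Subgroup.mem_bot.2 (congrArg Subtype.val hx')
    obtain ⟨K, -, hK⟩ := l2_exists_min (⊤ : Subgroup M) inferInstance hMt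
    obtain ⟨hLs, hLna⟩ := min_simple hM hK hab
    set L : Subgroup H := K.map M.subtype with hL
    have hLC : L ∈ Comp H := ⟨M, hM, K, hK, rfl⟩
    have hLM : L ≤ M := map_subtype_le K
    have hLMn : ∀ m ∈ M, ∀ l ∈ L, m * l * m⁻¹ ∈ L := by
      rintro m hm _ ⟨l, hl, rfl⟩
      exact ⟨_, hK.1.conj_mem l hl ⟨m, hm⟩, rfl⟩
    have hCF : CompFactor V L := by
      refine ⟨hLs, hLna, L.subgroupOf V,
        (Subgroup.subgroupOfEquivOfLe (hLM.trans hMV)).toMonoidHom, ?_,
        (Subgroup.subgroupOfEquivOfLe (hLM.trans hMV)).surjective⟩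
      have h0 : (M.subgroupOf V).Normal := inferInstance
      refine Subgroup.IsSubnormal.step _ (M.subgroupOf V) (fun x hx => hLM hx) h0.isSubnormal ?_
      refine ⟨fun a ha g => ?_⟩
      rw [mem_subgroupOf, mem_subgroupOf] at ha ⊢
      exact hLMn _ g.2 _ ha
    have hLnt : Nontrivial L := hLs.toNontrivial
    obtain ⟨r, hr, hrd, hfree⟩ := autFree_dvd (hF L hCF)
    have hrF : Fact r.Prime := ⟨hr⟩
    have hpM : ¬ p ∣ Nat.card M := fun h => hpV (h.trans (card_dvd_of_le hMV))
    obtain ⟨R, hR⟩ := inv_sylow hMn hpM hA r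
    set R' : Subgroup H := (R : Subgroup M).map M.subtype with hR'
    have hR'M : R' ≤ M := map_subtype_le _
    set C : Subgroup H := centralizer (M : Set H) ⊓ Z with hC
    have hCR : ∀ a ∈ C, ∀ b ∈ R', a * b = b * a := fun a ha b hb =>
      (mem_centralizer_iff.1 (mem_inf.1 ha).1 b (hR'M hb)).symm
    have hLcent : ∀ y ∈ L, (∀ z ∈ L, y * z = z * y) → y = 1 := by
      intro y hy hz
      rcases hLs.eq_bot_or_eq_top_of_normal (Subgroup.center L) inferInstance with h | h
      · have h1 : (⟨y, hy⟩ : L) ∈ Subgroup.center L := by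
          rw [mem_center_iff]
          intro z
          exact Subtype.ext (hz z z.2).symm
        rw [h, Subgroup.mem_bot] at h1
        exact congrArg Subtype.val h1
      · exfalso
        obtain ⟨a, b, hab'⟩ := hLna
        have h1 : b ∈ Subgroup.center L := h ▸ mem_top b
        exact hab' (mem_center_iff.1 h1 a)
    have hxM : ∀ x ∈ A, (∀ y ∈ R', x * y = y * x) → ∀ m ∈ M, x * m = m * x := by
      intro x hx hxR
      have h1 : M ≤ normalClosure (L : Set H) :=
        l2_le_of_normal hM hK inferInstance subset_normalClosure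
      have h2 : normalClosure (L : Set H) ≤ centralizer {x} := by
        refine (closure_le _).2 fun a ha => ?_
        rw [Group.mem_conjugatesOfSet_iff] at ha
        obtain ⟨y, hy, hyz⟩ := ha
        obtain ⟨g, rfl⟩ := isConj_iff.1 hyz
        have h3 : x ∈ centralizer ((cj g L : Subgroup H) : Set H) := by
          have hcjL : cj g L ∈ Comp H := l2_conj L hLC g
          refine cent_of_sylow (M := M) (r := r) ?_ ?_ R (hfree.congr
            (L.equivMapOfInjective (MulAut.conj g).toMonoidHom (MulAut.conj g).injective)) ?_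
            (hA x hx) hxR ?_ ?_
          · intro m hm
            rw [mem_normalizer_iff]
            have key : ∀ m ∈ M, ∀ y ∈ cj g L, m * y * m⁻¹ ∈ cj g L := by
              intro m hm y hy
              rw [mem_cj] at hy ⊢
              have h4 := hLMn (g⁻¹ * m * g) (by
                have := hMn.conj_mem m hm g⁻¹
                rwa [inv_inv] at this) _ hy
              have e : g⁻¹ * m * g * (g⁻¹ * y * g) * (g⁻¹ * m * g)⁻¹ =
                  g⁻¹ * (m * y * m⁻¹) * g := by group
              rwa [e] at h4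
            intro y
            refine ⟨key m hm y, fun hy => ?_⟩
            have h4 := key m⁻¹ (inv_mem hm) _ hy
            have e : m⁻¹ * (m * y * m⁻¹) * m⁻¹⁻¹ = y := by group
            rwa [e] at h4
          · rintro _ ⟨y, hy, rfl⟩
            exact hMn.conj_mem y (hLM hy) g
          · rw [← Nat.card_congr (L.equivMapOfInjective (MulAut.conj g).toMonoidHom
              (MulAut.conj g).injective).toEquiv]
            exact hrd
          · intro y hy hz
            have hy' : g⁻¹ * y * g ∈ L := mem_cj.1 hy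
            have h4 := hLcent _ hy' fun z hz' => by
              have h5 := hz (g * z * g⁻¹) ⟨z, hz', rfl⟩
              have e1 : g⁻¹ * y * g * z = g⁻¹ * (y * (g * z * g⁻¹)) * g := by group
              have e2 : z * (g⁻¹ * y * g) = g⁻¹ * (g * z * g⁻¹ * y) * g := by group
              rw [e1, e2, h5]
            have e : y = g * (g⁻¹ * y * g) * g⁻¹ := by group
            rw [e, h4]
            group
          · by_cases h4 : (cj g L).map (MulAut.conj x).toMonoidHom = cj g L
            · exact Or.inl h4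
            · right
              intro y hy z hz
              exact l2_comm _ hcjL _ (l2_conj _ hcjL x) (Ne.symm h4) y hy z hz
        rw [SetLike.mem_coe, mem_centralizer_singleton_iff]
        exact mem_centralizer_iff.1 h3 _ ⟨y, hy, rfl⟩
      intro m hm
      exact ((mem_centralizer_singleton_iff.1 (h2 (h1 hm)))).symm
    refine ⟨C ⊔ R', sup_le (inf_le_right.trans hZV) (hR'M.trans hMV), ?_, ?_, ?_⟩
    · have hCs : Group.IsSolvable C := by
        refine Group.isSolvable_of_isSolvable_injective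
          (f := (π.subgroupComap Y').comp (Subgroup.inclusion (inf_le_right : C ≤ Z))) ?_
        rw [injective_iff_map_eq_one]
        intro c hc
        have h1 : (c : H) ∈ M := by
          rw [← hπ1]
          exact congrArg Subtype.val hc
        have h2 : (c : H) ∈ M ⊓ centralizer (M : Set H) := mem_inf.2 ⟨h1, (mem_inf.1 c.2).1⟩
        rw [hMC, Subgroup.mem_bot] at h2
        exact Subtype.ext h2
      have hRs : Group.IsSolvable R' := by
        have h1 : IsPGroup r R' := R.isPGroup'.map _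
        have := h1.isNilpotent
        infer_instance
      obtain ⟨f, hf⟩ := range_sup_of_comm hCR
      rw [← hf]
      exact Group.isSolvable_of_surjective f.rangeRestrict_surjective
    · intro x hx
      have h1 : C ⊔ R' ≤ (C ⊔ R').comap (MulAut.conj x).toMonoidHom := by
        refine sup_le (fun c hc => ?_) fun c hc => ?_
        · refine (le_sup_left : C ≤ C ⊔ R') (mem_inf.2 ⟨?_, hZi x hx c (mem_inf.1 hc).2⟩)
          exact (inferInstance : (centralizer (M : Set H)).Normal).conj_mem c (mem_inf.1 hc).1 x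
        · exact (le_sup_right : R' ≤ C ⊔ R') (hR x hx c hc)
      exact fun y hy => h1 hy
    · intro x hx hxY
      have hxm := hxM x hx fun y hy => hxY y ((le_sup_right : R' ≤ C ⊔ R') hy)
      refine hZc x hx fun z hz => ?_
      refine cop_triv (hA x hx) (fun h => hpV (h.trans (card_dvd_of_le hZV)))
        (inf_le_right : C ≤ Z) (fun c hc => hxY c ((le_sup_left : C ≤ C ⊔ R') hc))
        (fun z hz => mem_inf.2 ⟨?_, mul_mem (hZi x hx z hz) (inv_mem hz)⟩) hz
      rw [mem_centralizer_iff]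
      intro m hm
      have h1 : z⁻¹ * m * z ∈ M := by
        have := hMn.conj_mem m hm z⁻¹
        rwa [inv_inv] at this
      have h2 := hxm _ h1
      have h3 := hxm m hm
      calc m * (x * z * x⁻¹ * z⁻¹) = (m * x) * (z * x⁻¹ * z⁻¹) := by group
        _ = x * m * (z * x⁻¹ * z⁻¹) := by rw [h3]
        _ = x * z * ((z⁻¹ * m * z) * x⁻¹) * z⁻¹ := by group
        _ = x * z * (x⁻¹ * (x * (z⁻¹ * m * z)) * x⁻¹) * z⁻¹ := by group
        _ = x * z * (x⁻¹ * ((z⁻¹ * m * z) * x) * x⁻¹) * z⁻¹ := by rw [h2]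
        _ = x * z * x⁻¹ * z⁻¹ * m := by group

end

end Vale.Agent.P240.H195
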