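import Vale.Agent.P240.H195.RAct

/-!
If `L` is a normal subgroup of `G` with a rigid split BN-pair of characteristic `p`, then
non-acyclicity passes from `C_G(L)` to `G`.
-/

namespace Vale.Agent.P240.H195

open Subgroup Vale.Agent.P240.K Finsupp

universe u v w

section
variable {𝕜 : Type v} [Field 𝕜] {G : Type w} [Group G] {L : Type u} [Group L]
  {B N U : Subgroup L} {S : Set L} {p : ℕ} {ψ : G →* MulAut L} {ι : L →* G}

lemma sup_mod {K E : Subgroup G} (hK : K.Normal) (h1 : ∀ x ∈ E, ∀ y ∈ E, x * y * x⁻¹ * y⁻¹ ∈ K)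
    (h2 : ∀ x ∈ E, x ^ p ∈ K) : (∀ x ∈ K ⊔ E, ∀ y ∈ K ⊔ E, x * y * x⁻¹ * y⁻¹ ∈ K) ∧
      ∀ x ∈ K ⊔ E, x ^ p ∈ K := by
  have key : ∀ x ∈ K ⊔ E, ∃ y ∈ E, QuotientGroup.mk' K x = QuotientGroup.mk' K y := by
    intro x hx
    rw [Subgroup.mem_sup_of_normal_left] at hx
    obtain ⟨i, hi, r, hr, rfl⟩ := hx
    refine ⟨r, hr, ?_⟩
    have : QuotientGroup.mk' K i = 1 := (QuotientGroup.eq_one_iff i).2 hi
    rw [map_mul, this, one_mul]
  have hiff : ∀ x : G, x ∈ K ↔ QuotientGroup.mk' K x = 1 := fun x =>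
    (QuotientGroup.eq_one_iff x).symm
  refine ⟨fun x hx y hy => ?_, fun x hx => ?_⟩
  · obtain ⟨a, ha, hxa⟩ := key x hx
    obtain ⟨b, hb, hyb⟩ := key y hy
    have h3 := (hiff _).1 (h1 a ha b hb)
    rw [hiff]
    rw [map_mul, map_mul, map_mul, map_inv, map_inv] at h3 ⊢
    rw [hxa, hyb]
    exact h3
  · obtain ⟨a, ha, hxa⟩ := key x hx
    have h3 := (hiff _).1 (h2 a ha)
    rw [hiff]
    rw [map_pow] at h3 ⊢
    rw [hxa]
    exact h3

/-- two subgroups of the same order meeting the normal subgroup `K` trivially -/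
lemma sup_eq_of_card [Finite G] {K F F' : Subgroup G} (hF : K ⊓ F = ⊥)
    (hF' : K ⊓ F' = ⊥) (hcard : Nat.card F = Nat.card F') (hle : F ≤ K ⊔ F') [K.Normal] :
    K ⊔ F = K ⊔ F' := by
  have key : ∀ F : Subgroup G, K ⊓ F = ⊥ → Nat.card (K ⊔ F : Subgroup G) =
      Nat.card K * Nat.card F := by
    intro F hF
    have h1 := card_relIndex (le_sup_left : K ≤ K ⊔ F)
    have h2 := card_relIndex (inf_le_right : K ⊓ F ≤ F)
    rw [Subgroup.inf_relIndex_right, hF, Subgroup.card_bot, one_mul] at h2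
    rw [← h1, sup_comm, Subgroup.relIndex_sup_right, h2]
  refine Subgroup.eq_of_le_of_card_ge (sup_le le_sup_left hle) (le_of_eq ?_)
  rw [key F hF, key F' hF', hcard]

/-- a faithful type preserving group can be replaced by one that stabilizes `B` and `nBn⁻¹` -/
lemma Act.exists_F0 (ha : Act ψ ι) (h : SB p B N U S) [hp : Fact p.Prime] [Finite G] [Finite L]
    {n : L} (hnN : n ∈ N) (hn : ∀ x ∈ U, n * x * n⁻¹ ∈ U → x = 1)
    {F : Subgroup G} (hF : F ∈ ApB p G) (hFM : F ⊓ ψ.ker = ⊥) (hFD : F ∈ Dn ψ)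
    (hFt : F ∈ Tp ψ B) :
    ∃ F₀ : Subgroup G, F₀ ∈ ApB p G ∧ F₀ ⊓ ψ.ker = ⊥ ∧ F₀ ∈ Dn ψ ∧ F₀ ∈ Tp ψ B ∧
      Nat.card F₀ = Nat.card F ∧ (∀ f ∈ F₀, am (ψ f) B = B) ∧
      (∀ f ∈ F₀, am (ψ f) (cj n B) = cj n B) ∧
      ∃ g : G, ψ.ker ⊓ centralizer (F₀ : Set G) = cj g (ψ.ker ⊓ centralizer (F : Set G)) := by
  have hKn : ι.range.Normal := ha.normal
  have hFp : IsPGroup p F := by
    rcases hF with h1 | h1
    · rw [h1]
      exact IsPGroup.of_bot
    · exact isPGroup_of_mem h1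
  have hlong : h.toBN0.Long n := by
    refine ⟨hnN, fun s hs hrg => ?_⟩
    obtain ⟨x, hxU, hnx, hxs⟩ := h.transit' hp.out hnN hs hrg
    apply hxs
    rw [hn x hxU hnx]
    simp
  obtain ⟨g, hg⟩ := h.exists_fix hp.out (hFp.map ψ)
  set F₁ := cj (ι g)⁻¹ F with hF₁
  have hmem₁ : ∀ x ∈ F₁, ι g * x * (ι g)⁻¹ ∈ F := by
    intro x hx
    rw [hF₁, mem_cj, inv_inv] at hx
    exact hx
  have hF₁B : F₁ ∈ ApB p G := by
    rcases hF with h1 | h1
    · left
      rw [hF₁, h1]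
      exact Subgroup.map_bot _
    · right
      exact cj_mem_ApS.2 h1
  have hfix : ∀ f ∈ F₁, am (ψ f) B = B := by
    intro f hf
    have h1 := am_conj_cj (ψ (ι g * f * (ι g)⁻¹)) g (cj g B)
    rw [hg _ ⟨_, hmem₁ f hf, rfl⟩, ← cj_mul, inv_mul_cancel, cj_one] at h1
    have e : (MulAut.conj g)⁻¹ * ψ (ι g * f * (ι g)⁻¹) * MulAut.conj g = ψ f := by
      rw [map_mul, map_mul, map_inv, ha.inner]
      group
    rwa [e] at h1
  have hF₁p : IsPGroup p F₁ := hFp.map _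
  have hF₁t : F₁ ∈ Tp ψ B := by
    rintro _ ⟨f, hf, rfl⟩
    have h1 : MulAut.conj g ∈ tpS B := inn_le_tpS ⟨g, rfl⟩
    have h2 := mul_mem (mul_mem (inv_mem h1) (hFt ⟨_, hmem₁ f hf, rfl⟩)) h1
    have e : (MulAut.conj g)⁻¹ * ψ (ι g * f * (ι g)⁻¹) * MulAut.conj g = ψ f := by
      rw [map_mul, map_mul, map_inv, ha.inner]
      group
    rwa [e] at h2
  -- elements of `F₁` acting as inner automorphisms
  have hF₁i : ∀ f ∈ F₁, ψ f ∈ innS L → f = 1 := by
    intro f hf hfI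
    have h1 : ψ (ι g * f * (ι g)⁻¹) ∈ F.map ψ ⊓ innS L := by
      refine mem_inf.2 ⟨⟨_, hmem₁ f hf, rfl⟩, ?_⟩
      rw [map_mul, map_mul, map_inv]
      exact innS_normal.conj_mem _ hfI _
    rw [show F.map ψ ⊓ innS L = ⊥ from hFD, mem_bot] at h1
    have h2 : ι g * f * (ι g)⁻¹ ∈ F ⊓ ψ.ker := mem_inf.2 ⟨hmem₁ f hf, h1⟩
    rw [hFM, mem_bot] at h2
    have e : f = (ι g)⁻¹ * (ι g * f * (ι g)⁻¹) * ι g := by group
    rw [e, h2]
    group
  have hF₁K : ι.range ⊓ F₁ = ⊥ := by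
    rw [eq_bot_iff]
    rintro x ⟨⟨y, rfl⟩, h2⟩
    exact mem_bot.2 (hF₁i _ h2 ⟨y, (ha.inner y).symm⟩)
  have hcard₁ : Nat.card F₁ = Nat.card F :=
    Subgroup.card_map_of_injective (MulAut.conj (ι g)⁻¹).injective
  set D : Subgroup G := ι.range ⊔ F₁ with hD
  set R : Subgroup G := D ⊓ (stabA B ⊓ stabA (cj n B)).comap ψ with hR
  have hRD : ι.range ⊔ R = ι.range ⊔ F₁ := by
    apply le_antisymm
    · exact sup_le le_sup_left inf_le_left
    · refine sup_le le_sup_left fun f hf => ?_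
      have hfB := hfix f hf
      have hop : Opp B S (cj (ψ f n) B) := by
        refine ⟨ψ f n, rfl, fun s hs hpr => ?_⟩
        have h1 := h.tp_fix hp.out (hF₁t ⟨f, hf, rfl⟩) hfB (Q := Par B s) le_Par
        rw [← h1] at hpr
        exact hlong.2 s hs (h.rg_of_pr le_Par hnN hs self_mem_Par (pr_am hfB hpr))
      obtain ⟨u, hu, hue⟩ := (h.opp_iff hp.out hlong).1 hop
      have h2 : (ι u)⁻¹ * f ∈ R := by
        refine mem_inf.2 ⟨mul_mem (inv_mem ((le_sup_left : ι.range ≤ D) ⟨u, rfl⟩))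
          ((le_sup_right : F₁ ≤ D) hf), ?_⟩
        rw [mem_comap, map_mul, map_inv, ha.inner]
        refine mem_inf.2 ⟨?_, ?_⟩
        · rw [mem_stabA, am_mul, hfB, ← map_inv, am_conj, cj_self (inv_mem (h.le hu))]
        · rw [mem_stabA, am_mul, am_cj, hfB, hue, ← map_inv, am_conj, ← cj_mul]
          congr 1
          group
      have e : f = ι u * ((ι u)⁻¹ * f) := by group
      rw [e]
      exact mul_mem ((le_sup_left : ι.range ≤ ι.range ⊔ R) ⟨u, rfl⟩)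
        ((le_sup_right : R ≤ ι.range ⊔ R) h2)
  -- elements of `R` of `p`-power order
  have hpelt : ∀ x ∈ R, x ∈ ι.range → ∀ k : ℕ, x ^ p ^ k = 1 → x = 1 := by
    rintro φ hφ ⟨x, rfl⟩ k hk
    obtain ⟨-, hφ2⟩ := mem_inf.1 hφ
    rw [mem_comap, ha.inner] at hφ2
    obtain ⟨h1, h2⟩ := mem_inf.1 hφ2
    have h1' : cj x B = B := h1
    have h2' : cj x (cj n B) = cj n B := h2
    rw [h.opp_pelt hp.out hn h1' h2' (k := k)
      (ha.ι_inj (by rw [map_pow, map_one]; exact hk)), map_one]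
  obtain ⟨a, haa⟩ := hF₁p.exists_card_eq
  have hdvd : p ^ a ∣ Nat.card R := by
    have h1 := card_relIndex (inf_le_right : ι.range ⊓ R ≤ R)
    rw [Subgroup.inf_relIndex_right] at h1
    have h2 := card_relIndex (inf_le_right : ι.range ⊓ F₁ ≤ F₁)
    rw [Subgroup.inf_relIndex_right, hF₁K, Subgroup.card_bot, one_mul] at h2
    have h3 : ι.range.relIndex R = ι.range.relIndex F₁ := by
      rw [← Subgroup.relIndex_sup_right R ι.range, sup_comm, hRD, sup_comm,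
        Subgroup.relIndex_sup_right]
    rw [h3] at h1
    rw [← haa]
    have h4 : Nat.card F₁ = ι.range.relIndex F₁ := h2.symm
    rw [h4]
    exact ⟨_, by rw [← h1, mul_comm]⟩
  obtain ⟨P, hP⟩ := Sylow.exists_subgroup_card_pow_prime p hdvd
  set F₀ : Subgroup G := P.map R.subtype with hF₀
  have hF₀R : F₀ ≤ R := by
    rintro _ ⟨x, _, rfl⟩
    exact x.2
  have hF₀card : Nat.card F₀ = p ^ a := by
    rw [hF₀, Subgroup.card_map_of_injective R.subtype_injective, hP]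
  have hF₀p : IsPGroup p F₀ := IsPGroup.of_card hF₀card
  have hone : ∀ x ∈ F₀, x ∈ ι.range → x = 1 := by
    intro x hx hxK
    obtain ⟨k, hk⟩ := hF₀p ⟨x, hx⟩
    exact hpelt x (hF₀R hx) hxK k (by simpa using congrArg Subtype.val hk)
  have hmod := sup_mod (p := p) (E := F₁) hKn (by
      intro x hx y hy
      have : x * y * x⁻¹ * y⁻¹ = 1 := by
        rcases hF₁B with h1 | h1
        · rw [h1, mem_bot] at hx hy
          rw [hx, hy]
          group
        · rw [h1.2.1 x hx y hy]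
          group
      rw [this]
      exact one_mem _) (by
      intro x hx
      have : x ^ p = 1 := by
        rcases hF₁B with h1 | h1
        · rw [h1, mem_bot] at hx
          rw [hx, one_pow]
        · exact h1.2.2 x hx
      rw [this]
      exact one_mem _)
  have hF₀D : F₀ ≤ D := hF₀R.trans inf_le_left
  have hin : ∀ x ∈ F₀, ψ x ∈ innS L → x = 1 := by
    rintro x hx hxI
    have h1 := hF₀D hx
    rw [hD, Subgroup.mem_sup_of_normal_left] at h1
    obtain ⟨k, ⟨k', rfl⟩, f, hf, rfl⟩ := h1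
    have h2 : ψ f ∈ innS L := by
      rw [map_mul, ha.inner] at hxI
      have h3 := mul_mem (inv_mem (⟨k', rfl⟩ : MulAut.conj k' ∈ innS L)) hxI
      rwa [inv_mul_cancel_left] at h3
    have h3 := hF₁i f hf h2
    rw [h3, mul_one]
    rw [h3, mul_one] at hx
    exact hone _ hx ⟨k', rfl⟩
  refine ⟨F₀, ?_, ?_, ?_, ?_, ?_, ?_, ?_, (ι g)⁻¹, ?_⟩
  · by_cases h0 : F₀ = ⊥
    · exact Or.inl h0
    · refine Or.inr ⟨h0, fun x hx y hy => ?_, fun x hx => ?_⟩
      · have h1 := hone _ (mul_mem (mul_mem (mul_mem hx hy) (inv_mem hx)) (inv_mem hy))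
          (hmod.1 x (hF₀D hx) y (hF₀D hy))
        rw [mul_inv_eq_one, mul_inv_eq_iff_eq_mul] at h1
        exact h1
      · exact hone _ (pow_mem hx p) (hmod.2 x (hF₀D hx))
  · rw [eq_bot_iff]
    rintro x ⟨hx, hx'⟩
    refine mem_bot.2 (hin x hx ?_)
    rw [show ψ x = 1 from hx']
    exact one_mem _
  · change F₀.map ψ ⊓ innS L = ⊥
    rw [eq_bot_iff]
    rintro _ ⟨⟨x, hx, rfl⟩, hxI⟩
    rw [hin x hx hxI, map_one]
    exact one_mem _
  · rintro _ ⟨x, hx, rfl⟩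
    have h1 := hF₀D hx
    rw [hD, Subgroup.mem_sup_of_normal_left] at h1
    obtain ⟨k, ⟨k', rfl⟩, f, hf, rfl⟩ := h1
    rw [map_mul, ha.inner]
    exact mul_mem (inn_le_tpS ⟨k', rfl⟩) (hF₁t ⟨f, hf, rfl⟩)
  · rw [hF₀card, ← haa, hcard₁]
  · intro f hf
    exact (mem_inf.1 (mem_comap.1 (mem_inf.1 (hF₀R hf)).2)).1
  · intro f hf
    exact (mem_inf.1 (mem_comap.1 (mem_inf.1 (hF₀R hf)).2)).2
  · have hF₀K : ι.range ⊓ F₀ = ⊥ := by
      rw [eq_bot_iff]
      rintro x ⟨h1, h2⟩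
      exact mem_bot.2 (hone x h2 h1)
    have hDD : ι.range ⊔ F₀ = ι.range ⊔ F₁ :=
      sup_eq_of_card hF₀K hF₁K (by rw [hF₀card, haa]) hF₀D
    have key : ∀ (X Y : Subgroup G), X ≤ ι.range ⊔ Y →
        ψ.ker ⊓ centralizer (Y : Set G) ≤ ψ.ker ⊓ centralizer (X : Set G) := by
      rintro X Y hXY x ⟨hx, hxY⟩
      refine mem_inf.2 ⟨hx, mem_centralizer_iff.2 fun y hy => ?_⟩
      have h1 := hXY hy
      rw [Subgroup.mem_sup_of_normal_left] at h1
      obtain ⟨k, hk, f, hf, rfl⟩ := h1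
      have h2 := ha.comm (show ψ x = 1 from hx) hk
      have h3 := (mem_centralizer_iff.1 hxY) f hf
      rw [mul_assoc, h3, ← mul_assoc, ← h2, mul_assoc]
    have h1 : ψ.ker ⊓ centralizer (F₀ : Set G) = ψ.ker ⊓ centralizer (F₁ : Set G) :=
      le_antisymm (key F₁ F₀ (by rw [hDD]; exact le_sup_right)) (key F₀ F₁ hF₀D)
    rw [h1]
    ext x
    rw [mem_cj, mem_inf, mem_inf]
    refine and_congr ?_ ?_
    · rw [MonoidHom.mem_ker, MonoidHom.mem_ker, map_mul, map_mul, map_inv]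
      generalize ψ (ι g)⁻¹ = y
      constructor
      · intro h2
        rw [h2, mul_one, inv_mul_cancel]
      · intro h2
        have e : ψ x = y * (y⁻¹ * ψ x * y) * y⁻¹ := by group
        rw [e, h2]
        group
    · rw [hF₁, H148.mem_centralizer_cj]

/-- a cycle of `H`-stable `p`-subgroups homologous to a cycle of `H`-stable parabolic subgroups -/
theorem SB.exists_alpha' (h : SB p B N U S) [Finite L] (hr : p.Prime) {H : Set (MulAut L)}
    {z : Ch 𝕜 (Subgroup L)} (hz : z ∈ Sp 𝕜 (st (YF B H))) (hzl : len (mps B S ⊤).ncard z = z)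
    (hzb : bd z = 0) : ∃ a ∈ Sp 𝕜 (st (QF p H)), ∃ e ∈ Sp 𝕜 (st (QF p H ∪ YF B H)),
      len (mps B S ⊤).ncard a = a ∧ bd a = 0 ∧ len ((mps B S ⊤).ncard + 1) e = e ∧
      z = a + bd e := by
  obtain ⟨k, hk⟩ : ∃ k, (mps B S ⊤).ncard = k + 1 := by
    obtain ⟨s, hs⟩ := h.nonempty
    have : (mps B S ⊤).ncard ≠ 0 := by
      intro hcon
      rw [Set.ncard_eq_zero (Set.toFinite _)] at hcon
      have h1 : Par B s ∈ mps B S ⊤ := ⟨⟨s, hs, rfl⟩, le_top⟩
      rw [hcon] at h1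
      exact h1
    exact Nat.exists_eq_succ_of_ne_zero this
  rw [hk] at hzl ⊢
  obtain ⟨a, ha, e, he, hal, hae⟩ := lift_dn (S := QF p H ∪ YF B H)
    (Set.toFinite _) (X := QF p H) Set.subset_union_left (by
      rintro x hx y (hy | hy) hyx
      · exact hy
      · exact ⟨h.ne_bot_of_pb hy.1, hx.2.1.to_le hyx, hy.2.2⟩) (m := k) (by
      intro T hT hTQ
      exact hv_of_ac (h.lower_ac hr (hT.resolve_left hTQ) hTQ) _)
    (Sp_mono (st_mono Set.subset_union_right) hz) hzl (by rw [hzb]; exact Submodule.zero_mem _)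
  refine ⟨a, ha, len (k + 1 + 1) e, len_st he, hal, ?_, len_len _ _, ?_⟩
  · have := hzb
    rwa [hae, map_add, bd_bd, add_zero] at this
  · have h1 : bd e = z - a := by rw [hae]; abel
    rw [bd_len, h1, map_sub, hzl, hal]
    abel

end

end Vale.Agent.P240.H195
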