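import Mathlib.LinearAlgebra.Matrix.SpecialLinearGroup
import Mathlib.LinearAlgebra.Matrix.Permutation
import Mathlib.GroupTheory.Perm.Closure
import Mathlib.GroupTheory.Perm.Fin
import Vale.Agent.P240.H195.Defs

/-!
The BN-pair of the special linear group, part 1: triangular and monomial matrices.
-/

namespace Vale.Agent.P240.H195

open Subgroup

/-- a multiplicatively closed set in a finite group is a subgroup -/
def sgp {G : Type*} [Group G] [Finite G] (P : G → Prop) (h1 : P 1)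
    (hm : ∀ a b, P a → P b → P (a * b)) : Subgroup G where
  carrier := {x | P x}
  mul_mem' := fun {a b} ha hb => hm a b ha hb
  one_mem' := h1
  inv_mem' := by
    intro x hx
    have hpow : ∀ k : ℕ, P (x ^ k) := by
      intro k
      induction k with
      | zero => simpa using h1
      | succ k ih => rw [pow_succ]; exact hm _ _ ih hx
    have h0 : 0 < orderOf x := orderOf_pos x
    have : x⁻¹ = x ^ (orderOf x - 1) := by
      rw [inv_eq_iff_mul_eq_one, ← pow_succ', Nat.sub_add_cancel h0, pow_orderOf_eq_one]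
    change P x⁻¹
    rw [this]
    exact hpow _

lemma mem_sgp {G : Type*} [Group G] [Finite G] {P : G → Prop} {h1 : P 1}
    {hm : ∀ a b, P a → P b → P (a * b)} {x : G} : x ∈ sgp P h1 hm ↔ P x := Iff.rfl

open Matrix

section
variable {F : Type*} [Field F] {m : ℕ}

/-- the special linear group -/
abbrev SLm (m : ℕ) (F : Type*) [Field F] : Type _ := Matrix.SpecialLinearGroup (Fin (m + 1)) F

instance [Finite F] : Finite (SLm m F) :=
  Finite.of_injective (fun A : SLm m F => A.1) Subtype.val_injective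

lemma sl_mul (A B : SLm m F) (i j) : (A * B).1 i j = ∑ k, A.1 i k * B.1 k j := by
  rw [SpecialLinearGroup.coe_mul, Matrix.mul_apply]

lemma sl_ext {A B : SLm m F} (h : ∀ i j, A.1 i j = B.1 i j) : A = B :=
  Subtype.ext (Matrix.ext h)

lemma sl_one (i j : Fin (m + 1)) : (1 : SLm m F).1 i j = if i = j then 1 else 0 := by
  rw [SpecialLinearGroup.coe_one, Matrix.one_apply]

/-- upper triangular -/
def IsUp (A : SLm m F) : Prop := ∀ i j, j < i → A.1 i j = 0

/-- monomial with permutation `σ` -/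
def Mon (A : SLm m F) (σ : Equiv.Perm (Fin (m + 1))) : Prop := ∀ i j, A.1 i j ≠ 0 → i = σ j

lemma up_one : IsUp (1 : SLm m F) := by
  intro i j h
  rw [sl_one, if_neg (by rintro rfl; exact lt_irrefl _ h)]

lemma up_mul {A B : SLm m F} (hA : IsUp A) (hB : IsUp B) : IsUp (A * B) := by
  intro i j h
  rw [sl_mul]
  refine Finset.sum_eq_zero fun k _ => ?_
  rcases lt_or_ge k i with h1 | h1
  · rw [hA i k h1, zero_mul]
  · rw [hB k j (h.trans_le h1), mul_zero]

lemma up_mul_diag {A B : SLm m F} (hA : IsUp A) (hB : IsUp B) (i : Fin (m + 1)) :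
    (A * B).1 i i = A.1 i i * B.1 i i := by
  rw [sl_mul]
  refine Finset.sum_eq_single i (fun k _ hk => ?_) (fun h => absurd (Finset.mem_univ _) h)
  rcases lt_or_gt_of_ne hk with h1 | h1
  · rw [hA i k h1, zero_mul]
  · rw [hB k i h1, mul_zero]

lemma up_mul_super {A B : SLm m F} (hA : IsUp A) (hB : IsUp B) (i : Fin m) :
    (A * B).1 i.castSucc i.succ =
      A.1 i.castSucc i.castSucc * B.1 i.castSucc i.succ +
        A.1 i.castSucc i.succ * B.1 i.succ i.succ := by
  rw [sl_mul]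
  have hne : i.castSucc ≠ i.succ := (Fin.castSucc_lt_succ (i := i)).ne
  rw [← Finset.sum_pair (f := fun k => A.1 i.castSucc k * B.1 k i.succ) hne]
  symm
  refine Finset.sum_subset (Finset.subset_univ _) fun k _ hk => ?_
  rw [Finset.mem_insert, Finset.mem_singleton, not_or] at hk
  rcases lt_or_gt_of_ne hk.1 with h1 | h1
  · rw [hA _ k h1, zero_mul]
  · have h2 : i.succ < k := by
      refine lt_of_le_of_ne ?_ (Ne.symm hk.2)
      rw [Fin.lt_def] at h1
      rw [Fin.le_def]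
      simp only [Fin.val_castSucc, Fin.val_succ] at h1 ⊢
      omega
    rw [hB k _ h2, mul_zero]

lemma mon_one : Mon (1 : SLm m F) 1 := by
  intro i j h
  rw [sl_one] at h
  by_contra hne
  exact h (if_neg hne)

lemma mon_mul {A B : SLm m F} {σ τ} (hA : Mon A σ) (hB : Mon B τ) : Mon (A * B) (σ * τ) := by
  intro i j h
  rw [sl_mul] at h
  obtain ⟨k, -, hk⟩ := Finset.exists_ne_zero_of_sum_ne_zero h
  have h1 := hA i k (left_ne_zero_of_mul hk)
  have h2 := hB k j (right_ne_zero_of_mul hk)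
  rw [h1, h2, Equiv.Perm.mul_apply]

lemma mon_ne {A : SLm m F} {σ} (hA : Mon A σ) (j) : A.1 (σ j) j ≠ 0 := by
  intro h
  have hcol : ∀ i, A.1 i j = 0 := by
    intro i
    by_contra hi
    have := hA i j hi
    subst this
    exact hi h
  have hdet := A.2
  rw [Matrix.det_eq_zero_of_column_eq_zero j hcol] at hdet
  exact zero_ne_one hdet

lemma mon_eq {A : SLm m F} {σ} (hA : Mon A σ) {i j} (h : i ≠ σ j) : A.1 i j = 0 := by
  by_contra h1
  exact h (hA i j h1)

lemma mon_unique {A : SLm m F} {σ τ} (hA : Mon A σ) (hB : Mon A τ) : σ = τ := by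
  ext j
  rw [hB _ _ (mon_ne hA j)]

section
variable [Finite F]

/-- the subgroup of upper triangular matrices -/
def BU (m : ℕ) (F : Type*) [Field F] [Finite F] : Subgroup (SLm m F) :=
  sgp IsUp up_one fun _ _ => up_mul

/-- the subgroup of monomial matrices -/
def NM (m : ℕ) (F : Type*) [Field F] [Finite F] : Subgroup (SLm m F) :=
  sgp (fun A => ∃ σ, Mon A σ) ⟨1, mon_one⟩ fun _ _ ⟨σ, hσ⟩ ⟨τ, hτ⟩ => ⟨σ * τ, mon_mul hσ hτ⟩

/-- the subgroup of unipotent upper triangular matrices -/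
def UU (m : ℕ) (F : Type*) [Field F] [Finite F] : Subgroup (SLm m F) :=
  sgp (fun A => IsUp A ∧ ∀ i, A.1 i i = 1) ⟨up_one, fun i => by rw [sl_one, if_pos rfl]⟩
    fun _ _ h h' => ⟨up_mul h.1 h'.1, fun i => by
      rw [up_mul_diag h.1 h'.1, h.2, h'.2, one_mul]⟩

lemma mem_BU {A : SLm m F} : A ∈ BU m F ↔ IsUp A := Iff.rfl

lemma mem_NM {A : SLm m F} : A ∈ NM m F ↔ ∃ σ, Mon A σ := Iff.rfl

lemma mem_UU {A : SLm m F} : A ∈ UU m F ↔ IsUp A ∧ ∀ i, A.1 i i = 1 := Iff.rfl

lemma mon_inv {A : SLm m F} {σ} (hA : Mon A σ) : Mon A⁻¹ σ⁻¹ := by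
  obtain ⟨τ, hτ⟩ := mem_NM.1 (inv_mem (mem_NM.2 ⟨σ, hA⟩))
  have h1 := mon_mul hA hτ
  rw [mul_inv_cancel] at h1
  have h2 := mon_unique h1 mon_one
  rw [← eq_inv_of_mul_eq_one_right h2]
  exact hτ

omit [Finite F] in
/-- conjugation by a monomial matrix -/
lemma mon_conj {A : SLm m F} {σ} (hA : Mon A σ) (X : SLm m F) (a b) :
    (A * X * A⁻¹).1 (σ a) (σ b) = A.1 (σ a) a * X.1 a b * (A.1 (σ b) b)⁻¹ := by
  have h1 : A * X = A * X * A⁻¹ * A := by group
  have h2 : (A * X).1 (σ a) b = A.1 (σ a) a * X.1 a b := by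
    rw [sl_mul]
    refine Finset.sum_eq_single a (fun k _ hk => ?_) (fun h => absurd (Finset.mem_univ _) h)
    rw [mon_eq hA (fun h => hk (σ.injective h.symm)), zero_mul]
  have h3 : (A * X * A⁻¹ * A).1 (σ a) b = (A * X * A⁻¹).1 (σ a) (σ b) * A.1 (σ b) b := by
    rw [sl_mul]
    refine Finset.sum_eq_single (σ b) (fun k _ hk => ?_) (fun h => absurd (Finset.mem_univ _) h)
    rw [mon_eq hA hk, mul_zero]
  rw [← h1, h2] at h3
  rw [h3, mul_inv_cancel_right₀ (mon_ne hA b)]

omit [Finite F] in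
lemma mon_conj_ne {A : SLm m F} {σ} (hA : Mon A σ) (X : SLm m F) (a b) :
    (A * X * A⁻¹).1 (σ a) (σ b) ≠ 0 ↔ X.1 a b ≠ 0 := by
  rw [mon_conj hA, mul_ne_zero_iff, mul_ne_zero_iff]
  have h1 := mon_ne hA a
  have h2 := inv_ne_zero (mon_ne hA b)
  tauto

omit [Finite F] in
lemma up_diag_ne {A : SLm m F} (hA : IsUp A) (i) : A.1 i i ≠ 0 := by
  intro h
  have hdet : A.1.det = ∏ i, A.1 i i := Matrix.det_of_isUpperTriangular fun i j hij => hA i j hij
  have h0 : ∏ i, A.1 i i = 0 := Finset.prod_eq_zero (Finset.mem_univ i) h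
  have h1 : A.1.det = 1 := A.2
  rw [hdet, h0] at h1
  exact zero_ne_one h1

omit [Finite F] in
/-- `T = B ∩ N` consists of diagonal matrices -/
lemma mon_up {A : SLm m F} {σ} (hA : Mon A σ) (hU : IsUp A) : σ = 1 := by
  ext j
  rw [← hA j j (up_diag_ne hU j), Equiv.Perm.one_apply]

lemma mem_T {A : SLm m F} : A ∈ BU m F ⊓ NM m F ↔ Mon A 1 := by
  constructor
  · rintro ⟨h1, σ, h2⟩
    rw [← mon_up h2 h1]
    exact h2
  · intro h
    refine mem_inf.2 ⟨fun i j hij => mon_eq h ?_, 1, h⟩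
    rw [Equiv.Perm.one_apply]
    exact hij.ne'

lemma mem_T' {A : SLm m F} (h : Mon A 1) : IsUp A := (mem_inf.1 (mem_T.2 h)).1

end

end

end Vale.Agent.P240.H195
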