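import Vale.Agent.P240.H195.SL1

/-!
The BN-pair of the special linear group, part 2: transvections and the BN-pair axioms.
-/

namespace Vale.Agent.P240.H195

open Subgroup Matrix

section
variable {F : Type*} [Field F] {m : ℕ}

/-- transvections -/
abbrev tx {a b : Fin (m + 1)} (h : a ≠ b) (c : F) : SLm m F := SpecialLinearGroup.transvection h c

lemma tx_apply {a b : Fin (m + 1)} (h : a ≠ b) (c : F) (i j) :
    (tx h c).1 i j = (if i = j then 1 else 0) + if i = a ∧ j = b then c else 0 := by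
  have : (tx h c).1 = (1 : Matrix (Fin (m + 1)) (Fin (m + 1)) F) + single a b c := rfl
  rw [this, Matrix.add_apply, Matrix.one_apply, Matrix.single_apply]
  congr 1
  simp [eq_comm]

lemma tx_mul_apply {a b : Fin (m + 1)} (h : a ≠ b) (c : F) (M : SLm m F) (i j) :
    (tx h c * M).1 i j = M.1 i j + if i = a then c * M.1 b j else 0 := by
  rw [sl_mul]
  simp only [tx_apply, add_mul, Finset.sum_add_distrib, ite_mul, one_mul, zero_mul]
  congr 1
  · rw [Finset.sum_ite_eq Finset.univ i (fun k => M.1 k j), if_pos (Finset.mem_univ i)]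
  · by_cases hi : i = a
    · simp only [hi, true_and, if_true]
      rw [Finset.sum_ite_eq' Finset.univ b (fun k => c * M.1 k j), if_pos (Finset.mem_univ b)]
    · simp [hi]

lemma mul_tx_apply {a b : Fin (m + 1)} (h : a ≠ b) (c : F) (M : SLm m F) (i j) :
    (M * tx h c).1 i j = M.1 i j + if j = b then M.1 i a * c else 0 := by
  rw [sl_mul]
  simp only [tx_apply, mul_add, Finset.sum_add_distrib, mul_ite, mul_one, mul_zero]
  congr 1
  · rw [Finset.sum_ite_eq' Finset.univ j (fun k => M.1 i k), if_pos (Finset.mem_univ j)]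
  · by_cases hj : j = b
    · simp only [hj, and_true, if_true]
      rw [Finset.sum_ite_eq' Finset.univ a (fun k => M.1 i k * c), if_pos (Finset.mem_univ a)]
    · simp [hj]

lemma tx_up {a b : Fin (m + 1)} (h : a < b) (c : F) : IsUp (tx h.ne c) := by
  intro i j hij
  rw [tx_apply, if_neg hij.ne', if_neg, add_zero]
  rintro ⟨rfl, rfl⟩
  exact lt_asymm h hij

lemma tx_diag {a b : Fin (m + 1)} (h : a ≠ b) (c : F) (i) : (tx h c).1 i i = 1 := by
  rw [tx_apply, if_pos rfl, if_neg, add_zero]
  rintro ⟨rfl, h2⟩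
  exact h h2

lemma tx_mul_tx {a b : Fin (m + 1)} (h : a ≠ b) (c d : F) : tx h c * tx h d = tx h (c + d) :=
  (SpecialLinearGroup.transvection_add h c d).symm

lemma tx_zero {a b : Fin (m + 1)} (h : a ≠ b) : tx h (0 : F) = 1 :=
  SpecialLinearGroup.transvection_coeff_zero h

lemma tx_inv {a b : Fin (m + 1)} (h : a ≠ b) (c : F) : (tx h c)⁻¹ = tx h (-c) :=
  SpecialLinearGroup.transvection_inv h c

lemma exists_mon (σ : Equiv.Perm (Fin (m + 1))) : ∃ A : SLm m F, Mon A σ := by
  classical
  let D : Fin (m + 1) → F := fun j => if j = 0 then ((Equiv.Perm.sign σ : ℤ) : F) else 1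
  refine ⟨⟨(σ⁻¹).permMatrix F * Matrix.diagonal D, ?_⟩, ?_⟩
  · rw [Matrix.det_mul, Matrix.det_permutation, Matrix.det_diagonal]
    have h1 : ∏ i, D i = ((Equiv.Perm.sign σ : ℤ) : F) := by
      rw [Finset.prod_ite_eq' Finset.univ (0 : Fin (m + 1)) (fun _ => ((Equiv.Perm.sign σ : ℤ) : F)),
        if_pos (Finset.mem_univ _)]
    rw [h1, Equiv.Perm.sign_inv, ← Int.cast_mul]
    rcases Int.units_eq_one_or (Equiv.Perm.sign σ) with h2 | h2 <;> rw [h2] <;> simp
  · intro i j hij
    have h1 : ((σ⁻¹).permMatrix F * Matrix.diagonal D) i j ≠ 0 := hij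
    rw [Matrix.mul_diagonal] at h1
    have h2 := left_ne_zero_of_mul h1
    rw [Equiv.Perm.permMatrix, PEquiv.toMatrix_apply] at h2
    by_contra hne
    apply h2
    rw [if_neg]
    intro h3
    apply hne
    have h4 : σ⁻¹ i = j := by
      simpa [Equiv.toPEquiv_apply] using h3
    rw [← h4, ← Equiv.Perm.mul_apply, mul_inv_cancel, Equiv.Perm.one_apply]

end

section
variable {F : Type*} [Field F] {m : ℕ}

lemma adj_swap (i : Fin m) {u v : Fin (m + 1)} (h : v < u)
    (h' : Equiv.swap i.castSucc i.succ u ≤ Equiv.swap i.castSucc i.succ v) :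
    u = i.succ ∧ v = i.castSucc := by
  have e : i.castSucc ≠ i.succ := (Fin.castSucc_lt_succ (i := i)).ne
  rw [Equiv.swap_apply_def, Equiv.swap_apply_def] at h'
  split_ifs at h' with h1 h2 h3 h4 h5 h6 h7 h8 <;>
    simp only [Fin.ext_iff, Fin.lt_def, Fin.le_def, Fin.val_castSucc, Fin.val_succ] at * <;> omega

lemma mon_conj_tx [Finite F] {n : SLm m F} {σ} (hn : Mon n σ) {a b : Fin (m + 1)} (h : a ≠ b)
    (h' : σ a ≠ σ b) (c : F) :
    n * tx h c * n⁻¹ = tx h' (n.1 (σ a) a * c * (n.1 (σ b) b)⁻¹) := by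
  refine sl_ext fun i j => ?_
  obtain ⟨u, rfl⟩ := σ.surjective i
  obtain ⟨v, rfl⟩ := σ.surjective j
  rw [mon_conj hn, tx_apply, tx_apply]
  simp only [σ.injective.eq_iff]
  by_cases huv : u = v
  · subst huv
    have h1 : ¬ (u = a ∧ u = b) := fun h2 => h (h2.1 ▸ h2.2)
    rw [if_pos rfl, if_neg h1, if_neg h1, add_zero, mul_one,
      mul_inv_cancel₀ (mon_ne hn u)]
  · rw [if_neg huv, zero_add, zero_add]
    by_cases h1 : u = a ∧ v = b
    · rw [if_pos h1, if_pos h1, h1.1, h1.2]
    · rw [if_neg h1, if_neg h1, mul_zero, zero_mul]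

lemma mon_conj_tx' [Finite F] {n : SLm m F} {σ} (hn : Mon n σ) {a b : Fin (m + 1)} (h : a ≠ b)
    (h' : σ⁻¹ a ≠ σ⁻¹ b) (c : F) :
    ∃ d : F, n⁻¹ * tx h c * n = tx h' d := by
  have h1 := mon_conj_tx (mon_inv hn) h h' c
  rw [inv_inv] at h1
  exact ⟨_, h1⟩

/-- the rank one relation -/
lemma rank_one {a b : Fin (m + 1)} (h : a ≠ b) {c : F} (hc : c ≠ 0) :
    Mon (tx h (-c⁻¹) * (tx h.symm c * tx h (-c⁻¹))) (Equiv.swap a b) := by
  intro i j hij
  rw [tx_mul_apply] at hij
  simp only [mul_tx_apply, tx_apply] at hij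
  by_contra hne
  apply hij
  by_cases hia : i = a
  · subst hia
    by_cases hjb : j = b
    · subst hjb
      rw [Equiv.swap_apply_right] at hne
      exact absurd rfl hne
    · by_cases hji : j = i
      · subst hji
        simp [h, h.symm, hc]
      · simp [h, hjb, hji, Ne.symm hji, Ne.symm hjb]
  · by_cases hib : i = b
    · subst hib
      by_cases hja : j = a
      · subst hja
        rw [Equiv.swap_apply_left] at hne
        exact absurd rfl hne
      · by_cases hji : j = i
        · subst hji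
          simp [h.symm, hc]
        · simp [h.symm, hja, hji, Ne.symm hji]
    · by_cases hij' : i = j
      · subst hij'
        rw [Equiv.swap_apply_of_ne_of_ne hia hib] at hne
        exact absurd rfl hne
      · simp [hia, hib, hij']

end

end Vale.Agent.P240.H195
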