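import Vale.Agent.P240.H195.SL5
import Vale.Agent.P240.H195.BNFree

/-!
The BN-pair of the special linear group, part 6: `LieType r` for `PSL_n(F)`.
-/

namespace Vale.Agent.P240.H195

open Subgroup

section
variable {F : Type*} [Field F] [Finite F] {m : ℕ}

/-- adjacent transpositions -/
abbrev sw (i : Fin m) : Equiv.Perm (Fin (m + 1)) := Equiv.swap i.castSucc i.succ

lemma sw_ne {k : ℕ} (hk : k + 1 < m) :
    sw (⟨k, by omega⟩ : Fin m) * sw (⟨k + 1, hk⟩ : Fin m) ≠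
      sw (⟨k + 1, hk⟩ : Fin m) * sw (⟨k, by omega⟩ : Fin m) := by
  intro h
  have h1 := congrArg (fun σ : Equiv.Perm (Fin (m + 1)) => σ (⟨k, by omega⟩ : Fin m).castSucc) h
  simp only [Equiv.Perm.mul_apply, sw] at h1
  rw [Equiv.swap_apply_left (⟨k, _⟩ : Fin m).castSucc] at h1
  have e : (⟨k, by omega⟩ : Fin m).succ = (⟨k + 1, hk⟩ : Fin m).castSucc := rfl
  have e1 : (⟨k, by omega⟩ : Fin m).castSucc ≠ (⟨k + 1, hk⟩ : Fin m).castSucc := by
    intro h2
    have := congrArg Fin.val h2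
    simp at this
  have e2 : (⟨k, by omega⟩ : Fin m).castSucc ≠ (⟨k + 1, hk⟩ : Fin m).succ := by
    intro h2
    have := congrArg Fin.val h2
    simp only [Fin.val_castSucc, Fin.val_succ] at this
    omega
  rw [Equiv.swap_apply_of_ne_of_ne e1 e2, Equiv.swap_apply_left, e, Equiv.swap_apply_left] at h1
  have := congrArg Fin.val h1
  simp at this

theorem psl_split {p : ℕ} [hp : Fact p.Prime] [CharP F p] (hm : 0 < m) :
    SplitBN p ((BU m F).map (pr m F)) ((NM m F).map (pr m F)) ((UU m F).map (pr m F))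
      (pr m F '' SS m F) where
  toSB := psl_SB hm
  irr := by
    intro J hJ hne hne' hJB
    have hB : ∀ x, pr m F x ∈ (BU m F).map (pr m F) ↔ x ∈ BU m F :=
      fun x => map_mem_iff fun k hk' => (pr_eq_one hk').1
    have hrep : ∀ {i : Fin m} {s s' : SLm m F}, Mon s (sw i) → Mon s' (sw i) →
        pr m F s ∈ J → pr m F s' ∈ J := by
      intro i s s' hs hs' hsJ
      by_contra hcon
      apply hJB _ hsJ _ ⟨⟨s', ⟨i, hs'⟩, rfl⟩, hcon⟩
      rw [← map_inv, ← map_mul, hB]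
      have := mon_mul (mon_inv hs) hs'
      rw [inv_mul_cancel] at this
      exact mem_T' this
    let J' : ℕ → Prop := fun k => ∃ (hk : k < m) (s : SLm m F), Mon s (sw ⟨k, hk⟩) ∧ pr m F s ∈ J
    obtain ⟨k, hk, hk'⟩ : ∃ k, k + 1 < m ∧ ¬ (J' k ↔ J' (k + 1)) := by
      by_contra hcon
      push Not at hcon
      have hall : ∀ k, k < m → (J' k ↔ J' 0) := by
        intro k
        induction k with
        | zero => exact fun _ => Iff.rfl
        | succ k ih => exact fun hk => (hcon k hk).symm.trans (ih (by omega))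
      obtain ⟨x, hx⟩ := hne
      obtain ⟨s, ⟨i, hs⟩, rfl⟩ := hJ hx
      obtain ⟨y, hy, hyJ⟩ := hne'
      obtain ⟨s', ⟨j, hs'⟩, rfl⟩ := hy
      have h1 : J' 0 := (hall i i.2).1 ⟨i.2, s, hs, hx⟩
      obtain ⟨hk, t, ht, htJ⟩ := (hall j j.2).2 h1
      exact hyJ (hrep ht hs' htJ)
    obtain ⟨a, ha⟩ := exists_mon (F := F) (m := m) (sw ⟨k, by omega⟩)
    obtain ⟨b, hb⟩ := exists_mon (F := F) (m := m) (sw ⟨k + 1, hk⟩)
    have hcomm : ∀ {x y : SLm m F} {σ τ}, Mon x σ → Mon y τ → σ * τ ≠ τ * σ →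
        (pr m F y * pr m F x)⁻¹ * (pr m F x * pr m F y) ∉ (BU m F).map (pr m F) := by
      intro x y σ τ hx hy hστ hcon
      rw [← map_mul, ← map_mul, ← map_inv, ← map_mul, hB] at hcon
      have h1 := mon_mul (mon_inv (mon_mul hy hx)) (mon_mul hx hy)
      have h2 := mon_up h1 hcon
      rw [inv_mul_eq_one] at h2
      exact hστ h2.symm
    by_cases h1 : J' k
    · have h2 : ¬ J' (k + 1) := fun h2 => hk' (iff_of_true h1 h2)
      obtain ⟨hk1, s, hs, hsJ⟩ := h1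
      refine ⟨pr m F a, hrep hs ha hsJ, pr m F b, ⟨⟨b, ⟨_, hb⟩, rfl⟩, fun h3 => h2 ⟨hk, b, hb, h3⟩⟩,
        hcomm ha hb (sw_ne hk)⟩
    · have h2 : J' (k + 1) := by
        by_contra h2
        exact hk' (iff_of_false h1 h2)
      obtain ⟨hk1, s, hs, hsJ⟩ := h2
      refine ⟨pr m F b, hrep hs hb hsJ, pr m F a,
        ⟨⟨a, ⟨_, ha⟩, rfl⟩, fun h3 => h1 ⟨by omega, a, ha, h3⟩⟩, hcomm hb ha (sw_ne hk).symm⟩

/-- simple groups `PSL_n(F)` are of Lie type in the characteristic of `F` -/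
theorem psl_lieType {p : ℕ} [hp : Fact p.Prime] [CharP F p] (hm : 0 < m)
    (hs : IsSimpleGroup (PL m F)) (hZ : ∀ x : PL m F, (∀ y, x * y = y * x) → x = 1) :
    LieType p (PL m F) :=
  ⟨hs, hZ, _, _, _, _, psl_split hm⟩

end

end Vale.Agent.P240.H195
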