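import Mathlib.FieldTheory.Finite.Basic
import Vale.Agent.P240.H195.SL6

/-!
The BN-pair of the special linear group, part 7: rigidity in the characteristic of the field.
-/

namespace Vale.Agent.P240.H195

open Subgroup

section
variable {F : Type*} [Field F] {m : ℕ}

lemma tx_comm {a k b : Fin (m + 1)} (hak : a ≠ k) (hkb : k ≠ b) (hab : a ≠ b) (c : F) :
    tx hak c * tx hkb 1 = tx hab c * (tx hkb 1 * tx hak c) := by
  refine sl_ext fun u v => ?_
  rw [tx_mul_apply, tx_mul_apply, mul_tx_apply, mul_tx_apply]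
  simp only [tx_apply]
  by_cases hu : u = a
  · subst hu
    by_cases hv : v = k
    · subst hv
      simp [hak, hkb, hab, hab.symm, hkb.symm]
    · by_cases hv' : v = b
      · subst hv'
        simp [hak, hkb, hab, hkb.symm]
      · simp [hak, hv, hv', Ne.symm hv, Ne.symm hv']
  · by_cases hv : v = k
    · subst hv
      simp [hu, hkb, hab]
    · simp [hu, hv]

variable [Finite F]

omit [Finite F] in
lemma tx_mem_of {C : Subgroup (SLm m F)} (hC : ∀ (i : Fin m) (c : F), tx (cs_ne i) c ∈ C) :
    ∀ (k : ℕ) (a b : Fin (m + 1)) (hab : a < b) (c : F), (b : ℕ) - a ≤ k → tx hab.ne c ∈ C := by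
  intro k
  induction k with
  | zero =>
    intro a b hab c hk
    rw [Fin.lt_def] at hab
    omega
  | succ k ih =>
    intro a b hab c hk
    have hlt := Fin.lt_def.1 hab
    have hb := b.2
    by_cases h1 : (b : ℕ) = a + 1
    · have ha : (a : ℕ) < m := by omega
      have e1 : a = (⟨a, ha⟩ : Fin m).castSucc := rfl
      have e2 : b = (⟨a, ha⟩ : Fin m).succ := Fin.ext h1
      have := hC ⟨a, ha⟩ c
      have e3 : tx hab.ne c = tx (cs_ne ⟨a, ha⟩) c := by
        congr 1
      rw [e3]
      exact this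
    · have ha : (a : ℕ) + 1 < m + 1 := by omega
      set l : Fin (m + 1) := ⟨a + 1, ha⟩ with hl
      have hal : a < l := by rw [Fin.lt_def]; exact Nat.lt_succ_self _
      have hlb : l < b := by rw [Fin.lt_def]; simp only [hl]; omega
      have h2 := tx_comm hal.ne hlb.ne hab.ne c
      have h3 : tx hal.ne c ∈ C := by
        have ha' : (a : ℕ) < m := by omega
        exact hC ⟨a, ha'⟩ c
      have h4 : tx hlb.ne (1 : F) ∈ C := ih l b hlb 1 (by simp only [hl]; omega)
      have h5 : tx hab.ne c = tx hal.ne c * tx hlb.ne 1 * (tx hlb.ne 1 * tx hal.ne c)⁻¹ := by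
        rw [h2]; group
      rw [h5]
      exact mul_mem (mul_mem h3 h4) (inv_mem (mul_mem h4 h3))

lemma clear_col {C : Subgroup (SLm m F)}
    (hC : ∀ (a b : Fin (m + 1)) (hab : a < b) (c : F), tx hab.ne c ∈ C) (b : Fin (m + 1)) :
    ∀ k : ℕ, ∀ x ∈ UU m F, (∀ i, i < b → k ≤ i.val → x.1 i b = 0) →
      ∃ w ∈ C, x * w ∈ UU m F ∧ (∀ i, i < b → (x * w).1 i b = 0) ∧
        ∀ i j, j ≠ b → (x * w).1 i j = x.1 i j := by
  intro k
  induction k with
  | zero => exact fun x hx h => ⟨1, one_mem _, by rwa [mul_one], by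
      rw [mul_one]; exact fun i hi => h i hi (Nat.zero_le _), fun i j _ => by rw [mul_one]⟩
  | succ k ih =>
    intro x hx h
    by_cases hkb : k < (b : ℕ)
    · have hk : k < m + 1 := hkb.trans b.2
      have hab : (⟨k, hk⟩ : Fin (m + 1)) < b := Fin.lt_def.2 hkb
      have hent : ∀ i j, (x * tx hab.ne (-(x.1 ⟨k, hk⟩ b))).1 i j =
          x.1 i j + if j = b then x.1 i ⟨k, hk⟩ * -(x.1 ⟨k, hk⟩ b) else 0 := fun i j =>
        mul_tx_apply _ _ _ _ _
      have hU : tx hab.ne (-(x.1 ⟨k, hk⟩ b)) ∈ UU m F := ⟨tx_up hab _, tx_diag hab.ne _⟩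
      obtain ⟨w, hw, h1, h2, h3⟩ := ih _ (mul_mem hx hU) (by
        intro i hi hki
        rw [hent, if_pos rfl]
        rcases Nat.eq_or_lt_of_le hki with h4 | h4
        · have : i = ⟨k, hk⟩ := Fin.ext h4.symm
          rw [this, hx.2, one_mul, add_neg_cancel]
        · rw [h i hi h4, hx.1 i ⟨k, hk⟩ (Fin.lt_def.2 h4), zero_mul, add_zero])
      refine ⟨tx hab.ne (-(x.1 ⟨k, hk⟩ b)) * w, mul_mem (hC _ _ hab _) hw, ?_, ?_, ?_⟩
      · rw [← mul_assoc]; exact h1
      · rw [← mul_assoc]; exact h2
      · intro i j hj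
        rw [← mul_assoc, h3 i j hj, hent, if_neg hj, add_zero]
    · exact ih x hx fun i hi hki => absurd (Fin.lt_def.1 hi) (by omega)

/-- unipotent upper triangular matrices are generated by the simple root subgroups -/
lemma uu_gen {C : Subgroup (SLm m F)} (hC : ∀ (i : Fin m) (c : F), tx (cs_ne i) c ∈ C) :
    UU m F ≤ C := by
  have hC' : ∀ (a b : Fin (m + 1)) (hab : a < b) (c : F), tx hab.ne c ∈ C :=
    fun a b hab c => tx_mem_of hC _ a b hab c le_rfl
  have key : ∀ k j : ℕ, m + 1 ≤ j + k → ∀ x ∈ UU m F,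
      (∀ b : Fin (m + 1), b.val < j → ∀ i, i < b → x.1 i b = 0) → x ∈ C := by
    intro k
    induction k with
    | zero =>
      intro j hj x hx h
      have : x = 1 := by
        refine sl_ext fun u v => ?_
        rw [sl_one]
        rcases lt_trichotomy u v with h1 | h1 | h1
        · rw [if_neg h1.ne, h v (by have := v.2; omega) u h1]
        · rw [h1, if_pos rfl, hx.2]
        · rw [if_neg h1.ne', hx.1 u v h1]
      rw [this]
      exact one_mem _
    | succ k ih =>
      intro j hj x hx h
      by_cases hjm : j < m + 1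
      · obtain ⟨w, hw, h1, h2, h3⟩ := clear_col hC' ⟨j, hjm⟩ (m + 1) x hx
          (fun i _ hi => absurd i.2 (by omega))
        have h4 := ih (j + 1) (by omega) _ h1 (by
          intro b hb i hi
          by_cases hbj : b = ⟨j, hjm⟩
          · subst hbj
            exact h2 i hi
          · rw [h3 i b hbj]
            refine h b ?_ i hi
            have : b.val ≠ j := fun h5 => hbj (Fin.ext h5)
            omega)
        exact (mul_mem_cancel_right hw).1 h4
      · exact ih (j + 1) (by omega) x hx fun b hb i hi => h b (by have := b.2; omega) i hi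
  exact fun x hx => key (m + 1) 0 (by omega) x hx fun b hb => absurd hb (Nat.not_lt_zero _)

/-- additive maps that commute with multiplication by squares are linear -/
lemma linear_of_sq {φ : F → F} (hadd : ∀ x y, φ (x + y) = φ x + φ y)
    (hsq : ∀ a c : F, a ≠ 0 → φ (a ^ 2 * c) = a ^ 2 * φ c) (c : F) : φ c = c * φ 1 := by
  have h0 : φ 0 = 0 := by
    have := hadd 0 0
    rw [add_zero] at this
    exact left_eq_add.1 this
  have hsq' : ∀ a c : F, φ (a ^ 2 * c) = a ^ 2 * φ c := by
    intro a c
    by_cases ha : a = 0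
    · rw [ha]; simp [h0]
    · exact hsq a c ha
  have hneg : ∀ x, φ (-x) = -φ x := by
    intro x
    have := hadd x (-x)
    rw [add_neg_cancel, h0] at this
    exact (neg_eq_of_add_eq_zero_right this.symm).symm
  by_cases h2 : (2 : F) = 0
  · have hch : ringChar F = 2 := by
      have h3 : ringChar F ∣ 2 := (ringChar.spec F 2).1 (by exact_mod_cast h2)
      rcases (Nat.dvd_prime Nat.prime_two).1 h3 with h4 | h4
      · exact absurd h4 (CharP.ringChar_ne_one)
      · exact h4
    obtain ⟨d, hd⟩ := FiniteField.isSquare_of_char_two hch c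
    have := hsq' d 1
    rw [mul_one, pow_two, ← hd] at this
    exact this
  · have e : c = ((c + 1) / 2) ^ 2 * 1 + -(((c - 1) / 2) ^ 2 * 1) := by
      field_simp
      ring
    have h3 := congrArg φ e
    rw [hadd, hneg, hsq', hsq'] at h3
    rw [h3]
    have e' : c = ((c + 1) / 2) ^ 2 - ((c - 1) / 2) ^ 2 := by
      field_simp
      ring
    nth_rewrite 3 [e']
    ring

end

end Vale.Agent.P240.H195
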