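import Vale.Agent.P240.H195.TLink

/-!
Groups `A` of automorphisms containing the inner automorphisms of a group with a split BN-pair of
characteristic `p`: homology in the top dimension.
-/

namespace Vale.Agent.P240.H195

open Subgroup Vale.Agent.P240.K Finsupp

universe u v

section
variable {𝕜 : Type v} [Field 𝕜] {L : Type u} [Group L] {B N U : Subgroup L} {S : Set L} {p : ℕ}

/-- the type preserving automorphisms -/
def tpS (B : Subgroup L) : Subgroup (MulAut L) where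
  carrier := {f | ∀ Q, Pb B Q → ∃ x, am f Q = cj x Q}
  one_mem' := fun Q _ => ⟨1, by rw [am_one, cj_one]⟩
  mul_mem' := fun {f g} hf hg Q hQ => by
    obtain ⟨x, hx⟩ := hg Q hQ
    obtain ⟨y, hy⟩ := hf Q hQ
    exact ⟨f x * y, by rw [am_mul, hx, am_cj, hy, ← cj_mul]⟩
  inv_mem' := fun {f} hf Q hQ => by
    obtain ⟨x, hx⟩ := hf Q hQ
    refine ⟨(f⁻¹ x)⁻¹, ?_⟩
    have h1 := congrArg (am f⁻¹) hx
    rw [am_inv_am, am_cj] at h1
    apply cj_injective (f⁻¹ x)
    rw [← cj_mul, mul_inv_cancel, cj_one]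
    exact h1.symm

lemma mem_tpS {f : MulAut L} : f ∈ tpS B ↔ ∀ Q, Pb B Q → ∃ x, am f Q = cj x Q := Iff.rfl

lemma inn_le_tpS : innS L ≤ tpS B := by
  rintro _ ⟨x, rfl⟩ Q _
  exact ⟨x, am_conj x Q⟩

/-- transport of `Pr` -/
lemma pr_am {f : MulAut L} (hf : am f B = B) {g : L} {P : Subgroup L}
    (hp : Pr B (f g) (am f P)) : Pr B g P := by
  intro b hb hbP
  have hfb : f b ∈ B := by
    have := apply_mem_am (f := f) hb
    rwa [hf] at this
  have h2 : (f g)⁻¹ * f b * f g ∈ am f P := by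
    have := apply_mem_am (f := f) hbP
    rwa [map_mul, map_mul, map_inv] at this
  have h3 := hp (f b) hfb h2
  have h4 : f (g⁻¹ * b * g) ∈ am f B := by
    rw [hf, map_mul, map_mul, map_inv]
    exact h3
  rw [mem_am, ← MulAut.mul_apply, inv_mul_cancel, MulAut.one_apply] at h4
  exact h4

lemma not_bd_of_functional {α : Type*} [PartialOrder α] {X : Set α} (lam : Ch 𝕜 α →ₗ[𝕜] 𝕜)
    (hn : ∀ l, wk X l → ¬ l.Pairwise (· > ·) → lam (single l (1 : 𝕜)) = 0)
    (hc : Coc X lam) {z : Ch 𝕜 α} (hz : z ∈ Sp 𝕜 (wk X)) (hl : lam z ≠ 0) :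
    ∀ c ∈ Sp 𝕜 (st X), bd c ≠ pi z := by
  intro c hc' h
  have h1 : lam (pi z) = lam z := by
    classical
    have := eq_of_Sp (F := lam.comp Vale.Agent.P240.K.pi) (G := lam)
      (fun l (hl : wk X l) => by
        rw [LinearMap.comp_apply, pi_single]
        split_ifs with h
        · rfl
        · rw [map_zero, hn l hl h]) hz
    simpa using this
  rw [← h] at h1
  rw [hc c (Sp_mono st_wk hc')] at h1
  exact hl h1.symm

/-- strictly decreasing lists of nontrivial `p`-groups -/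
lemma chain_card [hp : Fact p.Prime] [Finite L] (x : Subgroup (MulAut L)) :
    ∀ l : List (Subgroup (MulAut L)), st {R : Subgroup (MulAut L) | R ≠ ⊥ ∧ IsPGroup p R} (x :: l) →
      p ^ (x :: l).length ≤ Nat.card x := by
  intro l
  induction l generalizing x with
  | nil =>
    intro hl
    have hx := hl.2 x (by simp)
    have h1 := card_pow_of_lt (F := ⊥) hx.2 (bot_lt_iff_ne_bot.2 hx.1)
    simpa using h1
  | cons y l ih =>
    intro hl
    have hp1 := List.pairwise_cons.1 hl.1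
    have hx := hl.2 x (by simp)
    have h1 := ih y ⟨hp1.2, fun a ha => hl.2 a (List.mem_cons_of_mem _ ha)⟩
    have h2 := card_pow_of_lt (F := y) hx.2 (hp1.1 y (by simp))
    calc p ^ (x :: y :: l).length = p * p ^ (y :: l).length := by
          rw [List.length_cons, pow_succ, mul_comm]
      _ ≤ p * Nat.card y := Nat.mul_le_mul_left _ h1
      _ ≤ Nat.card x := h2

namespace SB

variable (h : SB p B N U S)
include h

/-- type preserving automorphisms fixing `B` -/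
lemma tp_fix [Finite L] (hr : p.Prime) {f : MulAut L} (hf : f ∈ tpS B) (hfB : am f B = B)
    {Q : Subgroup L} (hQ : B ≤ Q) : am f Q = Q := by
  obtain ⟨x, hx⟩ := hf Q ⟨1, by rw [cj_one]; exact hQ⟩
  have h1 : B ≤ cj x Q := by
    rw [← hx]
    have h2 : am f B ≤ am f Q := am_le.2 hQ
    rwa [hfB] at h2
  have h2 : x⁻¹ ∈ Q := by
    refine h.mem_of_cj_le hr hQ ?_
    rw [cj_le_iff, inv_inv]
    exact h1
  rw [hx]
  have := cj_self (inv_mem h2)
  rwa [inv_inv] at this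

/-- automorphisms fixing `B` and the minimal parabolic subgroups are type preserving -/
lemma tp_of_fix [Finite L] {f : MulAut L} (hfB : am f B = B)
    (hf : ∀ P ∈ mps B S ⊤, am f P = P) : f ∈ tpS B := by
  have key : ∀ Q, B ≤ Q → am f Q = Q := by
    intro Q hQ
    refine am_eq_of_le ?_
    rw [← h.toBN0.closure_eq_of h.bruhat hQ, am_closure_le]
    rintro x (hx | hx)
    · refine subset_closure (Or.inl ?_)
      have := apply_mem_am (f := f) hx
      rwa [hfB] at this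
    · have h1 := hf (Par B x) ⟨⟨x, hx.1, rfl⟩, le_top⟩
      have h2 : f x ∈ am f (Par B x) := apply_mem_am self_mem_Par
      rw [h1] at h2
      rw [h.toBN0.closure_eq_of h.bruhat hQ]
      exact par_le hQ hx.2 h2
  rintro Q ⟨g, hg⟩
  have hBH : B ≤ cj g⁻¹ Q := cj_le_iff.1 hg
  refine ⟨f g * g⁻¹, ?_⟩
  have e : Q = cj g (cj g⁻¹ Q) := by rw [← cj_mul, mul_inv_cancel, cj_one]
  conv_lhs => rw [e, am_cj, key _ hBH]
  rw [← cj_mul]

/-- `B ∩ nBn⁻¹ = T` -/
lemma inf_opp [Finite L] (hr : p.Prime) {n : L} (hnN : n ∈ N)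
    (hn : ∀ x ∈ U, n * x * n⁻¹ ∈ U → x = 1) {x : L} (hx : x ∈ B) (hx' : x ∈ cj n B) :
    x ∈ N := by
  obtain ⟨u, hu, t, htB, htN, rfl⟩ := h.split x hx
  have h1 : t ∈ cj n B := by
    rw [mem_cj]
    exact h.norm' hnN htB htN
  have h2 : u ∈ cj n B := by
    have := mul_mem hx' (inv_mem h1)
    rwa [mul_inv_cancel_right] at this
  have h3 : u = 1 := by
    refine h.opp_free hr hn hu (one_mem _) ?_
    rw [one_mul, cj_mul, cj_self h2]
  rw [h3, one_mul]
  exact htN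

/-- `p`-elements stabilizing `B` and `nBn⁻¹` are trivial -/
lemma opp_pelt [Finite L] (hr : p.Prime) {n : L}
    (hn : ∀ x ∈ U, n * x * n⁻¹ ∈ U → x = 1) {x : L} (hx : cj x B = B)
    (hx' : cj x (cj n B) = cj n B) {k : ℕ} (hk : x ^ p ^ k = 1) : x = 1 := by
  have hxB : x ∈ B := h.mem_of_cj_eq hr ⟨1, by rw [cj_one]⟩ hx
  have hxU := h.mem_U hr hxB hk
  refine h.opp_free hr hn hxU (one_mem _) ?_
  rw [one_mul, cj_mul, hx']

/-- a group of type preserving automorphisms can be replaced by one that stabilizes `B` and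
`nBn⁻¹` -/
lemma exists_F0 [hp : Fact p.Prime] [Finite L]
    (hinj : Function.Injective (MulAut.conj : L →* MulAut L)) {A : Subgroup (MulAut L)}
    (hA : innS L ≤ A) {n : L} (hnN : n ∈ N) (hn : ∀ x ∈ U, n * x * n⁻¹ ∈ U → x = 1)
    {F : Subgroup (MulAut L)} (hFA : F ≤ A) (hF : IsPGroup p F) (hFE : EM p F)
    (hFI : F ⊓ innS L = ⊥) (hFt : F ≤ tpS B) :
    ∃ F₀ : Subgroup (MulAut L), F₀ ≤ A ∧ IsPGroup p F₀ ∧ EM p F₀ ∧ F₀ ⊓ innS L = ⊥ ∧
      F₀ ≤ tpS B ∧ Nat.card F₀ = Nat.card F ∧ (∀ f ∈ F₀, am f B = B) ∧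
      ∀ f ∈ F₀, am f (cj n B) = cj n B := by
  have hlong : h.toBN0.Long n := by
    refine ⟨hnN, fun s hs hrg => ?_⟩
    obtain ⟨x, hxU, hnx, hxs⟩ := h.transit' hp.out hnN hs hrg
    apply hxs
    rw [hn x hxU hnx]
    simp
  obtain ⟨g, hg⟩ := h.exists_fix hp.out hF
  set F₁ := cj (MulAut.conj g)⁻¹ F with hF₁
  have hmem₁ : ∀ x ∈ F₁, MulAut.conj g * x * (MulAut.conj g)⁻¹ ∈ F := by
    intro x hx
    rw [hF₁, mem_cj, inv_inv] at hx
    exact hx
  have hfix : ∀ f ∈ F₁, am f B = B := by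
    intro f hf
    have h1 := am_conj_cj (MulAut.conj g * f * (MulAut.conj g)⁻¹) g (cj g B)
    rw [hg _ (hmem₁ f hf), ← cj_mul, inv_mul_cancel, cj_one] at h1
    have e : (MulAut.conj g)⁻¹ * (MulAut.conj g * f * (MulAut.conj g)⁻¹) * MulAut.conj g = f := by
      group
    rwa [e] at h1
  have hsub : ∀ C : Subgroup (MulAut L), innS L ≤ C → F ≤ C → F₁ ≤ C := by
    intro C hC hFC x hx
    have h1 : MulAut.conj g ∈ C := hC ⟨g, rfl⟩
    have h2 := mul_mem (mul_mem (inv_mem h1) (hFC (hmem₁ x hx))) h1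
    have e : (MulAut.conj g)⁻¹ * (MulAut.conj g * x * (MulAut.conj g)⁻¹) * MulAut.conj g = x := by
      group
    rwa [e] at h2
  have hF₁A : F₁ ≤ A := hsub A hA hFA
  have hF₁t : F₁ ≤ tpS B := hsub _ inn_le_tpS hFt
  have hF₁p : IsPGroup p F₁ := hF.map _
  have hF₁E : EM p F₁ := hFE.cj _
  have hF₁I : F₁ ⊓ innS L = ⊥ := cj_inf_inn hFI _
  have hcard₁ : Nat.card F₁ = Nat.card F :=
    Subgroup.card_map_of_injective (MulAut.conj (MulAut.conj g)⁻¹).injective
  set D : Subgroup (MulAut L) := innS L ⊔ F₁ with hD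
  set R : Subgroup (MulAut L) := D ⊓ (stabA B ⊓ stabA (cj n B)) with hR
  have hRD : R ⊔ innS L = F₁ ⊔ innS L := by
    apply le_antisymm
    · refine sup_le ?_ le_sup_right
      rw [sup_comm F₁]
      exact inf_le_left
    · refine sup_le (fun f hf => ?_) le_sup_right
      have hfB := hfix f hf
      have hop : Opp B S (cj (f n) B) := by
        refine ⟨f n, rfl, fun s hs hpr => ?_⟩
        have h1 := h.tp_fix hp.out (hF₁t hf) hfB (Q := Par B s) le_Par
        rw [← h1] at hpr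
        exact hlong.2 s hs (h.rg_of_pr le_Par hnN hs self_mem_Par (pr_am hfB hpr))
      obtain ⟨u, hu, hue⟩ := (h.opp_iff hp.out hlong).1 hop
      have h2 : (MulAut.conj u)⁻¹ * f ∈ R := by
        refine mem_inf.2 ⟨mul_mem (inv_mem ((le_sup_left : innS L ≤ D) ⟨u, rfl⟩))
          ((le_sup_right : F₁ ≤ D) hf), mem_inf.2 ⟨?_, ?_⟩⟩
        · rw [mem_stabA, am_mul, hfB, ← map_inv, am_conj, cj_self (inv_mem (h.le hu))]
        · rw [mem_stabA, am_mul, am_cj, hfB, hue, ← map_inv, am_conj, ← cj_mul]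
          congr 1
          group
      have e : f = MulAut.conj u * ((MulAut.conj u)⁻¹ * f) := by group
      rw [e]
      exact mul_mem ((le_sup_right : innS L ≤ R ⊔ innS L) ⟨u, rfl⟩)
        ((le_sup_left : R ≤ R ⊔ innS L) h2)
  -- elements of `R` of `p`-power order
  have hpelt : ∀ φ ∈ R, φ ∈ innS L → ∀ k : ℕ, φ ^ p ^ k = 1 → φ = 1 := by
    rintro φ hφ ⟨x, rfl⟩ k hk
    obtain ⟨-, hφ2⟩ := mem_inf.1 hφ
    obtain ⟨h1, h2⟩ := mem_inf.1 hφ2
    have h1' : cj x B = B := h1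
    have h2' : cj x (cj n B) = cj n B := h2
    rw [h.opp_pelt hp.out hn h1' h2' (k := k) (hinj (by rw [map_pow, map_one]; exact hk)), map_one]
  obtain ⟨a, ha⟩ := hF₁p.exists_card_eq
  have hdvd : p ^ a ∣ Nat.card R := by
    have h1 := card_relIndex (inf_le_right : innS L ⊓ R ≤ R)
    rw [Subgroup.inf_relIndex_right] at h1
    have h2 := card_relIndex (inf_le_right : innS L ⊓ F₁ ≤ F₁)
    rw [Subgroup.inf_relIndex_right, inf_comm, hF₁I, Subgroup.card_bot, one_mul] at h2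
    have h3 : (innS L).relIndex R = (innS L).relIndex F₁ := by
      rw [← Subgroup.relIndex_sup_right R (innS L), hRD, Subgroup.relIndex_sup_right]
    rw [h3] at h1
    rw [← ha]
    have h4 : Nat.card F₁ = (innS L).relIndex F₁ := h2.symm
    rw [h4]
    exact ⟨_, by rw [← h1, mul_comm]⟩
  obtain ⟨P, hP⟩ := Sylow.exists_subgroup_card_pow_prime p hdvd
  set F₀ : Subgroup (MulAut L) := P.map R.subtype with hF₀
  have hF₀R : F₀ ≤ R := by
    rintro _ ⟨x, _, rfl⟩
    exact x.2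
  have hF₀card : Nat.card F₀ = p ^ a := by
    rw [hF₀, Subgroup.card_map_of_injective R.subtype_injective, hP]
  have hF₀p : IsPGroup p F₀ := IsPGroup.of_card hF₀card
  refine ⟨F₀, hF₀R.trans (inf_le_left.trans (sup_le hA hF₁A)), hF₀p,
    hF₁E.sup.mono (hF₀R.trans inf_le_left), ?_,
    hF₀R.trans (inf_le_left.trans (sup_le inn_le_tpS hF₁t)), ?_, ?_, ?_⟩
  · rw [eq_bot_iff]
    rintro φ ⟨hφ, hφI⟩
    obtain ⟨k, hk⟩ := hF₀p ⟨φ, hφ⟩
    rw [mem_bot]
    exact hpelt φ (hF₀R hφ) hφI k (by simpa using congrArg Subtype.val hk)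
  · rw [hF₀card, ← ha, hcard₁]
  · intro f hf
    exact (mem_inf.1 (mem_inf.1 (hF₀R hf)).2).1
  · intro f hf
    exact (mem_inf.1 (mem_inf.1 (hF₀R hf)).2).2

end SB

end

end Vale.Agent.P240.H195
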