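import Vale.Agent.P240.H195.SLB
import Vale.Agent.P240.H195.TMain

/-!
All automorphisms of `PSL_2(F)` are induced by semilinear maps.
-/

namespace Vale.Agent.P240.H195

open Subgroup Matrix Vale.Agent.P240.K

section
variable {F : Type*} [Field F]

lemma h01 : (0 : Fin (1 + 1)) ≠ 1 := by decide

lemma perm_two {σ τ : Equiv.Perm (Fin (1 + 1))} (hσ : σ ≠ 1) (hτ : τ ≠ 1) : σ = τ := by
  revert σ τ
  decide

variable [Finite F]

lemma uu_two {x : SLm 1 F} (hx : x ∈ UU 1 F) : x = tx h01 (x.1 0 1) := by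
  refine sl_ext fun i j => ?_
  rw [tx_apply]
  fin_cases i <;> fin_cases j
  · have := hx.2 0
    simp at this ⊢
    exact this
  · simp
  · have := hx.1 1 0 (by decide)
    simp at this ⊢
    exact this
  · have := hx.2 1
    simp at this ⊢
    exact this

/-- the matrix `diag(l, 1)` -/
def dgl (l : F) (hl : l ≠ 0) : GLm 1 F := ⟨Matrix.diagonal fun i => if i = 0 then l else 1,
  Matrix.diagonal fun i => if i = 0 then l⁻¹ else 1, by
    rw [Matrix.diagonal_mul_diagonal, ← Matrix.diagonal_one]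
    congr 1
    ext i
    by_cases hi : i = 0 <;> simp [hi, hl], by
    rw [Matrix.diagonal_mul_diagonal, ← Matrix.diagonal_one]
    congr 1
    ext i
    by_cases hi : i = 0 <;> simp [hi, hl]⟩

omit [Finite F] in
lemma dgl_entry (l : F) (hl : l ≠ 0) (τ : RingAut F) (x : SLm 1 F) (i j) :
    (actf (dgl l hl) τ x).1 i j = (if i = 0 then l else 1) * τ (x.1 i j) *
      (if j = 0 then l⁻¹ else 1) := by
  have : (actf (dgl l hl) τ x).1 = Matrix.diagonal (fun i => if i = 0 then l else 1) *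
    (x.1.map τ) * Matrix.diagonal (fun i => if i = 0 then l⁻¹ else 1) := rfl
  rw [this, Matrix.mul_diagonal, Matrix.diagonal_mul, Matrix.map_apply]

omit [Finite F] in
lemma dgl_mon {l : F} (hl : l ≠ 0) {τ : RingAut F} {x : SLm 1 F} {σ} (hx : Mon x σ) :
    Mon (act (dgl l hl) τ x) σ := by
  intro i j hij
  refine hx i j fun h => hij ?_
  change (actf (dgl l hl) τ x).1 i j = 0
  rw [dgl_entry, h, map_zero, mul_zero, zero_mul]

omit [Finite F] in
lemma dgl_up {l : F} (hl : l ≠ 0) {τ : RingAut F} {x : SLm 1 F} (hx : IsUp x) :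
    IsUp (act (dgl l hl) τ x) := by
  intro i j hij
  change (actf (dgl l hl) τ x).1 i j = 0
  rw [dgl_entry, hx i j hij, map_zero, mul_zero, zero_mul]

omit [Finite F] in
lemma dgl_t2 {l : F} (hl : l ≠ 0) (τ : RingAut F) (c : F) :
    act (dgl l hl) τ (tx h01 c) = tx h01 (l * τ c) := by
  refine sl_ext fun i j => ?_
  change (actf (dgl l hl) τ (tx h01 c)).1 i j = _
  rw [dgl_entry, tx_apply, tx_apply]
  fin_cases i <;> fin_cases j <;> simp [hl]

theorem aut_psl2 {p : ℕ} [hp : Fact p.Prime] [CharP F p] (hsimple : IsSimpleGroup (PL 1 F))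
    (f : MulAut (PL 1 F)) : ∃ (M : GLm 1 F) (τ : RingAut F), f = sem M τ := by
  have h := psl_SB (F := F) (p := p) (m := 1) one_pos
  have hr := hp.out
  have hBi : ∀ x, pr 1 F x ∈ (BU 1 F).map (pr 1 F) ↔ x ∈ BU 1 F :=
    fun x => map_mem_iff fun k hk' => (pr_eq_one hk').1
  have hNi : ∀ x, pr 1 F x ∈ (NM 1 F).map (pr 1 F) ↔ x ∈ NM 1 F :=
    fun x => map_mem_iff fun k hk' => (pr_eq_one hk').2.1
  set B := (BU 1 F).map (pr 1 F) with hB
  set N := (NM 1 F).map (pr 1 F) with hN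
  set U := (UU 1 F).map (pr 1 F) with hU
  obtain ⟨n, hnN, hopp⟩ := h.opp
  have hnN' := hnN
  obtain ⟨n₀, ⟨σ, hσ⟩, hn₀⟩ := hnN
  have hnB : n ∉ B := by
    intro hcon
    obtain ⟨x, hx, hx1⟩ : ∃ x ∈ U, x ≠ 1 := by
      by_contra hcon'
      push Not at hcon'
      exact h.U_ne_bot (eq_bot_iff.2 fun x hx => by rw [mem_bot]; exact hcon' x hx)
    exact hx1 (hopp x hx (h.normal n hcon x hx))
  have hσ1 : σ ≠ 1 := by
    rintro rfl
    apply hnB
    rw [← hn₀, hBi]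
    exact mem_T' hσ
  -- make `f` stabilize `B`
  obtain ⟨g, hg⟩ := h.exists_conj hr f
  obtain ⟨f₁, hf₁⟩ : ∃ f₁ : MulAut (PL 1 F), f₁ = (MulAut.conj g)⁻¹ * f := ⟨_, rfl⟩
  have hf₁B : am f₁ B = B := by
    rw [hf₁, am_mul, hg, ← am_conj, ← am_mul, inv_mul_cancel, am_one]
  have hf₁n : f₁ n ∉ B := by
    intro hcon
    rw [← hf₁B, mem_am, ← MulAut.mul_apply, inv_mul_cancel, MulAut.one_apply] at hcon
    exact hnB hcon
  -- make `f` stabilize the opposite group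
  obtain ⟨m', ⟨m₀, ⟨σ', hσ'⟩, hm₀⟩, a, ha, b, hb, hab⟩ := h.bruhat (f₁ n)
  have hm'B : m' ∉ B := fun hcon => hf₁n (by rw [hab]; exact mul_mem (mul_mem ha hcon) hb)
  have hσ'1 : σ' ≠ 1 := by
    rintro rfl
    apply hm'B
    rw [← hm₀, hBi]
    exact mem_T' hσ'
  have hnm : n⁻¹ * m' ∈ B := by
    rw [← hn₀, ← hm₀, ← map_inv, ← map_mul, hBi]
    have h1 := mon_mul (mon_inv hσ) hσ'
    rw [perm_two hσ1 hσ'1, inv_mul_cancel] at h1
    exact mem_T' h1
  obtain ⟨u, hu, t, htB, htN, rfl⟩ := h.split a ha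
  obtain ⟨f₂, hf₂⟩ : ∃ f₂ : MulAut (PL 1 F), f₂ = (MulAut.conj u)⁻¹ * f₁ := ⟨_, rfl⟩
  have hf₂B : am f₂ B = B := by
    rw [hf₂, am_mul, hf₁B, ← map_inv, am_conj]
    exact cj_self (inv_mem (h.le hu))
  have hf₂C : am f₂ (cj n B) = cj n B := by
    have h1 : am f₁ (cj n B) = cj (u * n) B := by
      rw [am_cj, hf₁B, h.cj_B_eq_iff hr, hab]
      have e : (u * t * m' * b)⁻¹ * (u * n) = b⁻¹ * (n⁻¹ * m')⁻¹ * (n⁻¹ * t⁻¹ * n) := by group
      rw [e]
      refine mul_mem (mul_mem (inv_mem hb) (inv_mem hnm)) ?_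
      exact h.norm' hnN' (inv_mem htB) (inv_mem htN)
    rw [hf₂, am_mul, h1, ← map_inv, am_conj, ← cj_mul]
    congr 1
    group
  -- action on the torus and on `U`
  have hT : ∀ t : SLm 1 F, Mon t 1 → ∃ s : SLm 1 F, Mon s 1 ∧ f₂ (pr 1 F t) = pr 1 F s := by
    intro t ht
    have h1 := mem_inf.1 (mem_T.2 ht)
    have h2 : f₂ (pr 1 F t) ∈ B := by
      have := apply_mem_am (f := f₂) (show pr 1 F t ∈ B from ⟨t, h1.1, rfl⟩)
      rwa [hf₂B] at this
    have h3 : f₂ (pr 1 F t) ∈ cj n B := by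
      have h4 : pr 1 F t ∈ cj n B := by
        rw [mem_cj]
        exact h.norm' hnN' ⟨t, h1.1, rfl⟩ ⟨t, h1.2, rfl⟩
      have := apply_mem_am (f := f₂) h4
      rwa [hf₂C] at this
    have h5 := h.inf_opp hr hnN' hopp h2 h3
    obtain ⟨s, hs⟩ := QuotientGroup.mk'_surjective _ (f₂ (pr 1 F t))
    refine ⟨s, mem_T.1 (mem_inf.2 ⟨(hBi s).1 ?_, (hNi s).1 ?_⟩), hs.symm⟩
    · rw [hs]; exact h2
    · rw [hs]; exact h5
  have hroot : ∀ c : F, ∃ d : F, f₂ (pr 1 F (tx h01 c)) = pr 1 F (tx h01 d) := by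
    intro c
    have h1 : f₂ (pr 1 F (tx h01 c)) ∈ U :=
      h.apply_U hr hf₂B ⟨_, ⟨tx_up (by decide) c, tx_diag _ c⟩, rfl⟩
    obtain ⟨x, hx, hxe⟩ := h1
    exact ⟨x.1 0 1, by rw [← hxe, ← uu_two hx]⟩
  choose φ hφ using hroot
  have hadd : ∀ x y, φ (x + y) = φ x + φ y := by
    intro x y
    apply pr_inj_tx h01
    rw [← hφ, ← tx_mul_tx, ← tx_mul_tx, map_mul, map_mul, map_mul, hφ, hφ]
  have hinj : Function.Injective φ := by
    intro x y hxy
    apply pr_inj_tx h01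
    apply f₂.injective
    rw [hφ, hφ, hxy]
  have hzero : φ 0 = 0 := by
    have := hadd 0 0
    rw [add_zero] at this
    exact left_eq_add.1 this
  have h10 : φ 1 ≠ 0 := fun h1 => one_ne_zero (hinj (h1.trans hzero.symm))
  have hsq : ∀ a : F, a ≠ 0 → ∀ c, φ (a ^ 2 * c) * φ 1 = φ (a ^ 2) * φ c := by
    intro a ha
    obtain ⟨s, hs, hse⟩ := hT _ (diag2n_mon h01 ha)
    have key : ∀ c, φ (a ^ 2 * c) = s.1 0 0 * φ c * (s.1 1 1)⁻¹ := by
      intro c
      apply pr_inj_tx h01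
      have h1 := mon_conj_tx hs h01 h01 (φ c)
      have h2 : pr 1 F (s * tx h01 (φ c) * s⁻¹) = pr 1 F (tx h01 (s.1 0 0 * φ c * (s.1 1 1)⁻¹)) := by
        congr 1
      rw [← hφ, ← h2, ← diag2n_conj h01 ha, map_mul, map_mul, map_inv, map_mul, map_mul, map_inv,
        hse, hφ, map_mul, map_mul, map_inv]
    intro c
    have h1 := key 1
    rw [mul_one] at h1
    rw [key c, h1]
    ring
  have hmul : ∀ x c, φ (x * c) * φ 1 = φ x * φ c := by
    intro x c
    have h1 := zero_of_sq (ψ := fun x => φ (x * c) * φ 1 - φ x * φ c) (fun x y => by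
      simp only [add_mul, hadd]; ring) (fun a ha => by
      simp only [hsq a ha c, sub_self]) x
    exact sub_eq_zero.1 h1
  let τ' : F →+* F :=
    { toFun := fun x => φ x / φ 1
      map_one' := div_self h10
      map_mul' := fun x y => by
        have := hmul x y
        field_simp
        rw [this]
      map_zero' := by rw [hzero, zero_div]
      map_add' := fun x y => by rw [hadd, add_div] }
  have hτb : Function.Bijective τ' := by
    rw [Finite.injective_iff_bijective.symm]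
    exact τ'.injective
  let τ : RingAut F := RingEquiv.ofBijective τ' hτb
  have hτ : ∀ x, φ x = φ 1 * τ x := by
    intro x
    change φ x = φ 1 * (φ x / φ 1)
    field_simp
  -- compare with the semilinear map
  obtain ⟨e, he⟩ : ∃ e : MulAut (PL 1 F), e = sem (dgl (φ 1) h10) τ := ⟨_, rfl⟩
  have heU : ∀ c, e (pr 1 F (tx h01 c)) = pr 1 F (tx h01 (φ c)) := by
    intro c
    rw [he, ind_apply, dgl_t2, ← hτ]
  have heB : am e B = B := am_eq_of_le (by
    rintro _ ⟨_, ⟨x, hx, rfl⟩, rfl⟩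
    exact ⟨act (dgl (φ 1) h10) τ x, dgl_up h10 hx, by rw [he]; rfl⟩)
  have heC : am e (cj n B) = cj n B := by
    rw [am_cj, heB, h.cj_B_eq_iff hr, he, ← hn₀, ind_apply, ← map_inv, ← map_mul, hBi]
    have h1 := mon_mul (mon_inv (dgl_mon h10 (τ := τ) hσ)) hσ
    rw [inv_mul_cancel] at h1
    exact mem_T' h1
  obtain ⟨f₃, hf₃⟩ : ∃ f₃ : MulAut (PL 1 F), f₃ = e⁻¹ * f₂ := ⟨_, rfl⟩
  have hf₃1 : f₃ = 1 := by
    refine h.eq_one_of_opp hsimple hr ?_ hnN' hopp ?_
    · rintro _ ⟨x, hx, rfl⟩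
      rw [uu_two hx, hf₃, MulAut.mul_apply, hφ, ← heU, ← MulAut.mul_apply, inv_mul_cancel,
        MulAut.one_apply]
    · rw [hf₃, am_mul, hf₂C, am_inv_eq heC]
  obtain ⟨g₀, hg₀⟩ := QuotientGroup.mk'_surjective _ g
  obtain ⟨u₀, hu₀⟩ := QuotientGroup.mk'_surjective _ u
  have hfe : f = MulAut.conj g * (MulAut.conj u * e) := by
    have h1 : f₂ = e := by
      rw [hf₃, inv_mul_eq_one] at hf₃1
      exact hf₃1.symm
    rw [← h1, hf₂, hf₁]
    group
  have e1 : MulAut.conj g = sem (tog g₀) 1 := by rw [← hg₀]; exact conj_eq_sem g₀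
  have e2 : MulAut.conj u = sem (tog u₀) 1 := by rw [← hu₀]; exact conj_eq_sem u₀
  refine ⟨tog g₀ * gla 1 (tog u₀ * gla 1 (dgl (φ 1) h10)), 1 * (1 * τ), ?_⟩
  rw [hfe, e1, e2, he, sem_mul, sem_mul]

end

end Vale.Agent.P240.H195
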