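import Vale.Agent.P240.H195.CF
import Vale.Agent.P240.H195.SLC

/-!
Outer automorphisms of `PSL_2(F)` of prime order.
-/

namespace Vale.Agent.P240.H195

open Subgroup Matrix Vale.Agent.P240.K

section
variable {F : Type*} [Field F]

lemma det_ne (M : GLm 1 F) : M.1.det ≠ 0 :=
  ((Matrix.isUnit_iff_isUnit_det _).1 M.isUnit).ne_zero

lemma sem_one_eq {M : GLm 1 F} {τ : RingAut F} (h : sem M τ = 1) (x : SLm 1 F) :
    ∃ z : F, ∀ i j, (M.1 * x.1.map τ) i j = z * (x.1 * M.1) i j := by
  have h1 : pr 1 F (actf M τ x) = pr 1 F x := by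
    have := congrArg (fun f : MulAut (PL 1 F) => f (pr 1 F x)) h
    exact this
  have h2 : pr 1 F (x⁻¹ * actf M τ x) = 1 := by
    rw [map_mul, map_inv, h1, inv_mul_cancel]
  have h3 : x⁻¹ * actf M τ x ∈ center (SLm 1 F) := (QuotientGroup.eq_one_iff _).1 h2
  obtain ⟨z, -, hz⟩ := Matrix.SpecialLinearGroup.mem_center_iff.1 h3
  refine ⟨z, fun i j => ?_⟩
  have h4 : (x * (x⁻¹ * actf M τ x)).1 = x.1 * (x⁻¹ * actf M τ x).1 := rfl
  have h5 : x * (x⁻¹ * actf M τ x) = actf M τ x := by group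
  rw [h5, ← hz, actf_val] at h4
  have h6 : M.1 * x.1.map τ = x.1 * (Matrix.scalar (Fin (1 + 1))) z * M.1 := by
    rw [← h4, Matrix.mul_assoc, Matrix.mul_assoc, ← Units.val_mul, inv_mul_cancel, Units.val_one,
      Matrix.mul_one]
  rw [h6]
  have h7 : x.1 * (Matrix.scalar (Fin (1 + 1))) z * M.1 = z • (x.1 * M.1) := by
    rw [Matrix.scalar_apply, ← Matrix.smul_one_eq_diagonal, Matrix.mul_smul, Matrix.mul_one,
      Matrix.smul_mul]
  rw [h7, Matrix.smul_apply, smul_eq_mul]

lemma sem_eq_one {M : GLm 1 F} {τ : RingAut F} (h : sem M τ = 1) :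
    τ = 1 ∧ M.1 0 1 = 0 ∧ M.1 1 0 = 0 ∧ M.1 0 0 = M.1 1 1 := by
  have h10 : (1 : Fin (1 + 1)) ≠ 0 := by decide
  -- upper transvections
  have hup : ∀ c : F, ∃ z : F, M.1 0 0 = z * (M.1 0 0 + c * M.1 1 0) ∧
      M.1 0 0 * τ c + M.1 0 1 = z * (M.1 0 1 + c * M.1 1 1) ∧ M.1 1 0 = z * M.1 1 0 ∧
      M.1 1 0 * τ c + M.1 1 1 = z * M.1 1 1 := by
    intro c
    obtain ⟨z, hz⟩ := sem_one_eq h (tx h01 c)
    refine ⟨z, ?_, ?_, ?_, ?_⟩
    · have := hz 0 0
      simpa [Matrix.mul_apply, Fin.sum_univ_two, tx_apply] using this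
    · have := hz 0 1
      simpa [Matrix.mul_apply, Fin.sum_univ_two, tx_apply] using this
    · have := hz 1 0
      simpa [Matrix.mul_apply, Fin.sum_univ_two, tx_apply] using this
    · have := hz 1 1
      simpa [Matrix.mul_apply, Fin.sum_univ_two, tx_apply] using this
  have hlo : ∀ c : F, ∃ z : F, M.1 0 0 + M.1 0 1 * τ c = z * M.1 0 0 ∧ M.1 0 1 = z * M.1 0 1 ∧
      M.1 1 1 = z * (c * M.1 0 1 + M.1 1 1) := by
    intro c
    obtain ⟨z, hz⟩ := sem_one_eq h (tx h10 c)
    refine ⟨z, ?_, ?_, ?_⟩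
    · have := hz 0 0
      simpa [Matrix.mul_apply, Fin.sum_univ_two, tx_apply] using this
    · have := hz 0 1
      simpa [Matrix.mul_apply, Fin.sum_univ_two, tx_apply] using this
    · have := hz 1 1
      simpa [Matrix.mul_apply, Fin.sum_univ_two, tx_apply] using this
  have hc : M.1 1 0 = 0 := by
    by_contra hne
    obtain ⟨z, h1, -, h3, -⟩ := hup 1
    have hz : z = 1 := mul_right_cancel₀ hne (by rw [one_mul]; exact h3.symm)
    rw [hz, one_mul, one_mul] at h1
    exact hne (left_eq_add.1 h1)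
  have hb : M.1 0 1 = 0 := by
    by_contra hne
    obtain ⟨z, h1, h2, h3⟩ := hlo 1
    have hz : z = 1 := mul_right_cancel₀ hne (by rw [one_mul]; exact h2.symm)
    rw [hz, one_mul, one_mul] at h3
    exact hne (right_eq_add.1 h3)
  have hdet : M.1 0 0 * M.1 1 1 ≠ 0 := by
    have := det_ne M
    rw [Matrix.det_fin_two, hb, zero_mul, sub_zero] at this
    exact this
  have ha := left_ne_zero_of_mul hdet
  have hkey : ∀ c, M.1 0 0 * τ c = c * M.1 1 1 := by
    intro c
    obtain ⟨z, h1, h2, -, -⟩ := hup c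
    rw [hc, mul_zero, add_zero] at h1
    have hz : z = 1 := mul_right_cancel₀ ha (by rw [one_mul]; exact h1.symm)
    rw [hz, hb, add_zero, zero_add, one_mul] at h2
    exact h2
  have had : M.1 0 0 = M.1 1 1 := by
    have := hkey 1
    rwa [map_one, mul_one, one_mul] at this
  refine ⟨?_, hb, hc, had⟩
  ext c
  have := hkey c
  rw [← had, mul_comm c] at this
  exact mul_left_cancel₀ ha this

/-- an automorphism of order prime to `2` is given by a matrix of square determinant -/
lemma det_square [Finite F] {M : GLm 1 F} {τ : RingAut F} {k : ℕ} (hk : Odd k)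
    (h : sem M τ ^ k = 1) : IsSquare M.1.det ∧ τ ^ k = 1 := by
  obtain ⟨M', h1, h2⟩ := sem_pow M τ k
  rw [h1] at h
  obtain ⟨h3, h4, h5, h6⟩ := sem_eq_one h
  refine ⟨?_, h3⟩
  have h7 : IsSquare M'.1.det := by
    rw [Matrix.det_fin_two, h4, zero_mul, sub_zero, h6]
    exact ⟨_, rfl⟩
  by_contra hns
  have key : ∀ j, IsSquare (∏ i ∈ Finset.range j, (τ ^ i) M.1.det) ↔ Even j := by
    intro j
    induction j with
    | zero => simp
    | succ j ih =>
      rw [Finset.prod_range_succ]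
      have hne : (τ ^ j) M.1.det ≠ 0 := by
        intro h0
        exact det_ne M ((map_eq_zero_iff _ (τ ^ j).injective).1 h0)
      have hnsj : ¬ IsSquare ((τ ^ j) M.1.det) := fun h => hns ((sq_aut (τ ^ j)).1 h)
      constructor
      · intro hsq
        rw [Nat.even_add_one, ← ih]
        intro h8
        apply hnsj
        obtain ⟨a, ha⟩ := hsq
        obtain ⟨b, hb⟩ := h8
        have hb0 : b ≠ 0 := by
          rintro rfl
          rw [mul_zero] at hb
          rw [Finset.prod_eq_zero_iff] at hb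
          obtain ⟨i, -, hi⟩ := hb
          exact det_ne M ((map_eq_zero_iff _ (τ ^ i).injective).1 hi)
        refine ⟨a / b, ?_⟩
        rw [hb] at ha
        field_simp
        linear_combination ha
      · intro hev
        rw [Nat.even_add_one, ← ih] at hev
        exact sq_mul_of_not hev hnsj
  rw [h2, key] at h7
  exact (Nat.not_even_iff_odd.2 hk) h7

end

end Vale.Agent.P240.H195
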