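import Vale.Agent.P240.H195.SLD

/-!
`PSL_2(F)` has few outer automorphisms of prime order.
-/

namespace Vale.Agent.P240.H195

open Subgroup Matrix Vale.Agent.P240.K

section
variable {F : Type*} [Field F]

lemma fa_class {L : Type*} [Group L] {f g a b : MulAut L} {k : ℕ}
    {y y' : L} (hf : f = MulAut.conj y * a) (hg : g = MulAut.conj y' * b) (hb : b = a ^ k) :
    g ∈ zpowers f ⊔ (MulAut.conj (G := L)).range := by
  have h1 : a ∈ zpowers f ⊔ (MulAut.conj (G := L)).range := by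
    have : a = (MulAut.conj y)⁻¹ * f := by rw [hf]; group
    rw [this]
    exact mul_mem (mem_sup_right (inv_mem ⟨y, rfl⟩)) (mem_sup_left (mem_zpowers f))
  rw [hg, hb]
  exact mul_mem (mem_sup_right ⟨y', rfl⟩) (pow_mem h1 k)

lemma inner_of_square {M : GLm 1 F} (h : IsSquare M.1.det) : ∃ y, sem M 1 = MulAut.conj y := by
  obtain ⟨d, hd⟩ := h
  exact det_sq_inner (d := d) (by rw [hd]; ring)

variable [Finite F]

theorem few_odd {p r : ℕ} (hp : p.Prime) (hp2 : p ≠ 2) [hr : Fact r.Prime] [CharP F r]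
    (hsimple : IsSimpleGroup (PL 1 F)) : FewAut p (PL 1 F) := by
  have hodd : Odd p := hp.odd_of_ne_two hp2
  have key : ∀ f : MulAut (PL 1 F), OutAut p f → ∃ (y : PL 1 F) (τ : RingAut F),
      f = MulAut.conj y * fa τ ∧ τ ^ p = 1 ∧ τ ≠ 1 := by
    intro f hf
    obtain ⟨M, τ, rfl⟩ := aut_psl2 (p := r) hsimple f
    obtain ⟨h1, h2⟩ := det_square hodd hf.1
    obtain ⟨y, hy⟩ := inner_of_square h1
    refine ⟨y, τ, by rw [sem_eq, hy], h2, ?_⟩
    rintro rfl
    exact hf.2 ⟨y, hy.symm⟩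
  have hall : ∀ f g : MulAut (PL 1 F), OutAut p f → OutAut p g →
      g ∈ zpowers f ⊔ (MulAut.conj (G := PL 1 F)).range := by
    intro f g hf hg
    obtain ⟨y, τ, h1, h2, h3⟩ := key f hf
    obtain ⟨y', τ', h1', h2', -⟩ := key g hg
    obtain ⟨k, hk⟩ := ff_prime hp h2 h3 h2'
    exact fa_class h1 h1' (by rw [hk, map_pow])
  exact ⟨fun f g h hf hg hh => Or.inl (hall f g hf hg), Or.inl hall⟩

lemma two_cases {r : ℕ} [hr : Fact r.Prime] [CharP F r] (hr2 : r ≠ 2) {M : GLm 1 F}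
    {τ : RingAut F} (h : sem M τ ^ 2 = 1) : τ ^ 2 = 1 ∧ (τ ≠ 1 → IsSquare M.1.det) := by
  rw [pow_two, sem_mul] at h
  obtain ⟨h1, h2, h3, h4⟩ := sem_eq_one h
  rw [← pow_two] at h1
  refine ⟨h1, fun hτ => ?_⟩
  set c := (M * gla τ M).1 0 0 with hc
  have hττ : ∀ x, τ (τ x) = x := by
    intro x
    have : (τ ^ 2) x = x := by rw [h1]; rfl
    rwa [pow_two, RingAut.mul_apply] at this
  have hN : M.1 * M.1.map τ = c • (1 : Matrix (Fin (1 + 1)) (Fin (1 + 1)) F) := by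
    have e : M.1 * M.1.map τ = (M * gla τ M).1 := rfl
    rw [e]
    ext i j
    rw [Matrix.smul_apply, Matrix.one_apply]
    fin_cases i <;> fin_cases j
    · simp [hc]
    · simpa using h2
    · simpa using h3
    · simpa [hc] using h4.symm
  have hdet : M.1.det * τ M.1.det = c ^ 2 := by
    have := congrArg Matrix.det hN
    rw [Matrix.det_mul, det_map', Matrix.det_smul, Matrix.det_one, mul_one, Fintype.card_fin] at this
    exact this
  have hc0 : c ≠ 0 := by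
    intro h0
    rw [h0, zero_pow two_ne_zero] at hdet
    rcases mul_eq_zero.1 hdet with h5 | h5
    · exact det_ne M h5
    · exact det_ne M ((map_eq_zero_iff _ τ.injective).1 h5)
  have hN' : M.1.map τ * M.1 = c • (1 : Matrix (Fin (1 + 1)) (Fin (1 + 1)) F) := by
    have h5 : (M⁻¹).1 * M.1 = 1 := by rw [← Units.val_mul, inv_mul_cancel, Units.val_one]
    have h6 : M.1.map τ = c • (M⁻¹).1 := by
      calc M.1.map τ = (M⁻¹).1 * M.1 * M.1.map τ := by rw [h5, Matrix.one_mul]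
        _ = (M⁻¹).1 * (M.1 * M.1.map τ) := Matrix.mul_assoc _ _ _
        _ = c • (M⁻¹).1 := by rw [hN, Matrix.mul_smul, Matrix.mul_one]
    rw [h6, Matrix.smul_mul, h5]
  have hτc : τ c = c := by
    have h5 := congrArg (fun A : Matrix (Fin (1 + 1)) (Fin (1 + 1)) F => (A.map τ) 0 0) hN
    simp only [map_mul'] at h5
    have h6 : (M.1.map τ).map τ = M.1 := by
      ext i j
      rw [Matrix.map_apply, Matrix.map_apply, hττ]
    rw [h6, hN'] at h5
    simp at h5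
    exact h5.symm
  exact sq_of_norm hr2 hτ h1 (det_ne M) hc0 hτc hdet

theorem few_two {r : ℕ} [hr : Fact r.Prime] [CharP F r] (hr2 : r ≠ 2)
    (hsimple : IsSimpleGroup (PL 1 F))
    (hconn : ∀ τ : RingAut F, τ ≠ 1 → τ ^ 2 = 1 →
      ∀ A B : Ap 2 (PL 1 F), Relation.ReflTransGen (fun X Y => X ≤ Y ∨ Y ≤ X) A B) :
    FewAut 2 (PL 1 F) := by
  have key : ∀ f : MulAut (PL 1 F), OutAut 2 f → (∃ (y : PL 1 F) (τ : RingAut F),
      f = MulAut.conj y * fa τ ∧ τ ^ 2 = 1 ∧ τ ≠ 1) ∨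
      ∃ M : GLm 1 F, f = sem M 1 ∧ ¬ IsSquare M.1.det := by
    intro f hf
    obtain ⟨M, τ, rfl⟩ := aut_psl2 (p := r) hsimple f
    obtain ⟨h1, h2⟩ := two_cases hr2 hf.1
    by_cases hτ : τ = 1
    · right
      subst hτ
      refine ⟨M, rfl, fun h3 => ?_⟩
      obtain ⟨y, hy⟩ := inner_of_square h3
      exact hf.2 ⟨y, hy.symm⟩
    · left
      obtain ⟨y, hy⟩ := inner_of_square (h2 hτ)
      exact ⟨y, τ, by rw [sem_eq, hy], h1, hτ⟩
  have hfield : ∀ {f g : MulAut (PL 1 F)}, (∃ (y : PL 1 F) (τ : RingAut F),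
      f = MulAut.conj y * fa τ ∧ τ ^ 2 = 1 ∧ τ ≠ 1) → (∃ (y : PL 1 F) (τ : RingAut F),
      g = MulAut.conj y * fa τ ∧ τ ^ 2 = 1 ∧ τ ≠ 1) →
      g ∈ zpowers f ⊔ (MulAut.conj (G := PL 1 F)).range := by
    rintro f g ⟨y, τ, h1, h2, h3⟩ ⟨y', τ', h1', h2', -⟩
    obtain ⟨k, hk⟩ := ff_prime Nat.prime_two h2 h3 h2'
    exact fa_class h1 h1' (by rw [hk, map_pow])
  have hdiag : ∀ {f g : MulAut (PL 1 F)}, (∃ M : GLm 1 F, f = sem M 1 ∧ ¬ IsSquare M.1.det) →
      (∃ M : GLm 1 F, g = sem M 1 ∧ ¬ IsSquare M.1.det) →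
      g ∈ zpowers f ⊔ (MulAut.conj (G := PL 1 F)).range := by
    rintro f g ⟨M, rfl, hM⟩ ⟨M', rfl, hM'⟩
    have h1 : sem (M' * M) 1 = sem M' 1 * sem M 1 := by rw [sem_mul, gla_one, mul_one]
    have h2 : IsSquare (M' * M).1.det := by
      rw [Units.val_mul, Matrix.det_mul]
      exact sq_mul_of_not hM' hM
    obtain ⟨y, hy⟩ := inner_of_square h2
    have h3 : sem M' 1 = MulAut.conj y * (sem M 1)⁻¹ := by
      rw [← hy, h1]; group
    rw [h3]
    exact mul_mem (mem_sup_right ⟨y, rfl⟩) (mem_sup_left (inv_mem (mem_zpowers _)))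
  refine ⟨fun f g h hf hg hh => ?_, ?_⟩
  · rcases key f hf with h1 | h1 <;> rcases key g hg with h2 | h2
    · exact Or.inl (hfield h1 h2)
    · rcases key h hh with h3 | h3
      · exact Or.inr (Or.inl (hfield h1 h3))
      · exact Or.inr (Or.inr (hdiag h2 h3))
    · rcases key h hh with h3 | h3
      · exact Or.inr (Or.inr (hfield h2 h3))
      · exact Or.inr (Or.inl (hdiag h1 h3))
    · exact Or.inl (hdiag h1 h2)
  · by_cases hex : ∃ τ : RingAut F, τ ≠ 1 ∧ τ ^ 2 = 1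
    · obtain ⟨τ, h1, h2⟩ := hex
      exact Or.inr (hconn τ h1 h2)
    · push Not at hex
      left
      intro f g hf hg
      rcases key f hf with ⟨y, τ, h1, h2, h3⟩ | h1
      · exact absurd h2 (hex τ h3)
      · rcases key g hg with ⟨y, τ, h1', h2, h3⟩ | h2
        · exact absurd h2 (hex τ h3)
        · exact hdiag h1 h2

end

end Vale.Agent.P240.H195
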