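import Vale.Agent.P240.H195.SixConn
import Vale.Agent.P240.H195.SLE

/-!
`𝒜₂(PSL_2(F))` is connected if `|F| ≥ 13` and `-1` is a square in `F`.
-/

namespace Vale.Agent.P240.H195

open Subgroup Matrix Vale.Agent.P240.K

section
variable {A : Type*} [Group A]

lemma conj_sq {g z : A} (hz : z ^ 2 = 1) : (g * z * g⁻¹) ^ 2 = 1 := by
  rw [conj_pow, hz, mul_one, mul_inv_cancel]

lemma conj_ne {g z : A} (hz : z ≠ 1) : g * z * g⁻¹ ≠ 1 := fun h => hz (by
  have : z = g⁻¹ * (g * z * g⁻¹) * g := by group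
  rw [this, h]; group)

/-- a criterion for connectedness -/
theorem conn_of [Finite A] {z : A} (hz : z ^ 2 = 1) (hz1 : z ≠ 1)
    (hgen : ∀ S : Subgroup A, (∀ g, g * z = z * g → g ∈ S) →
      (∀ w, w ^ 2 = 1 → w ≠ 1 → w * z = z * w → ∀ g, g * w = w * g → g ∈ S) → S = ⊤)
    (X Y : Ap 2 A) : Rl A X Y := by
  let S : Subgroup A :=
    { carrier := {g | Rl A (Zi z hz hz1) (Zi (g * z * g⁻¹) (conj_sq hz) (conj_ne hz1))}
      one_mem' := by
        change Rl A _ _
        exact rl_comm (by group)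
      mul_mem' := by
        intro g h hg hh
        change Rl A _ _ at hg hh ⊢
        have h1 := rl_map (MulAut.conj g) hh (hz' := conj_sq hz) (hw' := conj_sq (conj_sq hz))
          (hz1' := conj_ne hz1) (hw1' := conj_ne (conj_ne hz1))
        refine (hg.trans h1).trans (rl_comm ?_)
        simp only [MulAut.conj_apply]
        group
      inv_mem' := by
        intro g hg
        change Rl A _ _ at hg ⊢
        have h1 := rl_map (MulAut.conj g⁻¹) hg (hz' := conj_sq hz) (hw' := conj_sq (conj_sq hz))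
          (hz1' := conj_ne hz1) (hw1' := conj_ne (conj_ne hz1))
        refine Relation.ReflTransGen.trans ?_ h1.symm
        refine rl_comm ?_
        simp only [MulAut.conj_apply]
        group }
  have hS : ∀ g, g ∈ S ↔ Rl A (Zi z hz hz1) (Zi (g * z * g⁻¹) (conj_sq hz) (conj_ne hz1)) :=
    fun g => Iff.rfl
  have htop : S = ⊤ := by
    refine hgen S (fun g hg => ?_) fun w hw hw1 hwz g hg => ?_
    · rw [hS]
      refine rl_comm ?_
      have : g * z * g⁻¹ = z := by rw [hg]; group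
      rw [this]
    · rw [hS]
      refine (rl_comm (hz := hz) (hw := hw) (hz1 := hz1) (hw1 := hw1) hwz.symm).trans
        (rl_comm ?_)
      have h1 : g * w * g⁻¹ = w := by rw [hg]; group
      calc w * (g * z * g⁻¹) = (g * w * g⁻¹) * (g * z * g⁻¹) := by rw [h1]
        _ = g * (w * z) * g⁻¹ := by group
        _ = g * (z * w) * g⁻¹ := by rw [hwz]
        _ = (g * z * g⁻¹) * (g * w * g⁻¹) := by group
        _ = (g * z * g⁻¹) * w := by rw [h1]
  have hconj : ∀ g, Rl A (Zi z hz hz1) (Zi (g * z * g⁻¹) (conj_sq hz) (conj_ne hz1)) := by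
    intro g
    rw [← hS, htop]
    exact mem_top g
  -- a central involution of a Sylow 2-subgroup containing `z`
  have : Fact (Nat.Prime 2) := ⟨Nat.prime_two⟩
  have hpg : ∀ {t : A}, t ^ 2 = 1 → IsPGroup 2 (zpowers t) := by
    intro t ht
    rintro ⟨x, k, rfl⟩
    refine ⟨1, Subtype.ext ?_⟩
    change (t ^ k) ^ 2 ^ 1 = 1
    rw [pow_one, ← zpow_natCast, ← zpow_mul, mul_comm, zpow_mul]
    have : t ^ ((2 : ℕ) : ℤ) = 1 := by rw [zpow_natCast, ht]
    rw [this, one_zpow]
  obtain ⟨P, hP⟩ := (hpg hz).exists_le_sylow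
  have hzP : z ∈ P := hP (mem_zpowers z)
  obtain ⟨c, hcP, hc2, hc1, hcc⟩ : ∃ c ∈ P, c ^ 2 = 1 ∧ c ≠ 1 ∧ ∀ x ∈ P, c * x = x * c := by
    have hnt : Nontrivial P := ⟨⟨⟨z, hzP⟩, 1, fun h => hz1 (congrArg Subtype.val h)⟩⟩
    have h1 : Nontrivial (center P) := P.2.center_nontrivial
    have h2 : 2 ∣ Nat.card (center P) := by
      obtain ⟨n, hn⟩ := (P.2.to_subgroup (center P)).exists_card_eq
      rw [hn]
      refine dvd_pow_self 2 ?_
      rintro rfl
      rw [pow_zero] at hn
      have := Finite.one_lt_card_iff_nontrivial.2 h1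
      omega
    obtain ⟨c, hc⟩ := exists_prime_orderOf_dvd_card' 2 h2
    refine ⟨c.1.1, c.1.2, ?_, ?_, ?_⟩
    · have : c ^ 2 = 1 := by
        have h3 := pow_orderOf_eq_one c
        rwa [hc] at h3
      exact congrArg (fun x : center P => x.1.1) this
    · intro h3
      have : c = 1 := Subtype.ext (Subtype.ext h3)
      rw [this, orderOf_one] at hc
      exact absurd hc (by norm_num)
    · intro x hx
      exact (congrArg Subtype.val (mem_center_iff.1 c.2 ⟨x, hx⟩)).symm
  have hall : ∀ t (ht : t ^ 2 = 1) (ht1 : t ≠ 1), Rl A (Zi t ht ht1) (Zi z hz hz1) := by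
    intro t ht ht1
    obtain ⟨Q, hQ⟩ := (hpg ht).exists_le_sylow
    have htQ : t ∈ Q := hQ (mem_zpowers t)
    obtain ⟨g, hg⟩ := MulAction.exists_smul_eq A P Q
    have h1 : ∃ x ∈ P, t = g * x * g⁻¹ := by
      rw [← hg] at htQ
      obtain ⟨x, hx, hxt⟩ := htQ
      exact ⟨x, hx, hxt.symm⟩
    obtain ⟨x, hx, rfl⟩ := h1
    have h2 : Rl A (Zi (g * x * g⁻¹) ht ht1) (Zi (g * c * g⁻¹) (conj_sq hc2) (conj_ne hc1)) := by
      refine rl_comm ?_
      have := hcc x hx
      calc g * x * g⁻¹ * (g * c * g⁻¹) = g * (x * c) * g⁻¹ := by group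
        _ = g * (c * x) * g⁻¹ := by rw [this]
        _ = _ := by group
    have h3 : Rl A (Zi c hc2 hc1) (Zi z hz hz1) := rl_comm (hcc z hzP)
    have h4 := rl_map (MulAut.conj g) h3 (hz' := conj_sq hc2) (hw' := conj_sq hz)
      (hz1' := conj_ne hc1) (hw1' := conj_ne hz1)
    exact (h2.trans h4).trans (hconj g).symm
  have hX : ∀ X : Ap 2 A, Rl A X (Zi z hz hz1) := by
    intro X
    obtain ⟨t, htX, ht1⟩ : ∃ t ∈ X.1, t ≠ 1 := by
      by_contra hcon
      push Not at hcon
      exact X.2.1 (eq_bot_iff.2 fun x hx => by rw [mem_bot]; exact hcon x hx)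
    have ht := X.2.2.2 t htX
    refine Relation.ReflTransGen.trans (Relation.ReflTransGen.single (Or.inr ?_)) (hall t ht ht1)
    change zpowers t ≤ X.1
    rw [zpowers_le]
    exact htX
  exact (hX X).trans (hX Y).symm

end

end Vale.Agent.P240.H195
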