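import Vale.Agent.P240.H195.SLG

/-!
`𝒜₂(PSL_2(F))` is connected if `|F| ≥ 13` and `-1` is a square in `F`.
-/

namespace Vale.Agent.P240.H195

open Subgroup Matrix Vale.Agent.P240.K

section
variable {F : Type*} [Field F]

omit [Field F] in
lemma exists_notin [Finite F] (s : Finset F) (h : s.card < Nat.card F) : ∃ x, x ∉ s := by
  have := Fintype.ofFinite F
  by_contra hcon
  push Not at hcon
  have h1 : (Finset.univ : Finset F) ⊆ s := fun x _ => hcon x
  have h2 := Finset.card_le_card h1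
  rw [Finset.card_univ, ← Nat.card_eq_fintype_card] at h2
  omega

/-- two slopes -/
lemma exists_slopes [Finite F] (h2 : (2 : F) ≠ 0) (hF : 9 < Nat.card F) {i : F}
    (hi : i ^ 2 = -1) : ∃ m s m' s' : F, m ≠ 0 ∧ s ≠ 0 ∧ m' ≠ 0 ∧ s' ≠ 0 ∧ 1 + m ^ 2 = s ^ 2 ∧
      1 + m' ^ 2 = s' ^ 2 ∧ m ^ 2 ≠ m' ^ 2 := by
  classical
  have hgood : ∀ t : F, t ≠ 0 → t ≠ 1 → t ≠ -1 → t ≠ i → t ≠ -i →
      1 - t ^ 2 ≠ 0 ∧ 1 + t ^ 2 ≠ 0 := by
    intro t h0 h1 h1' h3 h3'
    constructor
    · intro h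
      have : (1 - t) * (1 + t) = 0 := by linear_combination h
      rcases mul_eq_zero.1 this with h4 | h4
      · exact h1 (by linear_combination -h4)
      · exact h1' (by linear_combination h4)
    · intro h
      have : (t - i) * (t + i) = 0 := by linear_combination h - hi
      rcases mul_eq_zero.1 this with h4 | h4
      · exact h3 (by linear_combination h4)
      · exact h3' (by linear_combination h4)
  obtain ⟨t, ht⟩ := exists_notin ({0, 1, -1, i, -i} : Finset F)
    (lt_of_le_of_lt (Finset.card_le_five) (by omega))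
  simp only [Finset.mem_insert, Finset.mem_singleton, not_or] at ht
  obtain ⟨ht0, ht1, ht1', hti, hti'⟩ := ht
  obtain ⟨t', ht'⟩ := exists_notin ({0, 1, -1, i, -i, t, -t, t⁻¹, -t⁻¹} : Finset F) (by
    refine lt_of_le_of_lt ?_ hF
    have := Finset.card_insert_le (0 : F) {1, -1, i, -i, t, -t, t⁻¹, -t⁻¹}
    have := Finset.card_insert_le (1 : F) {-1, i, -i, t, -t, t⁻¹, -t⁻¹}
    have := Finset.card_insert_le (-1 : F) {i, -i, t, -t, t⁻¹, -t⁻¹}
    have := Finset.card_insert_le i {-i, t, -t, t⁻¹, -t⁻¹}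
    have : ({-i, t, -t, t⁻¹, -t⁻¹} : Finset F).card ≤ 5 := Finset.card_le_five
    omega)
  simp only [Finset.mem_insert, Finset.mem_singleton, not_or] at ht'
  obtain ⟨ht0', hs1, hs1', hsi, hsi', hst, hst', hst1, hst1'⟩ := ht'
  obtain ⟨ha, hb⟩ := hgood t ht0 ht1 ht1' hti hti'
  obtain ⟨ha', hb'⟩ := hgood t' ht0' hs1 hs1' hsi hsi'
  refine ⟨2 * t / (1 - t ^ 2), (1 + t ^ 2) / (1 - t ^ 2), 2 * t' / (1 - t' ^ 2),
    (1 + t' ^ 2) / (1 - t' ^ 2), div_ne_zero (mul_ne_zero h2 ht0) ha, div_ne_zero hb ha,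
    div_ne_zero (mul_ne_zero h2 ht0') ha', div_ne_zero hb' ha', ?_, ?_, ?_⟩
  · field_simp
    ring
  · field_simp
    ring
  · intro h
    rw [div_pow, div_pow, div_eq_div_iff (pow_ne_zero 2 ha) (pow_ne_zero 2 ha')] at h
    have h3 : (2 : F) * 2 * ((t - t') * (1 + t * t') * ((t + t') * (1 - t * t'))) = 0 := by
      linear_combination h
    have h4 : (t - t') * (1 + t * t') * ((t + t') * (1 - t * t')) = 0 :=
      (mul_eq_zero.1 h3).resolve_left (mul_ne_zero h2 h2)
    rcases mul_eq_zero.1 h4 with h5 | h5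
    · rcases mul_eq_zero.1 h5 with h6 | h6
      · exact hst (by linear_combination -h6)
      · apply hst1'
        field_simp
        linear_combination h6
    · rcases mul_eq_zero.1 h5 with h6 | h6
      · exact hst' (by linear_combination h6)
      · apply hst1
        field_simp
        linear_combination -h6

/-- special two-by-two matrices -/
def s2 (a b c d : F) (h : a * d - b * c = 1) : SLm 1 F :=
  ⟨!![a, b; c, d], by rw [Matrix.det_fin_two_of, h]⟩

lemma s2_mul {a b c d a' b' c' d' : F} (h h') : s2 a b c d h * s2 a' b' c' d' h' =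
    s2 (a * a' + b * c') (a * b' + b * d') (c * a' + d * c') (c * b' + d * d') (by
      linear_combination (a' * d' - b' * c') * h + h') := by
  apply Subtype.ext
  rw [SpecialLinearGroup.coe_mul]
  exact Matrix.mul_fin_two ..

lemma s2_eq {a b c d a' b' c' d' : F} {h h'} (e1 : a = a') (e2 : b = b') (e3 : c = c')
    (e4 : d = d') : s2 a b c d h = s2 a' b' c' d' h' := by
  subst e1; subst e2; subst e3; subst e4; rfl

lemma pr_neg {x y : SLm 1 F} (h : x.1 = -y.1) : pr 1 F x = pr 1 F y := by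
  have h1 : pr 1 F (y⁻¹ * x) = 1 := by
    refine (QuotientGroup.eq_one_iff _).2 ?_
    rw [Matrix.SpecialLinearGroup.mem_center_iff]
    refine ⟨-1, by rw [Fintype.card_fin]; norm_num, ?_⟩
    have h2 : (y⁻¹ * x).1 = (y⁻¹).1 * x.1 := rfl
    have h3 : (y⁻¹).1 * y.1 = 1 := by
      have := congrArg (fun z : SLm 1 F => z.1) (inv_mul_cancel y)
      exact this
    rw [h2, h, Matrix.mul_neg, h3, Matrix.scalar_apply]
    ext i j
    rw [Matrix.diagonal_apply, Matrix.neg_apply, Matrix.one_apply]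
    split_ifs <;> simp
  rw [map_mul, map_inv, inv_mul_eq_one] at h1
  exact h1.symm

lemma s2_tx (c : F) : tx h01 c = s2 1 c 0 1 (by ring) := by
  refine sl_ext fun i j => ?_
  rw [tx_apply]
  change _ = (!![1, c; 0, 1] : Matrix (Fin 2) (Fin 2) F) i j
  fin_cases i <;> fin_cases j <;> simp

lemma h10' : (1 : Fin (1 + 1)) ≠ 0 := by decide

lemma s2_tx' (c : F) : tx h10' c = s2 1 0 c 1 (by ring) := by
  refine sl_ext fun i j => ?_
  rw [tx_apply]
  change _ = (!![1, 0; c, 1] : Matrix (Fin 2) (Fin 2) F) i j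
  fin_cases i <;> fin_cases j <;> simp

lemma pr_ne_one {x : SLm 1 F} {i j : Fin (1 + 1)} (hij : i ≠ j) (h : x.1 i j ≠ 0) :
    pr 1 F x ≠ 1 := by
  intro h1
  have h2 : x ∈ center (SLm 1 F) := (QuotientGroup.eq_one_iff _).1 h1
  obtain ⟨z, -, hz⟩ := Matrix.SpecialLinearGroup.mem_center_iff.1 h2
  apply h
  rw [← hz, Matrix.scalar_apply, Matrix.diagonal_apply_ne _ hij]

end

end Vale.Agent.P240.H195
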