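import Vale.Agent.P240.H195.SLH

/-!
`𝒜₂(PSL_2(F))` is connected if `|F| ≥ 9` and `-1` is a square in `F`, `char F ≠ 2`.
-/

namespace Vale.Agent.P240.H195

open Subgroup Matrix Vale.Agent.P240.K

section
variable {F : Type*} [Field F]

lemma s2_neg_one {x : SLm 1 F} (h : x.1 0 0 = -1 ∧ x.1 0 1 = 0 ∧ x.1 1 0 = 0 ∧ x.1 1 1 = -1) :
    pr 1 F x = 1 := by
  have h1 : x.1 = -(1 : SLm 1 F).1 := by
    ext i j
    rw [Matrix.neg_apply, sl_one]
    fin_cases i <;> fin_cases j
    · simpa using h.1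
    · simpa using h.2.1
    · simpa using h.2.2.1
    · simpa using h.2.2.2
  rw [pr_neg h1, map_one]

/-- generation of the special linear group -/
lemma top_of_upper {S₀ : Subgroup (SLm 1 F)} (h2 : (2 : F) ≠ 0)
    (hdiag : ∀ a : F, ∀ h, s2 a 0 0 a⁻¹ h ∈ S₀) (hw : ∀ h, s2 (0 : F) 1 (-1) 0 h ∈ S₀)
    (hP : ∃ α β : F, ∃ h, α ≠ 0 ∧ β ≠ 0 ∧ s2 α β 0 α⁻¹ h ∈ S₀) : S₀ = ⊤ := by
  obtain ⟨α, β, hαβ, hα, hβ, hP⟩ := hP
  set γ : F := β * α with hγ
  have hγ0 : γ ≠ 0 := mul_ne_zero hβ hα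
  have hone : s2 1 γ 0 1 (by ring) ∈ S₀ := by
    have h5 := hdiag α⁻¹ (by field_simp; ring)
    have h6 := mul_mem hP h5
    rw [s2_mul] at h6
    convert h6 using 1
    apply s2_eq
    · field_simp
      ring
    · rw [hγ]
      field_simp
      ring
    · ring
    · field_simp
      ring
  have hsq : ∀ a : F, s2 1 (a ^ 2 * γ) 0 1 (by ring) ∈ S₀ := by
    intro a
    by_cases ha : a = 0
    · subst ha
      have : s2 1 ((0 : F) ^ 2 * γ) 0 1 (by ring) = 1 := by
        refine sl_ext fun i j => ?_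
        rw [sl_one]
        change (!![1, 0 ^ 2 * γ; 0, 1] : Matrix (Fin 2) (Fin 2) F) i j = _
        fin_cases i <;> fin_cases j <;> simp
      rw [this]
      exact one_mem _
    · have h5 := hdiag a (by field_simp; ring)
      have h6 := hdiag a⁻¹ (by field_simp; ring)
      have h7 := mul_mem (mul_mem h5 hone) h6
      rw [s2_mul, s2_mul] at h7
      convert h7 using 1
      apply s2_eq <;> field_simp <;> ring
  have hup : ∀ c : F, tx h01 c ∈ S₀ := by
    intro c
    have h5 := hsq ((c / γ + 1) / 2)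
    have h6 := hsq ((c / γ - 1) / 2)
    rw [← s2_tx] at h5 h6
    have h7 := mul_mem h5 (inv_mem h6)
    rw [tx_inv, tx_mul_tx] at h7
    convert h7 using 2
    field_simp
    ring
  have hlo : ∀ c : F, tx h10' c ∈ S₀ := by
    intro c
    have hw' := hw (by ring)
    have h5 := mul_mem (mul_mem hw' (hup (-c))) (inv_mem hw')
    have h6 : s2 (0 : F) 1 (-1) 0 (by ring) * tx h01 (-c) *
        (s2 (0 : F) 1 (-1) 0 (by ring))⁻¹ = tx h10' c := by
      rw [mul_inv_eq_iff_eq_mul, s2_tx, s2_tx', s2_mul, s2_mul]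
      apply s2_eq <;> ring
    rwa [h6] at h5
  rw [eq_top_iff]
  intro x _
  refine Matrix.SL2.transvection_induction (fun x => x ∈ S₀) ?_
    (fun A B hA hB => mul_mem hA hB) x
  intro i j hij c
  fin_cases i <;> fin_cases j
  · exact absurd rfl hij
  · exact hup c
  · exact hlo c
  · exact absurd rfl hij

lemma upper_of {S₀ : Subgroup (SLm 1 F)} {a b c d : F} {h} (hm : s2 a b c d h ∈ S₀) (hc : c = 0)
    (hb : b ≠ 0) : ∃ α β : F, ∃ h, α ≠ 0 ∧ β ≠ 0 ∧ s2 α β 0 α⁻¹ h ∈ S₀ := by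
  subst hc
  have h1 : a * d = 1 := by linear_combination h
  have ha : a ≠ 0 := left_ne_zero_of_mul (by rw [h1]; exact one_ne_zero)
  have hd : d = a⁻¹ := eq_inv_of_mul_eq_one_right h1
  subst hd
  exact ⟨a, b, h, ha, hb, hm⟩

/-- an upper triangular element, large fields -/
lemma upper_large [Finite F] {S₀ : Subgroup (SLm 1 F)} (h2 : (2 : F) ≠ 0) (hF : 9 < Nat.card F)
    {i : F} (hi : i ^ 2 = -1)
    (hrot : ∀ b x y : F, b ≠ 0 → ∀ h, s2 x (y * b) (-(y * b⁻¹)) x h ∈ S₀) :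
    ∃ α β : F, ∃ h, α ≠ 0 ∧ β ≠ 0 ∧ s2 α β 0 α⁻¹ h ∈ S₀ := by
  obtain ⟨m, s, m', s', hm, hs, hm', hs', h3, h4, hne⟩ := exists_slopes h2 hF hi
  refine ⟨s / s', (m ^ 2 - m' ^ 2) / (s * s'), by field_simp; ring, div_ne_zero hs hs',
    div_ne_zero (sub_ne_zero.2 hne) (mul_ne_zero hs hs'), ?_⟩
  have h5 := hrot m (1 / s) (m / s) hm (by field_simp; linear_combination h3)
  have h6 := hrot m' (1 / s') (-(m' / s')) hm' (by field_simp; linear_combination h4)
  have h7 := mul_mem h5 h6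
  rw [s2_mul] at h7
  convert h7 using 1
  apply s2_eq
  · field_simp
    linear_combination -h3
  · field_simp
    ring
  · field_simp
    ring
  · field_simp
    linear_combination -h4

/-- an upper triangular element, the field with nine elements -/
lemma upper_nine [Finite F] {S₀ : Subgroup (SLm 1 F)} (h3 : (3 : F) = 0) (hF : 9 = Nat.card F)
    {i : F} (hi : i ^ 2 = -1)
    (hrot : ∀ b x y : F, b ≠ 0 → ∀ h, s2 x (y * b) (-(y * b⁻¹)) x h ∈ S₀) :
    ∃ α β : F, ∃ h, α ≠ 0 ∧ β ≠ 0 ∧ s2 α β 0 α⁻¹ h ∈ S₀ := by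
  classical
  have h2 : (2 : F) = -1 := by linear_combination h3
  have hi0 : i ≠ 0 := by
    rintro rfl
    rw [zero_pow two_ne_zero] at hi
    exact one_ne_zero (neg_eq_zero.1 hi.symm)
  obtain ⟨t, ht⟩ := exists_notin ({0, 1, -1, i, -i} : Finset F)
    (lt_of_le_of_lt (Finset.card_le_five) (by omega))
  simp only [Finset.mem_insert, Finset.mem_singleton, not_or] at ht
  obtain ⟨ht0, ht1, ht1', hti, hti'⟩ := ht
  have ha : t + 1 ≠ 0 := fun h => ht1' (by linear_combination h)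
  have hb : t - 1 ≠ 0 := fun h => ht1 (by linear_combination h)
  have hc : t ^ 2 + 1 ≠ 0 := by
    intro h
    have : (t - i) * (t + i) = 0 := by linear_combination h - hi
    rcases mul_eq_zero.1 this with h4 | h4
    · exact hti (by linear_combination h4)
    · exact hti' (by linear_combination h4)
  have hb'' : t * (t - 1) / (t + 1) ≠ 0 := div_ne_zero (mul_ne_zero ht0 hb) ha
  have hdet : ∀ b : F, b ≠ 0 → i * i - i * b * -(i * b⁻¹) = 1 := by
    intro b hb
    field_simp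
    linear_combination 2 * hi - h3
  have h5 := hrot 1 i i one_ne_zero (hdet 1 one_ne_zero)
  have h6 := hrot t i i ht0 (hdet t ht0)
  have h7 := hrot _ i i hb'' (hdet _ hb'')
  have h8 := mul_mem (mul_mem h5 h6) h7
  rw [s2_mul, s2_mul] at h8
  refine upper_of h8 ?_ ?_
  · field_simp
    ring
  · have e : (i * i + i * 1 * -(i * t⁻¹)) * (i * (t * (t - 1) / (t + 1))) +
        (i * (i * t) + i * 1 * i) * i = i ^ 3 * (2 * (t ^ 2 + 1)) / (t + 1) := by
      field_simp
      ring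
    rw [e]
    refine div_ne_zero (mul_ne_zero (pow_ne_zero 3 hi0) (mul_ne_zero ?_ hc)) ha
    rw [h2]
    exact neg_ne_zero.2 one_ne_zero

theorem psl2_conn [Finite F] (h2 : (2 : F) ≠ 0)
    (hF : 9 < Nat.card F ∨ ((3 : F) = 0 ∧ 9 = Nat.card F)) {i : F}
    (hi : i ^ 2 = -1) (X Y : Ap 2 (PL 1 F)) : Rl (PL 1 F) X Y := by
  have hi0 : i ≠ 0 := by
    rintro rfl
    rw [zero_pow two_ne_zero] at hi
    exact one_ne_zero (neg_eq_zero.1 hi.symm)
  set z₀ : SLm 1 F := s2 i 0 0 (-i) (by linear_combination -hi) with hz₀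
  have hz : pr 1 F z₀ ^ 2 = 1 := by
    rw [← map_pow, pow_two, hz₀, s2_mul]
    apply s2_neg_one
    refine ⟨?_, ?_, ?_, ?_⟩
    · change i * i + 0 * 0 = -1
      linear_combination hi
    · change i * 0 + 0 * -i = 0
      ring
    · change 0 * i + -i * 0 = 0
      ring
    · change 0 * 0 + -i * -i = -1
      linear_combination hi
  have hz1 : pr 1 F z₀ ≠ 1 := by
    intro h1
    have h3 : z₀ ∈ center (SLm 1 F) := (QuotientGroup.eq_one_iff _).1 h1
    obtain ⟨c, -, hc⟩ := Matrix.SpecialLinearGroup.mem_center_iff.1 h3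
    have h4 : i = c := by
      have := congrArg (fun M : Matrix (Fin (1 + 1)) (Fin (1 + 1)) F => M 0 0) hc
      simpa [hz₀, s2] using this.symm
    have h5 : -i = c := by
      have := congrArg (fun M : Matrix (Fin (1 + 1)) (Fin (1 + 1)) F => M 1 1) hc
      simpa [hz₀, s2] using this.symm
    have h6 : 2 * i = 0 := by linear_combination h4 - h5
    exact mul_ne_zero h2 hi0 h6
  refine conn_of hz hz1 (fun S hS1 hS2 => ?_) X Y
  set S₀ : Subgroup (SLm 1 F) := S.comap (pr 1 F) with hS₀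
  -- diagonal matrices
  have hdiag : ∀ a : F, ∀ h, s2 a 0 0 a⁻¹ h ∈ S₀ := by
    intro a h
    refine hS1 _ ?_
    rw [← map_mul, ← map_mul, hz₀, s2_mul, s2_mul]
    congr 1
    apply s2_eq <;> ring
  -- centralizers of the involutions `w_b`
  have hrot : ∀ b x y : F, b ≠ 0 → ∀ h, s2 x (y * b) (-(y * b⁻¹)) x h ∈ S₀ := by
    intro b x y hb h
    refine hS2 (pr 1 F (s2 0 b (-b⁻¹) 0 (by field_simp; ring))) ?_ ?_ ?_ _ ?_
    · rw [← map_pow, pow_two, s2_mul]
      apply s2_neg_one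
      refine ⟨?_, ?_, ?_, ?_⟩
      · change 0 * 0 + b * -b⁻¹ = -1
        field_simp
        ring
      · change 0 * b + b * 0 = 0
        ring
      · change -b⁻¹ * 0 + 0 * -b⁻¹ = 0
        ring
      · change -b⁻¹ * b + 0 * 0 = -1
        field_simp
        ring
    · exact pr_ne_one (i := 0) (j := 1) (by decide) hb
    · rw [← map_mul, ← map_mul]
      apply pr_neg
      rw [hz₀, s2_mul, s2_mul]
      change (!![_, _; _, _] : Matrix (Fin 2) (Fin 2) F) = -!![_, _; _, _]
      rw [Matrix.neg_of]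
      ext u v
      fin_cases u <;> fin_cases v <;> simp [mul_comm]
    · rw [← map_mul, ← map_mul, s2_mul, s2_mul]
      congr 1
      apply s2_eq <;> field_simp <;> ring
  have hS₀top : S₀ = ⊤ := by
    refine top_of_upper h2 hdiag (fun h => ?_) ?_
    · have := hrot 1 0 1 one_ne_zero (by ring)
      convert this using 1
      apply s2_eq <;> ring
    · rcases hF with hF | ⟨h3, hF⟩
      · exact upper_large h2 hF hi hrot
      · exact upper_nine h3 hF hi hrot
  rw [eq_top_iff]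
  intro x _
  obtain ⟨x, rfl⟩ := QuotientGroup.mk'_surjective _ x
  have : x ∈ S₀ := by rw [hS₀top]; exact mem_top x
  exact this

end

end Vale.Agent.P240.H195
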