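import Mathlib.LinearAlgebra.Projectivization.PSL.PSL2
import Vale.Agent.P240.H148.Defs
import Vale.Agent.P240.H195.Few
import Vale.Agent.P240.H195.RIso
import Vale.Agent.P240.H195.SLI

/-!
The groups `PSL_n(F)` are admissible composition factors.
-/

namespace Vale.Agent.P240.H195

open Subgroup Vale.Agent.P240.K

section
variable {p : ℕ}

/-- `PSL_2(F)` has few outer automorphisms of order `p ≠ char F` -/
theorem fewAut_psl2 {F : Type*} [Field F] [Finite F] [hp : Fact p.Prime] {r : ℕ}
    [hr : Fact r.Prime] [CharP F r] (hrp : r ≠ p) (hsimple : IsSimpleGroup (PL 1 F)) :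
    FewAut p (PL 1 F) := by
  by_cases hp2 : p = 2
  · subst hp2
    refine few_two hrp hsimple fun τ h1 h2 => ?_
    obtain ⟨k, hk, hcard, -⟩ := ff_quad h1 h2
    have h3 : (2 : F) ≠ 0 := by
      intro h
      have h4 : (r : ℕ) ∣ 2 := (CharP.cast_eq_zero_iff F r 2).1 (by exact_mod_cast h)
      exact hrp ((Nat.prime_dvd_prime_iff_eq hr.out Nat.prime_two).1 h4)
    have hodd : Odd (r ^ k) := (hr.out.odd_of_ne_two hrp).pow
    have hr3 : 3 ≤ r := by
      have := hr.out.two_le
      omega
    have hrk : 3 ≤ r ^ k := hr3.trans (Nat.le_self_pow hk.ne' r)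
    have := Fintype.ofFinite F
    obtain ⟨i, hi⟩ : IsSquare (-1 : F) := by
      rw [FiniteField.isSquare_neg_one_iff, ← Nat.card_eq_fintype_card, hcard]
      obtain ⟨j, hj⟩ := hodd
      rw [hj]
      have : (2 * j + 1) ^ 2 = 4 * (j * j + j) + 1 := by ring
      omega
    intro X Y
    refine psl2_conn h3 ?_ (i := i) (by rw [hi]; ring) X Y
    rcases Nat.eq_or_lt_of_le hrk with h4 | h4
    · right
      refine ⟨?_, by rw [hcard, ← h4]; norm_num⟩
      have h5 : r ∣ 3 := by
        rw [h4]
        exact dvd_pow_self r hk.ne'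
      exact_mod_cast (CharP.cast_eq_zero_iff F r 3).2 h5
    · left
      rw [hcard]
      nlinarith
  · exact few_odd hp.out hp2 hsimple

end

section
universe u
variable {p : ℕ} {L : Type u} [Group L]

lemma centreless_of_simple (hs : IsSimpleGroup L) (hn : ∃ x y : L, x * y ≠ y * x) :
    ∀ x : L, (∀ y, x * y = y * x) → x = 1 := by
  intro x hx
  have h1 : x ∈ center L := mem_center_iff.2 fun y => (hx y).symm
  rcases hs.eq_bot_or_eq_top_of_normal (center L) inferInstance with h2 | h2
  · rw [h2, mem_bot] at h1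
    exact h1
  · exfalso
    obtain ⟨a, b, hab⟩ := hn
    have h3 : a ∈ center L := by rw [h2]; exact mem_top a
    exact hab (mem_center_iff.1 h3 b).symm

/-- a simple group `PSL_n(F)` is of Lie type in the characteristic of `F`, and satisfies
`RigidLie` -/
theorem isPSL_lie {r : ℕ} [hr : Fact r.Prime] (hs : IsSimpleGroup L)
    (hn : ∃ x y : L, x * y ≠ y * x) (h : H148.IsPSL r L) :
    RigidLie r L ∧ (p.Prime → p ≠ r → AutFree p r L) := by
  obtain ⟨n, F, _, _, h2, h34, _, ⟨e⟩⟩ := h
  obtain ⟨m, rfl⟩ : ∃ m, n = m + 1 := ⟨n - 1, by omega⟩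
  have hm : 0 < m := by omega
  have hc := centreless_of_simple hs hn
  have hs' : IsSimpleGroup (PL m F) := e.symm.isSimpleGroup
  have hc' : ∀ x : PL m F, (∀ y, x * y = y * x) → x = 1 := centreless_tr e hc
  refine ⟨(psl_rigidLie hm hs' hc').tr e.symm, fun hp hpr => ?_⟩
  exact ((psl_lieType hm hs' hc').autFree hr.out hp hpr).congr e.symm

/-- a simple group `PSL_2(F)` has few outer automorphisms of order `p ≠ char F` -/
theorem isPSL2_few [hp : Fact p.Prime] {F : Type} [Field F] [Finite F] {r : ℕ}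
    [hr : Fact r.Prime] [CharP F r] (hrp : r ≠ p) (hs : IsSimpleGroup L)
    (e : L ≃* Matrix.ProjectiveSpecialLinearGroup (Fin 2) F) : FewAut p L := by
  have hs' : IsSimpleGroup (PL 1 F) := e.symm.isSimpleGroup
  exact (fewAut_psl2 hrp hs').congr e.symm

end

end Vale.Agent.P240.H195
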