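import Vale.Agent.P240.H195.SO6

/-!
The groups `PSL_n(F)` satisfy `EuFree p` if `n` has a divisor `d ≥ 3` such that `p` does not divide
`(q ^ d - 1) / (q - 1)`: the final statement.
-/

namespace Vale.Agent.P240.H195

open Subgroup Polynomial Vale.Agent.P240.K

/-- **`PSL_n(F)` satisfies `EuFree p`** if `n = k * d`, `d ≥ 3`, and `p` does not divide
`(q ^ d - 1) / (q - 1)`. -/
theorem eu_psl {F : Type*} [Field F] [Finite F] {m k d p : ℕ} [hp : Fact p.Prime]
    (hn : m + 1 = k * d) (hd : 3 ≤ d) (hpF : (p : F) ≠ 0)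
    (hpt : ¬ p ∣ (Nat.card F ^ d - 1) / (Nat.card F - 1)) (hex : ¬ (d = 3 ∧ Nat.card F = 4))
    (hsimple : IsSimpleGroup (PL m F)) (hc : ∀ x : PL m F, (∀ y, x * y = y * x) → x = 1) :
    EuFree p (PL m F) := by
  rcases Nat.lt_or_ge k 2 with hk | hk
  · have hk1 : k = 1 := by
      rcases Nat.eq_zero_or_pos k with h | h
      · rw [h, zero_mul] at hn
        omega
      · omega
    rw [hk1, one_mul] at hn
    subst hn
    exact (cyc_psl (by omega) hpF hpt hex hsimple hc).euFree hc
  obtain ⟨r, hr⟩ := CharP.exists F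
  have hrp : Fact r.Prime := ⟨(CharP.char_is_prime_or_zero F r).resolve_right
    (CharP.char_ne_zero_of_finite F r)⟩
  have hrp' : r ≠ p := by
    rintro rfl
    exact hpF (CharP.cast_eq_zero F r)
  let K := FiniteField.Extension F r d
  have : NeZero d := ⟨by omega⟩
  have hfr : Module.finrank F K = d := FiniteField.finrank_extension F r d
  have hfd : Module.Finite F K := Module.finite_of_finrank_pos (by omega)
  have hfin : Finite K := Module.finite_of_finite F
  have hcard : Nat.card K = Nat.card F ^ d := by rw [card_KF F K, hfr]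
  let f : K[X] := X ^ k
  have hmonic : f.Monic := monic_X_pow k
  have hdeg : f.natDegree = k := natDegree_X_pow k
  let R := AdjoinRoot f
  let pb : PowerBasis K R := AdjoinRoot.powerBasis' hmonic
  have hfK : Module.Finite K R := pb.finite
  have hfrK : Module.finrank K R = k := by
    rw [pb.finrank]
    exact hdeg
  have hfF : Module.Finite F R := Module.Finite.trans K R
  have hfrF : Module.finrank F R = m + 1 := by
    rw [← Module.finrank_mul_finrank F K R, hfr, hfrK, hn, mul_comm]
  let b : Module.Basis (Fin (m + 1)) F R := Module.finBasisOfFinrankEq F R hfrF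
  have hroot : (AdjoinRoot.root f) ^ k = 0 := by
    have h1 := AdjoinRoot.eval₂_root f
    rwa [eval₂_X_pow] at h1
  let ε : R →ₐ[K] K := AdjoinRoot.liftAlgHom f (AlgHom.id K K) 0 (by
    rw [eval₂_X_pow, zero_pow (by omega)])
  have hε : ∀ x, ε x = 0 → x ^ k = 0 := by
    intro x hx
    obtain ⟨g, rfl⟩ := AdjoinRoot.mk_surjective x
    have h1 : eval₂ (AlgHom.id K K : K →+* K) 0 g = 0 := hx
    have h2 : g.eval 0 = 0 := h1
    rw [← IsRoot.def, ← dvd_iff_isRoot, C_0, sub_zero] at h2
    obtain ⟨g', rfl⟩ := h2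
    rw [map_mul, AdjoinRoot.mk_X, mul_pow, hroot, zero_mul]
  have hgen : ∀ x : R, x ∈ Algebra.adjoin K {AdjoinRoot.root f} := by
    intro x
    rw [AdjoinRoot.adjoinRoot_eq_top]
    exact Algebra.mem_top
  have hφ : ∃ φ : R →ₗ[K] K, φ ≠ 0 ∧ φ 1 = 0 := by
    have h1 : Submodule.span K {(1 : R)} < ⊤ := by
      rw [lt_top_iff_ne_top]
      intro h1
      have h2 := finrank_span_le_card (R := K) ({(1 : R)} : Set R)
      rw [h1, finrank_top, hfrK] at h2
      simp at h2
      omega
    obtain ⟨φ, hφ, hφ'⟩ := Submodule.exists_dual_map_eq_bot_of_lt_top h1 inferInstance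
    refine ⟨φ, hφ, ?_⟩
    have h2 : φ 1 ∈ (Submodule.span K {(1 : R)}).map φ :=
      ⟨1, Submodule.mem_span_singleton_self 1, rfl⟩
    rw [hφ', Submodule.mem_bot] at h2
    exact h2
  refine eu_mix (r := r) (k := k) b hrp' (by rwa [hcard]) (by rw [hfr]; exact hd)
    (by rw [hfr]; exact hex) ε hε hgen hroot hφ ?_ hsimple
  have : 2 * 3 ≤ k * d := Nat.mul_le_mul hk hd
  omega

end Vale.Agent.P240.H195
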