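import Vale.Agent.P240.H195.CFTop
import Vale.Agent.P240.H195.SLJ
import Vale.Agent.P240.H195.SO7
import Vale.Agent.P240.H195.RGE

/-!
An explicit class of composition factors: alternating groups and groups `PSL_n(F)`.
-/

namespace Vale.Agent.P240.H195

open Subgroup Vale.Agent.P240.K

universe u v

/-- Explicit composition factors: `L` is an alternating group of degree at least `5`, or `PSL_2(F)`
for any finite field `F`, or `PSL_n(F)` for any finite field `F` if `n` has a divisor `d ≥ 3` such that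
`p` does not divide `(|F| ^ d - 1) / (|F| - 1)` and `(d, |F|) ≠ (3, 4)` (for `p = 2` and `|F|` odd this
means that `n` is not a power of `2`), or `PSL_n(F)` for a finite field `F` of characteristic `r`, where
`r = p`, or `r = l`, or `r` is the characteristic of `𝕜`, or the order of `L` is prime to `p`; or, if
`l = p = 2`, `PSL_n(F)` for a finite field `F` where `n = 2 ^ a ≥ 4` and `|F| ≡ 3` modulo `4`, with the
exception of the groups `PSL_8(F)` with `F` of characteristic `3`. -/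
def Explicit (𝕜 : Type*) [Field 𝕜] (p l : ℕ) (L : Type*) [Group L] : Prop :=
  (∃ n : ℕ, 5 ≤ n ∧ Nonempty (L ≃* alternatingGroup (Fin n))) ∨
    (∃ (F : Type) (_ : Field F) (_ : Finite F),
      Nonempty (L ≃* Matrix.ProjectiveSpecialLinearGroup (Fin 2) F)) ∨
    (∃ (n d : ℕ) (F : Type) (_ : Field F) (_ : Finite F), 2 ≤ n ∧ d ∣ n ∧ 3 ≤ d ∧
      ¬ p ∣ (Nat.card F ^ d - 1) / (Nat.card F - 1) ∧ ¬ (d = 3 ∧ Nat.card F = 4) ∧
      Nonempty (L ≃* Matrix.ProjectiveSpecialLinearGroup (Fin n) F)) ∨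
    (∃ r : ℕ, r.Prime ∧ H148.IsPSL r L ∧ (r = p ∨ r = l ∨ (r : 𝕜) = 0 ∨ ¬ p ∣ Nat.card L)) ∨
    (l = p ∧ p = 2 ∧ ∃ (n a : ℕ) (F : Type) (_ : Field F) (_ : Finite F), n = 2 ^ a ∧ 2 ≤ a ∧
      Nat.card F % 4 = 3 ∧ ¬ (n = 8 ∧ (3 : F) = 0) ∧
      Nonempty (L ≃* Matrix.ProjectiveSpecialLinearGroup (Fin n) F))

/-- Properties of the simple groups `L = PSL_n(F)`, where `r` is the characteristic of `F`: `L` is of
Lie type in characteristic `r` and satisfies `RigidLie r`; if `r ≠ p`, then `L` satisfies `FewAut p` if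
`n = 2`, and `EuFree p` if `n` has a divisor `d ≥ 3` such that `p` does not divide
`(|F| ^ d - 1) / (|F| - 1)` and `(d, |F|) ≠ (3, 4)` (for `p = 2` this means that `n` is not a power of
`2`); if `p = 2`, then `L` satisfies `RegFree 2` if `n = 2 ^ a ≥ 4`, `|F| ≡ 3` modulo `4` and
`(n, r) ≠ (8, 3)`. -/
def PSLProp (p r n : ℕ) (F : Type*) [Field F] : Prop :=
  LieType r (Matrix.ProjectiveSpecialLinearGroup (Fin n) F) ∧
    RigidLie r (Matrix.ProjectiveSpecialLinearGroup (Fin n) F) ∧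
    (n = 2 → r ≠ p → FewAut p (Matrix.ProjectiveSpecialLinearGroup (Fin n) F)) ∧
    (∀ d : ℕ, d ∣ n → 3 ≤ d → r ≠ p → ¬ p ∣ (Nat.card F ^ d - 1) / (Nat.card F - 1) →
      ¬ (d = 3 ∧ Nat.card F = 4) → EuFree p (Matrix.ProjectiveSpecialLinearGroup (Fin n) F)) ∧
    (∀ a : ℕ, n = 2 ^ a → 2 ≤ a → p = 2 → Nat.card F % 4 = 3 → ¬ (n = 8 ∧ r = 3) →
      RegFree p (Matrix.ProjectiveSpecialLinearGroup (Fin n) F))

/-- the characteristic of a field and other primes -/
lemma cast_ne {F : Type*} [Field F] {p r : ℕ} [CharP F r] (hr : r.Prime) (hp : p.Prime)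
    (hrp : r ≠ p) : (p : F) ≠ 0 := by
  intro h
  exact hrp ((Nat.prime_dvd_prime_iff_eq hr hp).1 ((CharP.cast_eq_zero_iff F r p).1 h))

theorem Explicit.good {𝕜 : Type v} [Field 𝕜] {p l : ℕ} [hp : Fact p.Prime] {G : Type u} [Group G]
    {L : Type u} [Group L] (hL : CompFactor G L) (h : Explicit 𝕜 p l L) : GoodFactor 𝕜 p l L := by
  obtain ⟨hs, hn, -⟩ := hL
  rcases h with h | ⟨F, _, _, ⟨e⟩⟩ | ⟨n, d, F, _, _, h2, ⟨k, hk⟩, h3, hpt, hex, ⟨e⟩⟩ | ⟨r, hr, hL, h⟩ |
    ⟨hlp, hp2, n, a, F, _, _, hm, ha, hq, hex, ⟨e⟩⟩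
  · exact Or.inl h
  · right
    obtain ⟨r, hrc⟩ := CharP.exists F
    have hr : r.Prime := (CharP.char_is_prime_or_zero F r).resolve_right
      (CharP.char_ne_zero_of_finite F r)
    have : Fact r.Prime := ⟨hr⟩
    have hc := centreless_of_simple hs hn
    have hs' : IsSimpleGroup (PL 1 F) := e.symm.isSimpleGroup
    have hc' : ∀ x : PL 1 F, (∀ y, x * y = y * x) → x = 1 := centreless_tr e hc
    by_cases hrp : r = p
    · subst hrp
      exact Or.inl ((psl_rigidLie one_pos hs' hc').tr e.symm)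
    · refine Or.inr (Or.inr (Or.inl ⟨r, hr, ?_,
        Or.inr (Or.inr (Or.inl (isPSL2_few hrp hs e)))⟩))
      exact ((psl_lieType one_pos hs' hc').autFree hr hp.out (Ne.symm hrp)).congr e.symm
  · right
    obtain ⟨m, rfl⟩ : ∃ m, n = m + 1 := ⟨n - 1, by omega⟩
    obtain ⟨r, hrc⟩ := CharP.exists F
    have hr : r.Prime := (CharP.char_is_prime_or_zero F r).resolve_right
      (CharP.char_ne_zero_of_finite F r)
    have : Fact r.Prime := ⟨hr⟩
    have hc := centreless_of_simple hs hn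
    have hs' : IsSimpleGroup (PL m F) := e.symm.isSimpleGroup
    have hc' : ∀ x : PL m F, (∀ y, x * y = y * x) → x = 1 := centreless_tr e hc
    by_cases hrp : r = p
    · subst hrp
      exact Or.inl ((psl_rigidLie (by omega) hs' hc').tr e.symm)
    · by_cases hd : p ∣ Nat.card L
      · exact Or.inr (Or.inl ⟨(eu_psl (hk.trans (mul_comm d k)) h3 (cast_ne hr hp.out hrp) hpt hex hs'
          hc').congr e.symm, hd⟩)
      · refine Or.inr (Or.inr (Or.inl ⟨r, hr, ?_, Or.inr (Or.inr (Or.inr hd))⟩))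
        exact ((psl_lieType (by omega) hs' hc').autFree hr hp.out (Ne.symm hrp)).congr e.symm
  · right
    have : Fact r.Prime := ⟨hr⟩
    by_cases hrp : r = p
    · subst hrp
      exact Or.inl (isPSL_lie (p := r) hs hn hL).1
    · refine Or.inr (Or.inr (Or.inl ⟨r, hr, (isPSL_lie hs hn hL).2 hp.out (Ne.symm hrp), ?_⟩))
      rcases h with h | h | h | h
      · exact absurd h hrp
      · exact Or.inl h
      · exact Or.inr (Or.inl ⟨hrp, h⟩)
      · exact Or.inr (Or.inr (Or.inr h))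
  · subst hp2
    obtain ⟨m, rfl⟩ : ∃ m, n = m + 1 := ⟨n - 1, by have := Nat.one_le_two_pow (n := a); omega⟩
    obtain ⟨r, hrc⟩ := CharP.exists F
    have hr : r.Prime := (CharP.char_is_prime_or_zero F r).resolve_right
      (CharP.char_ne_zero_of_finite F r)
    have : Fact r.Prime := ⟨hr⟩
    have hc := centreless_of_simple hs hn
    have hs' : IsSimpleGroup (PL m F) := e.symm.isSimpleGroup
    have hc' : ∀ x : PL m F, (∀ y, x * y = y * x) → x = 1 := centreless_tr e hc
    have h1 := regHyp_of ha hm hq (fun h3 => hex ⟨by rw [hm, h3.1]; norm_num, by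
      have := CharP.cast_eq_zero F r
      rw [h3.2] at this
      exact_mod_cast this⟩) hs' hc'
    have hr2 : 2 ≠ r := h1.ne.symm
    by_cases hd : 2 ∣ Nat.card L
    · exact Or.inr (Or.inr (Or.inr (Or.inr ⟨hlp, h1.regFree.congr e.symm, hd⟩)))
    · refine Or.inr (Or.inr (Or.inr (Or.inl ⟨r, hr, ?_, Or.inr (Or.inr (Or.inr hd))⟩)))
      exact ((psl_lieType (by have := h1.rank; omega) hs' hc').autFree hr Nat.prime_two hr2).congr
        e.symm

/-- the groups `PSL_n(F)` -/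
theorem psl_all {p : ℕ} [hp : Fact p.Prime] (F : Type u) [Field F] [Finite F] (n r : ℕ)
    (hn : 2 ≤ n) (hr : CharP F r)
    (hs : IsSimpleGroup (Matrix.ProjectiveSpecialLinearGroup (Fin n) F)) :
    PSLProp p r n F := by
  obtain ⟨m, rfl⟩ : ∃ m, n = m + 1 := ⟨n - 1, by omega⟩
  have hm : 0 < m := by omega
  have : Fact r.Prime := ⟨(CharP.char_is_prime_or_zero F r).resolve_right
    (CharP.char_ne_zero_of_finite F r)⟩
  have hB := psl_SB (F := F) (p := r) hm
  have hc : ∀ x : PL m F, (∀ y, x * y = y * x) → x = 1 := by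
    refine centreless_of_simple hs ?_
    obtain ⟨s, hsS⟩ := hB.nonempty
    obtain ⟨b, hb, hbs⟩ := hB.thick s hsS
    refine ⟨b, s, fun h => hbs ?_⟩
    have : s⁻¹ * b * s = b := by rw [mul_assoc, h]; group
    rw [this]
    exact hb
  refine ⟨psl_lieType hm hs hc, psl_rigidLie hm hs hc, fun h2 hrp => ?_,
    fun d ⟨k, hk⟩ h3 hrp hpt hex => eu_psl (hk.trans (mul_comm d k)) h3
      (cast_ne this.out hp.out hrp) hpt hex hs hc, fun a hn ha hp2 hq hex => ?_⟩
  swap
  · subst hp2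
    refine (regHyp_of (a := a) ha hn hq (fun h3 => hex ⟨?_, h3.2⟩) hs hc).regFree
    rw [hn, h3.1]
    norm_num
  obtain rfl : m = 1 := by omega
  exact fewAut_psl2 hrp hs

end Vale.Agent.P240.H195
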