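import Vale.Agent.P240.H195.SLC

/-!
Automorphisms of `PSL_n(F)`, part 1: normalization and the action on the simple root subgroups.
-/

namespace Vale.Agent.P240.H195

open Subgroup Matrix Vale.Agent.P240.K

section
variable {F : Type*} [Field F] {m : ℕ} [Finite F]

/-- a monomial matrix with `U ∩ U^n = 1` reverses the order -/
lemma opp_rev {n₀ : SLm m F} {σ : Equiv.Perm (Fin (m + 1))} (hσ : Mon n₀ σ)
    (hopp : ∀ x ∈ (UU m F).map (pr m F), pr m F n₀ * x * (pr m F n₀)⁻¹ ∈ (UU m F).map (pr m F) →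
      x = 1) (a : Fin (m + 1)) : σ a = Fin.rev a := by
  have hanti : ∀ {a b}, a < b → σ b < σ a := by
    intro a b hab
    by_contra hcon
    have hlt : σ a < σ b := lt_of_le_of_ne (not_lt.1 hcon) fun h1 => hab.ne (σ.injective h1)
    have h1 : pr m F (tx hab.ne 1) ∈ (UU m F).map (pr m F) :=
      ⟨_, ⟨tx_up hab 1, tx_diag hab.ne 1⟩, rfl⟩
    have h2 : pr m F n₀ * pr m F (tx hab.ne 1) * (pr m F n₀)⁻¹ ∈ (UU m F).map (pr m F) := by
      rw [← map_inv, ← map_mul, ← map_mul, mon_conj_tx hσ hab.ne hlt.ne]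
      exact ⟨_, ⟨tx_up hlt _, tx_diag hlt.ne _⟩, rfl⟩
    have h3 := hopp _ h1 h2
    have h4 : pr m F (tx hab.ne 1) = pr m F (tx hab.ne 0) := by
      rw [h3, tx_zero, map_one]
    exact one_ne_zero (pr_inj_tx hab.ne h4)
  have hmono : StrictMono fun a => Fin.rev (σ a) := fun a b hab => Fin.rev_lt_rev.2 (hanti hab)
  have hid := (StrictMono.range_inj hmono strictMono_id).1 (by
    rw [Set.range_id, Set.range_eq_univ]
    exact fun y => ⟨σ.symm (Fin.rev y), by simp⟩)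
  have := congrFun hid a
  simp only [id_eq] at this
  calc σ a = Fin.rev (Fin.rev (σ a)) := (Fin.rev_rev _).symm
    _ = Fin.rev a := by rw [this]

/-- the root subgroup in terms of minimal parabolic subgroups -/
lemma rev_root {n₀ : SLm m F} {σ : Equiv.Perm (Fin (m + 1))} (hσ : Mon n₀ σ)
    (hrev : ∀ a, σ a = Fin.rev a) {x : SLm m F} (hx : x ∈ UU m F) {j : Fin m}
    (h : n₀ * x * n₀⁻¹ ∈ MP j) :
    x = tx (cs_ne (Fin.rev j)) (x.1 (Fin.rev j).castSucc (Fin.rev j).succ) := by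
  have e1 : σ (Fin.rev j).castSucc = j.succ := by rw [hrev, Fin.rev_castSucc, Fin.rev_rev]
  have e2 : σ (Fin.rev j).succ = j.castSucc := by rw [hrev, Fin.rev_succ, Fin.rev_rev]
  have hanti : ∀ {a b}, a < b → σ b < σ a := by
    intro a b hab
    rw [hrev, hrev]
    exact Fin.rev_lt_rev.2 hab
  refine sl_ext fun u v => ?_
  rw [tx_apply]
  rcases lt_trichotomy u v with h5 | h5 | h5
  · rw [if_neg h5.ne, zero_add]
    by_cases h6 : u = (Fin.rev j).castSucc ∧ v = (Fin.rev j).succ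
    · rw [if_pos h6, h6.1, h6.2]
    · rw [if_neg h6]
      by_contra h7
      refine (mon_conj_ne hσ x u v).2 h7 (h _ _ (hanti h5) fun h8 => h6 ?_)
      rw [← e1, ← e2] at h8
      exact ⟨σ.injective h8.1, σ.injective h8.2⟩
  · subst h5
    rw [if_pos rfl, hx.2, if_neg, add_zero]
    rintro ⟨h6, h7⟩
    exact cs_ne (Fin.rev j) (h6.symm.trans h7)
  · rw [if_neg h5.ne', hx.1 u v h5, if_neg, add_zero]
    rintro ⟨rfl, rfl⟩
    exact lt_asymm h5 (cs_lt (Fin.rev j))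

lemma mem_pr_BU {x : SLm m F} : pr m F x ∈ (BU m F).map (pr m F) ↔ x ∈ BU m F :=
  map_mem_iff fun _ hk' => (pr_eq_one hk').1

lemma mem_pr_NM {x : SLm m F} : pr m F x ∈ (NM m F).map (pr m F) ↔ x ∈ NM m F :=
  map_mem_iff fun _ hk' => (pr_eq_one hk').2.1

/-- after an inner automorphism, `f` stabilizes `B` and the opposite subgroup -/
lemma exists_nf {r : ℕ} [hr : Fact r.Prime] [CharP F r] (hm : 0 < m) :
    ∃ (n₀ : SLm m F) (σ : Equiv.Perm (Fin (m + 1))), Mon n₀ σ ∧ (∀ a, σ a = Fin.rev a) ∧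
      (∀ x ∈ (UU m F).map (pr m F), pr m F n₀ * x * (pr m F n₀)⁻¹ ∈ (UU m F).map (pr m F) →
        x = 1) ∧
      ∀ f : MulAut (PL m F), ∃ g : PL m F,
        am ((MulAut.conj g)⁻¹ * f) ((BU m F).map (pr m F)) = (BU m F).map (pr m F) ∧
        am ((MulAut.conj g)⁻¹ * f) (cj (pr m F n₀)⁻¹ ((BU m F).map (pr m F))) =
          cj (pr m F n₀)⁻¹ ((BU m F).map (pr m F)) := by
  have h := psl_SB (F := F) (p := r) hm
  have hrp := hr.out
  obtain ⟨n', hnN', hopp'⟩ := h.opp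
  obtain ⟨n₁, ⟨σ₁, hσ₁⟩, hn₁⟩ := hnN'
  subst hn₁
  have hrev₁ := opp_rev hσ₁ hopp'
  -- the inverse
  have hσ : Mon n₁⁻¹ σ₁⁻¹ := mon_inv hσ₁
  have hrev : ∀ a, σ₁⁻¹ a = Fin.rev a := by
    intro a
    rw [Equiv.Perm.inv_def, Equiv.symm_apply_eq, hrev₁, Fin.rev_rev]
  have hopp : ∀ x ∈ (UU m F).map (pr m F), pr m F n₁⁻¹ * x * (pr m F n₁⁻¹)⁻¹ ∈
      (UU m F).map (pr m F) → x = 1 := by
    intro x hx hx'
    have h1 := hopp' _ hx' (by
      rw [map_inv]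
      have : pr m F n₁ * ((pr m F n₁)⁻¹ * x * (pr m F n₁)⁻¹⁻¹) * (pr m F n₁)⁻¹ = x := by group
      rwa [this])
    rw [map_inv] at h1
    have e : x = pr m F n₁ * ((pr m F n₁)⁻¹ * x * (pr m F n₁)⁻¹⁻¹) * (pr m F n₁)⁻¹ := by group
    rw [e, h1]
    group
  refine ⟨n₁⁻¹, σ₁⁻¹, hσ, hrev, hopp, fun f => ?_⟩
  have e0 : (pr m F n₁⁻¹)⁻¹ = pr m F n₁ := by rw [map_inv, inv_inv]
  rw [e0]
  set B := (BU m F).map (pr m F) with hB
  set N := (NM m F).map (pr m F) with hN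
  set U := (UU m F).map (pr m F) with hU
  set n := pr m F n₁ with hn
  have hnN : n ∈ N := ⟨n₁, ⟨σ₁, hσ₁⟩, rfl⟩
  obtain ⟨g, hg⟩ := h.exists_conj hrp f
  obtain ⟨f₁, hf₁⟩ : ∃ f₁ : MulAut (PL m F), f₁ = (MulAut.conj g)⁻¹ * f := ⟨_, rfl⟩
  have hf₁B : am f₁ B = B := by
    rw [hf₁, am_mul, hg, ← am_conj, ← am_mul, inv_mul_cancel, am_one]
  have hf₁U : ∀ x ∈ U, f₁ x ∈ U := fun x hx => h.apply_U hrp hf₁B hx
  have hf₁U' : ∀ x ∈ U, f₁⁻¹ x ∈ U := fun x hx => h.apply_U hrp (am_inv_eq hf₁B) hx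
  obtain ⟨m', ⟨m₀, ⟨σ', hσ'⟩, hm₀⟩, a, ha, b, hb, hab⟩ := h.bruhat (f₁ n)
  subst hm₀
  have hopp'' : ∀ x ∈ U, pr m F m₀ * x * (pr m F m₀)⁻¹ ∈ U → x = 1 := by
    intro x hx hx'
    have h1 : b⁻¹ * x * b ∈ U := by
      have := h.normal b⁻¹ (inv_mem hb) x hx
      rwa [inv_inv] at this
    have h2 : f₁ n * (b⁻¹ * x * b) * (f₁ n)⁻¹ ∈ U := by
      rw [hab]
      have e : a * pr m F m₀ * b * (b⁻¹ * x * b) * (a * pr m F m₀ * b)⁻¹ =
          a * (pr m F m₀ * x * (pr m F m₀)⁻¹) * a⁻¹ := by group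
      rw [e]
      exact h.normal a ha _ hx'
    have h3 := hopp' (f₁⁻¹ (b⁻¹ * x * b)) (hf₁U' _ h1) (by
      have h4 := hf₁U' _ h2
      rw [map_mul, map_mul, map_inv, ← MulAut.mul_apply, inv_mul_cancel, MulAut.one_apply] at h4
      exact h4)
    have h4 : b⁻¹ * x * b = 1 := by
      have := congrArg f₁ h3
      rwa [← MulAut.mul_apply, mul_inv_cancel, MulAut.one_apply, map_one] at this
    have e : x = b * (b⁻¹ * x * b) * b⁻¹ := by group
    rw [e, h4]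
    group
  have hrev' := opp_rev hσ' hopp''
  have hσσ : σ₁ = σ' := Equiv.ext fun a => by rw [hrev₁, hrev']
  have hnm : n⁻¹ * pr m F m₀ ∈ B := by
    rw [hn, ← map_inv, ← map_mul, mem_pr_BU]
    have h1 := mon_mul (mon_inv hσ₁) hσ'
    rw [hσσ, inv_mul_cancel] at h1
    exact mem_T' h1
  obtain ⟨u, hu, t, htB, htN, rfl⟩ := h.split a ha
  refine ⟨g * u, ?_, ?_⟩
  · have e1 : (MulAut.conj (g * u))⁻¹ * f = (MulAut.conj u)⁻¹ * f₁ := by
      rw [hf₁, map_mul]; group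
    rw [e1, am_mul, hf₁B, ← map_inv, am_conj]
    exact cj_self (inv_mem (h.le hu))
  · have e1 : (MulAut.conj (g * u))⁻¹ * f = (MulAut.conj u)⁻¹ * f₁ := by
      rw [hf₁, map_mul]; group
    have h1 : am f₁ (cj n B) = cj (u * n) B := by
      rw [am_cj, hf₁B, h.cj_B_eq_iff hrp, hab]
      have e : (u * t * pr m F m₀ * b)⁻¹ * (u * n) =
        b⁻¹ * (n⁻¹ * pr m F m₀)⁻¹ * (n⁻¹ * t⁻¹ * n) := by group
      rw [e]
      refine mul_mem (mul_mem (inv_mem hb) (inv_mem hnm)) ?_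
      exact h.norm' hnN (inv_mem htB) (inv_mem htN)
    rw [e1, am_mul, h1, ← map_inv, am_conj, ← cj_mul]
    congr 1
    group

lemma par_le_MP {j : Fin m} {s : SLm m F} (hs : Mon s (Equiv.swap j.castSucc j.succ)) :
    Par ((BU m F).map (pr m F)) (pr m F s) ≤ (MP j).map (pr m F) := by
  refine SB.par_le (Subgroup.map_mono (BU_le_MP j)) ⟨s, ?_, rfl⟩
  intro u v huv huv'
  by_contra hne
  have h1 := hs u v hne
  rw [Equiv.swap_apply_def] at h1
  split_ifs at h1 with h2 h3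
  · exact huv' ⟨h1, h2⟩
  · rw [h1, h3] at huv
    exact lt_asymm huv (cs_lt j)
  · exact huv.ne' h1

/-- automorphisms stabilizing `B` and the opposite subgroup permute the simple root subgroups -/
lemma exists_rho {r : ℕ} [hr : Fact r.Prime] [CharP F r] (hm : 0 < m) {n₀ : SLm m F}
    {σ : Equiv.Perm (Fin (m + 1))} (hσ : Mon n₀ σ) (hrev : ∀ a, σ a = Fin.rev a)
    {f : MulAut (PL m F)} (hB : am f ((BU m F).map (pr m F)) = (BU m F).map (pr m F))
    (hC : am f (cj (pr m F n₀)⁻¹ ((BU m F).map (pr m F))) =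
      cj (pr m F n₀)⁻¹ ((BU m F).map (pr m F))) (i : Fin m) :
    ∃ k : Fin m, ∀ c : F, ∃ d : F, f (pr m F (tx (cs_ne i) c)) = pr m F (tx (cs_ne k) d) := by
  have h := psl_SB (F := F) (p := r) hm
  have hrp := hr.out
  obtain ⟨s, hs⟩ := exists_mon (F := F) (Equiv.swap (Fin.rev i).castSucc (Fin.rev i).succ)
  have hsS : pr m F s ∈ pr m F '' SS m F := ⟨s, ⟨Fin.rev i, hs⟩, rfl⟩
  obtain ⟨_, ⟨s', ⟨j, hs'⟩, rfl⟩, hfs⟩ := h.am_par hB hsS
  refine ⟨Fin.rev j, fun c => ?_⟩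
  have hxU : pr m F (tx (cs_ne i) c) ∈ (UU m F).map (pr m F) :=
    ⟨_, ⟨tx_up (cs_lt i) c, tx_diag _ c⟩, rfl⟩
  obtain ⟨y, hy, hye⟩ := h.apply_U hrp hB hxU
  have hswap : ∀ a, Equiv.swap (Fin.rev i).castSucc (Fin.rev i).succ
      (Equiv.swap (Fin.rev i).castSucc (Fin.rev i).succ a) = a := fun a =>
    Equiv.swap_apply_self _ _ a
  have hne : σ i.castSucc ≠ σ i.succ := fun h1 => cs_ne i (σ.injective h1)
  have h1 : pr m F n₀ * pr m F (tx (cs_ne i) c) * (pr m F n₀)⁻¹ ∈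
      Par ((BU m F).map (pr m F)) (pr m F s) := by
    rw [← map_inv, ← map_mul, ← map_mul, mon_conj_tx hσ (cs_ne i) hne]
    have hlt : σ i.succ < σ i.castSucc := by
      rw [hrev, hrev]
      exact Fin.rev_lt_rev.2 (cs_lt i)
    have e1 : σ i.castSucc = (Fin.rev i).succ := by rw [hrev, Fin.rev_castSucc]
    have e2 : σ i.succ = (Fin.rev i).castSucc := by rw [hrev, Fin.rev_succ]
    obtain ⟨d, hd⟩ : ∃ d, d = n₀.1 (σ i.castSucc) i.castSucc * c * (n₀.1 (σ i.succ) i.succ)⁻¹ :=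
      ⟨_, rfl⟩
    rw [← hd]
    have h2 := mon_conj_tx hs (cs_ne (Fin.rev i)) (by
      rw [Equiv.swap_apply_left, Equiv.swap_apply_right]
      exact (cs_ne (Fin.rev i)).symm)
      (d * (s.1 (Equiv.swap (Fin.rev i).castSucc (Fin.rev i).succ (Fin.rev i).castSucc)
        (Fin.rev i).castSucc)⁻¹ * s.1 (Equiv.swap (Fin.rev i).castSucc (Fin.rev i).succ
          (Fin.rev i).succ) (Fin.rev i).succ)
    have h3 : tx hne d = s * tx (cs_ne (Fin.rev i))
        (d * (s.1 (Equiv.swap (Fin.rev i).castSucc (Fin.rev i).succ (Fin.rev i).castSucc)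
        (Fin.rev i).castSucc)⁻¹ * s.1 (Equiv.swap (Fin.rev i).castSucc (Fin.rev i).succ
          (Fin.rev i).succ) (Fin.rev i).succ) * s⁻¹ := by
      rw [h2]
      refine sl_ext fun u v => ?_
      rw [tx_apply, tx_apply, Equiv.swap_apply_left, Equiv.swap_apply_right, e1, e2]
      have h4 : s.1 (Fin.rev i).succ (Fin.rev i).castSucc ≠ 0 := by
        have := mon_ne hs (Fin.rev i).castSucc
        rwa [Equiv.swap_apply_left] at this
      have h5 : s.1 (Fin.rev i).castSucc (Fin.rev i).succ ≠ 0 := by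
        have := mon_ne hs (Fin.rev i).succ
        rwa [Equiv.swap_apply_right] at this
      have h6 : s.1 (Fin.rev i).succ (Fin.rev i).castSucc *
          (d * (s.1 (Fin.rev i).succ (Fin.rev i).castSucc)⁻¹ *
            s.1 (Fin.rev i).castSucc (Fin.rev i).succ) *
          (s.1 (Fin.rev i).castSucc (Fin.rev i).succ)⁻¹ = d := by
        field_simp
      rw [h6]
    rw [h3, map_mul, map_mul, map_inv]
    refine mul_mem (mul_mem self_mem_Par ?_) (inv_mem self_mem_Par)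
    exact le_Par ⟨_, tx_up (cs_lt (Fin.rev i)) _, rfl⟩
  have h2 : pr m F (tx (cs_ne i) c) ∈ cj (pr m F n₀)⁻¹ (Par ((BU m F).map (pr m F)) (pr m F s)) := by
    rw [mem_cj, inv_inv]
    exact h1
  have h3 := apply_mem_am (f := f) h2
  rw [am_cj, hfs] at h3
  have h4 : (pr m F n₀) * f (pr m F n₀)⁻¹ ∈ (BU m F).map (pr m F) := by
    rw [am_cj, hB, eq_comm, h.cj_B_eq_iff hrp, inv_inv] at hC
    exact hC
  have h5 : cj (f (pr m F n₀)⁻¹) (Par ((BU m F).map (pr m F)) (pr m F s')) =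
      cj (pr m F n₀)⁻¹ (Par ((BU m F).map (pr m F)) (pr m F s')) := by
    have e : f (pr m F n₀)⁻¹ = (pr m F n₀)⁻¹ * ((pr m F n₀) * f (pr m F n₀)⁻¹) := by group
    rw [e, cj_mul, cj_self (le_Par h4)]
  rw [h5, mem_cj, inv_inv, ← hye] at h3
  have h6 := par_le_MP hs' h3
  rw [← map_inv, ← map_mul, ← map_mul, map_mem_iff fun k hk' => BU_le_MP j (pr_eq_one hk').1] at h6
  rw [← hye]
  exact ⟨_, by rw [← rev_root hσ hrev hy h6]⟩

end

end Vale.Agent.P240.H195
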