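import Vale.Agent.P240.H195.SM1

/-!
Automorphisms of `PSL_n(F)`, part 2: the permutation of the simple root subgroups.
-/

namespace Vale.Agent.P240.H195

open Subgroup Matrix Vale.Agent.P240.K

/-- automorphisms of a path -/
lemma path_auto {m : ℕ} (ρ : Fin m → Fin m) (hinj : Function.Injective ρ)
    (hadj : ∀ i j : Fin m, (i : ℕ) + 1 = j → (ρ i : ℕ) + 1 = ρ j ∨ (ρ j : ℕ) + 1 = ρ i) :
    (∀ i, ρ i = i) ∨ ∀ i, ρ i = Fin.rev i := by
  rcases Nat.lt_or_ge m 2 with hm | hm
  · left
    intro i
    have h1 := i.2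
    have h2 := (ρ i).2
    exact Fin.ext (by omega)
  · have h0 : 0 < m := by omega
    have h1 : 1 < m := by omega
    rcases hadj ⟨0, h0⟩ ⟨1, h1⟩ rfl with h | h
    · left
      have key : ∀ k : ℕ, ∀ (hk : k < m), (ρ ⟨k, hk⟩ : ℕ) = ρ ⟨0, h0⟩ + k ∧
          ∀ j (hj : j + 1 = k), (ρ ⟨j, by omega⟩ : ℕ) = ρ ⟨0, h0⟩ + j := by
        intro k
        induction k with
        | zero => exact fun hk => ⟨rfl, fun j hj => by omega⟩
        | succ k ih =>
          intro hk
          obtain ⟨ih1, ih2⟩ := ih (by omega)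
          refine ⟨?_, fun j hj => ?_⟩
          · rcases Nat.eq_zero_or_pos k with h2 | h2
            · subst h2
              exact h.symm
            · rcases hadj ⟨k, by omega⟩ ⟨k + 1, hk⟩ rfl with h3 | h3
              · omega
              · exfalso
                have h4 := ih2 (k - 1) (by omega)
                have h5 : ρ ⟨k + 1, hk⟩ = ρ ⟨k - 1, by omega⟩ := Fin.ext (by omega)
                have h6 := congrArg Fin.val (hinj h5)
                simp only at h6
                omega
          · have : j = k := by omega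
            subst this
            exact ih1
      have h2 := (key (m - 1) (by omega)).1
      have h3 := (ρ ⟨m - 1, by omega⟩).2
      intro i
      have h4 : (ρ i : ℕ) = ρ ⟨0, h0⟩ + i := (key i i.2).1
      exact Fin.ext (by omega)
    · right
      have key : ∀ k : ℕ, ∀ (hk : k < m), (ρ ⟨k, hk⟩ : ℕ) + k = ρ ⟨0, h0⟩ ∧
          ∀ j (hj : j + 1 = k), (ρ ⟨j, by omega⟩ : ℕ) + j = ρ ⟨0, h0⟩ := by
        intro k
        induction k with
        | zero => exact fun hk => ⟨rfl, fun j hj => by omega⟩
        | succ k ih =>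
          intro hk
          obtain ⟨ih1, ih2⟩ := ih (by omega)
          refine ⟨?_, fun j hj => ?_⟩
          · rcases Nat.eq_zero_or_pos k with h2 | h2
            · subst h2
              exact h
            · rcases hadj ⟨k, by omega⟩ ⟨k + 1, hk⟩ rfl with h3 | h3
              · exfalso
                have h4 := ih2 (k - 1) (by omega)
                have h5 : ρ ⟨k + 1, hk⟩ = ρ ⟨k - 1, by omega⟩ := Fin.ext (by omega)
                have h6 := congrArg Fin.val (hinj h5)
                simp only at h6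
                omega
              · omega
          · have : j = k := by omega
            subst this
            exact ih1
      have h2 := (key (m - 1) (by omega)).1
      have h3 := (ρ ⟨0, h0⟩).2
      intro i
      have h4 : (ρ i : ℕ) + i = ρ ⟨0, h0⟩ := (key i i.2).1
      have h5 := i.2
      refine Fin.ext ?_
      rw [Fin.val_rev]
      omega

section
variable {F : Type*} [Field F] {m : ℕ}

lemma tx_commute {a b c d : Fin (m + 1)} (h : a ≠ b) (h' : c ≠ d) (h1 : b ≠ c) (h2 : d ≠ a)
    (x y : F) : tx h x * tx h' y = tx h' y * tx h x := by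
  refine sl_ext fun u v => ?_
  rw [tx_mul_apply, tx_mul_apply]
  simp only [tx_apply]
  have e1 : ¬ (b = c ∧ v = d) := fun h3 => h1 h3.1
  have e2 : ¬ (d = a ∧ v = b) := fun h3 => h2 h3.1
  rw [if_neg e1, if_neg e2, add_zero, add_zero]
  have e3 : (if u = c ∧ v = d then y else 0) = if u = c then y * (if d = v then 1 else 0) else 0 := by
    by_cases h3 : u = c
    · by_cases h4 : v = d
      · rw [if_pos ⟨h3, h4⟩, if_pos h3, if_pos h4.symm, mul_one]
      · rw [if_neg fun h5 => h4 h5.2, if_pos h3, if_neg (Ne.symm h4), mul_zero]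
    · rw [if_neg fun h5 => h3 h5.1, if_neg h3]
  have e4 : (if u = a ∧ v = b then x else 0) = if u = a then x * (if b = v then 1 else 0) else 0 := by
    by_cases h3 : u = a
    · by_cases h4 : v = b
      · rw [if_pos ⟨h3, h4⟩, if_pos h3, if_pos h4.symm, mul_one]
      · rw [if_neg fun h5 => h4 h5.2, if_pos h3, if_neg (Ne.symm h4), mul_zero]
    · rw [if_neg fun h5 => h3 h5.1, if_neg h3]
  rw [e3, e4]
  ring

lemma tx_cs_congr {i k : Fin m} (h : i = k) (c : F) :
    pr m F (tx (cs_ne i) c) = pr m F (tx (cs_ne k) c) := by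
  subst h
  rfl

variable [Finite F]

lemma pr_tx_eq {i k : Fin m} (hik : i ≠ k) {c d : F}
    (h : pr m F (tx (cs_ne i) c) = pr m F (tx (cs_ne k) d)) : c = 0 := by
  have h1 : pr m F (tx (cs_ne k) (-d) * tx (cs_ne i) c) = 1 := by
    rw [map_mul, h, ← map_mul, tx_mul_tx, neg_add_cancel, tx_zero, map_one]
  have h2 := pr_eq_one h1
  have h3 := mem_T.1 (mem_inf.2 ⟨h2.1, h2.2.1⟩)
  have h4 := mon_eq h3 (i := i.castSucc) (j := i.succ) (by
    rw [Equiv.Perm.one_apply]; exact cs_ne i)
  rw [tx_mul_apply, tx_apply, if_neg (cs_ne i), if_pos ⟨rfl, rfl⟩, zero_add] at h4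
  rw [if_neg, add_zero] at h4
  · exact h4
  · intro h5
    exact hik (Fin.castSucc_injective _ h5)

/-- the permutation of the simple root subgroups is trivial or the reversal -/
lemma rho_cases {r : ℕ} [hr : Fact r.Prime] [CharP F r] (hm : 0 < m) {n₀ : SLm m F}
    {σ : Equiv.Perm (Fin (m + 1))} (hσ : Mon n₀ σ) (hrev : ∀ a, σ a = Fin.rev a)
    {f : MulAut (PL m F)} (hB : am f ((BU m F).map (pr m F)) = (BU m F).map (pr m F))
    (hC : am f (cj (pr m F n₀)⁻¹ ((BU m F).map (pr m F))) =
      cj (pr m F n₀)⁻¹ ((BU m F).map (pr m F))) :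
    (∀ (i : Fin m) (c : F), ∃ d : F, f (pr m F (tx (cs_ne i) c)) = pr m F (tx (cs_ne i) d)) ∨
    ∀ (i : Fin m) (c : F), ∃ d : F, f (pr m F (tx (cs_ne i) c)) =
      pr m F (tx (cs_ne (Fin.rev i)) d) := by
  have hex := exists_rho (r := r) hm hσ hrev hB hC
  choose ρ hρ using hex
  choose φ hφ using hρ
  have hinjφ : ∀ i, Function.Injective (φ i) := by
    intro i x y hxy
    apply pr_inj_tx (cs_ne i)
    apply f.injective
    rw [hφ, hφ, hxy]
  have hρinj : Function.Injective ρ := by
    intro i k hik
    by_contra hne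
    have hsurj : Function.Surjective (φ i) := Finite.surjective_of_injective (hinjφ i)
    obtain ⟨c, hc⟩ := hsurj (φ k 1)
    have h1 : f (pr m F (tx (cs_ne k) 1)) = f (pr m F (tx (cs_ne i) c)) := by
      rw [hφ, hφ, hc]
      congr 2
      congr 1
      · rw [hik]
      · rw [hik]
    have h2 := pr_tx_eq (Ne.symm hne) (f.injective h1)
    exact one_ne_zero h2
  have hadj : ∀ i j : Fin m, (i : ℕ) + 1 = j → (ρ i : ℕ) + 1 = ρ j ∨ (ρ j : ℕ) + 1 = ρ i := by
    intro i j hij
    by_contra hcon
    push Not at hcon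
    have hne : ρ i ≠ ρ j := by
      intro h1
      have := hρinj h1
      rw [this] at hij
      omega
    have h1 : tx (cs_ne (ρ i)) (φ i 1) * tx (cs_ne (ρ j)) (φ j 1) =
        tx (cs_ne (ρ j)) (φ j 1) * tx (cs_ne (ρ i)) (φ i 1) := by
      refine tx_commute _ _ (fun h2 => hcon.1 ?_) (fun h2 => hcon.2 ?_) _ _
      · have := congrArg Fin.val h2
        simpa using this
      · have := congrArg Fin.val h2
        simpa using this
    have h2 : pr m F (tx (cs_ne i) 1 * tx (cs_ne j) 1) = pr m F (tx (cs_ne j) 1 * tx (cs_ne i) 1) := by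
      apply f.injective
      rw [map_mul, map_mul, map_mul, map_mul, hφ, hφ, ← map_mul, h1, map_mul]
    have e1 : i.succ = j.castSucc := Fin.ext (by simpa using hij)
    have hac : i.castSucc ≠ j.succ := by
      intro h3
      have := congrArg Fin.val h3
      simp at this
      omega
    have hak : i.castSucc ≠ j.castSucc := by
      intro h3
      have := congrArg Fin.val h3
      simp at this
      omega
    have h3 := tx_comm (F := F) hak (cs_ne j) hac 1
    have h4 : tx (cs_ne i) (1 : F) = tx hak 1 := by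
      congr 1
    rw [h4, h3, map_mul] at h2
    have h5 : pr m F (tx hac (1 : F)) = pr m F (tx hac 0) := by
      rw [tx_zero, map_one]
      exact mul_eq_right.1 h2
    exact one_ne_zero (pr_inj_tx hac h5)
  rcases path_auto ρ hρinj hadj with h1 | h1
  · left
    intro i c
    exact ⟨φ i c, by rw [hφ]; exact tx_cs_congr (h1 i) _⟩
  · right
    intro i c
    exact ⟨φ i c, by rw [hφ]; exact tx_cs_congr (h1 i) _⟩

end

end Vale.Agent.P240.H195
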