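import Vale.Agent.P240.H195.SM2

/-!
Automorphisms of `PSL_n(F)`, part 3: automorphisms stabilizing the simple root subgroups.
-/

namespace Vale.Agent.P240.H195

open Subgroup Matrix Vale.Agent.P240.K

section
variable {F : Type*} [Field F] {m : ℕ}

lemma tx_comm2 {a k b : Fin (m + 1)} (hak : a ≠ k) (hkb : k ≠ b) (hab : a ≠ b) (c d : F) :
    tx hak c * tx hkb d = tx hab (c * d) * (tx hkb d * tx hak c) := by
  refine sl_ext fun u v => ?_
  rw [tx_mul_apply, tx_mul_apply, mul_tx_apply, mul_tx_apply]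
  simp only [tx_apply]
  by_cases hu : u = a
  · subst hu
    by_cases hv : v = k
    · subst hv
      simp [hak, hkb, hab, hab.symm, hkb.symm]
    · by_cases hv' : v = b
      · subst hv'
        simp [hak, hkb, hab, hkb.symm]
      · simp [hak, hv, hv', Ne.symm hv, Ne.symm hv']
  · by_cases hv : v = k
    · subst hv
      simp [hu, hkb, hab]
    · simp [hu, hv]

/-- diagonal matrices -/
def dgm (D : Fin (m + 1) → F) (hD : ∀ i, D i ≠ 0) : GLm m F :=
  ⟨Matrix.diagonal D, Matrix.diagonal fun i => (D i)⁻¹, by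
    rw [Matrix.diagonal_mul_diagonal, ← Matrix.diagonal_one]
    congr 1
    ext i
    exact mul_inv_cancel₀ (hD i), by
    rw [Matrix.diagonal_mul_diagonal, ← Matrix.diagonal_one]
    congr 1
    ext i
    exact inv_mul_cancel₀ (hD i)⟩

lemma dgm_entry (D : Fin (m + 1) → F) (hD : ∀ i, D i ≠ 0) (τ : RingAut F) (x : SLm m F) (i j) :
    (actf (dgm D hD) τ x).1 i j = D i * τ (x.1 i j) * (D j)⁻¹ := by
  have : (actf (dgm D hD) τ x).1 = Matrix.diagonal D *
    (x.1.map τ) * Matrix.diagonal (fun i => (D i)⁻¹) := rfl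
  rw [this, Matrix.mul_diagonal, Matrix.diagonal_mul, Matrix.map_apply]

lemma dgm_mon {D : Fin (m + 1) → F} (hD : ∀ i, D i ≠ 0) {τ : RingAut F} {x : SLm m F} {σ}
    (hx : Mon x σ) : Mon (act (dgm D hD) τ x) σ := by
  intro i j hij
  refine hx i j fun h => hij ?_
  change (actf (dgm D hD) τ x).1 i j = 0
  rw [dgm_entry, h, map_zero, mul_zero, zero_mul]

lemma dgm_up {D : Fin (m + 1) → F} (hD : ∀ i, D i ≠ 0) {τ : RingAut F} {x : SLm m F}
    (hx : IsUp x) : IsUp (act (dgm D hD) τ x) := by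
  intro i j hij
  change (actf (dgm D hD) τ x).1 i j = 0
  rw [dgm_entry, hx i j hij, map_zero, mul_zero, zero_mul]

lemma dgm_tx {D : Fin (m + 1) → F} (hD : ∀ i, D i ≠ 0) (τ : RingAut F) {a b : Fin (m + 1)}
    (h : a ≠ b) (c : F) : act (dgm D hD) τ (tx h c) = tx h (D a * τ c * (D b)⁻¹) := by
  refine sl_ext fun i j => ?_
  change (actf (dgm D hD) τ (tx h c)).1 i j = _
  rw [dgm_entry, tx_apply, tx_apply, map_add]
  by_cases hij : i = j
  · subst hij
    have h1 : ¬ (i = a ∧ i = b) := fun h2 => h (h2.1 ▸ h2.2)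
    rw [if_pos rfl, if_neg h1, if_neg h1, map_one, map_zero, add_zero, mul_one,
      mul_inv_cancel₀ (hD i)]
  · by_cases h1 : i = a ∧ j = b
    · rw [if_neg hij, if_pos h1, if_pos h1, map_zero, zero_add, zero_add, h1.1, h1.2]
    · rw [if_neg hij, if_neg h1, if_neg h1, map_zero, zero_add, mul_zero, zero_mul]

/-- a diagonal matrix with prescribed quotients of consecutive entries -/
lemma exists_diag (q : Fin m → F) (hq : ∀ i, q i ≠ 0) :
    ∃ D : Fin (m + 1) → F, (∀ i, D i ≠ 0) ∧ ∀ a : Fin m, D a.castSucc * (D a.succ)⁻¹ = q a := by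
  classical
  have hD : ∀ k : Fin (m + 1), (∏ j : Fin m, if (k : ℕ) ≤ j then q j else 1) ≠ 0 := by
    intro k
    refine Finset.prod_ne_zero_iff.2 fun j _ => ?_
    split_ifs
    · exact hq j
    · exact one_ne_zero
  refine ⟨fun k => ∏ j : Fin m, if (k : ℕ) ≤ j then q j else 1, hD, fun a => ?_⟩
  rw [mul_inv_eq_iff_eq_mul₀ (hD a.succ)]
  have h1 : ∀ j : Fin m, (if ((a.castSucc : Fin (m + 1)) : ℕ) ≤ j then q j else 1) =
      (if j = a then q a else 1) * (if ((a.succ : Fin (m + 1)) : ℕ) ≤ j then q j else 1) := by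
    intro j
    rw [Fin.val_castSucc, Fin.val_succ]
    by_cases h2 : j = a
    · subst h2
      rw [if_pos le_rfl, if_pos rfl, if_neg (by omega), mul_one]
    · have h3 : (j : ℕ) ≠ a := fun h => h2 (Fin.ext h)
      rw [if_neg h2, one_mul]
      by_cases h4 : (a : ℕ) ≤ j
      · rw [if_pos h4, if_pos (by omega)]
      · rw [if_neg h4, if_neg (by omega)]
  simp only [h1]
  rw [Finset.prod_mul_distrib, Finset.prod_ite_eq' Finset.univ a, if_pos (Finset.mem_univ a)]

variable [Finite F]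

/-- automorphisms stabilizing `B`, the opposite subgroup and the simple root subgroups are given by
semilinear maps -/
theorem sem_of_fix {r : ℕ} [hr : Fact r.Prime] [CharP F r] (hm : 2 ≤ m)
    (hsimple : IsSimpleGroup (PL m F)) {n₀ : SLm m F} {σ : Equiv.Perm (Fin (m + 1))}
    (hσ : Mon n₀ σ)
    (hopp : ∀ x ∈ (UU m F).map (pr m F), pr m F n₀ * x * (pr m F n₀)⁻¹ ∈ (UU m F).map (pr m F) →
      x = 1) {f : MulAut (PL m F)}
    (hC : am f (cj (pr m F n₀)⁻¹ ((BU m F).map (pr m F))) =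
      cj (pr m F n₀)⁻¹ ((BU m F).map (pr m F)))
    (hroot : ∀ (i : Fin m) (c : F), ∃ d : F, f (pr m F (tx (cs_ne i) c)) =
      pr m F (tx (cs_ne i) d)) :
    ∃ (M : GLm m F) (τ : RingAut F), f = sem M τ := by
  have h := psl_SB (F := F) (p := r) (m := m) (by omega)
  have hrp := hr.out
  choose φ hφ using hroot
  have hadd : ∀ i x y, φ i (x + y) = φ i x + φ i y := by
    intro i x y
    apply pr_inj_tx (cs_ne i)
    rw [← hφ, ← tx_mul_tx, ← tx_mul_tx, map_mul, map_mul, map_mul, hφ, hφ]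
  have hinj : ∀ i, Function.Injective (φ i) := by
    intro i x y hxy
    apply pr_inj_tx (cs_ne i)
    apply f.injective
    rw [hφ, hφ, hxy]
  have hzero : ∀ i, φ i 0 = 0 := by
    intro i
    have := hadd i 0 0
    rw [add_zero] at this
    exact left_eq_add.1 this
  have h10 : ∀ i, φ i 1 ≠ 0 := fun i h1 => one_ne_zero (hinj i (h1.trans (hzero i).symm))
  -- adjacent roots
  have hadj : ∀ i j : Fin m, (i : ℕ) + 1 = j → ∀ c d : F,
      φ i (c * d) * φ j 1 = φ i c * φ j d ∧ φ i 1 * φ j (c * d) = φ i c * φ j d := by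
    intro i j hij
    have e1 : i.succ = j.castSucc := Fin.ext (by simpa using hij)
    have hac : i.castSucc ≠ j.succ := by
      intro h3
      have := congrArg Fin.val h3
      simp at this
      omega
    have hak : i.castSucc ≠ j.castSucc := by
      intro h3
      have := congrArg Fin.val h3
      simp at this
      omega
    have h4 : ∀ c : F, tx (cs_ne i) c = tx hak c := by
      intro c
      congr 1
    have key : ∀ c d : F, f (pr m F (tx hac (c * d))) = pr m F (tx hac (φ i c * φ j d)) := by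
      intro c d
      have h5 := congrArg (pr m F) (tx_comm2 (F := F) hak (cs_ne j) hac c d)
      have h6 := congrArg (pr m F) (tx_comm2 (F := F) hak (cs_ne j) hac (φ i c) (φ j d))
      rw [← h4] at h5 h6
      rw [map_mul, map_mul, map_mul] at h5 h6
      have h7 := congrArg f h5
      rw [map_mul, map_mul, map_mul, hφ, hφ, h6] at h7
      exact (mul_right_cancel h7).symm
    intro c d
    have h5 := key (c * d) 1
    rw [mul_one, key c d] at h5
    have h6 := key 1 (c * d)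
    rw [one_mul, key c d] at h6
    exact ⟨(pr_inj_tx hac h5).symm, (pr_inj_tx hac h6).symm⟩
  have h0m : 0 < m := by omega
  have h1m : 1 < m := by omega
  set i₀ : Fin m := ⟨0, h0m⟩ with hi₀
  have hmul : ∀ c d, φ i₀ (c * d) * φ i₀ 1 = φ i₀ c * φ i₀ d := by
    intro c d
    have h1 := (hadj i₀ ⟨1, h1m⟩ rfl c d).1
    have h2 := (hadj i₀ ⟨1, h1m⟩ rfl 1 d).2
    rw [one_mul] at h2
    have h3 := (hadj i₀ ⟨1, h1m⟩ rfl 1 d).1
    rw [one_mul] at h3
    have h4 := h10 ⟨1, h1m⟩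
    have h5 := h10 i₀
    have h6 : φ i₀ d * φ ⟨1, h1m⟩ 1 = φ i₀ 1 * φ ⟨1, h1m⟩ d := h3
    apply mul_right_cancel₀ h4
    calc φ i₀ (c * d) * φ i₀ 1 * φ ⟨1, h1m⟩ 1 = (φ i₀ (c * d) * φ ⟨1, h1m⟩ 1) * φ i₀ 1 := by ring
      _ = φ i₀ c * (φ i₀ 1 * φ ⟨1, h1m⟩ d) := by rw [h1]; ring
      _ = φ i₀ c * φ i₀ d * φ ⟨1, h1m⟩ 1 := by rw [← h6]; ring
  let τ' : F →+* F :=
    { toFun := fun x => φ i₀ x / φ i₀ 1
      map_one' := div_self (h10 i₀)
      map_mul' := fun x y => by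
        have := hmul x y
        have h4 := h10 i₀
        field_simp
        rw [this]
      map_zero' := by rw [hzero, zero_div]
      map_add' := fun x y => by rw [hadd, add_div] }
  have hτb : Function.Bijective τ' := by
    rw [Finite.injective_iff_bijective.symm]
    exact τ'.injective
  let τ : RingAut F := RingEquiv.ofBijective τ' hτb
  have hτ0 : ∀ x, φ i₀ x = φ i₀ 1 * τ x := by
    intro x
    change φ i₀ x = φ i₀ 1 * (φ i₀ x / φ i₀ 1)
    have := h10 i₀
    field_simp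
  have hτ : ∀ (k : ℕ) (hk : k < m) (x : F), φ ⟨k, hk⟩ x = φ ⟨k, hk⟩ 1 * τ x := by
    intro k
    induction k with
    | zero => exact fun hk x => hτ0 x
    | succ k ih =>
      intro hk x
      have h1 := ih (by omega) x
      have h2 := (hadj ⟨k, by omega⟩ ⟨k + 1, hk⟩ rfl x 1).1
      have h3 := (hadj ⟨k, by omega⟩ ⟨k + 1, hk⟩ rfl 1 x).2
      have h4 := (hadj ⟨k, by omega⟩ ⟨k + 1, hk⟩ rfl 1 x).1
      rw [one_mul] at h3 h4
      have h5 := h10 ⟨k, by omega⟩
      apply mul_left_cancel₀ h5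
      calc φ ⟨k, by omega⟩ 1 * φ ⟨k + 1, hk⟩ x = φ ⟨k, by omega⟩ x * φ ⟨k + 1, hk⟩ 1 := h4.symm
        _ = φ ⟨k, by omega⟩ 1 * (φ ⟨k + 1, hk⟩ 1 * τ x) := by rw [h1]; ring
  obtain ⟨D, hD, hDq⟩ := exists_diag (fun i => φ i 1) h10
  obtain ⟨e, he⟩ : ∃ e : MulAut (PL m F), e = sem (dgm D hD) τ := ⟨_, rfl⟩
  have heU : ∀ i c, e (pr m F (tx (cs_ne i) c)) = pr m F (tx (cs_ne i) (φ i c)) := by
    intro i c
    rw [he, ind_apply, dgm_tx, hτ i i.2 c]
    congr 2
    have := hDq i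
    calc D i.castSucc * τ c * (D i.succ)⁻¹ = D i.castSucc * (D i.succ)⁻¹ * τ c := by ring
      _ = _ := by rw [this]
  have heB : am e ((BU m F).map (pr m F)) = (BU m F).map (pr m F) := am_eq_of_le (by
    rintro _ ⟨_, ⟨x, hx, rfl⟩, rfl⟩
    exact ⟨act (dgm D hD) τ x, dgm_up hD hx, by rw [he]; rfl⟩)
  have heC : am e (cj (pr m F n₀)⁻¹ ((BU m F).map (pr m F))) =
      cj (pr m F n₀)⁻¹ ((BU m F).map (pr m F)) := by
    rw [am_cj, heB, h.cj_B_eq_iff hrp, he, ← map_inv (pr m F) n₀, ind_apply, ← map_inv (pr m F),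
      ← map_mul (pr m F), mem_pr_BU]
    have h1 := mon_mul (mon_inv (dgm_mon hD (τ := τ) (mon_inv hσ))) (mon_inv hσ)
    rw [inv_mul_cancel] at h1
    exact mem_T' h1
  obtain ⟨f₃, hf₃⟩ : ∃ f₃ : MulAut (PL m F), f₃ = e⁻¹ * f := ⟨_, rfl⟩
  have hf₃1 : f₃ = 1 := by
    refine h.eq_one_of_opp hsimple hrp (n := (pr m F n₀)⁻¹) ?_ (inv_mem ⟨n₀, ⟨σ, hσ⟩, rfl⟩) ?_ ?_
    · have hle : UU m F ≤ (f₃.toMonoidHom.comp (pr m F)).eqLocus (pr m F) := by
        refine uu_gen fun i c => ?_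
        change f₃ (pr m F (tx (cs_ne i) c)) = pr m F (tx (cs_ne i) c)
        rw [hf₃, MulAut.mul_apply, hφ, ← heU, ← MulAut.mul_apply, inv_mul_cancel,
          MulAut.one_apply]
      rintro _ ⟨x, hx, rfl⟩
      exact hle hx
    · intro x hx hx'
      have h1 := hopp _ hx' (by
        have : pr m F n₀ * ((pr m F n₀)⁻¹ * x * (pr m F n₀)⁻¹⁻¹) * (pr m F n₀)⁻¹ = x := by group
        rwa [this])
      have e1 : x = pr m F n₀ * ((pr m F n₀)⁻¹ * x * (pr m F n₀)⁻¹⁻¹) * (pr m F n₀)⁻¹ := by group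
      rw [e1, h1]
      group
    · rw [hf₃, am_mul, hC, am_inv_eq heC]
  rw [hf₃, inv_mul_eq_one] at hf₃1
  exact ⟨_, _, by rw [← hf₃1, he]⟩

end

end Vale.Agent.P240.H195
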