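import Mathlib.RingTheory.Trace.Basic
import Mathlib.RingTheory.Discriminant
import Vale.Agent.P240.H195.SN5

/-!
The centralizer of a Singer cycle, part 2: automorphisms involving the inverse transpose.
-/

namespace Vale.Agent.P240.H195

open Subgroup Matrix

section
variable {F K : Type*} [Field F] [Field K] [Algebra F K] {m : ℕ}
  (b : Module.Basis (Fin (m + 1)) F K)

/-- the trace form is symmetric for multiplications -/
lemma trace_mul (y : K) : Algebra.traceMatrix F b * Algebra.leftMulMatrix b y =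
    (Algebra.leftMulMatrix b y)ᵀ * Algebra.traceMatrix F b := by
  ext i j
  rw [Matrix.mul_apply, Matrix.mul_apply]
  have h1 : ∀ k, Algebra.traceMatrix F b i k * Algebra.leftMulMatrix b y k j =
      Algebra.trace F K (b i * (b.repr (y * b j) k • b k)) := by
    intro k
    rw [Algebra.traceMatrix_apply, Algebra.traceForm_apply, Algebra.leftMulMatrix_eq_repr_mul,
      mul_smul_comm, map_smul, smul_eq_mul, mul_comm]
  have h2 : ∀ k, (Algebra.leftMulMatrix b y)ᵀ i k * Algebra.traceMatrix F b k j =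
      Algebra.trace F K ((b.repr (y * b i) k • b k) * b j) := by
    intro k
    rw [Matrix.transpose_apply, Algebra.traceMatrix_apply, Algebra.traceForm_apply,
      Algebra.leftMulMatrix_eq_repr_mul, smul_mul_assoc, map_smul, smul_eq_mul]
  rw [Finset.sum_congr rfl fun k _ => h1 k, Finset.sum_congr rfl fun k _ => h2 k, ← map_sum,
    ← map_sum, ← Finset.mul_sum, ← Finset.sum_mul, b.sum_repr, b.sum_repr]
  congr 1
  ring

/-- automorphisms involving the inverse transpose do not centralize a Singer cycle -/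
theorem graph_cent [Finite K] (hm : 2 ≤ m) (hex : ¬ (m + 1 = 3 ∧ Nat.card F = 4)) {ζ : K}
    (hζ : orderOf ζ = Nat.card K - 1) {s : SLm m F}
    (hs : s.1 = Algebra.leftMulMatrix b (ζ ^ (Nat.card F - 1))) {M : GLm m F} {τ : RingAut F}
    (hfix : (sem M τ * ind (itA m F)) (pr m F s) = pr m F s) : False := by
  have hF := finite_F F K
  have hfr : Module.finrank F K = m + 1 := by
    rw [Module.finrank_eq_card_basis b, Fintype.card_fin]
  have hFd : FiniteDimensional F K := Module.finite_of_finrank_pos (by omega)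
  have hq : 1 < Nat.card F := Finite.one_lt_card
  have hQ : 1 < Nat.card K := Finite.one_lt_card
  have hζ0 : ζ ≠ 0 := by
    rintro rfl
    have h1 : orderOf (0 : K) = 0 := by
      rw [orderOf_eq_zero_iff']
      intro n hn h0
      rw [zero_pow hn.ne'] at h0
      exact zero_ne_one h0
    omega
  have hinj := Algebra.leftMulMatrix_injective b
  obtain ⟨w, hw⟩ : ∃ w, w = ζ ^ (Nat.card F - 1) := ⟨_, rfl⟩
  have hw0 : w ≠ 0 := hw ▸ pow_ne_zero _ hζ0
  have hadj := adj_top hζ (F := F) (by omega)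
  rw [← hw] at hs hadj
  -- the trace form
  have hdet : IsUnit (Algebra.traceMatrix F b).det := by
    have h1 := Algebra.discr_isUnit_of_basis F b
    rwa [Algebra.discr_def] at h1
  obtain ⟨G, hG⟩ : ∃ G : GLm m F, G.1 = Algebra.traceMatrix F b :=
    ⟨Matrix.GeneralLinearGroup.mk'' _ hdet, rfl⟩
  have hsinv : (s⁻¹).1 = Algebra.leftMulMatrix b w⁻¹ := by
    have h1 : Algebra.leftMulMatrix b w⁻¹ * s.1 = 1 := by
      rw [hs, ← map_mul, inv_mul_cancel₀ hw0, map_one]
    have h2 : s.1 * (s⁻¹).1 = 1 := congrArg (fun y : SLm m F => y.1) (mul_inv_cancel s)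
    calc (s⁻¹).1 = (Algebra.leftMulMatrix b w⁻¹ * s.1) * (s⁻¹).1 := by rw [h1, one_mul]
      _ = _ := by rw [mul_assoc, h2, mul_one]
  have hit : (itf s).1 = G.1 * Algebra.leftMulMatrix b w⁻¹ * (G⁻¹).1 := by
    rw [itf_val, hsinv, hG, trace_mul, mul_assoc, ← hG, ← Units.val_mul, mul_inv_cancel,
      Units.val_one, mul_one]
  obtain ⟨l, -, hl⟩ := pr_eq_iff (x := actf M τ (itf s)) hfix
  rw [actf_val, hit, map_mul', map_mul', hs] at hl
  have hl' : (M * gla τ G).1 * (Algebra.leftMulMatrix b w⁻¹).map τ * ((M * gla τ G)⁻¹).1 =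
      Algebra.leftMulMatrix b (algebraMap F K l * w) := by
    rw [map_mul, AlgHom.commutes, ← hl, _root_.mul_inv_rev, Units.val_mul, Units.val_mul, gla_val,
      gla_inv_val]
    simp only [mul_assoc]
  have hadj' : Algebra.adjoin F {w⁻¹} = ⊤ := by
    rw [eq_top_iff, ← hadj]
    refine Algebra.adjoin_le ?_
    intro v hv
    rw [Set.mem_singleton_iff] at hv
    rw [hv]
    have h1 : w = (w⁻¹) ^ (Nat.card K - 2) := by
      have h2 : w ^ (Nat.card K - 1) = 1 := by
        rw [hw, ← pow_mul, mul_comm, pow_mul, ← hζ, pow_orderOf_eq_one, one_pow]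
      rw [inv_pow]
      refine eq_inv_of_mul_eq_one_right ?_
      rw [← pow_succ, show Nat.card K - 2 + 1 = Nat.card K - 1 by omega, h2]
    have h3 : (w⁻¹) ^ (Nat.card K - 2) ∈ Algebra.adjoin F {w⁻¹} :=
      pow_mem (Algebra.subset_adjoin (Set.mem_singleton _)) _
    rwa [← h1] at h3
  obtain ⟨ρ, hρ, hρF⟩ := sem_sing b hadj' hl'
  have hρw : ρ w⁻¹ = algebraMap F K l * w := hinj (by rw [← hρ, hl'])
  have hρw' : ρ w = (algebraMap F K l)⁻¹ * w⁻¹ := by
    rw [← inv_inv (ρ w), ← map_inv₀, hρw, mul_inv]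
  have hl0 : algebraMap F K l ≠ 0 := by
    intro h1
    rw [h1, zero_mul] at hρw
    exact inv_ne_zero hw0 ((map_eq_zero ρ).1 hρw)
  have hρ2 : ρ ^ 2 = 1 := by
    refine aut_eq_one hζ (by omega) (by rw [hfr]; exact hex) ⟨(τ l)⁻¹ * l, ?_⟩
    rw [← hw, pow_two, RingAut.mul_apply, hρw', map_mul, hρw, map_inv₀, hρF, map_mul, map_inv₀]
    ring
  refine no_inv hζ (by omega) (by rw [hfr]; exact hex) hρ2 ⟨l⁻¹, ?_⟩
  rw [← hw, hρw', map_inv₀, mul_assoc, inv_mul_cancel₀ hw0, mul_one]

end

end Vale.Agent.P240.H195
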