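import Mathlib.FieldTheory.Finite.Extension
import Vale.Agent.P240.H195.CycDefs
import Vale.Agent.P240.H195.SN6

/-!
The groups `PSL_n(F)` satisfy `CycFree p` if `n ≥ 3` and `p` does not divide
`(q ^ n - 1) / (q - 1)`.
-/

namespace Vale.Agent.P240.H195

open Subgroup Matrix Vale.Agent.P240.K

section
variable {F : Type*} [Field F] [Finite F] {m : ℕ}

omit [Finite F] in
lemma center_val {z : SLm m F} (hz : z ∈ center (SLm m F)) :
    ∃ c : F, c ^ (m + 1) = 1 ∧ z.1 = algebraMap F (Matrix (Fin (m + 1)) (Fin (m + 1)) F) c := by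
  rw [Matrix.SpecialLinearGroup.mem_center_iff] at hz
  obtain ⟨c, hc, h1⟩ := hz
  rw [Fintype.card_fin] at hc
  exact ⟨c, hc, h1.symm⟩

omit [Finite F] in
lemma val_pow (z : SLm m F) (k : ℕ) : (z ^ k).1 = z.1 ^ k := by
  induction k with
  | zero => rw [pow_zero, pow_zero]; rfl
  | succ k ih =>
    rw [pow_succ, pow_succ, ← ih]
    rfl

/-- there is an exponent of the centre that is not divisible by `p` -/
lemma exists_exp {p : ℕ} (hpt : ¬ p ∣ (Nat.card F ^ (m + 1) - 1) / (Nat.card F - 1)) :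
    ∃ a : ℕ, ¬ p ∣ a ∧ ∀ z ∈ center (SLm m F), z ^ a = 1 := by
  have hq : 1 < Nat.card F := Finite.one_lt_card
  have hpow : ∀ z ∈ center (SLm m F), ∀ a : ℕ, (∀ c : F, c ^ (m + 1) = 1 → c ^ a = 1) →
      z ^ a = 1 := by
    intro z hz a ha
    obtain ⟨c, hc, h1⟩ := center_val hz
    apply Subtype.ext
    rw [val_pow, h1, ← map_pow, ha c hc, map_one]
    rfl
  by_cases h1 : p ∣ Nat.card F - 1
  · by_cases h2 : p ∣ m + 1
    · exfalso
      refine hpt (t_mod hq ?_ h1 h2)
      rw [Nat.div_mul_cancel (Nat.sub_one_dvd_pow_sub_one _ _)]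
      have : 1 ≤ Nat.card F ^ (m + 1) := Nat.one_le_pow _ _ (by omega)
      omega
    · exact ⟨m + 1, h2, fun z hz => hpow z hz _ fun c hc => hc⟩
  · refine ⟨Nat.card F - 1, h1, fun z hz => hpow z hz _ fun c hc => ?_⟩
    have := Fintype.ofFinite F
    rw [Nat.card_eq_fintype_card]
    refine FiniteField.pow_card_sub_one_eq_one c ?_
    rintro rfl
    rw [zero_pow (by omega)] at hc
    exact zero_ne_one hc

omit [Finite F] in
lemma mem_center_pr {z : SLm m F} (h : pr m F z = 1) : z ∈ center (SLm m F) := by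
  rw [← QuotientGroup.eq_one_iff]
  exact h

/-- **A Singer cycle normalizes no elementary abelian `p`-group of automorphisms.** -/
theorem cyc_psl {p : ℕ} [hp : Fact p.Prime] (hm : 2 ≤ m) (hpF : (p : F) ≠ 0)
    (hpt : ¬ p ∣ (Nat.card F ^ (m + 1) - 1) / (Nat.card F - 1))
    (hex : ¬ (m + 1 = 3 ∧ Nat.card F = 4)) (hsimple : IsSimpleGroup (PL m F))
    (hc : ∀ x : PL m F, (∀ y, x * y = y * x) → x = 1) : CycFree p (PL m F) := by
  classical
  obtain ⟨r, hr⟩ := CharP.exists F
  have hrp : Fact r.Prime := ⟨(CharP.char_is_prime_or_zero F r).resolve_right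
    (CharP.char_ne_zero_of_finite F r)⟩
  have hq : 1 < Nat.card F := Finite.one_lt_card
  -- the extension
  let K := FiniteField.Extension F r (m + 1)
  have : NeZero (m + 1) := ⟨by omega⟩
  have hfr : Module.finrank F K = m + 1 := FiniteField.finrank_extension F r (m + 1)
  have hfd : Module.Finite F K := Module.finite_of_finrank_pos (by omega)
  have hfin : Finite K := Module.finite_of_finite F
  let b : Module.Basis (Fin (m + 1)) F K := Module.finBasisOfFinrankEq F K hfr
  have hcard : Nat.card K = Nat.card F ^ (m + 1) := by rw [card_KF F K, hfr]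
  obtain ⟨ζ, hζ0, hζ⟩ := exists_zeta K
  have hdet : (Algebra.leftMulMatrix b (ζ ^ (Nat.card F - 1))).det = 1 := by
    rw [← Algebra.norm_eq_matrix_det b]
    apply (algebraMap F K).injective
    rw [FiniteField.algebraMap_norm_eq_pow, ← pow_mul, mul_comm, t_mul F K, ← hζ, pow_orderOf_eq_one,
      map_one]
  let s : SLm m F := ⟨Algebra.leftMulMatrix b (ζ ^ (Nat.card F - 1)), hdet⟩
  have hs : s.1 = Algebra.leftMulMatrix b (ζ ^ (Nat.card F - 1)) := rfl
  rw [← hcard] at hpt
  obtain ⟨a, hpa, ha⟩ := exists_exp (F := F) (m := m) (p := p) (by rw [← hcard]; exact hpt)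
  have hcop : p.Coprime a := (hp.out.coprime_iff_not_dvd).2 hpa
  have hcent : ∀ z ∈ center (SLm m F), z ^ p = 1 → z = 1 := by
    intro z hz hzp
    have h1 := Nat.dvd_gcd (orderOf_dvd_of_pow_eq_one hzp) (orderOf_dvd_of_pow_eq_one (ha z hz))
    rw [hcop, Nat.dvd_one] at h1
    exact orderOf_eq_one_iff.1 h1
  refine ⟨pr m F s, fun E hE hsE => hE.1 ?_⟩
  -- inner automorphisms in `E`
  have hinj : ∀ x : PL m F, MulAut.conj x = 1 → x = 1 := by
    intro x hx
    refine hc x fun y => ?_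
    have h1 := congrArg (fun f : MulAut (PL m F) => f y) hx
    change x * y * x⁻¹ = y at h1
    rw [← eq_mul_inv_iff_mul_eq, inv_inv] at h1
    exact h1
  have hcomm : ∀ x y : SLm m F, MulAut.conj (pr m F x) ∈ E → x ^ p = 1 →
      MulAut.conj (pr m F y) ∈ E → y ^ p = 1 → x * y = y * x := by
    intro x y hx hxp hy hyp
    have h1 := hE.2.1 _ hx _ hy
    have h2 : pr m F (x * y * x⁻¹ * y⁻¹) = 1 := by
      apply hinj
      rw [map_mul, map_mul, map_mul, map_mul, map_mul, map_mul, map_inv, map_inv, map_inv,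
        map_inv, h1]
      group
    obtain ⟨z, hz⟩ : ∃ z, z = x * y * x⁻¹ * y⁻¹ := ⟨_, rfl⟩
    rw [← hz] at h2
    have h3 := mem_center_pr h2
    have h4 : x * y * x⁻¹ = z * y := by rw [hz]; group
    have h5 : (x * y * x⁻¹) ^ p = 1 := by rw [conj_pow, hyp, mul_one, mul_inv_cancel]
    have h6 : Commute z y := (mem_center_iff.1 h3 y).symm
    rw [h4, h6.mul_pow, hyp, mul_one] at h5
    rw [hcent z h3 h5, one_mul] at h4
    rw [mul_inv_eq_iff_eq_mul.1 h4]
  let P : Subgroup (SLm m F) :=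
    { carrier := {x | MulAut.conj (pr m F x) ∈ E ∧ x ^ p = 1}
      one_mem' := ⟨by rw [map_one, map_one]; exact E.one_mem, one_pow _⟩
      mul_mem' := by
        rintro x y ⟨hx, hxp⟩ ⟨hy, hyp⟩
        refine ⟨by rw [map_mul, map_mul]; exact mul_mem hx hy, ?_⟩
        have h1 : Commute x y := hcomm x y hx hxp hy hyp
        rw [h1.mul_pow, hxp, hyp, one_mul]
      inv_mem' := by
        rintro x ⟨hx, hxp⟩
        exact ⟨by rw [map_inv, map_inv]; exact inv_mem hx, by rw [inv_pow, hxp, inv_one]⟩ }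
  have hPmem : ∀ x, x ∈ P ↔ MulAut.conj (pr m F x) ∈ E ∧ x ^ p = 1 := fun x => Iff.rfl
  have hPconj : ∀ x, x ∈ P ↔ s * x * s⁻¹ ∈ P := by
    intro x
    rw [hPmem, hPmem, conj_pow]
    refine and_congr ?_ ?_
    · rw [map_mul, map_mul, map_mul, map_mul, map_inv, map_inv]
      exact mem_normalizer_iff.1 hsE _
    · constructor
      · intro h
        rw [h, mul_one, mul_inv_cancel]
      · intro h
        rw [mul_inv_eq_one, mul_eq_left] at h
        exact h
  have hPbot : P = ⊥ := by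
    refine sing_inv b hm hpt hpF hζ hs (fun x hx y hy => ?_) (fun x hx => hx.2)
      (mem_normalizer_iff.2 hPconj)
    exact hcomm x y hx.1 hx.2 hy.1 hy.2
  have hinner : ∀ g : PL m F, MulAut.conj g ∈ E → g = 1 := by
    intro g hg
    obtain ⟨x, rfl⟩ := QuotientGroup.mk'_surjective _ g
    change MulAut.conj (pr m F x) ∈ E at hg
    change pr m F x = 1
    have h1 : pr m F (x ^ p) = 1 := by
      apply hinj
      rw [map_pow, map_pow]
      exact hE.2.2 _ hg
    have h2 := ha _ (mem_center_pr h1)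
    have h3 : x ^ a ∈ P := by
      refine ⟨by rw [map_pow, map_pow]; exact pow_mem hg a, ?_⟩
      rw [← pow_mul, mul_comm, pow_mul, h2]
    rw [hPbot, mem_bot] at h3
    have h4 : pr m F x ^ a = 1 := by rw [← map_pow, h3, map_one]
    have h5 : pr m F x ^ p = 1 := by rw [← map_pow, h1]
    have h6 := Nat.dvd_gcd (orderOf_dvd_of_pow_eq_one h5) (orderOf_dvd_of_pow_eq_one h4)
    rw [hcop, Nat.dvd_one] at h6
    exact orderOf_eq_one_iff.1 h6
  rw [eq_bot_iff]
  intro f hf
  rw [mem_bot]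
  have hfix : f (pr m F s) = pr m F s := by
    have h1 : f * (MulAut.conj (pr m F s) * f⁻¹ * (MulAut.conj (pr m F s))⁻¹) ∈ E :=
      mul_mem hf ((mem_normalizer_iff.1 hsE _).1 (inv_mem hf))
    have h2 : f * (MulAut.conj (pr m F s) * f⁻¹ * (MulAut.conj (pr m F s))⁻¹) =
        MulAut.conj (f (pr m F s) * (pr m F s)⁻¹) := by
      rw [map_mul, map_inv, ← mul_assoc, ← mul_assoc, it_conj, mul_inv_cancel_right]
    rw [h2] at h1
    exact mul_inv_eq_one.1 (hinner _ h1)
  have hfp := hE.2.2 f hf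
  obtain ⟨M, τ, h | h⟩ := aut_psl (r := r) hm hsimple f
  · rw [h] at hfix hfp ⊢
    exact sem_cent b ((hp.out.coprime_iff_not_dvd).2 hpt) hm hex hζ hs hfix hfp
  · rw [h] at hfix
    exact (graph_cent b hm hex hζ hs hfix).elim

end

end Vale.Agent.P240.H195
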