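import Mathlib.Algebra.Field.ZMod
import Mathlib.Algebra.Module.ZMod
import Mathlib.Data.ZMod.Basic
import Mathlib.Tactic

/-!
An elementary abelian `r`-group acting on an abelian group of exponent `p ≠ r`: it acts trivially if
each element fixed by a subgroup of index at most `r` is fixed by the whole group.
-/

namespace Vale.Agent.P240.H195

section
variable {A M : Type*} [AddCommGroup A] [AddCommGroup M] (θ : A → M →+ M)

/-- the stabilizer -/
def stb (h0 : ∀ x, θ 0 x = x) (hadd : ∀ a b x, θ (a + b) x = θ a (θ b x)) (y : M) :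
    AddSubgroup A where
  carrier := {a | θ a y = y}
  zero_mem' := h0 y
  add_mem' := by
    intro a b (ha : θ a y = y) (hb : θ b y = y)
    change θ (a + b) y = y
    rw [hadd, hb, ha]
  neg_mem' := by
    intro a (ha : θ a y = y)
    change θ (-a) y = y
    have h1 : θ (-a) (θ a y) = y := by rw [← hadd, neg_add_cancel, h0]
    rwa [ha] at h1

theorem hyper_fix [Finite A] {r p : ℕ} (hr : r.Prime) (hp : p.Prime) (hrp : r ≠ p)
    (hA : ∀ a : A, r • a = 0) (hM : ∀ x : M, p • x = 0) (h0 : ∀ x, θ 0 x = x)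
    (hadd : ∀ a b x, θ (a + b) x = θ a (θ b x))
    (h : ∀ H : AddSubgroup A, Nat.card A ≤ r * Nat.card H → ∀ x, (∀ a ∈ H, θ a x = x) →
      ∀ a, θ a x = x) : ∀ a x, θ a x = x := by
  classical
  by_contra hcon
  push Not at hcon
  obtain ⟨a₀, x₀, h₀⟩ := hcon
  have : Fact r.Prime := ⟨hr⟩
  let _ : Module (ZMod r) A := AddCommGroup.zmodModule hA
  have hfin : Finite (AddSubgroup A) := inferInstance
  obtain ⟨H, hH⟩ := Set.Finite.exists_maximal (s := {H : AddSubgroup A |
    ∃ x, (∀ a ∈ H, θ a x = x) ∧ ∃ a, θ a x ≠ x}) (Set.toFinite _) ⟨⊥, x₀, fun a ha => by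
      rw [AddSubgroup.mem_bot] at ha
      rw [ha, h0], a₀, h₀⟩
  obtain ⟨⟨x, hx, a₁, ha₁⟩, hmax⟩ := hH
  -- maximality
  have key : ∀ w ∉ H, ∀ y, (∀ a ∈ H, θ a y = y) → θ w y = y → ∀ a, θ a y = y := by
    intro w hw y hy hwy
    by_contra hcon
    push Not at hcon
    have h1 : H ⊔ AddSubgroup.zmultiples w ≤ stb θ h0 hadd y := by
      refine sup_le (fun a ha => hy a ha) ?_
      exact AddSubgroup.zmultiples_le_of_mem hwy
    have h2 := hmax ⟨y, fun a ha => h1 ha, hcon⟩ le_sup_left
    exact hw (h2 (AddSubgroup.mem_sup_right (AddSubgroup.mem_zmultiples w)))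
  have hcomm : ∀ a b y, θ a (θ b y) = θ b (θ a y) := by
    intro a b y
    rw [← hadd, add_comm, hadd]
  -- norms
  obtain ⟨nm, hnm⟩ : ∃ nm : A → M, ∀ w, nm w = ∑ j : ZMod r, θ (j • w) x := ⟨_, fun _ => rfl⟩
  have hfix : ∀ w ∉ H, ∀ a, θ a (nm w) = nm w := by
    intro w hw
    refine key w hw _ (fun a ha => ?_) ?_
    · rw [hnm, map_sum]
      exact Finset.sum_congr rfl fun j _ => by rw [hcomm, hx a ha]
    · rw [hnm, map_sum, ← Equiv.sum_comp (Equiv.addRight (1 : ZMod r))
        fun j => θ (j • w) x]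
      refine Finset.sum_congr rfl fun j _ => ?_
      rw [← hadd, Equiv.coe_addRight, add_smul, one_smul, add_comm]
  have hgen : ∀ u ∉ H, ∀ v, v ∈ H ⊔ AddSubgroup.zmultiples u := by
    intro u hu v
    by_contra hv
    apply ha₁
    have hvH : v ∉ H := fun h => hv (AddSubgroup.mem_sup_left h)
    have huv : ∀ i : ZMod r, u + i • v ∉ H := by
      intro i hi
      by_cases hi0 : i = 0
      · rw [hi0, zero_smul, add_zero] at hi
        exact hu hi
      · apply hv
        have h1 : v = i⁻¹ • (u + i • v) + (-i⁻¹) • u := by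
          rw [smul_add, smul_smul, inv_mul_cancel₀ hi0, one_smul, neg_smul]
          abel
        rw [h1]
        exact add_mem (AddSubgroup.mem_sup_left (ZMod.smul_mem hi _))
          (ZMod.smul_mem (AddSubgroup.mem_sup_right (AddSubgroup.mem_zmultiples u)) _)
    have hid : ∑ i : ZMod r, nm (u + i • v) =
        r • x + ∑ j ∈ (Finset.univ : Finset (ZMod r)).erase 0, nm v := by
      have h1 : ∀ i : ZMod r, nm (u + i • v) =
          ∑ j : ZMod r, θ (j • u) (θ ((j * i) • v) x) := by
        intro i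
        rw [hnm]
        refine Finset.sum_congr rfl fun j _ => ?_
        rw [← hadd, smul_add, smul_smul]
      rw [Finset.sum_congr rfl fun i _ => h1 i, Finset.sum_comm,
        ← Finset.add_sum_erase _ _ (Finset.mem_univ (0 : ZMod r))]
      congr 1
      · have h2 : ∀ i : ZMod r, θ ((0 : ZMod r) • u) (θ (((0 : ZMod r) * i) • v) x) = x := by
          intro i
          rw [zero_mul, zero_smul, zero_smul, h0, h0]
        rw [Finset.sum_congr rfl fun i _ => h2 i, Finset.sum_const, Finset.card_univ, ZMod.card]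
      · refine Finset.sum_congr rfl fun j hj => ?_
        rw [Finset.mem_erase] at hj
        have h2 : ∑ i : ZMod r, θ ((j * i) • v) x = nm v := by
          rw [hnm]
          exact Equiv.sum_comp (Equiv.mulLeft₀ j hj.1) fun i => θ (i • v) x
        rw [← map_sum, h2, hfix v hvH]
    have hrx : ∀ a, θ a (r • x) = r • x := by
      intro a
      have h1 : r • x = ∑ i : ZMod r, nm (u + i • v) -
          ∑ j ∈ (Finset.univ : Finset (ZMod r)).erase 0, nm v := by
        rw [hid, add_sub_cancel_right]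
      rw [h1, map_sub, map_sum, map_sum]
      congr 1
      · exact Finset.sum_congr rfl fun i _ => hfix _ (huv i) a
      · exact Finset.sum_congr rfl fun i _ => hfix _ hvH a
    have hcop : IsCoprime (r : ℤ) (p : ℤ) := by
      rw [Nat.isCoprime_iff_coprime]
      exact (Nat.coprime_primes hr hp).2 hrp
    obtain ⟨α, β, hαβ⟩ := hcop
    have hx1 : x = α • (r • x) := by
      have h1 : (1 : ℤ) • x = (α * r + β * p) • x := by rw [hαβ]
      rw [one_smul, add_smul, mul_smul, mul_smul, natCast_zsmul, natCast_zsmul, hM, smul_zero,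
        add_zero] at h1
      exact h1
    rw [hx1, map_zsmul, hrx]
  refine ha₁ (h H ?_ x hx a₁)
  have hu : a₁ ∉ H := fun h => ha₁ (hx a₁ h)
  have hsurj : Function.Surjective fun z : H × ZMod r => (z.1 : A) + z.2 • a₁ := by
    intro v
    obtain ⟨y, hy, z, hz, rfl⟩ := AddSubgroup.mem_sup.1 (hgen a₁ hu v)
    obtain ⟨i, rfl⟩ := AddSubgroup.mem_zmultiples_iff.1 hz
    refine ⟨(⟨y, hy⟩, (i : ZMod r)), ?_⟩
    change y + (i : ZMod r) • a₁ = y + i • a₁
    rw [Int.cast_smul_eq_zsmul]
  have h1 := Nat.card_le_card_of_surjective _ hsurj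
  rwa [Nat.card_prod, Nat.card_zmod, mul_comm] at h1

end

end Vale.Agent.P240.H195
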