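import Mathlib.LinearAlgebra.Dual.Lemmas
import Vale.Agent.P240.H195.SN5
import Vale.Agent.P240.H195.SO1

/-!
A group of transvections over an extension field normalizes no elementary abelian `p`-subgroup,
part 1.
-/

namespace Vale.Agent.P240.H195

open Subgroup Matrix

section
variable {F V : Type*} [Field F] [AddCommGroup V] [Module F V] {m : ℕ}
  (b : Module.Basis (Fin (m + 1)) F V)

/-- special linear matrices as linear maps of `V` -/
noncomputable def av (x : SLm m F) : V →ₗ[F] V := Matrix.toLin b b x.1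

lemma av_mul (x y : SLm m F) (v : V) : av b (x * y) v = av b x (av b y v) := by
  have : (x * y).1 = x.1 * y.1 := rfl
  rw [av, this, Matrix.toLin_mul b b b]
  rfl

lemma av_one (v : V) : av b 1 v = v := by
  have : (1 : SLm m F).1 = 1 := rfl
  rw [av, this, Matrix.toLin_one]
  rfl

lemma av_inj {x y : SLm m F} (h : ∀ v, av b x v = av b y v) : x = y := by
  apply Subtype.ext
  have h1 : av b x = av b y := LinearMap.ext h
  exact (Matrix.toLin b b).injective h1

lemma av_injective (x : SLm m F) {v : V} (h : av b x v = 0) : v = 0 := by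
  have h1 := av_mul b x⁻¹ x v
  rw [inv_mul_cancel, av_one, h, map_zero] at h1
  exact h1

/-- special linear matrices given by linear maps -/
noncomputable def sl (T : V →ₗ[F] V) (h : (LinearMap.toMatrix b b T).det = 1) : SLm m F := ⟨_, h⟩

lemma av_sl {T : V →ₗ[F] V} (h : (LinearMap.toMatrix b b T).det = 1) (v : V) :
    av b (sl b T h) v = T v := by
  rw [av]
  change Matrix.toLin b b (LinearMap.toMatrix b b T) v = T v
  rw [Matrix.toLin_toMatrix]

lemma det_of_pow {r : ℕ} [hr : Fact r.Prime] [CharP F r] {T : V →ₗ[F] V} (h : T ^ r = 1) :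
    (LinearMap.toMatrix b b T).det = 1 := by
  have h1 : (LinearMap.toMatrix b b T) ^ r = 1 := by
    rw [LinearMap.toMatrix_pow, h, LinearMap.toMatrix_one]
  have h2 := congrArg Matrix.det h1
  rw [Matrix.det_pow, Matrix.det_one] at h2
  apply frobenius_inj F r
  rw [frobenius_def, frobenius_def, h2, one_pow]

/-- scalar relations -/
lemma pr_av {x y : SLm m F} (h : pr m F x = pr m F y) :
    ∃ c : F, c ^ (m + 1) = 1 ∧ ∀ v, av b x v = c • av b y v := by
  obtain ⟨c, hc, h1⟩ := pr_eq_iff h
  refine ⟨c, hc, fun v => ?_⟩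
  rw [av, h1, Algebra.algebraMap_eq_smul_one, smul_mul_assoc, one_mul, map_smul]
  rfl

end

section
variable {F K V : Type*} [Field F] [Field K] [Algebra F K] [AddCommGroup V] [Module F V]
  [Module K V] [IsScalarTower F K V] {m : ℕ} (b : Module.Basis (Fin (m + 1)) F V)

/-- transvections -/
def tvl (F : Type*) [Field F] [Algebra F K] [Module F V] [IsScalarTower F K V] (e : V)
    (φ : V →ₗ[K] K) : V →ₗ[F] V where
  toFun y := y + φ y • e
  map_add' x y := by
    rw [map_add, add_smul]
    abel
  map_smul' c y := by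
    rw [RingHom.id_apply, LinearMap.map_smul_of_tower, smul_add, smul_assoc]

lemma tvl_apply (e : V) (φ : V →ₗ[K] K) (y : V) : tvl F e φ y = y + φ y • e := rfl

lemma tvl_mul {e : V} {φ : V →ₗ[K] K} (h : φ e = 0) (ψ : V →ₗ[K] K) :
    tvl F e φ * tvl F e ψ = tvl F e (φ + ψ) := by
  ext y
  rw [Module.End.mul_apply, tvl_apply, tvl_apply, tvl_apply, map_add, map_smul, h, smul_zero,
    add_zero, LinearMap.add_apply, add_smul]
  abel

lemma tvl_zero (e : V) : tvl F e (0 : V →ₗ[K] K) = 1 := by
  ext y
  rw [tvl_apply, LinearMap.zero_apply, zero_smul, add_zero]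
  rfl

lemma tvl_pow {e : V} {φ : V →ₗ[K] K} (h : φ e = 0) (k : ℕ) :
    tvl F e φ ^ k = tvl F e (k • φ) := by
  induction k with
  | zero => rw [pow_zero, zero_smul, tvl_zero]
  | succ k ih =>
    rw [pow_succ', ih, tvl_mul h, add_smul, one_smul, add_comm]

lemma char_smul (F : Type*) [Field F] {r : ℕ} [CharP F r] {M : Type*} [AddCommGroup M] [Module F M]
    (x : M) : r • x = 0 := by
  rw [← Nat.cast_smul_eq_nsmul F, CharP.cast_eq_zero, zero_smul]

lemma tvl_det (r : ℕ) [hr : Fact r.Prime] [CharP F r] {e : V} {φ : V →ₗ[K] K} (h : φ e = 0) :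
    (LinearMap.toMatrix b b (tvl F e φ)).det = 1 := by
  refine det_of_pow (r := r) b ?_
  rw [tvl_pow h]
  have : r • φ = 0 := by
    ext y
    rw [LinearMap.smul_apply, char_smul F]
    rfl
  rw [this, tvl_zero]

variable {r : ℕ} [hr : Fact r.Prime] [CharP F r]

/-- transvections as matrices -/
noncomputable def tv (r : ℕ) [Fact r.Prime] [CharP F r] {e : V} {φ : V →ₗ[K] K} (h : φ e = 0) :
    SLm m F := sl b (tvl F e φ) (tvl_det b r h)

lemma av_tv {e : V} {φ : V →ₗ[K] K} (h : φ e = 0) (y : V) :
    av b (tv b r h) y = y + φ y • e := av_sl b _ y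

lemma tv_mul {e : V} {φ ψ : V →ₗ[K] K} (h : φ e = 0) (h' : ψ e = 0) :
    tv b r h * tv b r h' = tv b r (show (φ + ψ) e = 0 by rw [LinearMap.add_apply, h, h', add_zero]) := by
  apply av_inj b
  intro v
  rw [av_mul, av_tv, av_tv, av_tv, map_add, map_smul, h, smul_zero, add_zero, LinearMap.add_apply,
    add_smul]
  abel

/-- commutation with transvections modulo scalars -/
lemma tv_comm {e : V} {φ : V →ₗ[K] K} (he : e ≠ 0) (h : φ e = 0) {x : SLm m F}
    (hx : pr m F (tv b r h) * pr m F x * (pr m F (tv b r h))⁻¹ = pr m F x) (y : V) :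
    av b x (φ y • e) = φ (av b x y) • e := by
  have h1 : pr m F (tv b r h * x) = pr m F (x * tv b r h) := by
    rw [map_mul, map_mul]
    exact mul_inv_eq_iff_eq_mul.1 hx
  obtain ⟨c, -, hc⟩ := pr_av b h1
  have h2 : ∀ y, av b x y + φ (av b x y) • e = c • (av b x y + av b x (φ y • e)) := by
    intro y
    have := hc y
    rwa [av_mul, av_mul, av_tv, av_tv, map_add] at this
  have hc1 : c = 1 := by
    by_contra hne
    have h3 := h2 e
    rw [h, zero_smul, map_zero, add_zero] at h3
    have h4 : (c - 1) • av b x e = φ (av b x e) • e := by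
      rw [sub_smul, one_smul, ← h3]
      abel
    have h5 : av b x e = (algebraMap F K (c - 1)⁻¹ * φ (av b x e)) • e := by
      rw [mul_smul, ← h4, algebraMap_smul, smul_smul, inv_mul_cancel₀ (sub_ne_zero.2 hne), one_smul]
    have h6 : φ (av b x e) = 0 := by
      rw [h5, map_smul, h, smul_zero]
    rw [h6, mul_zero, zero_smul] at h5
    exact he (av_injective b x h5)
  have h3 := h2 y
  rw [hc1, one_smul] at h3
  exact (add_left_cancel h3).symm

end

end Vale.Agent.P240.H195
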