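import Vale.Agent.P240.H195.Defs
import Vale.Agent.P240.H195.SO2

/-!
A group of transvections over an extension field normalizes no elementary abelian `p`-subgroup,
part 2.
-/

namespace Vale.Agent.P240.H195

open Subgroup Matrix Vale.Agent.P240.K

section
variable {F K V : Type*} [Field F] [Field K] [Algebra F K] [AddCommGroup V] [Module F V]
  [Module K V] [IsScalarTower F K V]

omit [Algebra F K] [IsScalarTower F K V] in
/-- a map that commutes with many transvections with the same axis and centre -/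
lemma lemA [Finite K] {X : V →ₗ[F] V} {φ : V →ₗ[K] K} {e : V} (he : e ≠ 0) (hφ : φ ≠ 0)
    {r : ℕ} (hr : 1 < r) (hQ : r ^ 2 < Nat.card K) {H : AddSubgroup K}
    (hH : Nat.card K ≤ r * Nat.card H)
    (h : ∀ h ∈ H, ∀ y, X ((h * φ y) • e) = (h * φ (X y)) • e) :
    ∃ a : K, (∀ c : K, X (c • e) = (c * a) • e) ∧ ∀ y, φ (X y) = a * φ y := by
  classical
  have hesm : ∀ c d : K, c • e = d • e → c = d := by
    intro c d hcd
    have h1 : (c - d) • e = 0 := by rw [sub_smul, hcd, sub_self]
    rcases smul_eq_zero.1 h1 with h2 | h2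
    · exact sub_eq_zero.1 h2
    · exact absurd h2 he
  obtain ⟨y₀, hy₀⟩ : ∃ y₀, φ y₀ = 1 := by
    obtain ⟨y, hy⟩ : ∃ y, φ y ≠ 0 := by
      by_contra hcon
      push Not at hcon
      exact hφ (LinearMap.ext hcon)
    exact ⟨(φ y)⁻¹ • y, by rw [map_smul, smul_eq_mul, inv_mul_cancel₀ hy]⟩
  obtain ⟨h₀, hh₀, hne₀⟩ : ∃ h₀ ∈ H, h₀ ≠ 0 := by
    by_contra hcon
    push Not at hcon
    have h1 : H = ⊥ := by
      rw [eq_bot_iff]
      intro x hx
      rw [AddSubgroup.mem_bot]
      exact hcon x hx
    rw [h1, AddSubgroup.card_bot, mul_one] at hH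
    nlinarith
  have hc : ∀ h ∈ H, ∀ c : K, X ((h * c) • e) = (h * φ (X (c • y₀))) • e := by
    intro h' hh' c
    have h1 := h h' hh' (c • y₀)
    have h2 : φ (c • y₀) = c := by rw [map_smul, smul_eq_mul, hy₀, mul_one]
    rwa [h2] at h1
  have hex : ∀ c : K, ∃ a : K, X (c • e) = a • e := by
    intro c
    refine ⟨h₀ * φ (X ((h₀⁻¹ * c) • y₀)), ?_⟩
    rw [← hc h₀ hh₀, mul_inv_cancel_left₀ hne₀]
  choose a ha using hex
  have hadd : ∀ c d, a (c + d) = a c + a d := by
    intro c d
    apply hesm
    rw [← ha, add_smul, map_add, ha, ha, add_smul]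
  have hH' : ∀ h ∈ H, ∀ c, a (h * h₀⁻¹ * c) = h * h₀⁻¹ * a c := by
    intro h' hh' c
    have h1 := hc h' hh' (h₀⁻¹ * c)
    have h2 := hc h₀ hh₀ (h₀⁻¹ * c)
    rw [ha] at h1 h2
    have h3 := hesm _ _ h1
    have h4 := hesm _ _ h2
    rw [mul_inv_cancel_left₀ hne₀] at h4
    rw [mul_assoc, h3, h4, mul_assoc, inv_mul_cancel_left₀ hne₀]
  let S : Subfield K :=
    { carrier := {κ | ∀ c, a (κ * c) = κ * a c}
      mul_mem' := by
        intro κ μ hκ hμ c
        rw [mul_assoc, hκ, hμ, mul_assoc]
      one_mem' := fun c => by rw [one_mul, one_mul]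
      add_mem' := by
        intro κ μ hκ hμ c
        rw [add_mul, hadd, hκ, hμ, add_mul]
      zero_mem' := fun c => by
        have h1 := hadd 0 0
        rw [add_zero] at h1
        rw [zero_mul, zero_mul]
        exact left_eq_add.1 h1
      neg_mem' := by
        intro κ hκ c
        have h1 := hadd (-κ * c) (κ * c)
        have h0 := hadd 0 0
        rw [add_zero] at h0
        have h0' : a 0 = 0 := left_eq_add.1 h0
        have h2 : -κ * c + κ * c = 0 := by ring
        rw [h2, h0', hκ c] at h1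
        rw [eq_comm, add_eq_zero_iff_eq_neg] at h1
        rw [h1, neg_mul]
      inv_mem' := by
        intro κ hκ c
        by_cases hκ0 : κ = 0
        · rw [hκ0, _root_.inv_zero, zero_mul, zero_mul]
          have h0 := hadd 0 0
          rw [add_zero] at h0
          exact left_eq_add.1 h0
        · have h1 := hκ (κ⁻¹ * c)
          rw [mul_inv_cancel_left₀ hκ0] at h1
          rw [h1, inv_mul_cancel_left₀ hκ0] }
  have hcardS : Nat.card H ≤ Nat.card S := by
    refine Nat.card_le_card_of_injective (fun h : H => (⟨h * h₀⁻¹, hH' h h.2⟩ : S)) ?_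
    intro x y hxy
    have h1 : (x : K) * h₀⁻¹ = y * h₀⁻¹ := congrArg Subtype.val hxy
    exact Subtype.ext (mul_right_cancel₀ (inv_ne_zero hne₀) h1)
  have hStop : ∀ κ : K, κ ∈ S := by
    have h1 : Nat.card K = Nat.card S ^ Module.finrank S K := Module.natCard_eq_pow_finrank
    have h2 : Module.finrank S K ≤ 1 := by
      by_contra hcon
      have h3 : Nat.card S ^ 2 ≤ Nat.card K := by
        rw [h1]
        exact Nat.pow_le_pow_right Nat.card_pos (by omega)
      have h4 : Nat.card K ≤ r * Nat.card S := hH.trans (Nat.mul_le_mul_left _ hcardS)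
      have h5 : Nat.card S ≤ r := by
        by_contra hcon'
        push Not at hcon'
        have h6 : r * Nat.card S < Nat.card S * Nat.card S :=
          Nat.mul_lt_mul_of_pos_right hcon' Nat.card_pos
        nlinarith
      nlinarith
    have h3 : Nat.card S = Nat.card K := by
      have h4 : 0 < Module.finrank S K := Module.finrank_pos
      have h5 : Module.finrank S K = 1 := by omega
      rw [h1, h5, pow_one]
    have h4 : Function.Surjective (Subtype.val : S → K) := by
      have h5 : Function.Bijective (Subtype.val : S → K) :=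
        (Nat.bijective_iff_injective_and_card _).2 ⟨Subtype.val_injective, h3⟩
      exact h5.2
    intro κ
    obtain ⟨x, rfl⟩ := h4 κ
    exact x.2
  have ha1 : ∀ κ, a κ = κ * a 1 := by
    intro κ
    have := hStop κ 1
    rwa [mul_one] at this
  refine ⟨a 1, fun c => by rw [ha, ha1], fun y => ?_⟩
  have h1 := h h₀ hh₀ y
  rw [ha, ha1] at h1
  have h2 := hesm _ _ h1
  rw [mul_assoc] at h2
  have h3 := mul_left_cancel₀ hne₀ h2
  rw [← h3, mul_comm]

variable {m : ℕ} (b : Module.Basis (Fin (m + 1)) F V)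

omit [Module K V] [IsScalarTower F K V] in
lemma pr_scalar {x : SLm m F} {c : F} (h : ∀ y, av b x y = c • y) : pr m F x = 1 := by
  refine (QuotientGroup.eq_one_iff x).2 (mem_center_iff.2 fun g => ?_)
  apply av_inj b
  intro y
  rw [av_mul, av_mul, h, h, map_smul]

/-- the group of transvections acts trivially on the elementary abelian groups it normalizes -/
lemma tv_triv [Finite K] {r p : ℕ} [hr : Fact r.Prime] [CharP F r] [hp : Fact p.Prime]
    (hrp : r ≠ p) (hQ : r ^ 2 < Nat.card K) {e : V} (he : e ≠ 0) {E : Subgroup (PL m F)}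
    (hE : ElemAb p E) {φ : V →ₗ[K] K} (h : φ e = 0) (hφ : φ ≠ 0)
    (hU : ∀ (φ : V →ₗ[K] K) (h : φ e = 0), pr m F (tv b r h) ∈ normalizer (E : Set (PL m F)))
    {x : SLm m F} (hx : pr m F x ∈ E) :
    ∃ a : K, (∀ c : K, av b x (c • e) = (c * a) • e) ∧ ∀ y, φ (av b x y) = a * φ y := by
  classical
  have hz : ∀ c : K, (c • φ) e = 0 := fun c => by
    rw [LinearMap.smul_apply, h, smul_zero]
  have hmul : ∀ c d : K, tv b r (hz (c + d)) = tv b r (hz c) * tv b r (hz d) := by
    intro c d
    rw [tv_mul]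
    congr 1
    rw [add_smul]
  have hzero : tv b r (hz 0) = 1 := by
    apply av_inj b
    intro v
    rw [av_tv, av_one, zero_smul, LinearMap.zero_apply, zero_smul, add_zero]
  let _ : CommGroup E := { (inferInstance : Group E) with
    mul_comm := fun x y => Subtype.ext (hE.2.1 x x.2 y y.2) }
  obtain ⟨u, hu⟩ : ∃ u : K → normalizer (E : Set (PL m F)),
      ∀ c, u c = ⟨pr m F (tv b r (hz c)), hU _ (hz c)⟩ := ⟨_, fun _ => rfl⟩
  have hu1 : u 0 = 1 := by
    rw [hu]
    apply Subtype.ext
    change pr m F (tv b r (hz 0)) = 1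
    rw [hzero, map_one]
  have humul : ∀ c d, u (c + d) = u c * u d := by
    intro c d
    rw [hu, hu, hu]
    apply Subtype.ext
    change pr m F (tv b r (hz (c + d))) = pr m F (tv b r (hz c)) * pr m F (tv b r (hz d))
    rw [hmul, map_mul]
  let θ : K → Additive E →+ Additive E := fun c =>
    MonoidHom.toAdditive (E.normalizerMonoidHom (u c)).toMonoidHom
  have hθ : ∀ (c : K) (y : E), θ c (Additive.ofMul y) = Additive.ofMul y →
      pr m F (tv b r (hz c)) * (y : PL m F) * (pr m F (tv b r (hz c)))⁻¹ = y := by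
    intro c y hy
    have h1 : E.normalizerMonoidHom (u c) y = y := hy
    have h2 := congrArg Subtype.val h1
    rw [hu] at h2
    exact h2
  have hθ' : ∀ (c : K) (y : E),
      pr m F (tv b r (hz c)) * (y : PL m F) * (pr m F (tv b r (hz c)))⁻¹ = y →
      θ c (Additive.ofMul y) = Additive.ofMul y := by
    intro c y hy
    have h1 : E.normalizerMonoidHom (u c) y = y := by
      rw [hu]
      exact Subtype.ext hy
    exact h1
  have hall : ∀ (a : K) (y : Additive E), θ a y = y := by
    refine hyper_fix θ hr.out hp.out hrp (fun a => char_smul F a) (fun y => ?_) (fun y => ?_)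
      (fun c d y => ?_) ?_
    · have h1 : y.toMul ^ p = 1 := Subtype.ext (hE.2.2 _ y.toMul.2)
      exact h1
    · have h1 : E.normalizerMonoidHom (u 0) y.toMul = y.toMul := by
        rw [hu1, map_one]
        rfl
      exact h1
    · have h1 : E.normalizerMonoidHom (u (c + d)) y.toMul =
          E.normalizerMonoidHom (u c) (E.normalizerMonoidHom (u d) y.toMul) := by
        rw [humul, map_mul]
        rfl
      exact h1
    · intro H hH y hy a
      obtain ⟨z, hz'⟩ := QuotientGroup.mk'_surjective _ (y.toMul : PL m F)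
      change pr m F z = (y.toMul : PL m F) at hz'
      have h1 : ∀ c ∈ H, ∀ v, av b z ((c * φ v) • e) = (c * φ (av b z v)) • e := by
        intro c hc v
        have h2 := hθ c y.toMul (hy c hc)
        rw [← hz'] at h2
        exact tv_comm b he (hz c) h2 v
      obtain ⟨a', ha1, ha2⟩ := lemA he hφ hr.out.one_lt hQ hH h1
      refine hθ' a y.toMul ?_
      rw [← hz', mul_inv_eq_iff_eq_mul, ← map_mul, ← map_mul]
      congr 1
      apply av_inj b
      intro v
      rw [av_mul, av_mul, av_tv, av_tv, map_add]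
      congr 1
      rw [LinearMap.smul_apply, LinearMap.smul_apply, smul_eq_mul, smul_eq_mul, ha1, ha2]
      congr 1
      ring
  refine lemA he hφ hr.out.one_lt hQ (H := ⊤) ?_ fun c _ v => ?_
  · rw [AddSubgroup.card_top]
    exact Nat.le_mul_of_pos_left _ hr.out.pos
  · exact tv_comm b he (hz c) (hθ c ⟨_, hx⟩ (hall c _)) v

/-- **Transvections over `K` normalize no elementary abelian `p`-subgroup.** -/
theorem tv_free [Finite K] {r p : ℕ} [hr : Fact r.Prime] [CharP F r] [hp : Fact p.Prime]
    (hrp : r ≠ p) (hQ : r ^ 2 < Nat.card K)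
    (hpt : ¬ p ∣ (Nat.card K - 1) / (Nat.card F - 1)) {e : V} (he : e ≠ 0)
    (hex : ∃ φ : V →ₗ[K] K, φ ≠ 0 ∧ φ e = 0) {E : Subgroup (PL m F)} (hE : ElemAb p E)
    (hU : ∀ (φ : V →ₗ[K] K) (h : φ e = 0),
      pr m F (tv b r h) ∈ normalizer (E : Set (PL m F))) : False := by
  have hF := finite_F F K
  obtain ⟨φ₀, hφ₀, h₀⟩ := hex
  refine hE.1 ?_
  rw [eq_bot_iff]
  intro x' hx'
  obtain ⟨x, rfl⟩ := QuotientGroup.mk'_surjective _ x'
  change pr m F x ∈ E at hx'
  change pr m F x ∈ (⊥ : Subgroup (PL m F))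
  rw [Subgroup.mem_bot]
  have hesm : ∀ c d : K, c • e = d • e → c = d := by
    intro c d hcd
    have h1 : (c - d) • e = 0 := by rw [sub_smul, hcd, sub_self]
    rcases smul_eq_zero.1 h1 with h2 | h2
    · exact sub_eq_zero.1 h2
    · exact absurd h2 he
  obtain ⟨a, ha, -⟩ := tv_triv b hrp hQ he hE h₀ hφ₀ hU hx'
  have hall : ∀ φ : V →ₗ[K] K, φ e = 0 → ∀ y, φ (av b x y) = a * φ y := by
    intro φ h y
    by_cases hφ : φ = 0
    · rw [hφ, LinearMap.zero_apply, LinearMap.zero_apply, mul_zero]
    · obtain ⟨a', ha', h1⟩ := tv_triv b hrp hQ he hE h hφ hU hx'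
      have h2 : a' = a := by
        have h3 := ha' 1
        rw [ha 1] at h3
        have h4 := hesm _ _ h3
        rw [one_mul, one_mul] at h4
        exact h4.symm
      rw [h1, h2]
  have hspan : ∀ y, ∃ d : K, av b x y = a • y + d • e := by
    intro y
    by_contra hcon
    have h1 : av b x y - a • y ∉ Submodule.span K {e} := by
      intro h2
      obtain ⟨d, hd⟩ := Submodule.mem_span_singleton.1 h2
      exact hcon ⟨d, by rw [hd]; abel⟩
    obtain ⟨f, hf1, hf2⟩ := Submodule.exists_dual_map_eq_bot_of_notMem h1 inferInstance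
    have hfe : f e = 0 := by
      have h2 : f e ∈ (Submodule.span K {e}).map f :=
        ⟨e, Submodule.mem_span_singleton_self e, rfl⟩
      rw [hf2, Submodule.mem_bot] at h2
      exact h2
    apply hf1
    rw [map_sub, map_smul, smul_eq_mul, hall f hfe, sub_self]
  have hxe : av b x e = a • e := by
    have := ha 1
    rwa [one_smul, one_mul] at this
  have ha0 : a ≠ 0 := by
    rintro rfl
    rw [zero_smul] at hxe
    exact he (av_injective b x hxe)
  -- `a` is in `F`
  have haF : ∃ α : F, algebraMap F K α = a := by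
    have h1 : pr m F (x ^ p) = pr m F 1 := by
      rw [map_pow, map_one]
      exact hE.2.2 _ hx'
    obtain ⟨μ, -, hμ⟩ := pr_av b h1
    have h2 : ∀ j : ℕ, av b (x ^ j) e = a ^ j • e := by
      intro j
      induction j with
      | zero => rw [pow_zero, pow_zero, av_one, one_smul]
      | succ j ih => rw [pow_succ', av_mul, ih, ha, pow_succ]
    have h3 : a ^ p = algebraMap F K μ := by
      apply hesm
      rw [← h2, hμ, av_one, algebraMap_smul]
    have h4 : a ^ ((Nat.card K - 1) / (Nat.card F - 1)) = algebraMap F K (Algebra.norm F a) :=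
      (FiniteField.algebraMap_norm_eq_pow).symm
    have hcop : IsCoprime (p : ℤ) (((Nat.card K - 1) / (Nat.card F - 1) : ℕ) : ℤ) := by
      rw [Nat.isCoprime_iff_coprime]
      exact (hp.out.coprime_iff_not_dvd).2 hpt
    obtain ⟨u, v, huv⟩ := hcop
    refine ⟨μ ^ u * Algebra.norm F a ^ v, ?_⟩
    rw [map_mul, map_zpow₀, map_zpow₀, ← h3, ← h4, ← zpow_natCast, ← zpow_natCast, ← zpow_mul,
      ← zpow_mul, ← zpow_add₀ ha0, mul_comm (p : ℤ) u, mul_comm _ v, huv, zpow_one]
  obtain ⟨α, hα⟩ := haF
  have hα0 : α ≠ 0 := by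
    rintro rfl
    rw [map_zero] at hα
    exact ha0 hα.symm
  have haα : ∀ y : V, a • y = α • y := fun y => by rw [← hα, algebraMap_smul]
  -- powers
  have hpow : ∀ (j : ℕ) (y : V), α • av b (x ^ j) y =
      α ^ (j + 1) • y + ((j : F) * α ^ j) • (av b x y - α • y) := by
    intro j
    induction j with
    | zero =>
      intro y
      rw [pow_zero, av_one, zero_add, pow_one, Nat.cast_zero, zero_mul, zero_smul, add_zero]
    | succ j ih =>
      intro y
      rw [pow_succ, av_mul, ih]
      obtain ⟨d, hd⟩ := hspan y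
      have h1 : av b x (av b x y) - α • av b x y = α • (av b x y - α • y) := by
        have h2 : av b x y = α • y + d • e := by rw [hd, haα]
        have h3 : av b x (d • e) = α • (d • e) := by rw [ha, mul_comm, mul_smul, haα]
        have h4 : av b x (av b x y) = α • av b x y + α • (d • e) := by
          conv_lhs => rw [h2]
          rw [map_add, map_smul, h3]
        rw [h4, add_sub_cancel_left, h2, add_sub_cancel_left]
      rw [h1]
      obtain ⟨D, hD⟩ : ∃ D, av b x y = α • y + D :=
        ⟨av b x y - α • y, by rw [add_sub_cancel]⟩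
      rw [hD, add_sub_cancel_left]
      push_cast
      module
  have h1 : pr m F (x ^ r) = 1 := by
    refine pr_scalar b (c := α ^ r) fun y => ?_
    have h2 := hpow r y
    rw [CharP.cast_eq_zero, zero_mul, zero_smul, add_zero, pow_succ', mul_smul] at h2
    exact smul_right_injective V hα0 h2
  rw [map_pow] at h1
  have h2 := Nat.dvd_gcd (orderOf_dvd_of_pow_eq_one h1) (orderOf_dvd_of_pow_eq_one (hE.2.2 _ hx'))
  rw [(Nat.coprime_primes hr.out hp.out).2 hrp, Nat.dvd_one] at h2
  exact orderOf_eq_one_iff.1 h2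

end

end Vale.Agent.P240.H195
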