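import Vale.Agent.P240.H195.SN5

/-!
Semilinear maps that normalize an extension field acting on a vector space.
-/

namespace Vale.Agent.P240.H195

open Subgroup Matrix

section
variable {F K : Type*} [Field F] [Field K] [Algebra F K] {m : ℕ}

/-- semilinear maps that carry a generator of the field `K` to an element of another copy of `K` -/
theorem sem_sing2 [Finite K] (j j' : K →ₐ[F] Matrix (Fin (m + 1)) (Fin (m + 1)) F) {M : GLm m F}
    {τ : RingAut F} {y₀ z₀ : K} (hy : Algebra.adjoin F {y₀} = ⊤)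
    (h : M.1 * (j y₀).map τ * (M⁻¹).1 = j' z₀) :
    ∃ ρ : RingAut K, (∀ y, M.1 * (j y).map τ * (M⁻¹).1 = j' (ρ y)) ∧
      ∀ c : F, ρ (algebraMap F K c) = algebraMap F K (τ c) := by
  have hinj : Function.Injective j' := j'.toRingHom.injective
  have hM : (M⁻¹).1 * M.1 = 1 := by rw [← Units.val_mul, inv_mul_cancel, Units.val_one]
  have halg : ∀ c : F, M.1 * (j (algebraMap F K c)).map τ * (M⁻¹).1 =
      j' (algebraMap F K (τ c)) := by
    intro c
    rw [AlgHom.commutes, AlgHom.commutes, algebraMap_map, conj_algebraMap]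
  have hadd : ∀ A C : Matrix (Fin (m + 1)) (Fin (m + 1)) F,
      M.1 * (A + C).map τ * (M⁻¹).1 = M.1 * A.map τ * (M⁻¹).1 + M.1 * C.map τ * (M⁻¹).1 := by
    intro A C
    rw [map_add', mul_add, add_mul]
  have hmul : ∀ A C : Matrix (Fin (m + 1)) (Fin (m + 1)) F,
      M.1 * (A * C).map τ * (M⁻¹).1 = (M.1 * A.map τ * (M⁻¹).1) * (M.1 * C.map τ * (M⁻¹).1) := by
    intro A C
    rw [map_mul']
    calc M.1 * (A.map τ * C.map τ) * (M⁻¹).1
        = M.1 * A.map τ * 1 * (C.map τ * (M⁻¹).1) := by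
          simp only [mul_assoc, one_mul]
      _ = _ := by rw [← hM]; simp only [mul_assoc]
  have hall : ∀ y : K, ∃ z : K, M.1 * (j y).map τ * (M⁻¹).1 = j' z := by
    intro y
    have hy' : y ∈ Algebra.adjoin F {y₀} := by rw [hy]; exact Algebra.mem_top
    induction hy' using Algebra.adjoin_induction with
    | mem x hx =>
      rw [Set.mem_singleton_iff] at hx
      exact ⟨z₀, by rw [hx, h]⟩
    | algebraMap c => exact ⟨_, halg c⟩
    | add x y _ _ hx hy =>
      obtain ⟨u, hu⟩ := hx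
      obtain ⟨v, hv⟩ := hy
      exact ⟨u + v, by rw [map_add, hadd, hu, hv, map_add]⟩
    | mul x y _ _ hx hy =>
      obtain ⟨u, hu⟩ := hx
      obtain ⟨v, hv⟩ := hy
      exact ⟨u * v, by rw [map_mul, hmul, hu, hv, map_mul]⟩
  choose ρ₀ hρ₀ using hall
  have hρalg : ∀ c : F, ρ₀ (algebraMap F K c) = algebraMap F K (τ c) := by
    intro c
    apply hinj
    rw [← hρ₀, halg]
  let ρ' : K →+* K :=
    { toFun := ρ₀
      map_one' := by
        have := hρalg 1
        rwa [map_one, map_one, map_one] at this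
      map_mul' := fun x y => by
        apply hinj
        rw [← hρ₀, map_mul, hmul, hρ₀, hρ₀, map_mul]
      map_zero' := by
        have := hρalg 0
        rwa [map_zero, map_zero, map_zero] at this
      map_add' := fun x y => by
        apply hinj
        rw [← hρ₀, map_add, hadd, hρ₀, hρ₀, map_add] }
  have hb : Function.Bijective ρ' := by
    rw [Finite.injective_iff_bijective.symm]
    exact ρ'.injective
  exact ⟨RingEquiv.ofBijective ρ' hb, fun y => hρ₀ y, hρalg⟩

/-- the commutant of a commutative algebra in its regular representation -/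
lemma commutant2 {R : Type*} [CommRing R] [Algebra F R] (b : Module.Basis (Fin (m + 1)) F R)
    {M : Matrix (Fin (m + 1)) (Fin (m + 1)) F}
    (h : ∀ y : R, M * Algebra.leftMulMatrix b y = Algebra.leftMulMatrix b y * M) :
    ∃ c : R, M = Algebra.leftMulMatrix b c := by
  refine ⟨Matrix.toLin b b M 1, ?_⟩
  rw [Algebra.leftMulMatrix_apply, ← LinearMap.toMatrix_toLin b b M]
  congr 1
  rw [LinearMap.toMatrix_toLin]
  refine LinearMap.ext fun y => ?_
  have h1 := congrArg (Matrix.toLin b b) (h y)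
  rw [Matrix.toLin_mul b b b, Matrix.toLin_mul b b b, Algebra.leftMulMatrix_apply,
    Matrix.toLin_toMatrix] at h1
  have h2 := LinearMap.congr_fun h1 1
  change Matrix.toLin b b M (y * 1) = y * Matrix.toLin b b M 1 at h2
  rw [mul_one] at h2
  rw [h2]
  exact mul_comm _ _

lemma map_one_aut (A : Matrix (Fin (m + 1)) (Fin (m + 1)) F) : A.map (1 : RingAut F) = A := by
  ext i j
  rfl

lemma comm_of_conj {M : GLm m F} {A : Matrix (Fin (m + 1)) (Fin (m + 1)) F}
    (h : M.1 * A * (M⁻¹).1 = A) : M.1 * A = A * M.1 := by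
  calc M.1 * A = M.1 * A * ((M⁻¹).1 * M.1) := by
        rw [← Units.val_mul, inv_mul_cancel, Units.val_one, mul_one]
    _ = (M.1 * A * (M⁻¹).1) * M.1 := by rw [← mul_assoc]
    _ = _ := by rw [h]

/-- semilinear automorphisms that fix a Singer cycle of `K` -/
theorem sem_cent2 [Finite K] (j : K →ₐ[F] Matrix (Fin (m + 1)) (Fin (m + 1)) F)
    (hm : 3 ≤ Module.finrank F K) (hex : ¬ (Module.finrank F K = 3 ∧ Nat.card F = 4)) {ζ : K}
    (hζ : orderOf ζ = Nat.card K - 1) {s : SLm m F} (hs : s.1 = j (ζ ^ (Nat.card F - 1)))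
    {M : GLm m F} {τ : RingAut F} (hfix : sem M τ (pr m F s) = pr m F s) :
    τ = 1 ∧ ∀ y : K, M.1 * j y = j y * M.1 := by
  obtain ⟨l, -, hl⟩ := pr_eq_iff (x := actf M τ s) hfix
  rw [actf_val, hs] at hl
  obtain ⟨ρ, hρ, hρF⟩ := sem_sing2 j j (M := M) (τ := τ) (y₀ := ζ ^ (Nat.card F - 1))
    (z₀ := algebraMap F K l * ζ ^ (Nat.card F - 1)) (adj_top hζ (by omega)) (by
      rw [hl, map_mul, AlgHom.commutes])
  have hρ1 : ρ = 1 := by
    refine aut_eq_one hζ hm hex ⟨l, ?_⟩
    apply j.toRingHom.injective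
    change j (ρ _) = j _
    rw [← hρ, hl, map_mul, AlgHom.commutes]
  have hτ1 : τ = 1 := by
    ext c
    have h1 := hρF c
    rw [hρ1] at h1
    exact ((algebraMap F K).injective h1).symm
  subst hτ1
  refine ⟨rfl, fun y => comm_of_conj ?_⟩
  have h1 := hρ y
  rw [hρ1, map_one_aut] at h1
  exact h1

/-- the transposed embedding -/
def trj (j : K →ₐ[F] Matrix (Fin (m + 1)) (Fin (m + 1)) F) :
    K →ₐ[F] Matrix (Fin (m + 1)) (Fin (m + 1)) F where
  toFun y := (j y)ᵀ
  map_one' := by rw [map_one, Matrix.transpose_one]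
  map_mul' x y := by rw [mul_comm, map_mul, Matrix.transpose_mul]
  map_zero' := by rw [map_zero, Matrix.transpose_zero]
  map_add' x y := by rw [map_add, Matrix.transpose_add]
  commutes' c := by
    rw [AlgHom.commutes, Matrix.algebraMap_eq_diagonal, Matrix.diagonal_transpose]

lemma trj_apply (j : K →ₐ[F] Matrix (Fin (m + 1)) (Fin (m + 1)) F) (y : K) :
    trj j y = (j y)ᵀ := rfl

/-- automorphisms involving the inverse transpose do not fix a Singer cycle of `K` -/
theorem graph_cent2 [Finite K] (j : K →ₐ[F] Matrix (Fin (m + 1)) (Fin (m + 1)) F)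
    (hm : 3 ≤ Module.finrank F K) (hex : ¬ (Module.finrank F K = 3 ∧ Nat.card F = 4)) {ζ : K}
    (hζ : orderOf ζ = Nat.card K - 1) {s : SLm m F} (hs : s.1 = j (ζ ^ (Nat.card F - 1)))
    {M : GLm m F} {τ : RingAut F}
    (hfix : (sem M τ * ind (itA m F)) (pr m F s) = pr m F s) : False := by
  have hF := finite_F F K
  have hq : 1 < Nat.card F := Finite.one_lt_card
  have hQ : 1 < Nat.card K := Finite.one_lt_card
  have hζ0 : ζ ≠ 0 := by
    rintro rfl
    have h1 : orderOf (0 : K) = 0 := by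
      rw [orderOf_eq_zero_iff']
      intro n hn h0
      rw [zero_pow hn.ne'] at h0
      exact zero_ne_one h0
    omega
  have hinj : Function.Injective j := j.toRingHom.injective
  obtain ⟨w, hw⟩ : ∃ w, w = ζ ^ (Nat.card F - 1) := ⟨_, rfl⟩
  have hw0 : w ≠ 0 := hw ▸ pow_ne_zero _ hζ0
  have hadj := adj_top hζ (F := F) (by omega)
  rw [← hw] at hs hadj
  have hsinv : (s⁻¹).1 = j w⁻¹ := by
    have h1 : j w⁻¹ * s.1 = 1 := by
      rw [hs, ← map_mul, inv_mul_cancel₀ hw0, map_one]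
    have h2 : s.1 * (s⁻¹).1 = 1 := congrArg (fun y : SLm m F => y.1) (mul_inv_cancel s)
    calc (s⁻¹).1 = (j w⁻¹ * s.1) * (s⁻¹).1 := by rw [h1, one_mul]
      _ = _ := by rw [mul_assoc, h2, mul_one]
  obtain ⟨l, -, hl⟩ := pr_eq_iff (x := actf M τ (itf s)) hfix
  rw [actf_val, itf_val, hsinv, hs, ← trj_apply] at hl
  have hl' : M.1 * (trj j w⁻¹).map τ * (M⁻¹).1 = j (algebraMap F K l * w) := by
    rw [map_mul, AlgHom.commutes, ← hl]
  have hadj' : Algebra.adjoin F {w⁻¹} = ⊤ := by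
    rw [eq_top_iff, ← hadj]
    refine Algebra.adjoin_le ?_
    intro v hv
    rw [Set.mem_singleton_iff] at hv
    rw [hv]
    have h1 : w = (w⁻¹) ^ (Nat.card K - 2) := by
      have h2 : w ^ (Nat.card K - 1) = 1 := by
        rw [hw, ← pow_mul, mul_comm, pow_mul, ← hζ, pow_orderOf_eq_one, one_pow]
      rw [inv_pow]
      refine eq_inv_of_mul_eq_one_right ?_
      rw [← pow_succ, show Nat.card K - 2 + 1 = Nat.card K - 1 by omega, h2]
    have h3 : (w⁻¹) ^ (Nat.card K - 2) ∈ Algebra.adjoin F {w⁻¹} :=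
      pow_mem (Algebra.subset_adjoin (Set.mem_singleton _)) _
    rwa [← h1] at h3
  obtain ⟨ρ, hρ, hρF⟩ := sem_sing2 (trj j) j hadj' hl'
  have hρw : ρ w⁻¹ = algebraMap F K l * w := hinj (by rw [← hρ, hl'])
  have hρw' : ρ w = (algebraMap F K l)⁻¹ * w⁻¹ := by
    rw [← inv_inv (ρ w), ← map_inv₀, hρw, mul_inv]
  have hρ2 : ρ ^ 2 = 1 := by
    refine aut_eq_one hζ hm hex ⟨(τ l)⁻¹ * l, ?_⟩
    rw [← hw, pow_two, RingAut.mul_apply, hρw', map_mul, hρw, map_inv₀, hρF, map_mul, map_inv₀]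
    ring
  refine no_inv hζ hm hex hρ2 ⟨l⁻¹, ?_⟩
  rw [← hw, hρw', map_inv₀, mul_assoc, inv_mul_cancel₀ hw0, mul_one]

end

end Vale.Agent.P240.H195
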