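import Vale.Agent.P240.H195.SN7
import Vale.Agent.P240.H195.SO4

/-!
The centralizer of a Singer cycle of an extension field times a regular unipotent element.
-/

namespace Vale.Agent.P240.H195

open Subgroup Matrix

section
variable {F K R : Type*} [Field F] [Field K] [Algebra F K] [CommRing R] [Algebra F R]
  [Algebra K R] [IsScalarTower F K R] {m : ℕ} (b : Module.Basis (Fin (m + 1)) F R)

/-- the extension field acting on `R` -/
noncomputable def jR : K →ₐ[F] Matrix (Fin (m + 1)) (Fin (m + 1)) F :=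
  (Algebra.leftMulMatrix b).comp (IsScalarTower.toAlgHom F K R)

lemma jR_apply (y : K) : jR b y = Algebra.leftMulMatrix b (algebraMap K R y) := rfl

lemma add_pow_q {r : ℕ} [hr : Fact r.Prime] [CharP R r] (e : ℕ) {x n : R} {k : ℕ} (hn : n ^ k = 0)
    (hk : k ≤ r ^ e) : (x + n) ^ r ^ e = x ^ r ^ e := by
  rw [add_pow_char_pow, pow_eq_zero_of_le hk hn, add_zero]

/-- **The centralizer of a mixed element** contains no automorphisms of order `p`. -/
theorem mix_cent [Finite K] {r p : ℕ} [hr : Fact r.Prime] [CharP F r] (hp : p.Prime) (hrp : r ≠ p)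
    (hpt : p.Coprime ((Nat.card K - 1) / (Nat.card F - 1))) (hm : 3 ≤ Module.finrank F K)
    (hex : ¬ (Module.finrank F K = 3 ∧ Nat.card F = 4)) {ζ : K}
    (hζ : orderOf ζ = Nat.card K - 1) {k : ℕ} (ε : R →ₐ[K] K) (hε : ∀ x, ε x = 0 → x ^ k = 0)
    {ν : R} (hgen : ∀ x : R, x ∈ Algebra.adjoin K {ν}) (hν : ν ^ k = 0) {s₀ v₀ : SLm m F}
    (hs₀ : s₀.1 = jR b (ζ ^ (Nat.card F - 1))) (hv₀ : v₀.1 = Algebra.leftMulMatrix b (1 + ν))
    (hm2 : 2 ≤ m) (hsimple : IsSimpleGroup (PL m F)) {f : MulAut (PL m F)}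
    (hf : f (pr m F (s₀ * v₀)) = pr m F (s₀ * v₀)) (hfp : f ^ p = 1) : f = 1 := by
  have hF := finite_F F K
  have hnt : Nontrivial R := ε.toRingHom.domain_nontrivial
  have hRr : CharP R r := charP_of_injective_algebraMap (algebraMap F R).injective r
  have hKr : CharP K r := charP_of_injective_algebraMap (algebraMap F K).injective r
  have := Fintype.ofFinite K
  obtain ⟨N, -, hN⟩ := FiniteField.card K r
  have hcard : Nat.card K = r ^ (N : ℕ) := by rw [Nat.card_eq_fintype_card, hN]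
  have hQk : Nat.card K ^ k = r ^ ((N : ℕ) * k) := by rw [hcard, pow_mul]
  have hkle : k ≤ r ^ ((N : ℕ) * k) := by
    have h1 : k ≤ (N : ℕ) * k := Nat.le_mul_of_pos_left _ N.pos
    exact h1.trans (Nat.lt_pow_self hr.out.one_lt).le
  have hKpow : ∀ y : K, y ^ (Nat.card K ^ k) = y := by
    intro y
    rw [Nat.card_eq_fintype_card, FiniteField.pow_card_pow]
  have hcomm : Commute s₀ v₀ := by
    apply Subtype.ext
    change s₀.1 * v₀.1 = v₀.1 * s₀.1
    rw [hs₀, hv₀, jR_apply, ← map_mul, ← map_mul, mul_comm]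
  have hs₀Q : s₀ ^ (Nat.card K ^ k) = s₀ := by
    apply Subtype.ext
    rw [val_pow, hs₀, ← map_pow, hKpow]
  have hv₀Q : v₀ ^ (Nat.card K ^ k) = 1 := by
    apply Subtype.ext
    rw [val_pow, hv₀, ← map_pow, hQk, add_pow_q _ hν hkle, one_pow, map_one]
    rfl
  have hsQ : (s₀ * v₀) ^ (Nat.card K ^ k) = s₀ := by
    rw [hcomm.mul_pow, hs₀Q, hv₀Q, mul_one]
  have hfs₀ : f (pr m F s₀) = pr m F s₀ := by
    rw [← hsQ, map_pow, map_pow, hf]
  have hfv₀ : f (pr m F v₀) = pr m F v₀ := by
    have h1 := hf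
    rw [map_mul, map_mul, hfs₀] at h1
    exact mul_left_cancel h1
  obtain ⟨M, τ, h | h⟩ := aut_psl (r := r) hm2 hsimple f
  swap
  · rw [h] at hfs₀
    exact (graph_cent2 (jR b) hm hex hζ hs₀ hfs₀).elim
  rw [h] at hfs₀
  obtain ⟨rfl, hM⟩ := sem_cent2 (jR b) hm hex hζ hs₀ hfs₀
  -- the unipotent element
  have hMv : M.1 * v₀.1 = v₀.1 * M.1 := by
    apply comm_of_conj
    rw [h] at hfv₀
    obtain ⟨c, -, hc⟩ := pr_eq_iff (x := actf M 1 v₀) hfv₀
    have h1 : actf M 1 v₀ ^ (Nat.card K ^ k) = 1 := by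
      have h2 : ∀ i : ℕ, actf M 1 v₀ ^ i = actf M 1 (v₀ ^ i) := by
        intro i
        induction i with
        | zero =>
          rw [pow_zero, pow_zero]
          apply Subtype.ext
          rw [actf_val, map_one_aut]
          change 1 = M.1 * 1 * (M⁻¹).1
          rw [mul_one, ← Units.val_mul, mul_inv_cancel, Units.val_one]
        | succ i ih => rw [pow_succ, pow_succ, ih, actf_mul]
      rw [h2, hv₀Q]
      have h3 := h2 0
      rw [pow_zero, pow_zero] at h3
      exact h3.symm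
    have h2 : c ^ (Nat.card K ^ k) = 1 := by
      have h3 : (actf M 1 v₀ ^ (Nat.card K ^ k)).1 = 1 := by
        rw [h1]
        rfl
      have h4 : Commute (algebraMap F (Matrix (Fin (m + 1)) (Fin (m + 1)) F) c) v₀.1 :=
        Algebra.commutes c v₀.1
      rw [val_pow, hc, h4.mul_pow, ← val_pow, hv₀Q, ← map_pow] at h3
      have h5 : (1 : SLm m F).1 = 1 := rfl
      rw [h5, mul_one, ← map_one (algebraMap F (Matrix (Fin (m + 1)) (Fin (m + 1)) F))] at h3
      exact (algebraMap F (Matrix (Fin (m + 1)) (Fin (m + 1)) F)).injective h3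
    have h3 : c = 1 := by
      have h4 := hKpow (algebraMap F K c)
      rw [← map_pow, h2, map_one] at h4
      exact (algebraMap F K).injective (by rw [← h4, map_one])
    rw [actf_val, map_one_aut, h3, map_one, one_mul] at hc
    exact hc
  have hMR : ∀ x : R, M.1 * Algebra.leftMulMatrix b x = Algebra.leftMulMatrix b x * M.1 := by
    intro x
    have hx := hgen x
    induction hx using Algebra.adjoin_induction with
    | mem y hy =>
      rw [Set.mem_singleton_iff] at hy
      rw [hv₀, map_add, map_one, mul_add, add_mul, mul_one, one_mul] at hMv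
      rw [hy]
      exact add_left_cancel hMv
    | algebraMap y => exact hM y
    | add x y _ _ hx hy => rw [map_add, mul_add, add_mul, hx, hy]
    | mul x y _ _ hx hy => rw [map_mul, ← mul_assoc, hx, mul_assoc, hy, mul_assoc]
  obtain ⟨c, hc⟩ := commutant2 b hMR
  -- the order
  rw [h] at hfp ⊢
  set t := (Nat.card K - 1) / (Nat.card F - 1) with ht
  have hct : ∃ α : F, c ^ (t * (Nat.card K ^ k)) = algebraMap F R α := by
    refine ⟨(Algebra.norm F (ε c)) ^ (Nat.card K ^ k), ?_⟩
    have h1 : (ε c) ^ t = algebraMap F K (Algebra.norm F (ε c)) :=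
      (FiniteField.algebraMap_norm_eq_pow).symm
    obtain ⟨n, hn⟩ : ∃ n, n = c ^ t - algebraMap F R (Algebra.norm F (ε c)) := ⟨_, rfl⟩
    have h2 : ε n = 0 := by
      rw [hn, map_sub, map_pow, h1, IsScalarTower.algebraMap_apply F K R, AlgHom.commutes,
        Algebra.algebraMap_self_apply, sub_self]
    have h3 : c ^ t = algebraMap F R (Algebra.norm F (ε c)) + n := by rw [hn]; ring
    rw [pow_mul, h3, hQk, add_pow_q _ (hε n h2) hkle, map_pow]
  obtain ⟨α, hα⟩ := hct
  have h1 : sem M 1 ^ (t * (Nat.card K ^ k)) = 1 := by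
    rw [sem_one_pow]
    refine sem_scalar (c := α) ?_
    rw [Units.val_pow_eq_pow_val, hc, ← map_pow, hα, AlgHom.commutes]
  have h2 : p.Coprime (t * (Nat.card K ^ k)) := by
    refine Nat.Coprime.mul_right hpt ?_
    rw [hQk]
    exact Nat.Coprime.pow_right _ ((Nat.coprime_primes hp hr.out).2 hrp.symm)
  have h3 := Nat.dvd_gcd (orderOf_dvd_of_pow_eq_one hfp) (orderOf_dvd_of_pow_eq_one h1)
  rw [h2] at h3
  rw [← orderOf_eq_one_iff]
  exact Nat.dvd_one.1 h3

end

end Vale.Agent.P240.H195
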