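import Mathlib.RingTheory.AdjoinRoot
import Mathlib.RingTheory.Norm.Transitivity
import Vale.Agent.P240.H195.Eu3
import Vale.Agent.P240.H195.SO3
import Vale.Agent.P240.H195.SO5

/-!
The groups `PSL_n(F)` satisfy `EuFree p` if `n` has a divisor `d ≥ 3` such that `p` does not divide
`(q ^ d - 1) / (q - 1)`.
-/

namespace Vale.Agent.P240.H195

open Subgroup Matrix Vale.Agent.P240.K

universe u

theorem CycFree.euFree {p : ℕ} [Fact p.Prime] {L : Type*} [Group L] [Finite L]
    (hc : ∀ x : L, (∀ y, x * y = y * x) → x = 1) (h : CycFree p L) : EuFree p L := by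
  obtain ⟨s, hs⟩ := h
  have hinj : Function.Injective (MulAut.conj : L →* MulAut L) := by
    rw [injective_iff_map_eq_one]
    intro x hx
    refine hc x fun y => ?_
    have h1 := congrArg (fun f : MulAut L => f y) hx
    change x * y * x⁻¹ = y at h1
    rw [← eq_mul_inv_iff_mul_eq, inv_inv] at h1
    exact h1
  refine ⟨s, ?_, fun f hfp hfo hfs => ?_⟩
  · rw [eulerFix_eq, ← lam_range hinj]
    have h0 : {E | E ∈ Ain p (MulAut.conj (G := L)).range ∧
        MulAut.conj s ∈ normalizer (E : Set (MulAut L))} = ∅ := by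
      ext E
      simp only [Set.mem_ofPred_eq, Set.mem_empty_iff_false, iff_false]
      rintro ⟨⟨h1, -⟩, h3⟩
      exact hs E h1 h3
    rw [lam, h0, eu_empty]
    exact one_ne_zero
  · have hf1 : f ≠ 1 := by
      rintro rfl
      exact hfo (one_mem _)
    refine hs (zpowers f) ⟨by rwa [Ne, zpowers_eq_bot], ?_, ?_⟩ (mem_of_comm ?_)
    · rintro _ ⟨i, rfl⟩ _ ⟨j, rfl⟩
      exact (Commute.refl f).zpow_zpow i j
    · rintro _ ⟨i, rfl⟩
      change (f ^ i) ^ p = 1
      rw [← zpow_natCast, zpow_comm, zpow_natCast, hfp, one_zpow]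
    · rintro _ ⟨i, rfl⟩
      have h1 : Commute (MulAut.conj s) f := by
        have h2 : f * MulAut.conj s = MulAut.conj (f s) * f := by
          ext1 z
          simp only [MulAut.mul_apply, MulAut.conj_apply, map_mul, map_inv]
        rw [hfs] at h2
        exact h2.symm
      exact h1.zpow_right i

lemma char_le_card (F : Type*) [Field F] [Finite F] (r : ℕ) [Fact r.Prime] [CharP F r] :
    r ≤ Nat.card F := by
  have := Fintype.ofFinite F
  obtain ⟨M, -, hM⟩ := FiniteField.card F r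
  rw [Nat.card_eq_fintype_card, hM]
  exact Nat.le_self_pow M.pos.ne' r

section
variable {F K R : Type*} [Field F] [Field K] [Algebra F K] [CommRing R] [Algebra F R]
  [Algebra K R] [IsScalarTower F K R] {m : ℕ} (b : Module.Basis (Fin (m + 1)) F R)

lemma av_left {x : SLm m F} {c : R} (hx : x.1 = Algebra.leftMulMatrix b c) (y : R) :
    av b x y = c * y := by
  rw [av, hx, Algebra.leftMulMatrix_apply, Matrix.toLin_toMatrix]
  rfl

variable {r : ℕ} [hr : Fact r.Prime] [CharP F r]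

/-- the group of transvections with centre `1` -/
noncomputable def TVG (r : ℕ) [Fact r.Prime] [CharP F r] (K : Type*) [Field K] [Algebra F K]
    [Algebra K R] [IsScalarTower F K R] : Subgroup (PL m F) where
  carrier := {g | ∃ (φ : R →ₗ[K] K) (h : φ 1 = 0), g = pr m F (tv b r h)}
  one_mem' := ⟨0, rfl, by
    have h1 : tv b r (show (0 : R →ₗ[K] K) 1 = 0 from rfl) = 1 := by
      apply av_inj b
      intro v
      rw [av_tv, av_one, LinearMap.zero_apply, zero_smul, add_zero]
    rw [h1, map_one]⟩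
  mul_mem' := by
    rintro _ _ ⟨φ, h, rfl⟩ ⟨ψ, h', rfl⟩
    exact ⟨φ + ψ, by rw [LinearMap.add_apply, h, h', add_zero], by rw [← map_mul, tv_mul]⟩
  inv_mem' := by
    rintro _ ⟨φ, h, rfl⟩
    have h' : (-φ) 1 = 0 := by rw [LinearMap.neg_apply, h, neg_zero]
    refine ⟨-φ, h', ?_⟩
    rw [← map_inv]
    congr 1
    rw [inv_eq_iff_mul_eq_one, tv_mul]
    apply av_inj b
    intro v
    rw [av_tv, av_one, add_neg_cancel, LinearMap.zero_apply, zero_smul, add_zero]

lemma TVG_pgroup : IsPGroup r (TVG b r K : Subgroup (PL m F)) := by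
  rintro ⟨_, φ, h, rfl⟩
  refine ⟨1, Subtype.ext ?_⟩
  change (pr m F (tv b r h)) ^ r ^ 1 = 1
  rw [pow_one, ← map_pow]
  have h1 : ∀ (j : ℕ) (v : R), av b (tv b r h ^ j) v = v + (j • φ v) • 1 := by
    intro j
    induction j with
    | zero =>
      intro v
      rw [pow_zero, av_one, zero_smul, zero_smul, add_zero]
    | succ j ih =>
      intro v
      rw [pow_succ, av_mul, ih, av_tv, map_add, map_smul, h, smul_zero, add_zero, add_smul,
        one_smul, add_smul]
      abel
  have h2 : tv b r h ^ r = 1 := by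
    apply av_inj b
    intro v
    rw [h1, char_smul F, zero_smul, add_zero, av_one]
  rw [h2, map_one]

include b in
/-- **Mixed elements**: `PSL_n(F)` satisfies `EuFree p`. -/
theorem eu_mix [Finite K] {p : ℕ} [hp : Fact p.Prime] (hrp : r ≠ p)
    (hpt : ¬ p ∣ (Nat.card K - 1) / (Nat.card F - 1)) (hm : 3 ≤ Module.finrank F K)
    (hex : ¬ (Module.finrank F K = 3 ∧ Nat.card F = 4)) {k : ℕ} (ε : R →ₐ[K] K)
    (hε : ∀ x, ε x = 0 → x ^ k = 0) {ν : R} (hgen : ∀ x : R, x ∈ Algebra.adjoin K {ν})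
    (hν : ν ^ k = 0) (hφ : ∃ φ : R →ₗ[K] K, φ ≠ 0 ∧ φ 1 = 0) (hm2 : 2 ≤ m)
    (hsimple : IsSimpleGroup (PL m F)) : EuFree p (PL m F) := by
  classical
  have hF := finite_F F K
  have hnt : Nontrivial R := ε.toRingHom.domain_nontrivial
  have hRr : CharP R r := charP_of_injective_algebraMap (algebraMap F R).injective r
  have hKr : CharP K r := charP_of_injective_algebraMap (algebraMap F K).injective r
  have := Fintype.ofFinite K
  obtain ⟨N, -, hN⟩ := FiniteField.card K r
  have hcard : Nat.card K = r ^ (N : ℕ) := by rw [Nat.card_eq_fintype_card, hN]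
  have hQk : Nat.card K ^ k = r ^ ((N : ℕ) * k) := by rw [hcard, pow_mul]
  have hkle : k ≤ r ^ ((N : ℕ) * k) := by
    have h1 : k ≤ (N : ℕ) * k := Nat.le_mul_of_pos_left _ N.pos
    exact h1.trans (Nat.lt_pow_self hr.out.one_lt).le
  have hKpow : ∀ y : K, y ^ (Nat.card K ^ k) = y := by
    intro y
    rw [Nat.card_eq_fintype_card, FiniteField.pow_card_pow]
  have hFpow : ∀ c : F, c ^ (Nat.card K ^ k) = c := by
    intro c
    apply (algebraMap F K).injective
    rw [map_pow, hKpow]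
  have hQ : r ^ 2 < Nat.card K := by
    have h2 : r ≤ Nat.card F := char_le_card F r
    have h1 := hr.out.one_lt
    calc r ^ 2 < r ^ 3 := Nat.pow_lt_pow_right hr.out.one_lt (by norm_num)
      _ ≤ Nat.card F ^ 3 := Nat.pow_le_pow_left h2 3
      _ ≤ Nat.card F ^ Module.finrank F K := Nat.pow_le_pow_right (by omega) hm
      _ = Nat.card K := (card_KF F K).symm
  obtain ⟨ζ, hζ0, hζ⟩ := exists_zeta K
  set w := ζ ^ (Nat.card F - 1) with hw
  have hnorm : Algebra.norm F w = 1 := by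
    apply (algebraMap F K).injective
    rw [FiniteField.algebraMap_norm_eq_pow, hw, ← pow_mul, mul_comm, t_mul F K, ← hζ,
      pow_orderOf_eq_one, map_one]
  have hdet₀ : (jR b w).det = 1 := by
    rw [jR_apply, ← Algebra.norm_eq_matrix_det b, ← Algebra.norm_norm (S := K),
      Algebra.norm_algebraMap, map_pow, hnorm, one_pow]
  have hvpow : (Algebra.leftMulMatrix b (1 + ν)) ^ (Nat.card K ^ k) = 1 := by
    rw [← map_pow, hQk, add_pow_q _ hν hkle, one_pow, map_one]
  have hdetv : (Algebra.leftMulMatrix b (1 + ν)).det = 1 := by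
    rw [← hFpow (Algebra.leftMulMatrix b (1 + ν)).det, ← Matrix.det_pow, hvpow, Matrix.det_one]
  let s₀ : SLm m F := ⟨jR b w, hdet₀⟩
  let v₀ : SLm m F := ⟨Algebra.leftMulMatrix b (1 + ν), hdetv⟩
  have hs₀ : s₀.1 = jR b w := rfl
  have hv₀ : v₀.1 = Algebra.leftMulMatrix b (1 + ν) := rfl
  have hcomm : Commute s₀ v₀ := by
    apply Subtype.ext
    change s₀.1 * v₀.1 = v₀.1 * s₀.1
    rw [hs₀, hv₀, jR_apply, ← map_mul, ← map_mul, mul_comm]
  have hs₀Q : s₀ ^ (Nat.card K ^ k) = s₀ := by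
    apply Subtype.ext
    rw [val_pow, hs₀, ← map_pow, hKpow]
  have hv₀Q : v₀ ^ (Nat.card K ^ k) = 1 := by
    apply Subtype.ext
    rw [val_pow, hv₀, hvpow]
    rfl
  have hsQ : (s₀ * v₀) ^ (Nat.card K ^ k) = s₀ := by
    rw [hcomm.mul_pow, hs₀Q, hv₀Q, mul_one]
  have hcoppt : p.Coprime ((Nat.card K - 1) / (Nat.card F - 1)) :=
    (hp.out.coprime_iff_not_dvd).2 hpt
  refine ⟨pr m F (s₀ * v₀), ?_, fun f hfp hfo hfs => hfo ?_⟩
  swap
  · rw [mix_cent b hp.out hrp hcoppt hm hex hζ ε hε hgen hν hs₀ hv₀ hm2 hsimple hfs hfp]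
    exact one_mem _
  rw [eulerFix_eq]
  set X : Set (Subgroup (PL m F)) := {E | E ∈ Ain p (⊤ : Subgroup (PL m F)) ∧
    pr m F s₀ ∈ normalizer (E : Set (PL m F))} with hX
  have hstab : ∀ u : PL m F, u * pr m F s₀ = pr m F s₀ * u → ∀ E ∈ X, cj u E ∈ X := by
    rintro u hu E ⟨⟨h1, -⟩, h2⟩
    refine ⟨⟨cj_mem_ApS.2 h1, le_top⟩, ?_⟩
    rw [H148.mem_normalizer_cj]
    have e : u⁻¹ * pr m F s₀ * u = pr m F s₀ := by
      rw [mul_assoc, ← hu]
      group
    rwa [e]
  have h1 : (r : ℤ) ∣ eu X - 1 := by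
    have h2 := eu_mod (r := r) (S := X) (TVG b r K) (TVG_pgroup b) (by
      rintro _ ⟨φ, h, rfl⟩
      apply hstab
      rw [← map_mul, ← map_mul]
      congr 1
      apply av_inj b
      intro y
      have hsy : ∀ y : R, av b s₀ y = w • y := by
        intro y
        rw [av_left b (x := s₀) (c := algebraMap K R w) rfl, Algebra.smul_def]
      rw [av_mul, av_mul, av_tv, av_tv, hsy, hsy, map_smul, smul_add, smul_eq_mul, mul_smul])
    have h3 : {E | E ∈ X ∧ (TVG b r K : Subgroup (PL m F)) ≤ normalizer (E : Set (PL m F))} = ∅ := by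
      ext E
      simp only [Set.mem_ofPred_eq, Set.mem_empty_iff_false, iff_false]
      rintro ⟨⟨⟨h4, -⟩, -⟩, h5⟩
      exact tv_free b hrp hQ hpt one_ne_zero hφ h4 fun φ h => h5 ⟨φ, h, rfl⟩
    rwa [h3, eu_empty] at h2
  have h2 : (r : ℤ) ∣ eu X - lam p (⊤ : Subgroup (PL m F)) (pr m F (s₀ * v₀)) := by
    have h3 := eu_mod (r := r) (S := X) (zpowers (pr m F v₀)) (by
      rintro ⟨_, i, rfl⟩
      refine ⟨(N : ℕ) * k, Subtype.ext ?_⟩
      change (pr m F v₀ ^ i) ^ r ^ ((N : ℕ) * k) = 1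
      rw [← hQk, ← zpow_natCast, zpow_comm, zpow_natCast, ← map_pow, hv₀Q, map_one, one_zpow]) (by
      rintro _ ⟨i, rfl⟩
      apply hstab
      have h4 : Commute (pr m F v₀) (pr m F s₀) := by
        change _ * _ = _ * _
        rw [← map_mul, ← map_mul, hcomm.eq]
      exact h4.zpow_left i)
    have h4 : {E | E ∈ X ∧ zpowers (pr m F v₀) ≤ normalizer (E : Set (PL m F))} =
        {E | E ∈ Ain p (⊤ : Subgroup (PL m F)) ∧
          pr m F (s₀ * v₀) ∈ normalizer (E : Set (PL m F))} := by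
      ext E
      constructor
      · rintro ⟨⟨h5, h6⟩, h7⟩
        refine ⟨h5, ?_⟩
        rw [map_mul]
        exact mul_mem h6 (h7 (mem_zpowers _))
      · rintro ⟨h5, h6⟩
        have h7 : pr m F s₀ ∈ normalizer (E : Set (PL m F)) := by
          rw [← hsQ, map_pow]
          exact pow_mem h6 _
        refine ⟨⟨h5, h7⟩, ?_⟩
        rw [zpowers_le]
        have h8 : pr m F v₀ = (pr m F s₀)⁻¹ * pr m F (s₀ * v₀) := by
          rw [map_mul]
          group
        rw [h8]
        exact mul_mem (inv_mem h7) h6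
    rwa [h4] at h3
  intro h3
  rw [h3, sub_zero] at h2
  have h4 : (r : ℤ) ∣ 1 := by
    have := dvd_sub h2 h1
    simpa using this
  exact hr.out.one_lt.ne' (by exact_mod_cast Int.eq_one_of_dvd_one (by positivity) h4)

end

end Vale.Agent.P240.H195
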