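import Vale.Agent.P240.H195.Alt

/-!
The outer automorphisms of order two of the alternating group of degree six: the action on the
Sylow 3-subgroups.
-/

namespace Vale.Agent.P240.H195

open Equiv Equiv.Perm Subgroup Vale.Agent.P240.K
open scoped Pointwise

section

/-- the sign of an involution -/
lemma sign_invol {X : Type*} [Fintype X] [DecidableEq X] {π : Perm X} (h : π * π = 1) :
    sign π = (-1) ^ ((Fintype.card X - Fintype.card (Function.fixedPoints π)) / 2) := by
  have h1 : π.cycleType = Multiset.replicate (Multiset.card π.cycleType) 2 := by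
    rw [Multiset.eq_replicate]
    refine ⟨rfl, fun n hn => ?_⟩
    have h2 : n ∣ orderOf π := dvd_of_mem_cycleType hn
    have h3 : orderOf π ∣ 2 := orderOf_dvd_of_pow_eq_one (by rw [pow_two, h])
    have h4 := two_le_of_mem_cycleType hn
    exact le_antisymm (Nat.le_of_dvd two_pos (h2.trans h3)) h4
  rw [sign_of_cycleType_eq_replicate two_pos h1, if_neg (by decide)]

/-- an automorphism of `A_6` that is not induced by a permutation exchanges the two classes of
elements of order `3` -/
lemma exotic_swap {φ : MulAut (alternatingGroup (Fin 6))} (h : ¬ ∃ σ, φ = kap (Fin 6) σ) :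
    (∀ g : alternatingGroup (Fin 6), (g : Perm (Fin 6)).cycleType = {3} →
      (φ g : Perm (Fin 6)).cycleType = {3, 3}) ∧
    ∀ g : alternatingGroup (Fin 6), (g : Perm (Fin 6)).cycleType = {3, 3} →
      (φ g : Perm (Fin 6)).cycleType = {3} := by
  have h6 : Fintype.card (Fin 6) = 6 := Fintype.card_fin 6
  have hex : ∀ g : alternatingGroup (Fin 6), IsThreeCycle (g : Perm (Fin 6)) →
      ¬ IsThreeCycle (φ g : Perm (Fin 6)) := by
    intro g h1 h2
    exact h (exists_perm' (by omega) φ g h1 h2)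
  have hord : ∀ (g : alternatingGroup (Fin 6)),
      orderOf (φ g : Perm (Fin 6)) = orderOf (g : Perm (Fin 6)) := fun g => by
    rw [orderOf_coe, MulEquiv.orderOf_eq, ← orderOf_coe]
  have hord2 : ∀ g : Perm (Fin 6), g.cycleType = {3, 3} → orderOf g = 3 := by
    intro g hg
    rw [← lcm_cycleType, hg]
    rfl
  set S1 : Finset (alternatingGroup (Fin 6)) := {g | (g : Perm (Fin 6)).cycleType = {3}} with hS1
  set S2 : Finset (alternatingGroup (Fin 6)) :=
    {g | (g : Perm (Fin 6)).cycleType = {3, 3}} with hS2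
  have hm1 : ∀ g, g ∈ S1 ↔ (g : Perm (Fin 6)).cycleType = {3} := fun g => by simp [hS1]
  have hm2 : ∀ g, g ∈ S2 ↔ (g : Perm (Fin 6)).cycleType = {3, 3} := fun g => by simp [hS2]
  have hc1 : S1.card = 40 := by
    rw [hS1, AlternatingGroup.card_of_cycleType, h6]
    decide
  have hc2 : S2.card = 40 := by
    rw [hS2, AlternatingGroup.card_of_cycleType, h6]
    decide
  have h1 : ∀ g : alternatingGroup (Fin 6), (g : Perm (Fin 6)).cycleType = {3} →
      (φ g : Perm (Fin 6)).cycleType = {3, 3} := by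
    intro g hg
    refine (type_of_six h6 ?_).resolve_left (hex g hg)
    rw [hord]
    exact IsThreeCycle.orderOf hg
  refine ⟨h1, fun g hg => ?_⟩
  have hsub : S1.image φ ⊆ S2 := by
    intro x hx
    obtain ⟨g, hg, rfl⟩ := Finset.mem_image.1 hx
    exact (hm2 _).2 (h1 g ((hm1 g).1 hg))
  have himg : S1.image φ = S2 := by
    refine Finset.eq_of_subset_of_card_le hsub ?_
    rw [Finset.card_image_of_injective _ φ.injective, hc1, hc2]
  refine (type_of_six h6 (by rw [hord]; exact hord2 _ hg)).resolve_right fun h2 => ?_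
  rw [← hm2, ← himg] at h2
  obtain ⟨g', hg', h4⟩ := Finset.mem_image.1 h2
  rw [φ.injective h4, hm1] at hg'
  rw [hg'] at hg
  exact absurd hg (by decide)

/-- the product of two such automorphisms is induced by a permutation -/
lemma exotic_mul {φ ψ : MulAut (alternatingGroup (Fin 6))} (h1 : ¬ ∃ σ, φ = kap (Fin 6) σ)
    (h2 : ¬ ∃ σ, ψ = kap (Fin 6) σ) : ∃ σ, φ * ψ = kap (Fin 6) σ := by
  have h3 : IsThreeCycle (T (0 : Fin 6) 1 2) := T_three (by decide) (by decide) (by decide)
  have h4 := (exotic_swap h2).1 ⟨T 0 1 2, h3.mem_alternatingGroup⟩ h3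
  have h5 := (exotic_swap h1).2 _ h4
  exact exists_perm' (by rw [Fintype.card_fin]; norm_num) (φ * ψ) ⟨T 0 1 2, h3.mem_alternatingGroup⟩ h3 h5

lemma card_six : Nat.card (alternatingGroup (Fin 6)) = 360 := by
  have h1 := two_mul_nat_card_alternatingGroup (α := Fin 6)
  rw [Nat.card_perm, Nat.card_eq_fintype_card (α := Fin 6), Fintype.card_fin] at h1
  have h2 : Nat.factorial 6 = 720 := rfl
  omega

lemma card_syl [Fact (Nat.Prime 3)] (P : Sylow 3 (alternatingGroup (Fin 6))) :
    Nat.card P = 9 := by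
  obtain ⟨k, hk⟩ := IsPGroup.iff_card.1 P.isPGroup'
  have h1 := P.not_dvd_index
  have h2 := (P : Subgroup (alternatingGroup (Fin 6))).card_mul_index
  rw [card_six, hk] at h2
  rw [hk]
  set i := (P : Subgroup (alternatingGroup (Fin 6))).index
  have hk3 : k ≤ 5 := by
    by_contra hcon
    push Not at hcon
    have h3 : 3 ^ 6 ≤ 3 ^ k := Nat.pow_le_pow_right (by norm_num) hcon
    have h4 : i ≠ 0 := by
      rintro h0
      rw [h0] at h2
      omega
    nlinarith [Nat.pos_of_ne_zero h4]
  interval_cases k <;> omega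

lemma smul_mem_syl {P : Sylow 3 (alternatingGroup (Fin 6))} {φ : MulAut (alternatingGroup (Fin 6))}
    (h : φ • P = P) {x : alternatingGroup (Fin 6)} (hx : x ∈ P) : φ x ∈ P := by
  have h1 : φ • x ∈ φ • (P : Subgroup (alternatingGroup (Fin 6))) :=
    Subgroup.smul_mem_pointwise_smul _ _ _ hx
  have h2 : φ • (P : Subgroup (alternatingGroup (Fin 6))) = (P : Subgroup _) := by
    have h3 := congrArg (fun Q : Sylow 3 (alternatingGroup (Fin 6)) =>
      (Q : Subgroup (alternatingGroup (Fin 6)))) h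
    exact h3
  rw [h2] at h1
  exact h1

/-- an exotic involution fixes no Sylow 3-subgroup -/
lemma exotic_free {φ : MulAut (alternatingGroup (Fin 6))} (h : ¬ ∃ σ, φ = kap (Fin 6) σ)
    (h2 : φ * φ = 1) [hp3 : Fact (Nat.Prime 3)] (P : Sylow 3 (alternatingGroup (Fin 6))) :
    φ • P ≠ P := by
  intro hP
  have h6 : Fintype.card (Fin 6) = 6 := Fintype.card_fin 6
  have h9 := card_syl P
  have hnt : Nontrivial P := by
    rw [← Finite.one_lt_card_iff_nontrivial, h9]
    norm_num
  have hcn := IsPGroup.center_nontrivial P.isPGroup'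
  have hdvd : 3 ∣ Nat.card (Subgroup.center P) := by
    obtain ⟨k, hk⟩ := IsPGroup.iff_card.1 (P.isPGroup'.to_subgroup (Subgroup.center P))
    have h1 : 1 < Nat.card (Subgroup.center P) := Finite.one_lt_card
    rw [hk] at h1 ⊢
    refine dvd_pow_self 3 ?_
    rintro rfl
    norm_num at h1
  obtain ⟨z, hz⟩ := exists_prime_orderOf_dvd_card' (G := Subgroup.center P) 3 hdvd
  set x : alternatingGroup (Fin 6) := ((z : P) : alternatingGroup (Fin 6)) with hx
  have hxo : orderOf x = 3 := by
    rw [hx, orderOf_coe, orderOf_coe, hz]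
  have hxP : x ∈ P := (z : P).2
  have hφx := smul_mem_syl hP hxP
  have hcomm : φ x * x = x * φ x := by
    have h1 := Subgroup.mem_center_iff.1 z.2 ⟨φ x, hφx⟩
    exact congrArg Subtype.val h1
  have hx3 : x ^ 3 = 1 := by rw [← hxo]; exact pow_orderOf_eq_one x
  have hord : ∀ g : alternatingGroup (Fin 6), g ≠ 1 → g ^ 3 = 1 → orderOf (g : Perm (Fin 6)) = 3 := by
    intro g h1 h3
    rw [orderOf_coe]
    exact orderOf_eq_prime h3 h1
  have key : ∀ g : alternatingGroup (Fin 6), g ≠ 1 → g ^ 3 = 1 →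
      (φ g : Perm (Fin 6)).cycleType ≠ (g : Perm (Fin 6)).cycleType := by
    intro g h1 h3 h4
    rcases type_of_six h6 (hord g h1 h3) with h5 | h5
    · have h7 := (exotic_swap h).1 g h5
      rw [h4, h5] at h7
      exact absurd h7 (by decide)
    · have h7 := (exotic_swap h).2 g h5
      rw [h4, h5] at h7
      exact absurd h7 (by decide)
  have hx1 : x ≠ 1 := by
    intro h1
    rw [h1, orderOf_one] at hxo
    norm_num at hxo
  by_cases hy : x * φ x = 1
  · refine key x hx1 hx3 ?_
    have h1 : φ x = x⁻¹ := (inv_eq_of_mul_eq_one_right hy).symm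
    rw [h1]
    exact cycleType_inv _
  · have hφφ : φ (φ x) = x := by
      have := congrArg (fun ψ : MulAut (alternatingGroup (Fin 6)) => ψ x) h2
      exact this
    refine key _ hy ?_ ?_
    · rw [(show Commute x (φ x) from hcomm.symm).mul_pow, ← map_pow, hx3, map_one, mul_one]
    · rw [map_mul, hφφ, hcomm]

lemma exists_even (x y : Fin 6) : ∃ σ : alternatingGroup (Fin 6), (σ : Perm (Fin 6)) x = y := by
  by_cases hxy : x = y
  · exact ⟨1, hxy⟩
  · obtain ⟨z, hz⟩ : ∃ z, z ∉ ({x, y} : Finset (Fin 6)) := by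
      by_contra hcon
      push Not at hcon
      have h1 := Finset.card_le_card (fun y _ => hcon y : (Finset.univ : Finset (Fin 6)) ⊆ {x, y})
      have h2 := Finset.card_le_two (a := x) (b := y)
      rw [Finset.card_univ, Fintype.card_fin] at h1
      omega
    simp only [Finset.mem_insert, Finset.mem_singleton, not_or] at hz
    exact ⟨⟨T x y z, (T_three hxy (Ne.symm hz.2) (Ne.symm hz.1)).mem_alternatingGroup⟩,
      T1 hxy (Ne.symm hz.2)⟩

/-- the orbits of a Sylow 3-subgroup have 3 elements -/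
lemma orbit_three [hp3 : Fact (Nat.Prime 3)] (P : Sylow 3 (alternatingGroup (Fin 6))) (x : Fin 6) :
    (MulAction.orbit (P : Subgroup (alternatingGroup (Fin 6))) x).ncard = 3 := by
  have h9 := card_syl P
  have h1 := MulAction.index_stabilizer (P : Subgroup (alternatingGroup (Fin 6))) x
  have h2 := (MulAction.stabilizer (P : Subgroup (alternatingGroup (Fin 6))) x).index_dvd_card
  rw [h1, h9] at h2
  have h3 : (MulAction.orbit (P : Subgroup (alternatingGroup (Fin 6))) x).ncard ≤ 6 := by
    have := Set.ncard_le_ncard (Set.subset_univ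
      (MulAction.orbit (P : Subgroup (alternatingGroup (Fin 6))) x)) (Set.toFinite _)
    rwa [Set.ncard_univ, Nat.card_eq_fintype_card, Fintype.card_fin] at this
  have h4 : (MulAction.orbit (P : Subgroup (alternatingGroup (Fin 6))) x).ncard ≠ 1 := by
    intro h4
    rw [Set.ncard_eq_one] at h4
    obtain ⟨a, ha⟩ := h4
    have hle : (P : Subgroup (alternatingGroup (Fin 6))) ≤
        MulAction.stabilizer (alternatingGroup (Fin 6)) x := by
      intro g hg
      rw [MulAction.mem_stabilizer_iff]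
      have h5 : g • x ∈ MulAction.orbit (P : Subgroup (alternatingGroup (Fin 6))) x :=
        ⟨⟨g, hg⟩, rfl⟩
      have h6 : x ∈ MulAction.orbit (P : Subgroup (alternatingGroup (Fin 6))) x :=
        MulAction.mem_orbit_self x
      rw [ha, Set.mem_singleton_iff] at h5 h6
      rw [h5, ← h6]
    have h5 := Subgroup.card_dvd_of_le hle
    have h6 := MulAction.index_stabilizer (alternatingGroup (Fin 6)) x
    have h7 : MulAction.orbit (alternatingGroup (Fin 6)) x = Set.univ := by
      rw [Set.eq_univ_iff_forall]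
      intro y
      obtain ⟨σ, hσ⟩ := exists_even x y
      exact ⟨σ, hσ⟩
    rw [h7, Set.ncard_univ, Nat.card_eq_fintype_card, Fintype.card_fin] at h6
    have h8 := (MulAction.stabilizer (alternatingGroup (Fin 6)) x).card_mul_index
    rw [h6, card_six] at h8
    rw [h9] at h5
    omega
  have h5 : (MulAction.orbit (P : Subgroup (alternatingGroup (Fin 6))) x).ncard ≠ 0 := by
    intro h0
    rw [h0] at h2
    omega
  set n := (MulAction.orbit (P : Subgroup (alternatingGroup (Fin 6))) x).ncard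
  interval_cases n <;> omega

lemma norm_orbit [hp3 : Fact (Nat.Prime 3)] {P : Sylow 3 (alternatingGroup (Fin 6))}
    {σ : Perm (Fin 6)} (h : kap (Fin 6) σ • P = P) {x y : Fin 6}
    (hy : y ∈ MulAction.orbit (P : Subgroup (alternatingGroup (Fin 6))) x) :
    σ y ∈ MulAction.orbit (P : Subgroup (alternatingGroup (Fin 6))) (σ x) := by
  obtain ⟨⟨g, hg⟩, rfl⟩ := hy
  refine ⟨⟨kap (Fin 6) σ g, smul_mem_syl h hg⟩, ?_⟩
  change ((kap (Fin 6) σ g : alternatingGroup (Fin 6)) : Perm (Fin 6)) (σ x) = σ ((g : Perm (Fin 6)) x)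
  rw [kap_apply]
  simp

lemma fix_free [hp3 : Fact (Nat.Prime 3)] {P : Sylow 3 (alternatingGroup (Fin 6))}
    {v : Perm (Fin 6)} (hv0 : v 0 = 0) (hv1 : v 1 = 1) (hv : ∀ x, x ≠ 0 → x ≠ 1 → v x ≠ x)
    (h1 : kap (Fin 6) (swap 0 1) • P = P) (h2 : kap (Fin 6) v • P = P) : False := by
  set O := MulAction.orbit (P : Subgroup (alternatingGroup (Fin 6))) (0 : Fin 6) with hO
  have hc : O.ncard = 3 := orbit_three P 0
  obtain ⟨x, hx, hx'⟩ : ∃ x ∈ O, x ∉ ({0, 1} : Finset (Fin 6)) := by
    by_contra hcon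
    push Not at hcon
    have h3 := Set.ncard_le_ncard (show O ⊆ (({0, 1} : Finset (Fin 6)) : Set (Fin 6)) from
      fun x hx => hcon x hx) (Finset.finite_toSet _)
    rw [Set.ncard_coe_finset, hc] at h3
    have h4 : ({0, 1} : Finset (Fin 6)).card = 2 := by decide
    omega
  simp only [Finset.mem_insert, Finset.mem_singleton, not_or] at hx'
  have hτx : swap (0 : Fin 6) 1 x = x := swap_apply_of_ne_of_ne hx'.1 hx'.2
  have h3 := norm_orbit h1 hx
  rw [hτx, swap_apply_left] at h3
  have h01 : (1 : Fin 6) ∈ O := by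
    rw [hO, ← MulAction.orbit_eq_iff.2 hx, MulAction.orbit_eq_iff.2 h3]
    exact MulAction.mem_orbit_self _
  have h4 := norm_orbit h2 hx
  rw [hv0] at h4
  have h00 : (0 : Fin 6) ∈ O := MulAction.mem_orbit_self _
  have hvx0 : v x ≠ 0 := fun h => hx'.1 (v.injective (h.trans hv0.symm))
  have hvx1 : v x ≠ 1 := fun h => hx'.2 (v.injective (h.trans hv1.symm))
  have h5 : (({0, 1, x, v x} : Finset (Fin 6)) : Set (Fin 6)) ⊆ O := by
    intro y hy
    rw [Finset.mem_coe] at hy
    simp only [Finset.mem_insert, Finset.mem_singleton] at hy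
    rcases hy with rfl | rfl | rfl | rfl
    · exact h00
    · exact h01
    · exact hx
    · exact h4
  have h6 := Set.ncard_le_ncard h5 (Set.toFinite _)
  rw [Set.ncard_coe_finset, hc] at h6
  have h7 : ({0, 1, x, v x} : Finset (Fin 6)).card = 4 := by
    rw [Finset.card_insert_of_notMem, Finset.card_insert_of_notMem, Finset.card_insert_of_notMem,
      Finset.card_singleton]
    · simpa using (hv x hx'.1 hx'.2).symm
    · simp only [Finset.mem_insert, Finset.mem_singleton, not_or]
      exact ⟨Ne.symm hx'.2, Ne.symm hvx1⟩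
    · simp only [Finset.mem_insert, Finset.mem_singleton, not_or]
      exact ⟨by decide, Ne.symm hx'.1, Ne.symm hvx0⟩
  omega

/-- the four-cycle `(2 3 4 5)` -/
def cyc4 : Perm (Fin 6) := swap 2 3 * swap 3 4 * swap 4 5

lemma cyc4_pow : cyc4 ^ 4 = 1 := by decide

lemma cyc4_pow_spec : ∀ k : Fin 4, k ≠ 0 → (cyc4 ^ (k : ℕ)) 0 = 0 ∧ (cyc4 ^ (k : ℕ)) 1 = 1 ∧
    ∀ x, x ≠ 0 → x ≠ 1 → (cyc4 ^ (k : ℕ)) x ≠ x := by decide

lemma cyc4_comm : cyc4 * swap 0 1 = swap 0 1 * cyc4 := by decide

lemma orderOf_cyc4 : orderOf cyc4 = 4 := by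
  have h1 : orderOf cyc4 ∣ 2 ^ 2 := orderOf_dvd_of_pow_eq_one cyc4_pow
  obtain ⟨k, hk, h2⟩ := (Nat.dvd_prime_pow Nat.prime_two).1 h1
  have h3 : cyc4 ^ 2 ≠ 1 := by decide
  have h4 : k ≠ 0 := by
    rintro rfl
    apply h3
    rw [pow_zero, orderOf_eq_one_iff] at h2
    rw [h2, one_pow]
  have h5 : k ≠ 1 := by
    rintro rfl
    apply h3
    rw [pow_one] at h2
    rw [← h2]
    exact pow_orderOf_eq_one _
  have h6 : k = 2 := by omega
  rw [h2, h6]
  norm_num

/-- the number of Sylow 3-subgroups normalized by a transposition is divisible by `4` -/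
lemma fix_mod [hp3 : Fact (Nat.Prime 3)] :
    4 ∣ Nat.card {P : Sylow 3 (alternatingGroup (Fin 6)) // kap (Fin 6) (swap 0 1) • P = P} := by
  classical
  set F := {P : Sylow 3 (alternatingGroup (Fin 6)) // kap (Fin 6) (swap 0 1) • P = P} with hF
  have hcomm : ∀ v ∈ zpowers cyc4, ∀ P : Sylow 3 (alternatingGroup (Fin 6)),
      kap (Fin 6) (swap 0 1) • P = P → kap (Fin 6) (swap 0 1) • kap (Fin 6) v • P = kap (Fin 6) v • P := by
    intro v hv P hP
    obtain ⟨i, rfl⟩ := hv
    have h1 : Commute (swap (0 : Fin 6) 1) (cyc4 ^ i) :=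
      (show Commute (swap (0 : Fin 6) 1) cyc4 from cyc4_comm.symm).zpow_right i
    change kap (Fin 6) (swap 0 1) • kap (Fin 6) (cyc4 ^ i) • P = kap (Fin 6) (cyc4 ^ i) • P
    rw [← mul_smul, ← map_mul, h1.eq, map_mul, mul_smul, hP]
  let _ : MulAction (zpowers cyc4) F :=
    { smul := fun v P => ⟨kap (Fin 6) v • (P : Sylow 3 (alternatingGroup (Fin 6))),
        hcomm v v.2 P P.2⟩
      one_smul := fun P => Subtype.ext (by
        change kap (Fin 6) ((1 : zpowers cyc4) : Perm (Fin 6)) • P.1 = P.1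
        rw [Subgroup.coe_one, map_one, one_smul])
      mul_smul := fun v w P => Subtype.ext (by
        change kap (Fin 6) ((v * w : zpowers cyc4) : Perm (Fin 6)) • P.1 =
          kap (Fin 6) v • kap (Fin 6) w • P.1
        rw [Subgroup.coe_mul, map_mul, mul_smul]) }
  have hstab : ∀ P : F, MulAction.stabilizer (zpowers cyc4) P = ⊥ := by
    intro P
    rw [eq_bot_iff]
    rintro ⟨v, hv⟩ hvP
    rw [Subgroup.mem_bot]
    by_contra hne
    have h1 : kap (Fin 6) v • (P : Sylow 3 (alternatingGroup (Fin 6))) = P :=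
      congrArg Subtype.val (MulAction.mem_stabilizer_iff.1 hvP)
    rw [mem_zpowers_iff_mem_range_orderOf, orderOf_cyc4, Finset.mem_image] at hv
    obtain ⟨k, hk, rfl⟩ := hv
    rw [Finset.mem_range] at hk
    have hk0 : k ≠ 0 := by
      rintro rfl
      exact hne (Subtype.ext (pow_zero _))
    obtain ⟨h2, h3, h4⟩ := cyc4_pow_spec ⟨k, hk⟩ fun h => hk0 (congrArg Fin.val h)
    exact fix_free h2 h3 h4 P.2 h1
  have hfinF : Finite F := inferInstance
  have h1 := Nat.card_congr (MulAction.selfEquivSigmaOrbitsQuotientStabilizer (zpowers cyc4) F)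
  rw [h1, Nat.card_sigma]
  refine Finset.dvd_sum fun ω _ => ?_
  rw [hstab]
  have h2 : Nat.card (zpowers cyc4 ⧸ (⊥ : Subgroup (zpowers cyc4))) = 4 := by
    rw [Nat.card_congr QuotientGroup.quotientBot.toEquiv, Nat.card_zpowers, orderOf_cyc4]
  rw [h2]

/-- the normalizer of a Sylow 3-subgroup has even order -/
lemma even_norm [hp3 : Fact (Nat.Prime 3)] : ∃ P : Sylow 3 (alternatingGroup (Fin 6)),
    2 ∣ Nat.card (normalizer (P : Set (alternatingGroup (Fin 6)))) := by
  have ha3 : IsThreeCycle (T (0 : Fin 6) 1 2) := T_three (by decide) (by decide) (by decide)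
  have hb3 : IsThreeCycle (T (3 : Fin 6) 4 5) := T_three (by decide) (by decide) (by decide)
  set a : alternatingGroup (Fin 6) := ⟨T 0 1 2, ha3.mem_alternatingGroup⟩ with ha
  set b : alternatingGroup (Fin 6) := ⟨T 3 4 5, hb3.mem_alternatingGroup⟩ with hb
  have ht1 : sign (swap (0 : Fin 6) 1 * swap 3 4) = 1 := by decide
  set t : alternatingGroup (Fin 6) := ⟨swap 0 1 * swap 3 4, mem_alternatingGroup.2 ht1⟩ with ht
  have hab : a * b = b * a :=
    Subtype.ext (show T (0 : Fin 6) 1 2 * T 3 4 5 = T 3 4 5 * T 0 1 2 by decide)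
  have hta : t * a * t⁻¹ = a⁻¹ :=
    Subtype.ext (show (swap (0 : Fin 6) 1 * swap 3 4) * T 0 1 2 * (swap 0 1 * swap 3 4)⁻¹ =
      (T 0 1 2)⁻¹ by decide)
  have htb : t * b * t⁻¹ = b⁻¹ :=
    Subtype.ext (show (swap (0 : Fin 6) 1 * swap 3 4) * T 3 4 5 * (swap 0 1 * swap 3 4)⁻¹ =
      (T 3 4 5)⁻¹ by decide)
  have ht2 : t * t = 1 :=
    Subtype.ext (show (swap (0 : Fin 6) 1 * swap 3 4) * (swap 0 1 * swap 3 4) = 1 by decide)
  have ha1 : a ^ 3 = 1 := Subtype.ext (show (T (0 : Fin 6) 1 2) ^ 3 = 1 by decide)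
  have hb1 : b ^ 3 = 1 := Subtype.ext (show (T (3 : Fin 6) 4 5) ^ 3 = 1 by decide)
  have hane : a ≠ 1 := fun h => absurd (show T (0 : Fin 6) 1 2 = 1 from congrArg Subtype.val h)
    (by decide)
  have htne : t ≠ 1 := fun h => absurd (show swap (0 : Fin 6) 1 * swap 3 4 = 1 from
    congrArg Subtype.val h) (by decide)
  have hao : orderOf a = 3 := orderOf_eq_prime ha1 hane
  have hbna : b ∉ zpowers a := by
    intro h
    rw [mem_zpowers_iff_mem_range_orderOf, hao, Finset.mem_image] at h
    obtain ⟨k, hk, h1⟩ := h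
    rw [Finset.mem_range] at hk
    have h2 : (T (0 : Fin 6) 1 2) ^ k = T 3 4 5 := congrArg Subtype.val h1
    clear h1
    interval_cases k
    · exact absurd h2 (by decide)
    · exact absurd h2 (by decide)
    · exact absurd h2 (by decide)
  have hpa : IsPGroup 3 (zpowers a) := by
    rw [IsPGroup.iff_card]
    exact ⟨1, by rw [Nat.card_zpowers, hao, pow_one]⟩
  have hpb : IsPGroup 3 (zpowers b) := by
    intro x
    obtain ⟨x, ⟨i, rfl⟩⟩ := x
    refine ⟨1, Subtype.ext ?_⟩
    change (b ^ i) ^ (3 ^ 1) = 1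
    rw [pow_one, ← zpow_natCast, ← zpow_mul, mul_comm, zpow_mul, zpow_natCast, hb1, one_zpow]
  have hnorm : zpowers b ≤ normalizer (zpowers a : Set (alternatingGroup (Fin 6))) := by
    rw [zpowers_le]
    refine centralizer_le_normalizer _ ?_
    rw [mem_centralizer_iff]
    rintro _ ⟨i, rfl⟩
    exact (Commute.zpow_left (show Commute a b from hab) i).eq
  have hQ : IsPGroup 3 (zpowers b ⊔ zpowers a : Subgroup (alternatingGroup (Fin 6))) :=
    hpb.to_sup_of_normal_right' hpa hnorm
  obtain ⟨P, hP⟩ := hQ.exists_le_sylow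
  refine ⟨P, ?_⟩
  have hcard : Nat.card (zpowers b ⊔ zpowers a : Subgroup (alternatingGroup (Fin 6))) = 9 := by
    have h1 := Subgroup.card_dvd_of_le hP
    have h9 : Nat.card (P : Subgroup (alternatingGroup (Fin 6))) = 9 := card_syl P
    rw [h9] at h1
    have h2 : zpowers a < zpowers b ⊔ zpowers a := by
      refine lt_of_le_of_ne le_sup_right fun h => hbna ?_
      rw [h]
      exact (le_sup_left : zpowers b ≤ _) (mem_zpowers b)
    have h3 : Nat.card (zpowers a) < Nat.card (zpowers b ⊔ zpowers a : Subgroup _) := by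
      refine lt_of_le_of_ne (Nat.card_mono (Set.toFinite _) h2.le) fun h => h2.ne ?_
      exact Subgroup.eq_of_le_of_card_ge h2.le h.ge
    rw [Nat.card_zpowers, hao] at h3
    have h4 : (9 : ℕ) = 3 ^ 2 := by norm_num
    rw [h4, Nat.dvd_prime_pow Nat.prime_three] at h1
    obtain ⟨k, hk, h1⟩ := h1
    interval_cases k <;> omega
  have hPQ : (P : Subgroup (alternatingGroup (Fin 6))) = zpowers b ⊔ zpowers a := by
    refine (Subgroup.eq_of_le_of_card_ge hP ?_).symm
    rw [hcard]
    exact (card_syl P).le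
  have htN : t ∈ normalizer (P : Set (alternatingGroup (Fin 6))) := by
    have h1 : ∀ x ∈ (P : Subgroup (alternatingGroup (Fin 6))),
        t * x * t⁻¹ ∈ (P : Subgroup (alternatingGroup (Fin 6))) := by
      rw [hPQ]
      have h2 : zpowers b ⊔ zpowers a ≤
          (zpowers b ⊔ zpowers a).comap (MulAut.conj t).toMonoidHom := by
        refine sup_le ?_ ?_
        · rw [zpowers_le]
          change t * b * t⁻¹ ∈ zpowers b ⊔ zpowers a
          rw [htb]
          exact inv_mem ((le_sup_left : zpowers b ≤ _) (mem_zpowers b))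
        · rw [zpowers_le]
          change t * a * t⁻¹ ∈ zpowers b ⊔ zpowers a
          rw [hta]
          exact inv_mem ((le_sup_right : zpowers a ≤ _) (mem_zpowers a))
      exact fun x hx => h2 hx
    change t ∈ normalizer ((P : Subgroup (alternatingGroup (Fin 6))) :
      Set (alternatingGroup (Fin 6)))
    rw [mem_normalizer_iff]
    intro x
    refine ⟨h1 x, fun hx => ?_⟩
    have h3 := h1 _ hx
    have e : t * (t * x * t⁻¹) * t⁻¹ = t * t * x * (t * t)⁻¹ := by group
    rw [e, ht2, one_mul, inv_one, mul_one] at h3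
    exact h3
  have h1 : orderOf t = 2 := orderOf_eq_prime (by rw [pow_two, ht2]) htne
  rw [← h1]
  have h2 := orderOf_dvd_natCard (⟨t, htN⟩ : normalizer (P : Set (alternatingGroup (Fin 6))))
  rwa [orderOf_mk] at h2

/-- the number of Sylow 3-subgroups -/
lemma syl_mod [hp3 : Fact (Nat.Prime 3)] {f : MulAut (alternatingGroup (Fin 6))}
    (h : ¬ ∃ σ, f = kap (Fin 6) σ) (h2 : f * f = 1) :
    Nat.card (Sylow 3 (alternatingGroup (Fin 6))) % 4 = 2 := by
  have hsimple : IsSimpleGroup (alternatingGroup (Fin 6)) := alternatingGroup.isSimpleGroup (by simp)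
  obtain ⟨P, hP2⟩ := even_norm
  set n := Nat.card (Sylow 3 (alternatingGroup (Fin 6))) with hn
  have h1 : n ≡ 1 [MOD 3] := card_sylow_modEq_one 3 _
  have h3 : n * Nat.card (normalizer (P : Set (alternatingGroup (Fin 6)))) = 360 := by
    rw [hn, Sylow.card_eq_index_normalizer P, mul_comm, ← card_six]
    exact Subgroup.card_mul_index _
  have h4 : n ∣ 40 := by
    have h5 := P.card_dvd_index
    have h6 := (P : Subgroup (alternatingGroup (Fin 6))).card_mul_index
    have h9 : Nat.card (P : Subgroup (alternatingGroup (Fin 6))) = 9 := card_syl P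
    rw [card_six, h9] at h6
    have h7 : (P : Subgroup (alternatingGroup (Fin 6))).index = 40 := by omega
    rwa [h7] at h5
  have hn1 : n ≠ 1 := by
    intro hn1
    have : Subsingleton (Sylow 3 (alternatingGroup (Fin 6))) := by
      rw [← Finite.card_le_one_iff_subsingleton, ← hn, hn1]
    exact exotic_free h h2 P (Subsingleton.elim _ _)
  have hn4 : n ≠ 4 := by
    intro hn4
    set θ := MulAction.toPermHom (alternatingGroup (Fin 6)) (Sylow 3 (alternatingGroup (Fin 6)))
    rcases hsimple.eq_bot_or_eq_top_of_normal θ.ker inferInstance with h5 | h5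
    · have h6 := Subgroup.card_dvd_of_injective θ ((MonoidHom.ker_eq_bot_iff θ).1 h5)
      rw [card_six, Nat.card_perm, ← hn, hn4] at h6
      exact absurd h6 (by decide)
    · have : Subsingleton (Sylow 3 (alternatingGroup (Fin 6))) := by
        refine ⟨fun A B => ?_⟩
        obtain ⟨g, hg⟩ := MulAction.exists_smul_eq (alternatingGroup (Fin 6)) A B
        have h6 : θ g = 1 := by
          rw [← MonoidHom.mem_ker, h5]
          exact mem_top g
        have h7 := congrArg (fun π : Perm (Sylow 3 (alternatingGroup (Fin 6))) => π A) h6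
        rw [← hg]
        exact h7.symm
      exact exotic_free h h2 P (Subsingleton.elim _ _)
  have hn40 : n ≠ 40 := by
    intro hn40
    rw [hn40] at h3
    omega
  have hle : n ≤ 40 := Nat.le_of_dvd (by norm_num) h4
  have h5 : n % 3 = 1 := h1
  clear_value n
  obtain ⟨m, hm⟩ := h4
  interval_cases n <;> omega

/-- the product of two exotic involutions is inner -/
lemma exotic_inner {f g : MulAut (alternatingGroup (Fin 6))} (hf : ¬ ∃ σ, f = kap (Fin 6) σ)
    (hg : ¬ ∃ σ, g = kap (Fin 6) σ) (hf2 : f * f = 1) (hg2 : g * g = 1) :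
    ∃ a : alternatingGroup (Fin 6), f * g = MulAut.conj a := by
  classical
  have hp3 : Fact (Nat.Prime 3) := ⟨Nat.prime_three⟩
  obtain ⟨τ, hτ⟩ := exotic_mul hf hg
  rcases Int.units_eq_one_or (sign τ) with h | h
  · exact ⟨⟨τ, mem_alternatingGroup.2 h⟩, hτ.trans (kap_coe ⟨τ, mem_alternatingGroup.2 h⟩)⟩
  exfalso
  have hsimple : IsSimpleGroup (alternatingGroup (Fin 6)) := alternatingGroup.isSimpleGroup (by simp)
  set X := Sylow 3 (alternatingGroup (Fin 6)) with hX
  let _ : Fintype X := Fintype.ofFinite X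
  set ρ : MulAut (alternatingGroup (Fin 6)) →* Perm X := MulAction.toPermHom _ X with hρ
  have hcard : Fintype.card X % 4 = 2 := by
    rw [← Nat.card_eq_fintype_card]
    exact syl_mod hf hf2
  have hinv : ∀ φ : MulAut (alternatingGroup (Fin 6)), φ * φ = 1 → ρ φ * ρ φ = 1 := by
    intro φ hφ
    rw [← map_mul, hφ, map_one]
  have hfree : ∀ φ : MulAut (alternatingGroup (Fin 6)), (¬ ∃ σ, φ = kap (Fin 6) σ) → φ * φ = 1 →
      sign (ρ φ) = (-1) ^ (Fintype.card X / 2) := by
    intro φ h1 h2
    rw [sign_invol (hinv φ h2)]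
    have h3 : Fintype.card (Function.fixedPoints (ρ φ)) = 0 := by
      rw [Fintype.card_eq_zero_iff]
      refine ⟨fun P => exotic_free h1 h2 P.1 ?_⟩
      exact P.2
    rw [h3, Nat.sub_zero]
  have h1 : sign (ρ (f * g)) = 1 := by
    rw [map_mul, map_mul, hfree f hf hf2, hfree g hg hg2, ← mul_pow]
    simp
  have h2 : sign (ρ (kap (Fin 6) (swap 0 1))) = -1 := by
    rw [sign_invol (hinv _ (by rw [← map_mul, swap_mul_self, map_one]))]
    have h3 : 4 ∣ Fintype.card (Function.fixedPoints (ρ (kap (Fin 6) (swap 0 1)))) := by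
      rw [← Nat.card_eq_fintype_card]
      exact fix_mod
    have h4 : Fintype.card (Function.fixedPoints (ρ (kap (Fin 6) (swap 0 1)))) ≤ Fintype.card X :=
      Fintype.card_subtype_le _
    obtain ⟨m, hm⟩ := h3
    have h5 : Odd ((Fintype.card X -
        Fintype.card (Function.fixedPoints (ρ (kap (Fin 6) (swap 0 1))))) / 2) := by
      rw [Nat.odd_iff]
      omega
    exact h5.neg_one_pow
  have h3 : ∀ a : alternatingGroup (Fin 6), sign (ρ (MulAut.conj a)) = 1 := by
    intro a
    set θ : alternatingGroup (Fin 6) →* ℤˣ := (sign.comp ρ).comp MulAut.conj with hθ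
    rcases hsimple.eq_bot_or_eq_top_of_normal θ.ker inferInstance with h5 | h5
    · have h6 := Subgroup.card_dvd_of_injective θ ((MonoidHom.ker_eq_bot_iff θ).1 h5)
      rw [card_six, Nat.card_eq_fintype_card] at h6
      exact absurd h6 (by decide)
    · have h6 : a ∈ θ.ker := by
        rw [h5]
        exact mem_top a
      exact h6
  have h4 : sign (swap (0 : Fin 6) 1 * τ) = 1 := by
    rw [map_mul, h, sign_swap (by decide)]
    rfl
  have h5 : kap (Fin 6) τ = kap (Fin 6) (swap 0 1) *
      MulAut.conj (⟨swap 0 1 * τ, mem_alternatingGroup.2 h4⟩ : alternatingGroup (Fin 6)) := by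
    rw [← kap_coe, ← map_mul]
    congr 1
    rw [← mul_assoc, swap_mul_self, one_mul]
  rw [hτ, h5, map_mul, map_mul, h2, h3] at h1
  exact absurd h1 (by decide)

end

end Vale.Agent.P240.H195
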