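import Vale.Agent.P240.H195.THom
import Vale.Agent.P240.H195.BNCent

/-!
The poset of proper parabolic subgroups stabilized by `F`, without the chambers opposite `B`, is
acyclic.
-/

namespace Vale.Agent.P240.H195

open Subgroup Vale.Agent.P240.K

universe u v

section
variable {𝕜 : Type v} [Field 𝕜] {L : Type u} [Group L] {B N U : Subgroup L} {S : Set L} {r : ℕ}

namespace SB

variable (h : SB r B N U S)
include h

/-- the poset above a chamber that is neither `B` nor opposite to `B` -/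
lemma Z_ac [Finite L] (hr : r.Prime) {F : Set (MulAut L)} (hF : ∀ f ∈ F, am f B = B) {g : L}
    (hg : Inv F (cj g B)) (hne : cj g B ≠ B) (hno : ¬ Opp B S (cj g B)) :
    ¬ NA 𝕜 {Q | (cj g B ≤ Q ∧ Q ≠ ⊤ ∧ Inv F Q) ∧ ¬ B ⊓ Q ≤ cj g B} := by
  set Z : Set (Subgroup L) := {Q | (cj g B ≤ Q ∧ Q ≠ ⊤ ∧ Inv F Q) ∧ ¬ B ⊓ Q ≤ cj g B} with hZ
  have hZf : Z.Finite := Set.toFinite Z
  set J : Set L := {t | t ∈ S ∧ ¬ Pr B g (Par B t)} with hJ
  have hJS : J ⊆ S := fun t ht => ht.1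
  have hpar_eq : ∀ s ∈ S, ∀ t ∈ S, s⁻¹ * t ∈ B → Par B t = Par B s := by
    intro s hs t ht hst
    exact h.par_minimal le_Par (h.par_ne ht) hs (par_le le_Par ((h.gen_mem_par ht hs).2 hst))
  have hJc : ∀ s ∈ J, ∀ t ∈ S, s⁻¹ * t ∈ B → t ∈ J := by
    intro s hs t ht hst
    refine ⟨ht, ?_⟩
    rw [hpar_eq s hs.1 t ht hst]
    exact hs.2
  set K : Subgroup L := closure ((B : Set L) ∪ J) with hK
  have hBK : B ≤ K := fun x hx => subset_closure (Or.inl hx)
  have hJK : ∀ t ∈ J, t ∈ K := fun t ht => subset_closure (Or.inr ht)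
  have hfg : ∀ f ∈ F, g⁻¹ * f g ∈ B := by
    intro f hf
    rw [← h.cj_B_eq_iff hr]
    have := hg f hf
    rw [am_cj, hF f hf] at this
    exact this.symm
  have hKinv : Inv F K := by
    intro f hf
    refine am_eq_of_le ?_
    rw [hK, am_closure_le]
    rintro x (hx | hx)
    · apply hBK
      have := apply_mem_am (f := f) hx
      rwa [hF f hf] at this
    · obtain ⟨s, hs, hs'⟩ := h.am_par (hF f hf) hx.1
      have hsJ : s ∈ J := by
        refine ⟨hs, fun hcon => hx.2 ?_⟩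
        intro b hb hbP
        have h1 : Pr B (f g) (Par B s) := pr_coset le_Par (hfg f hf) hcon
        have hfb : f b ∈ B := by
          have := apply_mem_am (f := f) hb
          rwa [hF f hf] at this
        have h2 : (f g)⁻¹ * f b * f g ∈ Par B s := by
          rw [← hs']
          have := apply_mem_am (f := f) hbP
          rwa [map_mul, map_mul, map_inv] at this
        have h3 := h1 (f b) hfb h2
        have h4 : f (g⁻¹ * b * g) ∈ am f B := by
          rw [hF f hf, map_mul, map_mul, map_inv]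
          exact h3
        rw [mem_am, ← MulAut.mul_apply, inv_mul_cancel, MulAut.one_apply] at h4
        exact h4
      have h2 : f x ∈ am f (Par B x) := apply_mem_am self_mem_Par
      rw [hs'] at h2
      exact (par_le hBK (hJK s hsJ)) h2
  set A : Subgroup L := cj g K with hA
  have hAinv : Inv F A := by
    intro f hf
    rw [hA, am_cj, hKinv f hf]
    have e : f g = g * (g⁻¹ * f g) := by group
    rw [e, cj_mul, cj_self (hBK (hfg f hf))]
  have hBA : cj g B ≤ A := cj_le.2 hBK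
  have hAtop : A ≠ ⊤ := by
    intro hcon
    have hKtop : K = ⊤ := by
      rw [eq_top_iff, ← cj_le (g := g), ← hA, hcon]
      exact le_top
    apply hno
    refine ⟨g, rfl, fun s hs => ?_⟩
    have h1 : s ∈ closure ((B : Set L) ∪ J) := by rw [← hK, hKtop]; exact mem_top s
    exact (h.toBN0.mem_closure_gen hJS hJc hs h1).2
  have hpr : ∀ H : Subgroup L, B ≤ H → (B ⊓ cj g H ≤ cj g B ↔ Pr B g H) := by
    intro H _
    rw [← pr_iff_inf, ← cj_mul, inv_mul_cancel, cj_one]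
  have hmeet : ∀ Q : Subgroup L, cj g B ≤ Q → ¬ B ⊓ Q ≤ cj g B → ¬ B ⊓ (Q ⊓ A) ≤ cj g B := by
    intro Q hQ hnQ hcon
    have hBH : B ≤ cj g⁻¹ Q := cj_le_iff.1 hQ
    have h1 : ¬ Pr B g (cj g⁻¹ Q) := fun hp => hnQ (pr_iff_inf.1 hp)
    rw [h.pr_iff_gen hBH] at h1
    push Not at h1
    obtain ⟨s, hs, hsQ, hps⟩ := h1
    have hsJ : s ∈ J := ⟨hs, hps⟩
    apply hps
    rw [← hpr _ le_Par]
    refine le_trans (inf_le_inf_left B ?_) hcon
    refine le_inf ?_ ?_
    · rw [cj_le_iff]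
      exact par_le hBH hsQ
    · exact cj_le.2 (par_le hBK (hJK s hsJ))
  have hAZ : A ∈ Z := by
    refine ⟨⟨hBA, hAtop, hAinv⟩, ?_⟩
    have h1 : ¬ B ⊓ (⊤ : Subgroup L) ≤ cj g B := by
      intro hcon
      apply hne
      apply eq_of_pr_top
      have := pr_iff_inf.2 hcon
      have e : cj g⁻¹ (⊤ : Subgroup L) = ⊤ := by
        ext x; simp [mem_cj]
      rwa [e] at this
    have h2 := hmeet ⊤ le_top h1
    rwa [top_inf_eq] at h2
  refine not_NA_down (R := {Q | Q ∈ Z ∧ Q ≤ A}) (ρ := fun Q => Q ⊓ A) (fun Q hQ => hQ.1) ?_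
    (fun Q _ => inf_le_left) (fun P _ Q _ hPQ => inf_le_inf_right A hPQ) ?_
  · rintro Q ⟨⟨hQ1, hQ2, hQ3⟩, hQ4⟩
    refine ⟨⟨⟨le_inf hQ1 hBA, fun hcon => hAtop ?_, hQ3.inf hAinv⟩, hmeet Q hQ1 hQ4⟩,
      inf_le_right⟩
    rw [eq_top_iff, ← hcon]
    exact inf_le_right
  · exact ac_max (F := A) ⟨hAZ, le_rfl⟩ fun Q hQ => hQ.2

/-- the chamber closest to `B` -/
lemma exists_chF [Finite L] (hr : r.Prime) {F : Set (MulAut L)} (hF : ∀ f ∈ F, am f B = B)
    {Q : Subgroup L} (hQ : Q ∈ YF B F) :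
    ∃ C : Subgroup L, (∃ g, C = cj g B) ∧ C ≤ Q ∧ B ⊓ Q ≤ C ∧ Inv F C := by
  obtain ⟨g, h1, h2⟩ := h.exists_ch hQ.1
  refine ⟨cj g B, ⟨g, rfl⟩, h1, h2, fun f hf => ?_⟩
  rw [am_cj, hF f hf]
  refine h.ch_unique hr (Q := Q) ?_ ?_ h1 h2
  · have h3 : am f (cj g B) ≤ am f Q := am_le.2 h1
    rwa [am_cj, hF f hf, hQ.2.2 f hf] at h3
  · have h4 : am f (B ⊓ Q) ≤ am f (cj g B) := am_le.2 h2
    rwa [am_inf, hF f hf, hQ.2.2 f hf, am_cj, hF f hf] at h4

lemma opp_spec [Finite L] (hr : r.Prime) {g : L} (hop : Opp B S (cj g B)) :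
    ∀ s ∈ S, ¬ Pr B g (Par B s) := by
  obtain ⟨g', hg', hs⟩ := hop
  intro s hsS hp
  exact hs s hsS (pr_coset le_Par ((h.cj_B_eq_iff hr).1 hg') hp)

/-- a parabolic subgroup whose closest chamber is opposite is this chamber -/
lemma eq_of_opp [Finite L] (hr : r.Prime) {Q : Subgroup L} {g : L} (h1 : cj g B ≤ Q)
    (h2 : B ⊓ Q ≤ cj g B) (hop : Opp B S (cj g B)) : Q = cj g B := by
  by_contra hne
  have hBH : B ≤ cj g⁻¹ Q := cj_le_iff.1 h1
  have hne' : cj g⁻¹ Q ≠ B := by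
    intro hcon
    apply hne
    rw [← hcon, ← cj_mul, mul_inv_cancel, cj_one]
  obtain ⟨s, hs, hsH⟩ := h.exists_gen hBH hne'
  exact h.opp_spec hr hop s hs ((pr_iff_inf.2 h2).mono (par_le hBH hsH))

omit h in
lemma eq_of_cj_le [Finite L] {g g' : L} (hle : cj g B ≤ cj g' B) : cj g B = cj g' B := by
  refine Subgroup.eq_of_le_of_card_ge hle ?_
  have h1 : Nat.card (cj g B) = Nat.card B :=
    Subgroup.card_map_of_injective (MulAut.conj g).injective
  have h2 : Nat.card (cj g' B) = Nat.card B :=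
    Subgroup.card_map_of_injective (MulAut.conj g').injective
  rw [h1, h2]

omit h in
lemma cj_B_ne_top [Finite L] (hB : B ≠ ⊤) {g : L} : cj g B ≠ ⊤ := by
  intro hcon
  apply hB
  rw [eq_top_iff, ← cj_le (g := g), hcon]
  exact le_top

theorem block [Finite L] (hr : r.Prime) {F : Set (MulAut L)} (hF : ∀ f ∈ F, am f B = B) :
    ¬ NA 𝕜 {Q | Q ∈ YF B F ∧ ¬ Opp B S Q} := by
  classical
  -- the closest chamber
  have hch : ∀ Q : Subgroup L, ∃ C : Subgroup L, Q ∈ YF B F →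
      (∃ g, C = cj g B) ∧ C ≤ Q ∧ B ⊓ Q ≤ C ∧ Inv F C := by
    intro Q
    by_cases hQ : Q ∈ YF B F
    · obtain ⟨C, hC⟩ := h.exists_chF hr hF hQ
      exact ⟨C, fun _ => hC⟩
    · exact ⟨B, fun hcon => absurd hcon hQ⟩
  choose ch hch using hch
  have hcard : ∀ {P Q : Subgroup L}, P ≤ Q → Nat.card P ≤ Nat.card Q := fun hPQ =>
    Nat.le_of_dvd Nat.card_pos (Subgroup.card_dvd_of_le hPQ)
  have hBopp : ¬ Opp B S B := by
    rintro ⟨g', hg', hs⟩
    obtain ⟨s, hsS⟩ := h.nonempty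
    refine hs s hsS ?_
    have h3 : g' ∈ B := by
      have : cj 1 B = cj g' B := by rw [cj_one]; exact hg'
      rw [h.cj_B_eq_iff hr, inv_one, one_mul] at this
      exact this
    intro b hb _
    exact mul_mem (mul_mem (inv_mem h3) hb) h3
  have key : ∀ k : ℕ, ¬ NA 𝕜 {Q | (Q ∈ YF B F ∧ ¬ Opp B S Q) ∧
      Nat.card B ≤ Nat.card (B ⊓ Q : Subgroup L) + k} := by
    intro k
    induction k with
    | zero =>
      refine ac_min (F := B) ⟨⟨⟨⟨1, by rw [cj_one]⟩, h.B_ne_top, hF⟩, hBopp⟩, ?_⟩ ?_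
      · rw [inf_idem, add_zero]
      · rintro Q ⟨-, hQ⟩
        rw [add_zero] at hQ
        exact inf_eq_left.1 (Subgroup.eq_of_le_of_card_ge inf_le_left hQ)
    | succ k ih =>
      have hR : ¬ NA 𝕜 {Q | ((Q ∈ YF B F ∧ ¬ Opp B S Q) ∧
          Nat.card B ≤ Nat.card (B ⊓ Q : Subgroup L) + (k + 1)) ∧
          (Nat.card B ≤ Nat.card (B ⊓ Q : Subgroup L) + k ∨ ∃ g, Q = cj g B)} := by
        refine not_NA_attach_all (Set.toFinite _) (X := {Q | (Q ∈ YF B F ∧ ¬ Opp B S Q) ∧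
          Nat.card B ≤ Nat.card (B ⊓ Q : Subgroup L) + k}) ?_ ?_ ih ?_
        · rintro Q ⟨h1, h2⟩
          exact ⟨⟨h1, by omega⟩, Or.inl h2⟩
        · rintro P ⟨-, h2⟩ Q ⟨⟨h3, -⟩, -⟩ hPQ
          exact ⟨h3, h2.trans (Nat.add_le_add_right (hcard (inf_le_inf_left B hPQ)) k)⟩
        · rintro T ⟨⟨⟨hTY, hTo⟩, hTk⟩, hT⟩ hTX
          have hTk' : Nat.card (B ⊓ T : Subgroup L) + k < Nat.card B := by
            by_contra hcon
            exact hTX ⟨⟨hTY, hTo⟩, not_lt.1 hcon⟩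
          obtain ⟨g, rfl⟩ := hT.resolve_left (not_le.2 hTk')
          have hne : cj g B ≠ B := by
            intro hcon
            rw [hcon, inf_idem] at hTk'
            omega
          have hset : {Q | Q ∈ {Q | ((Q ∈ YF B F ∧ ¬ Opp B S Q) ∧
              Nat.card B ≤ Nat.card (B ⊓ Q : Subgroup L) + (k + 1)) ∧
              (Nat.card B ≤ Nat.card (B ⊓ Q : Subgroup L) + k ∨ ∃ g, Q = cj g B)} ∧ cj g B < Q} =
              {Q | (cj g B ≤ Q ∧ Q ≠ ⊤ ∧ Inv F Q) ∧ ¬ B ⊓ Q ≤ cj g B} := by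
            ext Q
            constructor
            · rintro ⟨⟨⟨⟨hQY, -⟩, -⟩, hQ⟩, hlt⟩
              refine ⟨⟨hlt.le, hQY.2.1, hQY.2.2⟩, fun hcon => ?_⟩
              rcases hQ with hQ | ⟨g', rfl⟩
              · have h1 : Nat.card (B ⊓ Q : Subgroup L) ≤ Nat.card (B ⊓ cj g B : Subgroup L) :=
                  hcard (le_inf inf_le_left hcon)
                omega
              · exact hlt.ne (eq_of_cj_le hlt.le)
            · rintro ⟨⟨h1, h2, h3⟩, h4⟩
              have hlt : cj g B < Q := lt_of_le_of_ne h1 fun hcon => h4 (by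
                rw [hcon]; exact inf_le_right)
              have h5 : (B ⊓ cj g B : Subgroup L) < B ⊓ Q := by
                refine lt_of_le_of_ne (inf_le_inf_left B h1) fun hcon => h4 ?_
                rw [← hcon]
                exact inf_le_right
              have h6 : Nat.card (B ⊓ cj g B : Subgroup L) < Nat.card (B ⊓ Q : Subgroup L) :=
                Set.Finite.card_lt_card (Set.toFinite _) h5
              refine ⟨⟨⟨⟨⟨⟨g, h1⟩, h2, h3⟩, ?_⟩, by omega⟩, Or.inl (by omega)⟩, hlt⟩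
              rintro ⟨g', hg', -⟩
              rw [hg'] at hlt
              exact hlt.ne (eq_of_cj_le hlt.le)
          rw [hset]
          exact h.Z_ac hr hF hTY.2.2 hne hTo
      refine not_NA_down (ρ := fun Q => if Nat.card B ≤ Nat.card (B ⊓ Q : Subgroup L) + k then Q
        else ch Q) (fun Q hQ => hQ.1) ?_ ?_ ?_ hR
      · rintro Q ⟨⟨hQY, hQo⟩, hQk⟩
        split_ifs with hk
        · exact ⟨⟨⟨hQY, hQo⟩, hQk⟩, Or.inl hk⟩
        · obtain ⟨⟨g, hg⟩, h1, h2, h3⟩ := hch Q hQY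
          have h4 : (B ⊓ ch Q : Subgroup L) = B ⊓ Q :=
            le_antisymm (inf_le_inf_left B h1) (le_inf inf_le_left h2)
          refine ⟨⟨⟨⟨⟨g, hg.ge⟩, ?_, h3⟩, fun hcon => hQo ?_⟩, ?_⟩, Or.inr ⟨g, hg⟩⟩
          · rw [hg]
            exact cj_B_ne_top h.B_ne_top
          · rw [hg] at h1 h2 hcon
            have h5 := h.eq_of_opp hr h1 h2 hcon
            rw [h5]
            exact hcon
          · rw [h4]
            exact hQk
      · rintro Q ⟨⟨hQY, -⟩, -⟩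
        split_ifs with hk
        · exact le_rfl
        · exact (hch Q hQY).2.1
      · rintro P ⟨⟨hPY, hPo⟩, hPk⟩ Q ⟨⟨hQY, hQo⟩, hQk⟩ hPQ
        have hle : Nat.card (B ⊓ P : Subgroup L) ≤ Nat.card (B ⊓ Q : Subgroup L) :=
          hcard (inf_le_inf_left B hPQ)
        split_ifs with hk1 hk2 hk2
        · exact hPQ
        · exact absurd (by omega) hk2
        · exact (hch P hPY).2.1.trans hPQ
        · obtain ⟨⟨g, hg⟩, h1, h2, h3⟩ := hch P hPY
          obtain ⟨⟨g', hg'⟩, h1', h2', h3'⟩ := hch Q hQY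
          have h4 : (B ⊓ P : Subgroup L) = B ⊓ Q :=
            Subgroup.eq_of_le_of_card_ge (inf_le_inf_left B hPQ) (by omega)
          rw [hg] at h1 h2 ⊢
          rw [hg'] at h1' h2' ⊢
          exact (h.ch_unique hr (Q := Q) (h1.trans hPQ) (by rw [← h4]; exact h2) h1' h2').le
  have h1 := key (Nat.card B)
  have h2 : {Q | (Q ∈ YF B F ∧ ¬ Opp B S Q) ∧
      Nat.card B ≤ Nat.card (B ⊓ Q : Subgroup L) + Nat.card B} =
      {Q | Q ∈ YF B F ∧ ¬ Opp B S Q} := by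
    ext Q
    exact ⟨fun hQ => hQ.1, fun hQ => ⟨hQ, by omega⟩⟩
  rwa [h2] at h1

end SB

end

end Vale.Agent.P240.H195
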