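import Vale.Agent.P240.H195.Defs
import Vale.Agent.P240.Bdl.B1

/-!
Graded vanishing of homology, attaching elements with vanishing links, homotopies.
-/

namespace Vale.Agent.P240.H195

open Finsupp Vale.Agent.P240.K

set_option linter.unusedSectionVars false

variable {𝕜 : Type*} [Field 𝕜] {α β : Type*} [PartialOrder α] [PartialOrder β]

/-- the homology of `S` on lists of length `m` vanishes -/
def Hv (𝕜 : Type*) [Field 𝕜] {α : Type*} [PartialOrder α] (S : Set α) (m : ℕ) : Prop :=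
  ∀ z ∈ Sp 𝕜 (st S), len m z = z → bd z = 0 → ∃ c ∈ Sp 𝕜 (st S), bd c = z

lemma len_len (m : ℕ) (c : Ch 𝕜 α) : len m (len m c) = len m c :=
  len_of_mem (Sp_mono (fun _ hl => hl.1) (len_mem (P := fun _ => True) (by simp [mem_Sp])))

lemma len_st {S : Set α} {m : ℕ} {c : Ch 𝕜 α} (hc : c ∈ Sp 𝕜 (st S)) : len m c ∈ Sp 𝕜 (st S) :=
  Sp_mono (fun _ hl => hl.2) (len_mem hc)

lemma hv_of_ac {S : Set α} (h : ¬ NA 𝕜 S) (m : ℕ) : Hv 𝕜 S m :=
  fun z hz _ hb => not_NA_iff.1 h z hz hb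

lemma ac_of_hv {S : Set α} (h : ∀ m, Hv 𝕜 S m) : ¬ NA 𝕜 S := by
  refine not_NA_of_hom fun n z hz hb => h n z ?_ ?_ hb
  · exact Sp_mono (fun l (hl : l ∈ stn S n) => hl.2) hz
  · exact len_of_mem (Sp_mono (fun l (hl : l ∈ stn S n) => hl.1) hz)

lemma hv_zero {S : Set α} (hS : S.Nonempty) : Hv 𝕜 S 0 := by
  obtain ⟨x, hx⟩ := hS
  intro z hz hl _
  refine ⟨cons x (len 0 z), ?_, ?_⟩
  · refine cons_mem (P := fun l => l.length = 0 ∧ st S l) ?_ (len_mem hz)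
    rintro l ⟨h1, -⟩
    have : l = [] := List.length_eq_zero_iff.1 h1
    subst this
    exact ⟨List.pairwise_singleton _ _, fun a ha => by
      rw [List.mem_singleton] at ha
      rwa [ha]⟩
  · rw [bd_cons, bd_len_zero, map_zero, sub_zero, hl]

/-- no lists of length `m` -/
lemma hv_of_empty {S : Set α} {m : ℕ} (h : ∀ l, st S l → l.length ≠ m) : Hv 𝕜 S m := by
  intro z hz hl _
  refine ⟨0, Submodule.zero_mem _, ?_⟩
  rw [map_zero, ← hl]
  exact (len_of_ne (Sp_mono (fun l hl => h l hl) hz)).symm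

lemma ap_injective (T : α) : Function.Injective (ap (𝕜 := 𝕜) T) := by
  intro c d hcd
  exact Finsupp.mapDomain_injective (f := fun l : List α => l ++ [T])
    (fun l m h => List.append_cancel_right h) hcd

/-- A chain whose boundary avoids the minimal element `T`, modulo boundaries. -/
lemma attach_dec {S : Set α} {T : α} (hT : T ∈ S) (hmin : ∀ x ∈ S, ¬ x < T) {m : ℕ}
    (hlk : Hv 𝕜 {x | x ∈ S ∧ T < x} m) {c : Ch 𝕜 α} (hc : c ∈ Sp 𝕜 (st S))
    (hcl : len (m + 1) c = c) (hb : bd c ∈ Sp 𝕜 (st (S \ {T}))) :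
    ∃ d ∈ Sp 𝕜 (st (S \ {T})), ∃ e ∈ Sp 𝕜 (st S), len (m + 1) d = d ∧ c = d + bd e := by
  set Lk : Set α := {x | x ∈ S ∧ T < x} with hLk
  have hLkS : Lk ⊆ S \ {T} := by
    rintro x ⟨h1, h2⟩
    exact ⟨h1, fun h => h2.ne' h⟩
  obtain ⟨a, ha, b2, hb2, hzab⟩ := Sp_or (P := st S) (P1 := st (S \ {T}))
    (P2 := fun l => ∃ m, st Lk m ∧ l = m ++ [T]) (fun l hl => by
      by_cases hTl : T ∈ l
      · right
        obtain ⟨m, n, rfl⟩ := List.append_of_mem hTl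
        have hp := List.pairwise_append.1 hl.1
        have hn : n = [] := by
          rcases n with _ | ⟨y, n⟩
          · rfl
          · exfalso
            have h1 := (List.pairwise_cons.1 hp.2.1).1 y (by simp)
            exact hmin y (hl.2 y (by simp)) h1
        subst hn
        refine ⟨m, ⟨hp.1, fun x hx => ⟨hl.2 x (by simp [hx]), ?_⟩⟩, rfl⟩
        exact hp.2.2 x hx T (by simp)
      · left
        exact ⟨hl.1, fun x hx => ⟨hl.2 x hx, fun h => hTl (h ▸ hx)⟩⟩) hc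
  obtain ⟨b, hb1, rfl⟩ : ∃ b ∈ Sp 𝕜 (st Lk), ap T b = b2 := by
    have : (LinearMap.id : Ch 𝕜 α →ₗ[𝕜] Ch 𝕜 α) b2 ∈ (Sp 𝕜 (st Lk)).map (ap T) := by
      refine map_mem (M := Ch 𝕜 α) LinearMap.id ?_ hb2
      rintro l ⟨m, hm, rfl⟩
      exact ⟨single m 1, single_mem_Sp hm _, by simp⟩
    exact this
  -- reduce to homogeneous `a` and `b`
  have hlen_ap : ∀ c : Ch 𝕜 α, len (m + 1) (ap T c) = ap T (len m c) := by
    intro c
    have := lin_ext_apply (f := (len (m + 1)).comp (ap (𝕜 := 𝕜) T)) (g := (ap T).comp (len m))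
      (fun l => by
        simp only [LinearMap.comp_apply, ap_single, len_single, List.length_append,
          List.length_singleton]
        by_cases h : l.length = m
        · rw [if_pos (by omega), if_pos h, ap_single]
        · rw [if_neg (by omega), if_neg h, map_zero]) c
    simpa using this
  have hzab' : c = len (m + 1) a + ap T (len m b) := by
    rw [← hcl, hzab, map_add, hlen_ap]
  obtain ⟨a', ha'⟩ : ∃ a', a' = len (m + 1) a := ⟨_, rfl⟩
  obtain ⟨b', hb'⟩ : ∃ b', b' = len m b := ⟨_, rfl⟩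
  have ha'm : a' ∈ Sp 𝕜 (st (S \ {T})) := by rw [ha']; exact len_st ha
  have hb'm : b' ∈ Sp 𝕜 (st Lk) := by rw [hb']; exact len_st hb1
  have ha'l : len (m + 1) a' = a' := by rw [ha', len_len]
  have hb'l : len m b' = b' := by rw [hb', len_len]
  rw [← ha', ← hb'] at hzab'
  have hba : bd a' ∈ Sp 𝕜 (fun l : List α => T ∉ l) :=
    bd_mem (fun l l' hs hl hT' => hl (hs.subset hT'))
      (Sp_mono (fun l (hl : st (S \ {T}) l) hTl => (hl.2 T hTl).2 rfl) ha'm)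
  have hsb : sg b' ∈ Sp 𝕜 (fun l : List α => T ∉ l) :=
    sg_mem (Sp_mono (fun l (hl : st Lk l) hTl => lt_irrefl _ (hl.2 T hTl).2) hb'm)
  have hbc : bd c ∈ Sp 𝕜 (fun l : List α => T ∉ l) :=
    Sp_mono (fun l (hl : st (S \ {T}) l) hTl => (hl.2 T hTl).2 rfl) hb
  have hap0 : ap T (bd b') = 0 := by
    have h1 : ap T (bd b') = bd c - bd a' - sg b' := by
      rw [hzab', map_add, bd_ap]; abel
    have h2 : ap T (bd b') ∈ Sp 𝕜 (fun l : List α => T ∉ l) := by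
      rw [h1]
      exact Submodule.sub_mem _ (Submodule.sub_mem _ hbc hba) hsb
    have h3 : ap T (bd b') ∈ Sp 𝕜 (fun l : List α => T ∈ l) :=
      ap_mem (P := fun _ => True) (fun l _ => by simp) (by simp [mem_Sp])
    have h4 := mem_Sp_inf h2 h3
    rw [← Finsupp.support_eq_empty, Finset.eq_empty_iff_forall_notMem]
    intro l hl
    exact (mem_Sp.1 h4 l hl).1 (mem_Sp.1 h4 l hl).2
  have hb0 : bd b' = 0 := ap_injective T (by rw [hap0, map_zero])
  obtain ⟨w, hw, hwb⟩ := hlk b' hb'm hb'l hb0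
  refine ⟨len (m + 1) (a' - sg w), len_st (Submodule.sub_mem _ ha'm
    (sg_mem (Sp_mono (st_mono hLkS) hw))), ap T (len (m + 1) w), ?_, len_len _ _, ?_⟩
  · refine ap_mem (P := st Lk) ?_ (len_st hw)
    intro l hl
    refine ⟨?_, ?_⟩
    · rw [List.pairwise_append]
      refine ⟨hl.1, by simp, ?_⟩
      intro x hx y hy
      rw [List.mem_singleton] at hy
      subst hy
      exact (hl.2 x hx).2
    · intro x hx
      rcases List.mem_append.1 hx with hx | hx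
      · exact (hl.2 x hx).1
      · rw [List.mem_singleton] at hx
        subst hx
        exact hT
  · have hsl : len (m + 1) (sg w) = sg (len (m + 1) w) := by
      have := lin_ext_apply (f := (len (m + 1)).comp (sg (𝕜 := 𝕜) (α := α)))
        (g := (sg).comp (len (m + 1)))
        (fun l => by
          simp only [LinearMap.comp_apply, sg_single, map_smul, len_single]
          split_ifs with h
          · simp
          · simp) w
      simpa using this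
    rw [bd_ap, bd_len, hwb, hb'l, map_sub, ha'l, hsl, hzab']
    abel

/-- Chains in `S` with boundary in the upwards closed subset `X`, modulo boundaries. -/
lemma lift_up {S : Set α} (hS : S.Finite) {X : Set α} (hXS : X ⊆ S)
    (hup : ∀ x ∈ X, ∀ y ∈ S, x ≤ y → y ∈ X) {m : ℕ}
    (hlk : ∀ T ∈ S, T ∉ X → Hv 𝕜 {x | x ∈ S ∧ T < x} m)
    {c : Ch 𝕜 α} (hc : c ∈ Sp 𝕜 (st S)) (hcl : len (m + 1) c = c) (hb : bd c ∈ Sp 𝕜 (st X)) :
    ∃ d ∈ Sp 𝕜 (st X), ∃ e ∈ Sp 𝕜 (st S), len (m + 1) d = d ∧ c = d + bd e := by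
  classical
  have key : ∀ n : ℕ, ∀ S : Set α, S.Finite → X ⊆ S → (S \ X).ncard = n →
      (∀ x ∈ X, ∀ y ∈ S, x ≤ y → y ∈ X) →
      (∀ T ∈ S, T ∉ X → Hv 𝕜 {x | x ∈ S ∧ T < x} m) → ∀ c ∈ Sp 𝕜 (st S), len (m + 1) c = c →
      bd c ∈ Sp 𝕜 (st X) → ∃ d ∈ Sp 𝕜 (st X), ∃ e ∈ Sp 𝕜 (st S), len (m + 1) d = d ∧
        c = d + bd e := by
    intro n
    induction n with
    | zero =>
      intro S hS hXS hn _ _ c hc hcl _
      rw [Set.ncard_eq_zero (hS.subset Set.sdiff_subset)] at hn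
      have : S = X := Set.Subset.antisymm (Set.sdiff_eq_empty.1 hn) hXS
      subst this
      exact ⟨c, hc, 0, Submodule.zero_mem _, hcl, by simp⟩
    | succ n ih =>
      intro S hS hXS hn hup hlk c hc hcl hb
      have hfin : (S \ X).Finite := hS.subset Set.sdiff_subset
      have hne : (S \ X).Nonempty := by
        rw [Set.nonempty_iff_ne_empty]
        intro h
        rw [h, Set.ncard_empty] at hn
        omega
      obtain ⟨T, hT⟩ := hfin.exists_minimal hne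
      have hTS : T ∈ S := hT.prop.1
      have hTX : T ∉ X := hT.prop.2
      have hmin : ∀ x ∈ S, ¬ x < T := by
        intro x hx hlt
        by_cases hxX : x ∈ X
        · exact hTX (hup x hxX T hTS hlt.le)
        · exact hlt.not_ge (hT.2 (show x ∈ S \ X from ⟨hx, hxX⟩) hlt.le)
      have hXT : X ⊆ S \ {T} := fun x hx => ⟨hXS hx, fun h => hTX (h ▸ hx)⟩
      obtain ⟨d, hd, e, he, hdl, hde⟩ := attach_dec hTS hmin (hlk T hTS hTX) hc hcl
        (Sp_mono (st_mono hXT) hb)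
      have hbd : bd d = bd c := by
        rw [hde, map_add, bd_bd, add_zero]
      obtain ⟨d', hd', e', he', hdl', hde'⟩ := ih (S \ {T}) (hS.subset Set.sdiff_subset) hXT (by
          have : (S \ {T}) \ X = (S \ X) \ {T} := by
            ext x
            simp only [Set.mem_sdiff, Set.mem_singleton_iff]
            tauto
          rw [this, Set.ncard_sdiff_singleton_of_mem (show T ∈ S \ X from ⟨hTS, hTX⟩), hn]
          rfl) (fun x hx y hy hxy => hup x hx y hy.1 hxy) (by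
          intro T' hT' hT'X
          have : {x | x ∈ S \ {T} ∧ T' < x} = {x | x ∈ S ∧ T' < x} := by
            ext x
            constructor
            · rintro ⟨h1, h2⟩
              exact ⟨h1.1, h2⟩
            · rintro ⟨h1, h2⟩
              refine ⟨⟨h1, ?_⟩, h2⟩
              rintro rfl
              exact hmin T' hT'.1 h2
          rw [this]
          exact hlk T' hT'.1 hT'X) d hd hdl (by rw [hbd]; exact hb)
      refine ⟨d', hd', e' + e, Submodule.add_mem _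
        (Sp_mono (st_mono fun x hx => hx.1) he') he, hdl', ?_⟩
      rw [hde, hde', map_add]
      abel
  exact key _ S hS hXS rfl hup hlk c hc hcl hb

lemma hv_up {S : Set α} (hS : S.Finite) {X : Set α} (hXS : X ⊆ S)
    (hup : ∀ x ∈ X, ∀ y ∈ S, x ≤ y → y ∈ X) {m : ℕ}
    (hlk : ∀ T ∈ S, T ∉ X → Hv 𝕜 {x | x ∈ S ∧ T < x} m) (hX : Hv 𝕜 X (m + 1)) :
    Hv 𝕜 S (m + 1) := by
  intro z hz hzl hb
  obtain ⟨d, hd, e, he, hdl, hde⟩ := lift_up hS hXS hup hlk hz hzl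
    (by rw [hb]; exact Submodule.zero_mem _)
  obtain ⟨w, hw, hwd⟩ := hX d hd hdl (by
    have := hb
    rwa [hde, map_add, bd_bd, add_zero] at this)
  exact ⟨w + e, Submodule.add_mem _ (Sp_mono (st_mono hXS) hw) he, by rw [map_add, hwd, hde]⟩

/-- boundaries in `S` of chains in `X` are boundaries in `X` -/
lemma push_up {S : Set α} (hS : S.Finite) {X : Set α} (hXS : X ⊆ S)
    (hup : ∀ x ∈ X, ∀ y ∈ S, x ≤ y → y ∈ X) {m : ℕ}
    (hlk : ∀ T ∈ S, T ∉ X → Hv 𝕜 {x | x ∈ S ∧ T < x} m)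
    {z : Ch 𝕜 α} (hz : z ∈ Sp 𝕜 (st X)) (hzl : len m z = z) {c : Ch 𝕜 α} (hc : c ∈ Sp 𝕜 (st S))
    (hcz : bd c = z) : ∃ d ∈ Sp 𝕜 (st X), len (m + 1) d = d ∧ bd d = z := by
  obtain ⟨d, hd, e, he, hdl, hde⟩ := lift_up hS hXS hup hlk (c := len (m + 1) c) (len_st hc)
    (len_len _ _) (by rw [bd_len, hcz, hzl]; exact hz)
  refine ⟨d, hd, hdl, ?_⟩
  have h1 := congrArg bd hde
  rwa [map_add, bd_bd, add_zero, bd_len, hcz, hzl, eq_comm] at h1

/-! ### Duality -/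

lemma mp_sn (f : α → β) (x : α) (c : Ch 𝕜 α) : mp f (sn x c) = sn (f x) (mp f c) := by
  have := lin_ext_apply (f := (mp f).comp (sn (𝕜 := 𝕜) x)) (g := (sn (f x)).comp (mp f))
    (fun l => by simp) c
  simpa using this

lemma mp_rv (f : α → β) (c : Ch 𝕜 α) : mp f (rv c) = rv (mp f c) := by
  have := ch_ext_apply (F := (mp f).comp (rv (𝕜 := 𝕜))) (G := (rv).comp (mp f))
    (by simp [rv_nil]) (fun y c h => by
      simp only [LinearMap.comp_apply] at h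
      simp [rv_cons, mp_sn, h]) c
  simpa using this

/-- passage to the dual poset -/
noncomputable def dl (c : Ch 𝕜 α) : Ch 𝕜 αᵒᵈ := rv (mp OrderDual.toDual c)

/-- passage from the dual poset -/
noncomputable def ld (c : Ch 𝕜 αᵒᵈ) : Ch 𝕜 α := rv (mp OrderDual.ofDual c)

lemma ld_dl (c : Ch 𝕜 α) : ld (dl c) = c := by
  rw [ld, dl, mp_rv, rv_rv, mp_mp]
  exact mp_eq_self (P := fun _ => True) (fun _ _ _ _ => rfl) (by simp [mem_Sp])

lemma dl_ld (c : Ch 𝕜 αᵒᵈ) : dl (ld c) = c := by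
  rw [ld, dl, mp_rv, rv_rv, mp_mp]
  exact mp_eq_self (P := fun _ => True) (fun _ _ _ _ => rfl) (by simp [mem_Sp])

lemma bd_dl (c : Ch 𝕜 α) : bd (dl c) = dl (bd c) := by rw [dl, dl, bd_rv, bd_mp]

lemma bd_ld (c : Ch 𝕜 αᵒᵈ) : bd (ld c) = ld (bd c) := by rw [ld, ld, bd_rv, bd_mp]

lemma dl_add (c d : Ch 𝕜 α) : dl (c + d) = dl c + dl d := by rw [dl, dl, dl, map_add, map_add]

lemma ld_add (c d : Ch 𝕜 αᵒᵈ) : ld (c + d) = ld c + ld d := by rw [ld, ld, ld, map_add, map_add]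

lemma dl_mem {S : Set α} {c : Ch 𝕜 α} (hc : c ∈ Sp 𝕜 (st S)) :
    dl c ∈ Sp 𝕜 (st (OrderDual.ofDual ⁻¹' S : Set αᵒᵈ)) := by
  refine rv_mem (P := fun l : List αᵒᵈ => st S (l.map OrderDual.ofDual)) ?_ ?_
  · intro l hl
    refine ⟨?_, fun a ha => ?_⟩
    · rw [List.pairwise_reverse]
      have := hl.1
      rw [List.pairwise_map] at this
      exact this
    · exact hl.2 _ (List.mem_map_of_mem (List.mem_reverse.1 ha))
  · refine mp_mem (P := st S) ?_ hc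
    intro l hl
    rw [List.map_map]
    simpa using hl

lemma ld_mem {S : Set α} {c : Ch 𝕜 αᵒᵈ}
    (hc : c ∈ Sp 𝕜 (st (OrderDual.ofDual ⁻¹' S : Set αᵒᵈ))) : ld c ∈ Sp 𝕜 (st S) := by
  refine rv_mem (P := fun l : List α => st (OrderDual.ofDual ⁻¹' S : Set αᵒᵈ)
    (l.map OrderDual.toDual)) ?_ ?_
  · intro l hl
    refine ⟨?_, fun a ha => ?_⟩
    · rw [List.pairwise_reverse]
      have := hl.1
      rw [List.pairwise_map] at this
      exact this
    · exact hl.2 _ (List.mem_map_of_mem (List.mem_reverse.1 ha))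
  · refine mp_mem (P := st (OrderDual.ofDual ⁻¹' S : Set αᵒᵈ)) ?_ hc
    intro l hl
    rw [List.map_map]
    simpa using hl

lemma rv_len (m : ℕ) (c : Ch 𝕜 α) : len m (rv c) = rv (len m c) := by
  have := lin_ext_apply (f := (len m).comp (rv (𝕜 := 𝕜) (α := α))) (g := (rv).comp (len m))
    (fun l => by
      simp only [LinearMap.comp_apply, rv_single, len_single]
      by_cases h : l.length = m
      · rw [if_pos h, rv_single]
        refine len_of_mem (Sp_mono ?_ (rvL_mem l))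
        rintro _ rfl
        rw [List.length_reverse, h]
      · rw [if_neg h, map_zero]
        refine len_of_ne (Sp_mono ?_ (rvL_mem l))
        rintro _ rfl
        rwa [List.length_reverse]) c
  simpa using this

lemma mp_len (f : α → β) (m : ℕ) (c : Ch 𝕜 α) : len m (mp f c) = mp f (len m c) := by
  have := lin_ext_apply (f := (len m).comp (mp (𝕜 := 𝕜) f)) (g := (mp f).comp (len m))
    (fun l => by
      simp only [LinearMap.comp_apply, mp_single, len_single, List.length_map]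
      split_ifs with h
      · rw [mp_single]
      · rw [map_zero]) c
  simpa using this

lemma dl_len (m : ℕ) (c : Ch 𝕜 α) : len m (dl c) = dl (len m c) := by rw [dl, dl, rv_len, mp_len]

lemma ld_len (m : ℕ) (c : Ch 𝕜 αᵒᵈ) : len m (ld c) = ld (len m c) := by
  rw [ld, ld, rv_len, mp_len]

lemma ld_zero : ld (0 : Ch 𝕜 αᵒᵈ) = 0 := by rw [ld, map_zero, map_zero]

lemma dl_zero : dl (0 : Ch 𝕜 α) = 0 := by rw [dl, map_zero, map_zero]

lemma hv_dual {S : Set α} {m : ℕ} (h : Hv 𝕜 S m) :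
    Hv 𝕜 (OrderDual.ofDual ⁻¹' S : Set αᵒᵈ) m := by
  intro z hz hzl hb
  obtain ⟨c, hc, hcz⟩ := h (ld z) (ld_mem hz) (by rw [ld_len, hzl]) (by rw [bd_ld, hb, ld_zero])
  exact ⟨dl c, dl_mem hc, by rw [bd_dl, hcz, dl_ld]⟩

/-- Chains in `S` with boundary in the downwards closed subset `X`, modulo boundaries. -/
lemma lift_dn {S : Set α} (hS : S.Finite) {X : Set α} (hXS : X ⊆ S)
    (hdn : ∀ x ∈ X, ∀ y ∈ S, y ≤ x → y ∈ X) {m : ℕ}
    (hlk : ∀ T ∈ S, T ∉ X → Hv 𝕜 {x | x ∈ S ∧ x < T} m)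
    {c : Ch 𝕜 α} (hc : c ∈ Sp 𝕜 (st S)) (hcl : len (m + 1) c = c) (hb : bd c ∈ Sp 𝕜 (st X)) :
    ∃ d ∈ Sp 𝕜 (st X), ∃ e ∈ Sp 𝕜 (st S), len (m + 1) d = d ∧ c = d + bd e := by
  obtain ⟨d, hd, e, he, hdl, hde⟩ := lift_up (S := (OrderDual.ofDual ⁻¹' S : Set αᵒᵈ)) hS
    (X := (OrderDual.ofDual ⁻¹' X : Set αᵒᵈ)) (fun x hx => hXS hx)
    (fun x hx y hy hxy => hdn x hx y hy hxy) (m := m) (fun T hT hTX => hv_dual (hlk T hT hTX))
    (dl_mem hc) (by rw [dl_len, hcl]) (by rw [bd_dl]; exact dl_mem hb)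
  refine ⟨ld d, ld_mem hd, ld e, ld_mem he, by rw [ld_len, hdl], ?_⟩
  rw [bd_ld, ← ld_add, ← hde, ld_dl]

lemma hv_dn {S : Set α} (hS : S.Finite) {X : Set α} (hXS : X ⊆ S)
    (hdn : ∀ x ∈ X, ∀ y ∈ S, y ≤ x → y ∈ X) {m : ℕ}
    (hlk : ∀ T ∈ S, T ∉ X → Hv 𝕜 {x | x ∈ S ∧ x < T} m) (hX : Hv 𝕜 X (m + 1)) :
    Hv 𝕜 S (m + 1) := by
  intro z hz hzl hb
  obtain ⟨d, hd, e, he, hdl, hde⟩ := lift_dn hS hXS hdn hlk hz hzl
    (by rw [hb]; exact Submodule.zero_mem _)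
  obtain ⟨w, hw, hwd⟩ := hX d hd hdl (by
    have := hb
    rwa [hde, map_add, bd_bd, add_zero] at this)
  exact ⟨w + e, Submodule.add_mem _ (Sp_mono (st_mono hXS) hw) he, by rw [map_add, hwd, hde]⟩

/-- boundaries in `S` of chains in `X` are boundaries in `X` -/
lemma push_dn {S : Set α} (hS : S.Finite) {X : Set α} (hXS : X ⊆ S)
    (hdn : ∀ x ∈ X, ∀ y ∈ S, y ≤ x → y ∈ X) {m : ℕ}
    (hlk : ∀ T ∈ S, T ∉ X → Hv 𝕜 {x | x ∈ S ∧ x < T} m)
    {z : Ch 𝕜 α} (hz : z ∈ Sp 𝕜 (st X)) (hzl : len m z = z) {c : Ch 𝕜 α} (hc : c ∈ Sp 𝕜 (st S))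
    (hcz : bd c = z) : ∃ d ∈ Sp 𝕜 (st X), len (m + 1) d = d ∧ bd d = z := by
  obtain ⟨d, hd, e, he, hdl, hde⟩ := lift_dn hS hXS hdn hlk (c := len (m + 1) c) (len_st hc)
    (len_len _ _) (by rw [bd_len, hcz, hzl]; exact hz)
  refine ⟨d, hd, hdl, ?_⟩
  have h1 := congrArg bd hde
  rwa [map_add, bd_bd, add_zero, bd_len, hcz, hzl, eq_comm] at h1

lemma nonempty_of_ac {S : Set α} (h : ¬ NA 𝕜 S) : S.Nonempty := by
  rw [Set.nonempty_iff_ne_empty]
  rintro rfl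
  rw [not_NA_iff] at h
  obtain ⟨c, hc, hcb⟩ := h (single [] 1) (single_mem_Sp ⟨List.Pairwise.nil, by simp⟩ _) (by simp)
  have h1 : c ∈ Sp 𝕜 (fun l : List α => l = []) := by
    refine Sp_mono ?_ hc
    intro l hl
    rcases l with _ | ⟨x, l⟩
    · rfl
    · exact absurd (hl.2 x (by simp)) (Set.notMem_empty x)
  have h2 := eq_of_Sp (F := bd (𝕜 := 𝕜) (α := α)) (G := 0) (fun l (hl : l = []) => by
    rw [hl]; simp) h1
  rw [LinearMap.zero_apply] at h2
  rw [h2] at hcb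
  have h3 := DFunLike.congr_fun hcb ([] : List α)
  rw [Finsupp.single_eq_same, Finsupp.zero_apply] at h3
  exact one_ne_zero h3.symm

/-- attaching elements with acyclic lower links to a downwards closed subset -/
lemma ac_dn {S : Set α} (hS : S.Finite) {X : Set α} (hXS : X ⊆ S)
    (hdn : ∀ x ∈ X, ∀ y ∈ S, y ≤ x → y ∈ X)
    (hlk : ∀ T ∈ S, T ∉ X → ¬ NA 𝕜 {x | x ∈ S ∧ x < T}) (hX : ¬ NA 𝕜 X) : ¬ NA 𝕜 S := by
  refine ac_of_hv fun m => ?_
  rcases m with _ | m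
  · exact hv_zero ((nonempty_of_ac hX).mono hXS)
  · exact hv_dn hS hXS hdn (fun T hT hTX => hv_of_ac (hlk T hT hTX) m) (hv_of_ac hX _)

/-! ### Homotopies -/

/-- conically contractible sets: `x ≤ φ x ≥ F` -/
lemma ac_cone {S : Set α} {φ : α → α} {F : α} (hF : F ∈ S) (hφ : ∀ x ∈ S, φ x ∈ S)
    (hFφ : ∀ x ∈ S, F ≤ φ x) (hle : ∀ x ∈ S, x ≤ φ x)
    (hmono : ∀ x ∈ S, ∀ y ∈ S, x ≤ y → φ x ≤ φ y) : ¬ NA 𝕜 S := by
  rw [not_NA_iff]
  intro z hz hb
  have hzw : z ∈ Sp 𝕜 (wk S) := Sp_mono (fun l hl => st_wk l hl) hz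
  have h1 := hc_mem (𝕜 := 𝕜) (Set.Subset.refl S) hF hφ hFφ hle hmono hzw
  refine ⟨pi (hc φ F z), pi_mem h1, ?_⟩
  have h2 := bd_hc φ F z
  rw [hb, map_zero, add_zero] at h2
  rw [bd_pi h1, h2, pi_of_st hz]

/-- a minimum -/
lemma ac_min {S : Set α} {F : α} (hF : F ∈ S) (h : ∀ x ∈ S, F ≤ x) : ¬ NA 𝕜 S :=
  ac_cone (φ := id) hF (fun _ hx => hx) h (fun _ _ => le_rfl) fun _ _ _ _ hxy => hxy

/-- a maximum -/
lemma ac_max {S : Set α} {F : α} (hF : F ∈ S) (h : ∀ x ∈ S, x ≤ F) : ¬ NA 𝕜 S :=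
  ac_cone (φ := fun _ => F) hF (fun _ _ => hF) (fun _ _ => le_rfl) h fun _ _ _ _ _ => le_rfl

lemma pi_mp_pi {f : α → β} {S : Set α} {c : Ch 𝕜 α} (hc : c ∈ Sp 𝕜 (wk S)) : pi (mp f (pi c)) = pi (mp f c) := by
  classical
  have := eq_of_Sp (F := pi.comp ((mp f).comp (pi (𝕜 := 𝕜)))) (G := pi.comp (mp f))
    (fun l (hl : wk S l) => by
      simp only [LinearMap.comp_apply]
      rw [pi_single]
      split_ifs with h
      · rfl
      · rw [map_zero, map_zero, mp_single, pi_single, if_neg]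
        intro h'
        apply h
        rw [List.pairwise_map] at h'
        have h2 := hl.1.and h'
        exact h2.imp fun {a b} hab => lt_of_le_of_ne hab.1 fun he => by
          rw [he] at hab
          exact lt_irrefl _ hab.2) hc
  simpa using this

lemma mp_wk' {S : Set α} {R : Set β} {ρ : α → β} (hρ : ∀ x ∈ S, ρ x ∈ R)
    (hmono : ∀ x ∈ S, ∀ y ∈ S, x ≤ y → ρ x ≤ ρ y) {c : Ch 𝕜 α} (hc : c ∈ Sp 𝕜 (wk S)) :
    mp ρ c ∈ Sp 𝕜 (wk R) :=
  mp_mem (P := wk S) (fun l hl => wk_map (T := R) hρ hmono l hl) hc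

lemma pi_len (m : ℕ) (c : Ch 𝕜 α) : len m (pi c) = pi (len m c) := by
  classical
  have := lin_ext_apply (f := (len m).comp (pi (𝕜 := 𝕜) (α := α))) (g := (pi).comp (len m))
    (fun l => by
      simp only [LinearMap.comp_apply, pi_single, len_single]
      split_ifs <;> simp_all [pi_single, len_single]) c
  simpa using this

/-- `f ∘ g ≤ id` on `S`: vanishing for `S'` implies vanishing for `S` -/
lemma hv_maps {S : Set α} {S' : Set β} {g : α → β} {f : β → α} (hg : ∀ x ∈ S, g x ∈ S')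
    (hgm : ∀ x ∈ S, ∀ y ∈ S, x ≤ y → g x ≤ g y) (hf : ∀ x ∈ S', f x ∈ S)
    (hfm : ∀ x ∈ S', ∀ y ∈ S', x ≤ y → f x ≤ f y) (hle : ∀ x ∈ S, f (g x) ≤ x) {m : ℕ}
    (h : Hv 𝕜 S' m) : Hv 𝕜 S m := by
  intro z hz hzl hb
  have hzw : z ∈ Sp 𝕜 (wk S) := Sp_mono (fun l hl => st_wk l hl) hz
  have h1 := mp_wk' (𝕜 := 𝕜) hg hgm hzw
  obtain ⟨d, hd, hdz⟩ := h (pi (mp g z)) (pi_mem h1) (by rw [pi_len, mp_len, hzl])
    (by rw [bd_pi h1, bd_mp, hb, map_zero, map_zero])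
  have hdw : d ∈ Sp 𝕜 (wk S') := Sp_mono (fun l hl => st_wk l hl) hd
  have hw2 := mp_wk' (𝕜 := 𝕜) hf hfm hdw
  have h3 := h2_mem (𝕜 := 𝕜) (ρ := fun x => f (g x)) (fun x hx => hf _ (hg x hx)) hle
    (fun x hx y hy hxy => hfm _ (hg x hx) _ (hg y hy) (hgm x hx y hy hxy)) hzw
  refine ⟨pi (mp f d) - pi (h2 (fun x => f (g x)) z), Submodule.sub_mem _ (pi_mem hw2)
    (pi_mem h3), ?_⟩
  have h4 := bd_h2 (fun x => f (g x)) z
  rw [hb, map_zero, add_zero] at h4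
  rw [map_sub, bd_pi hw2, bd_mp, hdz, pi_mp_pi h1, mp_mp, bd_pi h3, h4, map_sub, pi_of_st hz]
  have e : (f ∘ g) = fun x => f (g x) := rfl
  rw [e]
  abel

/-- a retraction: boundaries in `S` of chains in `R` are boundaries in `R` -/
lemma push_retr {S R : Set α} {ρ : α → α} (hρ : ∀ x ∈ S, ρ x ∈ R)
    (hmono : ∀ x ∈ S, ∀ y ∈ S, x ≤ y → ρ x ≤ ρ y) (hid : ∀ x ∈ R, ρ x = x) {z : Ch 𝕜 α}
    (hz : z ∈ Sp 𝕜 (st R)) {c : Ch 𝕜 α} (hc : c ∈ Sp 𝕜 (st S)) (hcz : bd c = z) :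
    ∃ d ∈ Sp 𝕜 (st R), bd d = z := by
  have hcw : c ∈ Sp 𝕜 (wk S) := Sp_mono (fun l hl => st_wk l hl) hc
  have h1 := mp_wk' (𝕜 := 𝕜) hρ hmono hcw
  refine ⟨pi (mp ρ c), pi_mem h1, ?_⟩
  rw [bd_pi h1, bd_mp, hcz, mp_eq_self (P := st R) (fun l hl a ha => hid a (hl.2 a ha)) hz,
    pi_of_st hz]

end Vale.Agent.P240.H195
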