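import Mathlib.GroupTheory.Frattini
import Vale.Agent.P240.H195.THom

/-!
The poset of proper nontrivial subgroups of a `p`-group that is not elementary abelian is acyclic.
-/

namespace Vale.Agent.P240.H195

open Subgroup Vale.Agent.P240.K Finsupp

universe u v

section
variable {T : Type u} [Group T] {p : ℕ}

/-- the Frattini subgroup contains commutators and `p`-th powers -/
lemma frattini_spec [hp : Fact p.Prime] [Finite T] (hT : IsPGroup p T) :
    (∀ x y : T, x * y * x⁻¹ * y⁻¹ ∈ frattini T) ∧ ∀ x : T, x ^ p ∈ frattini T := by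
  have hnil : Group.IsNilpotent T := hT.isNilpotent
  have key : ∀ M : Subgroup T, IsCoatom M → (∀ x y : T, x * y * x⁻¹ * y⁻¹ ∈ M) ∧
      ∀ x : T, x ^ p ∈ M := by
    intro M hM
    have hMn : M.Normal := NormalizerCondition.normal_of_coatom M
      Group.normalizerCondition_of_isNilpotent hM
    obtain ⟨z, hz⟩ : ∃ z : T, z ∉ M := by
      by_contra hcon
      push Not at hcon
      exact hM.1 (eq_top_iff.2 fun x _ => hcon x)
    have hle : ∀ H : Subgroup (T ⧸ M), M ≤ H.comap (QuotientGroup.mk' M) := by
      intro H x hx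
      rw [mem_comap]
      have : QuotientGroup.mk' M x = 1 := (QuotientGroup.eq_one_iff x).2 hx
      rw [this]
      exact one_mem _
    have hcyc : ∀ x : T, QuotientGroup.mk' M x ∈ zpowers (QuotientGroup.mk' M z) := by
      have h1 : (zpowers (QuotientGroup.mk' M z)).comap (QuotientGroup.mk' M) = ⊤ := by
        by_contra hcon
        have h2 := (hM.le_iff_eq hcon).1 (hle _)
        apply hz
        rw [← h2, mem_comap]
        exact mem_zpowers _
      intro x
      have h2 : x ∈ (zpowers (QuotientGroup.mk' M z)).comap (QuotientGroup.mk' M) := by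
        rw [h1]; exact mem_top x
      exact h2
    refine ⟨fun x y => ?_, fun x => ?_⟩
    · rw [← QuotientGroup.eq_one_iff (N := M)]
      change QuotientGroup.mk' M (x * y * x⁻¹ * y⁻¹) = 1
      obtain ⟨i, hi⟩ := mem_zpowers_iff.1 (hcyc x)
      obtain ⟨j, hj⟩ := mem_zpowers_iff.1 (hcyc y)
      rw [map_mul, map_mul, map_mul, map_inv, map_inv, ← hi, ← hj, ← zpow_add, add_comm i j,
        zpow_add]
      group
    · have h1 : QuotientGroup.mk' M z ^ p = 1 := by
        by_contra hne
        have h2 : (zpowers (QuotientGroup.mk' M z ^ p)).comap (QuotientGroup.mk' M) = ⊤ := by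
          by_contra hcon
          have h2 := (hM.le_iff_eq hcon).1 (hle _)
          apply hne
          have h3 : z ^ p ∈ M := by
            rw [← h2, mem_comap, map_pow]
            exact mem_zpowers _
          have h4 : QuotientGroup.mk' M (z ^ p) = 1 := (QuotientGroup.eq_one_iff _).2 h3
          rwa [map_pow] at h4
        have h3 : z ∈ (zpowers (QuotientGroup.mk' M z ^ p)).comap (QuotientGroup.mk' M) := by
          rw [h2]; exact mem_top z
        obtain ⟨i, hi⟩ := mem_zpowers_iff.1 (mem_comap.1 h3)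
        obtain ⟨k, hk⟩ := hT z
        have hzk : QuotientGroup.mk' M z ^ p ^ k = 1 := by rw [← map_pow, hk, map_one]
        have hp1 : ∀ j : ℕ, QuotientGroup.mk' M z ∈ zpowers (QuotientGroup.mk' M z ^ p ^ j) := by
          intro j
          induction j with
          | zero => rw [pow_zero, pow_one]; exact mem_zpowers _
          | succ j ih =>
            obtain ⟨m, hm⟩ := mem_zpowers_iff.1 ih
            rw [mem_zpowers_iff]
            refine ⟨i * m, ?_⟩
            have e : QuotientGroup.mk' M z ^ p ^ (j + 1) = (QuotientGroup.mk' M z ^ p) ^ p ^ j := by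
              rw [← pow_mul, pow_succ']
            rw [e]
            calc ((QuotientGroup.mk' M z ^ p) ^ p ^ j) ^ (i * m)
                = (((QuotientGroup.mk' M z ^ p) ^ i) ^ p ^ j) ^ m := by
                  simp only [← zpow_natCast, ← zpow_mul]
                  congr 1
                  ring
              _ = QuotientGroup.mk' M z := by rw [hi, hm]
        have h5 := hp1 k
        rw [hzk, zpowers_one_eq_bot, mem_bot] at h5
        exact hz ((QuotientGroup.eq_one_iff z).1 h5)
      rw [← QuotientGroup.eq_one_iff (N := M)]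
      change QuotientGroup.mk' M (x ^ p) = 1
      obtain ⟨i, hi⟩ := mem_zpowers_iff.1 (hcyc x)
      rw [map_pow, ← hi, ← zpow_natCast, ← zpow_mul, mul_comm, zpow_mul, zpow_natCast, h1,
        one_zpow]
  refine ⟨fun x y => ?_, fun x => ?_⟩
  · rw [frattini, Order.radical, mem_iInf]
    intro M
    rw [mem_iInf]
    exact fun hM => (key M hM).1 x y
  · rw [frattini, Order.radical, mem_iInf]
    intro M
    rw [mem_iInf]
    exact fun hM => (key M hM).2 x

end

section
variable {𝕜 : Type v} [Field 𝕜] {G : Type u} [Group G] {p : ℕ}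

lemma frat_ac [hp : Fact p.Prime] [Finite G] {T : Subgroup G} (hT : IsPGroup p T)
    (hne : T ≠ ⊥) (hnot : ¬ ((∀ x ∈ T, ∀ y ∈ T, x * y = y * x) ∧ ∀ x ∈ T, x ^ p = 1)) :
    ¬ NA 𝕜 {x : Subgroup G | x ≠ ⊥ ∧ x < T} := by
  obtain ⟨hf1, hf2⟩ := frattini_spec hT
  set Φ : Subgroup G := (frattini T).map T.subtype with hΦ
  have hΦT : Φ ≤ T := by
    rintro _ ⟨x, _, rfl⟩
    exact x.2
  have hΦne : Φ ≠ ⊥ := by
    intro hcon
    apply hnot
    have h1 : ∀ x : T, x ∈ frattini T → x = 1 := by
      intro x hx
      have : (x : G) ∈ Φ := ⟨x, hx, rfl⟩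
      rw [hcon, mem_bot] at this
      exact Subtype.ext this
    refine ⟨fun x hx y hy => ?_, fun x hx => ?_⟩
    · have h2 := congrArg Subtype.val (h1 _ (hf1 ⟨x, hx⟩ ⟨y, hy⟩))
      have h3 : x * y * x⁻¹ * y⁻¹ = 1 := h2
      rw [mul_inv_eq_one, mul_inv_eq_iff_eq_mul] at h3
      exact h3
    · exact congrArg Subtype.val (h1 _ (hf2 ⟨x, hx⟩))
  have hlt : ∀ x : Subgroup G, x < T → x ⊔ Φ < T := by
    intro x hx
    refine lt_of_le_of_ne (sup_le hx.le hΦT) fun hcon => ?_
    have h1 : x.subgroupOf T ⊔ frattini T = ⊤ := by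
      have hinj : Function.Injective (Subgroup.map T.subtype) :=
        Subgroup.map_injective T.subtype_injective
      apply hinj
      rw [Subgroup.map_sup, subgroupOf_map_subtype, inf_eq_left.2 hx.le, ← MonoidHom.range_eq_map,
        Subgroup.range_subtype]
      exact hcon
    have h2 := frattini_nongenerating h1
    rw [subgroupOf_eq_top] at h2
    exact absurd hx (not_lt_of_ge h2)
  have hΦlt : Φ < T := by
    have h1 := hlt ⊥ (bot_lt_iff_ne_bot.2 hne)
    rwa [bot_sup_eq] at h1
  refine ac_cone (φ := fun x => x ⊔ Φ) (F := Φ) ⟨hΦne, hΦlt⟩ ?_ (fun x _ => le_sup_right)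
    (fun x _ => le_sup_left) fun x _ y _ hxy => sup_le_sup_right hxy Φ
  rintro x ⟨h1, h2⟩
  refine ⟨fun hcon => h1 ?_, hlt x h2⟩
  rw [eq_bot_iff, ← hcon]
  exact le_sup_left

end

end Vale.Agent.P240.H195
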