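import Vale.Agent.P240.H195.TRel
import Vale.Agent.P240.H195.TFrat
import Vale.Agent.P240.H195.BNChar

/-!
The poset of `p`-subgroups of `A ≤ Aut L` that are elementary abelian modulo inner automorphisms:
vanishing of the homology of upper links.
-/

namespace Vale.Agent.P240.H195

open Subgroup Vale.Agent.P240.K Finsupp

universe u v

section
variable {𝕜 : Type v} [Field 𝕜] {L : Type u} [Group L] {B N U : Subgroup L} {S : Set L} {p : ℕ}

/-- elementary abelian modulo inner automorphisms -/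
def EM (p : ℕ) (R : Subgroup (MulAut L)) : Prop :=
  (∀ x ∈ R, ∀ y ∈ R, x * y * x⁻¹ * y⁻¹ ∈ innS L) ∧ ∀ x ∈ R, x ^ p ∈ innS L

lemma mem_inn_iff {x : MulAut L} : x ∈ innS L ↔ QuotientGroup.mk' (innS L) x = 1 :=
  (QuotientGroup.eq_one_iff x).symm

lemma EM.mono {R R' : Subgroup (MulAut L)} (h : EM p R) (hle : R' ≤ R) : EM p R' :=
  ⟨fun x hx y hy => h.1 x (hle hx) y (hle hy), fun x hx => h.2 x (hle hx)⟩

lemma EM.sup {R : Subgroup (MulAut L)} (h : EM p R) : EM p (innS L ⊔ R) := by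
  have key : ∀ x ∈ innS L ⊔ R, ∃ y ∈ R, QuotientGroup.mk' (innS L) x =
      QuotientGroup.mk' (innS L) y := by
    intro x hx
    rw [Subgroup.mem_sup_of_normal_left] at hx
    obtain ⟨i, hi, r, hr, rfl⟩ := hx
    exact ⟨r, hr, by rw [map_mul, mem_inn_iff.1 hi, one_mul]⟩
  refine ⟨fun x hx y hy => ?_, fun x hx => ?_⟩
  · obtain ⟨a, ha, hxa⟩ := key x hx
    obtain ⟨b, hb, hyb⟩ := key y hy
    have h1 := mem_inn_iff.1 (h.1 a ha b hb)
    rw [mem_inn_iff]
    rw [map_mul, map_mul, map_mul, map_inv, map_inv] at h1 ⊢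
    rw [hxa, hyb]
    exact h1
  · obtain ⟨a, ha, hxa⟩ := key x hx
    have h1 := mem_inn_iff.1 (h.2 a ha)
    rw [mem_inn_iff]
    rw [map_pow] at h1 ⊢
    rw [hxa]
    exact h1

/-- the nontrivial `p`-subgroups of `A` that are elementary abelian modulo inner automorphisms -/
def XS (p : ℕ) (A : Subgroup (MulAut L)) : Set (Subgroup (MulAut L)) :=
  {R | R ≠ ⊥ ∧ R ≤ A ∧ IsPGroup p R ∧ EM p R}

lemma XS_down {A R R' : Subgroup (MulAut L)} (hR : R ∈ XS p A) (hle : R' ≤ R) (hne : R' ≠ ⊥) :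
    R' ∈ XS p A :=
  ⟨hne, hle.trans hR.2.1, hR.2.2.1.to_le hle, hR.2.2.2.mono hle⟩

/-- reduction to the elementary abelian subgroups -/
theorem NA_of_XS [hp : Fact p.Prime] [Finite L] {A : Subgroup (MulAut L)}
    (h : NA 𝕜 (XS p A)) : NA 𝕜 (Ain p A) := by
  by_contra hac
  refine ac_dn (S := XS p A) (Set.toFinite _) (X := Ain p A) ?_ ?_ ?_ hac h
  · rintro E hE
    refine ⟨hE.1.1, hE.2, isPGroup_of_mem hE.1, fun x hx y hy => ?_, fun x hx => ?_⟩
    · have : x * y * x⁻¹ * y⁻¹ = 1 := by rw [hE.1.2.1 x hx y hy]; group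
      rw [this]
      exact one_mem _
    · rw [hE.1.2.2 x hx]
      exact one_mem _
  · rintro E hE R hR hle
    exact ⟨⟨hR.1, fun x hx y hy => hE.1.2.1 x (hle hx) y (hle hy),
      fun x hx => hE.1.2.2 x (hle hx)⟩, hle.trans hE.2⟩
  · intro T hT hTA
    have : {x | x ∈ XS p A ∧ x < T} = {x | x ≠ ⊥ ∧ x < T} := by
      ext x
      exact ⟨fun hx => ⟨hx.1.1, hx.2⟩, fun hx => ⟨XS_down hT hx.2.le hx.1, hx.2⟩⟩
    rw [this]
    exact frat_ac hT.2.2.1 hT.1 fun hcon => hTA ⟨⟨hT.1, hcon.1, hcon.2⟩, hT.2.1⟩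

/-- `F` normalizes the inner automorphisms given by `Q` -/
lemma le_norm_map {F : Subgroup (MulAut L)} {Q : Subgroup L} (hQ : Inv (F : Set (MulAut L)) Q) :
    F ≤ normalizer ((Q.map MulAut.conj : Subgroup (MulAut L)) : Set (MulAut L)) := by
  have key : ∀ f ∈ F, ∀ φ ∈ Q.map MulAut.conj, f * φ * f⁻¹ ∈ Q.map MulAut.conj := by
    rintro f hf _ ⟨e, he, rfl⟩
    refine ⟨f e, ?_, ?_⟩
    · have := apply_mem_am (f := f) he
      rwa [hQ f hf] at this
    · exact (conj_aut f e).symm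
  intro f hf
  rw [mem_normalizer_iff]
  intro φ
  refine ⟨key f hf φ, fun hφ => ?_⟩
  have h1 := key f⁻¹ (inv_mem hf) _ hφ
  have e : f⁻¹ * (f * φ * f⁻¹) * f⁻¹⁻¹ = φ := by group
  rwa [e] at h1

lemma map_conj_le (Q : Subgroup L) : Q.map MulAut.conj ≤ innS L := by
  rintro _ ⟨x, _, rfl⟩
  exact ⟨x, rfl⟩

lemma map_conj_ne (hinj : Function.Injective (MulAut.conj : L →* MulAut L)) {Q : Subgroup L}
    (hQ : Q ≠ ⊥) : Q.map (MulAut.conj : L →* MulAut L) ≠ ⊥ := by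
  intro hcon
  apply hQ
  rwa [Subgroup.map_eq_bot_iff_of_injective _ hinj] at hcon

/-- the subgroup generated by a stable `p`-subgroup and `F` -/
lemma sup_mem_XS {A F : Subgroup (MulAut L)} (hA : innS L ≤ A) (hFA : F ≤ A)
    (hF : IsPGroup p F) (hFE : EM p F) (hinj : Function.Injective (MulAut.conj : L →* MulAut L))
    {Q : Subgroup L} (hQ : Q ∈ QF p (F : Set (MulAut L))) :
    Q.map MulAut.conj ⊔ F ∈ XS p A := by
  refine ⟨?_, sup_le ((map_conj_le Q).trans hA) hFA, ?_, ?_⟩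
  · intro hcon
    apply map_conj_ne hinj hQ.1
    rw [eq_bot_iff, ← hcon]
    exact le_sup_left
  · rw [sup_comm]
    exact hF.to_sup_of_normal_right' (hQ.2.1.map _) (le_norm_map hQ.2.2)
  · exact hFE.sup.mono (sup_le_sup_right (map_conj_le Q) F)

/-- the inner part of a subgroup containing `F` -/
lemma comap_mem_QF {A F R : Subgroup (MulAut L)} (hR : R ∈ XS p A) (hFR : F ≤ R)
    (hinj : Function.Injective (MulAut.conj : L →* MulAut L)) (hRI : R ⊓ innS L ≠ ⊥) :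
    R.comap MulAut.conj ∈ QF p (F : Set (MulAut L)) := by
  refine ⟨?_, hR.2.2.1.comap_of_injective _ hinj, fun f hf => ?_⟩
  · intro hcon
    apply hRI
    rw [eq_bot_iff]
    rintro _ ⟨h1, ⟨x, rfl⟩⟩
    have h2 : x ∈ R.comap MulAut.conj := h1
    rw [hcon, mem_bot] at h2
    rw [h2, map_one]
    exact one_mem _
  · ext x
    rw [mem_am, mem_comap, mem_comap]
    have e : MulAut.conj (f⁻¹ x) = f⁻¹ * MulAut.conj x * f := by
      have := conj_aut f⁻¹ x
      rw [inv_inv] at this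
      exact this.symm
    rw [e]
    constructor
    · intro h1
      have h2 := mul_mem (mul_mem (hFR hf) h1) (inv_mem (hFR hf))
      have e2 : f * (f⁻¹ * MulAut.conj x * f) * f⁻¹ = MulAut.conj x := by group
      rwa [e2] at h2
    · intro h1
      exact mul_mem (mul_mem (inv_mem (hFR hf)) h1) (hFR hf)

lemma card_pow_of_lt [hp : Fact p.Prime] [Finite L] {F T : Subgroup (MulAut L)}
    (hT : IsPGroup p T) (hlt : F < T) : p * Nat.card F ≤ Nat.card T := by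
  obtain ⟨a, ha⟩ := (hT.to_le hlt.le).exists_card_eq
  obtain ⟨b, hb⟩ := hT.exists_card_eq
  have h1 : Nat.card F < Nat.card T := Set.Finite.card_lt_card (Set.toFinite _) hlt
  rw [ha, hb] at h1 ⊢
  have h2 := (Nat.pow_lt_pow_iff_right hp.out.one_lt).1 h1
  rw [← pow_succ']
  exact Nat.pow_le_pow_right hp.out.pos h2

lemma comm_of_EM {F : Subgroup (MulAut L)} (hFE : EM p F) (hFI : F ⊓ innS L = ⊥) :
    (∀ x ∈ F, ∀ y ∈ F, x * y = y * x) ∧ ∀ x ∈ F, x ^ p = 1 := by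
  refine ⟨fun x hx y hy => ?_, fun x hx => ?_⟩
  · have h0 : x * y * x⁻¹ * y⁻¹ ∈ F :=
      mul_mem (mul_mem (mul_mem hx hy) (inv_mem hx)) (inv_mem hy)
    have h1 : x * y * x⁻¹ * y⁻¹ ∈ F ⊓ innS L := mem_inf.2 ⟨h0, hFE.1 x hx y hy⟩
    rw [hFI, mem_bot, mul_inv_eq_one, mul_inv_eq_iff_eq_mul] at h1
    exact h1
  · have h1 : x ^ p ∈ F ⊓ innS L := ⟨pow_mem hx p, hFE.2 x hx⟩
    rwa [hFI, mem_bot] at h1

lemma cj_inf_inn {F : Subgroup (MulAut L)} (hFI : F ⊓ innS L = ⊥) (φ : MulAut L) :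
    cj φ F ⊓ innS L = ⊥ := by
  rw [eq_bot_iff]
  rintro x ⟨h1, h2⟩
  have h1' : φ⁻¹ * x * φ ∈ F := mem_cj.1 h1
  have h2' : φ⁻¹ * x * φ ∈ innS L := by
    have := innS_normal.conj_mem x h2 φ⁻¹
    rwa [inv_inv] at this
  have h3 : φ⁻¹ * x * φ ∈ F ⊓ innS L := ⟨h1', h2'⟩
  rw [hFI, mem_bot] at h3
  rw [mem_bot]
  have e : x = φ * (φ⁻¹ * x * φ) * φ⁻¹ := by group
  rw [e, h3]
  group

lemma EM.cj {F : Subgroup (MulAut L)} (hFE : EM p F) (φ : MulAut L) : EM p (K.cj φ F) := by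
  refine ⟨fun x hx y hy => ?_, fun x hx => ?_⟩
  · rw [mem_cj] at hx hy
    have h1 := innS_normal.conj_mem _ (hFE.1 _ hx _ hy) φ
    have e : φ * (φ⁻¹ * x * φ * (φ⁻¹ * y * φ) * (φ⁻¹ * x * φ)⁻¹ * (φ⁻¹ * y * φ)⁻¹) * φ⁻¹ =
        x * y * x⁻¹ * y⁻¹ := by group
    rwa [e] at h1
  · rw [mem_cj] at hx
    have h1 := innS_normal.conj_mem _ (hFE.2 _ hx) φ
    have e0 : (φ⁻¹ * x * φ) ^ p = φ⁻¹ * x ^ p * φ := by
      have := conj_pow (i := p) (a := φ⁻¹) (b := x)
      rwa [inv_inv] at this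
    rw [e0] at h1
    have e : φ * (φ⁻¹ * x ^ p * φ) * φ⁻¹ = x ^ p := by group
    rwa [e] at h1

namespace SB

variable (h : SB p B N U S)
include h

/-- the bound for the length of chains -/
lemma bound [hp : Fact p.Prime] [Finite L] {A : Subgroup (MulAut L)} (hA : innS L ≤ A) {k : ℕ}
    (hk : ∀ F : Subgroup (MulAut L), F ≤ A → IsPGroup p F → EM p F → F ⊓ innS L = ⊥ →
      (∀ f ∈ F, am f B = B) → (∀ f ∈ F, ∀ P ∈ mps B S ⊤, am f P = P) → Nat.card F ≤ p ^ k)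
    {F : Subgroup (MulAut L)} (hFA : F ≤ A) (hF : IsPGroup p F) (hFE : EM p F)
    (hFI : F ⊓ innS L = ⊥) {l : List (Subgroup L)} (hl : st (YF B (F : Set (MulAut L))) l) :
    p ^ l.length * Nat.card F ≤ p ^ ((mps B S ⊤).ncard + k) := by
  obtain ⟨g, hg⟩ := h.exists_fix hp.out hF
  set F' := cj (MulAut.conj g)⁻¹ F with hF'
  have hF'eq : (F' : Set (MulAut L)) = (fun f => (MulAut.conj g)⁻¹ * f * MulAut.conj g) ''
      (F : Set (MulAut L)) := by
    ext φ
    constructor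
    · intro hφ
      have h1 : (MulAut.conj g)⁻¹⁻¹ * φ * (MulAut.conj g)⁻¹ ∈ F := mem_cj.1 hφ
      refine ⟨_, h1, ?_⟩
      simp only [inv_inv]
      group
    · rintro ⟨f, hf, rfl⟩
      change _ ∈ F'
      rw [hF', mem_cj]
      have e : (MulAut.conj g)⁻¹⁻¹ * ((MulAut.conj g)⁻¹ * f * MulAut.conj g) * (MulAut.conj g)⁻¹ =
          f := by group
      rw [e]
      exact hf
  have hfix : ∀ f ∈ F', am f B = B := by
    intro f' hf'
    have h2 : f' ∈ (F' : Set (MulAut L)) := hf'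
    rw [hF'eq] at h2
    obtain ⟨f, hf, rfl⟩ := h2
    have h1 := am_conj_cj f g (cj g B)
    rw [hg f hf, ← cj_mul, inv_mul_cancel, cj_one] at h1
    exact h1
  have hgA : (MulAut.conj g)⁻¹ ∈ A := inv_mem (hA ⟨g, rfl⟩)
  have hF'A : F' ≤ A := by
    intro x hx
    rw [hF', mem_cj] at hx
    have h1 := mul_mem (mul_mem hgA (hFA hx)) (inv_mem hgA)
    have e : (MulAut.conj g)⁻¹ * ((MulAut.conj g)⁻¹⁻¹ * x * (MulAut.conj g)⁻¹) *
        (MulAut.conj g)⁻¹⁻¹ = x := by group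
    rwa [e] at h1
  have hF'p : IsPGroup p F' := hF.map _
  have hF'E : EM p F' := hFE.cj _
  have hF'I : F' ⊓ innS L = ⊥ := cj_inf_inn hFI _
  have hcard : Nat.card F' = Nat.card F :=
    Subgroup.card_map_of_injective (MulAut.conj (MulAut.conj g)⁻¹).injective
  have hl' : st (YF B (F' : Set (MulAut L))) (l.map (cjIso g⁻¹)) := by
    refine st_map (S := YF B (F : Set (MulAut L))) ?_
      (fun x _ y _ hxy => (cjIso g⁻¹).lt_iff_lt.2 hxy) l hl
    intro Q hQ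
    rw [hF'eq, YF_conj_eq]
    exact ⟨Q, hQ, rfl⟩
  have h1 := h.len_bound hp.out (F := F') (comm_of_EM hF'E hF'I).1 hfix hl'
  rw [List.length_map, hcard] at h1
  refine h1.trans ?_
  rw [mul_comm, pow_add]
  refine Nat.mul_le_mul_left _ (hk _ (inf_le_left.trans hF'A) (hF'p.to_le inf_le_left)
    (hF'E.mono inf_le_left) ?_ (fun f hf => hfix f hf.1) fun f hf => hf.2)
  rw [eq_bot_iff]
  rintro x ⟨⟨hx, _⟩, hxI⟩
  have h2 : x ∈ F' ⊓ innS L := ⟨hx, hxI⟩
  rwa [hF'I] at h2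

/-- vanishing of the homology of upper links -/
theorem link_vanish [hp : Fact p.Prime] [Finite L]
    (hinj : Function.Injective (MulAut.conj : L →* MulAut L))
    {A : Subgroup (MulAut L)} (hA : innS L ≤ A) {k : ℕ}
    (hk : ∀ F : Subgroup (MulAut L), F ≤ A → IsPGroup p F → EM p F → F ⊓ innS L = ⊥ →
      (∀ f ∈ F, am f B = B) → (∀ f ∈ F, ∀ P ∈ mps B S ⊤, am f P = P) → Nat.card F ≤ p ^ k) :
    ∀ F : Subgroup (MulAut L), F ≤ A → IsPGroup p F → EM p F → F ⊓ innS L = ⊥ → ∀ m : ℕ,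
      p ^ ((mps B S ⊤).ncard + k) < p ^ m * Nat.card F → Hv 𝕜 {R | R ∈ XS p A ∧ F < R} m := by
  intro F
  induction F using WellFoundedGT.induction with
  | ind F ih =>
    intro hFA hF hFE hFI m hm
    have hbd := fun {l : List (Subgroup L)} (hl : st (YF B (F : Set (MulAut L))) l) =>
      h.bound hA hk hFA hF hFE hFI hl
    rcases m with _ | m
    · exfalso
      have h1 := hbd (l := []) ⟨List.Pairwise.nil, by simp⟩
      rw [List.length_nil] at h1
      omega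
    refine hv_up (S := {R | R ∈ XS p A ∧ F < R}) (Set.toFinite _)
      (X := {R | (R ∈ XS p A ∧ F < R) ∧ R ⊓ innS L ≠ ⊥}) (fun R hR => hR.1) ?_ ?_ ?_
    · rintro R ⟨_, h2⟩ R' hR' hle
      refine ⟨hR', fun hcon => h2 ?_⟩
      rw [eq_bot_iff, ← hcon]
      exact inf_le_inf_right _ hle
    · rintro T ⟨hT, hFT⟩ hTX
      have hTI : T ⊓ innS L = ⊥ := by
        by_contra hcon
        exact hTX ⟨⟨hT, hFT⟩, hcon⟩
      have hset : {x | x ∈ {R | R ∈ XS p A ∧ F < R} ∧ T < x} = {R | R ∈ XS p A ∧ T < R} := by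
        ext R
        exact ⟨fun hR => ⟨hR.1.1, hR.2⟩, fun hR => ⟨⟨hR.1, hFT.trans hR.2⟩, hR.2⟩⟩
      rw [hset]
      refine ih T hFT hT.2.1 hT.2.2.1 hT.2.2.2 hTI m (hm.trans_le ?_)
      rw [pow_succ, mul_assoc]
      exact Nat.mul_le_mul_left _ (card_pow_of_lt hT.2.2.1 hFT)
    · have h1 : Hv 𝕜 (QF p (F : Set (MulAut L))) (m + 1) := by
        refine h.hv_QF hp.out hF fun l hl hcon => ?_
        have h2 := hbd hl
        rw [hcon] at h2
        omega
      refine hv_maps (g := fun R : Subgroup (MulAut L) => R.comap MulAut.conj)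
        (f := fun Q : Subgroup L => Q.map MulAut.conj ⊔ F) ?_ ?_ ?_ ?_ ?_ h1
      · rintro R ⟨⟨hR, hFR⟩, hRI⟩
        exact comap_mem_QF hR hFR.le hinj hRI
      · intro R _ R' _ hle
        exact comap_mono hle
      · intro Q hQ
        refine ⟨⟨sup_mem_XS hA hFA hF hFE hinj hQ, lt_of_le_of_ne le_sup_right fun hcon => ?_⟩,
          fun hcon => ?_⟩
        · apply map_conj_ne hinj hQ.1
          rw [eq_bot_iff, ← hFI]
          refine le_inf ?_ (map_conj_le Q)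
          conv_rhs => rw [hcon]
          exact le_sup_left
        · apply map_conj_ne hinj hQ.1
          rw [eq_bot_iff, ← hcon]
          exact le_inf le_sup_left (map_conj_le Q)
      · intro Q _ Q' _ hle
        exact sup_le_sup_right (Subgroup.map_mono hle) F
      · rintro R ⟨⟨hR, hFR⟩, -⟩
        exact sup_le (map_comap_le _ _) hFR.le

end SB

end

end Vale.Agent.P240.H195
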