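import Vale.Agent.P240.H195.TSph

/-!
Bounds for the length of chains of parabolic subgroups stabilized by an abelian group `F` of
automorphisms.
-/

namespace Vale.Agent.P240.H195

open Subgroup Vale.Agent.P240.K Finsupp

universe u v

section
variable {L : Type u} [Group L] {B N U : Subgroup L} {S : Set L} {r : ℕ}

/-- the automorphisms stabilizing all elements of `Δ` -/
def fixD (Δ : Set (Subgroup L)) : Subgroup (MulAut L) where
  carrier := {f | ∀ P ∈ Δ, am f P = P}
  one_mem' := fun P _ => am_one P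
  mul_mem' := fun {f g} hf hg P hP => by rw [am_mul, hg P hP, hf P hP]
  inv_mem' := fun {f} hf P hP => am_inv_eq (hf P hP)

lemma mem_fixD {Δ : Set (Subgroup L)} {f : MulAut L} : f ∈ fixD Δ ↔ ∀ P ∈ Δ, am f P = P :=
  Iff.rfl

/-- orbits -/
lemma card_am_orbit [Finite L] (E : Subgroup (MulAut L)) (P : Subgroup L) :
    Nat.card E = {Q | ∃ f ∈ E, Q = am f P}.ncard *
      Nat.card (E ⊓ stabA P : Subgroup (MulAut L)) := by
  let act : MulAction E (Subgroup L) :=
    { smul := fun f Q => am (f : MulAut L) Q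
      one_smul := fun Q => am_one Q
      mul_smul := fun f g Q => am_mul _ _ Q }
  have h1 := (MulAction.stabilizer E P).index_mul_card
  rw [MulAction.index_stabilizer] at h1
  have h2 : (MulAction.stabilizer E P).map E.subtype = E ⊓ stabA P := by
    ext f
    constructor
    · rintro ⟨g, hg, rfl⟩
      exact ⟨g.2, hg⟩
    · rintro ⟨hf, hfP⟩
      exact ⟨⟨f, hf⟩, hfP, rfl⟩
  have h3 : Nat.card (E ⊓ stabA P : Subgroup (MulAut L)) =
      Nat.card (MulAction.stabilizer E P) := by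
    rw [← h2]
    exact Subgroup.card_map_of_injective E.subtype_injective
  have h4 : MulAction.orbit E P = {Q | ∃ f ∈ E, Q = am f P} := by
    ext Q
    constructor
    · rintro ⟨f, rfl⟩
      exact ⟨f, f.2, rfl⟩
    · rintro ⟨f, hf, rfl⟩
      exact ⟨⟨f, hf⟩, rfl⟩
  rw [h3, ← h4, ← h1]

lemma mul_le_pow {q : ℕ} (hq : 2 ≤ q) {m : ℕ} (hm : 1 ≤ m) : q * m ≤ q ^ m := by
  induction m, hm using Nat.le_induction with
  | base => simp
  | succ m hm ih =>
    rw [pow_succ, mul_add, mul_one]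
    have h1 : q ≤ q ^ m := by
      calc q = q ^ 1 := (pow_one q).symm
        _ ≤ q ^ m := Nat.pow_le_pow_right (by omega) hm
    calc q * m + q ≤ q ^ m + q ^ m := by omega
      _ = q ^ m * 2 := by ring
      _ ≤ q ^ m * q := Nat.mul_le_mul_left _ hq

/-- the kernel of an abelian group acting on a finite set is not too small -/
lemma orb [Finite L] {q : ℕ} (hq : 2 ≤ q) : ∀ (k : ℕ) (Δ : Set (Subgroup L))
    (E : Subgroup (MulAut L)), Δ.ncard = k → (∀ x ∈ E, ∀ y ∈ E, x * y = y * x) →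
    (∀ f ∈ E, ∀ P ∈ Δ, am f P ∈ Δ) →
    Nat.card E ≤ Nat.card (E ⊓ fixD Δ : Subgroup (MulAut L)) * q ^ k ∧
      (Δ.Nonempty → q * Nat.card E ≤ Nat.card (E ⊓ fixD Δ : Subgroup (MulAut L)) * q ^ k) := by
  intro k
  induction k using Nat.strong_induction_on with
  | _ k ih =>
    intro Δ E hk hcomm hinv
    rcases Δ.eq_empty_or_nonempty with rfl | hne
    · refine ⟨?_, fun hcon => absurd hcon Set.not_nonempty_empty⟩
      rw [Set.ncard_empty] at hk
      rw [← hk, pow_zero, mul_one]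
      refine le_of_eq ?_
      congr 2
      exact (inf_eq_left.2 fun f _ P hP => absurd hP (Set.notMem_empty P)).symm
    · have key : q * Nat.card E ≤ Nat.card (E ⊓ fixD Δ : Subgroup (MulAut L)) * q ^ k := by
        obtain ⟨P, hP⟩ := hne
        set O : Set (Subgroup L) := {Q | ∃ f ∈ E, Q = am f P} with hO
        have hOfin : O.Finite := Set.toFinite O
        have hOΔ : O ⊆ Δ := by
          rintro Q ⟨f, hf, rfl⟩
          exact hinv f hf P hP
        have hPO : P ∈ O := ⟨1, one_mem _, (am_one P).symm⟩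
        have hO1 : 1 ≤ O.ncard := by
          rw [Nat.one_le_iff_ne_zero]
          intro hcon
          rw [Set.ncard_eq_zero hOfin] at hcon
          rw [hcon] at hPO
          exact hPO
        have hcard : O.ncard + (Δ \ O).ncard = k := by
          rw [← hk, add_comm]
          exact Set.ncard_sdiff_add_ncard_of_subset hOΔ
        have h1 := card_am_orbit E P
        have h2 := (ih (Δ \ O).ncard (by omega) (Δ \ O) (E ⊓ stabA P) rfl
          (fun x hx y hy => hcomm x hx.1 y hy.1) (by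
            rintro f ⟨hf, _⟩ Q ⟨hQ, hQO⟩
            refine ⟨hinv f hf Q hQ, ?_⟩
            rintro ⟨g, hg, hgQ⟩
            apply hQO
            refine ⟨f⁻¹ * g, mul_mem (inv_mem hf) hg, ?_⟩
            rw [am_mul, ← hgQ, ← am_mul, inv_mul_cancel, am_one])).1
        have h3 : (E ⊓ stabA P) ⊓ fixD (Δ \ O) = E ⊓ fixD Δ := by
          ext f
          constructor
          · rintro ⟨⟨hf, hfP⟩, hfO⟩
            refine ⟨hf, fun Q hQ => ?_⟩
            by_cases hQO : Q ∈ O
            · obtain ⟨g, hg, rfl⟩ := hQO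
              rw [← am_mul, hcomm f hf g hg, am_mul]
              have hfP' : am f P = P := hfP
              rw [hfP']
            · exact hfO Q ⟨hQ, hQO⟩
          · rintro ⟨hf, hfΔ⟩
            exact ⟨⟨hf, hfΔ P hP⟩, fun Q hQ => hfΔ Q hQ.1⟩
        rw [h3] at h2
        have h4 := mul_le_pow hq hO1
        calc q * Nat.card E = (q * O.ncard) * Nat.card (E ⊓ stabA P : Subgroup (MulAut L)) := by
              rw [h1]; ring
          _ ≤ q ^ O.ncard * (Nat.card (E ⊓ fixD Δ : Subgroup (MulAut L)) *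
                q ^ (Δ \ O).ncard) := Nat.mul_le_mul h4 h2
          _ = Nat.card (E ⊓ fixD Δ : Subgroup (MulAut L)) * q ^ k := by
              rw [← hcard, pow_add]; ring
      refine ⟨le_trans ?_ key, fun _ => key⟩
      calc Nat.card E = 1 * Nat.card E := (one_mul _).symm
        _ ≤ q * Nat.card E := Nat.mul_le_mul_right _ (by omega)

namespace SB

variable (h : SB r B N U S)
include h

lemma mps_inv [Finite L] {f : MulAut L} (hf : am f B = B) {A : Subgroup L} (hA : am f A = A)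
    {P : Subgroup L} (hP : P ∈ mps B S A) : am f P ∈ mps B S A := by
  obtain ⟨⟨s, hs, rfl⟩, hPA⟩ := hP
  obtain ⟨t, ht, hst⟩ := h.am_par hf hs
  refine ⟨⟨t, ht, hst⟩, ?_⟩
  have h1 : am f (Par B s) ≤ am f A := am_le.2 hPA
  rwa [hA] at h1

lemma chain_bound [Finite L] {q : ℕ} (hq : 2 ≤ q) {F : Subgroup (MulAut L)}
    (hFc : ∀ x ∈ F, ∀ y ∈ F, x * y = y * x) (hF : ∀ f ∈ F, am f B = B) :
    ∀ (l : List (Subgroup L)) (A : Subgroup L), B ≤ A → Inv (F : Set (MulAut L)) A →
      st {Q | B ≤ Q ∧ Q < A ∧ Inv (F : Set (MulAut L)) Q} l →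
      q ^ l.length * Nat.card F ≤
        Nat.card (F ⊓ fixD (mps B S A) : Subgroup (MulAut L)) * q ^ (mps B S A).ncard := by
  intro l
  induction l with
  | nil =>
    intro A hBA hA _
    rw [List.length_nil, pow_zero, one_mul]
    exact (orb hq _ (mps B S A) F rfl hFc fun f hf P hP => h.mps_inv (hF f hf) (hA f hf) hP).1
  | cons Q l ih =>
    intro A hBA hA hl
    have hp := List.pairwise_cons.1 hl.1
    obtain ⟨hBQ, hQA, hQ⟩ := hl.2 Q (by simp)
    have h1 := ih Q hBQ hQ ⟨hp.2, fun P hP =>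
      ⟨(hl.2 P (by simp [hP])).1, hp.1 P hP, (hl.2 P (by simp [hP])).2.2⟩⟩
    have hsub : mps B S Q ⊆ mps B S A := fun P hP => ⟨hP.1, hP.2.trans hQA.le⟩
    obtain ⟨Δ, hΔ⟩ : ∃ Δ, Δ = mps B S A \ mps B S Q := ⟨_, rfl⟩
    have hne : Δ.Nonempty := by
      by_contra hcon
      refine absurd hQA (not_lt_of_ge (h.le_of_mps hBA hBQ fun s hs hsA => ?_))
      by_contra hsQ
      apply hcon
      refine ⟨Par B s, ?_⟩
      rw [hΔ]
      exact ⟨⟨⟨s, hs, rfl⟩, par_le hBA hsA⟩, fun h2 => hsQ (h2.2 self_mem_Par)⟩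
    have h2 := (orb hq _ Δ (F ⊓ fixD (mps B S Q)) rfl (fun x hx y hy => hFc x hx.1 y hy.1) (by
      rintro f ⟨hf, _⟩ P hP
      rw [hΔ] at hP ⊢
      refine ⟨h.mps_inv (hF f hf) (hA f hf) hP.1, fun hcon => hP.2 ⟨hP.1.1, ?_⟩⟩
      have h3 : am f P ≤ am f Q := by
        rw [hQ f hf]
        exact hcon.2
      exact am_le.1 h3)).2 hne
    have h3 : (F ⊓ fixD (mps B S Q)) ⊓ fixD Δ = F ⊓ fixD (mps B S A) := by
      ext f
      constructor
      · rintro ⟨⟨hf, hf1⟩, hf2⟩
        refine ⟨hf, fun P hP => ?_⟩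
        by_cases hPQ : P ∈ mps B S Q
        · exact hf1 P hPQ
        · exact hf2 P (by rw [hΔ]; exact ⟨hP, hPQ⟩)
      · rintro ⟨hf, hf1⟩
        refine ⟨⟨hf, fun P hP => hf1 P (hsub hP)⟩, fun P hP => hf1 P ?_⟩
        rw [hΔ] at hP
        exact hP.1
    rw [h3] at h2
    have h4 : (mps B S A).ncard = Δ.ncard + (mps B S Q).ncard := by
      rw [hΔ]
      exact (Set.ncard_sdiff_add_ncard_of_subset hsub).symm
    calc q ^ (Q :: l).length * Nat.card F = q * (q ^ l.length * Nat.card F) := by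
          rw [List.length_cons, pow_succ]; ring
      _ ≤ q * (Nat.card (F ⊓ fixD (mps B S Q) : Subgroup (MulAut L)) *
            q ^ (mps B S Q).ncard) := Nat.mul_le_mul_left _ h1
      _ = (q * Nat.card (F ⊓ fixD (mps B S Q) : Subgroup (MulAut L))) *
            q ^ (mps B S Q).ncard := by ring
      _ ≤ (Nat.card (F ⊓ fixD (mps B S A) : Subgroup (MulAut L)) * q ^ Δ.ncard) *
            q ^ (mps B S Q).ncard := Nat.mul_le_mul_right _ h2
      _ = _ := by rw [h4, pow_add]; ring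

/-- chains of proper parabolic subgroups stabilized by an abelian group -/
lemma len_bound [Finite L] (hr : r.Prime) {F : Subgroup (MulAut L)}
    (hFc : ∀ x ∈ F, ∀ y ∈ F, x * y = y * x) (hF : ∀ f ∈ F, am f B = B) {l : List (Subgroup L)}
    (hl : st (YF B (F : Set (MulAut L))) l) :
    r ^ l.length * Nat.card F ≤
      Nat.card (F ⊓ fixD (mps B S ⊤) : Subgroup (MulAut L)) * r ^ (mps B S ⊤).ncard := by
  -- a stable chamber in all elements of the list
  obtain ⟨g, hg, hgF⟩ : ∃ g, (∀ Q ∈ l, cj g B ≤ Q) ∧ Inv (F : Set (MulAut L)) (cj g B) := by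
    rcases l.eq_nil_or_concat with rfl | ⟨l', Q, hlQ⟩
    · exact ⟨1, by simp, fun f hf => by rw [cj_one]; exact hF f hf⟩
    · rw [List.concat_eq_append] at hlQ
      have hQ : Q ∈ l := by rw [hlQ]; simp
      obtain ⟨C, ⟨g, rfl⟩, h1, -, h2⟩ := h.exists_chF hr (F := (F : Set (MulAut L))) hF (hl.2 Q hQ)
      refine ⟨g, fun P hP => ?_, h2⟩
      rw [hlQ] at hP
      rcases List.mem_append.1 hP with h3 | h3
      · have h4 := hl.1
        rw [hlQ] at h4
        exact h1.trans ((List.pairwise_append.1 h4).2.2 P h3 Q (by simp)).le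
      · rw [List.mem_singleton] at h3
        rwa [h3]
  have hfg : ∀ f ∈ F, g⁻¹ * f g ∈ B := by
    intro f hf
    rw [← h.cj_B_eq_iff hr]
    have := hgF f hf
    rw [am_cj, hF f hf] at this
    exact this.symm
  have h1 := h.chain_bound hr.two_le hFc hF (l.map (cj g⁻¹)) ⊤ le_top (fun f _ => am_top f) (by
    refine st_map (S := {Q | Q ∈ YF B (F : Set (MulAut L)) ∧ cj g B ≤ Q}) ?_ ?_ l
      ⟨hl.1, fun Q hQ => ⟨hl.2 Q hQ, hg Q hQ⟩⟩
    · rintro Q ⟨hQ, hQg⟩
      have hBH : B ≤ cj g⁻¹ Q := cj_le_iff.1 hQg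
      refine ⟨hBH, lt_of_le_of_ne le_top fun hcon => hQ.2.1 ?_, fun f hf => ?_⟩
      · rw [eq_top_iff, ← cj_le (g := g⁻¹), hcon]
        exact le_top
      · have e : f g⁻¹ = (g⁻¹ * f g)⁻¹ * g⁻¹ := by rw [map_inv]; group
        rw [am_cj, hQ.2.2 f hf, e, cj_mul, cj_self (inv_mem (hBH (hfg f hf)))]
    · intro P _ Q _ hPQ
      exact lt_of_le_of_ne (cj_le.2 hPQ.le) fun hcon => hPQ.ne (cj_injective g⁻¹ hcon))
  rwa [List.length_map] at h1

end SB

end

end Vale.Agent.P240.H195
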