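import Vale.Agent.P240.H195.TOrb

/-!
The posets of nontrivial `p`-subgroups and of proper parabolic subgroups stabilized by a group of
automorphisms.
-/

namespace Vale.Agent.P240.H195

open Subgroup Vale.Agent.P240.K Finsupp

universe u v

section
variable {𝕜 : Type v} [Field 𝕜] {L : Type u} [Group L] {B N U : Subgroup L} {S : Set L} {p : ℕ}

/-- the nontrivial `p`-subgroups stabilized by `H` -/
def QF (p : ℕ) (H : Set (MulAut L)) : Set (Subgroup L) := {Q | Q ≠ ⊥ ∧ IsPGroup p Q ∧ Inv H Q}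

lemma am_isPGroup {f : MulAut L} {Q : Subgroup L} (hQ : IsPGroup p Q) : IsPGroup p (am f Q) :=
  hQ.map f.toMonoidHom

lemma am_inv_am (f : MulAut L) (Q : Subgroup L) : am f⁻¹ (am f Q) = Q := by
  rw [← am_mul, inv_mul_cancel, am_one]

lemma am_am_inv (f : MulAut L) (Q : Subgroup L) : am f (am f⁻¹ Q) = Q := by
  rw [← am_mul, mul_inv_cancel, am_one]

lemma YF_conj_eq (B : Subgroup L) (F : Set (MulAut L)) (g : L) :
    YF B ((fun f => (MulAut.conj g)⁻¹ * f * MulAut.conj g) '' F) = cjIso g⁻¹ '' YF B F := by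
  ext Q
  constructor
  · rintro ⟨⟨x, hx⟩, h2, h3⟩
    refine ⟨cj g Q, ⟨⟨g * x, ?_⟩, ?_, ?_⟩, ?_⟩
    · rw [cj_mul, cj_le]
      exact hx
    · intro hcon
      apply h2
      rw [eq_top_iff, ← cj_le (g := g), hcon]
      exact le_top
    · intro f hf
      have h4 := h3 _ ⟨f, hf, rfl⟩
      have h5 := am_conj_cj f g (cj g Q)
      rw [← cj_mul, inv_mul_cancel, cj_one] at h5
      rw [h4] at h5
      have h6 : cj g Q = cj g (cj g⁻¹ (am f (cj g Q))) := congrArg (cj g) h5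
      rw [← cj_mul, mul_inv_cancel, cj_one] at h6
      exact h6.symm
    · change cj g⁻¹ (cj g Q) = Q
      rw [← cj_mul, inv_mul_cancel, cj_one]
  · rintro ⟨Q, ⟨⟨x, hx⟩, h2, h3⟩, rfl⟩
    change cj g⁻¹ Q ∈ _
    refine ⟨⟨g⁻¹ * x, ?_⟩, ?_, ?_⟩
    · rw [cj_mul, cj_le]
      exact hx
    · intro hcon
      apply h2
      rw [eq_top_iff, ← cj_le (g := g⁻¹), hcon]
      exact le_top
    · rintro _ ⟨f, hf, rfl⟩
      change am ((MulAut.conj g)⁻¹ * f * MulAut.conj g) (cj g⁻¹ Q) = _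
      rw [am_conj_cj, h3 f hf]

lemma NA_cj (g : L) (X : Set (Subgroup L)) : NA 𝕜 (cjIso g '' X) ↔ NA 𝕜 X :=
  NA_image (cjIso g).injective.injOn fun _ _ _ _ => (cjIso g).lt_iff_lt.symm

namespace SB

variable (h : SB p B N U S)
include h

lemma U_ne_bot : U ≠ ⊥ := by
  intro hcon
  obtain ⟨s, hs⟩ := h.nonempty
  obtain ⟨b, hb, hb'⟩ := h.thick s hs
  obtain ⟨u, hu, t, htB, htN, rfl⟩ := h.split b hb
  rw [hcon, mem_bot] at hu
  apply hb'
  rw [hu, one_mul]
  have := h.norm s⁻¹ (inv_mem (h.sub s hs)) t htB htN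
  rwa [inv_inv] at this

lemma ne_bot_of_pb {Q : Subgroup L} (hQ : Pb B Q) : Q ≠ ⊥ := by
  obtain ⟨g, hg⟩ := hQ
  intro hcon
  apply h.U_ne_bot
  rw [eq_bot_iff, ← cj_le (g := g)]
  have h1 : cj g U ≤ Q := (cj_le.2 h.le).trans hg
  rw [hcon] at h1
  exact h1.trans bot_le

/-- `p`-groups containing a conjugate of `U` -/
lemma eq_cjU_of_le [Finite L] (hr : p.Prime) {P : Subgroup L} (hP : IsPGroup p P) {g : L}
    (hUP : cj g U ≤ P) : P = cj g U := by
  have h1 : U ≤ cj g⁻¹ P := cj_le_iff.1 hUP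
  have h2 := h.eq_U_of_le hr (hP.map (MulAut.conj g⁻¹).toMonoidHom) h1
  have h3 : cj g⁻¹ P = U := h2
  rw [← h3, ← cj_mul, mul_inv_cancel, cj_one]

/-- the largest normal `p`-subgroup of a proper parabolic subgroup -/
lemma exists_Op [Finite L] (hr : p.Prime) {P : Subgroup L} (hP : Pb B P) (hPt : P ≠ ⊤) :
    ∃ W ≤ P, W ≠ ⊥ ∧ IsPGroup p W ∧ P ≤ normalizer (W : Set L) ∧
      (∀ f : MulAut L, am f P = P → am f W = W) ∧ ∀ P' ≤ P, Pb B P' → W ≤ P' := by
  have : Fact p.Prime := ⟨hr⟩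
  set X : Set (Subgroup L) := {R | R ≤ P ∧ IsPGroup p R ∧
    ∀ R' : Subgroup L, R' ≤ P → IsPGroup p R' → R ≤ R' → R' = R} with hX
  have hXf : ∀ f : MulAut L, am f P = P → ∀ R ∈ X, am f R ∈ X := by
    rintro f hf R ⟨h1, h2, h3⟩
    refine ⟨?_, am_isPGroup h2, fun R' hR' hR'p hle => ?_⟩
    · have := am_le (f := f) |>.2 h1
      rwa [hf] at this
    · have h4 : am f⁻¹ R' ≤ P := by
        have := am_le (f := f⁻¹) |>.2 hR'
        rwa [am_inv_eq hf] at this
      have h5 : R ≤ am f⁻¹ R' := by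
        have := am_le (f := f⁻¹) |>.2 hle
        rwa [am_inv_am] at this
      rw [← h3 _ h4 (am_isPGroup hR'p) h5, am_am_inv]
  have hUX : ∀ g : L, cj g B ≤ P → cj g U ∈ X := fun g hg =>
    ⟨(cj_le.2 h.le).trans hg, h.pgroup.map (MulAut.conj g).toMonoidHom,
      fun R' _ hR'p hle => h.eq_cjU_of_le hr hR'p hle⟩
  obtain ⟨g₀, hg₀⟩ := hP
  have hWle : ∀ R ∈ X, sInf X ≤ R := fun R hR => sInf_le hR
  have hBH : B ≤ cj g₀⁻¹ P := cj_le_iff.1 hg₀
  have hHtop : cj g₀⁻¹ P ≠ ⊤ := by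
    intro hcon
    apply hPt
    rw [eq_top_iff, ← cj_le (g := g₀⁻¹), hcon]
    exact le_top
  obtain ⟨V₀, hV₀U, hV₀ne, hV₀n⟩ := h.exists_rad hr hBH hHtop
  have hVP : cj g₀ V₀ ≤ P := (cj_le.2 (hV₀U.trans h.le)).trans hg₀
  have hVn : P ≤ normalizer (cj g₀ V₀ : Set L) := by
    intro x hx
    rw [← cj_eq_iff, ← cj_mul]
    have h1 : g₀⁻¹ * x * g₀ ∈ normalizer (V₀ : Set L) := by
      apply hV₀n
      rw [mem_cj]
      have e : g₀⁻¹⁻¹ * (g₀⁻¹ * x * g₀) * g₀⁻¹ = x := by group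
      rwa [e]
    have e : x * g₀ = g₀ * (g₀⁻¹ * x * g₀) := by group
    rw [e, cj_mul, cj_eq_iff.2 h1]
  have hVp : IsPGroup p (cj g₀ V₀ : Subgroup L) :=
    (h.pgroup.to_le hV₀U).map (MulAut.conj g₀).toMonoidHom
  have hVW : cj g₀ V₀ ≤ sInf X := by
    refine le_sInf ?_
    rintro R ⟨h1, h2, h3⟩
    have h4 := h3 (R ⊔ cj g₀ V₀) (sup_le h1 hVP)
      (h2.to_sup_of_normal_right' hVp (h1.trans hVn)) le_sup_left
    rw [← h4]
    exact le_sup_right
  have hinv : ∀ f : MulAut L, am f P = P → am f (sInf X) = sInf X := by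
    intro f hf
    refine am_eq_of_le (le_sInf fun R hR => ?_)
    have h1 := hWle _ (hXf f⁻¹ (am_inv_eq hf) R hR)
    have h2 := am_le (f := f) |>.2 h1
    rwa [am_am_inv] at h2
  refine ⟨sInf X, (hWle _ (hUX g₀ hg₀)).trans ((cj_le.2 h.le).trans hg₀), ?_, ?_, ?_, hinv, ?_⟩
  · intro hcon
    apply hV₀ne
    rw [hcon] at hVW
    rw [eq_bot_iff, ← cj_le (g := g₀)]
    exact hVW.trans bot_le
  · exact (h.pgroup.map (MulAut.conj g₀).toMonoidHom).to_le (hWle _ (hUX g₀ hg₀))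
  · intro x hx
    rw [← cj_eq_iff, ← am_conj]
    exact hinv _ (by rw [am_conj, cj_self hx])
  · rintro P' hP' ⟨g, hg⟩
    exact (hWle _ (hUX g (hg.trans hP'))).trans ((cj_le.2 h.le).trans hg)

/-- the part below a proper parabolic subgroup that is not a `p`-group -/
lemma lower_ac [Finite L] (hr : p.Prime) {H : Set (MulAut L)} {T : Subgroup L}
    (hT : T ∈ YF B H) (hTQ : T ∉ QF p H) :
    ¬ NA 𝕜 {x | x ∈ QF p H ∪ YF B H ∧ x < T} := by
  have hTp : ¬ IsPGroup p T := fun hcon => hTQ ⟨h.ne_bot_of_pb hT.1, hcon, hT.2.2⟩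
  obtain ⟨W, hWT, hWne, hWp, hWn, hWi, hWle⟩ := h.exists_Op hr hT.1 hT.2.1
  have hWinv : Inv H W := fun f hf => hWi f (hT.2.2 f hf)
  refine ac_cone (φ := fun x => x ⊔ W) (F := W) ⟨Or.inl ⟨hWne, hWp, hWinv⟩,
    lt_of_le_of_ne hWT fun hcon => hTp (by rw [← hcon]; exact hWp)⟩ ?_ (fun x _ => le_sup_right)
    (fun x _ => le_sup_left) (fun x _ y _ hxy => sup_le_sup_right hxy W)
  rintro x ⟨hx | hx, hxT⟩
  · have h1 : IsPGroup p (x ⊔ W : Subgroup L) :=
      hx.2.1.to_sup_of_normal_right' hWp (hxT.le.trans hWn)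
    refine ⟨Or.inl ⟨fun hcon => hWne ?_, h1, hx.2.2.sup hWinv⟩,
      lt_of_le_of_ne (sup_le hxT.le hWT) fun hcon => hTp (by rw [← hcon]; exact h1)⟩
    rw [eq_bot_iff, ← hcon]
    exact le_sup_right
  · have h1 : x ⊔ W = x := sup_eq_left.2 (hWle x hxT.le hx.1)
    change x ⊔ W ∈ _
    rw [h1]
    exact ⟨Or.inr hx, hxT⟩

/-- parabolic subgroups stabilized by a `p`-group containing an inner automorphism -/
lemma yf_ac [Finite L] (hr : p.Prime) {F : Subgroup (MulAut L)} (hF : IsPGroup p F) {x : L}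
    (hx : x ≠ 1) (hxF : MulAut.conj x ∈ F) {k : ℕ} (hxp : x ^ p ^ k = 1) :
    ¬ NA 𝕜 (YF B (F : Set (MulAut L))) := by
  obtain ⟨g, hg⟩ := h.exists_fix hr hF
  rw [← NA_cj g⁻¹, ← YF_conj_eq]
  set F'' := (fun f => (MulAut.conj g)⁻¹ * f * MulAut.conj g) '' (F : Set (MulAut L)) with hF''
  have hfix : ∀ f ∈ F'', am f B = B := by
    rintro _ ⟨f, hf, rfl⟩
    have h1 := am_conj_cj f g (cj g B)
    rw [hg f hf, ← cj_mul, inv_mul_cancel, cj_one] at h1
    exact h1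
  have hconj : MulAut.conj (g⁻¹ * x * g) ∈ F'' := by
    refine ⟨MulAut.conj x, hxF, ?_⟩
    simp only [map_mul, map_inv]
  have hxB : g⁻¹ * x * g ∈ B := by
    refine h.mem_of_cj_eq hr ⟨1, by rw [cj_one]⟩ ?_
    have := hfix _ hconj
    rwa [am_conj] at this
  have hxU : g⁻¹ * x * g ∈ U := by
    refine h.mem_U hr hxB (k := k) ?_
    have e1 : (g⁻¹ * x * g) ^ p ^ k = g⁻¹ * x ^ p ^ k * g := by
      have := conj_pow (i := p ^ k) (a := g⁻¹) (b := x)
      rwa [inv_inv] at this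
    rw [e1, hxp]
    group
  have hx1 : g⁻¹ * x * g ≠ 1 := by
    intro hcon
    apply hx
    have : x = g * (g⁻¹ * x * g) * g⁻¹ := by group
    rw [this, hcon]
    group
  have h0 := h.card_opp_zero hr hxU hx1 hconj
  have hno : ∀ Q, Opp B S Q → Inv F'' Q → False := by
    intro Q h1 h2
    rw [Nat.card_eq_zero] at h0
    rcases h0 with h0 | h0
    · exact h0.elim ⟨Q, h1, h2⟩
    · exact absurd (inferInstance : Finite {C | Opp B S C ∧ Inv F'' C})
        (not_finite_iff_infinite.2 h0)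
  have h1 := h.block (𝕜 := 𝕜) hr hfix
  have h2 : {Q | Q ∈ YF B F'' ∧ ¬ Opp B S Q} = YF B F'' := by
    ext Q
    exact ⟨fun hQ => hQ.1, fun hQ => ⟨hQ, fun hcon => hno Q hcon hQ.2.2⟩⟩
  rwa [h2] at h1

/-- `p`-groups containing a parabolic subgroup -/
lemma eq_of_pb_le [Finite L] (hr : p.Prime) {P Q : Subgroup L} (hP : Pb B P) (hQ : IsPGroup p Q)
    (hle : P ≤ Q) : Q = P := by
  obtain ⟨g, hg⟩ := hP
  have h1 := h.eq_cjU_of_le hr hQ (g := g) ((cj_le.2 h.le).trans (hg.trans hle))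
  refine le_antisymm ?_ hle
  rw [h1]
  exact (cj_le.2 h.le).trans hg

/-- the part above a nontrivial `p`-subgroup that is not parabolic -/
lemma upper_ac [Finite L] (hr : p.Prime) {F : Subgroup (MulAut L)} (hF : IsPGroup p F) :
    ∀ T : Subgroup L, T ∈ QF p (F : Set (MulAut L)) → T ∉ YF B (F : Set (MulAut L)) →
      ¬ NA 𝕜 {x | x ∈ QF p (F : Set (MulAut L)) ∪ YF B (F : Set (MulAut L)) ∧ T < x} := by
  intro T
  induction T using WellFoundedGT.induction with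
  | ind T ih =>
    intro hT hTY
    refine not_NA_attach_all (Set.toFinite _)
      (X := {x | x ∈ YF B (F : Set (MulAut L)) ∧ T < x}) ?_ ?_ ?_ ?_
    · exact fun x hx => ⟨Or.inr hx.1, hx.2⟩
    · rintro x ⟨hx, hTx⟩ y ⟨hy | hy, hTy⟩ hxy
      · have h1 := h.eq_of_pb_le hr hx.1 hy.2.1 hxy
        rw [h1]
        exact ⟨hx, hTx⟩
      · exact ⟨hy, hTy⟩
    · -- parabolic subgroups containing `T`
      set E' : Subgroup (MulAut L) := T.map MulAut.conj with hE'
      have hE'p : IsPGroup p E' := hT.2.1.map _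
      have hn : F ≤ normalizer (E' : Set (MulAut L)) := by
        have key : ∀ f ∈ F, ∀ φ ∈ E', f * φ * f⁻¹ ∈ E' := by
          rintro f hf _ ⟨e, he, rfl⟩
          refine ⟨f e, ?_, ?_⟩
          · have := apply_mem_am (f := f) he
            rwa [hT.2.2 f hf] at this
          · ext y
            simp only [MulAut.mul_apply, MulAut.conj_apply, map_mul, map_inv]
            rw [← MulAut.mul_apply, mul_inv_cancel, MulAut.one_apply]
        intro f hf
        rw [mem_normalizer_iff]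
        intro φ
        refine ⟨key f hf φ, fun hφ => ?_⟩
        have h1 := key f⁻¹ (inv_mem hf) _ hφ
        have e : f⁻¹ * (f * φ * f⁻¹) * f⁻¹⁻¹ = φ := by group
        rwa [e] at h1
      have hF' : IsPGroup p (F ⊔ E' : Subgroup (MulAut L)) := hF.to_sup_of_normal_right' hE'p hn
      have hset : {x | x ∈ YF B (F : Set (MulAut L)) ∧ T < x} =
          YF B ((F ⊔ E' : Subgroup (MulAut L)) : Set (MulAut L)) := by
        ext Q
        constructor
        · rintro ⟨⟨h1, h2, h3⟩, h4⟩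
          refine ⟨h1, h2, ?_⟩
          have h5 : F ⊔ E' ≤ stabA Q := by
            refine sup_le (fun f hf => h3 f hf) ?_
            rintro _ ⟨e, he, rfl⟩
            exact cj_self (h4.le he)
          exact fun f hf => h5 hf
        · rintro ⟨h1, h2, h3⟩
          have hQY : Q ∈ YF B (F : Set (MulAut L)) :=
            ⟨h1, h2, fun f hf => h3 f ((le_sup_left : F ≤ F ⊔ E') hf)⟩
          refine ⟨hQY, lt_of_le_of_ne (fun e he => ?_) fun hcon => hTY (by rw [hcon]; exact hQY)⟩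
          refine h.mem_of_cj_eq hr h1 ?_
          exact h3 (MulAut.conj e) ((le_sup_right : E' ≤ F ⊔ E') ⟨e, he, rfl⟩)
      rw [hset]
      obtain ⟨x, hx, hx1⟩ : ∃ x ∈ T, x ≠ 1 := by
        by_contra hcon
        push Not at hcon
        exact hT.1 (by rw [eq_bot_iff]; exact fun x hx => mem_bot.2 (hcon x hx))
      obtain ⟨k, hk⟩ := hT.2.1 ⟨x, hx⟩
      exact h.yf_ac hr hF' hx1 ((le_sup_right : E' ≤ F ⊔ E') ⟨x, hx, rfl⟩) (k := k)
        (by simpa using congrArg Subtype.val hk)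
    · rintro R ⟨hR, hTR⟩ hRX
      have hRY : R ∉ YF B (F : Set (MulAut L)) := fun hcon => hRX ⟨hcon, hTR⟩
      have hRQ : R ∈ QF p (F : Set (MulAut L)) := hR.resolve_right hRY
      have hset : {x | x ∈ {x | x ∈ QF p (F : Set (MulAut L)) ∪ YF B (F : Set (MulAut L)) ∧
          T < x} ∧ R < x} =
          {x | x ∈ QF p (F : Set (MulAut L)) ∪ YF B (F : Set (MulAut L)) ∧ R < x} := by
        ext x
        exact ⟨fun hx => ⟨hx.1.1, hx.2⟩, fun hx => ⟨⟨hx.1, hTR.trans hx.2⟩, hx.2⟩⟩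
      rw [hset]
      exact ih R hTR hRQ hRY

/-- vanishing above the dimension of the building -/
theorem hv_QF [Finite L] (hr : p.Prime) {F : Subgroup (MulAut L)} (hF : IsPGroup p F) {m : ℕ}
    (hm : ∀ l, st (YF B (F : Set (MulAut L))) l → l.length ≠ m + 1) :
    Hv 𝕜 (QF p (F : Set (MulAut L))) (m + 1) := by
  intro z hz hzl hzb
  have h1 : Hv 𝕜 (QF p (F : Set (MulAut L)) ∪ YF B (F : Set (MulAut L))) (m + 1) := by
    refine hv_up (Set.toFinite _) (X := YF B (F : Set (MulAut L))) Set.subset_union_right ?_ ?_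
      (hv_of_empty hm)
    · rintro x hx y (hy | hy) hxy
      · rw [h.eq_of_pb_le hr hx.1 hy.2.1 hxy]
        exact hx
      · exact hy
    · intro T hT hTY
      exact hv_of_ac (h.upper_ac hr hF T (hT.resolve_right hTY) hTY) m
  obtain ⟨c, hc, hcz⟩ := h1 z (Sp_mono (st_mono Set.subset_union_left) hz) hzl hzb
  obtain ⟨d, hd, -, hdz⟩ := push_dn (S := QF p (F : Set (MulAut L)) ∪ YF B (F : Set (MulAut L)))
    (Set.toFinite _) (X := QF p (F : Set (MulAut L))) Set.subset_union_left (by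
      rintro x hx y (hy | hy) hyx
      · exact hy
      · exact ⟨h.ne_bot_of_pb hy.1, hx.2.1.to_le hyx, hy.2.2⟩) (m := m + 1) (by
      intro T hT hTQ
      exact hv_of_ac (h.lower_ac hr (hT.resolve_left hTQ) hTQ) _) hz hzl hc hcz
  exact ⟨d, hd, hdz⟩

/-- a cycle of `H`-stable `p`-subgroups that is not a boundary -/
theorem exists_alpha [Finite L] (hr : p.Prime) {H : Set (MulAut L)} {z : Ch 𝕜 (Subgroup L)}
    (hz : z ∈ Sp 𝕜 (st (YF B H))) (hzl : len (mps B S ⊤).ncard z = z) (hzb : bd z = 0)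
    (hz0 : z ≠ 0) : ∃ a ∈ Sp 𝕜 (st (QF p H)), len (mps B S ⊤).ncard a = a ∧ bd a = 0 ∧
      ∀ c ∈ Sp 𝕜 (st (QF p ((⊥ : Subgroup (MulAut L)) : Set (MulAut L)))), bd c ≠ a := by
  obtain ⟨k, hk⟩ : ∃ k, (mps B S ⊤).ncard = k + 1 := by
    obtain ⟨s, hs⟩ := h.nonempty
    have : (mps B S ⊤).ncard ≠ 0 := by
      intro hcon
      rw [Set.ncard_eq_zero (Set.toFinite _)] at hcon
      have h1 : Par B s ∈ mps B S ⊤ := ⟨⟨s, hs, rfl⟩, le_top⟩
      rw [hcon] at h1
      exact h1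
    exact Nat.exists_eq_succ_of_ne_zero this
  rw [hk] at hzl ⊢
  obtain ⟨a, ha, e, he, hal, hae⟩ := lift_dn (S := QF p H ∪ YF B H)
    (Set.toFinite _) (X := QF p H) Set.subset_union_left (by
      rintro x hx y (hy | hy) hyx
      · exact hy
      · exact ⟨h.ne_bot_of_pb hy.1, hx.2.1.to_le hyx, hy.2.2⟩) (m := k) (by
      intro T hT hTQ
      exact hv_of_ac (h.lower_ac hr (hT.resolve_left hTQ) hTQ) _)
    (Sp_mono (st_mono Set.subset_union_right) hz) hzl (by rw [hzb]; exact Submodule.zero_mem _)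
  refine ⟨a, ha, hal, ?_, fun c hc hca => ?_⟩
  · have := hzb
    rwa [hae, map_add, bd_bd, add_zero] at this
  · have hbot : ∀ Q : Subgroup L, Inv ((⊥ : Subgroup (MulAut L)) : Set (MulAut L)) Q := by
      intro Q f hf
      have hf' : f = 1 := mem_bot.1 hf
      rw [hf', am_one]
    have hzY : z ∈ Sp 𝕜 (st (YF B ((⊥ : Subgroup (MulAut L)) : Set (MulAut L)))) :=
      Sp_mono (st_mono (fun Q (hQ : Q ∈ YF B H) =>
        (⟨hQ.1, hQ.2.1, hbot Q⟩ : Q ∈ YF B ((⊥ : Subgroup (MulAut L)) : Set (MulAut L))))) hz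
    have hce : c + e ∈ Sp 𝕜 (st (QF p ((⊥ : Subgroup (MulAut L)) : Set (MulAut L)) ∪
        YF B ((⊥ : Subgroup (MulAut L)) : Set (MulAut L)))) := by
      refine Submodule.add_mem _ (Sp_mono (st_mono Set.subset_union_left) hc)
        (Sp_mono (st_mono ?_) he)
      rintro Q (hQ | hQ)
      · exact Or.inl ⟨hQ.1, hQ.2.1, hbot Q⟩
      · exact Or.inr ⟨hQ.1, hQ.2.1, hbot Q⟩
    obtain ⟨d, hd, hdl, hdz⟩ := push_up
      (S := QF p ((⊥ : Subgroup (MulAut L)) : Set (MulAut L)) ∪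
        YF B ((⊥ : Subgroup (MulAut L)) : Set (MulAut L)))
      (Set.toFinite _) (X := YF B ((⊥ : Subgroup (MulAut L)) : Set (MulAut L)))
      Set.subset_union_right (by
        rintro x hx y (hy | hy) hxy
        · rw [h.eq_of_pb_le hr hx.1 hy.2.1 hxy]
          exact hx
        · exact hy) (m := k + 1) (by
        intro T hT hTY
        exact hv_of_ac (h.upper_ac hr (IsPGroup.of_bot) T (hT.resolve_right hTY) hTY) _)
      hzY hzl hce (by rw [map_add, hca, ← hae])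
    apply hz0
    rw [← hdz, ← hdl, len_of_ne, map_zero]
    refine Sp_mono ?_ hd
    intro l hl hcon
    have h1 := h.len_bound hr (F := ⊥) (fun x hx y hy => by
      rw [mem_bot.1 hx, mem_bot.1 hy]) (fun f hf => by rw [mem_bot.1 hf, am_one]) hl
    have h2 : Nat.card ((⊥ : Subgroup (MulAut L)) ⊓ fixD (mps B S ⊤) : Subgroup (MulAut L)) = 1 := by
      rw [bot_inf_eq, Subgroup.card_bot]
    rw [h2, Subgroup.card_bot, mul_one, one_mul, hcon, hk] at h1
    have h3 := (Nat.pow_le_pow_iff_right hr.one_lt).1 h1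
    omega

end SB

end

end Vale.Agent.P240.H195
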