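import Vale.Agent.P240.H195.TBlock

/-!
Cycles of top dimension in the poset of proper parabolic subgroups stabilized by `F`; bounds for the
length of chains.
-/

namespace Vale.Agent.P240.H195

open Subgroup Vale.Agent.P240.K Finsupp

universe u v

section
variable {𝕜 : Type v} [Field 𝕜] {α β : Type*}

lemma sn_len (x : α) (m : ℕ) (c : Ch 𝕜 α) : len (m + 1) (sn x c) = sn x (len m c) := by
  have := lin_ext_apply (f := (len (m + 1)).comp (sn (𝕜 := 𝕜) x)) (g := (sn x).comp (len m))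
    (fun l => by
      simp only [LinearMap.comp_apply, sn_single, map_smul, len_single, List.length_append,
        List.length_singleton]
      by_cases h : l.length = m
      · rw [if_pos (by omega), if_pos h, sn_single]
      · rw [if_neg (by omega), if_neg h, map_zero, smul_zero]) c
  simpa using this

lemma cons_len (x : α) (m : ℕ) (c : Ch 𝕜 α) : len (m + 1) (cons x c) = cons x (len m c) := by
  have := lin_ext_apply (f := (len (m + 1)).comp (cons (𝕜 := 𝕜) x)) (g := (cons x).comp (len m))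
    (fun l => by
      simp only [LinearMap.comp_apply, cons_single, len_single, List.length_cons]
      by_cases h : l.length = m
      · rw [if_pos (by omega), if_pos h, cons_single]
      · rw [if_neg (by omega), if_neg h, map_zero]) c
  simpa using this

lemma eq_zero_of_disj {P Q : List α → Prop} (h : ∀ l, P l → ¬ Q l) {c : Ch 𝕜 α} (h1 : c ∈ Sp 𝕜 P)
    (h2 : c ∈ Sp 𝕜 Q) : c = 0 := by
  rw [← Finsupp.support_eq_empty, Finset.eq_empty_iff_forall_notMem]
  intro l hl
  exact h l (mem_Sp.1 h1 l hl) (mem_Sp.1 h2 l hl)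

end

section
variable {𝕜 : Type v} [Field 𝕜] {L : Type u} [Group L] {B N U : Subgroup L} {S : Set L} {r : ℕ}

/-- the minimal parabolic subgroups contained in `A` -/
def mps (B : Subgroup L) (S : Set L) (A : Subgroup L) : Set (Subgroup L) :=
  {P | (∃ s ∈ S, P = Par B s) ∧ P ≤ A}

namespace SB

variable (h : SB r B N U S)
include h

lemma par_eq_of_mem {s t : L} (hs : s ∈ S) (ht : t ∈ S) (hst : t ∈ Par B s) :
    Par B t = Par B s :=
  h.par_minimal le_Par (h.par_ne ht) hs (par_le le_Par hst)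

/-- subgroups containing `B` are determined by the minimal parabolic subgroups they contain -/
lemma le_of_mps [Finite L] {H K : Subgroup L} (hH : B ≤ H) (hK : B ≤ K)
    (hle : ∀ s ∈ S, s ∈ H → s ∈ K) : H ≤ K := by
  rw [← h.toBN0.closure_eq_of h.bruhat hH, closure_le]
  rintro x (hx | hx)
  · exact hK hx
  · exact hle x hx.1 hx.2

/-- the cycle of top dimension in the interval between `B` and `A` -/
theorem sphere [Finite L] : ∀ (k : ℕ) (A : Subgroup L), (mps B S A).ncard = k + 1 → B ≤ A →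
    ∃ z ∈ Sp 𝕜 (st {Q | B < Q ∧ Q < A}), len k z = z ∧ bd z = 0 ∧ z ≠ 0 := by
  intro k
  induction k with
  | zero =>
    intro A _ _
    refine ⟨single [] 1, single_mem_Sp ⟨List.Pairwise.nil, by simp⟩ _, ?_, by simp, ?_⟩
    · rw [len_single, if_pos List.length_nil]
    · intro hcon
      have h3 := DFunLike.congr_fun hcon ([] : List (Subgroup L))
      rw [Finsupp.single_eq_same, Finsupp.zero_apply] at h3
      exact one_ne_zero h3
  | succ k ih =>
    intro A hA hBA
    have hfin : (mps B S A).Finite := Set.toFinite _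
    obtain ⟨M, hM⟩ : (mps B S A).Nonempty := by
      rw [Set.nonempty_iff_ne_empty]
      intro hcon
      rw [hcon, Set.ncard_empty] at hA
      omega
    obtain ⟨⟨s₀, hs₀, rfl⟩, hMA⟩ := hM
    set M := Par B s₀ with hMdef
    have hBM : B ≤ M := le_Par
    set J : Set L := {t | t ∈ S ∧ t ∈ A ∧ t ∉ M} with hJ
    have hJS : J ⊆ S := fun t ht => ht.1
    have hconj : ∀ {H : Subgroup L}, B ≤ H → ∀ s t : L, s⁻¹ * t ∈ B → s ∈ H → t ∈ H := by
      intro H hH s t hst hs
      have : t = s * (s⁻¹ * t) := by group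
      rw [this]
      exact mul_mem hs (hH hst)
    have hconj' : ∀ {H : Subgroup L}, B ≤ H → ∀ s t : L, s⁻¹ * t ∈ B → t ∈ H → s ∈ H := by
      intro H hH s t hst ht
      have : s = t * (s⁻¹ * t)⁻¹ := by group
      rw [this]
      exact mul_mem ht (inv_mem (hH hst))
    have hJc : ∀ s ∈ J, ∀ t ∈ S, s⁻¹ * t ∈ B → t ∈ J := fun s hs t ht hst =>
      ⟨ht, hconj hBA s t hst hs.2.1, fun hcon => hs.2.2 (hconj' hBM s t hst hcon)⟩
    set A' : Subgroup L := closure ((B : Set L) ∪ J) with hA'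
    have hBA' : B ≤ A' := fun x hx => subset_closure (Or.inl hx)
    have hJA' : ∀ t ∈ J, t ∈ A' := fun t ht => subset_closure (Or.inr ht)
    have hgen : ∀ s ∈ S, s ∈ A' → s ∈ J := fun s hs hsA =>
      h.toBN0.mem_closure_gen hJS hJc hs hsA
    have hA'A : A' ≤ A := by
      rw [hA', closure_le]
      rintro x (hx | hx)
      · exact hBA hx
      · exact hx.2.1
    have hMA' : ¬ M ≤ A' := fun hcon => (hgen s₀ hs₀ (hcon self_mem_Par)).2.2 self_mem_Par
    have hmps : mps B S A' = mps B S A \ {M} := by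
      ext P
      constructor
      · rintro ⟨⟨t, ht, rfl⟩, hP⟩
        refine ⟨⟨⟨t, ht, rfl⟩, hP.trans hA'A⟩, fun hcon => hMA' ?_⟩
        rw [Set.mem_singleton_iff] at hcon
        rw [← hcon]
        exact hP
      · rintro ⟨⟨⟨t, ht, rfl⟩, hP⟩, hPM⟩
        refine ⟨⟨t, ht, rfl⟩, par_le hBA' (hJA' t ⟨ht, hP self_mem_Par, fun hcon => hPM ?_⟩)⟩
        exact h.par_eq_of_mem hs₀ ht hcon
    have hcardA' : (mps B S A').ncard = k + 1 := by
      rw [hmps, Set.ncard_sdiff_singleton_of_mem (show M ∈ mps B S A from ⟨⟨s₀, hs₀, rfl⟩, hMA⟩),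
        hA]
      rfl
    obtain ⟨z', hz', hz'l, hz'b, hz'0⟩ := ih A' hcardA' hBA'
    have hA'B : B < A' := by
      refine lt_of_le_of_ne hBA' fun hcon => ?_
      obtain ⟨P, ⟨t, ht, rfl⟩, hP⟩ : (mps B S A').Nonempty := by
        rw [Set.nonempty_iff_ne_empty]
        intro hcon
        rw [hcon, Set.ncard_empty] at hcardA'
        omega
      rw [← hcon] at hP
      exact h.not_mem ht (hP self_mem_Par)
    have hA'lt : A' < A := lt_of_le_of_ne hA'A fun hcon => hMA' (by rw [hcon]; exact hMA)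
    have hMlt : M < A := by
      refine lt_of_le_of_ne hMA fun hcon => ?_
      obtain ⟨P, ⟨t, ht, rfl⟩, hP⟩ : (mps B S A').Nonempty := by
        rw [Set.nonempty_iff_ne_empty]
        intro hcon
        rw [hcon, Set.ncard_empty] at hcardA'
        omega
      have h1 := hgen t ht (hP self_mem_Par)
      apply h1.2.2
      rw [hcon]
      exact h1.2.1
    have hMB : B < M := lt_of_le_of_ne hBM (h.par_ne hs₀).symm
    -- `A'` is maximal
    have hmaxA : ∀ Q : Subgroup L, Q < A → A' ≤ Q → Q = A' := by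
      intro Q hQA hle
      have hBQ : B ≤ Q := hBA'.trans hle
      have hMQ : ¬ M ≤ Q := by
        intro hMQ
        refine absurd hQA (not_lt_of_ge ?_)
        refine h.le_of_mps hBA hBQ fun s hs hsA => ?_
        by_cases hsM : s ∈ M
        · exact hMQ hsM
        · exact hle (hJA' s ⟨hs, hsA, hsM⟩)
      refine le_antisymm (h.le_of_mps hBQ hBA' fun s hs hsQ => hJA' s ⟨hs, hQA.le hsQ, ?_⟩) hle
      intro hsM
      apply hMQ
      have h1 := h.par_eq_of_mem hs₀ hs hsM
      rw [hMdef, ← h1]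
      exact par_le hBQ hsQ
    have hsup : ∀ Q : Subgroup L, B ≤ Q → Q < A → Q ≠ A' → Q ⊔ M < A := by
      intro Q hBQ hQA hne
      refine lt_of_le_of_ne (sup_le hQA.le hMA) fun hcon => hne (hmaxA Q hQA ?_)
      rw [hA', closure_le]
      rintro x (hx | hx)
      · exact hBQ hx
      · have h1 : x ∈ closure ((B : Set L) ∪ {t | t ∈ S ∧ (t ∈ Q ∨ t ∈ M)}) := by
          have h2 : A ≤ closure ((B : Set L) ∪ {t | t ∈ S ∧ (t ∈ Q ∨ t ∈ M)}) := by
            rw [← hcon]
            refine sup_le ((h.toBN0.closure_eq_of h.bruhat hBQ).symm.le.trans ?_)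
              ((h.toBN0.closure_eq_of h.bruhat hBM).symm.le.trans ?_)
            · exact Subgroup.closure_mono (Set.union_subset_union_right _
                fun t ht => ⟨ht.1, Or.inl ht.2⟩)
            · exact Subgroup.closure_mono (Set.union_subset_union_right _
                fun t ht => ⟨ht.1, Or.inr ht.2⟩)
          exact h2 hx.2.1
        have h3 := h.toBN0.mem_closure_gen (J := {t | t ∈ S ∧ (t ∈ Q ∨ t ∈ M)})
          (fun t ht => ht.1) (by
            rintro s hs t ht hst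
            refine ⟨ht, ?_⟩
            rcases hs.2 with h4 | h4
            · exact Or.inl (hconj hBQ s t hst h4)
            · exact Or.inr (hconj hBM s t hst h4)) hx.1 h1
        exact h3.2.resolve_right hx.2.2
    have hac : ¬ NA 𝕜 ({Q | B < Q ∧ Q < A} \ {A'}) := by
      refine ac_cone (φ := fun Q => Q ⊔ M) (F := M) ⟨⟨hMB, hMlt⟩, ?_⟩ ?_ (fun Q _ => le_sup_right)
        (fun Q _ => le_sup_left) (fun P _ Q _ hPQ => sup_le_sup_right hPQ M)
      · intro hcon
        rw [Set.mem_singleton_iff] at hcon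
        exact hMA' hcon.le
      · rintro Q ⟨⟨h1, h2⟩, h3⟩
        refine ⟨⟨h1.trans_le le_sup_left, hsup Q h1.le h2 h3⟩, fun hcon => hMA' ?_⟩
        rw [Set.mem_singleton_iff] at hcon
        rw [← hcon]
        exact le_sup_right
    obtain ⟨w, hw, hwb⟩ := not_NA_iff.1 hac z' (Sp_mono (st_mono (by
      rintro Q ⟨h1, h2⟩
      exact ⟨⟨h1, h2.trans hA'lt⟩, fun hcon => h2.ne hcon⟩)) hz') hz'b
    refine ⟨cons A' z' - len (k + 1) w, Submodule.sub_mem _ ?_ ?_, ?_, ?_, ?_⟩
    · refine cons_mem (P := st {Q | B < Q ∧ Q < A'}) ?_ hz'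
      intro l hl
      refine ⟨List.pairwise_cons.2 ⟨fun a ha => (hl.2 a ha).2, hl.1⟩, ?_⟩
      intro a ha
      rcases List.mem_cons.1 ha with h1 | h1
      · rw [h1]
        exact ⟨hA'B, hA'lt⟩
      · exact ⟨(hl.2 a h1).1, (hl.2 a h1).2.trans hA'lt⟩
    · exact Sp_mono (st_mono fun Q hQ => hQ.1) (len_st hw)
    · rw [map_sub, len_len, cons_len, hz'l]
    · rw [map_sub, bd_cons, hz'b, map_zero, sub_zero, bd_len, hwb, hz'l, sub_self]
    · intro hcon
      rw [sub_eq_zero] at hcon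
      apply hz'0
      have h1 : cons A' z' ∈ Sp 𝕜 (fun l => A' ∈ l) :=
        cons_mem (P := fun _ => True) (fun l _ => by simp) (by simp [mem_Sp])
      have h2 : cons A' z' ∈ Sp 𝕜 (fun l => ¬ A' ∈ l) := by
        rw [hcon]
        exact Sp_mono (fun l (hl : st _ l) hAl => (hl.2 A' hAl).2 rfl) (len_st hw)
      have h3 := eq_zero_of_disj (fun l h4 h5 => h5 h4) h1 h2
      have h4 := bd_cons A' z'
      rw [h3, hz'b, map_zero, map_zero, sub_zero] at h4
      exact h4.symm

/-- the cycle of top dimension -/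
theorem top_cycle [Finite L] (hr : r.Prime) {F : Set (MulAut L)} (hF : ∀ f ∈ F, am f B = B)
    (hFP : ∀ f ∈ F, ∀ Q, B ≤ Q → am f Q = Q) {n : L} (hn : Opp B S (cj n B))
    (hnF : Inv F (cj n B)) :
    ∃ z ∈ Sp 𝕜 (st (YF B F)), len (mps B S ⊤).ncard z = z ∧ bd z = 0 ∧ z ≠ 0 := by
  obtain ⟨k, hk⟩ : ∃ k, (mps B S ⊤).ncard = k + 1 := by
    obtain ⟨s, hs⟩ := h.nonempty
    have : (mps B S ⊤).ncard ≠ 0 := by
      intro hcon
      rw [Set.ncard_eq_zero (Set.toFinite _)] at hcon
      have h1 : Par B s ∈ mps B S ⊤ := ⟨⟨s, hs, rfl⟩, le_top⟩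
      rw [hcon] at h1
      exact h1
    exact Nat.exists_eq_succ_of_ne_zero this
  obtain ⟨s, hs, hsl, hsb, hs0⟩ := h.sphere (𝕜 := 𝕜) k ⊤ hk le_top
  have hinj : Function.Injective (cj n : Subgroup L → Subgroup L) := cj_injective n
  obtain ⟨s', hs'⟩ : ∃ s', s' = mp (cj n) s := ⟨_, rfl⟩
  have hs'm : s' ∈ Sp 𝕜 (st {Q | cj n B < Q ∧ Q < ⊤}) := by
    rw [hs']
    refine mp_mem (P := st {Q | B < Q ∧ Q < ⊤}) ?_ hs
    refine fun l hl => st_map ?_ ?_ l hl
    · rintro Q ⟨h1, h2⟩
      refine ⟨lt_of_le_of_ne (cj_le.2 h1.le) fun hcon => h1.ne (cj_injective n hcon),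
        lt_of_le_of_ne le_top fun hcon => h2.ne ?_⟩
      rw [eq_top_iff, ← cj_le (g := n), hcon]
      exact le_top
    · intro P _ Q _ hPQ
      exact lt_of_le_of_ne (cj_le.2 hPQ.le) fun hcon => hPQ.ne (cj_injective n hcon)
  have hs'b : bd s' = 0 := by rw [hs', bd_mp, hsb, map_zero]
  have hs'l : len k s' = s' := by rw [hs', mp_len, hsl]
  have hs'0 : s' ≠ 0 := by
    intro hcon
    apply hs0
    refine mp_injOn (f := (cj n : Subgroup L → Subgroup L)) (S := Set.univ) hinj.injOn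
      (Sp_mono (fun l _ a _ => trivial) hs) (Submodule.zero_mem _) ?_
    rw [← hs', hcon, map_zero]
  have hfn : ∀ f ∈ F, n⁻¹ * f n ∈ B := by
    intro f hf
    rw [← h.cj_B_eq_iff hr]
    have := hnF f hf
    rw [am_cj, hF f hf] at this
    exact this.symm
  have hinv : ∀ Q : Subgroup L, cj n B ≤ Q → Inv F Q := by
    intro Q hQ f hf
    have h1 : B ≤ cj n⁻¹ Q := cj_le_iff.1 hQ
    have h2 : Q = cj n (cj n⁻¹ Q) := by rw [← cj_mul, mul_inv_cancel, cj_one]
    have e : f n = n * (n⁻¹ * f n) := by group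
    conv_lhs => rw [h2, am_cj, hFP f hf _ h1, e, cj_mul, cj_self (h1 (hfn f hf))]
    rw [← cj_mul, mul_inv_cancel, cj_one]
  have hs'Y : s' ∈ Sp 𝕜 (st {Q | Q ∈ YF B F ∧ ¬ Opp B S Q}) := by
    refine Sp_mono (st_mono ?_) hs'm
    rintro Q ⟨h1, h2⟩
    refine ⟨⟨⟨n, h1.le⟩, h2.ne, hinv Q h1.le⟩, ?_⟩
    rintro ⟨g', hg', -⟩
    rw [hg'] at h1
    exact h1.ne (eq_of_cj_le h1.le)
  obtain ⟨e, he, heb⟩ := not_NA_iff.1 (h.block (𝕜 := 𝕜) hr hF) s' hs'Y hs'b
  rw [hk]
  refine ⟨sn (cj n B) s' - len (k + 1) e, Submodule.sub_mem _ ?_ ?_, ?_, ?_, ?_⟩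
  · refine sn_mem (P := st {Q | cj n B < Q ∧ Q < ⊤}) ?_ hs'm
    intro l hl
    refine ⟨?_, ?_⟩
    · rw [List.pairwise_append]
      refine ⟨hl.1, by simp, fun a ha b hb => ?_⟩
      rw [List.mem_singleton] at hb
      rw [hb]
      exact (hl.2 a ha).1
    · intro a ha
      rcases List.mem_append.1 ha with h1 | h1
      · exact ⟨⟨n, (hl.2 a h1).1.le⟩, (hl.2 a h1).2.ne, hinv a (hl.2 a h1).1.le⟩
      · rw [List.mem_singleton] at h1
        rw [h1]
        exact ⟨⟨n, le_rfl⟩, cj_B_ne_top h.B_ne_top, hnF⟩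
  · exact Sp_mono (st_mono fun Q hQ => hQ.1) (len_st he)
  · rw [map_sub, len_len, sn_len, hs'l]
  · rw [map_sub, bd_sn, hs'b, map_zero, sub_zero, bd_len, heb, hs'l, sub_self]
  · intro hcon
    rw [sub_eq_zero] at hcon
    apply hs'0
    have h1 : sn (cj n B) s' ∈ Sp 𝕜 (fun l => cj n B ∈ l) :=
      sn_mem (P := fun _ => True) (fun l _ => by simp) (by simp [mem_Sp])
    have h2 : sn (cj n B) s' ∈ Sp 𝕜 (fun l => ¬ cj n B ∈ l) := by
      rw [hcon]
      exact Sp_mono (fun l (hl : st _ l) hAl => (hl.2 _ hAl).2 hn) (len_st he)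
    have h3 := eq_zero_of_disj (fun l h4 h5 => h5 h4) h1 h2
    have h4 := bd_sn (cj n B) s'
    rw [h3, hs'b, map_zero, map_zero, sub_zero] at h4
    exact h4.symm

end SB

end

end Vale.Agent.P240.H195
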