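import Vale.Agent.P240.H195.TMain

/-!
The homology in top dimension does not vanish.
-/

namespace Vale.Agent.P240.H195

open Subgroup Vale.Agent.P240.K Finsupp

universe u v

section
variable {𝕜 : Type v} [Field 𝕜] {L : Type u} [Group L] {B N U : Subgroup L} {S : Set L} {p : ℕ}

lemma sh_len {α : Type*} [Max α] {m n : ℕ} {x y : Ch 𝕜 α}
    (hx : x ∈ Sp 𝕜 (fun l : List α => l.length = m))
    (hy : y ∈ Sp 𝕜 (fun l : List α => l.length = n)) :
    sh x y ∈ Sp 𝕜 (fun l : List α => l.length = m + n) := by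
  have h1 : ∀ s : List α, s.length = m → sh (single s (1 : 𝕜)) y ∈
      Sp 𝕜 (fun l : List α => l.length = m + n) := by
    intro s hs
    refine map_mem _ (fun t ht => ?_) hy
    rw [sh_single]
    exact r5_shL_len _ s t (by rw [hs, ht])
  exact map_mem ((sh).flip y) (fun s hs => h1 s hs) hx

lemma len_eq_iff {α : Type*} {m : ℕ} {c : Ch 𝕜 α} (h : len m c = c) :
    c ∈ Sp 𝕜 (fun l : List α => l.length = m) := by
  rw [← h]
  exact Sp_mono (fun l hl => hl.1) (len_mem (P := fun _ => True) (by simp [mem_Sp]))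

/-- **Main theorem** -/
theorem RigidBN.top [hp : Fact p.Prime] [Finite L] (h : RigidBN p B N U S)
    (hinj : Function.Injective (MulAut.conj : L →* MulAut L)) {A : Subgroup (MulAut L)}
    (hA : innS L ≤ A) : NA 𝕜 (Ain p A) := by
  classical
  obtain ⟨n, hnN, hn⟩ := h.opp
  -- a type preserving group of maximal order
  set 𝓜 : Set (Subgroup (MulAut L)) := {F | F ≤ A ∧ IsPGroup p F ∧ EM p F ∧ F ⊓ innS L = ⊥ ∧
    F ≤ tpS B} with h𝓜
  have hbot𝓜 : (⊥ : Subgroup (MulAut L)) ∈ 𝓜 := by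
    refine ⟨bot_le, IsPGroup.of_bot, ⟨fun x hx y hy => ?_, fun x hx => ?_⟩, bot_inf_eq _, bot_le⟩
    · rw [mem_bot.1 hx, mem_bot.1 hy]
      simp [one_mem]
    · rw [mem_bot.1 hx, one_pow]
      exact one_mem _
  obtain ⟨Fm, hFm, hmax⟩ := (Set.toFinite 𝓜).exists_maximalFor (fun F : Subgroup (MulAut L) => Nat.card F) 𝓜
    ⟨⊥, hbot𝓜⟩
  have hmax' : ∀ F ∈ 𝓜, Nat.card F ≤ Nat.card Fm := by
    intro F hF
    rcases le_total (Nat.card F) (Nat.card Fm) with h1 | h1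
    · exact h1
    · exact hmax hF h1
  obtain ⟨F₀, hF₀A, hF₀p, hF₀E, hF₀I, hF₀t, hF₀c, hF₀B, hF₀C⟩ :=
    h.exists_F0 hinj hA hnN hn hFm.1 hFm.2.1 hFm.2.2.1 hFm.2.2.2.1 hFm.2.2.2.2
  obtain ⟨k, hk⟩ := hF₀p.exists_card_eq
  have hmaxk : ∀ F ∈ 𝓜, Nat.card F ≤ p ^ k := fun F hF => by
    rw [← hk, hF₀c]
    exact hmax' F hF
  have hbk : ∀ F : Subgroup (MulAut L), F ≤ A → IsPGroup p F → EM p F → F ⊓ innS L = ⊥ →
      (∀ f ∈ F, am f B = B) → (∀ f ∈ F, ∀ P ∈ mps B S ⊤, am f P = P) → Nat.card F ≤ p ^ k :=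
    fun F h1 h2 h3 h4 h5 h6 => hmaxk F ⟨h1, h2, h3, h4, fun f hf => h.tp_of_fix (h5 f hf) (h6 f hf)⟩
  -- the torus
  set T : Subgroup L := B ⊓ cj n B with hT
  have hTN : ∀ t ∈ T, t ∈ B ∧ t ∈ N := fun t ht =>
    ⟨ht.1, h.inf_opp hp.out hnN hn ht.1 ht.2⟩
  have hT' : ∀ t ∈ B, t ∈ N → t ∈ T := by
    intro t htB htN
    refine mem_inf.2 ⟨htB, ?_⟩
    rw [mem_cj]
    exact h.norm' hnN htB htN
  set T' : Subgroup (MulAut L) := T.map MulAut.conj with hT'def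
  have hT'I : T' ≤ innS L := map_conj_le T
  have hT'card : ¬ p ∣ Nat.card T' := by
    have h1 : T = B ⊓ N := by
      ext t
      exact ⟨fun ht => hTN t ht, fun ht => hT' t ht.1 ht.2⟩
    rw [hT'def, Subgroup.card_map_of_injective hinj, h1]
    exact h.coprime
  have hT'c : ∀ x ∈ T', ∀ y ∈ T', x * y = y * x := by
    rintro _ ⟨x, hx, rfl⟩ _ ⟨y, hy, rfl⟩
    rw [← map_mul, ← map_mul, h.comm x (hTN x hx).1 (hTN x hx).2 y (hTN y hy).1 (hTN y hy).2]
  have hT'sol : Group.IsSolvable T' := by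
    refine Group.isSolvable_of_comm ?_
    rintro ⟨x, hx⟩ ⟨y, hy⟩
    exact Subtype.ext (hT'c x hx y hy)
  have hTF : ∀ f ∈ F₀, ∀ t ∈ T, f t ∈ T := by
    intro f hf t ht
    have h1 : f t ∈ am f B := apply_mem_am ht.1
    have h2 : f t ∈ am f (cj n B) := apply_mem_am ht.2
    rw [hF₀B f hf] at h1
    rw [hF₀C f hf] at h2
    exact mem_inf.2 ⟨h1, h2⟩
  have hn' : ∀ x ∈ F₀, ∀ y ∈ T', x * y * x⁻¹ ∈ T' := by
    rintro f hf _ ⟨t, ht, rfl⟩
    rw [conj_aut]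
    exact ⟨f t, hTF f hf t ht, rfl⟩
  obtain ⟨hF₀comm, hF₀pow⟩ := comm_of_EM hF₀E hF₀I
  have hfaith : ∀ x ∈ F₀, (∀ y ∈ T', x * y = y * x) → x = 1 := by
    intro f hf hfT
    refine h.rigid n hnN hn f (hF₀pow f hf) (fun Q hQ => ?_) (hF₀C f hf) fun t htB htN => ?_
    · exact h.tp_fix hp.out (hF₀t hf) (hF₀B f hf) hQ
    · apply hinj
      rw [← conj_aut, hfT _ ⟨t, hT' t htB htN, rfl⟩, mul_inv_cancel_right]
  have hF₀ApB : F₀ ∈ ApB p (MulAut L) := by
    by_cases h1 : F₀ = ⊥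
    · exact Or.inl h1
    · exact Or.inr ⟨h1, hF₀comm, hF₀pow⟩
  obtain ⟨o, φ, ho⟩ := quillen_cycle (𝕜 := 𝕜) hF₀ApB hT'sol hT'card hn' hfaith
  have hφk : φ.length = k := by
    have := ho.card
    rw [hk] at this
    exact (Nat.pow_right_injective hp.out.two_le this).symm
  set H : Subgroup (MulAut L) := T' ⊔ F₀ with hH
  -- `H` stabilizes `nBn⁻¹` and all subgroups containing `B`
  have hHQ : ∀ Q, B ≤ Q → H ≤ stabA Q := by
    intro Q hQ
    refine sup_le ?_ fun f hf => h.tp_fix hp.out (hF₀t hf) (hF₀B f hf) hQ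
    rintro _ ⟨t, ht, rfl⟩
    exact cj_self (hQ ht.1)
  have hHC : H ≤ stabA (cj n B) := by
    refine sup_le ?_ fun f hf => hF₀C f hf
    rintro _ ⟨t, ht, rfl⟩
    exact cj_self ht.2
  have hlong : h.toBN0.Long n := by
    refine ⟨hnN, fun s hs hrg => ?_⟩
    obtain ⟨x, hxU, hnx, hxs⟩ := h.transit' hp.out hnN hs hrg
    apply hxs
    rw [hn x hxU hnx]
    simp
  obtain ⟨z, hz, hzl, hzb, hz0⟩ := h.top_cycle (𝕜 := 𝕜) hp.out (F := (H : Set (MulAut L)))
    (fun f hf => hHQ B le_rfl hf) (fun f hf Q hQ => hHQ Q hQ hf) (n := n)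
    ((h.opp_iff hp.out hlong).2 ⟨1, one_mem _, by rw [one_mul]⟩) (fun f hf => hHC hf)
  obtain ⟨a, ha, hal, hab, hane⟩ := h.exists_alpha (𝕜 := 𝕜) hp.out hz hzl hzb hz0
  set d := (mps B S ⊤).ncard with hd
  -- elements of `H`
  have hHA : H ≤ A := sup_le (hT'I.trans hA) hF₀A
  have hHt : H ≤ tpS B := sup_le (hT'I.trans inn_le_tpS) hF₀t
  have hHI : ∀ E ∈ Ain p H, E ⊓ innS L = ⊥ := by
    intro E hE
    rw [eq_bot_iff]
    rintro e ⟨he, heI⟩
    have h1 : e ∈ T' ⊔ F₀ := hE.2 he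
    have hnorm : F₀ ≤ normalizer (T' : Set (MulAut L)) := by
      intro f hf
      rw [mem_normalizer_iff]
      intro y
      refine ⟨hn' f hf y, fun hy => ?_⟩
      have h2 := hn' f⁻¹ (inv_mem hf) _ hy
      have e2 : f⁻¹ * (f * y * f⁻¹) * f⁻¹⁻¹ = y := by group
      rwa [e2] at h2
    obtain ⟨t, ht, f, hf, htf⟩ : ∃ t ∈ T', ∃ f ∈ F₀, t * f = e := by
      have h2 : e ∈ ((T' ⊔ F₀ : Subgroup (MulAut L)) : Set (MulAut L)) := h1
      rw [Subgroup.coe_mul_of_right_le_normalizer_left T' F₀ hnorm] at h2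
      obtain ⟨t, ht, f, hf, htf⟩ := Set.mem_mul.1 h2
      exact ⟨t, ht, f, hf, htf⟩
    have hf1 : f ∈ F₀ ⊓ innS L := by
      refine mem_inf.2 ⟨hf, ?_⟩
      have : f = t⁻¹ * e := by rw [← htf]; group
      rw [this]
      exact mul_mem (inv_mem (hT'I ht)) heI
    rw [hF₀I, mem_bot] at hf1
    rw [hf1, mul_one] at htf
    rw [mem_bot]
    exact r4_eq_one hT'card (by rw [← htf]; exact ht) (hE.1.2.2 e he)
  -- the poset of type preserving groups
  set X₀ : Set (Subgroup (MulAut L)) := {R | R ∈ XS p A ∧ R ≤ tpS B} with hX₀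
  have hEX : ∀ E ∈ Ain p H, E ∈ X₀ := by
    intro E hE
    refine ⟨⟨hE.1.1, hE.2.trans hHA, isPGroup_of_mem hE.1, fun x hx y hy => ?_, fun x hx => ?_⟩,
      hE.2.trans hHt⟩
    · have : x * y * x⁻¹ * y⁻¹ = 1 := by rw [hE.1.2.1 x hx y hy]; group
      rw [this]
      exact one_mem _
    · rw [hE.1.2.2 x hx]
      exact one_mem _
  have hsupX : ∀ Q ∈ QF p (H : Set (MulAut L)), ∀ E : Subgroup (MulAut L), E ≤ H →
      IsPGroup p E → EM p E → Q.map MulAut.conj ⊔ E ∈ X₀ := by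
    intro Q hQ E hEH hEp hEE
    refine ⟨sup_mem_XS hA (hEH.trans hHA) hEp hEE hinj
      ⟨hQ.1, hQ.2.1, fun f hf => hQ.2.2 f (hEH hf)⟩, sup_le ((map_conj_le Q).trans inn_le_tpS)
      (hEH.trans hHt)⟩
  have hQX : ∀ Q ∈ QF p (H : Set (MulAut L)), Q.map MulAut.conj ∈ X₀ := by
    intro Q hQ
    have h1 := hsupX Q hQ ⊥ bot_le IsPGroup.of_bot hbot𝓜.2.2.1
    rwa [sup_bot_eq] at h1
  -- the cycle
  obtain ⟨a', ha'⟩ : ∃ a', a' = mp (fun Q : Subgroup L => Q.map (MulAut.conj : L →* MulAut L)) a :=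
    ⟨_, rfl⟩
  set 𝓐 : Set (Subgroup (MulAut L)) :=
    (fun Q : Subgroup L => Q.map (MulAut.conj : L →* MulAut L)) '' QF p (H : Set (MulAut L))
    with h𝓐
  have hmapinj : Function.Injective (Subgroup.map (MulAut.conj : L →* MulAut L)) :=
    Subgroup.map_injective hinj
  have ha'm : a' ∈ Sp 𝕜 (st 𝓐) := by
    rw [ha']
    refine mp_mem (P := st (QF p (H : Set (MulAut L)))) ?_ ha
    exact fun l hl => st_map (T := 𝓐) (fun Q hQ => ⟨Q, hQ, rfl⟩)
      (fun P _ Q _ hPQ => lt_of_le_of_ne (Subgroup.map_mono hPQ.le)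
        fun hcon => hPQ.ne (hmapinj hcon)) l hl
  have ha'b : bd a' = 0 := by rw [ha', bd_mp, hab, map_zero]
  have ha'l : len d a' = a' := by rw [ha', mp_len, hal]
  have hom : o ∈ Sp 𝕜 (st (Ain p H)) := Sp_mono (fun l hl => hl.1) ho.mem
  have hol : o ∈ Sp 𝕜 (fun l => l.length = k) := by
    rw [← hφk]
    exact Sp_mono (fun l hl => hl.2) ho.mem
  have hsw : sh a' o ∈ Sp 𝕜 (wk X₀) := by
    refine sh_mem (A := 𝓐) (B := Ain p H) ?_ hEX ?_ (Sp_mono st_wk ha'm) (Sp_mono st_wk hom)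
    · rintro _ ⟨Q, hQ, rfl⟩
      exact hQX Q hQ
    · rintro _ ⟨Q, hQ, rfl⟩ E hE
      exact hsupX Q hQ E hE.2 (isPGroup_of_mem hE.1) (hEX E hE).1.2.2.2
  have hsb : bd (sh a' o) = 0 := by
    rw [bd_sh, ha'b, ho.cyc, map_zero, map_zero, LinearMap.zero_apply, add_zero]
  have hsl : sh a' o ∈ Sp 𝕜 (fun l => l.length = d + k) := sh_len (len_eq_iff ha'l) hol
  obtain ⟨w, hw⟩ : ∃ w, w = pi (sh a' o) := ⟨_, rfl⟩
  have hwm : w ∈ Sp 𝕜 (st X₀) := by rw [hw]; exact pi_mem hsw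
  have hwb : bd w = 0 := by rw [hw, bd_pi hsw, hsb, map_zero]
  have hwl : len (d + k) w = w := by
    rw [hw]
    exact len_of_mem (pi_mem' hsl)
  -- the functional
  set Dn : Set (Subgroup (MulAut L)) := {R | R ⊓ innS L = ⊥} with hDn
  have hEB : ∀ E ∈ Ain p H, E ∈ X₀ ∩ Dn := fun E hE => ⟨hEX E hE, hHI E hE⟩
  have hwne : ∀ c ∈ Sp 𝕜 (st X₀), bd c ≠ w := by
    obtain ⟨lW, hnW, hW, -, hlW⟩ := exists_cocycle
      (QF p ((⊥ : Subgroup (MulAut L)) : Set (MulAut L))) ⊥ a (by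
        rw [sup_bot_eq, pi_of_st ha]
        rintro ⟨c, hc, hca⟩
        exact hane c hc hca)
    obtain ⟨lD, hnD, hD, -, hlD⟩ := exists_cocycle (X₀ ∩ Dn) ⊥ o (by
        rw [sup_bot_eq, pi_of_st hom]
        rintro ⟨c, hc, hco⟩
        have h1 : len (k + 1) c = 0 := by
          refine len_of_ne (Sp_mono ?_ hc)
          intro l hl hcon
          rcases l with _ | ⟨x, l⟩
          · simp at hcon
          · have h2 := chain_card (p := p) x l ⟨hl.1, fun a ha =>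
              ⟨(hl.2 a ha).1.1.1, (hl.2 a ha).1.1.2.2.1⟩⟩
            have hx := hl.2 x (by simp)
            have h3 := hmaxk x ⟨hx.1.1.2.1, hx.1.1.2.2.1, hx.1.1.2.2.2, hx.2, hx.1.2⟩
            rw [hcon] at h2
            have h4 := (Nat.pow_le_pow_iff_right hp.out.one_lt).1 (h2.trans h3)
            omega
        have h2 : o = 0 := by
          have h3 := bd_len k c
          rw [h1, map_zero, hco, len_of_mem hol] at h3
          exact h3.symm
        apply ho.ne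
        rw [h2, Finsupp.zero_apply])
    have hcoc : Coc X₀ (phi Dn (fun R : Subgroup (MulAut L) => R.comap
        (MulAut.conj : L →* MulAut L)) lW lD) := by
      refine phi_coc (SW := QF p ((⊥ : Subgroup (MulAut L)) : Set (MulAut L))) ?_ ?_ ?_ hW hD
      · intro x _ y _ hxy hy
        change x ⊓ innS L = ⊥
        rw [eq_bot_iff]
        exact (inf_le_inf_right _ hxy).trans (le_of_eq hy)
      · intro x hx hxD
        exact comap_mem_QF (F := ⊥) hx.1 bot_le hinj hxD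
      · intro x _ _ y _ _ hxy
        exact comap_mono hxy
    have hval : phi Dn (fun R : Subgroup (MulAut L) => R.comap
        (MulAut.conj : L →* MulAut L)) lW lD (sh a' o) = lW a * lD o := by
      rw [phi_shuffle (A := 𝓐) (B := Ain p H) ?_ ?_ ?_ hnW (Sp_mono (fun l hl => hl.2) ha'm)
        (Sp_mono (fun l hl => hl.2) hom)]
      · congr 2
        rw [ha', mp_mp]
        refine mp_eq_self (P := st (QF p (H : Set (MulAut L)))) (fun l _ Q _ => ?_) ha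
        exact comap_map_eq_self_of_injective hinj Q
      · rintro _ ⟨Q, hQ, rfl⟩ hcon
        apply map_conj_ne hinj hQ.1
        have h1 : Q.map MulAut.conj ⊓ innS L = ⊥ := hcon
        rwa [inf_eq_left.2 (map_conj_le Q)] at h1
      · exact fun E hE => hHI E hE
      · rintro _ ⟨Q, hQ, rfl⟩ E hE
        refine ⟨fun hcon => ?_, ?_⟩
        · apply map_conj_ne hinj hQ.1
          have h1 : (Q.map MulAut.conj ⊔ E) ⊓ innS L = ⊥ := hcon
          rw [eq_bot_iff, ← h1]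
          exact le_inf le_sup_left (map_conj_le Q)
        · have hnE : E ≤ normalizer ((Q.map MulAut.conj : Subgroup (MulAut L)) :
              Set (MulAut L)) := hE.2.trans (le_norm_map hQ.2.2)
          change (Q.map MulAut.conj ⊔ E).comap MulAut.conj = (Q.map MulAut.conj).comap MulAut.conj
          apply le_antisymm
          · intro x hx
            rw [mem_comap] at hx ⊢
            have h2 : MulAut.conj x ∈
                ((Q.map MulAut.conj ⊔ E : Subgroup (MulAut L)) : Set (MulAut L)) := hx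
            rw [Subgroup.coe_mul_of_right_le_normalizer_left _ E hnE] at h2
            obtain ⟨q, hq, e, he, hqe⟩ := Set.mem_mul.1 h2
            have he1 : e ∈ E ⊓ innS L := by
              refine mem_inf.2 ⟨he, ?_⟩
              have h3 : e = q⁻¹ * MulAut.conj x := by rw [← hqe]; group
              rw [h3]
              exact mul_mem (inv_mem (map_conj_le Q hq)) ⟨x, rfl⟩
            rw [hHI E hE, mem_bot] at he1
            rw [he1, mul_one] at hqe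
            rw [← hqe]
            exact hq
          · exact comap_mono le_sup_left
    intro c hc hcw
    refine not_bd_of_functional (X := X₀) _ ?_ hcoc hsw (by rw [hval]; exact mul_ne_zero hlW hlD)
      c hc (by rw [hcw, hw])
    intro l hl hns
    rw [phi_single]
    exact PhiL_nrm (S := X₀) hnW hnD l hl hns []
  -- groups with a nontrivial type preserving part
  have hwne2 : ∀ c ∈ Sp 𝕜 (st {R | R ∈ XS p A ∧ R ⊓ tpS B ≠ ⊥}), bd c ≠ w := by
    intro c hc hcw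
    have h1 : ∀ R ∈ {R | R ∈ XS p A ∧ R ⊓ tpS B ≠ ⊥}, R ⊓ tpS B ∈ X₀ := by
      rintro R ⟨hR, hRt⟩
      exact ⟨XS_down hR inf_le_left hRt, inf_le_right⟩
    obtain ⟨d', hd', hdw⟩ := push_retr (R := X₀) (ρ := fun R => R ⊓ tpS B) h1
      (fun R _ R' _ hle => inf_le_inf_right _ hle) (fun R hR => inf_eq_left.2 hR.2) hwm hc hcw
    exact hwne d' hd' hdw
  refine NA_of_XS ⟨w, Sp_mono (st_mono fun R hR => hR.1) hwm, hwb, fun c hc hcw => ?_⟩
  have hX₀2 : X₀ ⊆ {R | R ∈ XS p A ∧ R ⊓ tpS B ≠ ⊥} := by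
    rintro R hR
    refine ⟨hR.1, fun hcon => hR.1.1 ?_⟩
    rwa [inf_eq_left.2 hR.2] at hcon
  have hup : ∀ x ∈ {R | R ∈ XS p A ∧ R ⊓ tpS B ≠ ⊥}, ∀ y ∈ XS p A, x ≤ y →
      y ∈ {R | R ∈ XS p A ∧ R ⊓ tpS B ≠ ⊥} := by
    rintro R ⟨_, h2⟩ R' hR' hle
    refine ⟨hR', fun hcon => h2 ?_⟩
    rw [eq_bot_iff, ← hcon]
    exact inf_le_inf_right _ hle
  have hlk : ∀ T ∈ XS p A, T ∉ {R | R ∈ XS p A ∧ R ⊓ tpS B ≠ ⊥} →
      Hv 𝕜 {x | x ∈ XS p A ∧ T < x} (d + k) := by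
    intro T₁ hT₁ hT₁X
    have h1 : T₁ ⊓ tpS B = ⊥ := by
      by_contra hcon
      exact hT₁X ⟨hT₁, hcon⟩
    have h2 : T₁ ⊓ innS L = ⊥ := by
      rw [eq_bot_iff, ← h1]
      exact inf_le_inf_left _ inn_le_tpS
    refine h.link_vanish hinj hA hbk T₁ hT₁.2.1 hT₁.2.2.1 hT₁.2.2.2 h2 (d + k) ?_
    have h3 := card_pow_of_lt (F := ⊥) hT₁.2.2.1 (bot_lt_iff_ne_bot.2 hT₁.1)
    rw [Subgroup.card_bot, mul_one] at h3
    have h4 : 0 < p ^ (d + k) := pow_pos hp.out.pos _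
    have h5 := hp.out.two_le
    calc p ^ (d + k) < p ^ (d + k) * 2 := by omega
      _ ≤ p ^ (d + k) * Nat.card T₁ := Nat.mul_le_mul_left _ (h5.trans h3)
  obtain ⟨c', hc', -, hc'w⟩ := push_up (S := XS p A) (Set.toFinite _)
    (X := {R | R ∈ XS p A ∧ R ⊓ tpS B ≠ ⊥}) (fun R hR => hR.1) hup hlk
    (Sp_mono (st_mono hX₀2) hwm) hwl hc hcw
  exact hwne2 c' hc' hc'w

end

end Vale.Agent.P240.H195
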